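import Mathlib

open MeasureTheory Filter Topology Set
open scoped Real

namespace Vale.Agent.Lib.P232

/-- `C¹` functions of two variables with given partial derivatives, equal at opposite faces. -/
structure Smooth2 (v vx vy : ℝ → ℝ → ℝ) : Prop where
  cont : Continuous fun p : ℝ × ℝ => v p.1 p.2
  contx : Continuous fun p : ℝ × ℝ => vx p.1 p.2
  conty : Continuous fun p : ℝ × ℝ => vy p.1 p.2
  dx : ∀ x y, HasDerivAt (fun s => v s y) (vx x y) x
  dy : ∀ x y, HasDerivAt (fun s => v x s) (vy x y) y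
  perx : ∀ y, v 0 y = v 1 y
  pery : ∀ x, v x 0 = v x 1

/-- `C¹` functions of three variables with given partial derivatives, equal at opposite faces. -/
structure Smooth3 (u ux uy uz : ℝ → ℝ → ℝ → ℝ) : Prop where
  cont : Continuous fun p : ℝ × ℝ × ℝ => u p.1 p.2.1 p.2.2
  contx : Continuous fun p : ℝ × ℝ × ℝ => ux p.1 p.2.1 p.2.2
  conty : Continuous fun p : ℝ × ℝ × ℝ => uy p.1 p.2.1 p.2.2
  contz : Continuous fun p : ℝ × ℝ × ℝ => uz p.1 p.2.1 p.2.2
  dx : ∀ x y z, HasDerivAt (fun s => u s y z) (ux x y z) x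
  dy : ∀ x y z, HasDerivAt (fun s => u x s z) (uy x y z) y
  dz : ∀ x y z, HasDerivAt (fun s => u x y s) (uz x y z) z
  perx : ∀ y z, u 0 y z = u 1 y z
  pery : ∀ x z, u x 0 z = u x 1 z
  perz : ∀ x y, u x y 0 = u x y 1

/-- Admissible calibration pairs. -/
structure CalibPair (A B : ℝ → ℝ) : Prop where
  contA : Continuous A
  contB : Continuous B
  nonnegA : ∀ s, 0 ≤ A s
  nonnegB : ∀ s, 0 ≤ B s
  le_one : ∀ s, A s ^ 2 + B s ^ 2 ≤ 1

/-- The isoperimetric profile of the square two-torus. -/
noncomputable def I2 (s : ℝ) : ℝ := min (2 * √(π * s)) (min 2 (2 * √(π * (1 - s))))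

/-- The lower bound for slices in the two-torus without full lines. -/
noncomputable def Ju (s : ℝ) : ℝ := min (2 * √(π * s)) (2 * √2)

/-- The indicator of the value one: used to measure full lines. -/
noncomputable def fullInd (c : ℝ) : ℝ := if c = 1 then 1 else 0

/-- The indicator of the open unit interval: used for nontrivial lines. -/
noncomputable def chi (c : ℝ) : ℝ := if 0 < c ∧ c < 1 then 1 else 0

/-- Area of a planar cell function. -/
noncomputable def area (F : ℝ → ℝ → ℝ) : ℝ := ∫ x in (0 : ℝ)..1, ∫ y in (0 : ℝ)..1, F x y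

/-- Measure of parameters `x` such that the vertical line at `x` is full. -/
noncomputable def lineY (F : ℝ → ℝ → ℝ) : ℝ :=
  ∫ x in (0 : ℝ)..1, fullInd (∫ y in (0 : ℝ)..1, F x y)

/-- Measure of parameters `y` such that the horizontal line at `y` is full. -/
noncomputable def lineX (F : ℝ → ℝ → ℝ) : ℝ :=
  ∫ y in (0 : ℝ)..1, fullInd (∫ x in (0 : ℝ)..1, F x y)

/-- The one-dimensional data of a calibration inequality: all pairs and dominated affine lines. -/
def PairBound (J : ℝ → ℝ) (a b V L : ℝ) : Prop :=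
  ∀ A B : ℝ → ℝ, CalibPair A B → ∀ k m : ℝ, (∀ s ∈ Icc a b, k * s + m ≤ A s * J s) →
    k * V + m + 2 * ∫ s in a..b, B s ≤ L

/-- The perimeter value of a ball of a given volume. -/
noncomputable def ballVal (V : ℝ) : ℝ := (36 * π) ^ (1 / 3 : ℝ) * V ^ (2 / 3 : ℝ)

/-- The perimeter value of a solid tube of a given volume. -/
noncomputable def tubeVal (V : ℝ) : ℝ := 2 * √(π * V)

/-- The value of the chord bound for parameters `p = √a`, `q = √b`. -/
noncomputable def chordVal (p q V : ℝ) : ℝ :=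
  2 * √π / (p + q) * V + 2 * √π * p * q / (p + q) + 4 / 3 * (q - p) ^ 2

end Vale.Agent.Lib.P232
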