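import Vale.Agent.Lib.P232.Basic

open MeasureTheory Filter Topology Set
open scoped Real

namespace Vale.Agent.Lib.P232

/-- Variation on an interval. -/
lemma abs_sub_le_integral_abs {w w' : ℝ → ℝ} (hd : ∀ t, HasDerivAt w (w' t) t) (hc : Continuous w')
    {a b : ℝ} (hab : a ≤ b) : |w b - w a| ≤ ∫ t in a..b, |w' t| := by
  have h1 : ∫ t in a..b, w' t = w b - w a :=
    intervalIntegral.integral_eq_sub_of_hasDerivAt (fun t _ => hd t) (hc.intervalIntegrable a b)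
  rw [← h1]
  exact intervalIntegral.abs_integral_le_integral_abs hab

/-- Variation on the circle. -/
theorem var_ge {w w' : ℝ → ℝ} (hd : ∀ t, HasDerivAt w (w' t) t) (hc : Continuous w')
    (hper : w 0 = w 1) {y₀ y₁ : ℝ} (h0 : y₀ ∈ Icc (0 : ℝ) 1) (h1 : y₁ ∈ Icc (0 : ℝ) 1) :
    2 * |w y₁ - w y₀| ≤ ∫ t in (0 : ℝ)..1, |w' t| := by
  have hi : ∀ a b : ℝ, IntervalIntegrable (fun t => |w' t|) volume a b :=
    fun a b => hc.abs.intervalIntegrable a b
  wlog hle : y₀ ≤ y₁ generalizing y₀ y₁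
  · have := this h1 h0 (le_of_not_ge hle)
    rwa [abs_sub_comm] at this
  have e1 : ∫ t in (0 : ℝ)..1, |w' t| =
      (∫ t in (0 : ℝ)..y₀, |w' t|) + (∫ t in y₀..y₁, |w' t|) + ∫ t in y₁..1, |w' t| := by
    rw [intervalIntegral.integral_add_adjacent_intervals (hi _ _) (hi _ _),
      intervalIntegral.integral_add_adjacent_intervals (hi _ _) (hi _ _)]
  have e2 := abs_sub_le_integral_abs hd hc h0.1
  have e3 := abs_sub_le_integral_abs hd hc hle
  have e4 := abs_sub_le_integral_abs hd hc h1.2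
  have e5 : |w y₁ - w y₀| ≤ |w y₀ - w 0| + |w 1 - w y₁| := by
    have : w y₁ - w y₀ = -((w y₀ - w 0) + (w 1 - w y₁)) := by rw [hper]; ring
    rw [this, abs_neg]
    exact abs_add_le _ _
  rw [e1]
  linarith

/-- Line lemma: if `f` is a nontrivial 0/1 function, then the limit of the variations is at
least two. -/
theorem line_cost {v v' : ℕ → ℝ → ℝ} (hd : ∀ k t, HasDerivAt (v k) (v' k t) t)
    (hc : ∀ k, Continuous (v' k)) (hper : ∀ k, v k 0 = v k 1)
    {f : ℝ → ℝ} (h01 : ∀ t, f t = 0 ∨ f t = 1)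
    (hconv : ∀ᵐ t, Tendsto (fun k => v k t) atTop (𝓝 (f t)))
    (hpos : 0 < ∫ t in (0 : ℝ)..1, f t) (hlt : (∫ t in (0 : ℝ)..1, f t) < 1)
    {c : ℝ} (hfreq : ∃ᶠ k in atTop, ∫ t in (0 : ℝ)..1, |v' k t| ≤ c) : 2 ≤ c := by
  have hle : (0 : ℝ) ≤ 1 := zero_le_one
  -- a point of convergence where `f = 1`
  have key1 : ∃ y ∈ Ioc (0 : ℝ) 1, f y = 1 ∧ Tendsto (fun k => v k y) atTop (𝓝 (f y)) := by
    by_contra hcon
    push Not at hcon
    have : ∀ᵐ t ∂(volume.restrict (Ioc (0 : ℝ) 1)), f t = 0 := by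
      rw [ae_restrict_iff' measurableSet_Ioc]
      filter_upwards [hconv] with t ht hmem
      rcases h01 t with h | h
      · exact h
      · exact absurd ht (hcon t hmem h)
    have h2 : ∫ t in (0 : ℝ)..1, f t = 0 := by
      rw [intervalIntegral.integral_of_le hle, integral_congr_ae this]
      simp
    linarith
  have key0 : ∃ y ∈ Ioc (0 : ℝ) 1, f y = 0 ∧ Tendsto (fun k => v k y) atTop (𝓝 (f y)) := by
    by_contra hcon
    push Not at hcon
    have : ∀ᵐ t ∂(volume.restrict (Ioc (0 : ℝ) 1)), f t = 1 := by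
      rw [ae_restrict_iff' measurableSet_Ioc]
      filter_upwards [hconv] with t ht hmem
      rcases h01 t with h | h
      · exact absurd ht (hcon t hmem h)
      · exact h
    have h2 : ∫ t in (0 : ℝ)..1, f t = 1 := by
      rw [intervalIntegral.integral_of_le hle, integral_congr_ae this]
      simp
    linarith
  obtain ⟨y₁, hy₁, hf1, ht1⟩ := key1
  obtain ⟨y₀, hy₀, hf0, ht0⟩ := key0
  have hlim : Tendsto (fun k => 2 * |v k y₁ - v k y₀|) atTop (𝓝 (2 * |f y₁ - f y₀|)) :=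
    ((ht1.sub ht0).abs).const_mul 2
  have hval : 2 * |f y₁ - f y₀| = 2 := by rw [hf1, hf0]; norm_num
  rw [hval] at hlim
  by_contra hlt2
  push Not at hlt2
  have hev := hlim.eventually (lt_mem_nhds hlt2)
  obtain ⟨k, hk1, hk2⟩ := (hfreq.and_eventually hev).exists
  have := var_ge (hd k) (hc k) (hper k) ⟨hy₀.1.le, hy₀.2⟩ ⟨hy₁.1.le, hy₁.2⟩
  linarith

/-- The primitive of the second component of a calibration pair. -/
noncomputable def primB (B : ℝ → ℝ) (s : ℝ) : ℝ := ∫ r in (0 : ℝ)..s, B r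

lemma primB_hasDerivAt {B : ℝ → ℝ} (hB : Continuous B) (s : ℝ) :
    HasDerivAt (primB B) (B s) s :=
  intervalIntegral.integral_hasDerivAt_right (hB.intervalIntegrable _ _)
    (hB.stronglyMeasurableAtFilter _ _) hB.continuousAt

lemma primB_continuous {B : ℝ → ℝ} (hB : Continuous B) : Continuous (primB B) :=
  continuous_iff_continuousAt.2 fun s => (primB_hasDerivAt hB s).continuousAt

lemma primB_sub {B : ℝ → ℝ} (hB : Continuous B) (a b : ℝ) :
    primB B b - primB B a = ∫ r in a..b, B r :=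
  intervalIntegral.integral_interval_sub_left (hB.intervalIntegrable _ _)
    (hB.intervalIntegrable _ _)

/-- One step of the calibration at fixed index. -/
lemma calib_step {A B : ℝ → ℝ} (hp : CalibPair A B) {g g' W : ℝ → ℝ}
    (hg : ∀ t, HasDerivAt g (g' t) t) (hg' : Continuous g') (hper : g 0 = g 1)
    (hW : Continuous W) {x₀ x₁ : ℝ} (hx0 : x₀ ∈ Icc (0 : ℝ) 1) (hx1 : x₁ ∈ Icc (0 : ℝ) 1) :
    (∫ t in (0 : ℝ)..1, A (g t) * W t) + 2 * |primB B (g x₁) - primB B (g x₀)| ≤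
      ∫ t in (0 : ℝ)..1, (A (g t) * W t + B (g t) * |g' t|) := by
  have hgc : Continuous g := continuous_iff_continuousAt.2 fun t => (hg t).continuousAt
  have hc1 : Continuous fun t => A (g t) * W t := (hp.contA.comp hgc).mul hW
  have hc2 : Continuous fun t => B (g t) * |g' t| := (hp.contB.comp hgc).mul hg'.abs
  rw [intervalIntegral.integral_add (hc1.intervalIntegrable _ _) (hc2.intervalIntegrable _ _)]
  have hd : ∀ t, HasDerivAt (fun t => primB B (g t)) (B (g t) * g' t) t := fun t =>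
    (primB_hasDerivAt hp.contB (g t)).comp t (hg t)
  have hv := var_ge hd ((hp.contB.comp hgc).mul hg') (by simp only [hper]) hx0 hx1
  have : ∀ t, |B (g t) * g' t| = B (g t) * |g' t| := fun t => by
    rw [abs_mul, abs_of_nonneg (hp.nonnegB _)]
  simp only [this] at hv
  linarith

/-- The pointwise liminf inequality needed in Fatou's lemma. -/
lemma pointwise_liminf {A : ℝ → ℝ} (hA : Continuous A) (hA0 : ∀ s, 0 ≤ A s)
    {g W : ℕ → ℝ} {G Y : ℝ} (hW0 : ∀ k, 0 ≤ W k)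
    (hconv : Tendsto g atTop (𝓝 G)) (hY0 : 0 ≤ Y)
    (hYW : ∀ c, (∃ᶠ k in atTop, W k ≤ c) → Y ≤ c) :
    ENNReal.ofReal (A G * Y) ≤
      liminf (fun k => ENNReal.ofReal (A (g k) * W k)) atTop := by
  refine le_of_forall_lt_imp_le_of_dense fun c hc => ?_
  have hcne : c ≠ ⊤ := ne_top_of_lt hc
  have hc' : c.toReal < A G * Y := by
    rw [← ENNReal.ofReal_toReal hcne] at hc
    exact (ENNReal.ofReal_lt_ofReal_iff_of_nonneg ENNReal.toReal_nonneg).1 hc
  have hc0 : 0 ≤ c.toReal := ENNReal.toReal_nonneg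
  have hpos : 0 < A G * Y := lt_of_le_of_lt hc0 hc'
  have hYpos : 0 < Y := by
    rcases hY0.lt_or_eq with h | h
    · exact h
    · rw [← h] at hpos; simp at hpos
  have hApos : 0 < A G := by
    rcases (hA0 G).lt_or_eq with h | h
    · exact h
    · rw [← h] at hpos; simp at hpos
  -- choose an intermediate value
  obtain ⟨A₁, hA1, hA2⟩ : ∃ A₁, c.toReal / Y < A₁ ∧ A₁ < A G :=
    exists_between ((div_lt_iff₀ hYpos).2 hc')
  have hA₁pos : 0 < A₁ := lt_of_le_of_lt (div_nonneg hc0 hYpos.le) hA1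
  have hev1 : ∀ᶠ k in atTop, A₁ < A (g k) :=
    (hA.continuousAt.tendsto.comp hconv).eventually (lt_mem_nhds hA2)
  have hlt : c.toReal / A₁ < Y := by
    rw [div_lt_iff₀ hYpos] at hA1
    rw [div_lt_iff₀ hA₁pos]
    linarith
  have hev2 : ∀ᶠ k in atTop, c.toReal / A₁ < W k := by
    by_contra hcon
    rw [not_eventually] at hcon
    have : ∃ᶠ k in atTop, W k ≤ c.toReal / A₁ := hcon.mono fun k hk => not_lt.1 hk
    have := hYW _ this
    linarith
  have hev3 : ∀ᶠ k in atTop, c ≤ ENNReal.ofReal (A (g k) * W k) := by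
    filter_upwards [hev1, hev2] with k h1 h2
    rw [← ENNReal.ofReal_toReal hcne]
    apply ENNReal.ofReal_le_ofReal
    have h3 : c.toReal ≤ A₁ * W k := by
      rw [div_lt_iff₀ hA₁pos] at h2
      linarith
    have h4 : A₁ * W k ≤ A (g k) * W k :=
      mul_le_mul_of_nonneg_right h1.le (hW0 k)
    linarith
  exact le_liminf_of_le (by isBoundedDefault) hev3

/-- The outer calibration, with two points. -/
theorem outer_calib {A B : ℝ → ℝ} (hp : CalibPair A B)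
    {g g' W : ℕ → ℝ → ℝ} (hg : ∀ k t, HasDerivAt (g k) (g' k t) t)
    (hg' : ∀ k, Continuous (g' k)) (hper : ∀ k, g k 0 = g k 1)
    (hW : ∀ k, Continuous (W k)) (hW0 : ∀ k t, 0 ≤ W k t)
    {Λ : ℝ} (hΛ : ∀ k, ∫ t in (0 : ℝ)..1, (A (g k t) * W k t + B (g k t) * |g' k t|) ≤ Λ)
    {G Y : ℝ → ℝ} (hG : Measurable G) (hY : Measurable Y) (hY0 : ∀ t, 0 ≤ Y t)
    {C : ℝ} (hYb : ∀ t, Y t ≤ C)
    (hconv : ∀ᵐ t, Tendsto (fun k => g k t) atTop (𝓝 (G t)))
    (hYW : ∀ᵐ t, ∀ c, (∃ᶠ k in atTop, W k t ≤ c) → Y t ≤ c)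
    {x₀ x₁ : ℝ} (hx0 : x₀ ∈ Icc (0 : ℝ) 1) (hx1 : x₁ ∈ Icc (0 : ℝ) 1)
    (ht0 : Tendsto (fun k => g k x₀) atTop (𝓝 (G x₀)))
    (ht1 : Tendsto (fun k => g k x₁) atTop (𝓝 (G x₁))) :
    (∫ t in (0 : ℝ)..1, A (G t) * Y t) + 2 * |primB B (G x₁) - primB B (G x₀)| ≤ Λ := by
  have hle : (0 : ℝ) ≤ 1 := zero_le_one
  set μ : Measure ℝ := volume.restrict (Ioc (0 : ℝ) 1) with hμ
  have hgc : ∀ k, Continuous (g k) := fun k =>
    continuous_iff_continuousAt.2 fun t => (hg k t).continuousAt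
  have hcontk : ∀ k, Continuous fun t => A (g k t) * W k t := fun k =>
    (hp.contA.comp (hgc k)).mul (hW k)
  -- the constants
  set cs : ℕ → ℝ := fun k => 2 * |primB B (g k x₁) - primB B (g k x₀)| with hcs
  set c : ℝ := 2 * |primB B (G x₁) - primB B (G x₀)| with hc
  have hcslim : Tendsto cs atTop (𝓝 c) := by
    have hPc := primB_continuous hp.contB
    exact (((hPc.continuousAt.tendsto.comp ht1).sub
      (hPc.continuousAt.tendsto.comp ht0)).abs).const_mul 2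
  have hstep : ∀ k, (∫ t in (0 : ℝ)..1, A (g k t) * W k t) + cs k ≤ Λ := fun k =>
    (calib_step hp (hg k) (hg' k) (hper k) (hW k) hx0 hx1).trans (hΛ k)
  have hnn : ∀ k, 0 ≤ ∫ t in (0 : ℝ)..1, A (g k t) * W k t := fun k =>
    intervalIntegral.integral_nonneg hle fun t _ => mul_nonneg (hp.nonnegA _) (hW0 k t)
  have hbound : ∀ k, ∫⁻ t, ENNReal.ofReal (A (g k t) * W k t) ∂μ ≤ ENNReal.ofReal (Λ - cs k) := by
    intro k
    have hint : Integrable (fun t => A (g k t) * W k t) μ :=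
      ((hcontk k).integrableOn_Icc (a := 0) (b := 1) |>.mono_set Ioc_subset_Icc_self)
    rw [← ofReal_integral_eq_lintegral_ofReal hint
      (Eventually.of_forall fun t => mul_nonneg (hp.nonnegA _) (hW0 k t))]
    apply ENNReal.ofReal_le_ofReal
    have := hstep k
    rw [intervalIntegral.integral_of_le hle] at this
    linarith
  -- Fatou
  have hfatou : ∫⁻ t, ENNReal.ofReal (A (G t) * Y t) ∂μ ≤ ENNReal.ofReal (Λ - c) := by
    calc ∫⁻ t, ENNReal.ofReal (A (G t) * Y t) ∂μ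
        ≤ ∫⁻ t, liminf (fun k => ENNReal.ofReal (A (g k t) * W k t)) atTop ∂μ := by
          apply lintegral_mono_ae
          apply ae_restrict_of_ae
          filter_upwards [hconv, hYW] with t h1 h2
          exact pointwise_liminf hp.contA hp.nonnegA (fun k => hW0 k t) h1 (hY0 t) h2
      _ ≤ liminf (fun k => ∫⁻ t, ENNReal.ofReal (A (g k t) * W k t) ∂μ) atTop :=
          lintegral_liminf_le fun k => ((hcontk k).measurable).ennreal_ofReal
      _ ≤ liminf (fun k => ENNReal.ofReal (Λ - cs k)) atTop :=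
          liminf_le_liminf (Eventually.of_forall hbound)
      _ = ENNReal.ofReal (Λ - c) :=
          (ENNReal.continuous_ofReal.continuousAt.tendsto.comp
            (tendsto_const_nhds.sub hcslim)).liminf_eq
  -- conversion
  have hLim0 : 0 ≤ Λ - c := by
    have h1 : Tendsto (fun k => Λ - cs k) atTop (𝓝 (Λ - c)) := tendsto_const_nhds.sub hcslim
    refine ge_of_tendsto' h1 fun k => ?_
    have := hstep k
    have := hnn k
    linarith
  have hmeasAY : Measurable fun t => A (G t) * Y t :=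
    (hp.contA.measurable.comp hG).mul hY
  have hintAY : Integrable (fun t => A (G t) * Y t) μ := by
    refine Integrable.of_bound (C := |C|) hmeasAY.aestronglyMeasurable ?_
    refine Eventually.of_forall fun t => ?_
    have hA1 : A (G t) ≤ 1 := by
      have := hp.le_one (G t)
      nlinarith [sq_nonneg (B (G t)), hp.nonnegA (G t)]
    rw [Real.norm_eq_abs, abs_of_nonneg (mul_nonneg (hp.nonnegA _) (hY0 t))]
    calc A (G t) * Y t ≤ 1 * Y t := mul_le_mul_of_nonneg_right hA1 (hY0 t)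
      _ = Y t := one_mul _
      _ ≤ C := hYb t
      _ ≤ |C| := le_abs_self C
  have hfinal : ∫ t, A (G t) * Y t ∂μ ≤ Λ - c := by
    have h3 : ENNReal.ofReal (∫ t, A (G t) * Y t ∂μ) ≤ ENNReal.ofReal (Λ - c) := by
      rw [ofReal_integral_eq_lintegral_ofReal hintAY
        (Eventually.of_forall fun t => mul_nonneg (hp.nonnegA _) (hY0 t))]
      exact hfatou
    exact (ENNReal.ofReal_le_ofReal_iff hLim0).1 h3
  rw [intervalIntegral.integral_of_le hle]
  linarith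

/-- The range of a limit profile: the infimum and supremum on a set of full measure where
convergence holds. -/
structure GoodRange (g : ℕ → ℝ → ℝ) (G : ℝ → ℝ) (a b : ℝ) : Prop where
  nonneg : 0 ≤ a
  le : a ≤ b
  le_one : b ≤ 1
  ae_mem : ∀ᵐ t ∂(volume.restrict (Ioc (0 : ℝ) 1)), G t ∈ Icc a b
  low : ∀ ε > 0, ∃ x ∈ Ioc (0 : ℝ) 1, Tendsto (fun k => g k x) atTop (𝓝 (G x)) ∧ G x ∈ Ico a (a + ε)
  high : ∀ ε > 0, ∃ x ∈ Ioc (0 : ℝ) 1, Tendsto (fun k => g k x) atTop (𝓝 (G x)) ∧ G x ∈ Ioc (b - ε) b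

theorem exists_goodRange {g : ℕ → ℝ → ℝ} {G : ℝ → ℝ} (h0 : ∀ t, 0 ≤ G t) (h1 : ∀ t, G t ≤ 1)
    (hconv : ∀ᵐ t, Tendsto (fun k => g k t) atTop (𝓝 (G t))) :
    ∃ a b, GoodRange g G a b := by
  set S : Set ℝ := {t | t ∈ Ioc (0 : ℝ) 1 ∧ Tendsto (fun k => g k t) atTop (𝓝 (G t))} with hS
  have hae : ∀ᵐ t ∂(volume.restrict (Ioc (0 : ℝ) 1)), t ∈ S := by
    rw [ae_restrict_iff' measurableSet_Ioc]
    filter_upwards [hconv] with t ht hm using ⟨hm, ht⟩
  have hne : S.Nonempty := by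
    by_contra hcon
    rw [not_nonempty_iff_eq_empty] at hcon
    have : (volume.restrict (Ioc (0 : ℝ) 1)) (Set.univ : Set ℝ) = 0 := by
      have h2 : ∀ᵐ t ∂(volume.restrict (Ioc (0 : ℝ) 1)), False := by
        filter_upwards [hae] with t ht
        rw [hcon] at ht
        exact ht
      exact ae_iff.1 h2 ▸ by simp
    simp at this
  have hbdd1 : BddBelow (G '' S) := ⟨0, by rintro _ ⟨t, -, rfl⟩; exact h0 t⟩
  have hbdd2 : BddAbove (G '' S) := ⟨1, by rintro _ ⟨t, -, rfl⟩; exact h1 t⟩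
  have hne' : (G '' S).Nonempty := hne.image G
  refine ⟨sInf (G '' S), sSup (G '' S), ?_⟩
  refine ⟨le_csInf hne' ?_, (csInf_le_csSup hne' hbdd1 hbdd2), csSup_le hne' ?_, ?_, ?_, ?_⟩
  · rintro _ ⟨t, -, rfl⟩; exact h0 t
  · rintro _ ⟨t, -, rfl⟩; exact h1 t
  · filter_upwards [hae] with t ht
    exact ⟨csInf_le hbdd1 ⟨t, ht, rfl⟩, le_csSup hbdd2 ⟨t, ht, rfl⟩⟩
  · intro ε hε
    obtain ⟨_, ⟨x, hx, rfl⟩, hlt⟩ := exists_lt_of_csInf_lt hne' (lt_add_of_pos_right _ hε)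
    exact ⟨x, hx.1, hx.2, csInf_le hbdd1 ⟨x, hx, rfl⟩, hlt⟩
  · intro ε hε
    obtain ⟨_, ⟨x, hx, rfl⟩, hlt⟩ := exists_lt_of_lt_csSup hne' (sub_lt_self _ hε)
    exact ⟨x, hx.1, hx.2, hlt, le_csSup hbdd2 ⟨x, hx, rfl⟩⟩

/-- A version of the previous lemma keeping an extra property of almost all points. -/
theorem exists_goodRange_Q {g : ℕ → ℝ → ℝ} {G : ℝ → ℝ} (h0 : ∀ t, 0 ≤ G t) (h1 : ∀ t, G t ≤ 1)
    (hconv : ∀ᵐ t, Tendsto (fun k => g k t) atTop (𝓝 (G t))) {Q : ℝ → Prop}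
    (hQ : ∀ᵐ t ∂(volume.restrict (Ioc (0 : ℝ) 1)), Q t) :
    ∃ a b, GoodRange g G a b ∧ ∀ ε > 0, ∃ x, Q x ∧ G x < a + ε := by
  set S : Set ℝ := {t | (t ∈ Ioc (0 : ℝ) 1 ∧ Tendsto (fun k => g k t) atTop (𝓝 (G t))) ∧ Q t}
    with hS
  have hae : ∀ᵐ t ∂(volume.restrict (Ioc (0 : ℝ) 1)), t ∈ S := by
    have h2 : ∀ᵐ t ∂(volume.restrict (Ioc (0 : ℝ) 1)),
        t ∈ Ioc (0 : ℝ) 1 ∧ Tendsto (fun k => g k t) atTop (𝓝 (G t)) := by
      rw [ae_restrict_iff' measurableSet_Ioc]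
      filter_upwards [hconv] with t ht hm using ⟨hm, ht⟩
    filter_upwards [h2, hQ] with t h3 h4 using ⟨h3, h4⟩
  have hne : S.Nonempty := by
    by_contra hcon
    rw [not_nonempty_iff_eq_empty] at hcon
    have : (volume.restrict (Ioc (0 : ℝ) 1)) (Set.univ : Set ℝ) = 0 := by
      have h2 : ∀ᵐ t ∂(volume.restrict (Ioc (0 : ℝ) 1)), False := by
        filter_upwards [hae] with t ht
        rw [hcon] at ht
        exact ht
      exact ae_iff.1 h2 ▸ by simp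
    simp at this
  have hbdd1 : BddBelow (G '' S) := ⟨0, by rintro _ ⟨t, -, rfl⟩; exact h0 t⟩
  have hbdd2 : BddAbove (G '' S) := ⟨1, by rintro _ ⟨t, -, rfl⟩; exact h1 t⟩
  have hne' : (G '' S).Nonempty := hne.image G
  refine ⟨sInf (G '' S), sSup (G '' S), ?_, ?_⟩
  · refine ⟨le_csInf hne' ?_, (csInf_le_csSup hne' hbdd1 hbdd2), csSup_le hne' ?_, ?_, ?_, ?_⟩
    · rintro _ ⟨t, -, rfl⟩; exact h0 t
    · rintro _ ⟨t, -, rfl⟩; exact h1 t
    · filter_upwards [hae] with t ht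
      exact ⟨csInf_le hbdd1 ⟨t, ht, rfl⟩, le_csSup hbdd2 ⟨t, ht, rfl⟩⟩
    · intro ε hε
      obtain ⟨_, ⟨x, hx, rfl⟩, hlt⟩ := exists_lt_of_csInf_lt hne' (lt_add_of_pos_right _ hε)
      exact ⟨x, hx.1.1, hx.1.2, csInf_le hbdd1 ⟨x, hx, rfl⟩, hlt⟩
    · intro ε hε
      obtain ⟨_, ⟨x, hx, rfl⟩, hlt⟩ := exists_lt_of_lt_csSup hne' (sub_lt_self _ hε)
      exact ⟨x, hx.1.1, hx.1.2, hlt, le_csSup hbdd2 ⟨x, hx, rfl⟩⟩
  · intro ε hε
    obtain ⟨_, ⟨x, hx, rfl⟩, hlt⟩ := exists_lt_of_csInf_lt hne' (lt_add_of_pos_right _ hε)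
    exact ⟨x, hx.2, hlt⟩

/-- The outer calibration in terms of the range of the limit profile. -/
theorem outer_range {A B : ℝ → ℝ} (hp : CalibPair A B)
    {g g' W : ℕ → ℝ → ℝ} (hg : ∀ k t, HasDerivAt (g k) (g' k t) t)
    (hg' : ∀ k, Continuous (g' k)) (hper : ∀ k, g k 0 = g k 1)
    (hW : ∀ k, Continuous (W k)) (hW0 : ∀ k t, 0 ≤ W k t)
    {Λ : ℝ} (hΛ : ∀ k, ∫ t in (0 : ℝ)..1, (A (g k t) * W k t + B (g k t) * |g' k t|) ≤ Λ)
    {G Y : ℝ → ℝ} (hG : Measurable G) (hY : Measurable Y) (hY0 : ∀ t, 0 ≤ Y t)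
    {C : ℝ} (hYb : ∀ t, Y t ≤ C)
    (hconv : ∀ᵐ t, Tendsto (fun k => g k t) atTop (𝓝 (G t)))
    (hYW : ∀ᵐ t, ∀ c, (∃ᶠ k in atTop, W k t ≤ c) → Y t ≤ c)
    {a b : ℝ} (hr : GoodRange g G a b) :
    (∫ t in (0 : ℝ)..1, A (G t) * Y t) + 2 * ∫ s in a..b, B s ≤ Λ := by
  have hB1 : ∀ s, B s ≤ 1 := fun s => by
    have := hp.le_one s
    nlinarith [sq_nonneg (A s), hp.nonnegB s]
  refine le_of_forall_pos_le_add fun ε hε => ?_
  obtain ⟨x₀, hx0, ht0, hG0⟩ := hr.low (ε / 4) (by positivity)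
  obtain ⟨x₁, hx1, ht1, hG1⟩ := hr.high (ε / 4) (by positivity)
  have hmain := outer_calib hp hg hg' hper hW hW0 hΛ hG hY hY0 hYb hconv hYW
    ⟨hx0.1.le, hx0.2⟩ ⟨hx1.1.le, hx1.2⟩ ht0 ht1
  -- comparing the integrals
  have hi : ∀ u v : ℝ, IntervalIntegrable B volume u v := fun u v => hp.contB.intervalIntegrable u v
  have hsmall : ∀ u v : ℝ, u ≤ v → v - u ≤ ε / 4 → ∫ s in u..v, B s ≤ ε / 4 := by
    intro u v huv hlt
    have : ∫ s in u..v, B s ≤ ∫ s in u..v, (1 : ℝ) :=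
      intervalIntegral.integral_mono_on huv (hi _ _) (by simp) fun s _ => hB1 s
    simp at this
    linarith
  have e1 := hsmall a (G x₀) hG0.1 (by linarith [hG0.2])
  have e2 := hsmall (G x₁) b hG1.2 (by linarith [hG1.1])
  have e3 : primB B (G x₁) - primB B (G x₀) = ∫ s in (G x₀)..(G x₁), B s := primB_sub hp.contB _ _
  have e4 : ∫ s in a..b, B s =
      (∫ s in a..(G x₀), B s) + (∫ s in (G x₀)..(G x₁), B s) + ∫ s in (G x₁)..b, B s := by
    rw [intervalIntegral.integral_add_adjacent_intervals (hi _ _) (hi _ _),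
      intervalIntegral.integral_add_adjacent_intervals (hi _ _) (hi _ _)]
  have e5 : (∫ s in (G x₀)..(G x₁), B s) ≤ |primB B (G x₁) - primB B (G x₀)| := by
    rw [e3]; exact le_abs_self _
  linarith

end Vale.Agent.Lib.P232
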