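import Vale.Agent.Lib.P232.Basic

open MeasureTheory Filter Topology Set
open scoped Real

namespace Vale.Agent.Lib.P232

namespace CertImpl

/-! Real analysis core. -/

/-- A trapezoid with slopes of width `d` on the interval `[u,v]`. -/
noncomputable def trap (u v d s : ℝ) : ℝ := max 0 (min 1 (min ((s - u) / d) ((v - s) / d)))

lemma trap_cont (u v d : ℝ) : Continuous (trap u v d) := by
  unfold trap
  exact continuous_const.max (continuous_const.min
    (((continuous_id.sub continuous_const).div_const d).min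
      ((continuous_const.sub continuous_id).div_const d)))

lemma trap_nonneg (u v d s : ℝ) : 0 ≤ trap u v d s := le_max_left _ _

lemma trap_le_one (u v d s : ℝ) : trap u v d s ≤ 1 :=
  max_le zero_le_one (min_le_left _ _)

lemma trap_zero_left {u v d s : ℝ} (hd : 0 < d) (hs : s ≤ u) : trap u v d s = 0 := by
  unfold trap
  apply max_eq_left
  have h : (s - u) / d ≤ 0 := div_nonpos_of_nonpos_of_nonneg (by linarith) hd.le
  exact (min_le_right _ _).trans ((min_le_left _ _).trans h)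

lemma trap_zero_right {u v d s : ℝ} (hd : 0 < d) (hs : v ≤ s) : trap u v d s = 0 := by
  unfold trap
  apply max_eq_left
  have h : (v - s) / d ≤ 0 := div_nonpos_of_nonpos_of_nonneg (by linarith) hd.le
  exact (min_le_right _ _).trans ((min_le_right _ _).trans h)

lemma trap_eq_one {u v d s : ℝ} (hd : 0 < d) (h1 : u + d ≤ s) (h2 : s ≤ v - d) :
    trap u v d s = 1 := by
  unfold trap
  have h3 : 1 ≤ (s - u) / d := by rw [le_div_iff₀ hd]; linarith
  have h4 : 1 ≤ (v - s) / d := by rw [le_div_iff₀ hd]; linarith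
  rw [min_eq_left (le_min h3 h4)]
  exact max_eq_right zero_le_one

/-- The calibration function: trapezoids over the nodes `u + j h`. -/
noncomputable def stepB (N : ℕ) (u h d : ℝ) (r : ℕ → ℝ) (s : ℝ) : ℝ :=
  ∑ j ∈ Finset.range N, r j * trap (u + j * h) (u + (j + 1) * h) d s

lemma stepB_cont (N : ℕ) (u h d : ℝ) (r : ℕ → ℝ) : Continuous (stepB N u h d r) := by
  unfold stepB
  exact continuous_finsetSum _ fun j _ => continuous_const.mul (trap_cont _ _ _)

lemma stepB_nonneg {N : ℕ} {u h d : ℝ} {r : ℕ → ℝ} (hr : ∀ j < N, 0 ≤ r j) (s : ℝ) :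
    0 ≤ stepB N u h d r s := by
  unfold stepB
  exact Finset.sum_nonneg fun j hj => mul_nonneg (hr j (Finset.mem_range.1 hj)) (trap_nonneg _ _ _ _)

lemma stepB_cases {N : ℕ} {u h d : ℝ} {r : ℕ → ℝ} (hd : 0 < d) (hh : 0 ≤ h) (s : ℝ) :
    (∃ j < N, s ∈ Icc (u + j * h) (u + (j + 1) * h) ∧
      stepB N u h d r s = r j * trap (u + j * h) (u + (j + 1) * h) d s) ∨
      stepB N u h d r s = 0 := by
  by_cases hex : ∃ j < N, s ∈ Icc (u + j * h) (u + (j + 1) * h)
  · obtain ⟨j, hj, hs⟩ := hex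
    refine Or.inl ⟨j, hj, hs, ?_⟩
    unfold stepB
    apply Finset.sum_eq_single j
    · intro i _ hij
      rcases lt_or_gt_of_ne hij with hlt | hgt
      · have : (i : ℝ) + 1 ≤ j := by exact_mod_cast hlt
        have h1 : u + ((i : ℝ) + 1) * h ≤ s :=
          le_trans (by nlinarith) hs.1
        rw [trap_zero_right hd h1, mul_zero]
      · have : (j : ℝ) + 1 ≤ i := by exact_mod_cast hgt
        have h1 : s ≤ u + (i : ℝ) * h :=
          le_trans hs.2 (by nlinarith)
        rw [trap_zero_left hd h1, mul_zero]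
    · intro hj'
      exact absurd (Finset.mem_range.2 hj) hj'
  · refine Or.inr ?_
    unfold stepB
    apply Finset.sum_eq_zero
    intro j hj
    have hj' := Finset.mem_range.1 hj
    have hns : s ∉ Icc (u + j * h) (u + (j + 1) * h) := fun hs => hex ⟨j, hj', hs⟩
    rw [mem_Icc, not_and_or, not_le, not_le] at hns
    rcases hns with h1 | h1
    · rw [trap_zero_left hd h1.le, mul_zero]
    · rw [trap_zero_right hd h1.le, mul_zero]

lemma int_trap_ge {a b x y d : ℝ} (hd : 0 < d) (hax : a ≤ x + d) (hxy : x + d ≤ y - d)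
    (hyb : y - d ≤ b) : y - x - 2 * d ≤ ∫ s in a..b, trap x y d s := by
  have h1 : ∫ s in (x + d)..(y - d), trap x y d s = y - x - 2 * d := by
    have h2 : ∫ s in (x + d)..(y - d), trap x y d s = ∫ s in (x + d)..(y - d), (1 : ℝ) := by
      apply intervalIntegral.integral_congr
      intro s hs
      rw [uIcc_of_le hxy] at hs
      exact trap_eq_one hd hs.1 hs.2
    rw [h2, intervalIntegral.integral_const, smul_eq_mul, mul_one]
    ring
  rw [← h1]
  apply intervalIntegral.integral_mono_interval hax hxy hyb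
  · exact Filter.Eventually.of_forall fun s => trap_nonneg x y d s
  · exact (trap_cont x y d).intervalIntegrable _ _

lemma int_stepB_ge {N : ℕ} {u h d a b : ℝ} {r : ℕ → ℝ} (hd : 0 < d) (h2 : 2 * d ≤ h)
    (hr : ∀ j < N, 0 ≤ r j) (hau : a ≤ u) (hub : u + N * h ≤ b) :
    ∑ j ∈ Finset.range N, r j * (h - 2 * d) ≤ ∫ s in a..b, stepB N u h d r s := by
  have hh : 0 ≤ h := by linarith
  unfold stepB
  rw [intervalIntegral.integral_finsetSum]
  · apply Finset.sum_le_sum
    intro j hj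
    have hj' := Finset.mem_range.1 hj
    rw [intervalIntegral.integral_const_mul]
    apply mul_le_mul_of_nonneg_left _ (hr j hj')
    have hjN : (j : ℝ) + 1 ≤ N := by exact_mod_cast hj'
    have hj0 : (0 : ℝ) ≤ j := Nat.cast_nonneg j
    have := int_trap_ge (a := a) (b := b) (x := u + j * h) (y := u + (j + 1) * h) hd
      (by nlinarith) (by nlinarith) (by nlinarith)
    calc h - 2 * d = u + (j + 1) * h - (u + j * h) - 2 * d := by ring
      _ ≤ _ := this
  · intro j _
    exact (continuous_const.mul (trap_cont _ _ _)).intervalIntegrable _ _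

/-- The calibration core: a step function `B`, its companion `A`. -/
theorem core {a b V Per k m d h u : ℝ} {N : ℕ} {r : ℕ → ℝ}
    (hPB : PairBound I2 a b V Per) (hd : 0 < d) (h2 : 2 * d ≤ h)
    (hr : ∀ j < N, 0 ≤ r j ∧ r j ≤ 1) (hau : a ≤ u) (hub : u + N * h ≤ b)
    (hchord : ∀ s ∈ Icc a b, k * s + m ≤ I2 s)
    (hstep : ∀ j < N, ∀ s ∈ Icc (u + j * h) (u + (j + 1) * h),
      k * s + m ≤ √(1 - (r j) ^ 2) * I2 s)
    {T : ℝ} (hfin : T ≤ k * V + m + 2 * ∑ j ∈ Finset.range N, r j * (h - 2 * d)) :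
    T ≤ Per := by
  have hh : 0 ≤ h := by linarith
  set B := stepB N u h d r with hB
  have hB0 : ∀ s, 0 ≤ B s := stepB_nonneg fun j hj => (hr j hj).1
  have hB1 : ∀ s, B s ≤ 1 := by
    intro s
    rcases stepB_cases (N := N) (u := u) (r := r) hd hh s with ⟨j, hj, -, hs⟩ | hs
    · rw [hB, hs]
      calc r j * _ ≤ r j * 1 := mul_le_mul_of_nonneg_left (trap_le_one _ _ _ _) (hr j hj).1
        _ ≤ 1 := by rw [mul_one]; exact (hr j hj).2
    · rw [hB, hs]; exact zero_le_one
  have hBsq : ∀ s, 0 ≤ 1 - B s ^ 2 := by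
    intro s
    have := hB0 s; have := hB1 s
    nlinarith
  have hcalib : CalibPair (fun s => √(1 - B s ^ 2)) B := by
    refine ⟨?_, stepB_cont _ _ _ _ _, fun s => Real.sqrt_nonneg _, hB0, ?_⟩
    · exact Real.continuous_sqrt.comp (continuous_const.sub ((stepB_cont _ _ _ _ _).pow 2))
    · intro s
      show √(1 - B s ^ 2) ^ 2 + B s ^ 2 ≤ 1
      rw [Real.sq_sqrt (hBsq s)]
      linarith
  have hline : ∀ s ∈ Icc a b, k * s + m ≤ √(1 - B s ^ 2) * I2 s := by
    intro s hs
    rcases stepB_cases (N := N) (u := u) (h := h) (r := r) hd hh s with ⟨j, hj, hsj, hBs⟩ | hBs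
    · have h3 := hstep j hj s hsj
      have hle : B s ≤ r j := by
        rw [hB, hBs]
        calc r j * _ ≤ r j * 1 := mul_le_mul_of_nonneg_left (trap_le_one _ _ _ _) (hr j hj).1
          _ = r j := mul_one _
      have h4 : √(1 - r j ^ 2) ≤ √(1 - B s ^ 2) := by
        apply Real.sqrt_le_sqrt
        have := hB0 s
        have := (hr j hj).1
        nlinarith
      have hI : 0 ≤ I2 s := by
        unfold I2
        exact le_min (by positivity) (le_min (by norm_num) (by positivity))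
      exact h3.trans (mul_le_mul_of_nonneg_right h4 hI)
    · have : B s = 0 := by rw [hB, hBs]
      rw [this]
      simpa using hchord s hs
  have hmain := hPB _ _ hcalib k m hline
  have hint := int_stepB_ge (N := N) (u := u) (h := h) (d := d) (a := a) (b := b) (r := r)
    hd h2 (fun j hj => (hr j hj).1) hau hub
  have : ∑ j ∈ Finset.range N, r j * (h - 2 * d) ≤ ∫ s in a..b, B s := hint
  linarith

/-! The ball value. -/

lemma ball_cubic {k V : ℝ} (hk : 0 < k) (hV : 0 ≤ V) :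
    ballVal V ≤ k * V + (16 * π / 3) / k ^ 2 := by
  unfold ballVal
  set c := (36 * π) ^ (1 / 3 : ℝ) with hc
  set x := V ^ (1 / 3 : ℝ) with hx
  have hc0 : 0 ≤ c := Real.rpow_nonneg (by positivity) _
  have hx0 : 0 ≤ x := Real.rpow_nonneg hV _
  have hc3 : c ^ 3 = 36 * π := by
    rw [hc, ← Real.rpow_natCast, ← Real.rpow_mul (by positivity)]
    norm_num
  have hx3 : x ^ 3 = V := by
    rw [hx, ← Real.rpow_natCast, ← Real.rpow_mul hV]
    norm_num
  have hx2 : V ^ (2 / 3 : ℝ) = x ^ 2 := by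
    rw [hx, ← Real.rpow_natCast, ← Real.rpow_mul hV]
    norm_num
  rw [hx2]
  have hk2 : 0 < k ^ 2 := by positivity
  have hcub : 0 ≤ (3 * k * x - 2 * c) ^ 2 * (3 * k * x + c) := by positivity
  have hexp : (3 * k * x - 2 * c) ^ 2 * (3 * k * x + c)
      = 27 * k ^ 3 * x ^ 3 - 27 * c * k ^ 2 * x ^ 2 + 4 * c ^ 3 := by ring
  rw [hexp, hc3, hx3] at hcub
  have key : c * x ^ 2 * k ^ 2 ≤ (k * V + (16 * π / 3) / k ^ 2) * k ^ 2 := by
    have : (k * V + (16 * π / 3) / k ^ 2) * k ^ 2 = k ^ 3 * V + 16 * π / 3 := by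
      field_simp
    rw [this]
    nlinarith
  exact le_of_mul_le_mul_right key hk2

lemma ball_tangent {k V : ℝ} (hk : k ≤ 6) (h0 : 0 ≤ V) (hV : V ≤ 4 * π / 81) :
    ballVal V ≤ k * V + (4 * π / 81) * (9 - k) := by
  have h1 := ball_cubic (k := 6) (by norm_num) h0
  have h2 : (6 - k) * (4 * π / 81 - V) ≥ 0 :=
    mul_nonneg (by linarith) (by linarith)
  have h3 : (16 * π / 3) / (6 : ℝ) ^ 2 = 4 * π / 27 := by ring
  rw [h3] at h1
  nlinarith

/-! The profile of the two-torus. -/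

lemma I2_nonneg (s : ℝ) : 0 ≤ I2 s := by
  unfold I2
  exact le_min (by positivity) (le_min (by norm_num) (by positivity))

lemma two_mul_sqrt (y : ℝ) : 2 * √y = √(4 * y) := by
  rw [Real.sqrt_mul (by norm_num)]
  congr 1
  rw [show (4 : ℝ) = 2 ^ 2 by norm_num, Real.sqrt_sq (by norm_num)]

lemma sqrt_le_I2 {L s : ℝ} (h1 : L ≤ 4 * (π * s)) (h2 : L ≤ 4) (h3 : L ≤ 4 * (π * (1 - s))) :
    √L ≤ I2 s := by
  unfold I2
  refine le_min ?_ (le_min ?_ ?_)
  · rw [two_mul_sqrt]; exact Real.sqrt_le_sqrt h1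
  · calc √L ≤ √4 := Real.sqrt_le_sqrt h2
      _ = 2 := by rw [show (4 : ℝ) = 2 ^ 2 by norm_num, Real.sqrt_sq (by norm_num)]
  · rw [two_mul_sqrt]; exact Real.sqrt_le_sqrt h3

lemma sqrt_conc {x y a b : ℝ} (hx : 0 ≤ x) (hy : 0 ≤ y) (ha : 0 ≤ a) (hb : 0 ≤ b)
    (hab : a + b = 1) : a * √x + b * √y ≤ √(a * x + b * y) := by
  have := Real.strictConcaveOn_sqrt.concaveOn.2 (mem_Ici.2 hx) (mem_Ici.2 hy) ha hb hab
  simpa [smul_eq_mul] using this

lemma I2_concave {x y a b : ℝ} (hx0 : 0 ≤ x) (hx1 : x ≤ 1) (hy0 : 0 ≤ y) (hy1 : y ≤ 1)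
    (ha : 0 ≤ a) (hb : 0 ≤ b) (hab : a + b = 1) :
    a * I2 x + b * I2 y ≤ I2 (a * x + b * y) := by
  have hpi := Real.pi_pos
  conv_rhs => unfold I2
  refine le_min ?_ (le_min ?_ ?_)
  · have h1 : I2 x ≤ 2 * √(π * x) := min_le_left _ _
    have h2 : I2 y ≤ 2 * √(π * y) := min_le_left _ _
    have h3 := sqrt_conc (x := π * x) (y := π * y) (by positivity) (by positivity) ha hb hab
    have h4 : a * (π * x) + b * (π * y) = π * (a * x + b * y) := by ring
    rw [h4] at h3
    nlinarith [mul_le_mul_of_nonneg_left h1 ha, mul_le_mul_of_nonneg_left h2 hb]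
  · have h1 : I2 x ≤ 2 := (min_le_right _ _).trans (min_le_left _ _)
    have h2 : I2 y ≤ 2 := (min_le_right _ _).trans (min_le_left _ _)
    nlinarith [mul_le_mul_of_nonneg_left h1 ha, mul_le_mul_of_nonneg_left h2 hb]
  · have h1 : I2 x ≤ 2 * √(π * (1 - x)) := (min_le_right _ _).trans (min_le_right _ _)
    have h2 : I2 y ≤ 2 * √(π * (1 - y)) := (min_le_right _ _).trans (min_le_right _ _)
    have h3 := sqrt_conc (x := π * (1 - x)) (y := π * (1 - y))
      (mul_nonneg hpi.le (by linarith)) (mul_nonneg hpi.le (by linarith)) ha hb hab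
    have h4 : a * (π * (1 - x)) + b * (π * (1 - y)) = π * (1 - (a * x + b * y)) := by
      have : a = 1 - b := by linarith
      rw [this]; ring
    rw [h4] at h3
    nlinarith [mul_le_mul_of_nonneg_left h1 ha, mul_le_mul_of_nonneg_left h2 hb]

/-- An affine function below the profile at two points stays below it in between. -/
lemma affine_le_I2 {k m x y s : ℝ} (hx0 : 0 ≤ x) (hxy : x ≤ y) (hy1 : y ≤ 1)
    (hs : s ∈ Icc x y) (h1 : k * x + m ≤ I2 x) (h2 : k * y + m ≤ I2 y) :
    k * s + m ≤ I2 s := by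
  rcases eq_or_lt_of_le hxy with h | hlt
  · have : s = x := le_antisymm (h ▸ hs.2) hs.1
    rwa [this]
  · have hd : 0 < y - x := by linarith
    set t := (s - x) / (y - x) with ht
    have ht0 : 0 ≤ t := div_nonneg (by linarith [hs.1]) hd.le
    have ht1 : t ≤ 1 := by
      rw [ht, div_le_one hd]; linarith [hs.2]
    have hs' : (1 - t) * x + t * y = s := by
      rw [ht]; field_simp; ring
    have hc := I2_concave hx0 (by linarith) (by linarith) hy1 (sub_nonneg.2 ht1) ht0 (by ring)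
    rw [hs'] at hc
    have h3 : (1 - t) * (k * x + m) + t * (k * y + m) ≤ (1 - t) * I2 x + t * I2 y :=
      add_le_add (mul_le_mul_of_nonneg_left h1 (sub_nonneg.2 ht1))
        (mul_le_mul_of_nonneg_left h2 ht0)
    have h4 : (1 - t) * (k * x + m) + t * (k * y + m) = k * ((1 - t) * x + t * y) + m := by ring
    rw [h4, hs'] at h3
    linarith

/-! The integer checker. No property of the approximate square roots is used. -/

def sqrtLoop : ℕ → ℕ → ℕ → ℕ
  | 0, _, x => x
  | f + 1, n, x =>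
    if x = 0 then 0 else
    let y := (x + n / x) / 2
    if y < x then sqrtLoop f n y else x

/-- An integer approximation of a square root. -/
def isq (n : ℤ) : ℤ :=
  (sqrtLoop 64 n.toNat (2 ^ (Nat.log2 n.toNat / 2 + 1)) : ℕ)

/-- Scale of the fixed point representation. -/
def Ds : ℤ := 1000000
def Pl : ℤ := 314159
def P0 : ℤ := 100000
def Ph : ℤ := 31416
def Q0 : ℤ := 10000

/-- Lower bound of the square of the profile at a scaled point, with denominator `P0 * Ds`. -/
def inI (S : ℤ) : ℤ := min (4 * Pl * S) (min (4 * P0 * Ds) (4 * Pl * (Ds - S)))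

/-- The value of the line at a scaled point, with denominator `Ds ^ 2`. -/
def lnF (K M S : ℤ) : ℤ := K * S + M * Ds

def rVal (K M u v : ℤ) : ℤ :=
  let I := min (inI u) (inI v)
  let L := max (lnF K M u) (lnF K M v)
  if L ≤ 0 then Ds - 1 else
  if I ≤ 0 then 0 else
  let x := L * L * P0 / (I * Ds) + 1
  if x ≤ Ds * Ds then isq (Ds * Ds - x) else 0

def leS (L I : ℤ) : Bool := decide (L ≤ 0) || decide (L * L * P0 ≤ I * (Ds * Ds * Ds))

def leR (L I R : ℤ) : Bool := decide (L ≤ 0) || decide (L * L * P0 ≤ (Ds * Ds - R * R) * I * Ds)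

def stepOK (K M u v : ℤ) : Bool :=
  let R := rVal K M u v
  decide (0 ≤ R) && decide (R ≤ Ds) && decide (0 ≤ min (inI u) (inI v)) &&
    leR (lnF K M u) (min (inI u) (inI v)) R && leR (lnF K M v) (min (inI u) (inI v)) R

def nodeS (u H : ℤ) (j : ℕ) : ℤ := u + (j : ℤ) * H

def allSteps (K M u H : ℤ) : ℕ → Bool
  | 0 => true
  | j + 1 => stepOK K M (nodeS u H j) (nodeS u H (j + 1)) && allSteps K M u H j

def sumSteps (K M u H : ℤ) : ℕ → ℤ
  | 0 => 0
  | j + 1 => rVal K M (nodeS u H j) (nodeS u H (j + 1)) + sumSteps K M u H j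

def finalOK (K LHS : ℤ) : Bool :=
  if 6 * Ds ≤ K then decide (16 * Ph * (Ds * Ds * Ds * Ds) ≤ LHS * (3 * Q0) * (K * K))
  else decide (4 * Ph * (9 * Ds - K) * Ds ≤ LHS * (81 * Q0))

def nSteps : ℕ := 100

def leafK (alo bhi : ℤ) : ℤ :=
  (isq (Ds * inI bhi / P0) - isq (Ds * inI alo / P0)) * Ds / (bhi - alo)

def leafM (alo bhi : ℤ) : ℤ :=
  isq (Ds * inI alo / P0) + (- leafK alo bhi * alo) / Ds - 2

def leafData (fin : ℤ → ℤ → Bool) (K M H alo ahi blo bhi : ℤ) : Bool :=
  decide (0 ≤ alo) && decide (alo ≤ ahi) && decide (ahi ≤ blo) && decide (blo ≤ bhi) &&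
    decide (bhi ≤ Ds) && decide (3 ≤ H) && decide (ahi + (nSteps : ℤ) * H ≤ blo) &&
    decide (0 ≤ inI alo) && decide (0 ≤ inI bhi) &&
    leS (lnF K M alo) (inI alo) && leS (lnF K M bhi) (inI bhi) &&
    allSteps K M ahi H nSteps &&
    fin K (M * Ds + 2 * ((H - 2) * sumSteps K M ahi H nSteps))

def leaf (fin : ℤ → ℤ → Bool) (alo ahi blo bhi : ℤ) : Bool :=
  leafData fin (leafK alo bhi) (leafM alo bhi) ((blo - ahi) / (nSteps : ℤ)) alo ahi blo bhi

def verify (fin : ℤ → ℤ → Bool) : ℕ → ℤ → ℤ → ℤ → ℤ → Bool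
  | 0, alo, ahi, blo, bhi => leaf fin alo ahi blo bhi
  | f + 1, alo, ahi, blo, bhi =>
    leaf fin alo ahi blo bhi ||
      (if (ahi - alo) * 100000 > (bhi - blo) * max alo 5000 then
        verify fin f alo ((alo + ahi) / 2) blo bhi && verify fin f ((alo + ahi) / 2) ahi blo bhi
      else
        verify fin f alo ahi blo ((blo + bhi) / 2) && verify fin f alo ahi ((blo + bhi) / 2) bhi)

/-! Soundness of the checker. -/

/-- Scaling by `Ds`. -/
noncomputable def sc (S : ℤ) : ℝ := (S : ℝ) / 1000000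

/-- The value `I / (P0 * Ds)` is below the squares of the three branches of the profile. -/
lemma sqrt_inI_le {S : ℤ} (h0 : 0 ≤ S) (h1 : S ≤ Ds) :
    √((inI S : ℝ) / 100000000000) ≤ I2 (sc S) := by
  have hpi : (3.14159 : ℝ) < π := by linarith [Real.pi_gt_d6]
  have hS0 : (0 : ℝ) ≤ S := by exact_mod_cast h0
  have hS1 : (S : ℝ) ≤ 1000000 := by
    have : ((S : ℤ) : ℝ) ≤ ((Ds : ℤ) : ℝ) := by exact_mod_cast h1
    simpa [Ds] using this
  have e1 : inI S ≤ 4 * Pl * S := min_le_left _ _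
  have e2 : inI S ≤ 4 * P0 * Ds := (min_le_right _ _).trans (min_le_left _ _)
  have e3 : inI S ≤ 4 * Pl * (Ds - S) := (min_le_right _ _).trans (min_le_right _ _)
  have e1' : (inI S : ℝ) ≤ 1256636 * S := by
    have : ((inI S : ℤ) : ℝ) ≤ ((4 * Pl * S : ℤ) : ℝ) := by exact_mod_cast e1
    have h' : (inI S : ℝ) ≤ 4 * 314159 * S := by push_cast [Pl] at this; linarith
    linarith
  have e2' : (inI S : ℝ) ≤ 400000000000 := by
    have : ((inI S : ℤ) : ℝ) ≤ ((4 * P0 * Ds : ℤ) : ℝ) := by exact_mod_cast e2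
    simpa [P0, Ds] using this
  have e3' : (inI S : ℝ) ≤ 1256636 * (1000000 - S) := by
    have : ((inI S : ℤ) : ℝ) ≤ ((4 * Pl * (Ds - S) : ℤ) : ℝ) := by exact_mod_cast e3
    have h' : (inI S : ℝ) ≤ 4 * 314159 * (1000000 - S) := by push_cast [Pl, Ds] at this; linarith
    linarith
  apply sqrt_le_I2
  · unfold sc
    have : (inI S : ℝ) / 100000000000 ≤ 1256636 * S / 100000000000 := by gcongr
    have h2 : 1256636 * (S : ℝ) / 100000000000 ≤ 4 * (π * (S / 1000000)) := by nlinarith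
    linarith
  · rw [div_le_iff₀ (by norm_num)]; linarith
  · unfold sc
    have hnn : (0 : ℝ) ≤ 1000000 - S := by linarith
    have : (inI S : ℝ) / 100000000000 ≤ 1256636 * (1000000 - S) / 100000000000 := by gcongr
    have h2 : 1256636 * (1000000 - (S : ℝ)) / 100000000000 ≤ 4 * (π * (1 - S / 1000000)) := by
      nlinarith
    linarith

lemma line_eq (K M S : ℤ) :
    (K : ℝ) / 1000000 * sc S + (M : ℝ) / 1000000 = (lnF K M S : ℝ) / 1000000000000 := by
  unfold sc lnF Ds
  push_cast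
  ring

lemma leS_sound {L I : ℤ} (h : leS L I = true) :
    (L : ℝ) / 1000000000000 ≤ √((I : ℝ) / 100000000000) := by
  unfold leS at h
  rw [Bool.or_eq_true, decide_eq_true_eq, decide_eq_true_eq] at h
  rcases h with h | h
  · have : (L : ℝ) ≤ 0 := by exact_mod_cast h
    exact (div_nonpos_of_nonpos_of_nonneg this (by norm_num)).trans (Real.sqrt_nonneg _)
  · have h' : ((L * L * P0 : ℤ) : ℝ) ≤ ((I * (Ds * Ds * Ds) : ℤ) : ℝ) := by exact_mod_cast h
    push_cast [P0, Ds] at h'
    refine (le_abs_self _).trans (Real.abs_le_sqrt ?_)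
    rw [div_pow, div_le_div_iff₀ (by norm_num) (by norm_num)]
    nlinarith

lemma leR_sound {L I R : ℤ} (h : leR L I R = true) :
    (L : ℝ) / 1000000000000 ≤ √((1 - ((R : ℝ) / 1000000) ^ 2) * ((I : ℝ) / 100000000000)) := by
  unfold leR at h
  rw [Bool.or_eq_true, decide_eq_true_eq, decide_eq_true_eq] at h
  rcases h with h | h
  · have : (L : ℝ) ≤ 0 := by exact_mod_cast h
    exact (div_nonpos_of_nonpos_of_nonneg this (by norm_num)).trans (Real.sqrt_nonneg _)
  · have h' : ((L * L * P0 : ℤ) : ℝ) ≤ (((Ds * Ds - R * R) * I * Ds : ℤ) : ℝ) := by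
      exact_mod_cast h
    push_cast [P0, Ds] at h'
    refine (le_abs_self _).trans (Real.abs_le_sqrt ?_)
    have e : (1 - ((R : ℝ) / 1000000) ^ 2) * ((I : ℝ) / 100000000000)
        = ((1000000 * 1000000 - (R : ℝ) * R) * I * 1000000) / 100000000000000000000000000000 := by
      ring
    rw [e, div_pow, div_le_div_iff₀ (by norm_num) (by norm_num)]
    nlinarith

lemma affine_le_const {k m x y s c : ℝ} (hs : s ∈ Icc x y) (h1 : k * x + m ≤ c)
    (h2 : k * y + m ≤ c) : k * s + m ≤ c := by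
  rcases le_total 0 k with hk | hk
  · have := mul_le_mul_of_nonneg_left hs.2 hk
    linarith
  · have := mul_le_mul_of_nonpos_left hs.1 hk
    linarith

lemma sc_nonneg {S : ℤ} (h : 0 ≤ S) : 0 ≤ sc S := by
  unfold sc
  have : (0 : ℝ) ≤ S := by exact_mod_cast h
  positivity

lemma sc_le_one {S : ℤ} (h : S ≤ Ds) : sc S ≤ 1 := by
  unfold sc
  have : (S : ℝ) ≤ ((Ds : ℤ) : ℝ) := by exact_mod_cast h
  have h2 : (S : ℝ) ≤ 1000000 := by simpa [Ds] using this
  rw [div_le_one (by norm_num)]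
  exact h2

lemma sc_mono {S T : ℤ} (h : S ≤ T) : sc S ≤ sc T := by
  unfold sc
  have : (S : ℝ) ≤ T := by exact_mod_cast h
  gcongr

lemma step_sound {K M u v : ℤ} (hu : 0 ≤ u) (huv : u ≤ v) (hv : v ≤ Ds)
    (h : stepOK K M u v = true) :
    0 ≤ (rVal K M u v : ℝ) / 1000000 ∧ (rVal K M u v : ℝ) / 1000000 ≤ 1 ∧
    ∀ s ∈ Icc (sc u) (sc v), (K : ℝ) / 1000000 * s + (M : ℝ) / 1000000
      ≤ √(1 - ((rVal K M u v : ℝ) / 1000000) ^ 2) * I2 s := by
  unfold stepOK at h
  simp only [Bool.and_eq_true, decide_eq_true_eq] at h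
  obtain ⟨⟨⟨⟨hR0, hR1⟩, hI⟩, hL1⟩, hL2⟩ := h
  set R := rVal K M u v with hR
  set I := min (inI u) (inI v) with hIdef
  have hR0' : (0 : ℝ) ≤ R := by exact_mod_cast hR0
  have hR1' : (R : ℝ) ≤ 1000000 := by
    have : (R : ℝ) ≤ ((Ds : ℤ) : ℝ) := by exact_mod_cast hR1
    simpa [Ds] using this
  have hr0 : 0 ≤ (R : ℝ) / 1000000 := by positivity
  have hr1 : (R : ℝ) / 1000000 ≤ 1 := by
    rw [div_le_one (by norm_num)]; exact hR1'
  refine ⟨hr0, hr1, ?_⟩
  intro s hs
  set r := (R : ℝ) / 1000000 with hr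
  have hq : 0 ≤ 1 - r ^ 2 := by nlinarith
  have hI' : (0 : ℝ) ≤ (I : ℝ) / 100000000000 := by
    have : (0 : ℝ) ≤ I := by exact_mod_cast hI
    positivity
  have h1 := leR_sound hL1
  have h2 := leR_sound hL2
  rw [← line_eq] at h1 h2
  have h3 := affine_le_const hs h1 h2
  have hI1 : (I : ℝ) ≤ inI u := by exact_mod_cast (min_le_left _ _ : I ≤ inI u)
  have hI2 : (I : ℝ) ≤ inI v := by exact_mod_cast (min_le_right _ _ : I ≤ inI v)
  have h4 : √((I : ℝ) / 100000000000) ≤ I2 (sc u) :=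
    (Real.sqrt_le_sqrt (by gcongr)).trans (sqrt_inI_le hu (huv.trans hv))
  have h5 : √((I : ℝ) / 100000000000) ≤ I2 (sc v) :=
    (Real.sqrt_le_sqrt (by gcongr)).trans (sqrt_inI_le (hu.trans huv) hv)
  have h6 : √((I : ℝ) / 100000000000) ≤ I2 s := by
    have := affine_le_I2 (k := 0) (m := √((I : ℝ) / 100000000000)) (x := sc u) (y := sc v) (s := s)
      (sc_nonneg hu) (sc_mono huv) (sc_le_one hv) hs (by simpa using h4) (by simpa using h5)
    simpa using this
  rw [Real.sqrt_mul hq] at h3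
  exact h3.trans (mul_le_mul_of_nonneg_left h6 (Real.sqrt_nonneg _))

lemma allSteps_spec {K M u H : ℤ} : ∀ {n : ℕ}, allSteps K M u H n = true → ∀ j < n,
    stepOK K M (nodeS u H j) (nodeS u H (j + 1)) = true
  | 0, _, j, hj => absurd hj (Nat.not_lt_zero j)
  | n + 1, h, j, hj => by
    unfold allSteps at h
    rw [Bool.and_eq_true] at h
    rcases Nat.lt_succ_iff_lt_or_eq.1 hj with hj' | rfl
    · exact allSteps_spec h.2 j hj'
    · exact h.1

lemma sumSteps_eq (K M u H : ℤ) (n : ℕ) :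
    (sumSteps K M u H n : ℝ)
      = ∑ j ∈ Finset.range n, (rVal K M (nodeS u H j) (nodeS u H (j + 1)) : ℝ) := by
  induction n with
  | zero => simp [sumSteps]
  | succ n ih =>
    rw [Finset.sum_range_succ, ← ih]
    simp [sumSteps, add_comm]

lemma nodeS_sc (u H : ℤ) (j : ℕ) : sc (nodeS u H j) = sc u + (j : ℝ) * ((H : ℝ) / 1000000) := by
  unfold sc nodeS
  push_cast
  ring

lemma finalOK_sound {K LHS : ℤ} (h : finalOK K LHS = true) {V : ℝ} (h0 : 0 ≤ V)
    (hV : V ≤ 4 * π / 81) :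
    ballVal V ≤ (K : ℝ) / 1000000 * V + (LHS : ℝ) / 1000000000000 := by
  have hpi := Real.pi_lt_d4
  have hpi0 := Real.pi_pos
  unfold finalOK at h
  split_ifs at h with hK
  · rw [decide_eq_true_eq] at h
    have h' : ((16 * Ph * (Ds * Ds * Ds * Ds) : ℤ) : ℝ) ≤ ((LHS * (3 * Q0) * (K * K) : ℤ) : ℝ) := by
      exact_mod_cast h
    push_cast [Ph, Q0, Ds] at h'
    have hK' : (6000000 : ℝ) ≤ K := by
      have : (((6 * Ds : ℤ)) : ℝ) ≤ K := by exact_mod_cast hK
      push_cast [Ds] at this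
      linarith
    have hk : 0 < (K : ℝ) / 1000000 := by positivity
    refine (ball_cubic hk h0).trans ?_
    have hK2 : 0 < (K : ℝ) ^ 2 := by positivity
    have e : (16 * π / 3) / ((K : ℝ) / 1000000) ^ 2 ≤ (LHS : ℝ) / 1000000000000 := by
      rw [div_pow, div_div_eq_mul_div, div_le_div_iff₀ hK2 (by norm_num)]
      nlinarith
    linarith
  · rw [decide_eq_true_eq] at h
    have h' : ((4 * Ph * (9 * Ds - K) * Ds : ℤ) : ℝ) ≤ ((LHS * (81 * Q0) : ℤ) : ℝ) := by
      exact_mod_cast h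
    push_cast [Ph, Q0, Ds] at h'
    have hK' : (K : ℝ) ≤ 6000000 := by
      have : (K : ℝ) ≤ (((6 * Ds : ℤ)) : ℝ) := by exact_mod_cast (not_le.1 hK).le
      push_cast [Ds] at this
      linarith
    have hk : (K : ℝ) / 1000000 ≤ 6 := by
      rw [div_le_iff₀ (by norm_num)]; linarith
    refine (ball_tangent hk h0 hV).trans ?_
    have hpos : (0 : ℝ) ≤ 9 - (K : ℝ) / 1000000 := by linarith
    have e : (4 * π / 81) * (9 - (K : ℝ) / 1000000) ≤ (LHS : ℝ) / 1000000000000 := by
      have e1 : (4 * π / 81) * (9 - (K : ℝ) / 1000000)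
          ≤ (4 * 3.1416 / 81) * (9 - (K : ℝ) / 1000000) := by
        apply mul_le_mul_of_nonneg_right _ hpos
        linarith
      refine e1.trans ?_
      rw [le_div_iff₀ (by norm_num)]
      nlinarith
    linarith

/-- A checked cell: every target `T` below the value of the final line is below the perimeter.
The function `fin` is the target check, `hT` its soundness; only the data `K` and `LHS` enter. -/
theorem leafData_sound {fin : ℤ → ℤ → Bool} {K M H alo ahi blo bhi : ℤ}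
    (h : leafData fin K M H alo ahi blo bhi = true)
    {a b V Per T : ℝ} (hal : sc alo ≤ a) (hah : a ≤ sc ahi) (hbl : sc blo ≤ b) (hbh : b ≤ sc bhi)
    (hT : ∀ K LHS : ℤ, fin K LHS = true → T ≤ (K : ℝ) / 1000000 * V + (LHS : ℝ) / 1000000000000)
    (hPB : PairBound I2 a b V Per) : T ≤ Per := by
  unfold leafData at h
  simp only [Bool.and_eq_true, decide_eq_true_eq] at h
  obtain ⟨⟨⟨⟨⟨⟨⟨⟨⟨⟨⟨⟨h1, h2⟩, h3⟩, h4⟩, h5⟩, h6⟩, h7⟩, -⟩, -⟩, h10⟩, h11⟩, h12⟩, h13⟩ := h
  have hH0 : 0 ≤ H := by linarith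
  have hnode0 : ∀ j : ℕ, 0 ≤ nodeS ahi H j := by
    intro j
    unfold nodeS
    have : (0 : ℤ) ≤ (j : ℤ) * H := mul_nonneg (Int.natCast_nonneg j) hH0
    linarith
  have hnode1 : ∀ j : ℕ, j ≤ nSteps → nodeS ahi H j ≤ Ds := by
    intro j hj
    unfold nodeS
    have hj' : (j : ℤ) ≤ (nSteps : ℤ) := by exact_mod_cast hj
    have : (j : ℤ) * H ≤ (nSteps : ℤ) * H := mul_le_mul_of_nonneg_right hj' hH0
    linarith
  have hnodeM : ∀ j : ℕ, nodeS ahi H j ≤ nodeS ahi H (j + 1) := by
    intro j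
    unfold nodeS
    push_cast
    nlinarith
  have hstepS := allSteps_spec h12
  have hH3 : (3 : ℝ) ≤ H := by exact_mod_cast h6
  refine core (k := (K : ℝ) / 1000000) (m := (M : ℝ) / 1000000) (d := 1 / 1000000)
    (h := (H : ℝ) / 1000000) (u := sc ahi) (N := nSteps)
    (r := fun j => (rVal K M (nodeS ahi H j) (nodeS ahi H (j + 1)) : ℝ) / 1000000)
    hPB (by norm_num) ?_ ?_ hah ?_ ?_ ?_ ?_
  · rw [le_div_iff₀ (by norm_num)]; linarith
  · intro j hj
    have := step_sound (hnode0 j) (hnodeM j) (hnode1 (j + 1) hj) (hstepS j hj)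
    exact ⟨this.1, this.2.1⟩
  · have h8' : sc (ahi + (nSteps : ℤ) * H) ≤ sc blo := sc_mono (by
      have := h7
      linarith)
    have : sc (ahi + (nSteps : ℤ) * H) = sc ahi + (nSteps : ℝ) * ((H : ℝ) / 1000000) := by
      unfold sc
      push_cast
      ring
    rw [← this]
    exact h8'.trans hbl
  · intro s hs
    have hx0 := sc_nonneg h1
    have hxy : sc alo ≤ sc bhi := sc_mono (by linarith)
    have hy1 := sc_le_one h5
    have hs' : s ∈ Icc (sc alo) (sc bhi) := ⟨hal.trans hs.1, hs.2.trans hbh⟩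
    refine affine_le_I2 hx0 hxy hy1 hs' ?_ ?_
    · rw [line_eq]
      exact (leS_sound h10).trans (sqrt_inI_le h1 (by linarith))
    · rw [line_eq]
      exact (leS_sound h11).trans (sqrt_inI_le (by linarith) h5)
  · intro j hj s hs
    have := (step_sound (hnode0 j) (hnodeM j) (hnode1 (j + 1) hj) (hstepS j hj)).2.2 s ?_
    · exact this
    · rw [nodeS_sc, nodeS_sc]
      push_cast
      exact hs
  · have hf := hT _ _ h13
    refine hf.trans (le_of_eq ?_)
    have e1 : ((M * Ds + 2 * ((H - 2) * sumSteps K M ahi H nSteps) : ℤ) : ℝ)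
        = (M : ℝ) * 1000000 + 2 * (((H : ℝ) - 2) *
          ∑ j ∈ Finset.range nSteps, (rVal K M (nodeS ahi H j) (nodeS ahi H (j + 1)) : ℝ)) := by
      push_cast [Ds]
      rw [sumSteps_eq]
    rw [e1]
    have e2 : ∑ j ∈ Finset.range nSteps,
        (rVal K M (nodeS ahi H j) (nodeS ahi H (j + 1)) : ℝ) / 1000000 *
          ((H : ℝ) / 1000000 - 2 * (1 / 1000000))
        = ((H : ℝ) - 2) / 1000000000000 *
          ∑ j ∈ Finset.range nSteps, (rVal K M (nodeS ahi H j) (nodeS ahi H (j + 1)) : ℝ) := by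
      rw [Finset.mul_sum]
      apply Finset.sum_congr rfl
      intro j _
      ring
    rw [e2]
    ring

theorem verify_sound {fin : ℤ → ℤ → Bool} {V T : ℝ}
    (hT : ∀ K LHS : ℤ, fin K LHS = true → T ≤ (K : ℝ) / 1000000 * V + (LHS : ℝ) / 1000000000000) :
    ∀ (f : ℕ) (alo ahi blo bhi : ℤ), verify fin f alo ahi blo bhi = true →
    ∀ {a b Per : ℝ}, sc alo ≤ a → a ≤ sc ahi → sc blo ≤ b → b ≤ sc bhi →
      PairBound I2 a b V Per → T ≤ Per
  | 0, alo, ahi, blo, bhi, h, a, b, Per, hal, hah, hbl, hbh, hPB => by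
    unfold verify at h
    exact leafData_sound h hal hah hbl hbh hT hPB
  | f + 1, alo, ahi, blo, bhi, h, a, b, Per, hal, hah, hbl, hbh, hPB => by
    unfold verify at h
    rw [Bool.or_eq_true] at h
    rcases h with h | h
    · exact leafData_sound h hal hah hbl hbh hT hPB
    · split_ifs at h with hc
      · rw [Bool.and_eq_true] at h
        rcases le_total a (sc ((alo + ahi) / 2)) with hm | hm
        · exact verify_sound hT f _ _ _ _ h.1 hal hm hbl hbh hPB
        · exact verify_sound hT f _ _ _ _ h.2 hm hah hbl hbh hPB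
      · rw [Bool.and_eq_true] at h
        rcases le_total b (sc ((blo + bhi) / 2)) with hm | hm
        · exact verify_sound hT f _ _ _ _ h.1 hal hah hbl hm hPB
        · exact verify_sound hT f _ _ _ _ h.2 hal hah hm hbh hPB

theorem verify_region1 : verify finalOK 30 2500 155200 318300 1000000 = true := by
  decide +kernel

theorem verify_region2 : verify finalOK 30 0 2500 600000 1000000 = true := by
  decide +kernel

end CertImpl

open CertImpl in
/-- The certified finite range of parameters for the two-torus profile `I2`. -/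
theorem cert_ball {a b V Per : ℝ} (h0 : 0 ≤ a) (haV : a ≤ V) (hVb : V ≤ b) (hb : b ≤ 1)
    (hV : V ≤ 4 * π / 81) (hb' : 1 / π < b) (hc : 1 / 400 ≤ a ∨ 3 / 5 ≤ b)
    (h1 : PairBound I2 a b V Per) : ballVal V ≤ Per := by
  have hpi := Real.pi_lt_d4
  have hpi0 := Real.pi_pos
  have hV0 : 0 ≤ V := h0.trans haV
  have hb1 : sc 1000000 = 1 := by unfold sc; norm_num
  have hbb : b ≤ sc 1000000 := by rw [hb1]; exact hb
  have hT : ∀ K LHS : ℤ, finalOK K LHS = true →
      ballVal V ≤ (K : ℝ) / 1000000 * V + (LHS : ℝ) / 1000000000000 :=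
    fun K LHS h => finalOK_sound h hV0 hV
  have haup : a ≤ sc 155200 := by
    unfold sc
    have : 4 * π / 81 ≤ (155200 : ℝ) / 1000000 := by
      rw [div_le_div_iff₀ (by norm_num) (by norm_num)]
      nlinarith
    push_cast
    linarith
  by_cases ha : 1 / 400 ≤ a
  · refine verify_sound hT 30 _ _ _ _ verify_region1 ?_ haup ?_ hbb h1
    · unfold sc; push_cast; linarith
    · have : (318300 : ℝ) / 1000000 ≤ 1 / π := by
        rw [div_le_div_iff₀ (by norm_num) hpi0]
        nlinarith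
      unfold sc; push_cast; linarith
  · have hb3 : 3 / 5 ≤ b := by
      rcases hc with hc | hc
      · exact absurd hc ha
      · exact hc
    refine verify_sound hT 30 _ _ _ _ verify_region2 ?_ ?_ ?_ hbb h1
    · unfold sc; push_cast; simpa using h0
    · unfold sc; push_cast; linarith [not_le.1 ha]
    · unfold sc; push_cast; linarith

end Vale.Agent.Lib.P232
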