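import Vale.Agent.Lib.P232.FastF

/-!
# The strict certificates of the volume range for lines of at most one kind, and for strips

Each certificate is a subdivision of the square of parameters with the data of a calibration.
-/

open MeasureTheory Filter Topology Set
open scoped Real

namespace Vale.Agent.Lib.P232

namespace Fast

open CertImpl

/-- The target check on `[53/200, 9/25]`, with a second test for large slopes. -/
def finV (K L : ℤ) : Bool :=
  finGap K L || (decide (3443300 ≤ K) && decide (45622500000000 ≤ 6625000 * K + L))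

theorem finV_sound {V : ℝ} (hV1 : 53 / 200 ≤ V) (hV2 : V ≤ 9 / 25) : FinOK finV (Tgt V) V := by
  intro K L h
  have hV0 : 0 ≤ V := by linarith
  unfold finV at h
  rw [Bool.or_eq_true] at h
  rcases h with h | h
  · exact finGap_sound hV2 hV0 K L h
  · rw [Bool.and_eq_true, decide_eq_true_eq, decide_eq_true_eq] at h
    obtain ⟨h1, h2⟩ := h
    have h1' : (3443300 : ℝ) ≤ K := by exact_mod_cast h1
    have h2' : (45622500000000 : ℝ) ≤ 6625000 * K + L := by exact_mod_cast h2
    have hpi := Real.pi_lt_d4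
    have hT := tube_line (k := 3.4433) (V := V) (by norm_num) hV0
    have h3 : π / 3.4433 ≤ 0.91239 := by
      rw [div_le_iff₀ (by norm_num)]
      norm_num at hpi ⊢
      linarith
    refine (min_le_left _ _).trans (hT.trans ?_)
    set k := (K : ℝ) / 1000000 with hk
    set c := (L : ℝ) / 25000000000000 with hc
    have hk1 : 3.4433 ≤ k := by
      rw [hk, le_div_iff₀ (by norm_num)]
      norm_num
      linarith
    have hK : (K : ℝ) = k * 1000000 := by
      rw [hk]; ring
    have hL : (L : ℝ) = c * 25000000000000 := by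
      rw [hc]; ring
    rw [hK, hL] at h2'
    have h4 : 0 ≤ (k - 3.4433) * (V - 53 / 200) := mul_nonneg (by linarith) (by linarith)
    nlinarith

/-- The target check with a slack of `1 / 100000`. -/
def finVS (K L : ℤ) : Bool := finV K (L - 250000000)

theorem finVS_sound {V : ℝ} (hV1 : 53 / 200 ≤ V) (hV2 : V ≤ 9 / 25) :
    FinOK finVS (Tgt V + 1 / 100000) V := by
  intro K L h
  have h1 := finV_sound hV1 hV2 K (L - 250000000) h
  push_cast at h1
  have e : ((L : ℝ) - 250000000) / 25000000000000 = (L : ℝ) / 25000000000000 - 1 / 100000 := by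
    ring
  rw [e] at h1
  linarith

lemma alpha_eq : ((120000 : ℕ) : ℝ) / 1000000 = gapAlpha := by
  unfold gapAlpha
  norm_num

/-- The certificate for lines of at most one kind. -/
def treeBS : PTree :=
  (.nb (.na (.nb (.na (.na (.nb (.leaf 511 15028191 9999997 9999997) (.na (.leaf 31 14510203
  9999997 9999997) (.leaf 15 13664384 10449256 10449256))) (.nb (.leaf 15 13740279 10583544
  10583544) (.leaf 15 13380999 10599833 10599833))) (.nb (.nb (.leaf 31 13582734 10740955
  10740955) (.leaf 15 13345672 10762358 10762358)) (.leaf 127 13020361 10791528 10791528)))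
  (.na (.na (.nb (.na (.leaf 127 14142706 9691101 9999997) (.leaf 15 13395295 10146555
  10455338)) (.na (.leaf 1023 13731023 9416581 9999997) (.leaf 15 13117347 9838483 10461592)))
  (.nb (.leaf 15 13140440 10301857 10610665) (.leaf 15 12720539 10111289 10629560))) (.nb (.na
  (.leaf 15 12751133 10539091 10815866) (.leaf 15 12255018 10841411 10998051)) (.leaf 63
  12057301 10567265 10878311)))) (.nb (.na (.nb (.nb (.na (.leaf 15 13077879 10949955 10949955)
  (.nb (.leaf 15 13052907 10994571 10994571) (.leaf 15 12871487 11035409 11035409))) (.na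
  (.leaf 15 12835320 10993615 10993615) (.leaf 63 12616634 11092751 11092751))) (.na (.leaf 15
  12539639 11046838 11046838) (.leaf 15 12332988 11156571 11156571))) (.na (.na (.nb (.nb
  (.leaf 127 12654481 11125274 11125274) (.leaf 15 12382871 11198609 11198609)) (.leaf 15
  12004896 11300662 11300662)) (.na (.leaf 255 12005477 11330596 11330596) (.leaf 15 11944337
  11363127 11363127))) (.leaf 15 11879439 11397547 11397547))) (.na (.nb (.na (.leaf 15
  11657457 11205550 11205631) (.leaf 15 11389666 11368735 11368818)) (.leaf 15 11127372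
  11206591 11301046)) (.leaf 15 10456113 11668082 11718833)))) (.na (.nb (.na (.na (.nb (.na
  (.leaf 127 13306006 9185006 9999997) (.leaf 15 12578908 9741690 10473707)) (.na (.leaf 63
  13023980 8849761 9999997) (.leaf 15 12071537 9653384 10485123))) (.leaf 31 11983027 9728065
  10662748)) (.leaf 63 11236134 10358256 10952216)) (.na (.nb (.na (.leaf 255 12531438 8657158
  9999997) (.leaf 15 11146860 9933566 10700376)) (.na (.nb (.leaf 31 12179397 8606361 9999997)
  (.leaf 63 11945254 8054743 9999997)) (.leaf 15 10731420 9268577 10719071))) (.leaf 15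
  11060351 8939646 10968037))) (.nb (.na (.leaf 15 10132421 11289513 11480137) (.leaf 15
  9466723 11851196 11985969)) (.leaf 15 9339007 10660990 11622952))))

theorem vtp_treeBS : vtp (NB1 120000) (NB2 120000) finVS treeBS 0 360000 375000 1000000 = true := by
  decide +kernel

/-- The certificate for strips, cell 1. -/
def treeS1S : PTree :=
  (.nb (.nb (.nb (.leaf 15 15604736 10842748 9999879) (.leaf 31 14457219 10631949 9999931))
  (.nb (.nb (.leaf 31 14050256 10516500 9999997) (.leaf 127 13735362 10383446 9999943)) (.nb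
  (.nb (.leaf 63 13604925 10310348 9999997) (.leaf 127 13489304 10232923 9999997)) (.nb (.leaf
  127 13357248 10169065 9999997) (.leaf 511 13244606 10097077 9999997))))) (.nb (.nb (.nb (.nb
  (.nb (.leaf 127 13161534 10079480 9999997) (.leaf 255 13116050 10038599 9999997)) (.nb (.leaf
  255 13060345 10005001 9999997) (.leaf 255 12963298 10000120 9999997))) (.nb (.nb (.leaf 511
  12861653 10000004 9999997) (.leaf 511 12761886 10000223 9999997)) (.nb (.nb (.leaf 255
  12713361 9999968 9999968) (.leaf 255 12664577 10000265 9999997)) (.nb (.leaf 511 12616893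
  10000148 9999997) (.leaf 511 12569469 10000188 9999997))))) (.nb (.nb (.nb (.nb (.leaf 511
  12522563 10000198 9999997) (.leaf 511 12476498 9999920 9999920)) (.nb (.leaf 511 12430434
  9999956 9999956) (.leaf 511 12384689 10000053 9999997))) (.nb (.nb (.leaf 511 12339265
  10000210 9999997) (.leaf 511 12294560 10000099 9999997)) (.nb (.leaf 511 12249854 10000261
  9999997) (.leaf 511 12205989 10000028 9999997)))) (.nb (.nb (.nb (.leaf 511 12161925 10000193
  9999997) (.leaf 511 12118579 10000021 9999997)) (.leaf 1023 12032008 10000210 9999997)) (.nb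
  (.leaf 511 11946996 9999888 9999888) (.leaf 255 11862044 10000115 9999997))))) (.nb (.nb (.nb
  (.leaf 1023 11694218 10000079 9999997) (.leaf 255 11527034 9999900 9999900)) (.nb (.leaf 127
  11357910 9999915 9999915) (.leaf 63 11183669 10000188 9999997))) (.nb (.leaf 255 10797279
  9999980 9999980) (.nb (.leaf 63 10551161 9999931 9999931) (.nb (.leaf 63 10385595 10000386
  9999997) (.nb (.leaf 63 10272373 10000162 9999997) (.nb (.leaf 63 10193500 10000293 9999997)
  (.leaf 511 10035052 10000397 9999997)))))))))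

theorem vtp_treeS1S : vtp (NSt 1000000 214600) (NB1 460000) finVS treeS1S 0 100 265000 999900 = true := by
  decide +kernel

/-- The certificate for strips, cell 2. -/
def treeS2S : PTree :=
  (.nb (.nb (.nb (.leaf 15 15604736 11229889 9999879) (.leaf 15 14456959 10889606 9999997))
  (.nb (.nb (.leaf 15 14043138 10719185 9999997) (.leaf 31 13707991 10545029 9999997)) (.nb
  (.leaf 127 13447777 10357439 9999997) (.nb (.leaf 63 13338433 10259768 9999997) (.leaf 127
  13231609 10165665 9999997))))) (.nb (.nb (.nb (.nb (.nb (.leaf 127 13129780 10151602 9999997)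
  (.leaf 255 13063783 10116410 9999997)) (.nb (.leaf 255 13004443 10078272 9999997) (.leaf 511
  12944405 10041977 9999997))) (.nb (.nb (.leaf 1023 12849097 10031394 9999997) (.nb (.leaf 255
  12800771 10027382 9999997) (.leaf 511 12751530 10024575 9999997))) (.nb (.nb (.leaf 511
  12703462 10021503 9999997) (.leaf 511 12655839 10018660 9999997)) (.nb (.leaf 1023 12608234
  10016360 9999997) (.leaf 1023 12561451 10014002 9999997))))) (.nb (.nb (.nb (.nb (.nb (.leaf
  511 12538219 10012913 9999997) (.leaf 511 12514987 10011953 9999997)) (.nb (.leaf 1023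
  12492215 10010797 9999997) (.leaf 1023 12468981 10010104 9999997))) (.nb (.nb (.leaf 1023
  12446270 10009165 9999997) (.leaf 1023 12423957 10008054 9999997)) (.nb (.leaf 1023 12401444
  10007220 9999997) (.leaf 1023 12378931 10006516 9999997)))) (.nb (.nb (.nb (.leaf 1023
  12356297 10006037 9999997) (.leaf 1023 12334227 10005258 9999997)) (.nb (.leaf 1023 12312034
  10004699 9999997) (.leaf 1023 12290162 10004023 9999997))) (.nb (.nb (.leaf 1023 12268489
  10003328 9999997) (.leaf 1023 12246496 10002995 9999997)) (.nb (.leaf 1023 12224700 10002638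
  9999997) (.leaf 511 12203607 10001861 9999997))))) (.nb (.nb (.nb (.leaf 1023 12160306
  10001449 9999997) (.leaf 1023 12117600 10000787 9999997)) (.nb (.leaf 511 12075033 10000224
  9999997) (.leaf 511 12032008 10000210 9999997))) (.nb (.leaf 511 11946475 10000308 9999997)
  (.leaf 255 11862044 10000115 9999997))))) (.nb (.nb (.nb (.nb (.leaf 255 11777933 10000118
  9999997) (.leaf 127 11694341 9999975 9999975)) (.leaf 255 11526836 10000070 9999997)) (.nb
  (.leaf 127 11357910 9999915 9999915) (.leaf 63 11183669 10000188 9999997))) (.nb (.leaf 255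
  10797279 9999980 9999980) (.nb (.leaf 63 10551161 9999931 9999931) (.nb (.leaf 63 10385595
  10000386 9999997) (.nb (.leaf 63 10272373 10000162 9999997) (.nb (.leaf 63 10193500 10000293
  9999997) (.leaf 511 10035052 10000397 9999997)))))))))

theorem vtp_treeS2S : vtp (NSt 540000 770900) (NB1 500000) finVS treeS2S 0 100 265000 999900 = true := by
  decide +kernel

/-- The certificate for strips, cell 3. -/
def treeS3S : PTree :=
  (.nb (.nb (.nb (.leaf 15 15604476 11357717 9999972) (.leaf 15 14457219 10990013 9999931))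
  (.nb (.nb (.leaf 15 14043397 10805979 9999906) (.leaf 31 13699452 10622943 9999997)) (.nb
  (.leaf 63 13420725 10432932 9999997) (.nb (.leaf 63 13304708 10333202 9999997) (.leaf 127
  13201642 10230690 9999997))))) (.nb (.nb (.nb (.nb (.leaf 1023 13089396 10138897 9999997)
  (.nb (.leaf 255 12963619 10141363 9999997) (.leaf 511 12904740 10101348 9999997))) (.nb (.nb
  (.leaf 1023 12842179 10065227 9999997) (.nb (.leaf 255 12794175 10059330 9999997) (.leaf 255
  12745192 10054671 9999997))) (.nb (.nb (.leaf 511 12697704 10049532 9999997) (.leaf 511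
  12649561 10045392 9999997)) (.nb (.leaf 511 12602657 10040920 9999997) (.leaf 1023 12555293
  10037316 9999997))))) (.nb (.nb (.nb (.nb (.nb (.leaf 511 12532337 10035193 9999997) (.leaf
  511 12509304 10033254 9999997)) (.nb (.leaf 1023 12485815 10031790 9999997) (.leaf 1023
  12462981 10029971 9999997))) (.nb (.nb (.leaf 1023 12440195 10028253 9999997) (.leaf 1023
  12417361 10026695 9999997)) (.nb (.leaf 1023 12394524 10025271 9999997) (.nb (.leaf 1023
  12383467 10024342 9999997) (.leaf 1023 12372072 10023690 9999997))))) (.nb (.nb (.nb (.nb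
  (.leaf 1023 12360801 10022985 9999997) (.leaf 1023 12349805 10022106 9999997)) (.nb (.leaf
  1023 12338806 10021261 9999997) (.leaf 1023 12327290 10020830 9999997))) (.nb (.leaf 1023
  12305037 10019485 9999997) (.leaf 1023 12283244 10017919 9999997))) (.nb (.nb (.nb (.leaf
  1023 12272109 10017367 9999997) (.leaf 1023 12261112 10016742 9999997)) (.leaf 1023 12239377
  10015383 9999997)) (.nb (.leaf 1023 12217626 10014161 9999997) (.leaf 1023 12196029 10012945
  9999997))))) (.nb (.nb (.nb (.nb (.leaf 1023 12174281 10011976 9999997) (.leaf 1023 12152607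
  10011069 9999997)) (.nb (.leaf 511 12131393 10009924 9999997) (.leaf 511 12109841 10009169
  9999997))) (.nb (.leaf 1023 12067857 10007156 9999997) (.leaf 511 12025931 10005568
  9999997))) (.nb (.leaf 1023 11942656 10003381 9999997) (.leaf 511 11860424 10001437
  9999997))))) (.nb (.nb (.nb (.nb (.leaf 255 11777734 10000282 9999997) (.leaf 127 11693821
  10000412 9999997)) (.leaf 255 11526836 10000070 9999997)) (.nb (.leaf 127 11357390 10000375
  9999997) (.leaf 63 11183669 10000188 9999997))) (.nb (.leaf 255 10797279 9999980 9999980)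
  (.nb (.leaf 63 10551161 9999931 9999931) (.nb (.leaf 63 10385595 10000386 9999997) (.nb
  (.leaf 63 10272373 10000162 9999997) (.nb (.leaf 63 10193500 10000293 9999997) (.leaf 511
  10035052 10000397 9999997)))))))))

theorem vtp_treeS3S : vtp (NSt 500000 803600) (NB1 540000) finVS treeS3S 0 100 265000 999900 = true := by
  decide +kernel

/-- The certificate for strips, cell 4. -/
def treeS4S : PTree :=
  (.nb (.nb (.nb (.leaf 15 15604476 11518595 9999972) (.leaf 15 14457219 11118946 9999931))
  (.nb (.leaf 1023 13699712 10719994 9999980) (.nb (.leaf 63 13409728 10520372 9999997) (.nb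
  (.leaf 31 13281492 10420094 9999980) (.leaf 63 13161991 10320707 9999997))))) (.nb (.nb (.nb
  (.nb (.leaf 255 13051289 10220890 9999997) (.nb (.leaf 127 12923570 10221079 9999997) (.leaf
  255 12856092 10183379 9999997))) (.nb (.nb (.leaf 255 12790737 10145749 9999997) (.leaf 511
  12732376 10104715 9999997)) (.nb (.nb (.leaf 255 12688649 10094979 9999997) (.leaf 255
  12643424 10086813 9999997)) (.nb (.leaf 511 12595861 10080860 9999997) (.leaf 511 12548758
  10075107 9999997))))) (.nb (.nb (.nb (.nb (.leaf 511 12502372 10069378 9999997) (.leaf 1023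
  12456444 10063846 9999997)) (.nb (.leaf 1023 12410377 10058943 9999997) (.leaf 1023 12365474
  10053693 9999997))) (.nb (.nb (.nb (.leaf 511 12342641 10051551 9999997) (.leaf 511 12320768
  10048814 9999997)) (.nb (.leaf 511 12297737 10047077 9999997) (.leaf 511 12275865 10044593
  9999997))) (.nb (.nb (.leaf 511 12253795 10042392 9999997) (.leaf 511 12231923 10040160
  9999997)) (.nb (.leaf 511 12209928 10038148 9999997) (.leaf 511 12188377 10035920
  9999997))))) (.nb (.nb (.nb (.leaf 1023 12144391 10032531 9999997) (.leaf 1023 12101563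
  10028732 9999997)) (.nb (.leaf 511 12058720 10025441 9999997) (.leaf 511 12016610 10022057
  9999997))) (.nb (.nb (.leaf 511 11974566 10019109 9999997) (.leaf 255 11932960 10016274
  9999997)) (.leaf 511 11850665 10011331 9999997))))) (.nb (.nb (.nb (.nb (.leaf 255 11769655
  10007195 9999997) (.leaf 255 11689560 10003987 9999997)) (.leaf 255 11526836 10000070
  9999997)) (.nb (.leaf 127 11357712 10000090 9999997) (.leaf 63 11183669 10000188 9999997)))
  (.nb (.leaf 255 10797279 9999980 9999980) (.nb (.leaf 63 10551161 9999931 9999931) (.nb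
  (.leaf 63 10385595 10000386 9999997) (.nb (.leaf 63 10272373 10000162 9999997) (.nb (.leaf 63
  10193500 10000293 9999997) (.leaf 511 10035052 10000397 9999997)))))))))

theorem vtp_treeS4S : vtp (NSt 460000 833800) (NB1 1000000) finVS treeS4S 0 100 265000 999900 = true := by
  decide +kernel

end Fast

open Fast in
/-- The strict bound for lines of at most one kind. -/
theorem cert_B' {a b V Per : ℝ} (h0 : 0 ≤ a) (haV : a ≤ V) (hVb : V ≤ b) (hb : b ≤ 1)
    (hb38 : 3 / 8 ≤ b) (hV1 : 53 / 200 ≤ V) (hV2 : V ≤ 9 / 25)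
    (h1 : PhaseBound (fB1 gapAlpha) (fB2 gapAlpha) gapAlpha a b V Per) :
    Tgt V + 1 / 100000 ≤ Per := by
  have hB1 : NodeOK (NB1 120000) (fB1 gapAlpha) := by
    have := NB1_ok 120000
    rwa [alpha_eq] at this
  have hB2 : NodeOK (NB2 120000) (fB2 gapAlpha) := by
    have := NB2_ok 120000
    rwa [alpha_eq] at this
  refine cellP_of_vtp hB1 hB2 vtp_treeBS V _ (finVS_sound hV1 hV2) a b Per (by linarith) ?_ ?_ ?_ ?_ h1
  · unfold sn; norm_num; linarith
  · unfold sn; norm_num; linarith
  · unfold sn; norm_num; linarith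
  · unfold sn; norm_num; linarith

namespace Fast

/-- The condition on the stadium zone. -/
lemma zone_of {h Sc : ℕ} {γ : ℝ} (hγ : 1 - γ = (h : ℝ) / 1000000)
    (hc : 3.1416 * ((h : ℝ) / 1000000) ^ 2 ≤ 4 * (1 - sn Sc)) :
    ∀ s ≤ sn Sc, π * (1 - γ) ^ 2 ≤ 4 * (1 - s) := by
  intro s hs
  have hpi := Real.pi_lt_d4
  rw [hγ]
  have h1 : π * ((h : ℝ) / 1000000) ^ 2 ≤ 3.1416 * ((h : ℝ) / 1000000) ^ 2 :=
    mul_le_mul_of_nonneg_right (by norm_num at hpi ⊢; linarith) (sq_nonneg _)
  linarith

/-- The cells of the certificates for strips. -/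
lemma strip_cell {N₁ N₂ : ℕ → ℕ → ℕ} {f₁ f₂ : ℝ → ℝ} (hN₁ : NodeOK N₁ f₁) (hN₂ : NodeOK N₂ f₂)
    {t : PTree} (hv : vtp N₁ N₂ finVS t 0 100 265000 999900 = true)
    {a b V Per : ℝ} (h0 : 0 ≤ a) (ha : a ≤ 1 / 10000) (hVb : V ≤ b) (hb : b ≤ 1 - 1 / 10000)
    (hV1 : 53 / 200 ≤ V) (hV2 : V ≤ 9 / 25) (h1 : PhaseBound f₁ f₂ gapAlpha a b V Per) :
    Tgt V + 1 / 100000 ≤ Per := by
  refine cellP_of_vtp hN₁ hN₂ hv V _ (finVS_sound hV1 hV2) a b Per (by linarith) ?_ ?_ ?_ ?_ h1
  · unfold sn; norm_num; linarith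
  · unfold sn; norm_num; linarith
  · unfold sn; norm_num; linarith
  · unfold sn; norm_num; linarith

end Fast

open Fast in
theorem cert_S1' {a b V Per : ℝ} (h0 : 0 ≤ a) (ha : a ≤ 1 / 10000) (hVb : V ≤ b)
    (hb : b ≤ 1 - 1 / 10000) (hV1 : 53 / 200 ≤ V) (hV2 : V ≤ 9 / 25)
    (h1 : PhaseBound (fSt 0) (fAr (23 / 50)) gapAlpha a b V Per) : Tgt V + 1 / 100000 ≤ Per := by
  have hγ : (1 : ℝ) - 0 = ((1000000 : ℕ) : ℝ) / 1000000 := by norm_num
  have hA : NodeOK (NB1 460000) (fAr (23 / 50)) := by
    have := NAr_ok 460000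
    have e : ((460000 : ℕ) : ℝ) / 1000000 = 23 / 50 := by norm_num
    rwa [e] at this
  exact strip_cell (NSt_ok (Sc := 214600) (by norm_num) hγ
    (zone_of hγ (by unfold sn; norm_num))) hA vtp_treeS1S h0 ha hVb hb hV1 hV2 h1

open Fast in
theorem cert_S2' {a b V Per : ℝ} (h0 : 0 ≤ a) (ha : a ≤ 1 / 10000) (hVb : V ≤ b)
    (hb : b ≤ 1 - 1 / 10000) (hV1 : 53 / 200 ≤ V) (hV2 : V ≤ 9 / 25)
    (h1 : PhaseBound (fSt (23 / 50)) (fAr (1 / 2)) gapAlpha a b V Per) : Tgt V + 1 / 100000 ≤ Per := by
  have hγ : (1 : ℝ) - 23 / 50 = ((540000 : ℕ) : ℝ) / 1000000 := by norm_num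
  have hA : NodeOK (NB1 500000) (fAr (1 / 2)) := by
    have := NAr_ok 500000
    have e : ((500000 : ℕ) : ℝ) / 1000000 = 1 / 2 := by norm_num
    rwa [e] at this
  exact strip_cell (NSt_ok (Sc := 770900) (by norm_num) hγ
    (zone_of hγ (by unfold sn; norm_num))) hA vtp_treeS2S h0 ha hVb hb hV1 hV2 h1

open Fast in
theorem cert_S3' {a b V Per : ℝ} (h0 : 0 ≤ a) (ha : a ≤ 1 / 10000) (hVb : V ≤ b)
    (hb : b ≤ 1 - 1 / 10000) (hV1 : 53 / 200 ≤ V) (hV2 : V ≤ 9 / 25)
    (h1 : PhaseBound (fSt (1 / 2)) (fAr (27 / 50)) gapAlpha a b V Per) : Tgt V + 1 / 100000 ≤ Per := by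
  have hγ : (1 : ℝ) - 1 / 2 = ((500000 : ℕ) : ℝ) / 1000000 := by norm_num
  have hA : NodeOK (NB1 540000) (fAr (27 / 50)) := by
    have := NAr_ok 540000
    have e : ((540000 : ℕ) : ℝ) / 1000000 = 27 / 50 := by norm_num
    rwa [e] at this
  exact strip_cell (NSt_ok (Sc := 803600) (by norm_num) hγ
    (zone_of hγ (by unfold sn; norm_num))) hA vtp_treeS3S h0 ha hVb hb hV1 hV2 h1

open Fast in
theorem cert_S4' {a b V Per : ℝ} (h0 : 0 ≤ a) (ha : a ≤ 1 / 10000) (hVb : V ≤ b)
    (hb : b ≤ 1 - 1 / 10000) (hV1 : 53 / 200 ≤ V) (hV2 : V ≤ 9 / 25)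
    (h1 : PhaseBound (fSt (27 / 50)) (fAr 1) gapAlpha a b V Per) : Tgt V + 1 / 100000 ≤ Per := by
  have hγ : (1 : ℝ) - 27 / 50 = ((460000 : ℕ) : ℝ) / 1000000 := by norm_num
  have hA : NodeOK (NB1 1000000) (fAr 1) := by
    have := NAr_ok 1000000
    have e : ((1000000 : ℕ) : ℝ) / 1000000 = 1 := by norm_num
    rwa [e] at this
  exact strip_cell (NSt_ok (Sc := 833800) (by norm_num) hγ
    (zone_of hγ (by unfold sn; norm_num))) hA vtp_treeS4S h0 ha hVb hb hV1 hV2 h1

end Vale.Agent.Lib.P232
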