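import Vale.Agent.Lib.P232.FastC

open MeasureTheory Filter Topology Set
open scoped Real

namespace Vale.Agent.Lib.P232

namespace CertImpl

open Fast

/-- The target check for the slab on `[9/25, 1/2]`. -/
def finSlab (K LHS : ℤ) : Bool :=
  decide (2 * Ds * Ds ≤ K * 360000 + LHS) && decide (2 * Ds * Ds ≤ K * 500000 + LHS)

lemma finSlab_sound {K LHS : ℤ} (h : finSlab K LHS = true) {V : ℝ} (hV1 : 9 / 25 ≤ V)
    (hV2 : V ≤ 1 / 2) :
    (2 : ℝ) ≤ (K : ℝ) / 1000000 * V + (LHS : ℝ) / 1000000000000 := by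
  unfold finSlab at h
  rw [Bool.and_eq_true, decide_eq_true_eq, decide_eq_true_eq] at h
  obtain ⟨h1, h2⟩ := h
  have h1' : ((2 * Ds * Ds : ℤ) : ℝ) ≤ ((K * 360000 + LHS : ℤ) : ℝ) := by exact_mod_cast h1
  have h2' : ((2 * Ds * Ds : ℤ) : ℝ) ≤ ((K * 500000 + LHS : ℤ) : ℝ) := by exact_mod_cast h2
  push_cast [Ds] at h1' h2'
  have e : (K : ℝ) / 1000000 * V + (LHS : ℝ) / 1000000000000
      = ((K : ℝ) * (1000000 * V) + LHS) / 1000000000000 := by ring
  rw [e, le_div_iff₀ (by norm_num)]
  rcases le_total 0 (K : ℝ) with hK | hK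
  · have := mul_le_mul_of_nonneg_left (show (360000 : ℝ) ≤ 1000000 * V by linarith) hK
    linarith
  · have := mul_le_mul_of_nonpos_left (show 1000000 * V ≤ (500000 : ℝ) by linarith) hK
    linarith

/-- The certificate `slabTree1`. -/
def slabTree1 : FTree :=
  (.node (.node (.node (.node (.node (.node (.node (.leaf 127) (.node (.node (.leaf 15)
  (.leaf 15)) (.leaf 127))) (.node (.leaf 63) (.leaf 127))) (.node (.node (.node (.node
  (.leaf 63) (.leaf 127)) (.node (.leaf 15) (.leaf 15))) (.node (.node (.node (.leaf 255)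
  (.leaf 31)) (.node (.node (.leaf 31) (.node (.node (.leaf 31) (.node (.node (.leaf 31)
  (.node (.node (.leaf 31) (.node (.node (.leaf 31) (.leaf 255)) (.leaf 127))) (.leaf
  255))) (.node (.leaf 15) (.leaf 127)))) (.node (.leaf 15) (.leaf 255)))) (.node (.leaf
  15) (.node (.node (.leaf 15) (.leaf 63)) (.node (.leaf 15) (.leaf 63)))))) (.node (.leaf
  15) (.node (.node (.leaf 15) (.leaf 127)) (.node (.leaf 15) (.leaf 63)))))) (.node
  (.node (.leaf 15) (.leaf 15)) (.node (.leaf 15) (.node (.node (.leaf 15) (.leaf 63))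
  (.node (.leaf 15) (.leaf 31))))))) (.node (.node (.node (.leaf 15) (.leaf 15)) (.node
  (.leaf 15) (.leaf 15))) (.node (.node (.leaf 15) (.leaf 15)) (.node (.leaf 15) (.node
  (.node (.leaf 15) (.leaf 31)) (.leaf 255)))))) (.node (.node (.node (.leaf 15) (.leaf
  15)) (.node (.leaf 15) (.leaf 15))) (.node (.node (.leaf 15) (.leaf 15)) (.node (.leaf
  15) (.node (.leaf 127) (.leaf 31)))))) (.node (.node (.node (.node (.leaf 15) (.node
  (.leaf 15) (.leaf 15))) (.node (.leaf 127) (.node (.leaf 31) (.leaf 63)))) (.node (.node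
  (.leaf 31) (.node (.leaf 31) (.leaf 15))) (.node (.leaf 15) (.leaf 15)))) (.node (.node
  (.leaf 31) (.leaf 15)) (.node (.leaf 15) (.node (.leaf 31) (.leaf 15)))))) (.node (.node
  (.node (.node (.node (.node (.leaf 15) (.leaf 63)) (.node (.node (.leaf 15) (.leaf 15))
  (.node (.node (.leaf 15) (.leaf 31)) (.node (.node (.leaf 15) (.leaf 63)) (.node (.leaf
  31) (.node (.leaf 127) (.node (.leaf 15) (.leaf 63)))))))) (.node (.node (.node (.leaf
  15) (.node (.leaf 15) (.node (.leaf 15) (.leaf 15)))) (.node (.node (.leaf 15) (.node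
  (.leaf 15) (.leaf 63))) (.node (.node (.leaf 31) (.node (.leaf 31) (.node (.leaf 15)
  (.leaf 15)))) (.node (.node (.leaf 127) (.node (.leaf 15) (.leaf 15))) (.node (.node
  (.leaf 15) (.leaf 15)) (.node (.leaf 15) (.leaf 15))))))) (.node (.node (.node (.node
  (.leaf 31) (.node (.leaf 127) (.node (.leaf 15) (.leaf 31)))) (.node (.node (.leaf 63)
  (.node (.leaf 15) (.leaf 31))) (.node (.node (.leaf 31) (.leaf 127)) (.node (.leaf 255)
  (.node (.leaf 127) (.node (.leaf 31) (.leaf 31))))))) (.node (.node (.node (.node (.leaf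
  31) (.leaf 15)) (.node (.leaf 31) (.leaf 31))) (.node (.node (.leaf 15) (.leaf 15))
  (.node (.leaf 15) (.leaf 15)))) (.node (.node (.node (.leaf 127) (.leaf 31)) (.node
  (.node (.leaf 63) (.leaf 127)) (.leaf 31))) (.node (.node (.leaf 15) (.leaf 15)) (.node
  (.leaf 15) (.leaf 15)))))) (.node (.node (.node (.node (.node (.leaf 31) (.leaf 127))
  (.node (.leaf 63) (.node (.leaf 127) (.node (.leaf 31) (.leaf 63))))) (.node (.node
  (.node (.leaf 255) (.node (.leaf 31) (.leaf 31))) (.node (.node (.leaf 31) (.leaf 31))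
  (.node (.leaf 31) (.leaf 31)))) (.node (.node (.node (.leaf 63) (.leaf 63)) (.node
  (.leaf 63) (.leaf 63))) (.node (.node (.leaf 63) (.leaf 31)) (.node (.leaf 63) (.leaf
  31)))))) (.node (.node (.node (.leaf 255) (.node (.node (.leaf 31) (.leaf 63)) (.node
  (.leaf 63) (.leaf 127)))) (.node (.node (.leaf 255) (.node (.leaf 31) (.leaf 63)))
  (.node (.node (.leaf 63) (.leaf 127)) (.node (.leaf 127) (.leaf 255))))) (.node (.node
  (.node (.node (.leaf 63) (.leaf 63)) (.node (.leaf 127) (.leaf 127))) (.node (.node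
  (.leaf 63) (.leaf 31)) (.node (.leaf 63) (.leaf 31)))) (.node (.node (.node (.leaf 127)
  (.leaf 127)) (.node (.leaf 255) (.leaf 127))) (.node (.node (.leaf 63) (.leaf 31))
  (.node (.leaf 63) (.leaf 31))))))) (.node (.node (.node (.node (.node (.leaf 127) (.leaf
  127)) (.leaf 31)) (.node (.node (.leaf 127) (.leaf 127)) (.leaf 31))) (.node (.node
  (.leaf 15) (.leaf 15)) (.leaf 127))) (.node (.node (.node (.leaf 255) (.leaf 15)) (.node
  (.leaf 127) (.leaf 15))) (.leaf 63))))))) (.node (.node (.node (.node (.leaf 63) (.node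
  (.leaf 15) (.leaf 63))) (.node (.node (.node (.leaf 31) (.node (.node (.leaf 31) (.leaf
  127)) (.node (.leaf 31) (.leaf 255)))) (.node (.leaf 127) (.node (.node (.leaf 63)
  (.node (.leaf 127) (.leaf 255))) (.node (.leaf 63) (.node (.leaf 255) (.node (.leaf 31)
  (.leaf 63))))))) (.node (.node (.node (.leaf 63) (.leaf 63)) (.node (.node (.leaf 63)
  (.node (.node (.leaf 31) (.leaf 63)) (.leaf 255))) (.node (.leaf 63) (.node (.leaf 255)
  (.leaf 255))))) (.node (.node (.leaf 127) (.leaf 127)) (.node (.node (.leaf 63) (.leaf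
  255)) (.node (.leaf 63) (.leaf 127))))))) (.node (.node (.node (.leaf 15) (.leaf 63))
  (.node (.leaf 15) (.leaf 31))) (.node (.node (.node (.leaf 255) (.node (.node (.leaf 31)
  (.leaf 63)) (.node (.leaf 31) (.leaf 31)))) (.node (.leaf 127) (.node (.node (.leaf 31)
  (.leaf 31)) (.node (.leaf 31) (.leaf 31))))) (.node (.node (.leaf 63) (.leaf 127))
  (.node (.leaf 31) (.leaf 31)))))) (.node (.node (.node (.node (.node (.node (.node
  (.node (.node (.leaf 63) (.leaf 63)) (.node (.leaf 63) (.leaf 127))) (.node (.node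
  (.leaf 127) (.leaf 255)) (.node (.leaf 255) (.node (.leaf 255) (.leaf 255))))) (.node
  (.node (.node (.leaf 63) (.leaf 127)) (.node (.leaf 63) (.leaf 127))) (.node (.node
  (.leaf 255) (.node (.leaf 255) (.leaf 127))) (.node (.leaf 255) (.leaf 255))))) (.node
  (.node (.node (.node (.leaf 255) (.leaf 127)) (.node (.leaf 255) (.leaf 63))) (.node
  (.node (.leaf 63) (.leaf 31)) (.node (.leaf 31) (.leaf 31)))) (.node (.node (.node
  (.leaf 127) (.leaf 63)) (.node (.leaf 127) (.leaf 63))) (.node (.node (.leaf 31) (.leaf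
  31)) (.node (.leaf 31) (.leaf 15)))))) (.node (.node (.node (.node (.node (.leaf 63)
  (.leaf 127)) (.node (.leaf 63) (.leaf 127))) (.node (.node (.leaf 255) (.leaf 127))
  (.node (.leaf 127) (.leaf 127)))) (.node (.node (.node (.leaf 63) (.leaf 127)) (.node
  (.leaf 63) (.leaf 127))) (.node (.node (.leaf 127) (.leaf 127)) (.node (.leaf 127)
  (.leaf 63))))) (.node (.node (.node (.node (.leaf 127) (.leaf 63)) (.node (.leaf 63)
  (.leaf 31))) (.node (.leaf 255) (.leaf 127))) (.node (.node (.node (.leaf 63) (.leaf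
  31)) (.node (.leaf 31) (.leaf 31))) (.leaf 63))))) (.node (.node (.node (.node (.leaf
  63) (.leaf 15)) (.node (.leaf 31) (.leaf 15))) (.leaf 15)) (.node (.node (.node (.leaf
  31) (.leaf 15)) (.node (.leaf 15) (.leaf 15))) (.leaf 15)))) (.node (.node (.node (.node
  (.node (.node (.node (.leaf 63) (.leaf 63)) (.node (.leaf 63) (.leaf 63))) (.node (.node
  (.leaf 63) (.leaf 63)) (.node (.leaf 63) (.leaf 31)))) (.node (.node (.node (.leaf 63)
  (.leaf 63)) (.node (.leaf 63) (.leaf 63))) (.node (.node (.leaf 63) (.leaf 31)) (.node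
  (.leaf 31) (.leaf 31))))) (.node (.node (.node (.node (.leaf 31) (.leaf 31)) (.leaf
  255)) (.leaf 31)) (.node (.leaf 127) (.leaf 31)))) (.node (.node (.node (.node (.node
  (.leaf 31) (.leaf 31)) (.leaf 255)) (.leaf 255)) (.node (.leaf 127) (.leaf 63))) (.node
  (.node (.leaf 63) (.leaf 15)) (.node (.leaf 31) (.leaf 15))))) (.node (.node (.node
  (.node (.leaf 15) (.leaf 15)) (.leaf 127)) (.leaf 15)) (.node (.leaf 31) (.leaf 15)))))
  (.node (.node (.node (.node (.node (.node (.leaf 63) (.leaf 31)) (.node (.leaf 31)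
  (.leaf 31))) (.node (.node (.leaf 31) (.leaf 15)) (.leaf 255))) (.node (.node (.node
  (.leaf 31) (.leaf 15)) (.node (.leaf 31) (.leaf 15))) (.leaf 63))) (.node (.node (.leaf
  15) (.leaf 15)) (.node (.leaf 15) (.leaf 15)))) (.node (.node (.node (.leaf 63) (.leaf
  31)) (.node (.leaf 31) (.leaf 15))) (.node (.node (.leaf 15) (.leaf 15)) (.leaf
  127))))))) (.node (.node (.node (.node (.node (.leaf 127) (.leaf 31)) (.node (.node
  (.node (.leaf 31) (.leaf 31)) (.node (.leaf 15) (.leaf 15))) (.leaf 255))) (.node (.leaf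
  31) (.leaf 31))) (.node (.node (.node (.node (.node (.leaf 15) (.leaf 15)) (.node (.leaf
  15) (.leaf 15))) (.leaf 15)) (.node (.leaf 63) (.leaf 15))) (.node (.node (.leaf 15)
  (.leaf 15)) (.node (.leaf 15) (.leaf 15))))) (.node (.node (.node (.leaf 15) (.leaf 15))
  (.leaf 31)) (.leaf 63)))) (.node (.node (.node (.leaf 15) (.leaf 15)) (.leaf 31)) (.node
  (.leaf 31) (.node (.leaf 15) (.leaf 15))))))

theorem vtf_slabTree1 : vtf finSlab slabTree1 100 318400 360000 1000000 = true := by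
  decide +kernel

/-- The certificate `slabTree2`. -/
def slabTree2 : FTree :=
  (.node (.node (.leaf 31) (.node (.leaf 15) (.leaf 15))) (.node (.node (.leaf 63) (.leaf
  255)) (.node (.node (.leaf 31) (.leaf 31)) (.node (.leaf 63) (.node (.leaf 31) (.node
  (.leaf 31) (.node (.leaf 63) (.node (.leaf 63) (.node (.leaf 63) (.leaf 255))))))))))

theorem vtf_slabTree2 : vtf finSlab slabTree2 0 100 360000 999900 = true := by
  decide +kernel

/-- The certificate `slabTree3`. -/
def slabTree3 : FTree :=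
  (.node (.node (.leaf 15) (.leaf 15)) (.leaf 15))

theorem vtf_slabTree3 : vtf finSlab slabTree3 318300 500000 681000 1000000 = true := by
  decide +kernel

end CertImpl

open CertImpl Fast in
/-- The certified finite range of parameters for the slab. -/
theorem cert_slab {a b V Per : ℝ} (h0 : 0 ≤ a) (haV : a ≤ V) (hVb : V ≤ b) (hb : b ≤ 1)
    (hV1 : 9 / 25 ≤ V) (hV2 : V ≤ 1 / 2) (hc : ¬(1 / π ≤ a ∧ b ≤ 1 - 1 / π))
    (hc2 : ¬(a ≤ 1 / 10000 ∧ 1 - 1 / 10000 ≤ b))
    (h1 : PairBound I2 a b V Per) : 2 ≤ Per := by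
  have hpi := Real.pi_gt_d4
  have hpi2 := Real.pi_lt_d4
  have hpi0 := Real.pi_pos
  have hb1' : sn 1000000 = 1 := by unfold sn; norm_num
  have hbb : b ≤ sn 1000000 := by rw [hb1']; exact hb
  have hT : ∀ K LHS : ℤ, finSlab K LHS = true →
      (2 : ℝ) ≤ (K : ℝ) / 1000000 * V + (LHS : ℝ) / 1000000000000 :=
    fun K LHS h => finSlab_sound h hV1 hV2
  have hp1 : (318300 : ℝ) / 1000000 ≤ 1 / π := by
    rw [div_le_div_iff₀ (by norm_num) hpi0]
    nlinarith
  have hp2 : 1 / π ≤ (318400 : ℝ) / 1000000 := by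
    rw [div_le_div_iff₀ hpi0 (by norm_num)]
    nlinarith
  by_cases ha : a ≤ 1 / 10000
  · have hb2 : b < 1 - 1 / 10000 := by
      by_contra hcon
      exact hc2 ⟨ha, not_lt.1 hcon⟩
    refine cellF_of_vtf vtf_slabTree2 V _ hT a b Per ?_ ?_ ?_ ?_ h1
    · unfold sn; push_cast; simpa using h0
    · unfold sn; push_cast; linarith
    · unfold sn; push_cast; linarith
    · unfold sn; push_cast; linarith
  · have ha' := not_le.1 ha
    by_cases ha2 : 1 / π ≤ a
    · have hb2 : 1 - 1 / π < b := by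
        by_contra hcon
        exact hc ⟨ha2, not_lt.1 hcon⟩
      refine cellF_of_vtf vtf_slabTree3 V _ hT a b Per ?_ ?_ ?_ hbb h1
      · unfold sn; push_cast; linarith
      · unfold sn; push_cast; linarith
      · unfold sn; push_cast; linarith
    · have ha3 := not_le.1 ha2
      refine cellF_of_vtf vtf_slabTree1 V _ hT a b Per ?_ ?_ ?_ hbb h1
      · unfold sn; push_cast; linarith
      · unfold sn; push_cast; linarith
      · unfold sn; push_cast; linarith

end Vale.Agent.Lib.P232
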