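import Vale.Agent.Lib.P232.Cert

open MeasureTheory Filter Topology Set
open scoped Real

namespace Vale.Agent.Lib.P232

namespace CertImpl

/-! Certificates given by explicit subdivision trees with a number of steps at each leaf. -/

/-- A subdivision tree, with the number of integration steps at each leaf. -/
inductive CTree
  | leaf (n : ℕ)
  | node (l r : CTree)

/-- A checked cell with `n` integration steps. -/
def leafDataN (n : ℕ) (fin : ℤ → ℤ → Bool) (K M H alo ahi blo bhi : ℤ) : Bool :=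
  decide (0 ≤ alo) && decide (alo ≤ ahi) && decide (ahi ≤ blo) && decide (blo ≤ bhi) &&
    decide (bhi ≤ Ds) && decide (1 ≤ H) && decide (ahi + (n : ℤ) * H ≤ blo) &&
    decide (0 ≤ inI alo) && decide (0 ≤ inI bhi) &&
    leS (lnF K M alo) (inI alo) && leS (lnF K M bhi) (inI bhi) &&
    allSteps K M ahi H n &&
    fin K (M * Ds + 2 * (H * sumSteps K M ahi H n) - 1)

/-- The checker for a tree. -/
def vt (fin : ℤ → ℤ → Bool) : CTree → ℤ → ℤ → ℤ → ℤ → Bool
  | .leaf n, alo, ahi, blo, bhi =>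
    leafDataN n fin (leafK alo bhi) (leafM alo bhi) ((blo - ahi) / (n : ℤ)) alo ahi blo bhi
  | .node l r, alo, ahi, blo, bhi =>
    if (ahi - alo) * 100000 > (bhi - blo) * max alo 5000 then
      vt fin l alo ((alo + ahi) / 2) blo bhi && vt fin r ((alo + ahi) / 2) ahi blo bhi
    else
      vt fin l alo ahi blo ((blo + bhi) / 2) && vt fin r alo ahi ((blo + bhi) / 2) bhi

/-- Soundness of a checked cell. -/
theorem leafDataN_sound {n : ℕ} {fin : ℤ → ℤ → Bool} {K M H alo ahi blo bhi : ℤ}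
    (h : leafDataN n fin K M H alo ahi blo bhi = true)
    {a b V Per T : ℝ} (hal : sc alo ≤ a) (hah : a ≤ sc ahi) (hbl : sc blo ≤ b) (hbh : b ≤ sc bhi)
    (hT : ∀ K LHS : ℤ, fin K LHS = true → T ≤ (K : ℝ) / 1000000 * V + (LHS : ℝ) / 1000000000000)
    (hPB : PairBound I2 a b V Per) : T ≤ Per := by
  unfold leafDataN at h
  simp only [Bool.and_eq_true, decide_eq_true_eq] at h
  obtain ⟨⟨⟨⟨⟨⟨⟨⟨⟨⟨⟨⟨h1, h2⟩, h3⟩, h4⟩, h5⟩, h6⟩, h7⟩, -⟩, -⟩, h10⟩, h11⟩, h12⟩, h13⟩ := h
  have hH0 : 0 ≤ H := by linarith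
  have hnode0 : ∀ j : ℕ, 0 ≤ nodeS ahi H j := by
    intro j
    unfold nodeS
    have : (0 : ℤ) ≤ (j : ℤ) * H := mul_nonneg (Int.natCast_nonneg j) hH0
    linarith
  have hnode1 : ∀ j : ℕ, j ≤ n → nodeS ahi H j ≤ Ds := by
    intro j hj
    unfold nodeS
    have hj' : (j : ℤ) ≤ (n : ℤ) := by exact_mod_cast hj
    have : (j : ℤ) * H ≤ (n : ℤ) * H := mul_le_mul_of_nonneg_right hj' hH0
    linarith
  have hnodeM : ∀ j : ℕ, nodeS ahi H j ≤ nodeS ahi H (j + 1) := by
    intro j
    unfold nodeS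
    push_cast
    nlinarith
  have hstepS := allSteps_spec h12
  have hH1 : (1 : ℝ) ≤ H := by exact_mod_cast h6
  have hn1 : (0 : ℝ) < (n : ℝ) + 1 := by positivity
  set d : ℝ := 1 / (4000000000000 * ((n : ℝ) + 1)) with hd
  have hd0 : 0 < d := by positivity
  have hdn : 4 * d * (n : ℝ) ≤ 1 / 1000000000000 := by
    rw [hd]
    have : 4 * (1 / (4000000000000 * ((n : ℝ) + 1))) * (n : ℝ)
        = (n : ℝ) / ((n : ℝ) + 1) * (1 / 1000000000000) := by
      field_simp
      ring
    rw [this]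
    have h2 : (n : ℝ) / ((n : ℝ) + 1) ≤ 1 := by
      rw [div_le_one hn1]; linarith
    nlinarith
  have hd1 : 2 * d ≤ 1 / 1000000 := by
    rw [hd]
    have h2 : (1 : ℝ) ≤ (n : ℝ) + 1 := by
      have : (0 : ℝ) ≤ n := Nat.cast_nonneg n
      linarith
    have : 1 / (4000000000000 * ((n : ℝ) + 1)) ≤ 1 / (4000000000000 * 1) := by
      apply one_div_le_one_div_of_le (by norm_num)
      nlinarith
    linarith
  refine core (k := (K : ℝ) / 1000000) (m := (M : ℝ) / 1000000) (d := d)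
    (h := (H : ℝ) / 1000000) (u := sc ahi) (N := n)
    (r := fun j => (rVal K M (nodeS ahi H j) (nodeS ahi H (j + 1)) : ℝ) / 1000000)
    hPB hd0 ?_ ?_ hah ?_ ?_ ?_ ?_
  · have : (1 : ℝ) / 1000000 ≤ (H : ℝ) / 1000000 := by
      apply div_le_div_of_nonneg_right hH1 (by norm_num)
    linarith
  · intro j hj
    have := step_sound (hnode0 j) (hnodeM j) (hnode1 (j + 1) hj) (hstepS j hj)
    exact ⟨this.1, this.2.1⟩
  · have h8' : sc (ahi + (n : ℤ) * H) ≤ sc blo := sc_mono (by
      have := h7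
      linarith)
    have : sc (ahi + (n : ℤ) * H) = sc ahi + (n : ℝ) * ((H : ℝ) / 1000000) := by
      unfold sc
      push_cast
      ring
    rw [← this]
    exact h8'.trans hbl
  · intro s hs
    have hx0 := sc_nonneg h1
    have hxy : sc alo ≤ sc bhi := sc_mono (by linarith)
    have hy1 := sc_le_one h5
    have hs' : s ∈ Icc (sc alo) (sc bhi) := ⟨hal.trans hs.1, hs.2.trans hbh⟩
    refine affine_le_I2 hx0 hxy hy1 hs' ?_ ?_
    · rw [line_eq]
      exact (leS_sound h10).trans (sqrt_inI_le h1 (by linarith))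
    · rw [line_eq]
      exact (leS_sound h11).trans (sqrt_inI_le (by linarith) h5)
  · intro j hj s hs
    have := (step_sound (hnode0 j) (hnodeM j) (hnode1 (j + 1) hj) (hstepS j hj)).2.2 s ?_
    · exact this
    · rw [nodeS_sc, nodeS_sc]
      push_cast
      exact hs
  · have hf := hT _ _ h13
    refine hf.trans ?_
    set S : ℝ := ∑ j ∈ Finset.range n, (rVal K M (nodeS ahi H j) (nodeS ahi H (j + 1)) : ℝ)
      with hS
    have e1 : ((M * Ds + 2 * (H * sumSteps K M ahi H n) - 1 : ℤ) : ℝ)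
        = (M : ℝ) * 1000000 + 2 * ((H : ℝ) * S) - 1 := by
      push_cast [Ds]
      rw [sumSteps_eq]
    rw [e1]
    have hr1 : ∀ j ∈ Finset.range n,
        (rVal K M (nodeS ahi H j) (nodeS ahi H (j + 1)) : ℝ) / 1000000 ≤ 1 := by
      intro j hj
      have hj' := Finset.mem_range.1 hj
      exact (step_sound (hnode0 j) (hnodeM j) (hnode1 (j + 1) hj') (hstepS j hj')).2.1
    have hsum1 : ∑ j ∈ Finset.range n,
        (rVal K M (nodeS ahi H j) (nodeS ahi H (j + 1)) : ℝ) / 1000000 ≤ (n : ℝ) := by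
      have := Finset.sum_le_card_nsmul (Finset.range n) _ 1 hr1
      simpa using this
    have e2 : ∑ j ∈ Finset.range n,
        (rVal K M (nodeS ahi H j) (nodeS ahi H (j + 1)) : ℝ) / 1000000 *
          ((H : ℝ) / 1000000 - 2 * d)
        = ∑ j ∈ Finset.range n,
            ((rVal K M (nodeS ahi H j) (nodeS ahi H (j + 1)) : ℝ) / 1000000) *
          ((H : ℝ) / 1000000 - 2 * d) := rfl
    have e3 : ∑ j ∈ Finset.range n,
        (rVal K M (nodeS ahi H j) (nodeS ahi H (j + 1)) : ℝ) / 1000000 *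
          ((H : ℝ) / 1000000 - 2 * d)
        = (S / 1000000) * ((H : ℝ) / 1000000 - 2 * d) := by
      rw [← Finset.sum_mul, hS, Finset.sum_div]
    have e4 : S / 1000000 = ∑ j ∈ Finset.range n,
        (rVal K M (nodeS ahi H j) (nodeS ahi H (j + 1)) : ℝ) / 1000000 := by
      rw [hS, Finset.sum_div]
    rw [← e4] at hsum1
    rw [e3]
    have hloss : 4 * d * (S / 1000000) ≤ 1 / 1000000000000 := by
      have : 4 * d * (S / 1000000) ≤ 4 * d * (n : ℝ) :=
        mul_le_mul_of_nonneg_left hsum1 (by positivity)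
      linarith
    have e5 : (K : ℝ) / 1000000 * V + ((M : ℝ) * 1000000 + 2 * ((H : ℝ) * S) - 1) / 1000000000000
        = (K : ℝ) / 1000000 * V + (M : ℝ) / 1000000
          + 2 * ((S / 1000000) * ((H : ℝ) / 1000000)) - 1 / 1000000000000 := by
      ring
    rw [e5]
    nlinarith

/-- Soundness of the tree checker. -/
theorem vt_sound {fin : ℤ → ℤ → Bool} {V T : ℝ}
    (hT : ∀ K LHS : ℤ, fin K LHS = true → T ≤ (K : ℝ) / 1000000 * V + (LHS : ℝ) / 1000000000000) :
    ∀ (t : CTree) (alo ahi blo bhi : ℤ), vt fin t alo ahi blo bhi = true →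
    ∀ {a b Per : ℝ}, sc alo ≤ a → a ≤ sc ahi → sc blo ≤ b → b ≤ sc bhi →
      PairBound I2 a b V Per → T ≤ Per
  | .leaf n, alo, ahi, blo, bhi, h, a, b, Per, hal, hah, hbl, hbh, hPB => by
    unfold vt at h
    exact leafDataN_sound h hal hah hbl hbh hT hPB
  | .node l r, alo, ahi, blo, bhi, h, a, b, Per, hal, hah, hbl, hbh, hPB => by
    unfold vt at h
    split_ifs at h with hc
    · rw [Bool.and_eq_true] at h
      rcases le_total a (sc ((alo + ahi) / 2)) with hm | hm
      · exact vt_sound hT l _ _ _ _ h.1 hal hm hbl hbh hPB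
      · exact vt_sound hT r _ _ _ _ h.2 hm hah hbl hbh hPB
    · rw [Bool.and_eq_true] at h
      rcases le_total b (sc ((blo + bhi) / 2)) with hm | hm
      · exact vt_sound hT l _ _ _ _ h.1 hal hah hbl hm hPB
      · exact vt_sound hT r _ _ _ _ h.2 hal hah hm hbh hPB

/-- The bound given by a family of parameters in a cell. -/
def CellOK (fin : ℤ → ℤ → Bool) (alo ahi blo bhi : ℤ) : Prop :=
  ∀ {V T : ℝ}, (∀ K LHS : ℤ, fin K LHS = true →
      T ≤ (K : ℝ) / 1000000 * V + (LHS : ℝ) / 1000000000000) →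
    ∀ {a b Per : ℝ}, sc alo ≤ a → a ≤ sc ahi → sc blo ≤ b → b ≤ sc bhi →
      PairBound I2 a b V Per → T ≤ Per

theorem cell_of_vt {fin : ℤ → ℤ → Bool} {t : CTree} {alo ahi blo bhi : ℤ}
    (h : vt fin t alo ahi blo bhi = true) : CellOK fin alo ahi blo bhi :=
  fun hT _ _ _ hal hah hbl hbh hPB => vt_sound hT t alo ahi blo bhi h hal hah hbl hbh hPB

theorem cell_split_a {fin : ℤ → ℤ → Bool} {alo ahi blo bhi : ℤ} (mid : ℤ)
    (h1 : CellOK fin alo mid blo bhi) (h2 : CellOK fin mid ahi blo bhi) :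
    CellOK fin alo ahi blo bhi := by
  intro V T hT a b Per hal hah hbl hbh hPB
  rcases le_total a (sc mid) with hm | hm
  · exact h1 hT hal hm hbl hbh hPB
  · exact h2 hT hm hah hbl hbh hPB

theorem cell_split_b {fin : ℤ → ℤ → Bool} {alo ahi blo bhi : ℤ} (mid : ℤ)
    (h1 : CellOK fin alo ahi blo mid) (h2 : CellOK fin alo ahi mid bhi) :
    CellOK fin alo ahi blo bhi := by
  intro V T hT a b Per hal hah hbl hbh hPB
  rcases le_total b (sc mid) with hm | hm
  · exact h1 hT hal hah hbl hm hPB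
  · exact h2 hT hal hah hm hbh hPB

end CertImpl

end Vale.Agent.Lib.P232
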