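import Vale.Agent.Lib.P232.FastC

open MeasureTheory Filter Topology Set
open scoped Real

namespace Vale.Agent.Lib.P232

namespace CertImpl

open Fast

/-- The arithmetic mean bound for the tube value. -/
lemma tube_le_line {k V : ℝ} (hk : 0 < k) (hV : 0 ≤ V) : tubeVal V ≤ k * V + π / k := by
  unfold tubeVal
  have hpi := Real.pi_pos
  set x := √(π * V) with hx
  have hx2 : x ^ 2 = π * V := Real.sq_sqrt (by positivity)
  have hV' : V = x ^ 2 / π := by
    rw [hx2]; field_simp
  have key : k * V + π / k - 2 * x = (k * x - π) ^ 2 / (k * π) := by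
    rw [hV']
    field_simp
    ring
  have : 0 ≤ (k * x - π) ^ 2 / (k * π) := by positivity
  linarith

/-- The target check for the tube on `[4π/81, 53/200]`. -/
def finTube (K LHS : ℤ) : Bool :=
  if 4500000 ≤ K then
    decide (K ≤ 9 * Ds) && decide (4 * Ph * (9 * Ds - K) * Ds ≤ LHS * (81 * Q0))
  else if K ≤ 3443000 then
    decide (912460063898 + (3443000 - K) * 265000 ≤ LHS)
  else
    decide (Ph * Ds * Ds * 100 ≤ LHS * K)

lemma finTube_sound {K LHS : ℤ} (h : finTube K LHS = true) {V : ℝ} (hV1 : 4 * π / 81 ≤ V)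
    (hV2 : V ≤ 53 / 200) :
    tubeVal V ≤ (K : ℝ) / 1000000 * V + (LHS : ℝ) / 1000000000000 := by
  have hpi := Real.pi_lt_d4
  have hpi0 := Real.pi_pos
  have hV0 : 0 ≤ V := le_trans (by positivity) hV1
  unfold finTube at h
  split_ifs at h with h1 h2
  · rw [Bool.and_eq_true, decide_eq_true_eq, decide_eq_true_eq] at h
    obtain ⟨h3, h4⟩ := h
    have h4' : ((4 * Ph * (9 * Ds - K) * Ds : ℤ) : ℝ) ≤ ((LHS * (81 * Q0) : ℤ) : ℝ) := by
      exact_mod_cast h4
    push_cast [Ph, Q0, Ds] at h4'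
    have h1' : (4500000 : ℝ) ≤ K := by exact_mod_cast h1
    have h3' : (K : ℝ) ≤ 9000000 := by
      have : (K : ℝ) ≤ ((9 * Ds : ℤ) : ℝ) := by exact_mod_cast h3
      push_cast [Ds] at this
      linarith
    have hb := tube_le_line (k := 9 / 2) (by norm_num) hV0
    have hk : (0 : ℝ) ≤ (K : ℝ) / 1000000 - 9 / 2 := by
      rw [sub_nonneg, le_div_iff₀ (by norm_num)]; linarith
    have h5 : 0 ≤ ((K : ℝ) / 1000000 - 9 / 2) * (V - 4 * π / 81) :=
      mul_nonneg hk (by linarith)
    have hpos : (0 : ℝ) ≤ 9 - (K : ℝ) / 1000000 := by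
      have : (K : ℝ) / 1000000 ≤ 9 := by
        rw [div_le_iff₀ (by norm_num)]; linarith
      linarith
    have e : (4 * π / 81) * (9 - (K : ℝ) / 1000000) ≤ (LHS : ℝ) / 1000000000000 := by
      have e1 : (4 * π / 81) * (9 - (K : ℝ) / 1000000)
          ≤ (4 * 3.1416 / 81) * (9 - (K : ℝ) / 1000000) := by
        apply mul_le_mul_of_nonneg_right _ hpos
        linarith
      refine e1.trans ?_
      rw [le_div_iff₀ (by norm_num)]
      nlinarith
    have e2 : π / (9 / 2) = 2 * π / 9 := by ring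
    rw [e2] at hb
    nlinarith
  · rw [decide_eq_true_eq] at h
    have h4' : ((912460063898 + (3443000 - K) * 265000 : ℤ) : ℝ) ≤ (LHS : ℝ) := by
      exact_mod_cast h
    push_cast at h4'
    have h2' : (K : ℝ) ≤ 3443000 := by exact_mod_cast h2
    have hb := tube_le_line (k := 3443 / 1000) (by norm_num) hV0
    have hk : (0 : ℝ) ≤ 3443 / 1000 - (K : ℝ) / 1000000 := by
      rw [sub_nonneg, div_le_iff₀ (by norm_num)]; linarith
    have h5 : 0 ≤ (3443 / 1000 - (K : ℝ) / 1000000) * (53 / 200 - V) :=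
      mul_nonneg hk (by linarith)
    have h6 : π / (3443 / 1000) ≤ 912460063898 / 1000000000000 := by
      rw [div_le_div_iff₀ (by norm_num) (by norm_num)]
      nlinarith
    have h7 : (912460063898 + (3443000 - (K : ℝ)) * 265000) / 1000000000000
        ≤ (LHS : ℝ) / 1000000000000 := by
      apply div_le_div_of_nonneg_right h4' (by norm_num)
    have h8 : (912460063898 + (3443000 - (K : ℝ)) * 265000) / 1000000000000
        = 912460063898 / 1000000000000 + (3443 / 1000 - (K : ℝ) / 1000000) * (53 / 200) := by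
      ring
    rw [h8] at h7
    nlinarith
  · rw [decide_eq_true_eq] at h
    have hK : (3443000 : ℝ) < K := by
      have := not_le.1 h2
      exact_mod_cast this
    have hK0 : (0 : ℝ) < K := by linarith
    have h4' : ((Ph * Ds * Ds * 100 : ℤ) : ℝ) ≤ ((LHS * K : ℤ) : ℝ) := by exact_mod_cast h
    push_cast [Ph, Ds] at h4'
    have hk : (0 : ℝ) < (K : ℝ) / 1000000 := by positivity
    have hb := tube_le_line (k := (K : ℝ) / 1000000) hk hV0
    have e : π / ((K : ℝ) / 1000000) ≤ (LHS : ℝ) / 1000000000000 := by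
      rw [div_div_eq_mul_div, div_le_div_iff₀ hK0 (by norm_num)]
      nlinarith
    linarith

/-- The certificate `tubeTree1`. -/
def tubeTree1 : FTree :=
  (.node (.node (.node (.node (.node (.node (.node (.node (.node (.node (.node (.node
  (.leaf 31) (.leaf 31)) (.leaf 63)) (.node (.node (.leaf 63) (.leaf 63)) (.leaf 63)))
  (.node (.leaf 31) (.leaf 31))) (.node (.node (.node (.node (.leaf 31) (.leaf 31)) (.leaf
  63)) (.node (.node (.leaf 31) (.leaf 63)) (.leaf 63))) (.node (.leaf 31) (.leaf 63))))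
  (.node (.node (.leaf 31) (.leaf 31)) (.node (.leaf 31) (.leaf 63)))) (.node (.node
  (.node (.node (.node (.node (.leaf 63) (.leaf 63)) (.leaf 127)) (.node (.node (.leaf 63)
  (.leaf 63)) (.leaf 63))) (.node (.leaf 63) (.leaf 63))) (.node (.node (.leaf 127) (.leaf
  31)) (.leaf 63))) (.node (.node (.leaf 63) (.leaf 31)) (.leaf 31)))) (.node (.node
  (.node (.node (.leaf 15) (.leaf 15)) (.node (.leaf 15) (.leaf 15))) (.node (.node (.leaf
  31) (.leaf 31)) (.node (.leaf 31) (.leaf 31)))) (.node (.node (.node (.leaf 31) (.leaf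
  31)) (.node (.leaf 31) (.leaf 15))) (.leaf 31)))) (.node (.node (.node (.node (.leaf 63)
  (.leaf 31)) (.leaf 255)) (.node (.node (.leaf 15) (.leaf 31)) (.leaf 63))) (.node (.leaf
  63) (.leaf 31)))) (.node (.node (.node (.node (.node (.leaf 15) (.leaf 15)) (.node
  (.leaf 15) (.leaf 31))) (.node (.node (.leaf 63) (.leaf 127)) (.node (.node (.leaf 15)
  (.leaf 31)) (.node (.leaf 31) (.leaf 31))))) (.node (.node (.node (.leaf 63) (.leaf 31))
  (.node (.leaf 31) (.leaf 15))) (.leaf 31))) (.node (.leaf 31) (.leaf 15)))) (.node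
  (.node (.node (.node (.node (.leaf 31) (.node (.leaf 255) (.node (.leaf 15) (.leaf
  31)))) (.node (.node (.leaf 15) (.leaf 31)) (.node (.node (.leaf 31) (.node (.leaf 15)
  (.leaf 31))) (.node (.node (.leaf 31) (.leaf 31)) (.node (.leaf 63) (.node (.leaf 31)
  (.leaf 63))))))) (.node (.node (.node (.node (.leaf 31) (.leaf 31)) (.node (.leaf 63)
  (.leaf 127))) (.node (.node (.leaf 31) (.leaf 31)) (.node (.leaf 63) (.leaf 31))))
  (.node (.node (.node (.node (.leaf 63) (.leaf 63)) (.node (.node (.leaf 63) (.leaf 63))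
  (.node (.leaf 63) (.leaf 63)))) (.node (.node (.leaf 63) (.leaf 63)) (.node (.node
  (.leaf 31) (.leaf 63)) (.leaf 127)))) (.node (.node (.leaf 127) (.leaf 127)) (.node
  (.leaf 31) (.leaf 31)))))) (.node (.node (.node (.node (.leaf 31) (.leaf 31)) (.leaf
  31)) (.node (.leaf 127) (.leaf 15))) (.leaf 63))) (.node (.leaf 15) (.leaf 15)))) (.node
  (.node (.node (.node (.node (.node (.node (.leaf 15) (.node (.leaf 63) (.node (.leaf 15)
  (.leaf 63)))) (.node (.node (.leaf 15) (.leaf 127)) (.node (.node (.leaf 31) (.leaf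
  127)) (.node (.node (.leaf 31) (.leaf 63)) (.node (.leaf 63) (.node (.leaf 31) (.leaf
  31))))))) (.node (.node (.node (.node (.leaf 31) (.node (.leaf 31) (.leaf 63))) (.node
  (.node (.leaf 63) (.leaf 127)) (.node (.node (.leaf 31) (.leaf 63)) (.node (.leaf 63)
  (.leaf 63))))) (.node (.node (.node (.leaf 63) (.node (.leaf 31) (.leaf 63))) (.node
  (.leaf 255) (.node (.leaf 63) (.leaf 63)))) (.node (.node (.node (.leaf 63) (.leaf 127))
  (.node (.leaf 127) (.leaf 127))) (.node (.node (.leaf 127) (.leaf 127)) (.node (.leaf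
  127) (.leaf 127)))))) (.node (.node (.node (.node (.node (.leaf 31) (.leaf 31)) (.node
  (.leaf 63) (.leaf 63))) (.node (.node (.leaf 31) (.leaf 31)) (.node (.leaf 63) (.leaf
  31)))) (.node (.node (.node (.leaf 63) (.leaf 63)) (.node (.leaf 127) (.leaf 127)))
  (.node (.node (.leaf 63) (.leaf 31)) (.node (.leaf 63) (.leaf 31))))) (.node (.node
  (.node (.node (.leaf 127) (.leaf 63)) (.node (.leaf 127) (.leaf 63))) (.node (.node
  (.leaf 31) (.leaf 31)) (.node (.leaf 31) (.leaf 15)))) (.node (.node (.node (.leaf 127)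
  (.leaf 63)) (.node (.leaf 63) (.leaf 31))) (.node (.node (.leaf 31) (.leaf 15)) (.leaf
  63))))))) (.node (.node (.node (.node (.leaf 127) (.node (.leaf 31) (.leaf 15))) (.node
  (.node (.leaf 15) (.leaf 15)) (.node (.leaf 15) (.leaf 15)))) (.node (.node (.node
  (.node (.leaf 15) (.leaf 31)) (.leaf 31)) (.node (.node (.leaf 63) (.leaf 63)) (.leaf
  31))) (.node (.node (.leaf 15) (.leaf 15)) (.leaf 31)))) (.node (.node (.node (.node
  (.node (.leaf 127) (.leaf 63)) (.leaf 15)) (.node (.node (.leaf 63) (.leaf 31)) (.leaf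
  15))) (.leaf 15)) (.node (.node (.node (.leaf 31) (.leaf 15)) (.node (.leaf 15) (.leaf
  15))) (.leaf 15))))) (.node (.node (.node (.node (.node (.node (.node (.leaf 255) (.node
  (.leaf 63) (.leaf 63))) (.node (.leaf 127) (.leaf 127))) (.node (.node (.node (.leaf 63)
  (.leaf 63)) (.leaf 255)) (.node (.leaf 63) (.leaf 63)))) (.node (.node (.node (.leaf 63)
  (.leaf 31)) (.leaf 127)) (.node (.leaf 255) (.leaf 63)))) (.node (.node (.node (.node
  (.node (.leaf 31) (.leaf 31)) (.node (.leaf 31) (.leaf 31))) (.leaf 63)) (.node (.leaf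
  255) (.leaf 31))) (.node (.node (.leaf 31) (.leaf 15)) (.node (.leaf 15) (.leaf 15)))))
  (.node (.node (.node (.leaf 63) (.leaf 31)) (.leaf 127)) (.leaf 127))) (.node (.node
  (.node (.node (.node (.leaf 15) (.leaf 15)) (.leaf 31)) (.leaf 15)) (.node (.leaf 15)
  (.leaf 15))) (.node (.node (.leaf 15) (.leaf 15)) (.leaf 31))))) (.node (.node (.node
  (.node (.leaf 31) (.leaf 15)) (.leaf 31)) (.leaf 15)) (.node (.leaf 15) (.leaf 15))))
  (.node (.leaf 15) (.leaf 15))))

theorem vtf_tubeTree1 : vtf finTube tubeTree1 2500 265000 318300 1000000 = true := by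
  decide +kernel

/-- The certificate `tubeTree2`. -/
def tubeTree2 : FTree :=
  (.node (.node (.node (.leaf 127) (.leaf 63)) (.leaf 63)) (.node (.leaf 31) (.leaf 127)))

theorem vtf_tubeTree2 : vtf finTube tubeTree2 0 2500 700000 1000000 = true := by
  decide +kernel

end CertImpl

open CertImpl Fast in
/-- The certified finite range of parameters for the tube. -/
theorem cert_tube {a b V Per : ℝ} (h0 : 0 ≤ a) (haV : a ≤ V) (hVb : V ≤ b) (hb : b ≤ 1)
    (hV1 : 4 * π / 81 ≤ V) (hV2 : V ≤ 53 / 200) (hb1 : 1 / π < b)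
    (hc : 1 / 400 ≤ a ∨ 7 / 10 ≤ b)
    (h1 : PairBound I2 a b V Per) : tubeVal V ≤ Per := by
  have hpi := Real.pi_lt_d4
  have hpi0 := Real.pi_pos
  have hb1' : sn 1000000 = 1 := by unfold sn; norm_num
  have hbb : b ≤ sn 1000000 := by rw [hb1']; exact hb
  have hT : ∀ K LHS : ℤ, finTube K LHS = true →
      tubeVal V ≤ (K : ℝ) / 1000000 * V + (LHS : ℝ) / 1000000000000 :=
    fun K LHS h => finTube_sound h hV1 hV2
  by_cases ha : 1 / 400 ≤ a
  · refine cellF_of_vtf vtf_tubeTree1 V _ hT a b Per ?_ ?_ ?_ hbb h1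
    · unfold sn; push_cast; linarith
    · unfold sn; push_cast; linarith
    · have : (318300 : ℝ) / 1000000 ≤ 1 / π := by
        rw [div_le_div_iff₀ (by norm_num) hpi0]
        nlinarith
      unfold sn; push_cast; linarith
  · have hb3 : 7 / 10 ≤ b := by
      rcases hc with hc | hc
      · exact absurd hc ha
      · exact hc
    refine cellF_of_vtf vtf_tubeTree2 V _ hT a b Per ?_ ?_ ?_ hbb h1
    · unfold sn; push_cast; simpa using h0
    · unfold sn; push_cast; linarith [not_le.1 ha]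
    · unfold sn; push_cast; linarith

end Vale.Agent.Lib.P232
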