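import Vale.Agent.Lib.P232.Basic

set_option linter.unusedVariables false

open MeasureTheory Filter Topology Set
open scoped Real

namespace Vale.Agent.Lib.P232

/-- Numerical bounds for the square root of `π`. -/
lemma sqrtPi_bounds : (1.7724 : ℝ) < √π ∧ √π < 1.7725 := by
  constructor
  · apply Real.lt_sqrt_of_sq_lt
    have := Real.pi_gt_d4
    norm_num
    linarith
  · rw [Real.sqrt_lt' (by norm_num)]
    have := Real.pi_lt_d4
    norm_num
    linarith

lemma sq_sqrtPi : √π ^ 2 = π := Real.sq_sqrt Real.pi_pos.le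

/-- Supporting lines of the ball value. -/
lemma ball_le {V k : ℝ} (hV : 0 ≤ V) (hk : 0 < k) :
    ballVal V ≤ k * V + (16 * π / 3) / k ^ 2 := by
  unfold ballVal
  set c : ℝ := (36 * π) ^ (1 / 3 : ℝ) with hc
  set x : ℝ := V ^ (1 / 3 : ℝ) with hx
  have hpi := Real.pi_pos
  have hc0 : 0 ≤ c := Real.rpow_nonneg (by positivity) _
  have hx0 : 0 ≤ x := Real.rpow_nonneg hV _
  have hc3 : c ^ 3 = 36 * π := by
    rw [hc, ← Real.rpow_natCast, ← Real.rpow_mul (by positivity)]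
    norm_num
  have hx3 : x ^ 3 = V := by
    rw [hx, ← Real.rpow_natCast, ← Real.rpow_mul hV]
    norm_num
  have hx2 : V ^ (2 / 3 : ℝ) = x ^ 2 := by
    rw [hx, ← Real.rpow_natCast, ← Real.rpow_mul hV]
    norm_num
  rw [hx2, ← hx3]
  have key : 0 ≤ (3 * k * x - 2 * c) ^ 2 * (3 * k * x + c) :=
    mul_nonneg (sq_nonneg _) (by positivity)
  have hk2 : 0 < k ^ 2 := by positivity
  have e : k ^ 2 * (k * x ^ 3 + 16 * π / 3 / k ^ 2) = k ^ 3 * x ^ 3 + 16 * π / 3 := by
    field_simp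
  have h2 : k ^ 2 * (c * x ^ 2) ≤ k ^ 2 * (k * x ^ 3 + 16 * π / 3 / k ^ 2) := by
    rw [e]
    nlinarith
  exact le_of_mul_le_mul_left h2 hk2

/-- Supporting lines of the tube value. -/
lemma tube_le {V k : ℝ} (hV : 0 ≤ V) (hk : 0 < k) : tubeVal V ≤ k * V + π / k := by
  unfold tubeVal
  have hpi := Real.pi_pos
  rw [Real.sqrt_mul hpi.le]
  set a := √π with ha
  set b := √V with hb
  have ha2 : a ^ 2 = π := Real.sq_sqrt hpi.le
  have hb2 : b ^ 2 = V := Real.sq_sqrt hV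
  have h : k * (2 * (a * b)) ≤ k * (k * V + π / k) := by
    have e : k * (k * V + π / k) = k ^ 2 * V + π := by
      field_simp
    rw [e, ← ha2, ← hb2]
    nlinarith [sq_nonneg (k * b - a)]
  exact le_of_mul_le_mul_left h hk

/-- The kink of the minimum of ball and tube values. -/
lemma kink_le {V k : ℝ} (hV : 0 ≤ V) (hk1 : 9 / 2 ≤ k) (hk2 : k ≤ 6) :
    min (ballVal V) (tubeVal V) ≤ 4 * π / 9 + k * (V - 4 * π / 81) := by
  have hpi := Real.pi_pos
  by_cases h : V ≤ 4 * π / 81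
  · refine (min_le_left _ _).trans ?_
    have h1 := ball_le hV (by norm_num : (0 : ℝ) < 6)
    have e : (6 : ℝ) * V + 16 * π / 3 / 6 ^ 2 = 4 * π / 9 + 6 * (V - 4 * π / 81) := by ring
    rw [e] at h1
    have : 6 * (V - 4 * π / 81) ≤ k * (V - 4 * π / 81) := by nlinarith
    linarith
  · refine (min_le_right _ _).trans ?_
    push Not at h
    have h1 := tube_le hV (by norm_num : (0 : ℝ) < 9 / 2)
    have e : (9 / 2 : ℝ) * V + π / (9 / 2) = 4 * π / 9 + (9 / 2) * (V - 4 * π / 81) := by ring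
    rw [e] at h1
    have : (9 / 2) * (V - 4 * π / 81) ≤ k * (V - 4 * π / 81) := by nlinarith
    linarith

section values

variable {p q V : ℝ}

/-- The ball supporting line with the slope of the chord. -/
lemma ball_chord (hσ : 0 < p + q) (hV : 0 ≤ V) :
    ballVal V ≤ 2 * √π / (p + q) * V + 4 / 3 * (p + q) ^ 2 := by
  have hpi := Real.pi_pos
  have hr : 0 < √π := Real.sqrt_pos.2 hpi
  have h := ball_le hV (by positivity : 0 < 2 * √π / (p + q))
  have e : 16 * π / 3 / (2 * √π / (p + q)) ^ 2 = 4 / 3 * (p + q) ^ 2 := by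
    have h2 := sq_sqrtPi
    rw [div_pow, mul_pow, h2]
    field_simp
    ring
  rwa [e] at h

/-- The tube supporting line with the slope of the chord. -/
lemma tube_chord (hσ : 0 < p + q) (hV : 0 ≤ V) :
    tubeVal V ≤ 2 * √π / (p + q) * V + √π * (p + q) / 2 := by
  have hpi := Real.pi_pos
  have hr : 0 < √π := Real.sqrt_pos.2 hpi
  have h := tube_le hV (by positivity : 0 < 2 * √π / (p + q))
  have e : π / (2 * √π / (p + q)) = √π * (p + q) / 2 := by
    have h2 := sq_sqrtPi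
    nth_rewrite 1 [← h2]
    field_simp
  rwa [e] at h

end values

/-- The chord value dominates the ball value or the tube value. -/
theorem R0_bound {p q V : ℝ} (hp : 0 ≤ p) (hpq : p ≤ q) (hq : 0 < q) (hV : 0 ≤ V) :
    min (ballVal V) (tubeVal V) ≤ chordVal p q V := by
  have hσ : 0 < p + q := by linarith
  have hr : 0 < √π := Real.sqrt_pos.2 Real.pi_pos
  unfold chordVal
  set σ := p + q with hσdef
  by_cases hcase : σ ≤ 3 * √π / 8
  · refine (min_le_left _ _).trans ((ball_chord hσ hV).trans ?_)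
    have h1 : 16 / 3 ≤ 2 * √π / σ := by
      rw [le_div_iff₀ hσ]
      linarith
    have h2 : 2 * √π * p * q / σ = 2 * √π / σ * (p * q) := by ring
    rw [h2]
    have h3 : 16 / 3 * (p * q) ≤ 2 * √π / σ * (p * q) :=
      mul_le_mul_of_nonneg_right h1 (by positivity)
    rw [hσdef] at h3 ⊢
    nlinarith
  · push Not at hcase
    refine (min_le_right _ _).trans ((tube_chord hσ hV).trans ?_)
    have h1 : 2 * √π * p * q / σ + 4 / 3 * (q - p) ^ 2 - √π * σ / 2 =
        (q - p) ^ 2 * (4 / 3 - √π / (2 * σ)) := by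
      have : σ ≠ 0 := hσ.ne'
      rw [hσdef] at this ⊢
      field_simp
      ring
    have h2 : √π / (2 * σ) ≤ 4 / 3 := by
      rw [div_le_iff₀ (by positivity)]
      linarith
    have h3 : 0 ≤ (q - p) ^ 2 * (4 / 3 - √π / (2 * σ)) :=
      mul_nonneg (sq_nonneg _) (by linarith)
    linarith

/-- Arithmetic for small chords. -/
lemma R1_small_num {p σ r : ℝ} (hp : 0 ≤ p) (hp' : p ≤ 1 / 20) (hpσ : p ≤ σ / 2) (hσ : 0 < σ)
    (hc1 : σ ≤ 3 / 5) (hr1 : 1.7724 < r) :
    (σ - p) * (2 * r - 16 / 3 * σ) - 4 * p * σ ≥ 0 := by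
  norm_num at hr1
  by_cases hc2 : σ ≤ 3 / 8
  · have h1 : 2 * r - 16 / 3 * σ - 4 * σ ≥ 0 := by linarith
    have h2 : 2 * r - 16 / 3 * σ ≥ 0 := by linarith
    have h3 : (σ / 2 - p) * (2 * r - 16 / 3 * σ + 4 * σ) ≥ 0 :=
      mul_nonneg (by linarith) (by linarith)
    have h4 : σ / 2 * (2 * r - 16 / 3 * σ - 4 * σ) ≥ 0 := mul_nonneg (by linarith) h1
    nlinarith
  · push Not at hc2
    have h5 : (σ - 1 / 20) * (2 * r - 16 / 3 * σ) - 1 / 5 * σ ≥ 0 := by
      have h5a : 2 * r - 16 / 3 * σ ≥ 17 / 50 := by linarith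
      have h5b : (σ - 1 / 20) * (2 * r - 16 / 3 * σ - 17 / 50) ≥ 0 :=
        mul_nonneg (by linarith) (by linarith)
      nlinarith
    have h6 : 2 * r - 16 / 3 * σ + 4 * σ ≥ 0 := by linarith
    have h7 := mul_nonneg (sub_nonneg.2 hp') h6
    nlinarith

lemma R1_small {p σ V : ℝ} (hp : 0 ≤ p) (hp' : p ≤ 1 / 20) (hpσ : p ≤ σ / 2) (hσ : 0 < σ)
    (hc1 : σ ≤ 3 / 5) (hV : 0 ≤ V) :
    ballVal V + 4 * p ^ 2 ≤
      2 * √π / σ * V + 2 * √π * p * (σ - p) / σ + 4 / 3 * (σ - p - p) ^ 2 := by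
  obtain ⟨hr1, hr2⟩ := sqrtPi_bounds
  have hb := ball_chord (p := p) (q := σ - p) (by linarith) hV
  have e : p + (σ - p) = σ := by ring
  rw [e] at hb
  set r := √π with hrdef
  have key := R1_small_num hp hp' hpσ hσ hc1 hr1
  have h3 : 16 / 3 * (p * (σ - p)) + 4 * p ^ 2 ≤ 2 * r / σ * (p * (σ - p)) := by
    have e2 : 2 * r / σ * (p * (σ - p)) - (16 / 3 * (p * (σ - p)) + 4 * p ^ 2) =
        p * ((σ - p) * (2 * r - 16 / 3 * σ) - 4 * p * σ) / σ := by
      field_simp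
      ring
    have : 0 ≤ p * ((σ - p) * (2 * r - 16 / 3 * σ) - 4 * p * σ) / σ :=
      div_nonneg (mul_nonneg hp key) hσ.le
    linarith
  have h2 : 2 * r * p * (σ - p) / σ = 2 * r / σ * (p * (σ - p)) := by ring
  rw [h2]
  have h4 : 4 / 3 * σ ^ 2 = 4 / 3 * (σ - p - p) ^ 2 + 16 / 3 * (p * (σ - p)) := by ring
  linarith

/-- Arithmetic for the middle range. -/
lemma R1_mid_num {σ r P : ℝ} (hc1 : 3 / 5 < σ) (hc3 : σ ≤ 7 / 10) (hr1 : 1.7724 < r)
    (hP1 : 3.1415 < P) (hP2 : P < 3.1416) :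
    4 / 81 * (27 * σ ^ 3 - 9 * P * σ + 2 * P * r) +
      1 / 20 * (σ - 1 / 20) * (2 * r - 16 / 3 * σ) - 4 * (1 / 20) ^ 2 * σ ≥ 0 := by
  norm_num at hr1 hP1 hP2
  have h7 : 2 * P * r ≥ 2 * (6283 / 2000) * (4431 / 2500) := by
    have := mul_nonneg (sub_nonneg.2 hP1.le) (sub_nonneg.2 hr1.le)
    nlinarith
  have h8 : 9 * P * σ ≤ 9 * (3927 / 1250) * σ := by
    have := mul_nonneg (sub_nonneg.2 hP2.le) (by linarith : (0 : ℝ) ≤ σ)
    nlinarith
  have h9 : 1 / 20 * (σ - 1 / 20) * (2 * r - 16 / 3 * σ) ≥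
      1 / 20 * (σ - 1 / 20) * (2 * (4431 / 2500) - 16 / 3 * σ) := by
    apply mul_le_mul_of_nonneg_left _ (by nlinarith)
    linarith
  have h10 := mul_nonneg (sq_nonneg (σ - 311 / 500))
    (by linarith : (0 : ℝ) ≤ 4 / 3 * (σ + 311 / 250) - 4 / 15)
  nlinarith [h7, h8, h9, h10]

lemma R1_mid {p σ V : ℝ} (hp : 0 ≤ p) (hp' : p ≤ 1 / 20) (hc1 : 3 / 5 < σ) (hc3 : σ ≤ 7 / 10)
    (hV : 0 ≤ V) :
    min (ballVal V) (tubeVal V) + 4 * p ^ 2 ≤
      2 * √π / σ * V + 2 * √π * p * (σ - p) / σ + 4 / 3 * (σ - p - p) ^ 2 := by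
  have hσ : 0 < σ := by linarith
  obtain ⟨hr1, hr2⟩ := sqrtPi_bounds
  have hrsq := sq_sqrtPi
  have hpi1 := Real.pi_gt_d4
  have hpi2 := Real.pi_lt_d4
  have hQ05 := R1_mid_num hc1 hc3 hr1 hpi1 hpi2
  set r := √π with hrdef
  norm_num at hr1 hr2
  have h2 : 2 * r * p * (σ - p) / σ = 2 * r / σ * (p * (σ - p)) := by ring
  set k := 2 * r / σ with hk
  have hk1 : 9 / 2 ≤ k := by
    rw [hk, le_div_iff₀ hσ]
    linarith
  have hk2 : k ≤ 6 := by
    rw [hk, div_le_iff₀ hσ]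
    linarith
  have hT := kink_le hV hk1 hk2
  obtain ⟨F, hF⟩ : ∃ F, F = 4 / 81 * ((3 * σ - r) ^ 2 * (3 * σ + 2 * r)) := ⟨_, rfl⟩
  obtain ⟨D, hD⟩ : ∃ D, D = 2 * r - 16 / 3 * σ := ⟨_, rfl⟩
  have hF0 : 0 ≤ F := by
    rw [hF]
    have : 0 ≤ 3 * σ + 2 * r := by linarith
    positivity
  have e3 : (3 * σ - r) ^ 2 * (3 * σ + 2 * r) = 27 * σ ^ 3 - 9 * π * σ + 2 * π * r := by
    rw [← hrsq]; ring
  have hQ05' : F + 1 / 20 * (σ - 1 / 20) * D - 4 * (1 / 20) ^ 2 * σ ≥ 0 := by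
    rw [hF, hD, e3]
    exact hQ05
  have hDσ : D + 4 * σ ≥ 0 := by
    rw [hD]; linarith
  have hQ : F + p * (σ - p) * D - 4 * p ^ 2 * σ ≥ 0 := by
    have e4 : F + p * (σ - p) * D - 4 * p ^ 2 * σ =
        (1 - 20 * p) * F + 20 * p * (F + 1 / 20 * (σ - 1 / 20) * D - 4 * (1 / 20) ^ 2 * σ) +
          (D + 4 * σ) * (p * (1 / 20 - p)) := by ring
    rw [e4]
    have h11 : 0 ≤ 1 - 20 * p := by linarith
    have h12 : 0 ≤ p * (1 / 20 - p) := mul_nonneg hp (by linarith)
    have h13 := mul_nonneg h11 hF0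
    have h14 := mul_nonneg (by positivity : 0 ≤ 20 * p) hQ05'
    have h15 := mul_nonneg hDσ h12
    linarith
  rw [h2]
  have e5 : k * V + k * (p * (σ - p)) + 4 / 3 * (σ - p - p) ^ 2 -
      (4 * π / 9 + k * (V - 4 * π / 81) + 4 * p ^ 2) =
      (F + p * (σ - p) * D - 4 * p ^ 2 * σ) / σ := by
    rw [hk, hF, hD, ← hrsq]
    field_simp
    ring
  have h16 : 0 ≤ (F + p * (σ - p) * D - 4 * p ^ 2 * σ) / σ := div_nonneg hQ hσ.le
  linarith

lemma R1_large {p σ V : ℝ} (hp : 0 ≤ p) (hp' : p ≤ 1 / 20) (hc3 : 7 / 10 < σ) (hV : 0 ≤ V) :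
    tubeVal V + 4 * p ^ 2 ≤
      2 * √π / σ * V + 2 * √π * p * (σ - p) / σ + 4 / 3 * (σ - p - p) ^ 2 := by
  have hσ : 0 < σ := by linarith
  obtain ⟨hr1, hr2⟩ := sqrtPi_bounds
  have hb := tube_chord (p := p) (q := σ - p) (by linarith) hV
  have e : p + (σ - p) = σ := by ring
  rw [e] at hb
  set r := √π with hrdef
  norm_num at hr1 hr2
  have h1 : 2 * r * p * (σ - p) / σ + 4 / 3 * (σ - p - p) ^ 2 - r * σ / 2 =
      (σ - p - p) ^ 2 * (4 / 3 - r / (2 * σ)) := by
    field_simp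
    ring
  have h3 : r / (2 * σ) ≤ 633 / 500 + 1 / 10000 := by
    rw [div_le_iff₀ (by positivity)]
    nlinarith
  have h4 : (3 / 5 : ℝ) ≤ σ - p - p := by linarith
  have h5 : (9 / 25 : ℝ) ≤ (σ - p - p) ^ 2 := by nlinarith
  have h6 : 4 * p ^ 2 ≤ 1 / 100 := by nlinarith
  have h7 : (σ - p - p) ^ 2 * (4 / 3 - r / (2 * σ)) ≥ 9 / 25 * (4 / 3 - (633 / 500 + 1 / 10000)) := by
    apply mul_le_mul h5 (by linarith) (by norm_num) (by positivity)
  norm_num at h7
  linarith

/-- The same with the loss term, for small `p` and `q ^ 2 ≤ 3/5`. -/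
theorem R1_bound {p q V : ℝ} (hp : 0 ≤ p) (hp' : p ≤ 1 / 20) (hpq : p ≤ q) (hq : 0 < q)
    (hq' : q ^ 2 ≤ 3 / 5) (hV : 0 ≤ V) :
    min (ballVal V) (tubeVal V) + 4 * p ^ 2 ≤ chordVal p q V := by
  unfold chordVal
  obtain ⟨σ, hσdef⟩ : ∃ σ, σ = p + q := ⟨_, rfl⟩
  have hσ : 0 < σ := by linarith
  rw [← hσdef]
  have hqσ : q = σ - p := by linarith
  have hpσ : p ≤ σ / 2 := by linarith
  subst hqσ
  by_cases hc1 : σ ≤ 3 / 5
  · have := R1_small hp hp' hpσ hσ hc1 hV
    have h2 := min_le_left (ballVal V) (tubeVal V)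
    linarith
  · push Not at hc1
    by_cases hc3 : σ ≤ 7 / 10
    · exact R1_mid hp hp' hc1 hc3 hV
    · push Not at hc3
      have := R1_large hp hp' hc3 hV
      have h2 := min_le_right (ballVal V) (tubeVal V)
      linarith

/-! ### The calibration pair of the chord -/

section calib

variable (p q : ℝ)

/-- Clamp of the level to the range. -/
noncomputable def clampS (s : ℝ) : ℝ := max (p ^ 2) (min s (q ^ 2))

/-- The square root of the clamped level. -/
noncomputable def tS (s : ℝ) : ℝ := √(clampS p q s)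

/-- The first component of the calibration. -/
noncomputable def Acal (s : ℝ) : ℝ := tS p q s / (p + q) + (p * q / (p + q)) / tS p q s

/-- The second component of the calibration. -/
noncomputable def Bcal (s : ℝ) : ℝ := √(1 - Acal p q s ^ 2)

variable {p q}

lemma continuous_tS : Continuous (tS p q) := by
  unfold tS clampS
  fun_prop

lemma tS_bounds (hp : 0 ≤ p) (hpq : p ≤ q) (s : ℝ) : p ≤ tS p q s ∧ tS p q s ≤ q := by
  have hq : 0 ≤ q := hp.trans hpq
  have h2 : p ^ 2 ≤ q ^ 2 := by nlinarith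
  constructor
  · unfold tS
    apply Real.le_sqrt_of_sq_le
    exact le_max_left _ _
  · unfold tS
    rw [Real.sqrt_le_left hq]
    exact max_le h2 (min_le_right _ _)

lemma tS_of_mem (hp : 0 ≤ p) (hpq : p ≤ q) {s : ℝ} (hs : s ∈ Icc (p ^ 2) (q ^ 2)) :
    tS p q s = √s := by
  unfold tS clampS
  rw [min_eq_left hs.2, max_eq_right hs.1]

lemma continuous_Acal (hp : 0 ≤ p) (hpq : p ≤ q) : Continuous (Acal p q) := by
  unfold Acal
  by_cases hp0 : p = 0
  · subst hp0
    have e : (fun s => tS 0 q s / (0 + q) + (0 * q / (0 + q)) / tS 0 q s) =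
        fun s => tS 0 q s / (0 + q) := by
      funext s
      simp
    rw [e]
    exact continuous_tS.div_const _
  · have hp1 : 0 < p := lt_of_le_of_ne hp (Ne.symm hp0)
    refine (continuous_tS.div_const _).add (continuous_const.div continuous_tS ?_)
    intro s
    exact ne_of_gt (lt_of_lt_of_le hp1 (tS_bounds hp hpq s).1)

lemma Acal_eq {s : ℝ} (hq : 0 < p + q) (ht : 0 < tS p q s) :
    Acal p q s = (tS p q s ^ 2 + p * q) / ((p + q) * tS p q s) := by
  unfold Acal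
  field_simp

lemma Acal_nonneg (hp : 0 ≤ p) (hpq : p ≤ q) (hq : 0 < q) (s : ℝ) : 0 ≤ Acal p q s := by
  unfold Acal
  have h := (tS_bounds hp hpq s).1
  have h0 : 0 ≤ tS p q s := hp.trans h
  have hσ : 0 < p + q := by linarith
  positivity

lemma Acal_sq_le (hp : 0 ≤ p) (hpq : p ≤ q) (hq : 0 < q) (s : ℝ) : Acal p q s ^ 2 ≤ 1 := by
  obtain ⟨h1, h2⟩ := tS_bounds hp hpq s
  have hσ : 0 < p + q := by linarith
  have h0 : 0 ≤ tS p q s := hp.trans h1
  rcases h0.eq_or_lt with h0' | h0'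
  · unfold Acal
    rw [← h0']
    simp
  · rw [Acal_eq hσ h0', div_pow, div_le_one (by positivity)]
    have hnn : 0 ≤ tS p q s ^ 2 + p * q := by positivity
    have hle : tS p q s ^ 2 + p * q ≤ (p + q) * tS p q s := by
      nlinarith [mul_nonneg (sub_nonneg.2 h1) (sub_nonneg.2 h2)]
    exact pow_le_pow_left₀ hnn hle 2

lemma calibPair (hp : 0 ≤ p) (hpq : p ≤ q) (hq : 0 < q) : CalibPair (Acal p q) (Bcal p q) where
  contA := continuous_Acal hp hpq
  contB := by
    unfold Bcal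
    exact ((continuous_const.sub ((continuous_Acal hp hpq).pow 2))).sqrt
  nonnegA := Acal_nonneg hp hpq hq
  nonnegB := fun s => Real.sqrt_nonneg _
  le_one := fun s => by
    unfold Bcal
    rw [Real.sq_sqrt (by linarith [Acal_sq_le hp hpq hq s])]
    linarith

/-- The chord lies below `A J`. -/
lemma chord_dom {J : ℝ → ℝ} (hp : 0 ≤ p) (hpq : p ≤ q) (hq : 0 < q)
    (hJ : ∀ s ∈ Icc (p ^ 2) (q ^ 2), 2 * √(π * s) ≤ J s) (s : ℝ)
    (hs : s ∈ Icc (p ^ 2) (q ^ 2)) :
    2 * √π / (p + q) * s + 2 * √π * p * q / (p + q) ≤ Acal p q s * J s := by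
  have hσ : 0 < p + q := by linarith
  have hpi := Real.pi_pos
  have hs0 : 0 ≤ s := (sq_nonneg p).trans hs.1
  have hAJ : Acal p q s * (2 * √(π * s)) ≤ Acal p q s * J s :=
    mul_le_mul_of_nonneg_left (hJ s hs) (Acal_nonneg hp hpq hq s)
  refine le_trans (le_of_eq ?_) hAJ
  have ht := tS_of_mem hp hpq hs
  rw [Real.sqrt_mul hpi.le]
  set x := √s with hx
  have hx2 : x ^ 2 = s := Real.sq_sqrt hs0
  rcases (Real.sqrt_nonneg s).eq_or_lt with h0 | h0
  · have hx0 : x = 0 := h0.symm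
    have hs00 : s = 0 := by rw [← hx2, hx0]; ring
    have hp0 : p = 0 := by
      have := hs.1
      rw [hs00] at this
      nlinarith [sq_nonneg p]
    rw [hs00, hx0, hp0]
    simp
  · have hx0 : x ≠ 0 := h0.ne'
    rw [Acal_eq hσ (by rw [ht]; exact h0), ht, ← hx2]
    field_simp

/-- The function bounding `Bcal` from below has this primitive. -/
noncomputable def Mprim (lam u : ℝ) : ℝ :=
  (1 - lam) * (u ^ 2 - 2 / 3 * u ^ 3) + lam / 3 * (1 - (1 - u ^ 2) * √(1 - u ^ 2))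

/-- The derivative of the primitive. -/
noncomputable def mfun (lam u : ℝ) : ℝ :=
  (1 - lam) * (2 * u * (1 - u)) + lam * (u * √(1 - u ^ 2))

lemma hasDerivAt_Mprim (lam : ℝ) {u : ℝ} (h0 : 0 < u) (h1 : u < 1) :
    HasDerivAt (Mprim lam) (mfun lam u) u := by
  have hy : 0 < 1 - u ^ 2 := by nlinarith
  have hy' : 0 < √(1 - u ^ 2) := Real.sqrt_pos.2 hy
  have hpoly : HasDerivAt (fun u : ℝ => 1 - u ^ 2) (-(2 * u)) u := by
    have := (hasDerivAt_pow 2 u).const_sub 1
    simpa using this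
  have hsq : HasDerivAt (fun u : ℝ => √(1 - u ^ 2)) (-(2 * u) / (2 * √(1 - u ^ 2))) u :=
    hpoly.sqrt hy.ne'
  have hprod := hpoly.mul hsq
  have hpoly2 : HasDerivAt (fun u : ℝ => u ^ 2 - 2 / 3 * u ^ 3) (2 * u - 2 * u ^ 2) u := by
    have h1 : HasDerivAt (fun u : ℝ => u ^ 2) (2 * u) u := by simpa using hasDerivAt_pow 2 u
    have h2 : HasDerivAt (fun u : ℝ => u ^ 3) (3 * u ^ 2) u := by simpa using hasDerivAt_pow 3 u
    exact (h1.sub (h2.const_mul (2 / 3 : ℝ))).congr_deriv (by ring)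
  have hM := (hpoly2.const_mul (1 - lam)).add (((hprod.const_sub 1)).const_mul (lam / 3))
  have hM' : HasDerivAt (Mprim lam) _ u := hM
  refine hM'.congr_deriv ?_
  unfold mfun
  have e : (1 - u ^ 2) = √(1 - u ^ 2) ^ 2 := (Real.sq_sqrt hy.le).symm
  set y := √(1 - u ^ 2) with hydef
  have e1 : -(-(2 * u) * y + (1 - u ^ 2) * (-(2 * u) / (2 * y))) = 3 * u * y := by
    rw [e]
    field_simp
    ring
  have e2 : lam / 3 * -(-(2 * u) * y + (1 - u ^ 2) * (-(2 * u) / (2 * y))) = lam * (u * y) := by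
    rw [e1]; ring
  rw [e2]
  ring

lemma continuous_Mprim (lam : ℝ) : Continuous (Mprim lam) := by
  unfold Mprim
  fun_prop

/-- The key pointwise inequality. -/
lemma mfun_sq_le {u lam : ℝ} (hu0 : 0 ≤ u) (hu1 : u ≤ 1) (hl0 : 0 ≤ lam) (hl1 : lam ≤ 1) :
    mfun lam u ^ 2 ≤ u * (1 - u) * ((1 - lam + lam * u) * (1 + lam * u)) := by
  unfold mfun
  set a := 1 - lam with ha
  have ha0 : 0 ≤ a := by linarith
  have h1u : 0 ≤ 1 - u := by linarith
  set r := √(u * (1 - u)) with hr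
  set w := √(u * (1 + u)) with hw
  have hr2 : r ^ 2 = u * (1 - u) := Real.sq_sqrt (by positivity)
  have hw2 : w ^ 2 = u * (1 + u) := Real.sq_sqrt (by positivity)
  have hr0 : 0 ≤ r := Real.sqrt_nonneg _
  have hw0 : 0 ≤ w := Real.sqrt_nonneg _
  have hy : u * √(1 - u ^ 2) = r * w := by
    have e : u * (1 - u) * (u * (1 + u)) = u ^ 2 * (1 - u ^ 2) := by ring
    rw [hr, hw, ← Real.sqrt_mul (by positivity), e,
      Real.sqrt_mul (by positivity), Real.sqrt_sq hu0]
  rw [hy]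
  have hr12 : 2 * r ≤ 1 := by
    have : (2 * r) ^ 2 ≤ 1 ^ 2 := by
      rw [mul_pow, hr2]
      nlinarith [sq_nonneg (2 * u - 1)]
    exact (pow_le_pow_iff_left₀ (by positivity) (by norm_num) (by norm_num)).1 this
  have hw3 : 2 * w ≤ 1 + 2 * u := by
    have : (2 * w) ^ 2 ≤ (1 + 2 * u) ^ 2 := by
      rw [mul_pow, hw2]
      nlinarith
    exact (pow_le_pow_iff_left₀ (by positivity) (by positivity) (by norm_num)).1 this
  have h3 : (a + lam * w) ^ 2 ≤ (a + lam * u) * (1 + lam * u) := by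
    have e : (a + lam * u) * (1 + lam * u) - (a + lam * w) ^ 2 =
        a * lam * (1 + 2 * u - 2 * w) := by
      rw [ha]
      ring_nf
      rw [hw2]
      ring
    have : 0 ≤ a * lam * (1 + 2 * u - 2 * w) :=
      mul_nonneg (mul_nonneg ha0 hl0) (by linarith)
    linarith
  have h4 : a * (2 * u * (1 - u)) + lam * (r * w) ≤ r * (a + lam * w) := by
    have e : 2 * u * (1 - u) = 2 * r * r := by
      rw [mul_assoc 2 u, ← hr2]; ring
    rw [e]
    nlinarith [mul_nonneg ha0 hr0, mul_nonneg (mul_nonneg ha0 hr0) (sub_nonneg.2 hr12)]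
  have h5 : 0 ≤ a * (2 * u * (1 - u)) + lam * (r * w) := by positivity
  calc (a * (2 * u * (1 - u)) + lam * (r * w)) ^ 2 ≤ (r * (a + lam * w)) ^ 2 :=
        pow_le_pow_left₀ h5 h4 2
    _ = r ^ 2 * (a + lam * w) ^ 2 := by ring
    _ ≤ r ^ 2 * ((a + lam * u) * (1 + lam * u)) :=
        mul_le_mul_of_nonneg_left h3 (by positivity)
    _ = _ := by rw [hr2]

/-- The integral of `Bcal` is at least two thirds of the squared gap. -/
lemma integral_Bcal (hp : 0 ≤ p) (hpq : p ≤ q) (hq : 0 < q) :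
    2 / 3 * (q - p) ^ 2 ≤ ∫ s in (p ^ 2)..(q ^ 2), Bcal p q s := by
  rcases hpq.eq_or_lt with h | hlt
  · subst h
    simp
  have hσ : 0 < p + q := by linarith
  set L := q - p with hL
  have hL0 : 0 < L := by rw [hL]; linarith
  set lam := L / (p + q) with hlam
  have hl0 : 0 ≤ lam := by positivity
  have hl1 : lam ≤ 1 := by
    rw [hlam, div_le_one hσ, hL]
    linarith
  have hle : p ^ 2 ≤ q ^ 2 := by nlinarith
  have hB : Continuous (Bcal p q) := (calibPair hp hpq hq).contB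
  set g : ℝ → ℝ := fun s => 2 * L ^ 2 * Mprim lam ((√s - p) / L) with hg
  set g' : ℝ → ℝ := fun s => 2 * L ^ 2 * (mfun lam ((√s - p) / L) * (1 / (2 * √s * L))) with hg'
  have hgcont : Continuous g := by
    rw [hg]
    exact continuous_const.mul ((continuous_Mprim lam).comp
      ((Real.continuous_sqrt.sub continuous_const).div_const _))
  have hrange : ∀ s ∈ Ioo (p ^ 2) (q ^ 2), p < √s ∧ √s < q := by
    intro s hs
    constructor
    · apply Real.lt_sqrt_of_sq_lt
      exact hs.1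
    · rw [Real.sqrt_lt' hq]
      exact hs.2
  have hderiv : ∀ s ∈ Ioo (p ^ 2) (q ^ 2), HasDerivWithinAt g (g' s) (Ioi s) s := by
    intro s hs
    apply HasDerivAt.hasDerivWithinAt
    obtain ⟨h1, h2⟩ := hrange s hs
    have hs0 : 0 < s := by
      have : 0 < √s := lt_of_le_of_lt hp h1
      exact Real.sqrt_pos.1 this
    have hu : HasDerivAt (fun s => (√s - p) / L) (1 / (2 * √s) / L) s :=
      ((Real.hasDerivAt_sqrt hs0.ne').sub_const p).div_const L
    have hu0 : 0 < (√s - p) / L := div_pos (by linarith) hL0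
    have hu1 : (√s - p) / L < 1 := by
      rw [div_lt_one hL0, hL]
      linarith
    have hM := (hasDerivAt_Mprim lam hu0 hu1).comp s hu
    have h3 : HasDerivAt g (2 * L ^ 2 * (mfun lam ((√s - p) / L) * (1 / (2 * √s) / L))) s :=
      hM.const_mul (2 * L ^ 2)
    have hsx : √s ≠ 0 := (Real.sqrt_pos.2 hs0).ne'
    refine h3.congr_deriv ?_
    simp only [hg']
    congr 2
    field_simp
  have hle2 : ∀ s ∈ Ioo (p ^ 2) (q ^ 2), g' s ≤ Bcal p q s := by
    intro s hs
    obtain ⟨h1, h2⟩ := hrange s hs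
    set x := √s with hx
    have hx0 : 0 < x := lt_of_le_of_lt hp h1
    have hs0 : 0 < s := Real.sqrt_pos.1 hx0
    have hxs : x ^ 2 = s := Real.sq_sqrt hs0.le
    have ht : tS p q s = x := tS_of_mem hp hpq ⟨hs.1.le, hs.2.le⟩
    set u := (x - p) / L with hu
    have hu0 : 0 < u := div_pos (by linarith) hL0
    have hu1 : u < 1 := by
      rw [hu, div_lt_one hL0, hL]
      linarith
    have hxu : x = p + L * u := by
      rw [hu]; field_simp; ring
    have hm0 : 0 ≤ mfun lam u := by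
      unfold mfun
      have : 0 ≤ 1 - lam := by linarith
      have : 0 ≤ 1 - u := by linarith
      positivity
    have hval : g' s = L * mfun lam u / x := by
      simp only [hg']
      rw [← hx, ← hu]
      field_simp
    rw [hval]
    unfold Bcal
    apply Real.le_sqrt_of_sq_le
    rw [Acal_eq hσ (by rw [ht]; exact hx0), ht]
    have e1 : 1 - ((x ^ 2 + p * q) / ((p + q) * x)) ^ 2 =
        L ^ 2 * (u * (1 - u) * ((1 - lam + lam * u) * (1 + lam * u))) / x ^ 2 := by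
      have hp' : p = (1 - lam) * (p + q) / 2 := by
        rw [hlam, hL]; field_simp; ring
      have hq' : q = (1 + lam) * (p + q) / 2 := by
        rw [hlam, hL]; field_simp; ring
      have e2 : (x - p) * (q - x) * ((x + p) * (x + q)) =
          L ^ 2 * (u * (1 - u)) * (p + q) ^ 2 * ((1 - lam + lam * u) * (1 + lam * u)) := by
        have h3 : x - p = L * u := by rw [hxu]; ring
        have h4 : q - x = L * (1 - u) := by
          rw [hxu, hL]; ring
        have h5 : x + p = (p + q) * (1 - lam + lam * u) := by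
          rw [hxu, hlam]
          field_simp
          rw [hL]
          ring
        have h6 : x + q = (p + q) * (1 + lam * u) := by
          rw [hxu, hlam]
          field_simp
          rw [hL]
          ring
        rw [h3, h4, h5, h6]
        ring
      have e3 : 1 - ((x ^ 2 + p * q) / ((p + q) * x)) ^ 2 =
          ((x - p) * (q - x) * ((x + p) * (x + q))) / ((p + q) ^ 2 * x ^ 2) := by
        field_simp
        ring
      rw [e3, e2]
      field_simp
    rw [e1, div_pow, mul_pow]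
    apply div_le_div_of_nonneg_right _ (by positivity)
    exact mul_le_mul_of_nonneg_left (mfun_sq_le hu0.le hu1.le hl0 hl1) (by positivity)
  have hmain := intervalIntegral.sub_le_integral_of_hasDeriv_right_of_le hle
    hgcont.continuousOn hderiv (hB.integrableOn_Icc) hle2
  refine le_trans (le_of_eq ?_) hmain
  simp only [hg]
  rw [Real.sqrt_sq hq.le, Real.sqrt_sq hp]
  have e0 : (q - p) / L = 1 := by
    rw [hL]; exact div_self hL0.ne'
  have e1 : (p - p) / L = 0 := by simp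
  rw [e0, e1]
  unfold Mprim
  norm_num
  ring

/-- Chord calibration: the case of a profile `J` above the disc profile on the range. -/
theorem chord_bound {J : ℝ → ℝ} {p q V Λ : ℝ} (hp : 0 ≤ p) (hpq : p ≤ q) (hq : 0 < q)
    (hJ : ∀ s ∈ Icc (p ^ 2) (q ^ 2), 2 * √(π * s) ≤ J s)
    (h : PairBound J (p ^ 2) (q ^ 2) V Λ) : chordVal p q V ≤ Λ := by
  have h1 := h (Acal p q) (Bcal p q) (calibPair hp hpq hq) _ _ (chord_dom hp hpq hq hJ)
  have h2 := integral_Bcal hp hpq hq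
  unfold chordVal
  linarith

end calib

end Vale.Agent.Lib.P232
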