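import Vale.Agent.Lib.P232.Chord

open MeasureTheory Filter Topology Set
open scoped Real

namespace Vale.Agent.Lib.P232

/-- Scaling of a pair bound. -/
lemma PairBound.scale {J : ℝ → ℝ} {a b V L c : ℝ} (hab : a ≤ b) (hc : 1 ≤ c)
    (h : PairBound J a b V L) : PairBound (fun s => c * J s) a b V (c * L) := by
  intro A B hP k m hd
  have hc0 : 0 < c := by linarith
  have h1 := h A B hP (k / c) (m / c) (fun s hs => by
    have := hd s hs
    have e : k / c * s + m / c = (k * s + m) / c := by field_simp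
    rw [e, div_le_iff₀ hc0]
    linarith)
  have hB : 0 ≤ ∫ s in a..b, B s :=
    intervalIntegral.integral_nonneg hab fun s _ => hP.nonnegB s
  have h2 := mul_le_mul_of_nonneg_left h1 hc0.le
  have e : c * (k / c * V + m / c + 2 * ∫ s in a..b, B s)
      = k * V + m + 2 * c * ∫ s in a..b, B s := by
    field_simp
  rw [e] at h2
  nlinarith

lemma tube_num {p q r c : ℝ} (hp0 : 0 ≤ p) (hp : p ≤ 1 / 20) (hq1 : 3 / 5 ≤ q ^ 2) (hq2 : q ^ 2 ≤ 7 / 10)
    (hq0 : 0 < q) (hr1 : 1.7724 < r) (hr2 : r < 1.7725) (hc0 : 0 < c) (hc1 : c ≤ 1.05)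
    (hc2 : c ^ 2 = 7 / 20 * r ^ 2) :
    c ^ 2 * (p + q) * r / 2 + 4 * c * p ^ 2
      ≤ 2 * r * p * q / (p + q) + 4 / 3 * (q - p) ^ 2 := by
  have hq3 : 0.7745 < q := by
    by_contra hlt
    push Not at hlt
    nlinarith
  have hq4 : q < 0.8367 := by
    by_contra hlt
    push Not at hlt
    nlinarith
  have hσ : 0 < p + q := by linarith
  have h1 : c ^ 2 * (p + q) * r / 2 ≤ 0.9747 * (p + q) := by
    have h2 : c ^ 2 * r / 2 ≤ 0.9747 := by
      rw [hc2]
      have : r ^ 3 ≤ 1.7725 ^ 3 := pow_le_pow_left₀ (by linarith) hr2.le 3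
      nlinarith
    have := mul_le_mul_of_nonneg_right h2 hσ.le
    nlinarith
  have h3 : 4 * c * p ^ 2 ≤ 4.2 * p ^ 2 := by
    have : 0 ≤ p ^ 2 := sq_nonneg p
    nlinarith
  have h4 : 3.5448 * p * q / (p + q) ≤ 2 * r * p * q / (p + q) := by
    apply div_le_div_of_nonneg_right _ hσ.le
    have : 0 ≤ p * q := mul_nonneg hp0 hq0.le
    nlinarith
  have h5 : 0.9747 * (p + q) + 4.2 * p ^ 2 ≤ 3.5448 * p * q / (p + q) + 4 / 3 * (q - p) ^ 2 := by
    have e : 3.5448 * p * q / (p + q) + 4 / 3 * (q - p) ^ 2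
        = (3.5448 * p * q + 4 / 3 * (q - p) ^ 2 * (p + q)) / (p + q) := by
      field_simp
    rw [e, le_div_iff₀ hσ]
    have c1 : 0 ≤ q ^ 2 * (4 / 3 * q - 0.9747) := by
      apply mul_nonneg (sq_nonneg q)
      linarith
    have c2 : 0 ≤ p * (q * (1.5954 - 4 / 3 * q) - p * (4.2 * q + 4 / 3 * q + 0.9747)
        - p ^ 2 * (4.2 - 4 / 3)) := by
      apply mul_nonneg hp0
      have c3 : 0.37 ≤ q * (1.5954 - 4 / 3 * q) := by nlinarith
      have c4 : p * (4.2 * q + 4 / 3 * q + 0.9747) ≤ 0.05 * (4.2 * 0.84 + 4 / 3 * 0.84 + 0.9747) := by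
        have hp' : p ≤ 0.05 := by norm_num at hp ⊢; linarith
        apply mul_le_mul hp' (by linarith) (by positivity) (by norm_num)
      have c5 : p ^ 2 * (4.2 - 4 / 3) ≤ 0.0025 * (4.2 - 4 / 3) := by
        apply mul_le_mul_of_nonneg_right _ (by norm_num)
        nlinarith
      norm_num at c3 c4 c5 ⊢
      linarith
    nlinarith
  linarith

/-- The tube bound in the region where the right endpoint is near the plateau of `Ju`. -/
theorem tube_regionB {a b V Per : ℝ} (h0 : 0 ≤ a) (ha : a ≤ 1 / 400) (hb1 : 3 / 5 ≤ b)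
    (hb2 : b ≤ 7 / 10) (hV0 : 0 ≤ V) (_hV : V ≤ 53 / 200) (h2 : PairBound Ju a b V (Per + 4 * a)) :
    tubeVal V ≤ Per := by
  have hpi := Real.pi_pos
  obtain ⟨hr1, hr2⟩ := sqrtPi_bounds
  have hr2' := sq_sqrtPi
  set r := √π with hr
  set c := √(π * (7 / 20)) with hc
  have hcpos : 0 < c := Real.sqrt_pos.2 (by positivity)
  have hcsq : c ^ 2 = π * (7 / 20) := Real.sq_sqrt (by positivity)
  have hc1 : 1 ≤ c := by
    rw [hc]
    apply Real.one_le_sqrt.2
    nlinarith [Real.pi_gt_three]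
  have hc2 : c ≤ 1.05 := by
    rw [hc]
    apply Real.sqrt_le_iff.2
    constructor
    · norm_num
    · nlinarith [Real.pi_lt_d2]
  have hab : a ≤ b := by linarith
  have hb0 : 0 < b := by linarith
  have hs1 : (√a) ^ 2 = a := Real.sq_sqrt h0
  have hs2 : (√b) ^ 2 = b := Real.sq_sqrt hb0.le
  have hq : 0 < √b := Real.sqrt_pos.2 hb0
  have hp0 : 0 ≤ √a := Real.sqrt_nonneg a
  have hpq : √a ≤ √b := Real.sqrt_le_sqrt hab
  have hp20 : √a ≤ 1 / 20 := by
    rw [Real.sqrt_le_left (by norm_num)]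
    norm_num
    linarith
  have hJ : ∀ s ∈ Icc ((√a) ^ 2) ((√b) ^ 2), 2 * √(π * s) ≤ c * Ju s := by
    intro s hs
    rw [hs1, hs2] at hs
    have hs7 : s ≤ 7 / 10 := hs.2.trans hb2
    have hsn : 0 ≤ 2 * √(π * s) := by positivity
    unfold Ju
    rw [mul_min_of_nonneg _ _ hcpos.le]
    refine le_min ?_ ?_
    · nlinarith
    · have h3 : √(π * s) ≤ √(2 * (π * (7 / 20))) :=
        Real.sqrt_le_sqrt (by nlinarith)
      have h4 : √(2 * (π * (7 / 20))) = √2 * c := by
        rw [Real.sqrt_mul (by norm_num)]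
      rw [h4] at h3
      nlinarith
  have hch := chord_bound (J := fun s => c * Ju s) (p := √a) (q := √b) (V := V)
    (Λ := c * (Per + 4 * a)) hp0 hpq hq hJ
    (by rw [hs1, hs2]; exact h2.scale hab hc1)
  set p := √a with hpdef
  set q := √b with hqdef
  have hσ : 0 < p + q := by linarith
  have ht := tube_le hV0 (k := (2 * r / (p + q)) / c) (by positivity)
  have hnum := tube_num hp0 hp20 (by rw [hs2]; exact hb1) (by rw [hs2]; exact hb2) hq hr1 hr2 hcpos
    hc2 (by rw [hcsq, hr2']; ring)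
  have e1 : c * ((2 * r / (p + q)) / c * V + π / ((2 * r / (p + q)) / c))
      = 2 * r / (p + q) * V + c ^ 2 * (p + q) * r / 2 := by
    rw [← hr2']
    have hr0 : r ≠ 0 := by linarith
    field_simp
  have h5 : c * tubeVal V ≤ 2 * r / (p + q) * V + c ^ 2 * (p + q) * r / 2 := by
    rw [← e1]
    exact mul_le_mul_of_nonneg_left ht hcpos.le
  have h6 : chordVal p q V = 2 * r / (p + q) * V + 2 * r * p * q / (p + q) + 4 / 3 * (q - p) ^ 2 := rfl
  rw [h6] at hch
  have h7 : c * tubeVal V + 4 * c * p ^ 2 ≤ c * (Per + 4 * a) := by linarith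
  rw [hs1] at h7
  have h8 : c * tubeVal V ≤ c * Per := by nlinarith
  exact le_of_mul_le_mul_left h8 hcpos

section Corner

/-- Clamp to the interval. -/
noncomputable def clampC (a b s : ℝ) : ℝ := max a (min s b)

lemma clampC_cont (a b : ℝ) : Continuous (clampC a b) :=
  continuous_const.max (continuous_id.min continuous_const)

lemma clampC_ge (a b s : ℝ) : a ≤ clampC a b s := le_max_left _ _

lemma clampC_le {a b : ℝ} (hab : a ≤ b) (s : ℝ) : clampC a b s ≤ b :=
  max_le hab (min_le_right _ _)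

lemma clampC_of_mem {a b s : ℝ} (hs : s ∈ Icc a b) : clampC a b s = s := by
  unfold clampC
  rw [min_eq_left hs.2, max_eq_right hs.1]

/-- First correction term. -/
noncomputable def f1 (a b s : ℝ) : ℝ := (a / 16) / clampC a b s

/-- Second correction term. -/
noncomputable def f2 (a b s : ℝ) : ℝ := ((1 - b) / 16) / (1 - clampC a b s)

lemma f1_cont {a b : ℝ} (h0 : 0 ≤ a) : Continuous (f1 a b) := by
  unfold f1
  rcases h0.eq_or_lt with rfl | hpos
  · simp only [zero_div]
    exact continuous_const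
  · refine continuous_const.div (clampC_cont a b) fun s => ?_
    exact (hpos.trans_le (clampC_ge a b s)).ne'

lemma f2_cont {a b : ℝ} (hab : a ≤ b) (hb : b ≤ 1) : Continuous (f2 a b) := by
  unfold f2
  rcases hb.eq_or_lt with rfl | hlt
  · simp only [sub_self, zero_div]
    exact continuous_const
  · refine continuous_const.div (continuous_const.sub (clampC_cont a b)) fun s => ?_
    have := clampC_le hab s
    linarith

lemma f1_bounds {a b : ℝ} (h0 : 0 ≤ a) (s : ℝ) : 0 ≤ f1 a b s ∧ f1 a b s ≤ 1 / 16 := by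
  unfold f1
  have hc := clampC_ge a b s
  have hc0 : 0 ≤ clampC a b s := h0.trans hc
  constructor
  · positivity
  · have h1 : a / clampC a b s ≤ 1 := div_le_one_of_le₀ hc hc0
    have e : a / 16 / clampC a b s = a / clampC a b s / 16 := by ring
    rw [e]
    linarith

lemma f2_bounds {a b : ℝ} (hab : a ≤ b) (hb : b ≤ 1) (s : ℝ) :
    0 ≤ f2 a b s ∧ f2 a b s ≤ 1 / 16 := by
  unfold f2
  have hc := clampC_le hab s
  have hc0 : 1 - b ≤ 1 - clampC a b s := by linarith
  have hb0 : 0 ≤ 1 - b := by linarith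
  have hc1 : 0 ≤ 1 - clampC a b s := hb0.trans hc0
  constructor
  · positivity
  · have h1 : (1 - b) / (1 - clampC a b s) ≤ 1 := div_le_one_of_le₀ hc0 hc1
    have e : (1 - b) / 16 / (1 - clampC a b s) = (1 - b) / (1 - clampC a b s) / 16 := by ring
    rw [e]
    linarith

/-- The integral of the first correction. -/
lemma T_bound {a b : ℝ} (h0 : 0 ≤ a) (hab : a ≤ b) (hb : b ≤ 1) :
    ∫ s in a..b, (a / 16) / s ≤ √a / 8 := by
  rcases h0.eq_or_lt with rfl | hpos
  · simp
  have hb0 : 0 < b := hpos.trans_le hab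
  simp_rw [div_eq_mul_inv (a / 16)]
  rw [intervalIntegral.integral_const_mul, integral_inv_of_pos hpos hb0]
  set t := √a with ht
  have ht0 : 0 < t := Real.sqrt_pos.2 hpos
  have hta : t ^ 2 = a := Real.sq_sqrt h0
  have hlog : Real.log (b / a) ≤ 2 / t := by
    have h1 : b / a ≤ (1 / t) ^ 2 := by
      rw [div_pow, one_pow, hta]
      exact div_le_div_of_nonneg_right hb hpos.le
    have h2 : Real.log (b / a) ≤ Real.log ((1 / t) ^ 2) :=
      Real.log_le_log (div_pos hb0 hpos) h1
    rw [Real.log_pow] at h2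
    have h3 := Real.log_le_sub_one_of_pos (show 0 < 1 / t by positivity)
    have h4 : 0 < 1 / t := by positivity
    have e : (2 : ℝ) / t = 2 * (1 / t) := by ring
    push_cast at h2
    rw [e]
    linarith
  have : a / 16 * Real.log (b / a) ≤ a / 16 * (2 / t) :=
    mul_le_mul_of_nonneg_left hlog (by positivity)
  refine this.trans (le_of_eq ?_)
  rw [← hta]
  field_simp
  norm_num

lemma int_f1 {a b : ℝ} (h0 : 0 ≤ a) (hab : a ≤ b) (hb : b ≤ 1) :
    ∫ s in a..b, f1 a b s ≤ √a / 8 := by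
  refine le_trans (le_of_eq ?_) (T_bound h0 hab hb)
  apply intervalIntegral.integral_congr
  intro s hs
  rw [uIcc_of_le hab] at hs
  simp only [f1, clampC_of_mem hs]

lemma int_f2 {a b : ℝ} (h0 : 0 ≤ a) (hab : a ≤ b) (hb : b ≤ 1) :
    ∫ s in a..b, f2 a b s ≤ √(1 - b) / 8 := by
  have h1 : ∫ s in a..b, f2 a b s = ∫ s in a..b, (fun u => ((1 - b) / 16) / u) (1 - s) := by
    apply intervalIntegral.integral_congr
    intro s hs
    rw [uIcc_of_le hab] at hs
    simp only [f2, clampC_of_mem hs]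
  rw [h1, intervalIntegral.integral_comp_sub_left]
  exact T_bound (by linarith) (by linarith) (by linarith)

/-- The squared domination on the interval. -/
lemma corner_dom {a b s : ℝ} (h0 : 0 ≤ a) (hab : a ≤ b) (hb : b ≤ 1) (hs : s ∈ Icc a b) :
    (√a / 4 * (1 - s) + √(1 - b) / 4 * s) ^ 2
      ≤ (f1 a b s + f2 a b s) * (s * (1 - s)) := by
  have hs0 : 0 ≤ s := h0.trans hs.1
  have hs1 : 0 ≤ 1 - s := by linarith [hs.2]
  have hb0 : 0 ≤ 1 - b := by linarith
  have e1 : f1 a b s * s = a / 16 := by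
    unfold f1
    rw [clampC_of_mem hs]
    rcases hs0.eq_or_lt with h | h
    · have : a = 0 := le_antisymm (h ▸ hs.1) h0
      simp [this]
    · field_simp
  have e2 : f2 a b s * (1 - s) = (1 - b) / 16 := by
    unfold f2
    rw [clampC_of_mem hs]
    rcases hs1.eq_or_lt with h | h
    · have : 1 - b = 0 := le_antisymm (by rw [h]; linarith [hs.2]) hb0
      simp [this]
    · field_simp
  have hp : (√a) ^ 2 = a := Real.sq_sqrt h0
  have hq : (√(1 - b)) ^ 2 = 1 - b := Real.sq_sqrt hb0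
  have e3 : (f1 a b s + f2 a b s) * (s * (1 - s))
      = (f1 a b s * s) * (1 - s) + (f2 a b s * (1 - s)) * s := by ring
  rw [e3, e1, e2]
  set p := √a
  set q := √(1 - b)
  have : 0 ≤ s * (1 - s) * (p - q) ^ 2 := by positivity
  rw [← hp, ← hq]
  nlinarith

lemma I2_ge {s : ℝ} (hs0 : 0 ≤ s) (hs1 : s ≤ 1) : 2 * √(π * (s * (1 - s))) ≤ I2 s := by
  have hpi := Real.pi_pos
  have h1 : 0 ≤ 1 - s := by linarith
  refine le_min ?_ (le_min ?_ ?_)
  · have : √(π * (s * (1 - s))) ≤ √(π * s) := by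
      apply Real.sqrt_le_sqrt
      have : s * (1 - s) ≤ s := by nlinarith
      exact mul_le_mul_of_nonneg_left this hpi.le
    linarith
  · have : √(π * (s * (1 - s))) ≤ 1 := by
      apply Real.sqrt_le_one.2
      have h2 : s * (1 - s) ≤ 1 / 4 := by nlinarith [sq_nonneg (s - 1 / 2)]
      nlinarith [Real.pi_lt_four]
    linarith
  · have : √(π * (s * (1 - s))) ≤ √(π * (1 - s)) := by
      apply Real.sqrt_le_sqrt
      have : s * (1 - s) ≤ 1 - s := by nlinarith
      exact mul_le_mul_of_nonneg_left this hpi.le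
    linarith

/-- The slab bound at the corner of the parameter square. -/
theorem corner_slab {a b V Per : ℝ} (h0 : 0 ≤ a) (ha : a ≤ 1 / 10000) (hb1 : b ≤ 1)
    (hb : 1 - 1 / 10000 ≤ b) (hV1 : 1 / 3 ≤ V) (hV2 : V ≤ 2 / 3) (h : PairBound I2 a b V Per) :
    2 ≤ Per := by
  have hab : a ≤ b := by linarith
  have hpi := Real.pi_pos
  obtain ⟨hr1, hr2⟩ := sqrtPi_bounds
  set B : ℝ → ℝ := fun s => 1 - f1 a b s - f2 a b s with hB
  set A : ℝ → ℝ := fun s => √(1 - B s ^ 2) with hA
  have hf1 := f1_bounds (b := b) h0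
  have hf2 := f2_bounds hab hb1
  have hB78 : ∀ s, 7 / 8 ≤ B s := by
    intro s
    have := (hf1 s).2
    have := (hf2 s).2
    simp only [hB]
    linarith
  have hB1 : ∀ s, B s ≤ 1 := by
    intro s
    have := (hf1 s).1
    have := (hf2 s).1
    simp only [hB]
    linarith
  have hBsq : ∀ s, 0 ≤ 1 - B s ^ 2 := by
    intro s
    have := hB78 s
    have := hB1 s
    nlinarith
  have hBc : Continuous B := (continuous_const.sub (f1_cont h0)).sub (f2_cont hab hb1)
  have hpair : CalibPair A B :=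
    { contA := Real.continuous_sqrt.comp (continuous_const.sub (hBc.pow 2))
      contB := hBc
      nonnegA := fun s => Real.sqrt_nonneg _
      nonnegB := fun s => by linarith [hB78 s]
      le_one := fun s => by
        simp only [hA]
        rw [Real.sq_sqrt (hBsq s)]
        linarith }
  set p := √a with hp
  set q := √(1 - b) with hq
  have hb0 : 0 ≤ 1 - b := by linarith
  have hp0 : 0 ≤ p := Real.sqrt_nonneg _
  have hq0 : 0 ≤ q := Real.sqrt_nonneg _
  have hp2 : p ^ 2 = a := Real.sq_sqrt h0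
  have hq2 : q ^ 2 = 1 - b := Real.sq_sqrt hb0
  have hp1 : p ≤ 1 / 100 := by
    rw [hp, Real.sqrt_le_left (by norm_num)]
    norm_num
    linarith
  have hq1 : q ≤ 1 / 100 := by
    rw [hq, Real.sqrt_le_left (by norm_num)]
    norm_num
    linarith
  set r := √π with hr
  have hdom : ∀ s ∈ Icc a b, (2 * r * (q / 4 - p / 4)) * s + 2 * r * (p / 4) ≤ A s * I2 s := by
    intro s hs
    have hs0 : 0 ≤ s := h0.trans hs.1
    have hs1 : s ≤ 1 := hs.2.trans hb1
    have hs2 : 0 ≤ 1 - s := by linarith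
    have hu : 0 ≤ s * (1 - s) := mul_nonneg hs0 hs2
    have h1 := corner_dom h0 hab hb1 hs
    have h2 := I2_ge hs0 hs1
    have hA0 : 0 ≤ A s := Real.sqrt_nonneg _
    have e : (2 * r * (q / 4 - p / 4)) * s + 2 * r * (p / 4)
        = 2 * r * (p / 4 * (1 - s) + q / 4 * s) := by ring
    rw [e]
    have h3 : √(π * (s * (1 - s))) = r * √(s * (1 - s)) := by
      rw [hr, Real.sqrt_mul hpi.le]
    rw [h3] at h2
    have hX : p / 4 * (1 - s) + q / 4 * s ≤ A s * √(s * (1 - s)) := by
      have e2 : A s * √(s * (1 - s)) = √((1 - B s ^ 2) * (s * (1 - s))) := by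
        simp only [hA]
        rw [Real.sqrt_mul (hBsq s)]
      rw [e2]
      apply Real.le_sqrt_of_sq_le
      refine h1.trans ?_
      apply mul_le_mul_of_nonneg_right _ hu
      have h4 := hB78 s
      have h5 := hB1 s
      have : f1 a b s + f2 a b s = 1 - B s := by
        simp only [hB]
        ring
      rw [this]
      nlinarith
    have hr0 : 0 < r := by linarith
    calc 2 * r * (p / 4 * (1 - s) + q / 4 * s) ≤ 2 * r * (A s * √(s * (1 - s))) :=
          mul_le_mul_of_nonneg_left hX (by positivity)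
      _ = A s * (2 * (r * √(s * (1 - s)))) := by ring
      _ ≤ A s * I2 s := mul_le_mul_of_nonneg_left h2 hA0
  have hmain := h A B hpair _ _ hdom
  have hI : ∫ s in a..b, B s = (b - a) - (∫ s in a..b, f1 a b s) - ∫ s in a..b, f2 a b s := by
    simp only [hB]
    have c1 : Continuous fun s => 1 - f1 a b s := continuous_const.sub (f1_cont h0)
    have i1 : ∫ s in a..b, (1 - f1 a b s - f2 a b s)
        = (∫ s in a..b, (1 - f1 a b s)) - ∫ s in a..b, f2 a b s :=
      intervalIntegral.integral_sub (c1.intervalIntegrable _ _)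
        ((f2_cont hab hb1).intervalIntegrable _ _)
    have i2 : ∫ s in a..b, (1 - f1 a b s) = (∫ s in a..b, (1 : ℝ)) - ∫ s in a..b, f1 a b s :=
      intervalIntegral.integral_sub (continuous_const.intervalIntegrable _ _)
        ((f1_cont h0).intervalIntegrable _ _)
    rw [i1, i2]
    simp
  have h1 := int_f1 h0 hab hb1
  have h2 := int_f2 h0 hab hb1
  rw [← hp] at h1
  rw [← hq] at h2
  rw [hI] at hmain
  have h3 : (2 * r * (q / 4 - p / 4)) * V + 2 * r * (p / 4)
      = 2 * r * (p / 4 * (1 - V) + q / 4 * V) := by ring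
  rw [h3] at hmain
  have h4 : (p + q) / 12 ≤ p / 4 * (1 - V) + q / 4 * V := by nlinarith
  have h5 : 2 * r * ((p + q) / 12) ≤ 2 * r * (p / 4 * (1 - V) + q / 4 * V) :=
    mul_le_mul_of_nonneg_left h4 (by linarith)
  have h6 : 2 * (p ^ 2 + q ^ 2) ≤ 0.02 * (p + q) := by nlinarith
  have h7 : b - a = 1 - p ^ 2 - q ^ 2 := by rw [hp2, hq2]; ring
  rw [h7] at hmain
  have h8 : 0 ≤ p + q := by linarith
  have h9 : 1.7724 * (p + q) ≤ r * (p + q) := mul_le_mul_of_nonneg_right hr1.le h8
  norm_num at h6 h9 ⊢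
  nlinarith

end Corner

end Vale.Agent.Lib.P232
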