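import Mathlib

open MeasureTheory

namespace Vale.Agent.Lib.P232

/-- A subset of `ℝ³` invariant under integer translations in each coordinate,
that is, a subset of the torus `ℝ³/ℤ³`. -/
def IsPeriodicSet (E : Set (ℝ × ℝ × ℝ)) : Prop :=
  ∀ x y z : ℝ, ((x + 1, y, z) ∈ E ↔ (x, y, z) ∈ E) ∧ ((x, y + 1, z) ∈ E ↔ (x, y, z) ∈ E) ∧
    ((x, y, z + 1) ∈ E ↔ (x, y, z) ∈ E)

/-- The fundamental cell `(0,1]³` of the torus. -/
def unitCell : Set (ℝ × ℝ × ℝ) := Set.Ioc 0 1 ×ˢ Set.Ioc 0 1 ×ˢ Set.Ioc 0 1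

/-- The volume of a periodic set in the torus. -/
noncomputable def torusVol (E : Set (ℝ × ℝ × ℝ)) : ℝ := (volume (E ∩ unitCell)).toReal

/-- Admissible test vector fields on the torus: `C¹`, periodic, with Euclidean norm at most one. -/
structure IsTestField (X : ℝ × ℝ × ℝ → ℝ × ℝ × ℝ) : Prop where
  contDiff : ContDiff ℝ 1 X
  periodic : ∀ x y z : ℝ, X (x + 1, y, z) = X (x, y, z) ∧ X (x, y + 1, z) = X (x, y, z) ∧
    X (x, y, z + 1) = X (x, y, z)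
  bound : ∀ p, (X p).1 ^ 2 + (X p).2.1 ^ 2 + (X p).2.2 ^ 2 ≤ 1

/-- The divergence of a vector field. -/
noncomputable def divergence (X : ℝ × ℝ × ℝ → ℝ × ℝ × ℝ) (p : ℝ × ℝ × ℝ) : ℝ :=
  (fderiv ℝ X p (1, 0, 0)).1 + (fderiv ℝ X p (0, 1, 0)).2.1 + (fderiv ℝ X p (0, 0, 1)).2.2

/-- The De Giorgi perimeter of a periodic set in the torus: the total variation of its indicator. -/
noncomputable def perimeter (E : Set (ℝ × ℝ × ℝ)) : ENNReal :=
  ⨆ (X : ℝ × ℝ × ℝ → ℝ × ℝ × ℝ) (_ : IsTestField X),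
    ENNReal.ofReal (∫ p in E ∩ unitCell, divergence X p)

end Vale.Agent.Lib.P232
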