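import Vale.Agent.Lib.P232.RealPart
import Vale.Agent.Lib.P232.Corner
import Vale.Agent.Lib.P232.CertTube
import Vale.Agent.Lib.P232.CertSlab

open MeasureTheory Filter Topology Set
open scoped Real

namespace Vale.Agent.Lib.P232

lemma tubeVal_le_ballVal {V : ℝ} (hV : 4 * π / 81 ≤ V) : tubeVal V ≤ ballVal V := by
  unfold ballVal tubeVal
  have hpi := Real.pi_pos
  have h0 : 0 ≤ V := le_trans (by positivity) hV
  set c := (36 * π) ^ (1 / 3 : ℝ) with hc
  set v := V ^ (1 / 3 : ℝ) with hv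
  have hc0 : 0 ≤ c := Real.rpow_nonneg (by positivity) _
  have hv0 : 0 ≤ v := Real.rpow_nonneg h0 _
  have hc3 : c ^ 3 = 36 * π := by
    rw [hc, ← Real.rpow_natCast, ← Real.rpow_mul (by positivity)]
    norm_num
  have hv3 : v ^ 3 = V := by
    rw [hv, ← Real.rpow_natCast, ← Real.rpow_mul h0]
    norm_num
  have hv2 : V ^ (2 / 3 : ℝ) = v ^ 2 := by
    rw [hv, ← Real.rpow_natCast, ← Real.rpow_mul h0]
    norm_num
  rw [hv2]
  have key : 4 * π ≤ c ^ 2 * v := by
    have h1 : (4 * π) ^ 3 ≤ (c ^ 2 * v) ^ 3 := by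
      have e : (c ^ 2 * v) ^ 3 = (c ^ 3) ^ 2 * v ^ 3 := by ring
      rw [e, hc3, hv3]
      have : (36 * π) ^ 2 * (4 * π / 81) ≤ (36 * π) ^ 2 * V :=
        mul_le_mul_of_nonneg_left hV (by positivity)
      calc (4 * π) ^ 3 = (36 * π) ^ 2 * (4 * π / 81) := by ring
        _ ≤ _ := this
    exact le_of_pow_le_pow_left₀ (by norm_num) (by positivity) h1
  have h2 : π * V ≤ (c * v ^ 2 / 2) ^ 2 := by
    rw [← hv3]
    have e : (c * v ^ 2 / 2) ^ 2 = (c ^ 2 * v) * v ^ 3 / 4 := by ring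
    rw [e]
    have := mul_le_mul_of_nonneg_right key (pow_nonneg hv0 3)
    linarith
  have h3 : √(π * V) ≤ c * v ^ 2 / 2 := Real.sqrt_le_iff.2 ⟨by positivity, h2⟩
  linarith

/-- The tube bound, for volumes between the crossing volume and `53/200`. -/
theorem real_tube {a b V Per : ℝ} (h0 : 0 ≤ a) (haV : a ≤ V) (hVb : V ≤ b) (hb : b ≤ 1)
    (hV1 : 4 * π / 81 ≤ V) (hV2 : V ≤ 53 / 200)
    (h1 : PairBound I2 a b V Per) (h2 : PairBound Ju a b V (Per + 4 * a)) :
    tubeVal V ≤ Per := by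
  have hpi := Real.pi_pos
  have hV0 : 0 ≤ V := h0.trans haV
  have hVpos : 0 < V := lt_of_lt_of_le (by positivity) hV1
  have hb0 : 0 < b := hVpos.trans_le hVb
  have hs1 : (√a) ^ 2 = a := Real.sq_sqrt h0
  have hs2 : (√b) ^ 2 = b := Real.sq_sqrt hb0.le
  have hq : 0 < √b := Real.sqrt_pos.2 hb0
  have hp0 : 0 ≤ √a := Real.sqrt_nonneg a
  have hpq : √a ≤ √b := Real.sqrt_le_sqrt (haV.trans hVb)
  by_cases hcase1 : b ≤ 1 / π
  · have hch := chord_bound (J := I2) (p := √a) (q := √b) (V := V) (Λ := Per) hp0 hpq hq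
      (fun s hs => by
        rw [hs1, hs2] at hs
        exact two_sqrt_le_I2 (h0.trans hs.1) (hs.2.trans hcase1))
      (by rw [hs1, hs2]; exact h1)
    have hR := R0_bound hp0 hpq hq hV0
    rw [min_eq_right (tubeVal_le_ballVal hV1)] at hR
    linarith
  push Not at hcase1
  by_cases hcase2 : a ≤ 1 / 400 ∧ b ≤ 3 / 5
  · have hch := chord_bound (J := Ju) (p := √a) (q := √b) (V := V) (Λ := Per + 4 * a) hp0 hpq hq
      (fun s hs => by
        rw [hs1, hs2] at hs
        exact two_sqrt_le_Ju (hs.2.trans hcase2.2))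
      (by rw [hs1, hs2]; exact h2)
    have hp20 : √a ≤ 1 / 20 := by
      rw [Real.sqrt_le_left (by norm_num)]
      norm_num
      linarith [hcase2.1]
    have hR := R1_bound hp0 hp20 hpq hq (by rw [hs2]; exact hcase2.2) hV0
    rw [min_eq_right (tubeVal_le_ballVal hV1), hs1] at hR
    linarith
  by_cases hcase3 : a ≤ 1 / 400 ∧ b ≤ 7 / 10
  · push Not at hcase2
    have := hcase2 hcase3.1
    exact tube_regionB h0 hcase3.1 this.le hcase3.2 hV0 hV2 h2
  · refine cert_tube h0 haV hVb hb hV1 hV2 hcase1 ?_ h1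
    by_contra hcon
    push Not at hcon hcase3
    exact absurd hcon.2.le (not_le.2 (hcase3 hcon.1.le))

/-- The slab bound, for volumes in `[9/25, 1/2]`. -/
theorem real_slab {a b V Per : ℝ} (h0 : 0 ≤ a) (haV : a ≤ V) (hVb : V ≤ b) (hb : b ≤ 1)
    (hV1 : 9 / 25 ≤ V) (hV2 : V ≤ 1 / 2)
    (h1 : PairBound I2 a b V Per) : 2 ≤ Per := by
  have hpi := Real.pi_pos
  by_cases hc1 : 1 / π ≤ a ∧ b ≤ 1 - 1 / π
  · have hp : CalibPair (fun _ => 1) (fun _ => 0) :=
      { contA := continuous_const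
        contB := continuous_const
        nonnegA := fun _ => zero_le_one
        nonnegB := fun _ => le_refl _
        le_one := fun _ => by norm_num }
    have := h1 _ _ hp 0 2 (fun s hs => by
      have hs1 : 1 / π ≤ s := hc1.1.trans hs.1
      have hs2 : s ≤ 1 - 1 / π := hs.2.trans hc1.2
      have e1 : 1 ≤ π * s := by
        rw [div_le_iff₀ hpi] at hs1
        linarith
      have e2 : 1 ≤ π * (1 - s) := by
        have : 1 / π ≤ 1 - s := by linarith
        rw [div_le_iff₀ hpi] at this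
        linarith
      have e3 : (2 : ℝ) ≤ I2 s := by
        refine le_min ?_ (le_min le_rfl ?_)
        · have : 1 ≤ √(π * s) := Real.one_le_sqrt.2 e1
          linarith
        · have : 1 ≤ √(π * (1 - s)) := Real.one_le_sqrt.2 e2
          linarith
      simpa using e3)
    simpa using this
  by_cases hc2 : a ≤ 1 / 10000 ∧ 1 - 1 / 10000 ≤ b
  · exact corner_slab h0 hc2.1 hb hc2.2 (by linarith) (by linarith) h1
  · exact cert_slab h0 haV hVb hb hV1 hV2 hc1 hc2 h1

/-- The lower bound in all admissible volumes. -/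
theorem real_J {a b V Per : ℝ} (h0 : 0 ≤ a) (haV : a ≤ V) (hVb : V ≤ b) (hb : b ≤ 1)
    (hV : V ≤ 53 / 200 ∨ 9 / 25 ≤ V) (hV2 : V ≤ 1 / 2)
    (h1 : PairBound I2 a b V Per) (h2 : PairBound Ju a b V (Per + 4 * a)) :
    min (ballVal V) (min (tubeVal V) 2) ≤ Per := by
  rcases hV with hV | hV
  · by_cases hb1 : V ≤ 4 * π / 81
    · exact (min_le_left _ _).trans (real_ball h0 haV hVb hb hb1 h1 h2)
    · push Not at hb1
      exact (min_le_right _ _).trans ((min_le_left _ _).trans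
        (real_tube h0 haV hVb hb hb1.le hV h1 h2))
  · exact (min_le_right _ _).trans ((min_le_right _ _).trans
      (real_slab h0 haV hVb hb hV hV2 h1))

end Vale.Agent.Lib.P232
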