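import Vale.Agent.Lib.P232.T3

/-!
Shared definitions for the volume range `53/200 ≤ V ≤ 9/25` (see `notes/P232_gap_plan.md`).
Torus units: the target is `min (2 √(π V)) 2`.
-/

open MeasureTheory Filter Topology Set
open scoped Real

namespace Vale.Agent.Lib.P232

/-- The phase width and the height threshold. -/
noncomputable def gapAlpha : ℝ := 3 / 25

/-- The target of the volume range. -/
noncomputable def Tgt (V : ℝ) : ℝ := min (tubeVal V) 2

/-- Polynomial lower bound of `∫₀¹ √(1 - p² m²) dm`. -/
noncomputable def Epoly (p : ℝ) : ℝ := 1 - p ^ 2 / 6 - p ^ 4 / 40 - 3 / 56 * p ^ 6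

/-- One member of the family of arc bounds, for slices with lines of height at most `β`. -/
noncomputable def arcVal (p β s : ℝ) : ℝ := 2 * p * (s - β) + 2 * Epoly p

/-- The best arc bound from the finite family `p = j/20`. -/
noncomputable def Sb (β s : ℝ) : ℝ :=
  (Finset.range 21).sup' ⟨0, by simp⟩ fun j : ℕ => arcVal ((j : ℝ) / 20) β s

lemma arcVal_le_Sb {j : ℕ} (hj : j ≤ 20) (β s : ℝ) : arcVal ((j : ℝ) / 20) β s ≤ Sb β s :=
  Finset.le_sup' (fun j : ℕ => arcVal ((j : ℝ) / 20) β s) (Finset.mem_range.2 (by omega))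

/-- Slices with lines of both kinds: the complement has no full lines. -/
noncomputable def fTc (s : ℝ) : ℝ := 2 * √(π * (1 - s))

/-- The stadium value for a set of area `t` with sections at most `H`. -/
noncomputable def stadV (t H : ℝ) : ℝ := 2 * t / H + π * H / 2

/-- Bound for slices containing a strip of height `γ` and lines of the other kind. -/
noncomputable def fSt (γ s : ℝ) : ℝ :=
  max (fTc s) (if π * (1 - γ) ^ 2 ≤ 4 * (1 - s) then stadV (1 - s) (1 - γ) else 0)

/-- Bound for all the slices with lines of height at most `γ`. -/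
noncomputable def fAr (γ s : ℝ) : ℝ := max (I2 s) (min (fTc s) (min (Ju s) (Sb γ s)))

/-- Bound for slices with lines of one kind, of height at most `β`, or without lines. -/
noncomputable def fB2 (β s : ℝ) : ℝ := min (Ju s) (Sb β s)

/-- Bound for slices with lines of height at most `β`. -/
noncomputable def fB1 (β s : ℝ) : ℝ := min (fTc s) (fB2 β s)

/-- The outcome of the two phase calibration: phase one has width `α`. -/
def PhaseBound (f₁ f₂ : ℝ → ℝ) (α a b V L : ℝ) : Prop :=
  ∀ A B : ℝ → ℝ, CalibPair A B → ∀ k m₁ m₂ : ℝ,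
    (∀ s ∈ Icc a b, k * s + m₁ ≤ A s * f₁ s) → (∀ s ∈ Icc a b, k * s + m₂ ≤ A s * f₂ s) →
    k * V + α * m₁ + (1 - α) * m₂ + 2 * ∫ s in a..b, B s ≤ L

end Vale.Agent.Lib.P232
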