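import Vale.Agent.Lib.P232.SliceS
import Vale.Agent.Lib.P232.GapDefs

open MeasureTheory Filter Topology Set
open scoped Real

namespace Vale.Agent.Lib.P232

lemma Epoly_eq_Ehat (p : ℝ) : Epoly p = Ehat p := rfl

namespace Seq2

variable {F : ℝ → ℝ → ℝ} {v vx vy : ℕ → ℝ → ℝ → ℝ}

/-- A full line in the first variable has value one at every interior point. -/
lemma full_le_value (S : Seq2 F v vx vy)
    (h1 : ∀ x x' y, |x' - 1 / 2| ≤ |x - 1 / 2| → F x y ≤ F x' y) {x : ℝ} (hx : x ∈ Ioo (0 : ℝ) 1)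
    (y : ℝ) : fullInd (∫ t in (0 : ℝ)..1, F t y) ≤ F x y := by
  have hb := S.bin x y
  by_cases hfull : ∫ t in (0 : ℝ)..1, F t y = 1
  · rw [fullInd, if_pos hfull]
    rcases hb with h0 | h0
    · exfalso
      set r := |x - 1 / 2| with hr
      have hr1 : 2 * r < 1 := by
        have : r < 1 / 2 := abs_lt.2 ⟨by linarith [hx.1], by linarith [hx.2]⟩
        linarith
      have hr0 : 0 ≤ r := abs_nonneg _
      have hle : ∫ t in (0 : ℝ)..1, F t y ≤
          ∫ t in (0 : ℝ)..1, (if 2 * |t - 1 / 2| < 2 * r then (1 : ℝ) else 0) := by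
        have hi1 : IntervalIntegrable (fun t => F t y) volume 0 1 :=
          ii_of_bdd (S.meas.comp (measurable_id.prodMk measurable_const)) (C := 1) fun t => by
            rcases S.bin t y with h | h <;> simp [h]
        have hi2 : IntervalIntegrable
            (fun t : ℝ => if 2 * |t - 1 / 2| < 2 * r then (1 : ℝ) else 0) volume 0 1 := by
          refine ii_of_bdd (Measurable.ite ?_ measurable_const measurable_const) (C := 1) fun t => ?_
          · exact measurableSet_lt (by fun_prop) measurable_const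
          · split_ifs <;> norm_num
        refine intervalIntegral.integral_mono_on zero_le_one hi1 hi2 fun t _ => ?_
        by_cases ht : 2 * |t - 1 / 2| < 2 * r
        · rw [if_pos ht]
          rcases S.bin t y with h | h <;> rw [h] <;> norm_num
        · rw [if_neg ht]
          have hge : |x - 1 / 2| ≤ |t - 1 / 2| := by
            push Not at ht
            linarith
          have := h1 t x y hge
          rw [h0] at this
          rcases S.bin t y with h | h
          · rw [h]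
          · rw [h] at this
            linarith
      rw [hfull, indicator_integral (by linarith) hr1.le] at hle
      linarith
    · rw [h0]
  · rw [fullInd, if_neg hfull]
    rcases hb with h | h <;> rw [h] <;> norm_num

/-- The marginal at interior points dominates the measure of full lines across. -/
lemma marg_lower (S : Seq2 F v vx vy)
    (h1 : ∀ x x' y, |x' - 1 / 2| ≤ |x - 1 / 2| → F x y ≤ F x' y) {x : ℝ}
    (hx : x ∈ Ioo (0 : ℝ) 1) : lineX F ≤ marg F x := by
  have hi : IntervalIntegrable (fun y => fullInd (∫ t in (0 : ℝ)..1, F t y)) volume 0 1 :=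
    S.swap.full_intervalIntegrable
  exact intervalIntegral.integral_mono_on zero_le_one hi (S.slice_integrable x)
    fun y _ => S.full_le_value h1 hx y

/-- The same with the variables exchanged. -/
lemma marg_lower' (S : Seq2 F v vx vy)
    (h2 : ∀ x y y', |y' - 1 / 2| ≤ |y - 1 / 2| → F x y ≤ F x y') {y : ℝ}
    (hy : y ∈ Ioo (0 : ℝ) 1) : lineY F ≤ marg (fun x y => F y x) y :=
  S.swap.marg_lower (fun x x' y h => h2 y x x' h) hy

lemma ae_Ioo : ∀ᵐ x ∂(volume.restrict (Ioc (0 : ℝ) 1)), x ∈ Ioo (0 : ℝ) 1 := by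
  have h1 : ∀ᵐ x : ℝ, x ≠ 1 := by
    simp [ae_iff, measure_singleton]
  rw [ae_restrict_iff' measurableSet_Ioc]
  filter_upwards [h1] with x hx hm using ⟨hm.1, lt_of_le_of_ne hm.2 hx⟩

/-- A range whose lower endpoint sees the full lines across. -/
lemma exists_range (S : Seq2 F v vx vy)
    (h1 : ∀ x x' y, |x' - 1 / 2| ≤ |x - 1 / 2| → F x y ≤ F x' y) :
    ∃ a b, GoodRange (fun k => marg (v k)) (marg F) a b ∧ lineX F ≤ a := by
  have hconv : ∀ᵐ t, Tendsto (fun k => marg (v k) t) atTop (𝓝 (marg F t)) := by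
    filter_upwards [S.ae_slice] with x hx using S.marg_conv hx
  obtain ⟨a, b, hr, hQ⟩ := exists_goodRange_Q S.marg_nonneg S.marg_le_one hconv
    (Q := fun x => x ∈ Ioo (0 : ℝ) 1) ae_Ioo
  refine ⟨a, b, hr, ?_⟩
  refine le_of_forall_pos_le_add fun ε hε => ?_
  obtain ⟨x, hx, hlt⟩ := hQ ε hε
  exact (S.marg_lower h1 hx).trans hlt.le

/-- Slices with full lines in both directions. -/
theorem slice_cross (S : Seq2 F v vx vy)
    (h1 : ∀ x x' y, |x' - 1 / 2| ≤ |x - 1 / 2| → F x y ≤ F x' y) {Λ : ℝ}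
    (hΛ : ∀ k, ∫ x in (0 : ℝ)..1, ∫ y in (0 : ℝ)..1, √(vx k x y ^ 2 + vy k x y ^ 2) ≤ Λ)
    (hY : 0 < lineY F) (hX : 0 < lineX F) : fTc (area F) ≤ Λ := by
  obtain ⟨a, b, hr, ha⟩ := S.exists_range h1
  have hb : b = 1 := by
    rcases hr.le_one.lt_or_eq with h | h
    · rw [S.range_top_of_line hr h] at hY
      exact absurd hY (lt_irrefl _)
    · exact h
  subst hb
  exact S.compl_disc_bound hΛ hr (lt_of_lt_of_le hX ha)

/-- The value of the clamp calibration. -/
lemma clamp_value (S : Seq2 F v vx vy) {Λ : ℝ}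
    (hΛ : ∀ k, ∫ x in (0 : ℝ)..1, ∫ y in (0 : ℝ)..1, √(vx k x y ^ 2 + vy k x y ^ 2) ≤ Λ) {b : ℝ}
    (hr : GoodRange (fun k => marg (v k)) (marg F) 0 b) (hb : 0 < b) :
    2 / b * (area F - lineY F) + 2 * (b * (π / 4)) ≤ Λ := by
  have hmain := S.calib_energy (clamp_pair b) hΛ hr
  rw [clamp_integral hb] at hmain
  have h1 : ∀ᵐ x ∂(volume.restrict (Ioc (0 : ℝ) 1)),
      clampA b (marg F x) * (2 * chi (marg F x)) =
        2 / b * (marg F x - fullInd (marg F x)) := by
    filter_upwards [hr.ae_mem] with x hx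
    rw [clampA_eq hb hx.1 hx.2]
    by_cases h0 : marg F x = 0
    · simp [chi, fullInd, h0]
    by_cases h1 : marg F x = 1
    · simp [chi, fullInd, h1]
    have hpos : 0 < marg F x := lt_of_le_of_ne (S.marg_nonneg x) (Ne.symm h0)
    have hlt : marg F x < 1 := lt_of_le_of_ne (S.marg_le_one x) h1
    simp only [chi, fullInd, h1, hpos, hlt, and_self, if_true, if_false]
    field_simp
    ring
  have h2 : ∫ x in (0 : ℝ)..1, clampA b (marg F x) * (2 * chi (marg F x)) =
      2 / b * (area F - lineY F) := by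
    rw [intervalIntegral.integral_of_le zero_le_one, integral_congr_ae h1,
      ← intervalIntegral.integral_of_le zero_le_one, intervalIntegral.integral_const_mul,
      intervalIntegral.integral_sub S.marg_intervalIntegrable S.full_intervalIntegrable]
    rfl
  rw [h2] at hmain
  exact hmain

/-- Slices containing a strip, with lines of the other kind: the stadium bound. -/
theorem slice_stad (S : Seq2 F v vx vy)
    (h1 : ∀ x x' y, |x' - 1 / 2| ≤ |x - 1 / 2| → F x y ≤ F x' y) {Λ : ℝ}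
    (hΛ : ∀ k, ∫ x in (0 : ℝ)..1, ∫ y in (0 : ℝ)..1, √(vx k x y ^ 2 + vy k x y ^ 2) ≤ Λ)
    (hY : 0 < lineY F) (hX : 0 < lineX F) {g : ℝ} (hg0 : 0 ≤ g) (hg1 : g < 1) (hgX : g ≤ lineX F)
    (hst : π * (1 - g) ^ 2 ≤ 4 * (1 - area F)) : stadV (1 - area F) (1 - g) ≤ Λ := by
  obtain ⟨a, b, hr, ha⟩ := S.exists_range h1
  have hb : b = 1 := by
    rcases hr.le_one.lt_or_eq with h | h
    · rw [S.range_top_of_line hr h] at hY
      exact absurd hY (lt_irrefl _)
    · exact h
  subst hb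
  have ha0 : 0 < a := lt_of_lt_of_le hX ha
  have hpi := Real.pi_pos
  have hH : 0 < 1 - g := by linarith
  have hr' := S.range_compl hr
  rw [sub_self] at hr'
  have hΛ' : ∀ k, ∫ x in (0 : ℝ)..1, ∫ y in (0 : ℝ)..1,
      √((- vx k x y) ^ 2 + (- vy k x y) ^ 2) ≤ Λ := by
    intro k
    simpa only [neg_sq] using hΛ k
  have hline : lineY (fun x y => 1 - F x y) = 0 := by
    have h1 : ∀ᵐ x ∂(volume.restrict (Ioc (0 : ℝ) 1)),
        fullInd (marg (fun x y => 1 - F x y) x) = 0 := by
      filter_upwards [hr.ae_mem] with x hx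
      rw [S.marg_compl_F]
      have : 1 - marg F x ≠ 1 := by
        have := hx.1
        intro h2
        linarith
      simp [fullInd, this]
    unfold lineY
    change ∫ x in (0 : ℝ)..1, fullInd (marg (fun x y => 1 - F x y) x) = 0
    rw [intervalIntegral.integral_of_le zero_le_one, integral_congr_ae h1]
    simp
  have ht : 0 < 1 - area F := by
    have : 0 < π * (1 - g) ^ 2 := by positivity
    linarith
  have hb' : 0 < 1 - a := by
    rcases hr'.le.eq_or_lt with h | h
    · exfalso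
      have h2 : area (fun x y => 1 - F x y) = 0 := by
        have h3 : ∀ᵐ x ∂(volume.restrict (Ioc (0 : ℝ) 1)), marg (fun x y => 1 - F x y) x = 0 := by
          filter_upwards [hr'.ae_mem] with x hx
          rw [← h] at hx
          exact le_antisymm hx.2 hx.1
        change ∫ x in (0 : ℝ)..1, marg (fun x y => 1 - F x y) x = 0
        rw [intervalIntegral.integral_of_le zero_le_one, integral_congr_ae h3]
        simp
      rw [S.area_compl] at h2
      linarith
    · exact h
  have hc := S.compl.clamp_value hΛ' hr' hb'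
  rw [S.area_compl, hline, sub_zero] at hc
  set t := 1 - area F with ht'
  set H := 1 - g with hH'
  set c := 1 - a with hc'
  have hcH : c ≤ H := by rw [hc', hH']; linarith
  unfold stadV
  have hkey : 2 * t / H + π * H / 2 ≤ 2 * t / c + π * c / 2 := by
    have e : 2 * t / c + π * c / 2 - (2 * t / H + π * H / 2) =
        (H - c) * (4 * t - π * c * H) / (2 * c * H) := by
      field_simp
      ring
    have h0 : 0 ≤ 4 * t - π * c * H := by
      have : π * c * H ≤ π * H ^ 2 := by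
        have : c * H ≤ H ^ 2 := by nlinarith
        nlinarith
      linarith
    have h3 : 0 ≤ (H - c) * (4 * t - π * c * H) / (2 * c * H) :=
      div_nonneg (mul_nonneg (by linarith) h0) (by positivity)
    linarith
  have e2 : 2 / c * t + 2 * (c * (π / 4)) = 2 * t / c + π * c / 2 := by
    field_simp
    ring
  linarith

/-- Swapped variables in the energy. -/
lemma energy_swap_le (S : Seq2 F v vx vy) {Λ : ℝ}
    (hΛ : ∀ k, ∫ x in (0 : ℝ)..1, ∫ y in (0 : ℝ)..1, √(vx k x y ^ 2 + vy k x y ^ 2) ≤ Λ) (k : ℕ) :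
    ∫ x in (0 : ℝ)..1, ∫ y in (0 : ℝ)..1, √(vy k y x ^ 2 + vx k y x ^ 2) ≤ Λ := by
  rw [S.energy_swap k]
  exact hΛ k

/-- Variant of `slice_cross` with the hypothesis on the second variable. -/
theorem slice_cross' (S : Seq2 F v vx vy)
    (h2 : ∀ x y y', |y' - 1 / 2| ≤ |y - 1 / 2| → F x y ≤ F x y') {Λ : ℝ}
    (hΛ : ∀ k, ∫ x in (0 : ℝ)..1, ∫ y in (0 : ℝ)..1, √(vx k x y ^ 2 + vy k x y ^ 2) ≤ Λ)
    (hY : 0 < lineY F) (hX : 0 < lineX F) : fTc (area F) ≤ Λ := by
  have := S.swap.slice_cross (fun x x' y h => h2 y x x' h) (S.energy_swap_le hΛ) hX hY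
  rwa [S.area_swap] at this

/-- The stadium bound with a strip in the other direction. -/
theorem slice_stad' (S : Seq2 F v vx vy)
    (h2 : ∀ x y y', |y' - 1 / 2| ≤ |y - 1 / 2| → F x y ≤ F x y') {Λ : ℝ}
    (hΛ : ∀ k, ∫ x in (0 : ℝ)..1, ∫ y in (0 : ℝ)..1, √(vx k x y ^ 2 + vy k x y ^ 2) ≤ Λ)
    (hY : 0 < lineY F) (hX : 0 < lineX F) {g : ℝ} (hg0 : 0 ≤ g) (hg1 : g < 1) (hgY : g ≤ lineY F)
    (hst : π * (1 - g) ^ 2 ≤ 4 * (1 - area F)) : stadV (1 - area F) (1 - g) ≤ Λ := by
  have := S.swap.slice_stad (fun x x' y h => h2 y x x' h) (S.energy_swap_le hΛ) hX hY hg0 hg1 hgY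
    (by rw [S.area_swap]; exact hst)
  rwa [S.area_swap] at this

/-- The arc bound: lines across in the second variable only. -/
theorem slice_arc (S : Seq2 F v vx vy)
    (hv : ∀ k x x' y, |x' - 1 / 2| ≤ |x - 1 / 2| → v k x y ≤ v k x' y)
    (h1 : ∀ x x' y, |x' - 1 / 2| ≤ |x - 1 / 2| → F x y ≤ F x' y) {Λ : ℝ}
    (hΛ : ∀ k, ∫ x in (0 : ℝ)..1, ∫ y in (0 : ℝ)..1, √(vx k x y ^ 2 + vy k x y ^ 2) ≤ Λ)
    (hY : lineY F = 0) (hX : 0 < lineX F) {p : ℝ} (hp0 : 0 ≤ p) (hp1 : p ≤ 1) :
    2 * p * (area F - lineX F) + 2 * Epoly p ≤ Λ := by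
  have hchi : ∀ᵐ x ∂(volume.restrict (Ioc (0 : ℝ) 1)), 0 < marg F x ∧ marg F x < 1 := by
    have h0 : ∀ᵐ x ∂(volume.restrict (Ioc (0 : ℝ) 1)), fullInd (marg F x) = 0 := by
      have hY' : ∫ x in (0 : ℝ)..1, fullInd (marg F x) = 0 := hY
      rw [intervalIntegral.integral_of_le zero_le_one] at hY'
      have hii := S.full_intervalIntegrable
      rw [intervalIntegrable_iff, uIoc_of_le zero_le_one] at hii
      have := (setIntegral_eq_zero_iff_of_nonneg_ae
        (Eventually.of_forall fun x => fullInd_nonneg (marg F x)) hii).1 hY'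
      exact this
    filter_upwards [h0, ae_Ioo] with x hx hI
    refine ⟨lt_of_lt_of_le hX (S.marg_lower h1 hI), ?_⟩
    refine lt_of_le_of_ne (S.marg_le_one x) fun h => ?_
    rw [fullInd, if_pos h] at hx
    exact one_ne_zero hx
  have := S.S_bound hv h1 hp0 hp1 hchi hΛ
  rw [Epoly_eq_Ehat]
  linarith

/-- The arc bound with the variables exchanged. -/
theorem slice_arc' (S : Seq2 F v vx vy)
    (hv : ∀ k x y y', |y' - 1 / 2| ≤ |y - 1 / 2| → v k x y ≤ v k x y')
    (h2 : ∀ x y y', |y' - 1 / 2| ≤ |y - 1 / 2| → F x y ≤ F x y') {Λ : ℝ}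
    (hΛ : ∀ k, ∫ x in (0 : ℝ)..1, ∫ y in (0 : ℝ)..1, √(vx k x y ^ 2 + vy k x y ^ 2) ≤ Λ)
    (hX : lineX F = 0) (hY : 0 < lineY F) {p : ℝ} (hp0 : 0 ≤ p) (hp1 : p ≤ 1) :
    2 * p * (area F - lineY F) + 2 * Epoly p ≤ Λ := by
  have := S.swap.slice_arc (fun k x x' y h => hv k y x x' h) (fun x x' y h => h2 y x x' h)
    (S.energy_swap_le hΛ) hX hY hp0 hp1
  rwa [S.area_swap] at this

end Seq2

end Vale.Agent.Lib.P232
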