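import Vale.Agent.Lib.P232.Rods
import Vale.Agent.Lib.P232.SliceM
import Vale.Agent.Lib.P232.Corner2
import Vale.Agent.Lib.P232.RealPart2

open MeasureTheory Filter Topology Set
open scoped Real

namespace Vale.Agent.Lib.P232

/-! ### Elementary facts on the profile functions -/

lemma Sb_continuous (β : ℝ) : Continuous (Sb β) := by
  unfold Sb
  refine Continuous.finset_sup'_apply _ fun j _ => ?_
  unfold arcVal
  fun_prop

lemma Sb_ge_two (β s : ℝ) : 2 ≤ Sb β s := by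
  have := arcVal_le_Sb (j := 0) (by norm_num) β s
  have e : arcVal (((0 : ℕ) : ℝ) / 20) β s = 2 := by
    unfold arcVal Epoly
    norm_num
  rwa [e] at this

lemma fTc_continuous : Continuous fTc := by
  unfold fTc
  fun_prop

lemma fTc_nonneg (s : ℝ) : 0 ≤ fTc s := by
  unfold fTc
  positivity

lemma sqrtPi_le_two : √π ≤ 2 := by
  have := sqrtPi_bounds.2
  linarith

lemma fTc_le {s : ℝ} (hs : s ∈ Icc (0 : ℝ) 1) : fTc s ≤ 4 := by
  unfold fTc
  have h1 : √(π * (1 - s)) ≤ √π := by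
    apply Real.sqrt_le_sqrt
    have := Real.pi_pos
    nlinarith [hs.1]
  have := sqrtPi_le_two
  linarith

lemma I2_le_fTc (s : ℝ) : I2 s ≤ fTc s := (min_le_right _ _).trans (min_le_right _ _)

lemma fB2_measurable (β : ℝ) : Measurable (fB2 β) :=
  (Ju_continuous.min (Sb_continuous β)).measurable

lemma fB1_measurable (β : ℝ) : Measurable (fB1 β) :=
  (fTc_continuous.min (Ju_continuous.min (Sb_continuous β))).measurable

lemma fB2_nonneg (β s : ℝ) : 0 ≤ fB2 β s :=
  le_min (Ju_nonneg s) (by linarith [Sb_ge_two β s])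

lemma fB1_nonneg (β s : ℝ) : 0 ≤ fB1 β s :=
  le_min (fTc_nonneg s) (fB2_nonneg β s)

lemma Ju_le_four (s : ℝ) : Ju s ≤ 4 := by
  have h1 := Ju_le_bound s
  have h2 : √2 ≤ 2 := by
    rw [Real.sqrt_le_left (by norm_num)]
    norm_num
  linarith

lemma fB2_le (β s : ℝ) : fB2 β s ≤ 4 := (min_le_left _ _).trans (Ju_le_four s)

lemma fB1_le (β s : ℝ) : fB1 β s ≤ 4 := (min_le_right _ _).trans (fB2_le β s)

lemma fAr_measurable (γ : ℝ) : Measurable (fAr γ) :=
  (I2_continuous.max (fTc_continuous.min (Ju_continuous.min (Sb_continuous γ)))).measurable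

lemma fAr_nonneg (γ s : ℝ) : 0 ≤ fAr γ s := (I2_nonneg s).trans (le_max_left _ _)

lemma fAr_le {γ s : ℝ} (hs : s ∈ Icc (0 : ℝ) 1) : fAr γ s ≤ 4 := by
  refine max_le ((I2_le_two s).trans (by norm_num)) ?_
  exact (min_le_left _ _).trans (fTc_le hs)

lemma I2_le_fAr (γ s : ℝ) : I2 s ≤ fAr γ s := le_max_left _ _

lemma fSt_measurable (γ : ℝ) : Measurable (fSt γ) := by
  unfold fSt
  refine fTc_continuous.measurable.max ?_
  refine Measurable.ite ?_ ?_ measurable_const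
  · exact measurableSet_le measurable_const (by fun_prop)
  · unfold stadV
    fun_prop

lemma fSt_nonneg (γ s : ℝ) : 0 ≤ fSt γ s := (fTc_nonneg s).trans (le_max_left _ _)

lemma fSt_le {γ s : ℝ} (hγ0 : 0 ≤ γ) (hγ1 : γ ≤ 27 / 50) (hs : s ∈ Icc (0 : ℝ) 1) : fSt γ s ≤ 8 := by
  refine max_le ((fTc_le hs).trans (by norm_num)) ?_
  split_ifs
  · unfold stadV
    have h1 : 0 < 1 - γ := by linarith
    have h2 : 2 * (1 - s) / (1 - γ) ≤ 5 := by
      rw [div_le_iff₀ h1]
      nlinarith [hs.1, hs.2]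
    have h3 : π * (1 - γ) / 2 ≤ 2 := by
      have := Real.pi_lt_four
      nlinarith [Real.pi_pos]
    linarith
  · norm_num

lemma I2_le_fSt (γ s : ℝ) : I2 s ≤ fSt γ s := (I2_le_fTc s).trans (le_max_left _ _)

/-- The arc bound below the threshold of the exact zone. -/
lemma tube_le_Sb {s : ℝ} (h0 : 0 ≤ s) (h1 : s ≤ 3 / 8) : tubeVal s ≤ Sb gapAlpha s := by
  have hj := arcVal_le_Sb (j := 12) (by norm_num) gapAlpha s
  refine le_trans ?_ hj
  unfold tubeVal arcVal Epoly gapAlpha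
  norm_num
  have hpi := Real.pi_lt_d4
  have hpi0 := Real.pi_pos
  have hpos : 0 ≤ 6 / 5 * (s - 3 / 25) + 1.86852 := by norm_num; nlinarith
  have hsq : √(π * s) ≤ (6 / 5 * (s - 3 / 25) + 1.86852) / 2 := by
    apply Real.sqrt_le_iff.2
    constructor
    · linarith
    · nlinarith
  norm_num at hsq ⊢
  nlinarith

lemma tube_le_fB2 {s : ℝ} (h0 : 0 ≤ s) (h1 : s ≤ 3 / 8) : tubeVal s ≤ fB2 gapAlpha s :=
  le_min (two_sqrt_le_Ju (by linarith)) (tube_le_Sb h0 h1)

lemma tube_le_fTc {s : ℝ} (h1 : s ≤ 1 / 2) : tubeVal s ≤ fTc s := by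
  unfold tubeVal fTc
  have := Real.sqrt_le_sqrt (show π * s ≤ π * (1 - s) by
    have := Real.pi_pos
    nlinarith)
  linarith

lemma tube_le_fB1 {s : ℝ} (h0 : 0 ≤ s) (h1 : s ≤ 3 / 8) : tubeVal s ≤ fB1 gapAlpha s :=
  le_min (tube_le_fTc (by linarith)) (tube_le_fB2 h0 h1)

/-- The single phase bound from the two phase bound. -/
lemma PhaseBound.toPair {f₁ f₂ J : ℝ → ℝ} {α a b V L : ℝ} (h : PhaseBound f₁ f₂ α a b V L)
    (hJ1 : ∀ s ∈ Icc a b, J s ≤ f₁ s) (hJ2 : ∀ s ∈ Icc a b, J s ≤ f₂ s) : PairBound J a b V L := by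
  intro A B hp k m hl
  have := h A B hp k m m
    (fun s hs => (hl s hs).trans (mul_le_mul_of_nonneg_left (hJ1 s hs) (hp.nonnegA s)))
    (fun s hs => (hl s hs).trans (mul_le_mul_of_nonneg_left (hJ2 s hs) (hp.nonnegA s)))
  have e : k * V + α * m + (1 - α) * m = k * V + m := by ring
  rwa [e] at this

lemma ae_abs_ne2 (e : ℝ) : ∀ᵐ x : ℝ, |x - 1 / 2| ≠ e := by
  have hfin : ({x : ℝ | |x - 1 / 2| = e}).Finite := by
    refine Set.Finite.subset (Set.toFinite {1 / 2 + e, 1 / 2 - e}) fun x hx => ?_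
    have hx' : |x - 1 / 2| = e := hx
    rcases abs_eq_abs.1 (show |x - 1 / 2| = |e| by
      rw [hx', abs_of_nonneg (by rw [← hx']; exact abs_nonneg _)]) with h | h
    · left
      linarith
    · right
      rw [mem_singleton_iff]
      linarith
  rw [ae_iff]
  simpa using hfin.measure_zero volume

lemma fullInd_mono {c c' : ℝ} (h : c ≤ c') (h1 : c' ≤ 1) : fullInd c ≤ fullInd c' := by
  unfold fullInd
  by_cases hc : c = 1
  · have : c' = 1 := le_antisymm h1 (hc ▸ h)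
    simp [hc, this]
  · rw [if_neg hc]
    split_ifs <;> norm_num

/-- The certificates needed in the volume range. -/
structure GapCerts : Prop where
  certA : ∀ {a b V Per : ℝ}, 1 / 10000 ≤ a → a ≤ V → V ≤ b → b ≤ 1 → 53 / 200 ≤ V → V ≤ 9 / 25 →
    PhaseBound fTc I2 gapAlpha a b V Per → Tgt V ≤ Per
  certS1 : ∀ {a b V Per : ℝ}, 0 ≤ a → a ≤ 1 / 10000 → V ≤ b → b ≤ 1 - 1 / 10000 → 53 / 200 ≤ V →
    V ≤ 9 / 25 → PhaseBound (fSt 0) (fAr (23 / 50)) gapAlpha a b V Per → Tgt V ≤ Per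
  certS2 : ∀ {a b V Per : ℝ}, 0 ≤ a → a ≤ 1 / 10000 → V ≤ b → b ≤ 1 - 1 / 10000 → 53 / 200 ≤ V →
    V ≤ 9 / 25 → PhaseBound (fSt (23 / 50)) (fAr (1 / 2)) gapAlpha a b V Per → Tgt V ≤ Per
  certS3 : ∀ {a b V Per : ℝ}, 0 ≤ a → a ≤ 1 / 10000 → V ≤ b → b ≤ 1 - 1 / 10000 → 53 / 200 ≤ V →
    V ≤ 9 / 25 → PhaseBound (fSt (1 / 2)) (fAr (27 / 50)) gapAlpha a b V Per → Tgt V ≤ Per
  certS4 : ∀ {a b V Per : ℝ}, 0 ≤ a → a ≤ 1 / 10000 → V ≤ b → b ≤ 1 - 1 / 10000 → 53 / 200 ≤ V →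
    V ≤ 9 / 25 → PhaseBound (fSt (27 / 50)) (fAr 1) gapAlpha a b V Per → Tgt V ≤ Per
  certB : ∀ {a b V Per : ℝ}, 0 ≤ a → a ≤ V → V ≤ b → b ≤ 1 → 3 / 8 ≤ b → 53 / 200 ≤ V → V ≤ 9 / 25 →
    PhaseBound (fB1 gapAlpha) (fB2 gapAlpha) gapAlpha a b V Per → Tgt V ≤ Per

namespace Seq3

variable {F : ℝ → ℝ → ℝ → ℝ} {u ux uy uz : ℕ → ℝ → ℝ → ℝ → ℝ}

/-- The bounds on almost every slice of a monotone set. -/
lemma ae_slice_mono (S : Seq3 F u ux uy uz) (hY : MonoY F) (hZ : MonoZ F)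
    (hw : ∀ k, MonoY (u k) ∧ MonoZ (u k)) :
    ∀ᵐ x, ∀ c, (∃ᶠ k in atTop, transCost (uy k) (uz k) x ≤ c) →
      I2 (area (F x)) ≤ c ∧
      (lineY (F x) = 0 → lineX (F x) = 0 → Ju (area (F x)) ≤ c) ∧
      (0 < lineY (F x) → 0 < lineX (F x) → fTc (area (F x)) ≤ c) ∧
      (lineY (F x) = 0 → 0 < lineX (F x) → ∀ β, lineX (F x) ≤ β → Sb β (area (F x)) ≤ c) ∧
      (lineX (F x) = 0 → 0 < lineY (F x) → ∀ β, lineY (F x) ≤ β → Sb β (area (F x)) ≤ c) ∧
      (0 < lineY (F x) → 0 < lineX (F x) → ∀ g, 0 ≤ g → g < 1 → (g ≤ lineX (F x) ∨ g ≤ lineY (F x)) →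
        π * (1 - g) ^ 2 ≤ 4 * (1 - area (F x)) → stadV (1 - area (F x)) (1 - g) ≤ c) := by
  filter_upwards [S.ae_slice] with x hx c hc
  obtain ⟨φ, hφ, hφc⟩ := extraction_of_frequently_atTop hc
  have S' := hx.subseq hφ.tendsto_atTop
  have hΛ : ∀ k, ∫ y in (0 : ℝ)..1, ∫ z in (0 : ℝ)..1,
      √(uy (φ k) x y z ^ 2 + uz (φ k) x y z ^ 2) ≤ c := hφc
  have h1 : ∀ y y' z, |y' - 1 / 2| ≤ |y - 1 / 2| → F x y z ≤ F x y' z := fun y y' z h => hY x y y' z h
  have h2 : ∀ y z z', |z' - 1 / 2| ≤ |z - 1 / 2| → F x y z ≤ F x y z' := fun y z z' h => hZ x y z z' h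
  have hv1 : ∀ k y y' z, |y' - 1 / 2| ≤ |y - 1 / 2| → u (φ k) x y z ≤ u (φ k) x y' z :=
    fun k y y' z h => (hw (φ k)).1 x y y' z h
  have hv2 : ∀ k y z z', |z' - 1 / 2| ≤ |z - 1 / 2| → u (φ k) x y z ≤ u (φ k) x y z' :=
    fun k y z z' h => (hw (φ k)).2 x y z z' h
  refine ⟨S'.I2_le hΛ, fun h3 h4 => ?_, fun h3 h4 => S'.slice_cross h1 hΛ h3 h4,
    fun h3 h4 β hβ => ?_, fun h3 h4 β hβ => ?_, fun h3 h4 g hg0 hg1 hg hst => ?_⟩
  · have := S'.Ju_le hΛ
    rw [h3, h4] at this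
    simpa using this
  · refine Finset.sup'_le _ _ fun j hj => ?_
    have hj' : j ≤ 20 := by
      have := Finset.mem_range.1 hj
      omega
    have hp0 : (0 : ℝ) ≤ (j : ℝ) / 20 := by positivity
    have hp1 : (j : ℝ) / 20 ≤ 1 := by
      rw [div_le_one (by norm_num)]
      exact_mod_cast hj'
    have := S'.slice_arc hv1 h1 hΛ h3 h4 hp0 hp1
    unfold arcVal
    nlinarith
  · refine Finset.sup'_le _ _ fun j hj => ?_
    have hj' : j ≤ 20 := by
      have := Finset.mem_range.1 hj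
      omega
    have hp0 : (0 : ℝ) ≤ (j : ℝ) / 20 := by positivity
    have hp1 : (j : ℝ) / 20 ≤ 1 := by
      rw [div_le_one (by norm_num)]
      exact_mod_cast hj'
    have := S'.slice_arc' hv2 h2 hΛ h3 h4 hp0 hp1
    unfold arcVal
    nlinarith
  · rcases hg with hg | hg
    · exact S'.slice_stad h1 hΛ h3 h4 hg0 hg1 hg hst
    · exact S'.slice_stad' h2 hΛ h3 h4 hg0 hg1 hg hst

lemma exists_range3 (S : Seq3 F u ux uy uz) :
    ∃ a b, GoodRange (fun k x => area (u k x)) (fun x => area (F x)) a b ∧ 0 ≤ a ∧ a ≤ vol3 F ∧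
      vol3 F ≤ b ∧ b ≤ 1 := by
  obtain ⟨a, b, hr⟩ := exists_goodRange (g := fun k x => area (u k x))
    (G := fun x => area (F x)) (fun x => (S.G_mem x).1) (fun x => (S.G_mem x).2) S.ae_area_conv
  have hV1 : a ≤ vol3 F := by
    have := integral_mono_unit (f := fun _ => a) (g := fun x => area (F x))
      intervalIntegrable_const S.G_ii (by filter_upwards [hr.ae_mem] with x hx using hx.1)
    simpa [vol3, area] using this
  have hV2 : vol3 F ≤ b := by
    have := integral_mono_unit (g := fun _ => b) (f := fun x => area (F x))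
      S.G_ii intervalIntegrable_const (by filter_upwards [hr.ae_mem] with x hx using hx.2)
    simpa [vol3, area] using this
  exact ⟨a, b, hr, hr.nonneg, hV1, hV2, hr.le_one⟩

lemma rod2_bin (F : ℝ → ℝ → ℝ → ℝ) (x z : ℝ) : rod2 F x z = 0 ∨ rod2 F x z = 1 := by
  unfold rod2 fullInd
  split_ifs <;> simp

lemma rod3_bin (F : ℝ → ℝ → ℝ → ℝ) (x y : ℝ) : rod3 F x y = 0 ∨ rod3 F x y = 1 := by
  unfold rod3 fullInd
  split_ifs <;> simp

lemma rod2_meas (S : Seq3 F u ux uy uz) : Measurable fun q : ℝ × ℝ => rod2 F q.1 q.2 :=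
  fullInd_measurable.comp S.meas2'

lemma rod3_meas (S : Seq3 F u ux uy uz) : Measurable fun q : ℝ × ℝ => rod3 F q.1 q.2 :=
  fullInd_measurable.comp S.meas2

lemma F_bd (S : Seq3 F u ux uy uz) (x y z : ℝ) : 0 ≤ F x y z ∧ F x y z ≤ 1 := by
  rcases S.bin x y z with h | h <;> simp [h]

lemma rod2_mono (S : Seq3 F u ux uy uz) (hX : MonoX F) (x x' z : ℝ) (h : |x' - 1 / 2| ≤ |x - 1 / 2|) :
    rod2 F x z ≤ rod2 F x' z := by
  have hs : ∀ t, IntervalIntegrable (fun y => F t y z) volume 0 1 := fun t => by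
    refine ii_of_bdd (C := 1) ?_ fun y => ?_
    · have : Measurable fun y : ℝ => ((t, y, z) : ℝ × ℝ × ℝ) := by fun_prop
      exact S.meas.comp this
    · rw [abs_of_nonneg (S.F_bd t y z).1]
      exact (S.F_bd t y z).2
  refine fullInd_mono ?_ ?_
  · exact intervalIntegral.integral_mono_on zero_le_one (hs x) (hs x') fun y _ => hX x x' y z h
  · have : ∫ y in (0 : ℝ)..1, F x' y z ≤ ∫ _ in (0 : ℝ)..1, (1 : ℝ) :=
      intervalIntegral.integral_mono_on zero_le_one (hs x') (by simp) fun y _ => (S.F_bd x' y z).2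
    simpa using this

lemma rod3_mono (S : Seq3 F u ux uy uz) (hX : MonoX F) (x x' y : ℝ) (h : |x' - 1 / 2| ≤ |x - 1 / 2|) :
    rod3 F x y ≤ rod3 F x' y := by
  have hs : ∀ t, IntervalIntegrable (fun z => F t y z) volume 0 1 := fun t => by
    refine ii_of_bdd (C := 1) ?_ fun z => ?_
    · have : Measurable fun z : ℝ => ((t, y, z) : ℝ × ℝ × ℝ) := by fun_prop
      exact S.meas.comp this
    · rw [abs_of_nonneg (S.F_bd t y z).1]
      exact (S.F_bd t y z).2
  refine fullInd_mono ?_ ?_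
  · exact intervalIntegral.integral_mono_on zero_le_one (hs x) (hs x') fun z _ => hX x x' y z h
  · have : ∫ z in (0 : ℝ)..1, F x' y z ≤ ∫ _ in (0 : ℝ)..1, (1 : ℝ) :=
      intervalIntegral.integral_mono_on zero_le_one (hs x') (by simp) fun z _ => (S.F_bd x' y z).2
    simpa using this

lemma lineX_eq (F : ℝ → ℝ → ℝ → ℝ) (x : ℝ) : lineX (F x) = marg (rod2 F) x := rfl

lemma lineY_eq (F : ℝ → ℝ → ℝ → ℝ) (x : ℝ) : lineY (F x) = marg (rod3 F) x := rfl

lemma rod2_bd (F : ℝ → ℝ → ℝ → ℝ) (x z : ℝ) : 0 ≤ rod2 F x z ∧ rod2 F x z ≤ 1 := by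
  rcases rod2_bin F x z with h | h <;> simp [h]

lemma rod3_bd (F : ℝ → ℝ → ℝ → ℝ) (x z : ℝ) : 0 ≤ rod3 F x z ∧ rod3 F x z ≤ 1 := by
  rcases rod3_bin F x z with h | h <;> simp [h]

lemma lineX_mono (S : Seq3 F u ux uy uz) (hX : MonoX F) {x x' : ℝ} (h : |x' - 1 / 2| ≤ |x - 1 / 2|) :
    lineX (F x) ≤ lineX (F x') :=
  marg_mono_of_mono (rod2_bd F) S.rod2_meas (S.rod2_mono hX) h

lemma lineY_mono (S : Seq3 F u ux uy uz) (hX : MonoX F) {x x' : ℝ} (h : |x' - 1 / 2| ≤ |x - 1 / 2|) :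
    lineY (F x) ≤ lineY (F x') :=
  marg_mono_of_mono (rod3_bd F) S.rod3_meas (S.rod3_mono hX) h

lemma gapAlpha_bounds : 0 ≤ gapAlpha ∧ gapAlpha ≤ 1 := by
  unfold gapAlpha
  norm_num

/-- The phase bound in the case of lines of both kinds on the first phase. -/
theorem phase_A (S : Seq3 F u ux uy uz) (hX : MonoX F) (hY : MonoY F) (hZ : MonoZ F)
    (hw : ∀ k, MonoY (u k) ∧ MonoZ (u k)) {Per : ℝ}
    (hPer : ∀ k, energy3 (ux k) (uy k) (uz k) ≤ Per)
    (h1 : gapAlpha ≤ extent (rod2 F)) (h2 : gapAlpha ≤ extent (rod3 F))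
    {a b : ℝ} (hr : GoodRange (fun k x => area (u k x)) (fun x => area (F x)) a b) :
    PhaseBound fTc I2 gapAlpha a b (vol3 F) Per := by
  refine S.phase_bound hPer fTc_continuous.measurable I2_continuous.measurable (C := 4)
    (fun s hs => ⟨fTc_nonneg s, fTc_le hs⟩)
    (fun s _ => ⟨I2_nonneg s, (I2_le_two s).trans (by norm_num)⟩) gapAlpha_bounds.1 gapAlpha_bounds.2 ?_ hr
  filter_upwards [S.ae_slice_mono hY hZ hw] with x hx _ c hc
  obtain ⟨hI, -, hT, -⟩ := hx c hc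
  refine ⟨fun hp => hT ?_ ?_, fun _ => hI⟩
  · rw [lineY_eq]
    exact marg_pos_of_extent (rod3_bd F) S.rod3_meas (S.rod3_mono hX) (by linarith)
  · rw [lineX_eq]
    exact marg_pos_of_extent (rod2_bd F) S.rod2_meas (S.rod2_mono hX) (by linarith)

/-- The refined phase bound with a reference slice at the boundary of the first phase. -/
theorem phase_S (S : Seq3 F u ux uy uz) (hX : MonoX F) (hY : MonoY F) (hZ : MonoZ F)
    (hw : ∀ k, MonoY (u k) ∧ MonoZ (u k)) {Per : ℝ}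
    (hPer : ∀ k, energy3 (ux k) (uy k) (uz k) ≤ Per)
    (h1 : gapAlpha ≤ extent (rod2 F)) (h2 : gapAlpha ≤ extent (rod3 F))
    {a b : ℝ} (hr : GoodRange (fun k x => area (u k x)) (fun x => area (F x)) a b)
    {g₁ g₂ : ℝ} (hg0 : 0 ≤ g₁) (hg1 : g₁ ≤ 27 / 50)
    (hg₁ : g₁ ≤ max (lineX (F (1 / 2 + gapAlpha / 2))) (lineY (F (1 / 2 + gapAlpha / 2))))
    (hg₂ : max (lineX (F (1 / 2 + gapAlpha / 2))) (lineY (F (1 / 2 + gapAlpha / 2))) ≤ g₂) :
    PhaseBound (fSt g₁) (fAr g₂) gapAlpha a b (vol3 F) Per := by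
  have hα := gapAlpha_bounds
  have hdist : |1 / 2 + gapAlpha / 2 - 1 / 2| = gapAlpha / 2 := by
    rw [add_sub_cancel_left, abs_of_nonneg (by linarith [hα.1])]
  refine S.phase_bound hPer (fSt_measurable g₁) (fAr_measurable g₂) (C := 8)
    (fun s hs => ⟨fSt_nonneg g₁ s, fSt_le hg0 hg1 hs⟩)
    (fun s hs => ⟨fAr_nonneg g₂ s, (fAr_le hs).trans (by norm_num)⟩) hα.1 hα.2 ?_ hr
  filter_upwards [S.ae_slice_mono hY hZ hw] with x hx _ c hc
  obtain ⟨hI, hJ, hT, hA1, hA2, hSt⟩ := hx c hc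
  have hc0 : 0 ≤ c := (I2_nonneg _).trans hI
  constructor
  · intro hp
    have hpY : 0 < lineY (F x) := by
      rw [lineY_eq]
      exact marg_pos_of_extent (rod3_bd F) S.rod3_meas (S.rod3_mono hX) (by linarith)
    have hpX : 0 < lineX (F x) := by
      rw [lineX_eq]
      exact marg_pos_of_extent (rod2_bd F) S.rod2_meas (S.rod2_mono hX) (by linarith)
    refine max_le (hT hpY hpX) ?_
    split_ifs with hst
    · refine hSt hpY hpX g₁ hg0 (by linarith) ?_ hst
      have hle : |x - 1 / 2| ≤ |1 / 2 + gapAlpha / 2 - 1 / 2| := by rw [hdist]; exact hp.le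
      rcases le_max_iff.1 hg₁ with h | h
      · exact Or.inl (h.trans (S.lineX_mono hX hle))
      · exact Or.inr (h.trans (S.lineY_mono hX hle))
    · exact hc0
  · intro hp
    have hle : |1 / 2 + gapAlpha / 2 - 1 / 2| ≤ |x - 1 / 2| := by
      rw [hdist]
      exact not_lt.1 hp
    have hLX : lineX (F x) ≤ g₂ :=
      (S.lineX_mono hX hle).trans ((le_max_left _ _).trans hg₂)
    have hLY : lineY (F x) ≤ g₂ :=
      (S.lineY_mono hX hle).trans ((le_max_right _ _).trans hg₂)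
    refine max_le hI ?_
    have hnY : 0 ≤ lineY (F x) := lineY_nonneg' _
    have hnX : 0 ≤ lineX (F x) := lineX_nonneg' _
    rcases hnY.eq_or_lt with hY0 | hY0 <;> rcases hnX.eq_or_lt with hX0 | hX0
    · exact (min_le_right _ _).trans ((min_le_left _ _).trans (hJ hY0.symm hX0.symm))
    · exact (min_le_right _ _).trans ((min_le_right _ _).trans (hA1 hY0.symm hX0 g₂ hLX))
    · exact (min_le_right _ _).trans ((min_le_right _ _).trans (hA2 hX0.symm hY0 g₂ hLY))
    · exact (min_le_left _ _).trans (hT hY0 hX0)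

/-- The phase bound in the case of lines of at most one kind on the second phase. -/
theorem phase_By (S : Seq3 F u ux uy uz) (hX : MonoX F) (hY : MonoY F) (hZ : MonoZ F)
    (hw : ∀ k, MonoY (u k) ∧ MonoZ (u k)) {Per : ℝ}
    (hPer : ∀ k, energy3 (ux k) (uy k) (uz k) ≤ Per)
    (h1 : extent (rod3 F) < gapAlpha) (h2 : extent (fun z x => rod2 F x z) ≤ gapAlpha)
    (h3 : extent (rod3 F) ≤ extent (rod2 F))
    {a b : ℝ} (hr : GoodRange (fun k x => area (u k x)) (fun x => area (F x)) a b) :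
    PhaseBound (fB1 gapAlpha) (fB2 gapAlpha) gapAlpha a b (vol3 F) Per := by
  have hα := gapAlpha_bounds
  refine S.phase_bound hPer (fB1_measurable _) (fB2_measurable _) (C := 4)
    (fun s _ => ⟨fB1_nonneg _ s, fB1_le _ s⟩)
    (fun s _ => ⟨fB2_nonneg _ s, fB2_le _ s⟩) hα.1 hα.2 ?_ hr
  have hne : ∀ᵐ x : ℝ, x ≠ 1 / 2 := by simp [ae_iff]
  filter_upwards [S.ae_slice_mono hY hZ hw, hne, ae_abs_ne2 (extent (rod3 F) / 2)] with
    x hx hx1 hx2 hxI c hc
  obtain ⟨hI, hJ, hT, hA1, hA2, hSt⟩ := hx c hc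
  have hnY : 0 ≤ lineY (F x) := lineY_nonneg' _
  have hnX : 0 ≤ lineX (F x) := lineX_nonneg' _
  have hLX : lineX (F x) ≤ gapAlpha := by
    rw [lineX_eq]
    exact (marg_le_extent (rod2_bin F) S.rod2_meas (S.rod2_mono hX) hxI hx1).trans h2
  have hzero : lineY (F x) = 0 → fB2 gapAlpha (area (F x)) ≤ c := by
    intro h0
    rcases hnX.eq_or_lt with hX0 | hX0
    · exact (min_le_left _ _).trans (hJ h0 hX0.symm)
    · exact (min_le_right _ _).trans (hA1 h0 hX0 _ hLX)
  constructor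
  · intro _
    rcases hnY.eq_or_lt with hY0 | hY0
    · exact (min_le_right _ _).trans (hzero hY0.symm)
    rcases hnX.eq_or_lt with hX0 | hX0
    · -- impossible up to a null set
      exfalso
      have h4 : |x - 1 / 2| ≤ extent (rod3 F) / 2 := by
        by_contra hcon
        push Not at hcon
        have := marg_nonpos_of_extent hxI hcon
        rw [← lineY_eq] at this
        linarith
      have h5 : extent (rod2 F) / 2 ≤ |x - 1 / 2| := by
        by_contra hcon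
        push Not at hcon
        have := marg_pos_of_extent (rod2_bd F) S.rod2_meas (S.rod2_mono hX) hcon
        rw [← lineX_eq] at this
        linarith
      exact hx2 (le_antisymm h4 (by linarith))
    · exact (min_le_left _ _).trans (hT hY0 hX0)
  · intro hp
    apply hzero
    have h4 : extent (rod3 F) / 2 < |x - 1 / 2| := by
      have := not_lt.1 hp
      linarith
    have := marg_nonpos_of_extent hxI h4
    rw [← lineY_eq] at this
    linarith

/-- The phase bound in the case of lines of at most one kind on the second phase, the other kind. -/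
theorem phase_Bz (S : Seq3 F u ux uy uz) (hX : MonoX F) (hY : MonoY F) (hZ : MonoZ F)
    (hw : ∀ k, MonoY (u k) ∧ MonoZ (u k)) {Per : ℝ}
    (hPer : ∀ k, energy3 (ux k) (uy k) (uz k) ≤ Per)
    (h1 : extent (rod2 F) < gapAlpha) (h2 : extent (fun y x => rod3 F x y) ≤ gapAlpha)
    (h3 : extent (rod2 F) ≤ extent (rod3 F))
    {a b : ℝ} (hr : GoodRange (fun k x => area (u k x)) (fun x => area (F x)) a b) :
    PhaseBound (fB1 gapAlpha) (fB2 gapAlpha) gapAlpha a b (vol3 F) Per := by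
  have hα := gapAlpha_bounds
  refine S.phase_bound hPer (fB1_measurable _) (fB2_measurable _) (C := 4)
    (fun s _ => ⟨fB1_nonneg _ s, fB1_le _ s⟩)
    (fun s _ => ⟨fB2_nonneg _ s, fB2_le _ s⟩) hα.1 hα.2 ?_ hr
  have hne : ∀ᵐ x : ℝ, x ≠ 1 / 2 := by simp [ae_iff]
  filter_upwards [S.ae_slice_mono hY hZ hw, hne, ae_abs_ne2 (extent (rod2 F) / 2)] with
    x hx hx1 hx2 hxI c hc
  obtain ⟨hI, hJ, hT, hA1, hA2, hSt⟩ := hx c hc
  have hnY : 0 ≤ lineY (F x) := lineY_nonneg' _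
  have hnX : 0 ≤ lineX (F x) := lineX_nonneg' _
  have hLY : lineY (F x) ≤ gapAlpha := by
    rw [lineY_eq]
    exact (marg_le_extent (rod3_bin F) S.rod3_meas (S.rod3_mono hX) hxI hx1).trans h2
  have hzero : lineX (F x) = 0 → fB2 gapAlpha (area (F x)) ≤ c := by
    intro h0
    rcases hnY.eq_or_lt with hY0 | hY0
    · exact (min_le_left _ _).trans (hJ hY0.symm h0)
    · exact (min_le_right _ _).trans (hA2 h0 hY0 _ hLY)
  constructor
  · intro _
    rcases hnX.eq_or_lt with hX0 | hX0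
    · exact (min_le_right _ _).trans (hzero hX0.symm)
    rcases hnY.eq_or_lt with hY0 | hY0
    · -- impossible up to a null set
      exfalso
      have h4 : |x - 1 / 2| ≤ extent (rod2 F) / 2 := by
        by_contra hcon
        push Not at hcon
        have := marg_nonpos_of_extent hxI hcon
        rw [← lineX_eq] at this
        linarith
      have h5 : extent (rod3 F) / 2 ≤ |x - 1 / 2| := by
        by_contra hcon
        push Not at hcon
        have := marg_pos_of_extent (rod3_bd F) S.rod3_meas (S.rod3_mono hX) hcon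
        rw [← lineY_eq] at this
        linarith
      exact hx2 (le_antisymm h4 (by linarith))
    · exact (min_le_left _ _).trans (hT hY0 hX0)
  · intro hp
    apply hzero
    have h4 : extent (rod2 F) / 2 < |x - 1 / 2| := by
      have := not_lt.1 hp
      linarith
    have := marg_nonpos_of_extent hxI h4
    rw [← lineX_eq] at this
    linarith

end Seq3

/-- The tube bound by the chord calibration for small slices. -/
lemma tube_zone {a b V Per : ℝ} (h0 : 0 ≤ a) (haV : a ≤ V) (hVb : V ≤ b) (hV1 : 53 / 200 ≤ V)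
    (h : PairBound tubeVal a b V Per) : tubeVal V ≤ Per := by
  have hpi := Real.pi_lt_d4
  have hV0 : 0 ≤ V := h0.trans haV
  have hb0 : 0 < b := by linarith
  have hs1 : (√a) ^ 2 = a := Real.sq_sqrt h0
  have hs2 : (√b) ^ 2 = b := Real.sq_sqrt hb0.le
  have hq : 0 < √b := Real.sqrt_pos.2 hb0
  have hp0 : 0 ≤ √a := Real.sqrt_nonneg a
  have hpq : √a ≤ √b := Real.sqrt_le_sqrt (haV.trans hVb)
  have hch := chord_bound (J := tubeVal) (p := √a) (q := √b) (V := V) (Λ := Per) hp0 hpq hq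
    (fun s _ => le_refl _) (by rw [hs1, hs2]; exact h)
  have hR := R0_bound hp0 hpq hq hV0
  have hV1' : 4 * π / 81 ≤ V := by linarith
  rw [min_eq_right (tubeVal_le_ballVal hV1')] at hR
  linarith

/-- The corner of the parameter square. -/
lemma corner_zone {a b V Per : ℝ} (h0 : 0 ≤ a) (ha : a ≤ 1 / 10000) (hb1 : b ≤ 1)
    (hb : 1 - 1 / 10000 ≤ b) (hV2 : V ≤ 9 / 25) (h : PairBound I2 a b V Per) : Tgt V ≤ Per := by
  by_cases hV : 31 / 100 ≤ V
  · exact (min_le_right _ _).trans (corner_slab2 h0 ha hb1 hb hV (by linarith) h)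
  · push Not at hV
    have hpair : CalibPair (fun _ => 0) (fun _ => 1) :=
      { contA := continuous_const
        contB := continuous_const
        nonnegA := fun _ => le_refl _
        nonnegB := fun _ => zero_le_one
        le_one := fun _ => by norm_num }
    have h1 := h _ _ hpair 0 0 (fun s _ => by simp)
    simp only [zero_mul, add_zero, intervalIntegral.integral_const, smul_eq_mul, mul_one] at h1
    have h2 : tubeVal V ≤ 2 * (b - a) := by
      unfold tubeVal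
      have hpi := Real.pi_lt_d4
      have hpi0 := Real.pi_pos
      have h3 : √(π * V) ≤ 9998 / 10000 := by
        apply Real.sqrt_le_iff.2
        constructor
        · norm_num
        · by_cases hV0 : 0 ≤ V
          · nlinarith
          · push Not at hV0
            nlinarith
      linarith
    exact (min_le_left _ _).trans (h2.trans (by linarith))

namespace Seq3

variable {F : ℝ → ℝ → ℝ → ℝ} {u ux uy uz : ℕ → ℝ → ℝ → ℝ → ℝ}

/-- The bound in one direction with good extents. -/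
theorem dir_bound (C : GapCerts) (S : Seq3 F u ux uy uz) (hX : MonoX F) (hY : MonoY F)
    (hZ : MonoZ F) (hw : ∀ k, MonoY (u k) ∧ MonoZ (u k)) {Per : ℝ}
    (hPer : ∀ k, energy3 (ux k) (uy k) (uz k) ≤ Per) (hV1 : 53 / 200 ≤ vol3 F) (hV2 : vol3 F ≤ 9 / 25)
    (hcase : (gapAlpha ≤ extent (rod2 F) ∧ gapAlpha ≤ extent (rod3 F)) ∨
      (extent (rod3 F) < gapAlpha ∧ extent (fun z x => rod2 F x z) ≤ gapAlpha ∧
        extent (rod3 F) ≤ extent (rod2 F)) ∨
      (extent (rod2 F) < gapAlpha ∧ extent (fun y x => rod3 F x y) ≤ gapAlpha ∧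
        extent (rod2 F) ≤ extent (rod3 F))) : Tgt (vol3 F) ≤ Per := by
  obtain ⟨a, b, hr, h0, hVa, hVb, hb⟩ := S.exists_range3
  have hBcase : PhaseBound (fB1 gapAlpha) (fB2 gapAlpha) gapAlpha a b (vol3 F) Per →
      Tgt (vol3 F) ≤ Per := by
    intro hP
    by_cases hb38 : 3 / 8 ≤ b
    · exact C.certB h0 hVa hVb hb hb38 hV1 hV2 hP
    · push Not at hb38
      refine (min_le_left _ _).trans (tube_zone h0 hVa hVb hV1 (hP.toPair ?_ ?_))
      · intro s hs
        exact tube_le_fB1 (h0.trans hs.1) (by linarith [hs.2])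
      · intro s hs
        exact tube_le_fB2 (h0.trans hs.1) (by linarith [hs.2])
  rcases hcase with ⟨h1, h2⟩ | ⟨h1, h2, h3⟩ | ⟨h1, h2, h3⟩
  · by_cases ha : 1 / 10000 ≤ a
    · exact C.certA ha hVa hVb hb hV1 hV2 (S.phase_A hX hY hZ hw hPer h1 h2 hr)
    push Not at ha
    by_cases hbc : b ≤ 1 - 1 / 10000
    · set γ := max (lineX (F (1 / 2 + gapAlpha / 2))) (lineY (F (1 / 2 + gapAlpha / 2))) with hγ
      have hγ0 : 0 ≤ γ := (lineX_nonneg' _).trans (le_max_left _ _)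
      have hγ1 : γ ≤ 1 := max_le (lineX_le_one (S.slice_meas _)) (lineY_le_one (S.slice_meas _))
      rcases le_total γ (23 / 50) with c1 | c1
      · exact C.certS1 h0 ha.le hVb hbc hV1 hV2
          (S.phase_S hX hY hZ hw hPer h1 h2 hr (by norm_num) (by norm_num) hγ0 c1)
      rcases le_total γ (1 / 2) with c2 | c2
      · exact C.certS2 h0 ha.le hVb hbc hV1 hV2
          (S.phase_S hX hY hZ hw hPer h1 h2 hr (by norm_num) (by norm_num) c1 c2)
      rcases le_total γ (27 / 50) with c3 | c3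
      · exact C.certS3 h0 ha.le hVb hbc hV1 hV2
          (S.phase_S hX hY hZ hw hPer h1 h2 hr (by norm_num) (by norm_num) c2 c3)
      · exact C.certS4 h0 ha.le hVb hbc hV1 hV2
          (S.phase_S hX hY hZ hw hPer h1 h2 hr (by norm_num) (by norm_num) c3 hγ1)
    · push Not at hbc
      refine corner_zone h0 ha.le hb hbc.le hV2 ((S.phase_A hX hY hZ hw hPer h1 h2 hr).toPair ?_ ?_)
      · exact fun s _ => I2_le_fTc s
      · exact fun s _ => le_rfl
  · exact hBcase (S.phase_By hX hY hZ hw hPer h1 h2 h3 hr)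
  · exact hBcase (S.phase_Bz hX hY hZ hw hPer h1 h2 h3 hr)

/-- The bound for monotone sets. -/
theorem gap_mono (C : GapCerts) (S : Seq3 F u ux uy uz) (hX : MonoX F) (hY : MonoY F)
    (hZ : MonoZ F) (hw : ∀ k, MonoX (u k) ∧ MonoY (u k) ∧ MonoZ (u k)) {Per : ℝ}
    (hPer : ∀ k, energy3 (ux k) (uy k) (uz k) ≤ Per) (hV1 : 53 / 200 ≤ vol3 F) (hV2 : vol3 F ≤ 9 / 25) :
    Tgt (vol3 F) ≤ Per := by
  have hlog := logic_six (α := gapAlpha) (xy := extent (rod1 F))
    (xz := extent (fun z y => rod1 F y z)) (yx := extent (rod2 F))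
    (yz := extent (fun z x => rod2 F x z)) (zx := extent (rod3 F))
    (zy := extent (fun y x => rod3 F x y))
  rcases hlog with h | h | h
  · exact S.dir_bound C hX hY hZ (fun k => (hw k).2) hPer hV1 hV2 h
  · have := S.swap12.dir_bound C (F := fun x y z => F y x z) (Per := Per)
      (fun x x' y z h => hY y x x' z h) (fun x y y' z h => hX y y' x z h)
      (fun x y z z' h => hZ y x z z' h)
      (fun k => ⟨fun x y y' z h => (hw k).1 y y' x z h, fun x y z z' h => (hw k).2.2 y x z z' h⟩)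
      (fun k => by rw [S.energy_swap12 k]; exact hPer k) (by rw [S.vol3_swap12]; exact hV1)
      (by rw [S.vol3_swap12]; exact hV2) h
    rwa [S.vol3_swap12] at this
  · have := S.swap13.dir_bound C (F := fun x y z => F z y x) (Per := Per)
      (fun x x' y z h => hZ z y x x' h) (fun x y y' z h => hY z y y' x h)
      (fun x y z z' h => hX z z' y x h)
      (fun k => ⟨fun x y y' z h => (hw k).2.1 z y y' x h, fun x y z z' h => (hw k).1 z z' y x h⟩)
      (fun k => by rw [S.energy_swap13 k]; exact hPer k) (by rw [S.vol3_swap13]; exact hV1)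
      (by rw [S.vol3_swap13]; exact hV2) h
    rwa [S.vol3_swap13] at this

/-- The bound in the volume range for all sequences. -/
theorem gap_seq (C : GapCerts) (S : Seq3 F u ux uy uz) {Per : ℝ}
    (hPer : ∀ k, energy3 (ux k) (uy k) (uz k) ≤ Per) (hV1 : 53 / 200 ≤ vol3 F) (hV2 : vol3 F ≤ 9 / 25) :
    Tgt (vol3 F) ≤ Per := by
  refine le_of_forall_pos_le_add fun ε hε => ?_
  obtain ⟨G, w, wx, wy, wz, S', hE, hV, hX, hY, hZ, hw⟩ := S.exists_mono_seq2 hPer hε
  have := S'.gap_mono C hX hY hZ hw hE (by rw [hV]; exact hV1) (by rw [hV]; exact hV2)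
  rwa [hV] at this

end Seq3

end Vale.Agent.Lib.P232
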