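import Vale.Agent.Lib.P232.Cert

open MeasureTheory Filter Topology Set
open scoped Real

namespace Vale.Agent.Lib.P232

namespace Fast

/-! Piecewise linear calibrations: hat functions and interpolation. -/

/-- The hat function with center `c` and half width `h`. -/
noncomputable def hat (c h s : ℝ) : ℝ := max 0 (1 - |s - c| / h)

lemma hat_cont (c h : ℝ) : Continuous (hat c h) := by
  unfold hat
  exact continuous_const.max
    (continuous_const.sub (((continuous_id.sub continuous_const).abs).div_const h))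

lemma hat_nonneg (c h s : ℝ) : 0 ≤ hat c h s := le_max_left _ _

lemma hat_eq_zero {c h s : ℝ} (hh : 0 < h) (hs : h ≤ |s - c|) : hat c h s = 0 := by
  unfold hat
  apply max_eq_left
  have : 1 ≤ |s - c| / h := by rwa [one_le_div hh]
  linarith

lemma hat_of_near {c h s : ℝ} (hh : 0 < h) (hs : |s - c| ≤ h) : hat c h s = 1 - |s - c| / h := by
  unfold hat
  apply max_eq_right
  have : |s - c| / h ≤ 1 := by rwa [div_le_one hh]
  linarith

lemma int_hat_left {c h : ℝ} (hh : 0 < h) : ∫ s in (c - h)..c, hat c h s = h / 2 := by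
  have e : ∫ s in (c - h)..c, hat c h s = ∫ s in (c - h)..c, (1 - (c - s) / h) := by
    apply intervalIntegral.integral_congr
    intro s hs
    rw [uIcc_of_le (by linarith)] at hs
    have h1 : |s - c| = c - s := by
      rw [abs_of_nonpos (by linarith [hs.2])]; ring
    show hat c h s = 1 - (c - s) / h
    rw [hat_of_near hh (by rw [h1]; linarith [hs.1]), h1]
  rw [e]
  have hd : ∀ s ∈ uIcc (c - h) c, HasDerivAt (fun s => s + (c - s) ^ 2 / (2 * h))
      (1 - (c - s) / h) s := by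
    intro s _
    have h1 : HasDerivAt (fun s => c - s) (-1) s := by
      simpa using (hasDerivAt_id s).const_sub c
    refine ((hasDerivAt_id' s).add ((h1.fun_pow 2).div_const (2 * h))).congr_deriv ?_
    have hne : h ≠ 0 := hh.ne'
    push_cast
    field_simp
    ring
  rw [intervalIntegral.integral_eq_sub_of_hasDerivAt hd
    (Continuous.intervalIntegrable (by fun_prop) _ _)]
  field_simp
  ring

lemma int_hat_right {c h : ℝ} (hh : 0 < h) : ∫ s in c..(c + h), hat c h s = h / 2 := by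
  have e : ∫ s in c..(c + h), hat c h s = ∫ s in c..(c + h), (1 - (s - c) / h) := by
    apply intervalIntegral.integral_congr
    intro s hs
    rw [uIcc_of_le (by linarith)] at hs
    have h1 : |s - c| = s - c := abs_of_nonneg (by linarith [hs.1])
    show hat c h s = 1 - (s - c) / h
    rw [hat_of_near hh (by rw [h1]; linarith [hs.2]), h1]
  rw [e]
  have hd : ∀ s ∈ uIcc c (c + h), HasDerivAt (fun s => s - (s - c) ^ 2 / (2 * h))
      (1 - (s - c) / h) s := by
    intro s _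
    have h1 : HasDerivAt (fun s => s - c) 1 s := by
      simpa using (hasDerivAt_id s).sub_const c
    refine ((hasDerivAt_id' s).sub ((h1.fun_pow 2).div_const (2 * h))).congr_deriv ?_
    have hne : h ≠ 0 := hh.ne'
    push_cast
    field_simp
  rw [intervalIntegral.integral_eq_sub_of_hasDerivAt hd
    (Continuous.intervalIntegrable (by fun_prop) _ _)]
  field_simp
  ring

lemma int_hat_ge {a b c h : ℝ} (hh : 0 < h) (h1 : a ≤ c - h) (h2 : c + h ≤ b) :
    h ≤ ∫ s in a..b, hat c h s := by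
  have hI : ∀ x y : ℝ, IntervalIntegrable (hat c h) volume x y :=
    fun x y => (hat_cont c h).intervalIntegrable x y
  have e1 : ∫ s in (c - h)..(c + h), hat c h s = h := by
    rw [← intervalIntegral.integral_add_adjacent_intervals (hI _ c) (hI c _),
      int_hat_left hh, int_hat_right hh]
    ring
  have h3 : ∫ s in (c - h)..(c + h), hat c h s ≤ ∫ s in a..b, hat c h s := by
    apply intervalIntegral.integral_mono_interval h1 (by linarith) h2
    · exact Filter.Eventually.of_forall fun s => hat_nonneg c h s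
    · exact hI a b
  linarith

/-- The piecewise linear function with values `r j` at the nodes `u + j h`. -/
noncomputable def pl (n : ℕ) (u h : ℝ) (r : ℕ → ℝ) (s : ℝ) : ℝ :=
  ∑ j ∈ Finset.range (n + 1), r j * hat (u + j * h) h s

lemma pl_cont (n : ℕ) (u h : ℝ) (r : ℕ → ℝ) : Continuous (pl n u h r) := by
  unfold pl
  exact continuous_finsetSum _ fun j _ => continuous_const.mul (hat_cont _ _)

lemma pl_nonneg {n : ℕ} {u h : ℝ} {r : ℕ → ℝ} (hr : ∀ j, 0 ≤ r j) (s : ℝ) : 0 ≤ pl n u h r s := by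
  unfold pl
  exact Finset.sum_nonneg fun j _ => mul_nonneg (hr j) (hat_nonneg _ _ _)

lemma pl_on_step {n j : ℕ} {u h t : ℝ} (r : ℕ → ℝ) (hh : 0 < h) (hj : j < n) (ht0 : 0 ≤ t)
    (ht1 : t ≤ 1) :
    pl n u h r (u + j * h + t * h) = (1 - t) * r j + t * r (j + 1) := by
  unfold pl
  have hne : j ≠ j + 1 := by omega
  rw [Finset.sum_eq_add j (j + 1) hne]
  · have e1 : hat (u + j * h) h (u + j * h + t * h) = 1 - t := by
      have h1 : u + j * h + t * h - (u + j * h) = t * h := by ring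
      have h2 : |u + j * h + t * h - (u + j * h)| = t * h := by
        rw [h1, abs_of_nonneg (by positivity)]
      rw [hat_of_near hh (by rw [h2]; nlinarith), h2]
      field_simp
    have e2 : hat (u + ((j + 1 : ℕ) : ℝ) * h) h (u + j * h + t * h) = t := by
      push_cast
      have h1 : u + j * h + t * h - (u + (j + 1) * h) = - ((1 - t) * h) := by ring
      have h2 : |u + j * h + t * h - (u + (j + 1) * h)| = (1 - t) * h := by
        rw [h1, abs_neg, abs_of_nonneg (mul_nonneg (by linarith) hh.le)]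
      rw [hat_of_near hh (by rw [h2]; nlinarith), h2]
      field_simp
      ring
    rw [e1, e2]
    ring
  · intro i _ hi
    obtain ⟨hi1, hi2⟩ := hi
    have : hat (u + i * h) h (u + j * h + t * h) = 0 := by
      apply hat_eq_zero hh
      rcases Nat.lt_or_ge i j with hlt | hge
      · have hc : (i : ℝ) + 1 ≤ j := by exact_mod_cast hlt
        have : h ≤ u + j * h + t * h - (u + i * h) := by nlinarith [mul_nonneg ht0 hh.le]
        exact this.trans (le_abs_self _)
      · have hge' : j + 2 ≤ i := by omega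
        have hc : (j : ℝ) + 2 ≤ i := by exact_mod_cast hge'
        have : h ≤ -(u + j * h + t * h - (u + i * h)) := by nlinarith
        exact this.trans (neg_le_abs _)
    rw [this, mul_zero]
  · intro hn
    exact absurd (Finset.mem_range.2 (by omega)) hn
  · intro hn
    exact absurd (Finset.mem_range.2 (by omega)) hn

lemma pl_left {n : ℕ} {u h s : ℝ} {r : ℕ → ℝ} (hh : 0 < h) (hr0 : r 0 = 0) (hs : s ≤ u) :
    pl n u h r s = 0 := by
  unfold pl
  apply Finset.sum_eq_zero
  intro j _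
  rcases Nat.eq_zero_or_pos j with rfl | hj
  · rw [hr0, zero_mul]
  · have hc : (1 : ℝ) ≤ j := by exact_mod_cast hj
    have : hat (u + j * h) h s = 0 := by
      apply hat_eq_zero hh
      have : h ≤ -(s - (u + j * h)) := by nlinarith
      exact this.trans (neg_le_abs _)
    rw [this, mul_zero]

lemma pl_right {n : ℕ} {u h s : ℝ} {r : ℕ → ℝ} (hh : 0 < h) (hrn : r n = 0)
    (hs : u + n * h ≤ s) : pl n u h r s = 0 := by
  unfold pl
  apply Finset.sum_eq_zero
  intro j hj
  rcases Nat.lt_succ_iff_lt_or_eq.1 (Finset.mem_range.1 hj) with hj' | rfl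
  · have hc : (j : ℝ) + 1 ≤ n := by exact_mod_cast hj'
    have : hat (u + j * h) h s = 0 := by
      apply hat_eq_zero hh
      have : h ≤ s - (u + j * h) := by nlinarith
      exact this.trans (le_abs_self _)
    rw [this, mul_zero]
  · rw [hrn, zero_mul]

/-- Every point of the range lies on a step. -/
lemma exists_step {n : ℕ} {u h s : ℝ} (hh : 0 < h) (hn : 0 < n) (h1 : u ≤ s) (h2 : s ≤ u + n * h) :
    ∃ j < n, ∃ t : ℝ, 0 ≤ t ∧ t ≤ 1 ∧ s = u + j * h + t * h := by
  set x := (s - u) / h with hx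
  have hx0 : 0 ≤ x := div_nonneg (by linarith) hh.le
  have hxn : x ≤ n := by
    rw [hx, div_le_iff₀ hh]; linarith
  have hs : s = u + x * h := by
    rw [hx]; field_simp; ring
  rcases lt_or_eq_of_le hxn with hlt | heq
  · refine ⟨⌊x⌋₊, (Nat.floor_lt hx0).2 hlt, x - ⌊x⌋₊, ?_, ?_, ?_⟩
    · linarith [Nat.floor_le hx0]
    · linarith [Nat.lt_floor_add_one x]
    · rw [hs]; ring
  · refine ⟨n - 1, by omega, 1, zero_le_one, le_refl _, ?_⟩
    have : ((n - 1 : ℕ) : ℝ) = n - 1 := by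
      rw [Nat.cast_sub hn]; simp
    rw [this, hs, heq]
    ring

lemma pl_le_one {n : ℕ} {u h : ℝ} {r : ℕ → ℝ} (hh : 0 < h) (hn : 0 < n) (hr : ∀ j, 0 ≤ r j ∧ r j ≤ 1)
    (hr0 : r 0 = 0) (hrn : r n = 0) (s : ℝ) : pl n u h r s ≤ 1 := by
  rcases le_total s u with h1 | h1
  · rw [pl_left hh hr0 h1]; exact zero_le_one
  rcases le_total (u + n * h) s with h2 | h2
  · rw [pl_right hh hrn h2]; exact zero_le_one
  obtain ⟨j, hj, t, ht0, ht1, rfl⟩ := exists_step hh hn h1 h2
  rw [pl_on_step r hh hj ht0 ht1]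
  nlinarith [(hr j).2, (hr (j + 1)).2]

/-- The integral of the piecewise linear function. -/
lemma int_pl_ge {n : ℕ} {u h a b : ℝ} {r : ℕ → ℝ} (hh : 0 < h) (hr : ∀ j, 0 ≤ r j)
    (hr0 : r 0 = 0) (hrn : r n = 0) (hau : a ≤ u) (hub : u + n * h ≤ b) :
    h * ∑ j ∈ Finset.range (n + 1), r j ≤ ∫ s in a..b, pl n u h r s := by
  unfold pl
  rw [intervalIntegral.integral_finsetSum, Finset.mul_sum]
  · apply Finset.sum_le_sum
    intro j hj
    rw [intervalIntegral.integral_const_mul]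
    rcases Nat.eq_zero_or_pos j with rfl | hj0
    · rw [hr0]; simp
    rcases Nat.lt_succ_iff_lt_or_eq.1 (Finset.mem_range.1 hj) with hj' | rfl
    · have hc1 : (1 : ℝ) ≤ j := by exact_mod_cast hj0
      have hc2 : (j : ℝ) + 1 ≤ n := by exact_mod_cast hj'
      have := int_hat_ge (a := a) (b := b) (c := u + j * h) hh (by nlinarith) (by nlinarith)
      nlinarith [hr j]
    · rw [hrn]; simp
  · intro j _
    exact (continuous_const.mul (hat_cont _ _)).intervalIntegrable _ _

/-- The calibration pair of a piecewise linear function. -/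
lemma calib_pl {n : ℕ} {u h : ℝ} {r : ℕ → ℝ} (hh : 0 < h) (hn : 0 < n)
    (hr : ∀ j, 0 ≤ r j ∧ r j ≤ 1) (hr0 : r 0 = 0) (hrn : r n = 0) :
    CalibPair (fun s => √(1 - pl n u h r s ^ 2)) (pl n u h r) := by
  have hB0 : ∀ s, 0 ≤ pl n u h r s := pl_nonneg fun j => (hr j).1
  have hB1 : ∀ s, pl n u h r s ≤ 1 := pl_le_one hh hn hr hr0 hrn
  have hBsq : ∀ s, 0 ≤ 1 - pl n u h r s ^ 2 := by
    intro s
    nlinarith [hB0 s, hB1 s]
  refine ⟨?_, pl_cont _ _ _ _, fun s => Real.sqrt_nonneg _, hB0, ?_⟩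
  · exact Real.continuous_sqrt.comp (continuous_const.sub ((pl_cont _ _ _ _).pow 2))
  · intro s
    show √(1 - pl n u h r s ^ 2) ^ 2 + pl n u h r s ^ 2 ≤ 1
    rw [Real.sq_sqrt (hBsq s)]
    linarith

/-- The two point Cauchy inequality behind the node conditions. -/
lemma titu2 {A B x y X Y t : ℝ} (hx : 0 ≤ x) (hy : 0 ≤ y) (hX : 0 ≤ X)
    (hY : 0 ≤ Y) (ht0 : 0 ≤ t) (ht1 : t ≤ 1) (h1 : A ^ 2 ≤ x * X) (h2 : B ^ 2 ≤ y * Y) :
    ((1 - t) * A + t * B) ^ 2 ≤ ((1 - t) * x + t * y) * ((1 - t) * X + t * Y) := by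
  have h3 : 2 * (A * B) ≤ x * Y + y * X := by
    have h4 : (A * B) ^ 2 ≤ (x * Y) * (y * X) := by
      have := mul_le_mul h1 h2 (sq_nonneg B) (mul_nonneg hx hX)
      nlinarith
    have h5 : (2 * (A * B)) ^ 2 ≤ (x * Y + y * X) ^ 2 := by
      nlinarith [sq_nonneg (x * Y - y * X)]
    exact (abs_le_of_sq_le_sq' h5 (add_nonneg (mul_nonneg hx hY) (mul_nonneg hy hX))).2
  have ht : 0 ≤ t * (1 - t) := mul_nonneg ht0 (by linarith)
  have h6 : t * (1 - t) * (2 * (A * B)) ≤ t * (1 - t) * (x * Y + y * X) :=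
    mul_le_mul_of_nonneg_left h3 ht
  have h7 : (1 - t) ^ 2 * A ^ 2 ≤ (1 - t) ^ 2 * (x * X) :=
    mul_le_mul_of_nonneg_left h1 (sq_nonneg _)
  have h8 : t ^ 2 * B ^ 2 ≤ t ^ 2 * (y * Y) := mul_le_mul_of_nonneg_left h2 (sq_nonneg _)
  nlinarith

/-- Domination on a step from the conditions at the two nodes. -/
lemma step_dom {A B X Y rx ry t L : ℝ} (hX : 0 ≤ X) (hY : 0 ≤ Y)
    (hrx : 0 ≤ rx ∧ rx ≤ 1) (hry : 0 ≤ ry ∧ ry ≤ 1) (ht0 : 0 ≤ t) (ht1 : t ≤ 1)
    (h1 : A ^ 2 ≤ (1 - rx ^ 2) * X) (h2 : B ^ 2 ≤ (1 - ry ^ 2) * Y)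
    (hL : L ≤ (1 - t) * A + t * B) :
    L ≤ √(1 - ((1 - t) * rx + t * ry) ^ 2) * √((1 - t) * X + t * Y) := by
  have hx : 0 ≤ 1 - rx ^ 2 := by nlinarith [hrx.1, hrx.2]
  have hy : 0 ≤ 1 - ry ^ 2 := by nlinarith [hry.1, hry.2]
  have ht1' : 0 ≤ 1 - t := by linarith
  have hT := titu2 hx hy hX hY ht0 ht1 h1 h2
  have hN : 0 ≤ (1 - t) * X + t * Y := add_nonneg (mul_nonneg ht1' hX) (mul_nonneg ht0 hY)
  set R := (1 - t) * rx + t * ry with hR
  have hR0 : 0 ≤ R := add_nonneg (mul_nonneg ht1' hrx.1) (mul_nonneg ht0 hry.1)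
  have hR1 : R ≤ 1 := by
    rw [hR]
    nlinarith [hrx.2, hry.2]
  have hq : 0 ≤ 1 - R ^ 2 := by nlinarith
  have hle : (1 - t) * (1 - rx ^ 2) + t * (1 - ry ^ 2) ≤ 1 - R ^ 2 := by
    have : 0 ≤ t * (1 - t) * (rx - ry) ^ 2 := by positivity
    rw [hR]
    nlinarith
  have hT2 : ((1 - t) * A + t * B) ^ 2 ≤ (1 - R ^ 2) * ((1 - t) * X + t * Y) :=
    hT.trans (mul_le_mul_of_nonneg_right hle hN)
  rw [← Real.sqrt_mul hq]
  refine hL.trans (Real.le_sqrt_of_sq_le hT2)

end Fast

end Vale.Agent.Lib.P232
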