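import Vale.Agent.Lib.P232.FastA

open MeasureTheory Filter Topology Set
open scoped Real

namespace Vale.Agent.Lib.P232

namespace Fast

/-! The checker in natural numbers: no property of the approximate roots is used beyond a
simple inequality, and all the operations are the primitive ones of the natural numbers. -/

lemma not_le_of_ble_false {a b : ℕ} (h : Nat.ble a b = false) : ¬ a ≤ b := fun hab => by
  rw [Nat.ble_eq_true_of_le hab] at h
  exact Bool.noConfusion h

/-- The minimum, by the primitive comparison. -/
def nmin (a b : ℕ) : ℕ := bif Nat.ble a b then a else b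

lemma nmin_le_left (a b : ℕ) : nmin a b ≤ a := by
  unfold nmin
  cases h : Nat.ble a b
  · simp only [cond_false]
    have := not_le_of_ble_false h
    omega
  · simp

lemma nmin_le_right (a b : ℕ) : nmin a b ≤ b := by
  unfold nmin
  cases h : Nat.ble a b
  · simp
  · simp only [cond_true]
    exact Nat.le_of_ble_eq_true h

/-- One step of the Newton iteration. -/
def nwt (x w : ℕ) : ℕ := Nat.div (Nat.add w (Nat.div x w)) 2

/-- A lower approximation of the square root, with the warm start `w`. -/
def root (x w : ℕ) : ℕ :=
  (fun y => nmin y (Nat.div x y)) (nwt x (nwt x (nwt x w)))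

lemma root_sq_le (x w : ℕ) : root x w * root x w ≤ x := by
  show nmin _ (Nat.div x _) * nmin _ (Nat.div x _) ≤ x
  set y := nwt x (nwt x (nwt x w))
  rcases Nat.eq_zero_or_pos y with hy | hy
  · have : nmin y (Nat.div x y) = 0 := by
      have := nmin_le_left y (Nat.div x y)
      omega
    rw [this]
    omega
  · have h1 : nmin y (Nat.div x y) ≤ y := nmin_le_left _ _
    have h2 : nmin y (Nat.div x y) ≤ x / y := nmin_le_right _ _
    calc nmin y (Nat.div x y) * nmin y (Nat.div x y) ≤ (x / y) * y := Nat.mul_le_mul h2 h1
      _ ≤ x := Nat.div_mul_le_self x y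

/-- An integer square root from scratch. -/
def isqN (x : ℕ) : ℕ :=
  root x (nwt x (nwt x (nwt x (nwt x (Nat.pow 2 (Nat.succ (Nat.div (Nat.log2 x) 2)))))))

/-- The lower bound for the square of the profile. -/
def inu (S : ℕ) : ℕ :=
  nmin (Nat.mul 1256636 S) (nmin 400000000000 (Nat.mul 1256636 (Nat.sub 1000000 S)))

/-- The positive part of a line, from the parts with each sign. -/
def lz (Kp Kn Mp Mn S : ℕ) : ℕ :=
  Nat.sub (Nat.add (Nat.mul Kp S) Mp) (Nat.add (Nat.mul Kn S) Mn)

/-- A scaled upper bound of the square of `z / 10^12` divided by `I / 10^11`. -/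
def rho (z I : ℕ) : ℕ :=
  bif Nat.ble I 0 then (bif Nat.ble z 0 then 0 else 1000000000001)
  else Nat.succ (Nat.div (Nat.mul z z) (Nat.mul 10 I))

lemma rho_spec {z I : ℕ} (h : rho z I ≤ 1000000000000) : z * z ≤ rho z I * (10 * I) := by
  unfold rho at h ⊢
  cases hI : Nat.ble I 0
  · simp only [hI, cond_false, Nat.succ_eq_add_one] at h ⊢
    have hI0 : 0 < 10 * I := by
      have := not_le_of_ble_false hI
      omega
    have h1 : z * z < (Nat.div (Nat.mul z z) (Nat.mul 10 I) + 1) * (10 * I) := by
      have := Nat.lt_div_mul_add (a := z * z) hI0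
      show z * z < (z * z / (10 * I) + 1) * (10 * I)
      rw [add_mul, one_mul]
      exact this
    exact h1.le
  · simp only [hI, cond_true] at h ⊢
    cases hz : Nat.ble z 0
    · simp only [hz, cond_false] at h
      omega
    · have : z = 0 := by
        have := Nat.le_of_ble_eq_true hz
        omega
      rw [this]
      simp

/-- The sum of the square roots of the complements of the values of `ρ` at the nodes, increased
by `acc`; the value `0` signals a node where `ρ` is too large. -/
def walk (ρ : ℕ → ℕ) (h : ℕ) (n : ℕ) : ℕ → ℕ → ℕ → ℕ :=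
  Nat.rec (fun _ _ acc => acc)
    (fun _ ih S w acc =>
      (fun p =>
        bif Nat.ble p 1000000000000 then
          (fun R => ih (Nat.add S h) (Nat.succ R) (Nat.add acc R))
            (root (Nat.sub 1000000000000 p) w)
        else 0)
      (ρ S)) n

lemma walk_succ (ρ : ℕ → ℕ) (h n S w acc : ℕ) :
    walk ρ h (n + 1) S w acc =
      bif Nat.ble (ρ S) 1000000000000 then
        walk ρ h n (S + h) (root (1000000000000 - ρ S) w + 1)
          (acc + root (1000000000000 - ρ S) w)
      else 0 := rfl

/-- The values produced by a successful walk. -/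
theorem walk_spec (ρ : ℕ → ℕ) (h : ℕ) : ∀ (n S w acc : ℕ), 1 ≤ acc → walk ρ h n S w acc ≠ 0 →
    ∃ R : ℕ → ℕ, (∀ j < n, ρ (S + j * h) + R j * R j ≤ 1000000000000) ∧
      walk ρ h n S w acc = acc + ∑ j ∈ Finset.range n, R j := by
  intro n
  induction n with
  | zero =>
    intro S w acc _ _
    exact ⟨fun _ => 0, fun j hj => absurd hj (Nat.not_lt_zero j), by simp; rfl⟩
  | succ n ih =>
    intro S w acc hacc hne
    rw [walk_succ] at hne ⊢
    cases hp : Nat.ble (ρ S) 1000000000000
    · rw [hp] at hne
      simp at hne
    · rw [hp] at hne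
      simp only [cond_true] at hne ⊢
      have hp' := Nat.le_of_ble_eq_true hp
      set R0 := root (1000000000000 - ρ S) w with hR0
      obtain ⟨R, hR, hsum⟩ := ih (S + h) (R0 + 1) (acc + R0) (by omega) hne
      let R' : ℕ → ℕ := fun j => Nat.casesOn j R0 R
      have e0 : R' 0 = R0 := rfl
      have es : ∀ j, R' (j + 1) = R j := fun _ => rfl
      refine ⟨R', ?_, ?_⟩
      · intro j hj
        cases j with
        | zero =>
          have h1 := root_sq_le (1000000000000 - ρ S) w
          rw [← hR0] at h1
          rw [e0]
          simp only [Nat.zero_mul, Nat.add_zero]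
          omega
        | succ j =>
          have := hR j (by omega)
          have e : S + (j + 1) * h = S + h + j * h := by ring
          rw [e, es]
          exact this
      · rw [hsum, Finset.sum_range_succ', e0]
        simp only [es]
        ring

end Fast

end Vale.Agent.Lib.P232
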