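import Vale.Agent.Lib.P232.FastB

open MeasureTheory Filter Topology Set
open scoped Real

namespace Vale.Agent.Lib.P232

namespace Fast

open CertImpl

/-- Scaling by `10^6`. -/
noncomputable def sn (S : ℕ) : ℝ := (S : ℝ) / 1000000

lemma sn_nonneg (S : ℕ) : 0 ≤ sn S := by
  unfold sn; positivity

lemma sn_mono {S T : ℕ} (h : S ≤ T) : sn S ≤ sn T := by
  unfold sn
  have : (S : ℝ) ≤ T := by exact_mod_cast h
  gcongr

lemma sn_le_one {S : ℕ} (h : S ≤ 1000000) : sn S ≤ 1 := by
  unfold sn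
  have : (S : ℝ) ≤ 1000000 := by exact_mod_cast h
  rw [div_le_one (by norm_num)]
  exact this

/-- The three bounds on `inu`. -/
lemma inu_bounds {S : ℕ} (hS : S ≤ 1000000) :
    (inu S : ℝ) ≤ 1256636 * S ∧ (inu S : ℝ) ≤ 400000000000 ∧
      (inu S : ℝ) ≤ 1256636 * (1000000 - S) := by
  have h1 : inu S ≤ 1256636 * S := nmin_le_left _ _
  have h2 : inu S ≤ 400000000000 := (nmin_le_right _ _).trans (nmin_le_left _ _)
  have h3 : inu S ≤ 1256636 * (1000000 - S) := (nmin_le_right _ _).trans (nmin_le_right _ _)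
  refine ⟨by exact_mod_cast h1, by exact_mod_cast h2, ?_⟩
  have h3' : ((inu S : ℕ) : ℝ) ≤ ((1256636 * (1000000 - S) : ℕ) : ℝ) := by exact_mod_cast h3
  rw [Nat.cast_mul, Nat.cast_sub hS] at h3'
  simpa using h3'

/-- Interpolated values of `inu` are below the square of the profile. -/
lemma interp_le_I2 {S T : ℕ} (hS : S ≤ 1000000) (hT : T ≤ 1000000) {t : ℝ} (ht0 : 0 ≤ t)
    (ht1 : t ≤ 1) :
    √((1 - t) * ((inu S : ℝ) / 100000000000) + t * ((inu T : ℝ) / 100000000000))
      ≤ I2 ((1 - t) * sn S + t * sn T) := by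
  have hpi : (3.14159 : ℝ) < π := by linarith [Real.pi_gt_d6]
  obtain ⟨a1, a2, a3⟩ := inu_bounds hS
  obtain ⟨b1, b2, b3⟩ := inu_bounds hT
  have ht1' : 0 ≤ 1 - t := by linarith
  have hS0 : (0 : ℝ) ≤ S := Nat.cast_nonneg S
  have hT0 : (0 : ℝ) ≤ T := Nat.cast_nonneg T
  have hS1 : (S : ℝ) ≤ 1000000 := by exact_mod_cast hS
  have hT1 : (T : ℝ) ≤ 1000000 := by exact_mod_cast hT
  apply sqrt_le_I2
  · have e1 : (inu S : ℝ) / 100000000000 ≤ 4 * (π * sn S) := by
      unfold sn
      rw [div_le_iff₀ (by norm_num)]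
      nlinarith
    have e2 : (inu T : ℝ) / 100000000000 ≤ 4 * (π * sn T) := by
      unfold sn
      rw [div_le_iff₀ (by norm_num)]
      nlinarith
    have e3 := mul_le_mul_of_nonneg_left e1 ht1'
    have e4 := mul_le_mul_of_nonneg_left e2 ht0
    have e5 : 4 * (π * ((1 - t) * sn S + t * sn T))
        = (1 - t) * (4 * (π * sn S)) + t * (4 * (π * sn T)) := by ring
    rw [e5]
    exact add_le_add e3 e4
  · have e1 : (inu S : ℝ) / 100000000000 ≤ 4 := by
      rw [div_le_iff₀ (by norm_num)]; linarith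
    have e2 : (inu T : ℝ) / 100000000000 ≤ 4 := by
      rw [div_le_iff₀ (by norm_num)]; linarith
    nlinarith
  · have e1 : (inu S : ℝ) / 100000000000 ≤ 4 * (π * (1 - sn S)) := by
      unfold sn
      rw [div_le_iff₀ (by norm_num)]
      have : (1 : ℝ) - (S : ℝ) / 1000000 = (1000000 - S) / 1000000 := by ring
      rw [this]
      have hp : (0 : ℝ) ≤ 1000000 - S := by linarith
      nlinarith
    have e2 : (inu T : ℝ) / 100000000000 ≤ 4 * (π * (1 - sn T)) := by
      unfold sn
      rw [div_le_iff₀ (by norm_num)]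
      have : (1 : ℝ) - (T : ℝ) / 1000000 = (1000000 - T) / 1000000 := by ring
      rw [this]
      have hp : (0 : ℝ) ≤ 1000000 - T := by linarith
      nlinarith
    have e3 := mul_le_mul_of_nonneg_left e1 ht1'
    have e4 := mul_le_mul_of_nonneg_left e2 ht0
    have e5 : 4 * (π * (1 - ((1 - t) * sn S + t * sn T)))
        = (1 - t) * (4 * (π * (1 - sn S))) + t * (4 * (π * (1 - sn T))) := by ring
    rw [e5]
    exact add_le_add e3 e4

/-- The line, as a function on scaled points, below its truncated integer form. -/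
lemma lz_ge (Kp Kn Mp Mn S : ℕ) :
    (((Kp : ℝ) - Kn) / 1000000) * sn S + ((Mp : ℝ) - Mn) / 1000000000000
      ≤ (lz Kp Kn Mp Mn S : ℝ) / 1000000000000 := by
  have h : (Kp * S + Mp : ℝ) - (Kn * S + Mn) ≤ (lz Kp Kn Mp Mn S : ℝ) := by
    have h0 : Kp * S + Mp ≤ lz Kp Kn Mp Mn S + (Kn * S + Mn) := by
      show Kp * S + Mp ≤ (Kp * S + Mp) - (Kn * S + Mn) + (Kn * S + Mn)
      omega
    have h1 : ((Kp * S + Mp : ℕ) : ℝ) ≤ ((lz Kp Kn Mp Mn S + (Kn * S + Mn) : ℕ) : ℝ) := by
      exact_mod_cast h0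
    push_cast at h1
    linarith
  unfold sn
  have e : (((Kp : ℝ) - Kn) / 1000000) * ((S : ℝ) / 1000000) + ((Mp : ℝ) - Mn) / 1000000000000
      = ((Kp * S + Mp : ℝ) - (Kn * S + Mn)) / 1000000000000 := by ring
  rw [e]
  gcongr

/-- The condition at a node in real numbers. -/
lemma node_real {z I p R : ℕ} (hz : z * z ≤ p * (10 * I)) (hp : p + R * R ≤ 1000000000000) :
    ((z : ℝ) / 1000000000000) ^ 2 ≤ (1 - ((R : ℝ) / 1000000) ^ 2) * ((I : ℝ) / 100000000000) := by
  have h1 : ((z * z : ℕ) : ℝ) ≤ ((p * (10 * I) : ℕ) : ℝ) := by exact_mod_cast hz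
  have h2 : ((p + R * R : ℕ) : ℝ) ≤ 1000000000000 := by exact_mod_cast hp
  push_cast at h1 h2
  have hI : (0 : ℝ) ≤ I := Nat.cast_nonneg I
  have h3 : (p : ℝ) * (10 * I) ≤ (1000000000000 - R * R) * (10 * I) :=
    mul_le_mul_of_nonneg_right (by linarith) (by positivity)
  have e : (1 - ((R : ℝ) / 1000000) ^ 2) * ((I : ℝ) / 100000000000)
      = ((1000000000000 - R * R) * (10 * I)) / 1000000000000000000000000 := by
    ring
  rw [e, div_pow, div_le_div_iff₀ (by norm_num) (by norm_num)]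
  nlinarith

/-- The value of `ρ` for a line and the profile. -/
def plainRho (Kp Kn Mp Mn S : ℕ) : ℕ := rho (lz Kp Kn Mp Mn S) (inu S)

lemma sqrt_inu_le {S : ℕ} (hS : S ≤ 1000000) : √((inu S : ℝ) / 100000000000) ≤ I2 (sn S) := by
  have := interp_le_I2 hS hS (t := 0) (le_refl _) zero_le_one
  simpa using this

/-- A node where the line is below the profile. -/
lemma node_zero {Kp Kn Mp Mn S : ℕ} (hS : S ≤ 1000000)
    (h : plainRho Kp Kn Mp Mn S ≤ 1000000000000) :
    (((Kp : ℝ) - Kn) / 1000000) * sn S + ((Mp : ℝ) - Mn) / 1000000000000 ≤ I2 (sn S) := by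
  refine (lz_ge Kp Kn Mp Mn S).trans ?_
  refine le_trans ?_ (sqrt_inu_le hS)
  apply Real.le_sqrt_of_sq_le
  have h' : rho (lz Kp Kn Mp Mn S) (inu S) ≤ 1000000000000 := h
  have := node_real (R := 0) (rho_spec h') (by simpa using h')
  simpa using this

/-- The check of a cell with the interior nodes `ahi + j h` for `0 < j ≤ m`. -/
def leafChk (fin : ℤ → ℤ → Bool) (m alo ahi blo bhi Kp Kn Mp Mn : ℕ) : Bool :=
  (fun H =>
    Nat.ble alo ahi && Nat.ble ahi blo && Nat.ble blo bhi && Nat.ble bhi 1000000 && Nat.ble 1 H &&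
      Nat.ble (plainRho Kp Kn Mp Mn alo) 1000000000000 &&
      Nat.ble (plainRho Kp Kn Mp Mn bhi) 1000000000000 &&
      Nat.ble (plainRho Kp Kn Mp Mn ahi) 1000000000000 &&
      Nat.ble (plainRho Kp Kn Mp Mn (Nat.add ahi (Nat.mul (Nat.succ m) H))) 1000000000000 &&
      (fun res =>
        Nat.ble 1 res &&
          fin ((Kp : ℤ) - (Kn : ℤ))
            (((Nat.add Mp (Nat.mul (Nat.mul 2 H) (Nat.sub res 1)) : ℕ) : ℤ) - (Mn : ℤ)))
      (walk (plainRho Kp Kn Mp Mn) H m (Nat.add ahi H)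
        (isqN (Nat.sub 1000000000000 (plainRho Kp Kn Mp Mn (Nat.add ahi H)))) 1))
    (Nat.div (Nat.sub blo ahi) (Nat.succ m))

/-- A checked cell gives the bound. -/
theorem leafChk_sound {fin : ℤ → ℤ → Bool} {m alo ahi blo bhi Kp Kn Mp Mn : ℕ}
    (h : leafChk fin m alo ahi blo bhi Kp Kn Mp Mn = true)
    {a b V Per T : ℝ} (hal : sn alo ≤ a) (hah : a ≤ sn ahi) (hbl : sn blo ≤ b) (hbh : b ≤ sn bhi)
    (hT : ∀ K LHS : ℤ, fin K LHS = true → T ≤ (K : ℝ) / 1000000 * V + (LHS : ℝ) / 1000000000000)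
    (hPB : PairBound I2 a b V Per) : T ≤ Per := by
  unfold leafChk at h
  simp only [Bool.and_eq_true] at h
  obtain ⟨⟨⟨⟨⟨⟨⟨⟨⟨h1, h2⟩, h3⟩, h4⟩, h5⟩, h6⟩, h7⟩, h8⟩, h9⟩, h10, h11⟩ := h
  replace h1 := Nat.le_of_ble_eq_true h1
  replace h2 := Nat.le_of_ble_eq_true h2
  replace h3 := Nat.le_of_ble_eq_true h3
  replace h4 := Nat.le_of_ble_eq_true h4
  replace h5 := Nat.le_of_ble_eq_true h5
  replace h6 := Nat.le_of_ble_eq_true h6
  replace h7 := Nat.le_of_ble_eq_true h7
  replace h8 := Nat.le_of_ble_eq_true h8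
  replace h9 := Nat.le_of_ble_eq_true h9
  replace h10 := Nat.le_of_ble_eq_true h10
  set H := Nat.div (Nat.sub blo ahi) (Nat.succ m) with hH
  have hHn : ahi + (m + 1) * H ≤ blo := by
    have : (m + 1) * H ≤ blo - ahi := by
      rw [mul_comm]
      exact Nat.div_mul_le_self _ _
    omega
  set res := walk (plainRho Kp Kn Mp Mn) H m (Nat.add ahi H)
    (isqN (Nat.sub 1000000000000 (plainRho Kp Kn Mp Mn (Nat.add ahi H)))) 1 with hres
  have hres0 : res ≠ 0 := by omega
  obtain ⟨R, hR, hsum⟩ := walk_spec _ _ _ _ _ _ (le_refl 1) hres0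
  rw [← hres] at hsum
  set k : ℝ := ((Kp : ℝ) - Kn) / 1000000 with hk
  set c : ℝ := ((Mp : ℝ) - Mn) / 1000000000000 with hc
  set n := m + 1 with hn
  set h : ℝ := (H : ℝ) / 1000000 with hh
  set u : ℝ := sn ahi with hu
  have hh0 : 0 < h := by
    have : (1 : ℝ) ≤ H := by exact_mod_cast h5
    rw [hh]; positivity
  let r : ℕ → ℝ := fun j => if j = 0 ∨ m < j then 0 else (R (j - 1) : ℝ) / 1000000
  have hr0 : r 0 = 0 := by simp [r]
  have hrn : r n = 0 := by simp [r, hn]
  have hrs : ∀ j < m, r (j + 1) = (R j : ℝ) / 1000000 := by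
    intro j hj
    have : ¬(j + 1 = 0 ∨ m < j + 1) := by omega
    simp only [r, if_neg this]
    rfl
  have hrbig : ∀ j, m < j → r j = 0 := by
    intro j hj
    simp [r, hj]
  have hS : ∀ j ≤ n, ahi + j * H ≤ 1000000 := by
    intro j hj
    have : j * H ≤ n * H := Nat.mul_le_mul_right _ hj
    omega
  have hsn : ∀ j : ℕ, sn (ahi + j * H) = u + j * h := by
    intro j
    simp only [sn, hu, hh]
    push_cast
    ring
  have hsq : ∀ {R' : ℕ}, R' * R' ≤ 1000000000000 → (R' : ℝ) / 1000000 ≤ 1 := by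
    intro R' hR'
    rw [div_le_one (by norm_num)]
    have : R' ≤ 1000000 := by nlinarith
    exact_mod_cast this
  have hr : ∀ j, 0 ≤ r j ∧ r j ≤ 1 := by
    intro j
    rcases Nat.eq_zero_or_pos j with rfl | hj
    · rw [hr0]; exact ⟨le_refl _, zero_le_one⟩
    rcases Nat.lt_or_ge m j with hj2 | hj2
    · rw [hrbig j hj2]; exact ⟨le_refl _, zero_le_one⟩
    · obtain ⟨i, rfl⟩ : ∃ i, j = i + 1 := ⟨j - 1, by omega⟩
      have hi : i < m := by omega
      rw [hrs i hi]
      refine ⟨by positivity, hsq ?_⟩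
      have := hR i hi
      omega
  -- the conditions at the nodes
  have hnode : ∀ j ≤ n, ((lz Kp Kn Mp Mn (ahi + j * H) : ℝ) / 1000000000000) ^ 2
      ≤ (1 - r j ^ 2) * ((inu (ahi + j * H) : ℝ) / 100000000000) := by
    intro j hj
    rcases Nat.eq_zero_or_pos j with rfl | hj0
    · rw [hr0]
      simp only [Nat.zero_mul, Nat.add_zero]
      have h8' : rho (lz Kp Kn Mp Mn ahi) (inu ahi) ≤ 1000000000000 := h8
      have := node_real (R := 0) (rho_spec h8') (by simpa using h8')
      simpa using this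
    rcases Nat.lt_or_ge m j with hj2 | hj2
    · have hjn : j = n := by omega
      subst hjn
      rw [hrn]
      have h9' : rho (lz Kp Kn Mp Mn (ahi + n * H)) (inu (ahi + n * H)) ≤ 1000000000000 := h9
      have := node_real (R := 0) (rho_spec h9') (by simpa using h9')
      simpa using this
    · obtain ⟨i, rfl⟩ : ∃ i, j = i + 1 := ⟨j - 1, by omega⟩
      have hi : i < m := by omega
      rw [hrs i hi]
      have h12 := hR i hi
      have e : Nat.add ahi H + i * H = ahi + (i + 1) * H := by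
        show ahi + H + i * H = _
        ring
      rw [e] at h12
      have h13 : rho (lz Kp Kn Mp Mn (ahi + (i + 1) * H)) (inu (ahi + (i + 1) * H))
          ≤ 1000000000000 := by
        have : plainRho Kp Kn Mp Mn (ahi + (i + 1) * H) ≤ 1000000000000 := by omega
        exact this
      exact node_real (rho_spec h13) h12
  -- the chord
  have hab : alo ≤ bhi := by omega
  have hchord : ∀ s ∈ Icc (sn alo) (sn bhi), k * s + c ≤ I2 s := by
    intro s hs
    exact affine_le_I2 (sn_nonneg _) (sn_mono hab) (sn_le_one h4) hs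
      (node_zero (by omega) h6) (node_zero h4 h7)
  have hline : ∀ s ∈ Icc a b, k * s + c ≤ √(1 - pl n u h r s ^ 2) * I2 s := by
    intro s hs
    have hs' : s ∈ Icc (sn alo) (sn bhi) := ⟨hal.trans hs.1, hs.2.trans hbh⟩
    rcases le_total s u with h1' | h1'
    · rw [pl_left hh0 hr0 h1']
      simpa using hchord s hs'
    rcases le_total (u + n * h) s with h2' | h2'
    · rw [pl_right hh0 hrn h2']
      simpa using hchord s hs'
    obtain ⟨j, hj, t, ht0, ht1, rfl⟩ := exists_step hh0 (by omega) h1' h2'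
    rw [pl_on_step r hh0 hj ht0 ht1]
    have hj1 : j + 1 ≤ n := hj
    have e1 : u + j * h + t * h
        = (1 - t) * sn (ahi + j * H) + t * sn (ahi + (j + 1) * H) := by
      rw [hsn, hsn]
      push_cast
      ring
    have hL : k * sn (ahi + j * H) + c ≤ _ := lz_ge Kp Kn Mp Mn (ahi + j * H)
    have hL2 : k * sn (ahi + (j + 1) * H) + c ≤ _ := lz_ge Kp Kn Mp Mn (ahi + (j + 1) * H)
    have hsd := step_dom (X := (inu (ahi + j * H) : ℝ) / 100000000000)
      (Y := (inu (ahi + (j + 1) * H) : ℝ) / 100000000000)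
      (t := t) (L := k * (u + j * h + t * h) + c)
      (by positivity) (by positivity) (hr j) (hr (j + 1)) ht0 ht1
      (hnode j hj.le) (hnode (j + 1) hj1) (by
        rw [e1]
        have e6 := mul_le_mul_of_nonneg_left hL (by linarith : (0 : ℝ) ≤ 1 - t)
        have e7 := mul_le_mul_of_nonneg_left hL2 ht0
        have e8 : k * ((1 - t) * sn (ahi + j * H) + t * sn (ahi + (j + 1) * H)) + c
            = (1 - t) * (k * sn (ahi + j * H) + c) + t * (k * sn (ahi + (j + 1) * H) + c) := by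
          ring
        rw [e8]
        exact add_le_add e6 e7)
    refine hsd.trans (mul_le_mul_of_nonneg_left ?_ (Real.sqrt_nonneg _))
    rw [e1]
    exact interp_le_I2 (hS j hj.le) (hS (j + 1) hj1) ht0 ht1
  have hmain := hPB _ _ (calib_pl (n := n) (u := u) (h := h) hh0 (by omega) hr hr0 hrn) k c hline
  have hint := int_pl_ge (n := n) (u := u) (h := h) (a := a) (b := b) (r := r) hh0
    (fun j => (hr j).1) hr0 hrn hah (by
      have e2 : u + n * h = sn (ahi + n * H) := (hsn n).symm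
      rw [e2]
      exact (sn_mono hHn).trans hbl)
  have hsumr : ∑ j ∈ Finset.range (n + 1), r j
      = ((∑ j ∈ Finset.range m, R j : ℕ) : ℝ) / 1000000 := by
    rw [Finset.sum_range_succ, hrn, add_zero, hn, Finset.sum_range_succ', hr0, add_zero]
    push_cast
    rw [Finset.sum_div]
    exact Finset.sum_congr rfl fun j hj => hrs j (Finset.mem_range.1 hj)
  rw [hsumr] at hint
  have hf := hT _ _ h11
  refine hf.trans (le_trans ?_ hmain)
  have hsubres : Nat.sub res 1 = ∑ j ∈ Finset.range m, R j := by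
    show res - 1 = _
    omega
  rw [hsubres] at *
  set Sg : ℕ := ∑ j ∈ Finset.range m, R j with hSg
  have e3 : ((((Nat.add Mp (Nat.mul (Nat.mul 2 H) Sg) : ℕ) : ℤ) - (Mn : ℤ) : ℤ) : ℝ)
      = (Mp : ℝ) + 2 * H * Sg - Mn := by
    have : Nat.add Mp (Nat.mul (Nat.mul 2 H) Sg) = Mp + 2 * H * Sg := rfl
    rw [this]
    push_cast
    ring
  rw [e3]
  have e4 : (((Kp : ℤ) - (Kn : ℤ) : ℤ) : ℝ) = (Kp : ℝ) - Kn := by push_cast; ring
  rw [e4]
  have e5 : ((Kp : ℝ) - Kn) / 1000000 * V + ((Mp : ℝ) + 2 * H * Sg - Mn) / 1000000000000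
      = k * V + c + 2 * (h * ((Sg : ℝ) / 1000000)) := by
    rw [hk, hc, hh]
    ring
  rw [e5]
  linarith

/-- A chord of the profile between the ends of a cell, as a cell check. -/
def chordLeaf (fin : ℤ → ℤ → Bool) (m alo ahi blo bhi : ℕ) : Bool :=
  (fun ca cb =>
    bif Nat.ble ca cb then
      (fun Kp => leafChk fin m alo ahi blo bhi Kp 0 (Nat.mul ca 1000000)
          (Nat.add (Nat.mul Kp alo) 1000000))
        (Nat.div (Nat.mul (Nat.sub cb ca) 1000000) (Nat.sub bhi alo))
    else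
      (fun Kn => leafChk fin m alo ahi blo bhi 0 Kn
          (Nat.add (Nat.mul ca 1000000) (Nat.mul Kn alo)) 1000000)
        (Nat.succ (Nat.div (Nat.mul (Nat.sub ca cb) 1000000) (Nat.sub bhi alo))))
    (isqN (Nat.mul 10 (inu alo))) (isqN (Nat.mul 10 (inu bhi)))

theorem chordLeaf_sound {fin : ℤ → ℤ → Bool} {m alo ahi blo bhi : ℕ}
    (h : chordLeaf fin m alo ahi blo bhi = true)
    {a b V Per T : ℝ} (hal : sn alo ≤ a) (hah : a ≤ sn ahi) (hbl : sn blo ≤ b) (hbh : b ≤ sn bhi)
    (hT : ∀ K LHS : ℤ, fin K LHS = true → T ≤ (K : ℝ) / 1000000 * V + (LHS : ℝ) / 1000000000000)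
    (hPB : PairBound I2 a b V Per) : T ≤ Per := by
  unfold chordLeaf at h
  simp only at h
  cases hc : Nat.ble (isqN (Nat.mul 10 (inu alo))) (isqN (Nat.mul 10 (inu bhi)))
  · rw [hc] at h
    simp only [cond_false] at h
    exact leafChk_sound h hal hah hbl hbh hT hPB
  · rw [hc] at h
    simp only [cond_true] at h
    exact leafChk_sound h hal hah hbl hbh hT hPB

/-- A subdivision tree: at a leaf, the number of interior nodes. -/
inductive FTree
  | leaf (m : ℕ)
  | node (l r : FTree)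

/-- The maximum, by the primitive comparison. -/
def nmax (a b : ℕ) : ℕ := bif Nat.ble a b then b else a

/-- The checker for a tree. -/
noncomputable def vtf (fin : ℤ → ℤ → Bool) (t : FTree) : ℕ → ℕ → ℕ → ℕ → Bool :=
  FTree.rec (fun m alo ahi blo bhi => chordLeaf fin m alo ahi blo bhi)
    (fun _ _ il ir alo ahi blo bhi =>
      bif Nat.ble (Nat.mul (Nat.sub ahi alo) 100000) (Nat.mul (Nat.sub bhi blo) (nmax alo 5000)) then
        (fun mid => and (il alo ahi blo mid) (ir alo ahi mid bhi)) (Nat.div (Nat.add blo bhi) 2)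
      else
        (fun mid => and (il alo mid blo bhi) (ir mid ahi blo bhi)) (Nat.div (Nat.add alo ahi) 2)) t

/-- The bound given by a family of parameters in a cell. -/
def CellF (fin : ℤ → ℤ → Bool) (alo ahi blo bhi : ℕ) : Prop :=
  ∀ V T : ℝ, (∀ K LHS : ℤ, fin K LHS = true →
      T ≤ (K : ℝ) / 1000000 * V + (LHS : ℝ) / 1000000000000) →
    ∀ a b Per : ℝ, sn alo ≤ a → a ≤ sn ahi → sn blo ≤ b → b ≤ sn bhi →
      PairBound I2 a b V Per → T ≤ Per

theorem cellF_split_a {fin : ℤ → ℤ → Bool} {alo ahi blo bhi : ℕ} (mid : ℕ)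
    (h1 : CellF fin alo mid blo bhi) (h2 : CellF fin mid ahi blo bhi) :
    CellF fin alo ahi blo bhi := by
  intro V T hT a b Per hal hah hbl hbh hPB
  rcases le_total a (sn mid) with hm | hm
  · exact h1 V T hT a b Per hal hm hbl hbh hPB
  · exact h2 V T hT a b Per hm hah hbl hbh hPB

theorem cellF_split_b {fin : ℤ → ℤ → Bool} {alo ahi blo bhi : ℕ} (mid : ℕ)
    (h1 : CellF fin alo ahi blo mid) (h2 : CellF fin alo ahi mid bhi) :
    CellF fin alo ahi blo bhi := by
  intro V T hT a b Per hal hah hbl hbh hPB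
  rcases le_total b (sn mid) with hm | hm
  · exact h1 V T hT a b Per hal hah hbl hm hPB
  · exact h2 V T hT a b Per hal hah hm hbh hPB

theorem cellF_of_vtf {fin : ℤ → ℤ → Bool} : ∀ {t : FTree} {alo ahi blo bhi : ℕ},
    vtf fin t alo ahi blo bhi = true → CellF fin alo ahi blo bhi := by
  intro t
  induction t with
  | leaf m =>
    intro alo ahi blo bhi h V T hT a b Per hal hah hbl hbh hPB
    exact chordLeaf_sound h hal hah hbl hbh hT hPB
  | node l r il ir =>
    intro alo ahi blo bhi h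
    have e : vtf fin (.node l r) alo ahi blo bhi =
      bif Nat.ble (Nat.mul (Nat.sub ahi alo) 100000) (Nat.mul (Nat.sub bhi blo) (nmax alo 5000)) then
        and (vtf fin l alo ahi blo (Nat.div (Nat.add blo bhi) 2))
          (vtf fin r alo ahi (Nat.div (Nat.add blo bhi) 2) bhi)
      else
        and (vtf fin l alo (Nat.div (Nat.add alo ahi) 2) blo bhi)
          (vtf fin r (Nat.div (Nat.add alo ahi) 2) ahi blo bhi) := rfl
    rw [e] at h
    cases hc : Nat.ble (Nat.mul (Nat.sub ahi alo) 100000) (Nat.mul (Nat.sub bhi blo) (nmax alo 5000))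
    · rw [hc] at h
      simp only [cond_false, Bool.and_eq_true] at h
      exact cellF_split_a _ (il h.1) (ir h.2)
    · rw [hc] at h
      simp only [cond_true, Bool.and_eq_true] at h
      exact cellF_split_b _ (il h.1) (ir h.2)

end Fast

end Vale.Agent.Lib.P232
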