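import Vale.Agent.Lib.P232.FastC
import Vale.Agent.Lib.P232.GapDefs

open MeasureTheory Filter Topology Set
open scoped Real

namespace Vale.Agent.Lib.P232

namespace Fast

open CertImpl

/-! The checker for two lines and two profiles, given by their values at the nodes. -/

/-- The requirement on the values at the nodes of a grid of step `H`, for a profile `f`. -/
def NodeOK (N : ℕ → ℕ → ℕ) (f : ℝ → ℝ) : Prop :=
  ∀ H S : ℕ, S + H ≤ 1000000 → ∀ t : ℝ, 0 ≤ t → t ≤ 1 →
    √((1 - t) * ((N H S : ℝ) / 100000000000) + t * ((N H (S + H) : ℝ) / 100000000000))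
      ≤ f ((1 - t) * sn S + t * sn (S + H))

/-- The maximum of the values of `ρ` for two lines. -/
def rho2 (N₁ N₂ : ℕ → ℕ) (K M₁ M₂ S : ℕ) : ℕ :=
  nmax (rho (lz K 10000000 M₁ 10000000000000 S) (N₁ S))
    (rho (lz K 10000000 M₂ 10000000000000 S) (N₂ S))

lemma le_nmax_left (a b : ℕ) : a ≤ nmax a b := by
  unfold nmax
  cases h : Nat.ble a b
  · simp
  · simp only [cond_true]
    exact Nat.le_of_ble_eq_true h

lemma le_nmax_right (a b : ℕ) : b ≤ nmax a b := by
  unfold nmax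
  cases h : Nat.ble a b
  · simp only [cond_false]
    have := not_le_of_ble_false h
    omega
  · simp

/-- The check of the nodes `S + j h` for `j ≤ e`. -/
def chk0 (ρ : ℕ → ℕ) (h e : ℕ) : ℕ → Bool :=
  Nat.rec (fun S => Nat.ble (ρ S) 1000000000000)
    (fun _ ih S => and (Nat.ble (ρ S) 1000000000000) (ih (Nat.add S h))) e

lemma chk0_spec (ρ : ℕ → ℕ) (h : ℕ) : ∀ (e S : ℕ), chk0 ρ h e S = true →
    ∀ j ≤ e, ρ (S + j * h) ≤ 1000000000000 := by
  intro e
  induction e with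
  | zero =>
    intro S hc j hj
    obtain rfl : j = 0 := by omega
    simpa using Nat.le_of_ble_eq_true hc
  | succ e ih =>
    intro S hc j hj
    have e1 : chk0 ρ h (e + 1) S
        = and (Nat.ble (ρ S) 1000000000000) (chk0 ρ h e (Nat.add S h)) := rfl
    rw [e1, Bool.and_eq_true] at hc
    cases j with
    | zero => simpa using Nat.le_of_ble_eq_true hc.1
    | succ j =>
      have := ih _ hc.2 j (by omega)
      have e2 : S + (j + 1) * h = Nat.add S h + j * h := by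
        show _ = S + h + j * h
        ring
      rw [e2]
      exact this

lemma node_real0 {z I : ℕ} (h : rho z I ≤ 1000000000000) :
    ((z : ℝ) / 1000000000000) ^ 2 ≤ (1 - (0 : ℝ) ^ 2) * ((I : ℝ) / 100000000000) := by
  have h1 := node_real (R := 0) (rho_spec h) (by rw [Nat.mul_zero, Nat.add_zero]; exact h)
  have e : ((0 : ℕ) : ℝ) / 1000000 = 0 := by simp
  rwa [e] at h1

/-- One line below one profile with a piecewise linear calibration. -/
lemma line_dom {Kp Kn Mp Mn H S₀ n : ℕ} {N : ℕ → ℕ} {f : ℝ → ℝ} {r : ℕ → ℝ}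
    (hH : 1 ≤ H) (hn : 0 < n) (hS : S₀ + n * H ≤ 1000000)
    (hN : ∀ S : ℕ, S + H ≤ 1000000 → ∀ t : ℝ, 0 ≤ t → t ≤ 1 →
      √((1 - t) * ((N S : ℝ) / 100000000000) + t * ((N (S + H) : ℝ) / 100000000000))
        ≤ f ((1 - t) * sn S + t * sn (S + H)))
    (hr : ∀ j, 0 ≤ r j ∧ r j ≤ 1)
    (hnode : ∀ j ≤ n, ((lz Kp Kn Mp Mn (S₀ + j * H) : ℝ) / 1000000000000) ^ 2
      ≤ (1 - r j ^ 2) * ((N (S₀ + j * H) : ℝ) / 100000000000))
    {s : ℝ} (h1 : sn S₀ ≤ s) (h2 : s ≤ sn (S₀ + n * H)) :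
    (((Kp : ℝ) - Kn) / 1000000) * s + ((Mp : ℝ) - Mn) / 1000000000000
      ≤ √(1 - pl n (sn S₀) ((H : ℝ) / 1000000) r s ^ 2) * f s := by
  set u := sn S₀ with hu
  set h := (H : ℝ) / 1000000 with hh
  have hh0 : 0 < h := by
    have : (1 : ℝ) ≤ H := by exact_mod_cast hH
    rw [hh]; positivity
  have hsn : ∀ j : ℕ, sn (S₀ + j * H) = u + j * h := by
    intro j
    simp only [sn, hu, hh]
    push_cast
    ring
  rw [hsn] at h2
  obtain ⟨j, hj, t, ht0, ht1, rfl⟩ := exists_step hh0 hn h1 h2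
  rw [pl_on_step r hh0 hj ht0 ht1]
  have hj1 : j + 1 ≤ n := hj
  have e0 : S₀ + j * H + H = S₀ + (j + 1) * H := by ring
  have e1 : u + j * h + t * h
      = (1 - t) * sn (S₀ + j * H) + t * sn (S₀ + (j + 1) * H) := by
    rw [hsn, hsn]
    push_cast
    ring
  have hL := lz_ge Kp Kn Mp Mn (S₀ + j * H)
  have hL2 := lz_ge Kp Kn Mp Mn (S₀ + (j + 1) * H)
  have hsd := step_dom (X := (N (S₀ + j * H) : ℝ) / 100000000000)
    (Y := (N (S₀ + (j + 1) * H) : ℝ) / 100000000000)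
    (t := t) (L := (((Kp : ℝ) - Kn) / 1000000) * (u + j * h + t * h)
      + ((Mp : ℝ) - Mn) / 1000000000000)
    (by positivity) (by positivity) (hr j) (hr (j + 1)) ht0 ht1
    (hnode j hj.le) (hnode (j + 1) hj1) (by
      rw [e1]
      have e6 := mul_le_mul_of_nonneg_left hL (by linarith : (0 : ℝ) ≤ 1 - t)
      have e7 := mul_le_mul_of_nonneg_left hL2 ht0
      have e8 : ((Kp : ℝ) - Kn) / 1000000 *
            ((1 - t) * sn (S₀ + j * H) + t * sn (S₀ + (j + 1) * H))
            + ((Mp : ℝ) - Mn) / 1000000000000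
          = (1 - t) * (((Kp : ℝ) - Kn) / 1000000 * sn (S₀ + j * H)
              + ((Mp : ℝ) - Mn) / 1000000000000)
            + t * (((Kp : ℝ) - Kn) / 1000000 * sn (S₀ + (j + 1) * H)
              + ((Mp : ℝ) - Mn) / 1000000000000) := by
        ring
      rw [e8]
      exact add_le_add e6 e7)
  refine hsd.trans (mul_le_mul_of_nonneg_left ?_ (Real.sqrt_nonneg _))
  have hS1 : S₀ + j * H + H ≤ 1000000 := by
    rw [e0]
    have : (j + 1) * H ≤ n * H := Nat.mul_le_mul_right _ hj1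
    omega
  have := hN (S₀ + j * H) hS1 t ht0 ht1
  rw [e0] at this
  rw [e1]
  exact this

/-- One line below one profile on a grid of nodes. -/
lemma line_dom0 {Kp Kn Mp Mn H S₀ n : ℕ} {N : ℕ → ℕ} {f : ℝ → ℝ}
    (hH : 1 ≤ H) (hn : 0 < n) (hS : S₀ + n * H ≤ 1000000)
    (hN : ∀ S : ℕ, S + H ≤ 1000000 → ∀ t : ℝ, 0 ≤ t → t ≤ 1 →
      √((1 - t) * ((N S : ℝ) / 100000000000) + t * ((N (S + H) : ℝ) / 100000000000))
        ≤ f ((1 - t) * sn S + t * sn (S + H)))
    (hnode : ∀ j ≤ n, rho (lz Kp Kn Mp Mn (S₀ + j * H)) (N (S₀ + j * H)) ≤ 1000000000000)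
    {s : ℝ} (h1 : sn S₀ ≤ s) (h2 : s ≤ sn (S₀ + n * H)) :
    (((Kp : ℝ) - Kn) / 1000000) * s + ((Mp : ℝ) - Mn) / 1000000000000 ≤ f s := by
  have := line_dom (r := fun _ => 0) hH hn hS hN (fun _ => ⟨le_refl _, zero_le_one⟩) (fun j hj => by
    exact node_real0 (hnode j hj)) h1 h2
  simpa [pl] using this

/-- The check of a cell with a calibration: `m` interior nodes of the main grid. -/
def leaf2 (N₁ N₂ : ℕ → ℕ → ℕ) (fin : ℤ → ℤ → Bool) (m K M₁ M₂ alo ahi blo bhi : ℕ) : Bool :=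
  (fun H =>
    (fun ρ =>
      Nat.ble alo ahi && Nat.ble ahi blo && Nat.ble blo bhi && Nat.ble bhi 1000000 && Nat.ble 1 H &&
        ((fun e₁ => Nat.ble (Nat.add alo (Nat.mul e₁ H)) 1000000 && chk0 ρ H e₁ alo)
          (Nat.succ (Nat.div (Nat.sub ahi alo) H))) &&
        Nat.ble (ρ ahi) 1000000000000 &&
        ((fun un => Nat.ble (ρ un) 1000000000000 &&
          ((fun e₂ => Nat.ble (Nat.mul e₂ H) bhi && chk0 ρ H e₂ (Nat.sub bhi (Nat.mul e₂ H)))
            (Nat.succ (Nat.div (Nat.sub bhi un) H))))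
          (Nat.add ahi (Nat.mul (Nat.succ m) H))) &&
        ((fun res => Nat.ble 1 res &&
            fin ((K : ℤ) - 10000000)
              (((Nat.add (Nat.mul 3 (Nat.mul M₁ 1000000)) (Nat.add (Nat.mul 22 (Nat.mul M₂ 1000000))
                (Nat.mul (Nat.mul 50 H) (Nat.sub res 1))) : ℕ) : ℤ) - 250000000000000))
          (walk ρ H m (Nat.add ahi H) (isqN (Nat.sub 1000000000000 (ρ (Nat.add ahi H)))) 1)))
      (rho2 (N₁ H) (N₂ H) K (Nat.mul M₁ 1000000) (Nat.mul M₂ 1000000)))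
    (Nat.div (Nat.sub blo ahi) (Nat.succ m))

/-- The bound `T` as a function of the final data of a cell. -/
def FinOK (fin : ℤ → ℤ → Bool) (T V : ℝ) : Prop :=
  ∀ K L : ℤ, fin K L = true → T ≤ (K : ℝ) / 1000000 * V + (L : ℝ) / 25000000000000

lemma rho2_left {N₁ N₂ : ℕ → ℕ} {K M₁ M₂ S : ℕ} :
    rho (lz K 10000000 M₁ 10000000000000 S) (N₁ S) ≤ rho2 N₁ N₂ K M₁ M₂ S := le_nmax_left _ _

lemma rho2_right {N₁ N₂ : ℕ → ℕ} {K M₁ M₂ S : ℕ} :
    rho (lz K 10000000 M₂ 10000000000000 S) (N₂ S) ≤ rho2 N₁ N₂ K M₁ M₂ S := le_nmax_right _ _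

/-- A checked cell gives the bound. -/
theorem leaf2_sound {N₁ N₂ : ℕ → ℕ → ℕ} {f₁ f₂ : ℝ → ℝ} (hN₁ : NodeOK N₁ f₁) (hN₂ : NodeOK N₂ f₂)
    {fin : ℤ → ℤ → Bool} {m K M₁ M₂ alo ahi blo bhi : ℕ}
    (h : leaf2 N₁ N₂ fin m K M₁ M₂ alo ahi blo bhi = true)
    {a b V Per T : ℝ} (hal : sn alo ≤ a) (hah : a ≤ sn ahi) (hbl : sn blo ≤ b) (hbh : b ≤ sn bhi)
    (hT : FinOK fin T V) (hPB : PhaseBound f₁ f₂ gapAlpha a b V Per) : T ≤ Per := by
  unfold leaf2 at h
  simp only [Bool.and_eq_true] at h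
  obtain ⟨⟨⟨⟨⟨⟨⟨⟨h1, h2⟩, h3⟩, h4⟩, h5⟩, h6, h7⟩, h8⟩, h9, h10, h11⟩, h12, h13⟩ := h
  replace h1 := Nat.le_of_ble_eq_true h1
  replace h2 := Nat.le_of_ble_eq_true h2
  replace h3 := Nat.le_of_ble_eq_true h3
  replace h4 := Nat.le_of_ble_eq_true h4
  replace h5 := Nat.le_of_ble_eq_true h5
  replace h6 := Nat.le_of_ble_eq_true h6
  replace h8 := Nat.le_of_ble_eq_true h8
  replace h9 := Nat.le_of_ble_eq_true h9
  replace h10 := Nat.le_of_ble_eq_true h10
  replace h12 := Nat.le_of_ble_eq_true h12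
  set H := Nat.div (Nat.sub blo ahi) (Nat.succ m) with hH
  set M₁' := Nat.mul M₁ 1000000 with hM₁'
  set M₂' := Nat.mul M₂ 1000000 with hM₂'
  set ρ := rho2 (N₁ H) (N₂ H) K M₁' M₂' with hρ
  have hHn : ahi + (m + 1) * H ≤ blo := by
    have : (m + 1) * H ≤ blo - ahi := by
      rw [mul_comm]
      exact Nat.div_mul_le_self _ _
    omega
  set un := Nat.add ahi (Nat.mul (Nat.succ m) H) with hun
  have hun' : un = ahi + (m + 1) * H := rfl
  set e₁ := Nat.succ (Nat.div (Nat.sub ahi alo) H) with he₁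
  set e₂ := Nat.succ (Nat.div (Nat.sub bhi un) H) with he₂
  have he₁' : ahi ≤ alo + e₁ * H := by
    have : (ahi - alo) < (ahi - alo) / H * H + H := Nat.lt_div_mul_add (by omega)
    have e : e₁ * H = (ahi - alo) / H * H + H := by
      show ((ahi - alo) / H + 1) * H = _
      ring
    omega
  have he₂' : bhi - e₂ * H ≤ un := by
    have : (bhi - un) < (bhi - un) / H * H + H := Nat.lt_div_mul_add (by omega)
    have e : e₂ * H = (bhi - un) / H * H + H := by
      show ((bhi - un) / H + 1) * H = _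
      ring
    omega
  have h6' : alo + e₁ * H ≤ 1000000 := h6
  have h10' : e₂ * H ≤ bhi := h10
  have hres0 : (walk ρ H m (Nat.add ahi H) (isqN (Nat.sub 1000000000000 (ρ (Nat.add ahi H)))) 1) ≠ 0 := by
    omega
  obtain ⟨R, hR, hsum⟩ := walk_spec _ _ _ _ _ _ (le_refl 1) hres0
  set res := walk ρ H m (Nat.add ahi H) (isqN (Nat.sub 1000000000000 (ρ (Nat.add ahi H)))) 1 with hres
  set n := m + 1 with hn
  set h : ℝ := (H : ℝ) / 1000000 with hh
  set u : ℝ := sn ahi with hu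
  have hh0 : 0 < h := by
    have : (1 : ℝ) ≤ H := by exact_mod_cast h5
    rw [hh]; positivity
  let r : ℕ → ℝ := fun j => if j = 0 ∨ m < j then 0 else (R (j - 1) : ℝ) / 1000000
  have hr0 : r 0 = 0 := by simp [r]
  have hrn : r n = 0 := by simp [r, hn]
  have hrs : ∀ j < m, r (j + 1) = (R j : ℝ) / 1000000 := by
    intro j hj
    have : ¬(j + 1 = 0 ∨ m < j + 1) := by omega
    simp only [r, if_neg this]
    rfl
  have hrbig : ∀ j, m < j → r j = 0 := by
    intro j hj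
    simp [r, hj]
  have hsq : ∀ {R' : ℕ}, R' * R' ≤ 1000000000000 → (R' : ℝ) / 1000000 ≤ 1 := by
    intro R' hR'
    rw [div_le_one (by norm_num)]
    have : R' ≤ 1000000 := by nlinarith
    exact_mod_cast this
  have hr : ∀ j, 0 ≤ r j ∧ r j ≤ 1 := by
    intro j
    rcases Nat.eq_zero_or_pos j with rfl | hj
    · rw [hr0]; exact ⟨le_refl _, zero_le_one⟩
    rcases Nat.lt_or_ge m j with hj2 | hj2
    · rw [hrbig j hj2]; exact ⟨le_refl _, zero_le_one⟩
    · obtain ⟨i, rfl⟩ : ∃ i, j = i + 1 := ⟨j - 1, by omega⟩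
      have hi : i < m := by omega
      rw [hrs i hi]
      refine ⟨by positivity, hsq ?_⟩
      have := hR i hi
      omega
  have hS0 : ahi + n * H ≤ 1000000 := by omega
  have hsn : ∀ j : ℕ, sn (ahi + j * H) = u + j * h := by
    intro j
    simp only [sn, hu, hh]
    push_cast
    ring
  -- the conditions at the nodes of the main grid, for a line
  have hmain : ∀ (Mz : ℕ) (N : ℕ → ℕ),
      (∀ S, rho (lz K 10000000 Mz 10000000000000 S) (N S) ≤ ρ S) →
      ∀ j ≤ n, ((lz K 10000000 Mz 10000000000000 (ahi + j * H) : ℝ) / 1000000000000) ^ 2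
        ≤ (1 - r j ^ 2) * ((N (ahi + j * H) : ℝ) / 100000000000) := by
    intro Mz N hle j hj
    rcases Nat.eq_zero_or_pos j with rfl | hj0
    · rw [hr0]
      simp only [Nat.zero_mul, Nat.add_zero]
      exact node_real0 ((hle ahi).trans h8)
    rcases Nat.lt_or_ge m j with hj2 | hj2
    · have hjn : j = n := by omega
      subst hjn
      rw [hrn]
      exact node_real0 ((hle (ahi + n * H)).trans h9)
    · obtain ⟨i, rfl⟩ : ∃ i, j = i + 1 := ⟨j - 1, by omega⟩
      have hi : i < m := by omega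
      rw [hrs i hi]
      have h15 := hR i hi
      have e : Nat.add ahi H + i * H = ahi + (i + 1) * H := by
        show ahi + H + i * H = _
        ring
      rw [e] at h15
      have h16 := hle (ahi + (i + 1) * H)
      have h17 : rho (lz K 10000000 Mz 10000000000000 (ahi + (i + 1) * H)) (N (ahi + (i + 1) * H))
          ≤ 1000000000000 := by omega
      exact node_real (rho_spec h17) (by omega)
  -- domination, for a line
  have hdom : ∀ (Mz : ℕ) (N : ℕ → ℕ) (f : ℝ → ℝ),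
      (∀ S, rho (lz K 10000000 Mz 10000000000000 S) (N S) ≤ ρ S) →
      (∀ S : ℕ, S + H ≤ 1000000 → ∀ t : ℝ, 0 ≤ t → t ≤ 1 →
        √((1 - t) * ((N S : ℝ) / 100000000000) + t * ((N (S + H) : ℝ) / 100000000000))
          ≤ f ((1 - t) * sn S + t * sn (S + H))) →
      ∀ s ∈ Icc a b, (((K : ℝ) - (10000000 : ℕ)) / 1000000) * s
          + ((Mz : ℝ) - (10000000000000 : ℕ)) / 1000000000000
        ≤ √(1 - pl n u h r s ^ 2) * f s := by
    intro Mz N f hle hN s hs
    rcases le_total s u with h1' | h1'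
    · rw [pl_left hh0 hr0 h1']
      have h18 : sn alo ≤ s := hal.trans hs.1
      have h19 : s ≤ sn (alo + e₁ * H) := h1'.trans (sn_mono he₁')
      have := line_dom0 (Kp := K) (Kn := 10000000) (Mp := Mz) (Mn := 10000000000000)
        h5 (Nat.succ_pos _) h6' hN
        (fun j hj => (hle _).trans (chk0_spec ρ H e₁ alo h7 j hj)) h18 h19
      simpa using this
    rcases le_total (u + n * h) s with h2' | h2'
    · rw [pl_right hh0 hrn h2']
      have e5 : bhi - e₂ * H + e₂ * H = bhi := Nat.sub_add_cancel h10'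
      have h18 : sn (bhi - e₂ * H) ≤ s := by
        refine (sn_mono he₂').trans ?_
        rw [hun', hsn]
        exact h2'
      have h19 : s ≤ sn (bhi - e₂ * H + e₂ * H) := by
        rw [e5]
        exact hs.2.trans hbh
      have h11' : chk0 ρ H e₂ (bhi - e₂ * H) = true := h11
      have := line_dom0 (Kp := K) (Kn := 10000000) (Mp := Mz) (Mn := 10000000000000)
        (S₀ := bhi - e₂ * H) (n := e₂)
        h5 (Nat.succ_pos _) (by rw [e5]; exact h4) hN
        (fun j hj => (hle _).trans (chk0_spec ρ H e₂ _ h11' j hj)) h18 h19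
      simpa using this
    · have h18 : sn ahi ≤ s := h1'
      have h19 : s ≤ sn (ahi + n * H) := by
        rw [hsn]
        exact h2'
      exact line_dom (Kp := K) (Kn := 10000000) (Mp := Mz) (Mn := 10000000000000) h5
        (by omega) hS0 hN hr (hmain Mz N hle) h18 h19
  have hd₁ := hdom M₁' (N₁ H) f₁ (fun S => rho2_left) (fun S hS t ht0 ht1 => hN₁ H S hS t ht0 ht1)
  have hd₂ := hdom M₂' (N₂ H) f₂ (fun S => rho2_right) (fun S hS t ht0 ht1 => hN₂ H S hS t ht0 ht1)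
  have hmain2 := hPB _ _ (calib_pl (n := n) (u := u) (h := h) hh0 (by omega) hr hr0 hrn) _ _ _ hd₁ hd₂
  have hint := int_pl_ge (n := n) (u := u) (h := h) (a := a) (b := b) (r := r) hh0
    (fun j => (hr j).1) hr0 hrn hah (by
      have e2 : u + n * h = sn (ahi + n * H) := (hsn n).symm
      rw [e2]
      exact (sn_mono hHn).trans hbl)
  have hsumr : ∑ j ∈ Finset.range (n + 1), r j
      = ((∑ j ∈ Finset.range m, R j : ℕ) : ℝ) / 1000000 := by
    rw [Finset.sum_range_succ, hrn, add_zero, hn, Finset.sum_range_succ', hr0, add_zero]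
    push_cast
    rw [Finset.sum_div]
    exact Finset.sum_congr rfl fun j hj => hrs j (Finset.mem_range.1 hj)
  rw [hsumr] at hint
  have hf := hT _ _ h13
  refine hf.trans (le_trans ?_ hmain2)
  have hsubres : Nat.sub res 1 = ∑ j ∈ Finset.range m, R j := by
    show res - 1 = _
    omega
  rw [hsubres]
  set Sg : ℕ := ∑ j ∈ Finset.range m, R j with hSg
  have e3 : ((((Nat.add (Nat.mul 3 M₁') (Nat.add (Nat.mul 22 M₂') (Nat.mul (Nat.mul 50 H) Sg)) : ℕ) : ℤ)
        - 250000000000000 : ℤ) : ℝ)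
      = 3 * (M₁' : ℝ) + 22 * M₂' + 50 * H * Sg - 250000000000000 := by
    have : Nat.add (Nat.mul 3 M₁') (Nat.add (Nat.mul 22 M₂') (Nat.mul (Nat.mul 50 H) Sg))
        = 3 * M₁' + (22 * M₂' + 50 * H * Sg) := rfl
    rw [this]
    push_cast
    ring
  rw [e3]
  have e4 : (((K : ℤ) - 10000000 : ℤ) : ℝ) = (K : ℝ) - 10000000 := by push_cast; ring
  rw [e4]
  have e5 : (gapAlpha : ℝ) = 3 / 25 := rfl
  rw [e5]
  push_cast at hmain2 hint ⊢
  have e6 : ((K : ℝ) - 10000000) / 1000000 * V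
        + (3 * (M₁' : ℝ) + 22 * M₂' + 50 * H * Sg - 250000000000000) / 25000000000000
      = ((K : ℝ) - 10000000) / 1000000 * V + 3 / 25 * (((M₁' : ℝ) - 10000000000000) / 1000000000000)
        + (1 - 3 / 25) * (((M₂' : ℝ) - 10000000000000) / 1000000000000)
        + 2 * (h * ((Sg : ℝ) / 1000000)) := by
    rw [hh]
    ring
  rw [e6]
  linarith

end Fast

end Vale.Agent.Lib.P232
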