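import Vale.Agent.Lib.P232.FastD

open MeasureTheory Filter Topology Set
open scoped Real

namespace Vale.Agent.Lib.P232

namespace Fast

open CertImpl

/-- The check of a cell without a calibration: the grid covers the whole cell. -/
def leafD (N₁ N₂ : ℕ → ℕ → ℕ) (fin : ℤ → ℤ → Bool) (m K M₁ M₂ alo bhi : ℕ) : Bool :=
  (fun H =>
    Nat.ble (Nat.add alo (Nat.mul (Nat.succ m) H)) 1000000 &&
      chk0 (rho2 (N₁ H) (N₂ H) K (Nat.mul M₁ 1000000) (Nat.mul M₂ 1000000)) H (Nat.succ m) alo &&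
      fin ((K : ℤ) - 10000000)
        (((Nat.add (Nat.mul 3 (Nat.mul M₁ 1000000)) (Nat.mul 22 (Nat.mul M₂ 1000000)) : ℕ) : ℤ)
          - 250000000000000))
    (Nat.succ (Nat.div (Nat.sub bhi alo) (Nat.succ m)))

theorem leafD_sound {N₁ N₂ : ℕ → ℕ → ℕ} {f₁ f₂ : ℝ → ℝ} (hN₁ : NodeOK N₁ f₁) (hN₂ : NodeOK N₂ f₂)
    {fin : ℤ → ℤ → Bool} {m K M₁ M₂ alo bhi : ℕ}
    (h : leafD N₁ N₂ fin m K M₁ M₂ alo bhi = true)
    {a b V Per T : ℝ} (hal : sn alo ≤ a) (hbh : b ≤ sn bhi)
    (hT : FinOK fin T V) (hPB : PhaseBound f₁ f₂ gapAlpha a b V Per) : T ≤ Per := by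
  unfold leafD at h
  simp only [Bool.and_eq_true] at h
  obtain ⟨⟨h1, h2⟩, h3⟩ := h
  replace h1 := Nat.le_of_ble_eq_true h1
  set H := Nat.succ (Nat.div (Nat.sub bhi alo) (Nat.succ m)) with hH
  set M₁' := Nat.mul M₁ 1000000 with hM₁'
  set M₂' := Nat.mul M₂ 1000000 with hM₂'
  set ρ := rho2 (N₁ H) (N₂ H) K M₁' M₂' with hρ
  set n := Nat.succ m with hn
  have h1' : alo + n * H ≤ 1000000 := h1
  have hcov : bhi ≤ alo + n * H := by
    have h4 : (bhi - alo) < (bhi - alo) / n * n + n := Nat.lt_div_mul_add (by omega)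
    have e : n * H = (bhi - alo) / n * n + n := by
      show n * ((bhi - alo) / n + 1) = _
      ring
    omega
  have hH1 : 1 ≤ H := Nat.succ_pos _
  have hdom : ∀ (Mz : ℕ) (N : ℕ → ℕ) (f : ℝ → ℝ),
      (∀ S, rho (lz K 10000000 Mz 10000000000000 S) (N S) ≤ ρ S) →
      (∀ S : ℕ, S + H ≤ 1000000 → ∀ t : ℝ, 0 ≤ t → t ≤ 1 →
        √((1 - t) * ((N S : ℝ) / 100000000000) + t * ((N (S + H) : ℝ) / 100000000000))
          ≤ f ((1 - t) * sn S + t * sn (S + H))) →
      ∀ s ∈ Icc a b, (((K : ℝ) - (10000000 : ℕ)) / 1000000) * s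
          + ((Mz : ℝ) - (10000000000000 : ℕ)) / 1000000000000 ≤ 1 * f s := by
    intro Mz N f hle hN s hs
    rw [one_mul]
    exact line_dom0 (Kp := K) (Kn := 10000000) (Mp := Mz) (Mn := 10000000000000)
      hH1 (Nat.succ_pos _) h1' hN
      (fun j hj => (hle _).trans (chk0_spec ρ H n alo h2 j hj))
      (hal.trans hs.1) (hs.2.trans (hbh.trans (sn_mono hcov)))
  have hd₁ := hdom M₁' (N₁ H) f₁ (fun S => rho2_left) (fun S hS t ht0 ht1 => hN₁ H S hS t ht0 ht1)
  have hd₂ := hdom M₂' (N₂ H) f₂ (fun S => rho2_right) (fun S hS t ht0 ht1 => hN₂ H S hS t ht0 ht1)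
  have hcal : CalibPair (fun _ => (1 : ℝ)) (fun _ => 0) := by
    refine ⟨continuous_const, continuous_const, fun _ => zero_le_one, fun _ => le_refl _, ?_⟩
    intro s
    norm_num
  have hmain2 := hPB _ _ hcal _ _ _ hd₁ hd₂
  simp only [intervalIntegral.integral_zero] at hmain2
  have hf := hT _ _ h3
  refine hf.trans (le_trans ?_ hmain2)
  have e3 : ((((Nat.add (Nat.mul 3 M₁') (Nat.mul 22 M₂') : ℕ) : ℤ) - 250000000000000 : ℤ) : ℝ)
      = 3 * (M₁' : ℝ) + 22 * M₂' - 250000000000000 := by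
    have : Nat.add (Nat.mul 3 M₁') (Nat.mul 22 M₂') = 3 * M₁' + 22 * M₂' := rfl
    rw [this]
    push_cast
    ring
  rw [e3]
  have e4 : (((K : ℤ) - 10000000 : ℤ) : ℝ) = (K : ℝ) - 10000000 := by push_cast; ring
  rw [e4]
  have e5 : (gapAlpha : ℝ) = 3 / 25 := rfl
  rw [e5]
  push_cast
  apply le_of_eq
  ring

/-- A subdivision tree with the data of the lines at the leaves. -/
inductive PTree
  | leaf (m K M₁ M₂ : ℕ)
  | diag (m K M₁ M₂ : ℕ)
  | skip
  | na (l r : PTree)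
  | nb (l r : PTree)

/-- The checker for a tree. -/
noncomputable def vtp (N₁ N₂ : ℕ → ℕ → ℕ) (fin : ℤ → ℤ → Bool) (t : PTree) : ℕ → ℕ → ℕ → ℕ → Bool :=
  PTree.rec
    (fun m K M₁ M₂ alo ahi blo bhi => leaf2 N₁ N₂ fin m K M₁ M₂ alo ahi blo bhi)
    (fun m K M₁ M₂ alo _ _ bhi => leafD N₁ N₂ fin m K M₁ M₂ alo bhi)
    (fun alo _ _ bhi => Nat.ble (Nat.succ bhi) alo)
    (fun _ _ il ir alo ahi blo bhi =>
      (fun mid => and (il alo mid blo bhi) (ir mid ahi blo bhi)) (Nat.div (Nat.add alo ahi) 2))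
    (fun _ _ il ir alo ahi blo bhi =>
      (fun mid => and (il alo ahi blo mid) (ir alo ahi mid bhi)) (Nat.div (Nat.add blo bhi) 2))
    t

/-- The bound given by a family of parameters in a cell. -/
def CellP (f₁ f₂ : ℝ → ℝ) (fin : ℤ → ℤ → Bool) (alo ahi blo bhi : ℕ) : Prop :=
  ∀ V T : ℝ, FinOK fin T V → ∀ a b Per : ℝ, a ≤ b → sn alo ≤ a → a ≤ sn ahi → sn blo ≤ b →
    b ≤ sn bhi → PhaseBound f₁ f₂ gapAlpha a b V Per → T ≤ Per

theorem cellP_split_a {f₁ f₂ : ℝ → ℝ} {fin : ℤ → ℤ → Bool} {alo ahi blo bhi : ℕ} (mid : ℕ)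
    (h1 : CellP f₁ f₂ fin alo mid blo bhi) (h2 : CellP f₁ f₂ fin mid ahi blo bhi) :
    CellP f₁ f₂ fin alo ahi blo bhi := by
  intro V T hT a b Per hab hal hah hbl hbh hPB
  rcases le_total a (sn mid) with hm | hm
  · exact h1 V T hT a b Per hab hal hm hbl hbh hPB
  · exact h2 V T hT a b Per hab hm hah hbl hbh hPB

theorem cellP_split_b {f₁ f₂ : ℝ → ℝ} {fin : ℤ → ℤ → Bool} {alo ahi blo bhi : ℕ} (mid : ℕ)
    (h1 : CellP f₁ f₂ fin alo ahi blo mid) (h2 : CellP f₁ f₂ fin alo ahi mid bhi) :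
    CellP f₁ f₂ fin alo ahi blo bhi := by
  intro V T hT a b Per hab hal hah hbl hbh hPB
  rcases le_total b (sn mid) with hm | hm
  · exact h1 V T hT a b Per hab hal hah hbl hm hPB
  · exact h2 V T hT a b Per hab hal hah hm hbh hPB

theorem cellP_of_vtp {N₁ N₂ : ℕ → ℕ → ℕ} {f₁ f₂ : ℝ → ℝ} (hN₁ : NodeOK N₁ f₁) (hN₂ : NodeOK N₂ f₂)
    {fin : ℤ → ℤ → Bool} : ∀ {t : PTree} {alo ahi blo bhi : ℕ},
    vtp N₁ N₂ fin t alo ahi blo bhi = true → CellP f₁ f₂ fin alo ahi blo bhi := by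
  intro t
  induction t with
  | leaf m K M₁ M₂ =>
    intro alo ahi blo bhi h V T hT a b Per _ hal hah hbl hbh hPB
    exact leaf2_sound hN₁ hN₂ h hal hah hbl hbh hT hPB
  | diag m K M₁ M₂ =>
    intro alo ahi blo bhi h V T hT a b Per _ hal _ _ hbh hPB
    exact leafD_sound hN₁ hN₂ h hal hbh hT hPB
  | skip =>
    intro alo ahi blo bhi h V T hT a b Per hab hal _ _ hbh _
    have h1 : bhi + 1 ≤ alo := Nat.le_of_ble_eq_true h
    have h2 := sn_mono h1
    have h3 : sn (bhi + 1) = sn bhi + 1 / 1000000 := by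
      unfold sn
      push_cast
      ring
    linarith
  | na l r il ir =>
    intro alo ahi blo bhi h
    have e : vtp N₁ N₂ fin (.na l r) alo ahi blo bhi =
      and (vtp N₁ N₂ fin l alo (Nat.div (Nat.add alo ahi) 2) blo bhi)
        (vtp N₁ N₂ fin r (Nat.div (Nat.add alo ahi) 2) ahi blo bhi) := rfl
    rw [e, Bool.and_eq_true] at h
    exact cellP_split_a _ (il h.1) (ir h.2)
  | nb l r il ir =>
    intro alo ahi blo bhi h
    have e : vtp N₁ N₂ fin (.nb l r) alo ahi blo bhi =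
      and (vtp N₁ N₂ fin l alo ahi blo (Nat.div (Nat.add blo bhi) 2))
        (vtp N₁ N₂ fin r alo ahi (Nat.div (Nat.add blo bhi) 2) bhi) := rfl
    rw [e, Bool.and_eq_true] at h
    exact cellP_split_b _ (il h.1) (ir h.2)

/-- The arithmetic mean bound for the tube value. -/
lemma tube_line {k V : ℝ} (hk : 0 < k) (hV : 0 ≤ V) : tubeVal V ≤ k * V + π / k := by
  unfold tubeVal
  have hpi := Real.pi_pos
  set x := √(π * V) with hx
  have hx2 : x ^ 2 = π * V := Real.sq_sqrt (by positivity)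
  have hV' : V = x ^ 2 / π := by
    rw [hx2]; field_simp
  have key : k * V + π / k - 2 * x = (k * x - π) ^ 2 / (k * π) := by
    rw [hV']
    field_simp
    ring
  have : 0 ≤ (k * x - π) ^ 2 / (k * π) := by positivity
  linarith

/-- The target check for the target `Tgt` on `[53/200, 9/25]`. -/
def finGap (K L : ℤ) : Bool :=
  if K < 0 then decide (50000000000000 ≤ K * 9000000 + L)
  else if K ≤ 3141600 then decide (1570800000000000000 ≤ 31416 * L + K * 250000000000)
  else decide (78540000000000000000 ≤ L * K)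

theorem finGap_sound {V : ℝ} (hV2 : V ≤ 9 / 25) (hV0 : 0 ≤ V) : FinOK finGap (Tgt V) V := by
  intro K L h
  have hpi := Real.pi_lt_d4
  have hpi0 := Real.pi_pos
  unfold finGap at h
  have hT1 : Tgt V ≤ tubeVal V := min_le_left _ _
  have hT2 : Tgt V ≤ 2 := min_le_right _ _
  split_ifs at h with h1 h2
  · rw [decide_eq_true_eq] at h
    have h' : ((50000000000000 : ℤ) : ℝ) ≤ ((K * 9000000 + L : ℤ) : ℝ) := by exact_mod_cast h
    push_cast at h'
    have h1' : (K : ℝ) < 0 := by exact_mod_cast h1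
    have : (K : ℝ) * (9 / 25 - V) ≤ 0 := mul_nonpos_of_nonpos_of_nonneg h1'.le (by linarith)
    refine hT2.trans ?_
    have e : (K : ℝ) / 1000000 * V + (L : ℝ) / 25000000000000
        = ((K : ℝ) * (25000000 * V) + L) / 25000000000000 := by ring
    rw [e, le_div_iff₀ (by norm_num)]
    nlinarith
  · rw [decide_eq_true_eq] at h
    have h' : ((1570800000000000000 : ℤ) : ℝ) ≤ ((31416 * L + K * 250000000000 : ℤ) : ℝ) := by
      exact_mod_cast h
    push_cast at h'
    have h1' : (0 : ℝ) ≤ K := by exact_mod_cast not_lt.1 h1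
    have h2' : (K : ℝ) ≤ 3141600 := by exact_mod_cast h2
    set k := (K : ℝ) / 1000000 with hk
    set c := (L : ℝ) / 25000000000000 with hc
    have hk0 : 0 ≤ k := by positivity
    have hk1 : k ≤ 3.1416 := by
      rw [hk, div_le_iff₀ (by norm_num)]; linarith
    have hL : (L : ℝ) = c * 25000000000000 := by
      rw [hc]; ring
    have hK : (K : ℝ) = k * 1000000 := by
      rw [hk]; ring
    rw [hL, hK] at h'
    have hcc : 2 * 3.1416 ≤ 3.1416 * c + k := by nlinarith
    rcases le_total (1 / 3.1416) V with hV | hV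
    · refine hT2.trans ?_
      have : 0 ≤ k * (V - 1 / 3.1416) := mul_nonneg hk0 (by linarith)
      have e1 : k * (V - 1 / 3.1416) = k * V - k / 3.1416 := by ring
      have e2 : 2 ≤ c + k / 3.1416 := by
        have : (2 * 3.1416 : ℝ) / 3.1416 ≤ (3.1416 * c + k) / 3.1416 := by gcongr
        have e3 : (3.1416 * c + k) / 3.1416 = c + k / 3.1416 := by
          field_simp
        rw [e3] at this
        norm_num at this ⊢
        linarith
      linarith
    · refine hT1.trans ?_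
      have hs := Real.sq_sqrt (show 0 ≤ π * V by positivity)
      have hs0 := Real.sqrt_nonneg (π * V)
      have e0 : tubeVal V ≤ π * V + 1 := by
        unfold tubeVal
        nlinarith [sq_nonneg (√(π * V) - 1)]
      have e1 : (3.1416 - k) * (1 / 3.1416 - V) ≥ 0 :=
        mul_nonneg (by linarith) (by linarith)
      have e2 : 2 ≤ c + k / 3.1416 := by
        have : (2 * 3.1416 : ℝ) / 3.1416 ≤ (3.1416 * c + k) / 3.1416 := by gcongr
        have e3 : (3.1416 * c + k) / 3.1416 = c + k / 3.1416 := by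
          field_simp
        rw [e3] at this
        norm_num at this ⊢
        linarith
      have e3 : (3.1416 - k) * (1 / 3.1416 - V) = 1 - 3.1416 * V - k / 3.1416 + k * V := by
        field_simp
        ring
      nlinarith
  · rw [decide_eq_true_eq] at h
    have h' : ((78540000000000000000 : ℤ) : ℝ) ≤ ((L * K : ℤ) : ℝ) := by exact_mod_cast h
    push_cast at h'
    have hK : (3141600 : ℝ) < K := by exact_mod_cast not_le.1 h2
    have hK0 : (0 : ℝ) < K := by linarith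
    have hk : 0 < (K : ℝ) / 1000000 := by positivity
    have hb := tube_line hk hV0
    refine hT1.trans (hb.trans ?_)
    have e : π / ((K : ℝ) / 1000000) ≤ (L : ℝ) / 25000000000000 := by
      rw [div_div_eq_mul_div, div_le_div_iff₀ hK0 (by norm_num)]
      nlinarith
    linarith

end Fast

end Vale.Agent.Lib.P232
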