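import Vale.Agent.Lib.P232.CertA
import Vale.Agent.Lib.P232.Dir

/-!
# Node values for the refined profiles

Node values for `Ju`, for the arc bound `Sb`, for the stadium bound `fSt`, and combinators.
-/

open MeasureTheory Filter Topology Set
open scoped Real

namespace Vale.Agent.Lib.P232

namespace Fast

open CertImpl

lemma interp_mono {x₀ x₁ y₀ y₁ t : ℝ} (h0 : x₀ ≤ y₀) (h1 : x₁ ≤ y₁) (ht0 : 0 ≤ t) (ht1 : t ≤ 1) :
    (1 - t) * x₀ + t * x₁ ≤ (1 - t) * y₀ + t * y₁ :=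
  add_le_add (mul_le_mul_of_nonneg_left h0 (by linarith)) (mul_le_mul_of_nonneg_left h1 ht0)

lemma cast_scale {N N' : ℕ} (h : N ≤ N') : (N : ℝ) / 100000000000 ≤ (N' : ℝ) / 100000000000 := by
  have : (N : ℝ) ≤ N' := by exact_mod_cast h
  gcongr

lemma NodeOK.mono_f {N : ℕ → ℕ → ℕ} {f g : ℝ → ℝ} (h : NodeOK N f) (hfg : ∀ s, f s ≤ g s) :
    NodeOK N g := fun H S hS t ht0 ht1 => (h H S hS t ht0 ht1).trans (hfg _)

lemma NodeOK.mono_N {N N' : ℕ → ℕ → ℕ} {f : ℝ → ℝ} (h : NodeOK N' f) (hN : ∀ H S, N H S ≤ N' H S) :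
    NodeOK N f := fun H S hS t ht0 ht1 =>
  (Real.sqrt_le_sqrt (interp_mono (cast_scale (hN H S)) (cast_scale (hN H (S + H))) ht0 ht1)).trans
    (h H S hS t ht0 ht1)

lemma NodeOK.nmin {N₁ N₂ : ℕ → ℕ → ℕ} {f₁ f₂ : ℝ → ℝ} (h₁ : NodeOK N₁ f₁) (h₂ : NodeOK N₂ f₂) :
    NodeOK (fun H S => nmin (N₁ H S) (N₂ H S)) (fun s => min (f₁ s) (f₂ s)) := fun H S hS t ht0 ht1 =>
  le_min ((h₁.mono_N (N := fun H S => Fast.nmin (N₁ H S) (N₂ H S))
      (fun _ _ => nmin_le_left _ _)) H S hS t ht0 ht1)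
    ((h₂.mono_N (N := fun H S => Fast.nmin (N₁ H S) (N₂ H S))
      (fun _ _ => nmin_le_right _ _)) H S hS t ht0 ht1)

/-! ### The profile `Ju` -/

/-- Node values for `Ju`. -/
def NJu (_ S : ℕ) : ℕ := nmin (Nat.mul 1256636 S) 800000000000

lemma NJu_ok : NodeOK NJu Ju := by
  intro H S hS t ht0 ht1
  have hpi : (3.14159 : ℝ) < π := by linarith [Real.pi_gt_d6]
  have ht1' : 0 ≤ 1 - t := by linarith
  have key : ∀ S : ℕ, (NJu 0 S : ℝ) / 100000000000 ≤ 4 * (π * sn S) ∧
      (NJu 0 S : ℝ) / 100000000000 ≤ 4 * 2 := by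
    intro S
    have h1 : NJu 0 S ≤ Nat.mul 1256636 S := nmin_le_left _ _
    have h2 : NJu 0 S ≤ 800000000000 := nmin_le_right _ _
    have h1' : (NJu 0 S : ℝ) ≤ 1256636 * S := by
      have : ((NJu 0 S : ℕ) : ℝ) ≤ ((Nat.mul 1256636 S : ℕ) : ℝ) := by exact_mod_cast h1
      simpa using this
    have h2' : (NJu 0 S : ℝ) ≤ 800000000000 := by exact_mod_cast h2
    have hS0 : (0 : ℝ) ≤ S := Nat.cast_nonneg S
    constructor
    · unfold sn
      rw [div_le_iff₀ (by norm_num)]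
      nlinarith
    · rw [div_le_iff₀ (by norm_num)]
      norm_num
      exact_mod_cast h2
  have e : ∀ S, NJu H S = NJu 0 S := fun _ => rfl
  rw [e, e]
  obtain ⟨a1, a2⟩ := key S
  obtain ⟨b1, b2⟩ := key (S + H)
  refine le_min ?_ ?_
  · rw [two_mul_sqrt]
    apply Real.sqrt_le_sqrt
    have := interp_mono a1 b1 ht0 ht1
    have e2 : 4 * (π * ((1 - t) * sn S + t * sn (S + H))) =
        (1 - t) * (4 * (π * sn S)) + t * (4 * (π * sn (S + H))) := by ring
    rw [e2]
    exact this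
  · rw [two_mul_sqrt]
    apply Real.sqrt_le_sqrt
    have := interp_mono a2 b2 ht0 ht1
    have e2 : (1 - t) * (4 * 2) + t * (4 * 2) = (4 * 2 : ℝ) := by ring
    rw [e2] at this
    exact this

/-! ### A line on a segment -/

lemma seg_line {l₀ l₁ x₀ x₁ c t : ℝ} (hx₀ : x₀ + c ≤ l₀ ^ 2) (hx₁ : x₁ + c ≤ l₁ ^ 2) (h₀ : 0 ≤ l₀)
    (h₁ : 0 ≤ l₁) (hc : (l₁ - l₀) ^ 2 / 4 ≤ c) (ht0 : 0 ≤ t) (ht1 : t ≤ 1) :
    √((1 - t) * x₀ + t * x₁) ≤ (1 - t) * l₀ + t * l₁ := by
  have ht1' : 0 ≤ 1 - t := by linarith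
  have hpos : 0 ≤ (1 - t) * l₀ + t * l₁ := add_nonneg (mul_nonneg ht1' h₀) (mul_nonneg ht0 h₁)
  apply Real.sqrt_le_iff.2 ⟨hpos, ?_⟩
  have h1 : (1 - t) * x₀ + t * x₁ ≤ (1 - t) * (l₀ ^ 2 - c) + t * (l₁ ^ 2 - c) :=
    interp_mono (by linarith) (by linarith) ht0 ht1
  have e : ((1 - t) * l₀ + t * l₁) ^ 2 =
      (1 - t) * l₀ ^ 2 + t * l₁ ^ 2 - t * (1 - t) * (l₁ - l₀) ^ 2 := by ring
  rw [e]
  have h2 : t * (1 - t) * (l₁ - l₀) ^ 2 ≤ (l₁ - l₀) ^ 2 / 4 := by
    have h3 : t * (1 - t) ≤ 1 / 4 := by nlinarith [sq_nonneg (2 * t - 1)]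
    have := mul_le_mul_of_nonneg_right h3 (sq_nonneg (l₁ - l₀))
    linarith
  nlinarith

/-! ### The arc bound -/

/-- A lower bound of `2 * 10^7 * Epoly (j / 20)`. -/
def EN (j : ℕ) : ℕ :=
  (fun q => Nat.sub 20000000 (Nat.add (Nat.add (Nat.div (Nat.mul 25000 q) 3)
    (Nat.div (Nat.mul 25 (Nat.mul q q)) 8))
    (Nat.add (Nat.div (Nat.mul 15 (Nat.mul q (Nat.mul q q))) 896) 3))) (Nat.mul j j)

lemma ndiv (a b : ℕ) : Nat.div a b = a / b := rfl

lemma EN_le {j : ℕ} (hj : j ≤ 20) :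
    (EN j : ℝ) / 10000000 ≤ 2 * Epoly ((j : ℝ) / 20) := by
  interval_cases j <;> simp [EN, Epoly, ndiv] <;> norm_num

/-- The scaled value of an arc line at a node. -/
def zarc (b j S : ℕ) : ℕ := Nat.sub (Nat.add (EN j) (Nat.mul j S)) (Nat.mul j b)

/-- The square of an arc line at a node with the correction for a step `H`. -/
def qarc (b j H S : ℕ) : ℕ :=
  (fun z => Nat.sub (Nat.div (Nat.mul z z) 1000) (Nat.add (Nat.div (Nat.mul H H) 10) 1)) (zarc b j S)

lemma zarc_le {b j S : ℕ} (hj : j ≤ 20) (hz : 0 < zarc b j S) :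
    (zarc b j S : ℝ) / 10000000 ≤ arcVal ((j : ℝ) / 20) ((b : ℝ) / 1000000) (sn S) := by
  have hz' : Nat.mul j b ≤ Nat.add (EN j) (Nat.mul j S) := by
    unfold zarc at hz
    have : 0 < Nat.add (EN j) (Nat.mul j S) - Nat.mul j b := hz
    omega
  have e : (zarc b j S : ℝ) = (EN j : ℝ) + j * S - j * b := by
    unfold zarc
    show (((Nat.add (EN j) (Nat.mul j S)) - (Nat.mul j b) : ℕ) : ℝ) = _
    rw [Nat.cast_sub hz']
    simp
  rw [e]
  unfold arcVal sn
  have h1 := EN_le hj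
  have e2 : ((EN j : ℝ) + j * S - j * b) / 10000000 =
      (EN j : ℝ) / 10000000 + (j * S - j * b) / 10000000 := by ring
  have e3 : 2 * ((j : ℝ) / 20) * ((S : ℝ) / 1000000 - (b : ℝ) / 1000000) =
      (j * S - j * b) / 10000000 := by ring
  rw [e2, e3]
  linarith

lemma qarc_le {b j H S : ℕ} (hj : j ≤ 20) (hq : 0 < qarc b j H S) :
    (qarc b j H S : ℝ) / 100000000000 + ((H : ℝ) / 1000000) ^ 2 ≤
      arcVal ((j : ℝ) / 20) ((b : ℝ) / 1000000) (sn S) ^ 2 ∧
    0 ≤ arcVal ((j : ℝ) / 20) ((b : ℝ) / 1000000) (sn S) := by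
  set z := zarc b j S with hz
  have hq' : qarc b j H S = Nat.sub (Nat.div (Nat.mul z z) 1000) (Nat.add (Nat.div (Nat.mul H H) 10) 1) :=
    rfl
  have hz0 : 0 < z := by
    by_contra hcon
    have h0 : z = 0 := by omega
    rw [h0] at hq'
    have e0 : Nat.div (Nat.mul 0 0) 1000 = 0 := rfl
    rw [hq', e0] at hq
    have : 0 < 0 - Nat.add (Nat.div (Nat.mul H H) 10) 1 := hq
    omega
  have hl := zarc_le hj hz0
  rw [← hz] at hl
  have hz1 : (0 : ℝ) < (z : ℝ) / 10000000 := by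
    have : (0 : ℝ) < z := by exact_mod_cast hz0
    positivity
  have hpos : 0 ≤ arcVal ((j : ℝ) / 20) ((b : ℝ) / 1000000) (sn S) := by linarith
  refine ⟨?_, hpos⟩
  have h1 : (z : ℝ) / 10000000 * ((z : ℝ) / 10000000) ≤
      arcVal ((j : ℝ) / 20) ((b : ℝ) / 1000000) (sn S) ^ 2 := by
    rw [sq]
    exact mul_le_mul hl hl hz1.le hpos
  -- the floors
  have h2 : (Nat.div (Nat.mul z z) 1000 : ℕ) * 1000 ≤ z * z := Nat.div_mul_le_self _ _
  have h3 : H * H < (Nat.div (Nat.mul H H) 10 + 1) * 10 := by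
    have := Nat.lt_div_mul_add (a := H * H) (b := 10) (by norm_num)
    show H * H < (H * H / 10 + 1) * 10
    omega
  have hle : Nat.add (Nat.div (Nat.mul H H) 10) 1 ≤ Nat.div (Nat.mul z z) 1000 := by
    rw [hq'] at hq
    have : 0 < Nat.div (Nat.mul z z) 1000 - Nat.add (Nat.div (Nat.mul H H) 10) 1 := hq
    omega
  have e : (qarc b j H S : ℝ) = ((Nat.div (Nat.mul z z) 1000 : ℕ) : ℝ) -
      (((Nat.div (Nat.mul H H) 10 : ℕ) : ℝ) + 1) := by
    rw [hq']
    show (((Nat.div (Nat.mul z z) 1000) - (Nat.add (Nat.div (Nat.mul H H) 10) 1) : ℕ) : ℝ) = _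
    rw [Nat.cast_sub hle]
    simp
  have h2' : ((Nat.div (Nat.mul z z) 1000 : ℕ) : ℝ) * 1000 ≤ (z : ℝ) * z := by exact_mod_cast h2
  have h3' : (H : ℝ) * H < (((Nat.div (Nat.mul H H) 10 : ℕ) : ℝ) + 1) * 10 := by exact_mod_cast h3
  rw [e]
  have e5 : (z : ℝ) / 10000000 * ((z : ℝ) / 10000000) = (z : ℝ) * z / 100000000000000 := by ring
  rw [e5] at h1
  have e6 : ((H : ℝ) / 1000000) ^ 2 = (H : ℝ) * H / 1000000000000 := by ring
  rw [e6]
  have : (((Nat.div (Nat.mul z z) 1000 : ℕ) : ℝ) - (((Nat.div (Nat.mul H H) 10 : ℕ) : ℝ) + 1)) /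
      100000000000 + (H : ℝ) * H / 1000000000000 ≤ (z : ℝ) * z / 100000000000000 := by
    rw [div_add_div _ _ (by norm_num) (by norm_num), div_le_div_iff₀ (by norm_num) (by norm_num)]
    nlinarith
  linarith

/-- The choice of the line of the family for a value `u` of `s - β`, scaled. -/
def jRaw (u : ℕ) : ℕ :=
  (bif Nat.ble 202420 u then (bif Nat.ble 395108 u then (bif Nat.ble 605734 u then
    (bif Nat.ble 701577 u then 20 else 19) else (bif Nat.ble 524026 u then 18 else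
    (bif Nat.ble 454424 u then 17 else 16))) else (bif Nat.ble 301044 u then
    (bif Nat.ble 344459 u then 15 else 14) else (bif Nat.ble 263604 u then 13 else
    (bif Nat.ble 231045 u then 12 else 11)))) else (bif Nat.ble 94284 u then
    (bif Nat.ble 153879 u then (bif Nat.ble 176925 u then 10 else 9) else
    (bif Nat.ble 132716 u then 8 else (bif Nat.ble 112975 u then 7 else 6))) else
    (bif Nat.ble 41881 u then (bif Nat.ble 76347 u then 5 else
    (bif Nat.ble 58937 u then 4 else 3)) else (bif Nat.ble 25048 u then 2 else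
    (bif Nat.ble 8337 u then 1 else 0)))))

/-- The line of the family used on the segment with doubled midpoint `x`. -/
def jS (b x : ℕ) : ℕ := nmin 20 (jRaw (Nat.sub (Nat.div x 2) b))

lemma jS_le (b x : ℕ) : jS b x ≤ 20 := nmin_le_left _ _

/-- The allowed value at the left end of a segment for the arc bound. -/
def arcL (b H S : ℕ) : ℕ :=
  (fun j => bif and (Nat.ble 400000000000 (qarc b j H S)) (Nat.ble 400000000000 (qarc b j H (Nat.add S H)))
    then qarc b j H S else 400000000000) (jS b (Nat.add (Nat.mul 2 S) H))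

/-- The allowed value at the right end of a segment for the arc bound. -/
def arcR (b H S : ℕ) : ℕ :=
  (fun j => bif and (Nat.ble 400000000000 (qarc b j H S)) (Nat.ble 400000000000 (qarc b j H (Nat.add S H)))
    then qarc b j H (Nat.add S H) else 400000000000) (jS b (Nat.add (Nat.mul 2 S) H))

/-- Node values for the arc bound. -/
def NSb (b H S : ℕ) : ℕ := nmin (arcL b H S) (arcR b H (Nat.sub S H))

lemma NSb_ok (b : ℕ) : NodeOK (NSb b) (Sb ((b : ℝ) / 1000000)) := by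
  intro H S hS t ht0 ht1
  set j := jS b (Nat.add (Nat.mul 2 S) H) with hj
  have hj20 : j ≤ 20 := jS_le _ _
  have hL : NSb b H S ≤ arcL b H S := nmin_le_left _ _
  have hR : NSb b H (S + H) ≤ arcR b H S := by
    have h1 : NSb b H (S + H) ≤ arcR b H (Nat.sub (S + H) H) := nmin_le_right _ _
    have e : Nat.sub (S + H) H = S := by
      show S + H - H = S
      omega
    rwa [e] at h1
  by_cases huse : 400000000000 ≤ qarc b j H S ∧ 400000000000 ≤ qarc b j H (Nat.add S H)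
  · have ec : and (Nat.ble 400000000000 (qarc b j H S)) (Nat.ble 400000000000 (qarc b j H (Nat.add S H)))
        = true := by
      rw [Bool.and_eq_true]
      exact ⟨Nat.ble_eq_true_of_le huse.1, Nat.ble_eq_true_of_le huse.2⟩
    have e1 : arcL b H S = qarc b j H S := by
      show (bif and _ _ then _ else _) = _
      rw [← hj, ec]
      rfl
    have e2 : arcR b H S = qarc b j H (Nat.add S H) := by
      show (bif and _ _ then _ else _) = _
      rw [← hj, ec]
      rfl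
    rw [e1] at hL
    rw [e2] at hR
    obtain ⟨a1, a2⟩ := qarc_le (H := H) (S := S) (b := b) hj20 (by omega)
    obtain ⟨b1, b2⟩ := qarc_le (H := H) (S := Nat.add S H) (b := b) hj20 (by omega)
    refine le_trans ?_ (arcVal_le_Sb hj20 _ _)
    have e3 : arcVal ((j : ℝ) / 20) ((b : ℝ) / 1000000) ((1 - t) * sn S + t * sn (S + H)) =
        (1 - t) * arcVal ((j : ℝ) / 20) ((b : ℝ) / 1000000) (sn S) +
          t * arcVal ((j : ℝ) / 20) ((b : ℝ) / 1000000) (sn (S + H)) := by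
      unfold arcVal
      ring
    rw [e3]
    have hLr := cast_scale hL
    have hRr := cast_scale hR
    refine (Real.sqrt_le_sqrt (interp_mono hLr hRr ht0 ht1)).trans ?_
    refine seg_line (c := ((H : ℝ) / 1000000) ^ 2) a1 b1 a2 b2 ?_ ht0 ht1
    have e4 : arcVal ((j : ℝ) / 20) ((b : ℝ) / 1000000) (sn (S + H)) -
        arcVal ((j : ℝ) / 20) ((b : ℝ) / 1000000) (sn S) = 2 * ((j : ℝ) / 20) * ((H : ℝ) / 1000000) := by
      unfold arcVal sn
      push_cast
      ring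
    rw [e4]
    have hp : ((j : ℝ) / 20) ^ 2 ≤ 1 := by
      have h5 : (j : ℝ) ≤ 20 := by exact_mod_cast hj20
      have h6 : (0 : ℝ) ≤ j := Nat.cast_nonneg j
      rw [div_pow, div_le_one (by norm_num)]
      nlinarith
    have e5 : (2 * ((j : ℝ) / 20) * ((H : ℝ) / 1000000)) ^ 2 / 4 =
        ((j : ℝ) / 20) ^ 2 * ((H : ℝ) / 1000000) ^ 2 := by ring
    rw [e5]
    have := mul_le_mul_of_nonneg_right hp (sq_nonneg ((H : ℝ) / 1000000))
    linarith
  · have ec : and (Nat.ble 400000000000 (qarc b j H S)) (Nat.ble 400000000000 (qarc b j H (Nat.add S H)))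
        = false := by
      rw [Bool.eq_false_iff]
      intro h
      rw [Bool.and_eq_true] at h
      exact huse ⟨Nat.le_of_ble_eq_true h.1, Nat.le_of_ble_eq_true h.2⟩
    have e1 : arcL b H S = 400000000000 := by
      show (bif and _ _ then _ else _) = _
      rw [← hj, ec]
      rfl
    have e2 : arcR b H S = 400000000000 := by
      show (bif and _ _ then _ else _) = _
      rw [← hj, ec]
      rfl
    rw [e1] at hL
    rw [e2] at hR
    have hLr := cast_scale hL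
    have hRr := cast_scale hR
    have h4 := interp_mono hLr hRr ht0 ht1
    have e3 : (1 - t) * (((400000000000 : ℕ) : ℝ) / 100000000000) +
        t * (((400000000000 : ℕ) : ℝ) / 100000000000) = 2 ^ 2 := by
      push_cast
      ring
    rw [e3] at h4
    refine (Real.sqrt_le_sqrt h4).trans ?_
    rw [Real.sqrt_sq (by norm_num)]
    exact Sb_ge_two _ _

/-! ### The stadium bound -/

/-- The scaled value of the stadium line at a node. -/
def zst (h S : ℕ) : ℕ :=
  Nat.add (Nat.div (Nat.mul 20000000 (Nat.sub 1000000 S)) h) (Nat.div (Nat.mul 1570795 h) 100000)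

/-- The square of the stadium line at a node with the correction for a step `H`. -/
def qst (h H S : ℕ) : ℕ :=
  (fun z => Nat.sub (Nat.div (Nat.mul z z) 1000) (Nat.add (Nat.div (Nat.mul H H) 2) 1)) (zst h S)

lemma zst_le {h S : ℕ} (hh : 0 < h) (hS : S ≤ 1000000) :
    (zst h S : ℝ) / 10000000 ≤ stadV (1 - sn S) ((h : ℝ) / 1000000) := by
  have hpi : (3.14159 : ℝ) < π := by linarith [Real.pi_gt_d6]
  have hh' : (0 : ℝ) < h := by exact_mod_cast hh
  have h1 : (Nat.div (Nat.mul 20000000 (Nat.sub 1000000 S)) h : ℕ) * h ≤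
      Nat.mul 20000000 (Nat.sub 1000000 S) := Nat.div_mul_le_self _ _
  have h2 : (Nat.div (Nat.mul 1570795 h) 100000 : ℕ) * 100000 ≤ Nat.mul 1570795 h :=
    Nat.div_mul_le_self _ _
  have h1' : ((Nat.div (Nat.mul 20000000 (Nat.sub 1000000 S)) h : ℕ) : ℝ) * h ≤
      20000000 * (1000000 - S) := by
    have h3 : (((Nat.div (Nat.mul 20000000 (Nat.sub 1000000 S)) h : ℕ) * h : ℕ) : ℝ) ≤
        ((Nat.mul 20000000 (Nat.sub 1000000 S) : ℕ) : ℝ) := by exact_mod_cast h1
    have e : ((Nat.mul 20000000 (Nat.sub 1000000 S) : ℕ) : ℝ) = 20000000 * (1000000 - S) := by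
      show ((20000000 * (1000000 - S) : ℕ) : ℝ) = _
      rw [Nat.cast_mul, Nat.cast_sub hS]
      norm_num
    rw [e] at h3
    simpa using h3
  have h2' : ((Nat.div (Nat.mul 1570795 h) 100000 : ℕ) : ℝ) * 100000 ≤ 1570795 * h := by
    have h3 : (((Nat.div (Nat.mul 1570795 h) 100000 : ℕ) * 100000 : ℕ) : ℝ) ≤
        ((Nat.mul 1570795 h : ℕ) : ℝ) := by exact_mod_cast h2
    simpa using h3
  have e : (zst h S : ℝ) = ((Nat.div (Nat.mul 20000000 (Nat.sub 1000000 S)) h : ℕ) : ℝ) +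
      ((Nat.div (Nat.mul 1570795 h) 100000 : ℕ) : ℝ) := by
    unfold zst
    simp
  rw [e]
  unfold stadV sn
  set p : ℝ := ((Nat.div (Nat.mul 20000000 (Nat.sub 1000000 S)) h : ℕ) : ℝ) with hp
  set q : ℝ := ((Nat.div (Nat.mul 1570795 h) 100000 : ℕ) : ℝ) with hq
  have e1 : 2 * (1 - (S : ℝ) / 1000000) / ((h : ℝ) / 1000000) = 2 * (1000000 - S) / h := by
    field_simp
  have h5 : p / 10000000 ≤ 2 * (1000000 - S) / h := by
    rw [le_div_iff₀ hh', div_mul_eq_mul_div, div_le_iff₀ (by norm_num)]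
    linarith
  have h6 : q / 10000000 ≤ π * ((h : ℝ) / 1000000) / 2 := by
    have : q * 10 ≤ (h : ℝ) * 157.0795 := by nlinarith
    have h7 : (h : ℝ) * 3.14159 ≤ h * π := mul_le_mul_of_nonneg_left hpi.le hh'.le
    rw [div_le_iff₀ (by norm_num)]
    have e2 : π * ((h : ℝ) / 1000000) / 2 * 10000000 = 5 * (h * π) := by ring
    rw [e2]
    nlinarith
  rw [e1, add_div]
  linarith

lemma qst_le {h H S : ℕ} (hh : 447214 ≤ h) (hS : S ≤ 1000000) (hq : 0 < qst h H S) :
    (qst h H S : ℝ) / 100000000000 + ((H : ℝ) / h) ^ 2 ≤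
      stadV (1 - sn S) ((h : ℝ) / 1000000) ^ 2 ∧ 0 ≤ stadV (1 - sn S) ((h : ℝ) / 1000000) := by
  have hh0 : 0 < h := by omega
  set z := zst h S with hz
  have hq' : qst h H S = Nat.sub (Nat.div (Nat.mul z z) 1000) (Nat.add (Nat.div (Nat.mul H H) 2) 1) :=
    rfl
  have hl := zst_le hh0 hS
  rw [← hz] at hl
  have hz1 : (0 : ℝ) ≤ (z : ℝ) / 10000000 := by positivity
  have hpos : 0 ≤ stadV (1 - sn S) ((h : ℝ) / 1000000) := by linarith
  refine ⟨?_, hpos⟩
  have h1 : (z : ℝ) / 10000000 * ((z : ℝ) / 10000000) ≤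
      stadV (1 - sn S) ((h : ℝ) / 1000000) ^ 2 := by
    rw [sq]
    exact mul_le_mul hl hl hz1 hpos
  have h2 : (Nat.div (Nat.mul z z) 1000 : ℕ) * 1000 ≤ z * z := Nat.div_mul_le_self _ _
  have h3 : H * H < (Nat.div (Nat.mul H H) 2 + 1) * 2 := by
    have := Nat.lt_div_mul_add (a := H * H) (b := 2) (by norm_num)
    show H * H < (H * H / 2 + 1) * 2
    omega
  have hle : Nat.add (Nat.div (Nat.mul H H) 2) 1 ≤ Nat.div (Nat.mul z z) 1000 := by
    rw [hq'] at hq
    have : 0 < Nat.div (Nat.mul z z) 1000 - Nat.add (Nat.div (Nat.mul H H) 2) 1 := hq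
    omega
  have e : (qst h H S : ℝ) = ((Nat.div (Nat.mul z z) 1000 : ℕ) : ℝ) -
      (((Nat.div (Nat.mul H H) 2 : ℕ) : ℝ) + 1) := by
    rw [hq']
    show (((Nat.div (Nat.mul z z) 1000) - (Nat.add (Nat.div (Nat.mul H H) 2) 1) : ℕ) : ℝ) = _
    rw [Nat.cast_sub hle]
    simp
  have h2' : ((Nat.div (Nat.mul z z) 1000 : ℕ) : ℝ) * 1000 ≤ (z : ℝ) * z := by exact_mod_cast h2
  have h3' : (H : ℝ) * H < (((Nat.div (Nat.mul H H) 2 : ℕ) : ℝ) + 1) * 2 := by exact_mod_cast h3
  rw [e]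
  have e5 : (z : ℝ) / 10000000 * ((z : ℝ) / 10000000) = (z : ℝ) * z / 100000000000000 := by ring
  rw [e5] at h1
  have hh' : (447214 : ℝ) ≤ h := by exact_mod_cast hh
  have hh2 : (200000000000 : ℝ) ≤ (h : ℝ) * h := by nlinarith
  have e6 : ((H : ℝ) / h) ^ 2 = (H : ℝ) * H / ((h : ℝ) * h) := by
    rw [div_pow]
    ring
  rw [e6]
  have h8 : (H : ℝ) * H / ((h : ℝ) * h) ≤ (H : ℝ) * H / 200000000000 := by
    apply div_le_div_of_nonneg_left (by positivity) (by norm_num) hh2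
  have : (((Nat.div (Nat.mul z z) 1000 : ℕ) : ℝ) - (((Nat.div (Nat.mul H H) 2 : ℕ) : ℝ) + 1)) /
      100000000000 + (H : ℝ) * H / 200000000000 ≤ (z : ℝ) * z / 100000000000000 := by
    rw [div_add_div _ _ (by norm_num) (by norm_num), div_le_div_iff₀ (by norm_num) (by norm_num)]
    nlinarith
  linarith

/-- The allowed value at the left end of a segment for the stadium bound. -/
def stL (h Sc H S : ℕ) : ℕ :=
  bif and (Nat.ble (Nat.add S H) Sc) (and (Nat.ble 1 (qst h H S)) (Nat.ble 1 (qst h H (Nat.add S H))))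
    then qst h H S else NfTc 0 S

/-- The allowed value at the right end of a segment for the stadium bound. -/
def stR (h Sc H S : ℕ) : ℕ :=
  bif and (Nat.ble (Nat.add S H) Sc) (and (Nat.ble 1 (qst h H S)) (Nat.ble 1 (qst h H (Nat.add S H))))
    then qst h H (Nat.add S H) else NfTc 0 (Nat.add S H)

/-- Node values for the stadium bound. -/
def NSt (h Sc H S : ℕ) : ℕ := nmin (stL h Sc H S) (stR h Sc H (Nat.sub S H))

lemma NSt_ok {h Sc : ℕ} (hh : 447214 ≤ h) {γ : ℝ} (hγ : 1 - γ = (h : ℝ) / 1000000)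
    (hSc : ∀ s ≤ sn Sc, π * (1 - γ) ^ 2 ≤ 4 * (1 - s)) : NodeOK (NSt h Sc) (fSt γ) := by
  intro H S hS t ht0 ht1
  have hL : NSt h Sc H S ≤ stL h Sc H S := nmin_le_left _ _
  have hR : NSt h Sc H (S + H) ≤ stR h Sc H S := by
    have h1 : NSt h Sc H (S + H) ≤ stR h Sc H (Nat.sub (S + H) H) := nmin_le_right _ _
    have e : Nat.sub (S + H) H = S := by
      show S + H - H = S
      omega
    rwa [e] at h1
  have hLr := cast_scale hL
  have hRr := cast_scale hR
  refine (Real.sqrt_le_sqrt (interp_mono hLr hRr ht0 ht1)).trans ?_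
  by_cases huse : S + H ≤ Sc ∧ 1 ≤ qst h H S ∧ 1 ≤ qst h H (Nat.add S H)
  · have ec : and (Nat.ble (Nat.add S H) Sc) (and (Nat.ble 1 (qst h H S))
        (Nat.ble 1 (qst h H (Nat.add S H)))) = true := by
      rw [Bool.and_eq_true, Bool.and_eq_true]
      exact ⟨Nat.ble_eq_true_of_le huse.1, Nat.ble_eq_true_of_le huse.2.1,
        Nat.ble_eq_true_of_le huse.2.2⟩
    have e1 : stL h Sc H S = qst h H S := by
      unfold stL
      rw [ec]
      rfl
    have e2 : stR h Sc H S = qst h H (Nat.add S H) := by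
      unfold stR
      rw [ec]
      rfl
    rw [e1, e2]
    have hS' : S ≤ 1000000 := by omega
    obtain ⟨a1, a2⟩ := qst_le (H := H) hh hS' (by omega : 0 < qst h H S)
    obtain ⟨b1, b2⟩ := qst_le (H := H) (S := Nat.add S H) hh hS (by omega)
    have hh0 : (0 : ℝ) < h := by
      have : 0 < h := by omega
      exact_mod_cast this
    -- the point is in the zone of the stadium
    set s := (1 - t) * sn S + t * sn (S + H) with hs
    have hsT : s ≤ sn Sc := by
      have h1 : sn S ≤ sn (S + H) := sn_mono (by omega)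
      have h2 : sn (S + H) ≤ sn Sc := sn_mono huse.1
      have : s ≤ sn (S + H) := by
        rw [hs]
        nlinarith
      linarith
    have hcond := hSc s hsT
    have hf : stadV (1 - s) (1 - γ) ≤ fSt γ s := by
      unfold fSt
      rw [if_pos hcond]
      exact le_max_right _ _
    refine le_trans ?_ hf
    rw [hγ]
    have e3 : stadV (1 - s) ((h : ℝ) / 1000000) =
        (1 - t) * stadV (1 - sn S) ((h : ℝ) / 1000000) +
          t * stadV (1 - sn (S + H)) ((h : ℝ) / 1000000) := by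
      unfold stadV
      rw [hs]
      ring
    rw [e3]
    refine seg_line (c := ((H : ℝ) / h) ^ 2) a1 b1 a2 b2 ?_ ht0 ht1
    have e4 : stadV (1 - sn (S + H)) ((h : ℝ) / 1000000) -
        stadV (1 - sn S) ((h : ℝ) / 1000000) = - (2 * ((H : ℝ) / h)) := by
      unfold stadV sn
      push_cast
      field_simp
      ring
    rw [e4]
    apply le_of_eq
    ring
  · have ec : and (Nat.ble (Nat.add S H) Sc) (and (Nat.ble 1 (qst h H S))
        (Nat.ble 1 (qst h H (Nat.add S H)))) = false := by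
      rw [Bool.eq_false_iff]
      intro hc
      rw [Bool.and_eq_true, Bool.and_eq_true] at hc
      exact huse ⟨Nat.le_of_ble_eq_true hc.1, Nat.le_of_ble_eq_true hc.2.1,
        Nat.le_of_ble_eq_true hc.2.2⟩
    have e1 : stL h Sc H S = NfTc 0 S := by
      unfold stL
      rw [ec]
      rfl
    have e2 : stR h Sc H S = NfTc 0 (Nat.add S H) := by
      unfold stR
      rw [ec]
      rfl
    rw [e1, e2]
    refine le_trans ?_ (le_max_left _ _)
    exact NfTc_ok H S hS t ht0 ht1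

/-! ### The profiles of the certificates -/

/-- Node values for `fB2`. -/
def NB2 (b H S : ℕ) : ℕ := nmin (NJu H S) (NSb b H S)

/-- Node values for `fB1`, and for `fAr`. -/
def NB1 (b H S : ℕ) : ℕ := nmin (NfTc H S) (NB2 b H S)

lemma NB2_ok (b : ℕ) : NodeOK (NB2 b) (fB2 ((b : ℝ) / 1000000)) :=
  NodeOK.nmin NJu_ok (NSb_ok b)

lemma NB1_ok (b : ℕ) : NodeOK (NB1 b) (fB1 ((b : ℝ) / 1000000)) :=
  NodeOK.nmin NfTc_ok (NB2_ok b)

lemma NAr_ok (b : ℕ) : NodeOK (NB1 b) (fAr ((b : ℝ) / 1000000)) :=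
  (NB1_ok b).mono_f fun _ => le_max_right _ _

end Fast

end Vale.Agent.Lib.P232
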