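import Vale.Agent.Lib.P232.Main
import Vale.Agent.Lib.P232.RealPart2

open MeasureTheory Filter Topology Set
open scoped Real

namespace Vale.Agent.Lib.P232

/-- The lower bound for sets of volume at most one half. -/
theorem J_bound {E : Set (ℝ × ℝ × ℝ)} (hE : MeasurableSet E) (hp : IsPeriodicSet E)
    (hV : torusVol E ≤ 53 / 200 ∨ 9 / 25 ≤ torusVol E) (hV2 : torusVol E ≤ 1 / 2) :
    ENNReal.ofReal (min (ballVal (torusVol E)) (min (tubeVal (torusVol E)) 2)) ≤ perimeter E := by
  obtain ⟨u, ux, uy, uz, S, hk⟩ := exists_seq hE hp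
  by_cases htop : perimeter E = ⊤
  · rw [htop]; exact le_top
  have hPer : ∀ k, energy3 (ux k) (uy k) (uz k) ≤ (perimeter E).toReal := fun k => by
    exact (ENNReal.ofReal_le_iff_le_toReal htop).1 (hk k)
  obtain ⟨a, b, h0, hV1, hV2', hb, hp1, hp2⟩ := S.best_direction hPer
  rw [vol3_indF hE] at hV1 hV2' hp1 hp2
  have := real_J h0 hV1 hV2' hb hV hV2 hp1 hp2
  exact (ENNReal.ofReal_le_iff_le_toReal htop).2 this

/-- The lower bound for complements of sets of volume at most one half. -/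
theorem J_bound_compl {E : Set (ℝ × ℝ × ℝ)} (hE : MeasurableSet E) (hp : IsPeriodicSet E)
    (hV : 1 - torusVol E ≤ 53 / 200 ∨ 9 / 25 ≤ 1 - torusVol E) (hV2 : 1 - torusVol E ≤ 1 / 2) :
    ENNReal.ofReal (min (ballVal (1 - torusVol E)) (min (tubeVal (1 - torusVol E)) 2)) ≤
      perimeter E := by
  obtain ⟨u, ux, uy, uz, S, hk⟩ := exists_seq hE hp
  by_cases htop : perimeter E = ⊤
  · rw [htop]; exact le_top
  have hPer : ∀ k, energy3 (fun x y z => - ux k x y z) (fun x y z => - uy k x y z)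
      (fun x y z => - uz k x y z) ≤ (perimeter E).toReal := fun k => by
    rw [Seq3.energy_compl]
    exact (ENNReal.ofReal_le_iff_le_toReal htop).1 (hk k)
  obtain ⟨a, b, h0, hV1, hV2', hb, hp1, hp2⟩ := S.compl.best_direction hPer
  rw [S.vol3_compl, vol3_indF hE] at hV1 hV2' hp1 hp2
  have := real_J h0 hV1 hV2' hb hV hV2 hp1 hp2
  exact (ENNReal.ofReal_le_iff_le_toReal htop).2 this

end Vale.Agent.Lib.P232
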