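import Vale.Agent.Lib.P232.Dir
import Vale.Agent.Lib.P232.Main2

open MeasureTheory Filter Topology Set
open scoped Real

namespace Vale.Agent.Lib.P232

/-- The lower bound for all sets of volume at most one half. -/
theorem J_all (C : GapCerts) {E : Set (ℝ × ℝ × ℝ)} (hE : MeasurableSet E) (hp : IsPeriodicSet E)
    (hV2 : torusVol E ≤ 1 / 2) :
    ENNReal.ofReal (min (ballVal (torusVol E)) (min (tubeVal (torusVol E)) 2)) ≤ perimeter E := by
  by_cases hV : torusVol E ≤ 53 / 200 ∨ 9 / 25 ≤ torusVol E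
  · exact J_bound hE hp hV hV2
  push Not at hV
  obtain ⟨u, ux, uy, uz, S, hk⟩ := exists_seq hE hp
  by_cases htop : perimeter E = ⊤
  · rw [htop]; exact le_top
  have hPer : ∀ k, energy3 (ux k) (uy k) (uz k) ≤ (perimeter E).toReal := fun k => by
    exact (ENNReal.ofReal_le_iff_le_toReal htop).1 (hk k)
  have h1 := S.gap_seq C hPer (by rw [vol3_indF hE]; exact hV.1.le)
    (by rw [vol3_indF hE]; exact hV.2.le)
  rw [vol3_indF hE] at h1
  exact (ENNReal.ofReal_le_iff_le_toReal htop).2 ((min_le_right _ _).trans h1)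

/-- The lower bound for complements of sets of volume at most one half. -/
theorem J_all_compl (C : GapCerts) {E : Set (ℝ × ℝ × ℝ)} (hE : MeasurableSet E)
    (hp : IsPeriodicSet E) (hV2 : 1 - torusVol E ≤ 1 / 2) :
    ENNReal.ofReal (min (ballVal (1 - torusVol E)) (min (tubeVal (1 - torusVol E)) 2)) ≤
      perimeter E := by
  by_cases hV : 1 - torusVol E ≤ 53 / 200 ∨ 9 / 25 ≤ 1 - torusVol E
  · exact J_bound_compl hE hp hV hV2
  push Not at hV
  obtain ⟨u, ux, uy, uz, S, hk⟩ := exists_seq hE hp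
  by_cases htop : perimeter E = ⊤
  · rw [htop]; exact le_top
  have hPer : ∀ k, energy3 (fun x y z => - ux k x y z) (fun x y z => - uy k x y z)
      (fun x y z => - uz k x y z) ≤ (perimeter E).toReal := fun k => by
    rw [Seq3.energy_compl]
    exact (ENNReal.ofReal_le_iff_le_toReal htop).1 (hk k)
  have h1 := S.compl.gap_seq C hPer (by rw [S.vol3_compl, vol3_indF hE]; exact hV.1.le)
    (by rw [S.vol3_compl, vol3_indF hE]; exact hV.2.le)
  rw [S.vol3_compl, vol3_indF hE] at h1
  exact (ENNReal.ofReal_le_iff_le_toReal htop).2 ((min_le_right _ _).trans h1)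

end Vale.Agent.Lib.P232
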