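import Vale.Agent.Lib.P232.MollifyB

open MeasureTheory Filter Topology Set Convolution
open scoped ContDiff

namespace Vale.Agent.Lib.P232

/-- Data of a mollifying kernel. -/
structure Kern (ρ : V3 → ℝ) : Prop where
  smooth : ContDiff ℝ 1 ρ
  cs : HasCompactSupport ρ
  nn : ∀ t, 0 ≤ ρ t
  one : ∫ t, ρ t = 1
  even : ∀ t, ρ (-t) = ρ t

lemma Kern.integrable {ρ : V3 → ℝ} (hρ : Kern ρ) : Integrable ρ :=
  hρ.smooth.continuous.integrable_of_hasCompactSupport hρ.cs

/-- First coordinate direction. -/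
def eX : V3 := (1, 0, 0)
/-- Second coordinate direction. -/
def eY : V3 := (0, 1, 0)
/-- Third coordinate direction. -/
def eZ : V3 := (0, 0, 1)

section fixed

variable {ρ : V3 → ℝ}

lemma continuous_dcv (hρ : Kern ρ) {h : V3 → ℝ} (hh : LocallyIntegrable h (volume : Measure V3))
    (e : V3) : Continuous (fun p => fderiv ℝ (cv ρ h) p e) :=
  ((contDiff_cv hρ.smooth hρ.cs hh).continuous_fderiv one_ne_zero).clm_apply continuous_const

lemma dcv_bound (hρ : Kern ρ) {h : V3 → ℝ} {C : ℝ} (hm : Measurable h) (hb : ∀ p, |h p| ≤ C)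
    (e p : V3) : |fderiv ℝ (cv ρ h) p e| ≤ (∫ t, |fderiv ℝ ρ t e|) * C := by
  rw [fderiv_cv hρ.smooth hρ.cs (locInt_of_bdd hm hb)]
  exact cv_bound_abs (integrable_fderiv_kernel hρ.smooth hρ.cs e) hm hb p

lemma dcv_periodic (hρ : Kern ρ) {h : V3 → ℝ} {C : ℝ} (hm : Measurable h) (hb : ∀ p, |h p| ≤ C)
    (hp : IsPer h) (e : V3) : IsPer (fun p => fderiv ℝ (cv ρ h) p e) := by
  intro x y z
  simp only [fderiv_cv hρ.smooth hρ.cs (locInt_of_bdd hm hb), per_sub1 hp, per_sub2 hp, per_sub3 hp,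
    and_self]

/-- Integration by parts on the torus for two mollified periodic functions. -/
lemma by_parts (hρ : Kern ρ) {a b : V3 → ℝ} {A B : ℝ}
    (ham : Measurable a) (hab : ∀ p, |a p| ≤ A) (hap : IsPer a)
    (hbm : Measurable b) (hbb : ∀ p, |b p| ≤ B) (hbp : IsPer b) (e : V3) :
    ∫ p in unitCell, a p * fderiv ℝ (cv ρ b) p e
      = - ∫ w in unitCell, b w * fderiv ℝ (cv ρ a) w e := by
  have hκ := integrable_fderiv_kernel hρ.smooth hρ.cs e
  have hκm : Measurable (fun t => fderiv ℝ ρ t e) :=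
    ((hρ.smooth.continuous_fderiv one_ne_zero).clm_apply continuous_const).measurable
  simp only [fderiv_cv hρ.smooth hρ.cs (locInt_of_bdd hbm hbb),
    fderiv_cv hρ.smooth hρ.cs (locInt_of_bdd ham hab)]
  rw [adjoint hκ hκm ham hab hap hbm hbb hbp, ← integral_neg]
  refine integral_congr_ae (Eventually.of_forall fun w => ?_)
  show b w * (∫ t, fderiv ℝ ρ t e * a (w + t)) = - (b w * ∫ t, fderiv ℝ ρ t e * a (w - t))
  have h1 := integral_neg_eq_self (fun t => fderiv ℝ ρ t e * a (w + t)) (volume : Measure V3)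
  have h2 : ∀ t : V3, fderiv ℝ ρ (-t) e * a (w + -t) = - (fderiv ℝ ρ t e * a (w - t)) := by
    intro t
    rw [fderiv_even_odd hρ.smooth hρ.even, ← sub_eq_add_neg]
    ring
  simp only [h2] at h1
  rw [← h1, integral_neg]
  ring

/-- Jensen type bound for a triple of mollified functions. -/
lemma cv_triple_bound (hρ : Kern ρ) {Y1 Y2 Y3 : V3 → ℝ} (h1 : Measurable Y1) (h2 : Measurable Y2)
    (h3 : Measurable Y3) (b1 : ∀ p, |Y1 p| ≤ 1) (b2 : ∀ p, |Y2 p| ≤ 1) (b3 : ∀ p, |Y3 p| ≤ 1)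
    (hs : ∀ p, Y1 p ^ 2 + Y2 p ^ 2 + Y3 p ^ 2 ≤ 1) (p : V3) :
    cv ρ Y1 p ^ 2 + cv ρ Y2 p ^ 2 + cv ρ Y3 p ^ 2 ≤ 1 := by
  set x1 := cv ρ Y1 p with hx1
  set x2 := cv ρ Y2 p with hx2
  set x3 := cv ρ Y3 p with hx3
  set S := x1 ^ 2 + x2 ^ 2 + x3 ^ 2 with hS
  have hint := hρ.integrable
  have i1 := integrable_kernel hint h1 b1 p
  have i2 := integrable_kernel hint h2 b2 p
  have i3 := integrable_kernel hint h3 b3 p
  have hfun : (fun t => ρ t * (x1 * Y1 (p - t) + x2 * Y2 (p - t) + x3 * Y3 (p - t)))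
      = (fun t => x1 * (ρ t * Y1 (p - t)) + x2 * (ρ t * Y2 (p - t)) + x3 * (ρ t * Y3 (p - t))) := by
    funext t
    ring
  have i12 : Integrable (fun t => x1 * (ρ t * Y1 (p - t)) + x2 * (ρ t * Y2 (p - t))) :=
    (i1.const_mul _).add (i2.const_mul _)
  have i123 : Integrable
      (fun t => x1 * (ρ t * Y1 (p - t)) + x2 * (ρ t * Y2 (p - t)) + x3 * (ρ t * Y3 (p - t))) :=
    i12.add (i3.const_mul _)
  have e : S = ∫ t, ρ t * (x1 * Y1 (p - t) + x2 * Y2 (p - t) + x3 * Y3 (p - t)) := by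
    rw [hfun, integral_add i12 (i3.const_mul _), integral_add (i1.const_mul _) (i2.const_mul _),
      integral_const_mul, integral_const_mul, integral_const_mul]
    show S = x1 * x1 + x2 * x2 + x3 * x3
    rw [hS]
    ring
  have hSnn : 0 ≤ S := by positivity
  have hle : S ≤ √S := by
    calc S = ∫ t, ρ t * (x1 * Y1 (p - t) + x2 * Y2 (p - t) + x3 * Y3 (p - t)) := e
      _ ≤ ∫ t, ρ t * √S := by
          apply integral_mono (hfun ▸ i123) (hint.mul_const _)
          intro t
          refine mul_le_mul_of_nonneg_left ?_ (hρ.nn t)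
          have hy := hs (p - t)
          set y1 := Y1 (p - t)
          set y2 := Y2 (p - t)
          set y3 := Y3 (p - t)
          have hcs : (x1 * y1 + x2 * y2 + x3 * y3) ^ 2 ≤ S := by
            have h0 : (x1 * y1 + x2 * y2 + x3 * y3) ^ 2 ≤ S * (y1 ^ 2 + y2 ^ 2 + y3 ^ 2) := by
              rw [hS]
              nlinarith [sq_nonneg (x1 * y2 - x2 * y1), sq_nonneg (x1 * y3 - x3 * y1),
                sq_nonneg (x2 * y3 - x3 * y2)]
            have h00 : S * (y1 ^ 2 + y2 ^ 2 + y3 ^ 2) ≤ S * 1 :=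
              mul_le_mul_of_nonneg_left hy hSnn
            linarith
          exact (le_abs_self _).trans (Real.abs_le_sqrt hcs)
      _ = √S := by rw [integral_mul_const, hρ.one, one_mul]
  by_contra hcon
  have hgt : 1 < S := not_le.mp hcon
  have : √S < S := by
    have h0 : 1 < √S := by
      rw [Real.lt_sqrt (by norm_num)]
      simpa using hgt
    nlinarith [Real.mul_self_sqrt hSnn]
  linarith

/-- The indicator of `E`. -/
noncomputable def gE (E : Set V3) : V3 → ℝ := E.indicator (fun _ => (1 : ℝ))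

lemma gE_meas {E : Set V3} (hE : MeasurableSet E) : Measurable (gE E) :=
  measurable_const.indicator hE

lemma gE_nonneg (E : Set V3) (p : V3) : 0 ≤ gE E p := by
  unfold gE
  by_cases h : p ∈ E <;> simp [h]

lemma gE_le (E : Set V3) (p : V3) : gE E p ≤ 1 := by
  unfold gE
  by_cases h : p ∈ E <;> simp [h]

lemma gE_bd (E : Set V3) (p : V3) : |gE E p| ≤ 1 := by
  rw [abs_of_nonneg (gE_nonneg E p)]
  exact gE_le E p

lemma gE_per {E : Set V3} (hp : IsPeriodicSet E) : IsPer (gE E) := by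
  intro x y z
  unfold gE
  obtain ⟨h1, h2, h3⟩ := hp x y z
  refine ⟨?_, ?_, ?_⟩
  · by_cases h : (x, y, z) ∈ E
    · rw [indicator_of_mem h, indicator_of_mem (h1.mpr h)]
    · rw [indicator_of_notMem h, indicator_of_notMem (fun c => h (h1.mp c))]
  · by_cases h : (x, y, z) ∈ E
    · rw [indicator_of_mem h, indicator_of_mem (h2.mpr h)]
    · rw [indicator_of_notMem h, indicator_of_notMem (fun c => h (h2.mp c))]
  · by_cases h : (x, y, z) ∈ E
    · rw [indicator_of_mem h, indicator_of_mem (h3.mpr h)]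
    · rw [indicator_of_notMem h, indicator_of_notMem (fun c => h (h3.mp c))]

/-- The total variation of the mollified indicator is at most the De Giorgi perimeter. -/
theorem tv_le_perimeter {E : Set V3} (hE : MeasurableSet E) (hp : IsPeriodicSet E) (hρ : Kern ρ) :
    ENNReal.ofReal (∫ p in unitCell, √(fderiv ℝ (cv ρ (gE E)) p eX ^ 2
      + fderiv ℝ (cv ρ (gE E)) p eY ^ 2 + fderiv ℝ (cv ρ (gE E)) p eZ ^ 2)) ≤ perimeter E := by
  set g := gE E with hg
  have hgm : Measurable g := gE_meas hE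
  have hgb : ∀ p, |g p| ≤ 1 := gE_bd E
  have hgp : IsPer g := gE_per hp
  have hgl : LocallyIntegrable g (volume : Measure V3) := locInt_of_bdd hgm hgb
  set D1 : V3 → ℝ := fun p => fderiv ℝ (cv ρ g) p eX with hD1
  set D2 : V3 → ℝ := fun p => fderiv ℝ (cv ρ g) p eY with hD2
  set D3 : V3 → ℝ := fun p => fderiv ℝ (cv ρ g) p eZ with hD3
  have c1 : Continuous D1 := continuous_dcv hρ hgl eX
  have c2 : Continuous D2 := continuous_dcv hρ hgl eY
  have c3 : Continuous D3 := continuous_dcv hρ hgl eZ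
  have p1 : IsPer D1 := dcv_periodic hρ hgm hgb hgp eX
  have p2 : IsPer D2 := dcv_periodic hρ hgm hgb hgp eY
  have p3 : IsPer D3 := dcv_periodic hρ hgm hgb hgp eZ
  set N : V3 → ℝ := fun p => √(D1 p ^ 2 + D2 p ^ 2 + D3 p ^ 2) with hN
  have cN : Continuous N := ((c1.pow 2).add (c2.pow 2)).add (c3.pow 2) |>.sqrt
  have hNm : Measurable N := cN.measurable
  have hNsq : ∀ p, N p ^ 2 = D1 p ^ 2 + D2 p ^ 2 + D3 p ^ 2 := fun p =>
    Real.sq_sqrt (by positivity)
  have hNnn : ∀ p, 0 ≤ N p := fun p => Real.sqrt_nonneg _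
  set Y1 : V3 → ℝ := fun p => - D1 p / N p with hY1
  set Y2 : V3 → ℝ := fun p => - D2 p / N p with hY2
  set Y3 : V3 → ℝ := fun p => - D3 p / N p with hY3
  have m1 : Measurable Y1 := c1.measurable.neg.div hNm
  have m2 : Measurable Y2 := c2.measurable.neg.div hNm
  have m3 : Measurable Y3 := c3.measurable.neg.div hNm
  have hYsq : ∀ p, Y1 p ^ 2 + Y2 p ^ 2 + Y3 p ^ 2 ≤ 1 := by
    intro p
    simp only [hY1, hY2, hY3]
    by_cases h0 : N p = 0
    · simp [h0]
    · have : (- D1 p / N p) ^ 2 + (- D2 p / N p) ^ 2 + (- D3 p / N p) ^ 2 = 1 := by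
        field_simp
        rw [hNsq]
      exact this.le
  have abs_of_sq : ∀ y a b : ℝ, y ^ 2 + a ^ 2 + b ^ 2 ≤ 1 → |y| ≤ 1 := by
    intro y a b h
    rw [abs_le]
    constructor <;> nlinarith [sq_nonneg a, sq_nonneg b]
  have b1 : ∀ p, |Y1 p| ≤ 1 := fun p => abs_of_sq _ _ _ (hYsq p)
  have b2 : ∀ p, |Y2 p| ≤ 1 := fun p => abs_of_sq (Y2 p) (Y1 p) (Y3 p) (by linarith [hYsq p])
  have b3 : ∀ p, |Y3 p| ≤ 1 := fun p => abs_of_sq (Y3 p) (Y1 p) (Y2 p) (by linarith [hYsq p])
  have hYD : ∀ p, Y1 p * D1 p + Y2 p * D2 p + Y3 p * D3 p = - N p := by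
    intro p
    simp only [hY1, hY2, hY3]
    by_cases h0 : N p = 0
    · simp [h0]
    · field_simp
      nlinarith [hNsq p]
  have perN : IsPer N := by
    intro x y z
    simp only [hN, (p1 x y z).1, (p1 x y z).2.1, (p1 x y z).2.2, (p2 x y z).1, (p2 x y z).2.1,
      (p2 x y z).2.2, (p3 x y z).1, (p3 x y z).2.1, (p3 x y z).2.2, and_self]
  have q1 : IsPer Y1 := by
    intro x y z
    simp only [hY1, (p1 x y z).1, (p1 x y z).2.1, (p1 x y z).2.2, (perN x y z).1, (perN x y z).2.1,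
      (perN x y z).2.2, and_self]
  have q2 : IsPer Y2 := by
    intro x y z
    simp only [hY2, (p2 x y z).1, (p2 x y z).2.1, (p2 x y z).2.2, (perN x y z).1, (perN x y z).2.1,
      (perN x y z).2.2, and_self]
  have q3 : IsPer Y3 := by
    intro x y z
    simp only [hY3, (p3 x y z).1, (p3 x y z).2.1, (p3 x y z).2.2, (perN x y z).1, (perN x y z).2.1,
      (perN x y z).2.2, and_self]
  have l1 := locInt_of_bdd m1 b1
  have l2 := locInt_of_bdd m2 b2
  have l3 := locInt_of_bdd m3 b3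
  -- the test field
  let X : V3 → V3 := fun p => (cv ρ Y1 p, cv ρ Y2 p, cv ρ Y3 p)
  have hX : IsTestField X := by
    refine ⟨?_, ?_, ?_⟩
    · exact (contDiff_cv hρ.smooth hρ.cs l1).prodMk
        ((contDiff_cv hρ.smooth hρ.cs l2).prodMk (contDiff_cv hρ.smooth hρ.cs l3))
    · intro x y z
      have a1 := cv_periodic ρ q1 x y z
      have a2 := cv_periodic ρ q2 x y z
      have a3 := cv_periodic ρ q3 x y z
      simp only [X, a1.1, a1.2.1, a1.2.2, a2.1, a2.2.1, a2.2.2, a3.1, a3.2.1, a3.2.2, and_self]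
    · intro p
      exact cv_triple_bound hρ m1 m2 m3 b1 b2 b3 hYsq p
  -- the divergence
  have hdiv : ∀ p, divergence X p = fderiv ℝ (cv ρ Y1) p eX + fderiv ℝ (cv ρ Y2) p eY
      + fderiv ℝ (cv ρ Y3) p eZ := by
    intro p
    have d1 := ((contDiff_cv hρ.smooth hρ.cs l1).differentiable one_ne_zero p).hasFDerivAt
    have d2 := ((contDiff_cv hρ.smooth hρ.cs l2).differentiable one_ne_zero p).hasFDerivAt
    have d3 := ((contDiff_cv hρ.smooth hρ.cs l3).differentiable one_ne_zero p).hasFDerivAt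
    have hXd := d1.prodMk (d2.prodMk d3)
    have : fderiv ℝ X p = _ := hXd.fderiv
    unfold divergence
    rw [this]
    rfl
  -- integration by parts
  have ip1 := by_parts hρ hgm hgb hgp m1 b1 q1 eX
  have ip2 := by_parts hρ hgm hgb hgp m2 b2 q2 eY
  have ip3 := by_parts hρ hgm hgb hgp m3 b3 q3 eZ
  have cX1 := continuous_dcv hρ l1 eX
  have cX2 := continuous_dcv hρ l2 eY
  have cX3 := continuous_dcv hρ l3 eZ
  have bX1 := dcv_bound hρ m1 b1 eX
  have bX2 := dcv_bound hρ m2 b2 eY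
  have bX3 := dcv_bound hρ m3 b3 eZ
  have bD1 := dcv_bound hρ hgm hgb eX
  have bD2 := dcv_bound hρ hgm hgb eY
  have bD3 := dcv_bound hρ hgm hgb eZ
  have i1 : IntegrableOn (fun p => g p * fderiv ℝ (cv ρ Y1) p eX) unitCell :=
    integrableOn_cell (hgm.mul cX1.measurable) (fun p => by
      rw [abs_mul]
      exact mul_le_mul (hgb p) (bX1 p) (abs_nonneg _) zero_le_one)
  have i2 : IntegrableOn (fun p => g p * fderiv ℝ (cv ρ Y2) p eY) unitCell :=
    integrableOn_cell (hgm.mul cX2.measurable) (fun p => by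
      rw [abs_mul]
      exact mul_le_mul (hgb p) (bX2 p) (abs_nonneg _) zero_le_one)
  have i3 : IntegrableOn (fun p => g p * fderiv ℝ (cv ρ Y3) p eZ) unitCell :=
    integrableOn_cell (hgm.mul cX3.measurable) (fun p => by
      rw [abs_mul]
      exact mul_le_mul (hgb p) (bX3 p) (abs_nonneg _) zero_le_one)
  have j1 : IntegrableOn (fun p => Y1 p * D1 p) unitCell :=
    integrableOn_cell (m1.mul c1.measurable) (fun p => by
      rw [abs_mul]
      exact mul_le_mul (b1 p) (bD1 p) (abs_nonneg _) zero_le_one)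
  have j2 : IntegrableOn (fun p => Y2 p * D2 p) unitCell :=
    integrableOn_cell (m2.mul c2.measurable) (fun p => by
      rw [abs_mul]
      exact mul_le_mul (b2 p) (bD2 p) (abs_nonneg _) zero_le_one)
  have j3 : IntegrableOn (fun p => Y3 p * D3 p) unitCell :=
    integrableOn_cell (m3.mul c3.measurable) (fun p => by
      rw [abs_mul]
      exact mul_le_mul (b3 p) (bD3 p) (abs_nonneg _) zero_le_one)
  have hmain : ∫ p in E ∩ unitCell, divergence X p = ∫ p in unitCell, N p := by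
    have e1 : ∫ p in E ∩ unitCell, divergence X p
        = ∫ p in unitCell, g p * divergence X p := by
      rw [inter_comm, ← setIntegral_indicator hE]
      refine integral_congr_ae (Eventually.of_forall fun p => ?_)
      show E.indicator (divergence X) p = g p * divergence X p
      by_cases h : p ∈ E
      · simp [hg, gE, h]
      · simp [hg, gE, h]
    rw [e1]
    have e2 : ∀ p, g p * divergence X p = g p * fderiv ℝ (cv ρ Y1) p eX
        + g p * fderiv ℝ (cv ρ Y2) p eY + g p * fderiv ℝ (cv ρ Y3) p eZ := by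
      intro p
      rw [hdiv]
      ring
    simp only [e2]
    have i12 : IntegrableOn (fun p => g p * fderiv ℝ (cv ρ Y1) p eX
        + g p * fderiv ℝ (cv ρ Y2) p eY) unitCell := i1.add i2
    rw [integral_add i12 i3, integral_add i1 i2, ip1, ip2, ip3]
    have e3 : ∀ p, N p = - (Y1 p * D1 p + Y2 p * D2 p + Y3 p * D3 p) := by
      intro p
      rw [hYD]
      ring
    simp only [e3]
    rw [integral_neg]
    have j12 : IntegrableOn (fun p => Y1 p * D1 p + Y2 p * D2 p) unitCell := j1.add j2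
    rw [integral_add j12 j3, integral_add j1 j2]
    ring
  rw [← hmain]
  exact le_iSup₂_of_le X hX le_rfl

end fixed

/-- The bump functions. -/
noncomputable def bumpK (k : ℕ) : ContDiffBump (0 : V3) where
  rIn := 1 / (2 * ((k : ℝ) + 1))
  rOut := 1 / ((k : ℝ) + 1)
  rIn_pos := by positivity
  rIn_lt_rOut := by
    have h : (0 : ℝ) < (k : ℝ) + 1 := by positivity
    rw [div_lt_div_iff₀ (by positivity) h]
    linarith

/-- The mollifying kernels. -/
noncomputable def rhoK (k : ℕ) : V3 → ℝ := (bumpK k).normed volume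

lemma kern_rhoK (k : ℕ) : Kern (rhoK k) where
  smooth := (bumpK k).contDiff_normed
  cs := (bumpK k).hasCompactSupport_normed
  nn := (bumpK k).nonneg_normed
  one := (bumpK k).integral_normed
  even := (bumpK k).normed_neg

lemma smooth3_cv {ρ : V3 → ℝ} (hρ : Kern ρ) {h : V3 → ℝ} {C : ℝ} (hm : Measurable h)
    (hb : ∀ p, |h p| ≤ C) (hp : IsPer h) :
    Smooth3 (fun x y z => cv ρ h (x, y, z)) (fun x y z => fderiv ℝ (cv ρ h) (x, y, z) eX)
      (fun x y z => fderiv ℝ (cv ρ h) (x, y, z) eY)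
      (fun x y z => fderiv ℝ (cv ρ h) (x, y, z) eZ) := by
  have hl := locInt_of_bdd hm hb
  have hc := contDiff_cv hρ.smooth hρ.cs hl
  have hd : ∀ q : V3, HasFDerivAt (cv ρ h) (fderiv ℝ (cv ρ h) q) q :=
    fun q => (hc.differentiable one_ne_zero q).hasFDerivAt
  have hper := cv_periodic ρ hp
  refine ⟨hc.continuous, continuous_dcv hρ hl eX, continuous_dcv hρ hl eY,
    continuous_dcv hρ hl eZ, ?_, ?_, ?_, ?_, ?_, ?_⟩
  · intro x y z
    have l : HasDerivAt (fun s : ℝ => ((s, y, z) : V3)) eX x :=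
      (hasDerivAt_id x).prodMk (hasDerivAt_const x (y, z))
    exact (hd (x, y, z)).comp_hasDerivAt x l
  · intro x y z
    have l : HasDerivAt (fun s : ℝ => ((x, s, z) : V3)) eY y :=
      (hasDerivAt_const y x).prodMk ((hasDerivAt_id y).prodMk (hasDerivAt_const y z))
    exact (hd (x, y, z)).comp_hasDerivAt y l
  · intro x y z
    have l : HasDerivAt (fun s : ℝ => ((x, y, s) : V3)) eZ z :=
      (hasDerivAt_const z x).prodMk ((hasDerivAt_const z y).prodMk (hasDerivAt_id z))
    exact (hd (x, y, z)).comp_hasDerivAt z l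
  · intro y z
    have := (hper 0 y z).1
    simpa using this.symm
  · intro x z
    have := (hper x 0 z).2.1
    simpa using this.symm
  · intro x y
    have := (hper x y 0).2.2
    simpa using this.symm

/-- Smooth approximation of a periodic set: mollifications of the indicator of `E` with
total variation on the unit cell at most the De Giorgi perimeter. -/
theorem exists_smooth_approx {E : Set (ℝ × ℝ × ℝ)} (hE : MeasurableSet E) (hp : IsPeriodicSet E) :
    ∃ u ux uy uz : ℕ → ℝ → ℝ → ℝ → ℝ,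
      (∀ k, Smooth3 (u k) (ux k) (uy k) (uz k)) ∧
      (∀ k x y z, 0 ≤ u k x y z ∧ u k x y z ≤ 1) ∧
      (∀ᵐ p : ℝ × ℝ × ℝ, Tendsto (fun k => u k p.1 p.2.1 p.2.2) atTop
        (𝓝 (E.indicator (fun _ => (1 : ℝ)) p))) ∧
      ∀ k, ENNReal.ofReal (∫ x in (0 : ℝ)..1, ∫ y in (0 : ℝ)..1, ∫ z in (0 : ℝ)..1,
        √(ux k x y z ^ 2 + uy k x y z ^ 2 + uz k x y z ^ 2)) ≤ perimeter E := by
  have hgm := gE_meas hE
  have hgb := gE_bd E
  have hgp := gE_per hp
  have hgl := locInt_of_bdd hgm hgb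
  refine ⟨fun k x y z => cv (rhoK k) (gE E) (x, y, z),
    fun k x y z => fderiv ℝ (cv (rhoK k) (gE E)) (x, y, z) eX,
    fun k x y z => fderiv ℝ (cv (rhoK k) (gE E)) (x, y, z) eY,
    fun k x y z => fderiv ℝ (cv (rhoK k) (gE E)) (x, y, z) eZ, ?_, ?_, ?_, ?_⟩
  · intro k
    exact smooth3_cv (kern_rhoK k) hgm hgb hgp
  · intro k x y z
    have hρ := kern_rhoK k
    have hi := integrable_kernel hρ.integrable hgm hgb (x, y, z)
    constructor
    · exact integral_nonneg fun t => mul_nonneg (hρ.nn t) (gE_nonneg E _)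
    · calc cv (rhoK k) (gE E) (x, y, z) ≤ ∫ t, rhoK k t := by
            apply integral_mono hi hρ.integrable
            intro t
            have := mul_le_mul_of_nonneg_left (gE_le E ((x, y, z) - t)) (hρ.nn t)
            simpa using this
        _ = 1 := hρ.one
  · have hφ : Tendsto (fun k => (bumpK k).rOut) atTop (𝓝 0) :=
      tendsto_one_div_add_atTop_nhds_zero_nat
    have hφ' : ∀ᶠ k in atTop, (bumpK k).rOut ≤ 2 * (bumpK k).rIn := by
      refine Eventually.of_forall fun k => ?_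
      show 1 / ((k : ℝ) + 1) ≤ 2 * (1 / (2 * ((k : ℝ) + 1)))
      have h : (0 : ℝ) < (k : ℝ) + 1 := by positivity
      apply le_of_eq
      field_simp
    have := ContDiffBump.ae_convolution_tendsto_right_of_locallyIntegrable
      (μ := (volume : Measure V3)) hφ hφ' hgl
    filter_upwards [this] with p hp'
    exact hp'
  · intro k
    have hρ := kern_rhoK k
    have key := tv_le_perimeter hE hp hρ
    have c1 := continuous_dcv hρ hgl eX
    have c2 := continuous_dcv hρ hgl eY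
    have c3 := continuous_dcv hρ hgl eZ
    have b1 := dcv_bound hρ hgm hgb eX
    have b2 := dcv_bound hρ hgm hgb eY
    have b3 := dcv_bound hρ hgm hgb eZ
    have hNm : Measurable (fun p => √(fderiv ℝ (cv (rhoK k) (gE E)) p eX ^ 2
        + fderiv ℝ (cv (rhoK k) (gE E)) p eY ^ 2 + fderiv ℝ (cv (rhoK k) (gE E)) p eZ ^ 2)) :=
      (((c1.pow 2).add (c2.pow 2)).add (c3.pow 2)).sqrt.measurable
    have hNb : ∀ p, |√(fderiv ℝ (cv (rhoK k) (gE E)) p eX ^ 2
        + fderiv ℝ (cv (rhoK k) (gE E)) p eY ^ 2 + fderiv ℝ (cv (rhoK k) (gE E)) p eZ ^ 2)|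
        ≤ (∫ t, |fderiv ℝ (rhoK k) t eX|) * 1 + (∫ t, |fderiv ℝ (rhoK k) t eY|) * 1
          + (∫ t, |fderiv ℝ (rhoK k) t eZ|) * 1 := by
      intro p
      have h1 := b1 p
      have h2 := b2 p
      have h3 := b3 p
      set a := fderiv ℝ (cv (rhoK k) (gE E)) p eX
      set b := fderiv ℝ (cv (rhoK k) (gE E)) p eY
      set c := fderiv ℝ (cv (rhoK k) (gE E)) p eZ
      rw [abs_of_nonneg (Real.sqrt_nonneg _)]
      refine le_trans ?_ (add_le_add (add_le_add h1 h2) h3)
      rw [Real.sqrt_le_iff]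
      refine ⟨by positivity, ?_⟩
      have sa := sq_abs a
      have sb := sq_abs b
      have sc := sq_abs c
      nlinarith [abs_nonneg a, abs_nonneg b, abs_nonneg c, mul_nonneg (abs_nonneg a) (abs_nonneg b),
        mul_nonneg (abs_nonneg a) (abs_nonneg c), mul_nonneg (abs_nonneg b) (abs_nonneg c)]
    rw [integral_cell hNm hNb] at key
    exact key

end Vale.Agent.Lib.P232
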