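import Vale.Agent.Lib.P232.T3

open MeasureTheory Filter Topology Set
open scoped Real

namespace Vale.Agent.Lib.P232

/-- The coordinate exchange of the first two variables as a quasi measure preserving map. -/
lemma qmp_swap12 : Measure.QuasiMeasurePreserving
    (fun p : ℝ × ℝ × ℝ => ((p.2.1, p.1, p.2.2) : ℝ × ℝ × ℝ)) volume volume := by
  have h1 : MeasurePreserving (MeasurableEquiv.prodAssoc (α := ℝ) (β := ℝ) (γ := ℝ))
      ((volume.prod volume).prod volume) (volume.prod (volume.prod volume)) :=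
    measurePreserving_prodAssoc volume volume volume
  have h2 : MeasurePreserving (Prod.map (Prod.swap : ℝ × ℝ → ℝ × ℝ) (id : ℝ → ℝ))
      ((volume.prod volume).prod volume) ((volume.prod volume).prod volume) :=
    (Measure.measurePreserving_swap (μ := (volume : Measure ℝ)) (ν := (volume : Measure ℝ))).prod
      (MeasurePreserving.id volume)
  have h3 := h1.comp (h2.comp h1.symm)
  have h4 : Measure.QuasiMeasurePreserving
      (⇑(MeasurableEquiv.prodAssoc (α := ℝ) (β := ℝ) (γ := ℝ)) ∘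
        Prod.map (Prod.swap : ℝ × ℝ → ℝ × ℝ) (id : ℝ → ℝ) ∘
        ⇑(MeasurableEquiv.prodAssoc (α := ℝ) (β := ℝ) (γ := ℝ)).symm)
      (volume.prod (volume.prod volume)) (volume.prod (volume.prod volume)) :=
    h3.quasiMeasurePreserving
  have h5 : (⇑(MeasurableEquiv.prodAssoc (α := ℝ) (β := ℝ) (γ := ℝ)) ∘
        Prod.map (Prod.swap : ℝ × ℝ → ℝ × ℝ) (id : ℝ → ℝ) ∘
        ⇑(MeasurableEquiv.prodAssoc (α := ℝ) (β := ℝ) (γ := ℝ)).symm) =
      fun p : ℝ × ℝ × ℝ => ((p.2.1, p.1, p.2.2) : ℝ × ℝ × ℝ) := by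
    funext p
    rfl
  rw [h5] at h4
  exact h4

/-- The coordinate exchange of the first and third variables as a quasi measure preserving map. -/
lemma qmp_swap13 : Measure.QuasiMeasurePreserving
    (fun p : ℝ × ℝ × ℝ => ((p.2.2, p.2.1, p.1) : ℝ × ℝ × ℝ)) volume volume := by
  have h1 : MeasurePreserving (MeasurableEquiv.prodAssoc (α := ℝ) (β := ℝ) (γ := ℝ))
      ((volume.prod volume).prod volume) (volume.prod (volume.prod volume)) :=
    measurePreserving_prodAssoc volume volume volume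
  have h2 : MeasurePreserving (Prod.map (Prod.swap : ℝ × ℝ → ℝ × ℝ) (id : ℝ → ℝ))
      ((volume.prod volume).prod volume) ((volume.prod volume).prod volume) :=
    (Measure.measurePreserving_swap (μ := (volume : Measure ℝ)) (ν := (volume : Measure ℝ))).prod
      (MeasurePreserving.id volume)
  have h0 : MeasurePreserving (Prod.swap : ℝ × ℝ × ℝ → (ℝ × ℝ) × ℝ)
      (volume.prod (volume.prod volume)) ((volume.prod volume).prod volume) :=
    Measure.measurePreserving_swap
  have h3 := h1.comp (h2.comp h0)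
  have h4 : Measure.QuasiMeasurePreserving
      (⇑(MeasurableEquiv.prodAssoc (α := ℝ) (β := ℝ) (γ := ℝ)) ∘
        Prod.map (Prod.swap : ℝ × ℝ → ℝ × ℝ) (id : ℝ → ℝ) ∘ Prod.swap)
      (volume.prod (volume.prod volume)) (volume.prod (volume.prod volume)) :=
    h3.quasiMeasurePreserving
  have h5 : (⇑(MeasurableEquiv.prodAssoc (α := ℝ) (β := ℝ) (γ := ℝ)) ∘
        Prod.map (Prod.swap : ℝ × ℝ → ℝ × ℝ) (id : ℝ → ℝ) ∘ Prod.swap) =
      fun p : ℝ × ℝ × ℝ => ((p.2.2, p.2.1, p.1) : ℝ × ℝ × ℝ) := by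
    funext p
    rfl
  rw [h5] at h4
  exact h4

/-- Iterated Fubini, exchanging the first and third variables. -/
lemma tri13 {g : ℝ → ℝ → ℝ → ℝ}
    (h1 : ∀ x, Integrable (Function.uncurry fun y z => g z y x)
      ((volume.restrict (Ioc (0 : ℝ) 1)).prod (volume.restrict (Ioc (0 : ℝ) 1))))
    (h2 : Integrable (Function.uncurry fun x z => ∫ y in (0 : ℝ)..1, g z y x)
      ((volume.restrict (Ioc (0 : ℝ) 1)).prod (volume.restrict (Ioc (0 : ℝ) 1))))
    (h3 : ∀ z, Integrable (Function.uncurry fun x y => g z y x)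
      ((volume.restrict (Ioc (0 : ℝ) 1)).prod (volume.restrict (Ioc (0 : ℝ) 1)))) :
    ∫ x in (0 : ℝ)..1, ∫ y in (0 : ℝ)..1, ∫ z in (0 : ℝ)..1, g z y x =
      ∫ x in (0 : ℝ)..1, ∫ y in (0 : ℝ)..1, ∫ z in (0 : ℝ)..1, g x y z := by
  calc ∫ x in (0 : ℝ)..1, ∫ y in (0 : ℝ)..1, ∫ z in (0 : ℝ)..1, g z y x
      = ∫ x in (0 : ℝ)..1, ∫ z in (0 : ℝ)..1, ∫ y in (0 : ℝ)..1, g z y x := by
        refine intervalIntegral.integral_congr fun x _ => ?_
        exact Seq2.square_swap (f := fun y z => g z y x) (h1 x)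
    _ = ∫ z in (0 : ℝ)..1, ∫ x in (0 : ℝ)..1, ∫ y in (0 : ℝ)..1, g z y x :=
        Seq2.square_swap (f := fun x z => ∫ y in (0 : ℝ)..1, g z y x) h2
    _ = ∫ z in (0 : ℝ)..1, ∫ y in (0 : ℝ)..1, ∫ x in (0 : ℝ)..1, g z y x := by
        refine intervalIntegral.integral_congr fun z _ => ?_
        exact Seq2.square_swap (f := fun x y => g z y x) (h3 z)

/-- Integrable uncurried continuous functions on the square. -/
lemma intble_of_cont {f : ℝ → ℝ → ℝ} (hf : Continuous fun q : ℝ × ℝ => f q.1 q.2) :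
    Integrable (Function.uncurry f)
      ((volume.restrict (Ioc (0 : ℝ) 1)).prod (volume.restrict (Ioc (0 : ℝ) 1))) := by
  rw [Measure.prod_restrict]
  have h1 : IntegrableOn (fun q : ℝ × ℝ => f q.1 q.2) (Icc (0 : ℝ) 1 ×ˢ Icc (0 : ℝ) 1)
      (volume.prod volume) :=
    hf.continuousOn.integrableOn_compact (isCompact_Icc.prod isCompact_Icc)
  exact h1.mono_set (Set.prod_mono Ioc_subset_Icc_self Ioc_subset_Icc_self)

/-- Integrable uncurried bounded measurable functions on the square. -/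
lemma intble_of_bdd {f : ℝ → ℝ → ℝ} (hf : Measurable fun q : ℝ × ℝ => f q.1 q.2) {C : ℝ}
    (hb : ∀ x y, |f x y| ≤ C) :
    Integrable (Function.uncurry f)
      ((volume.restrict (Ioc (0 : ℝ) 1)).prod (volume.restrict (Ioc (0 : ℝ) 1))) :=
  Integrable.of_bound (C := C) hf.aestronglyMeasurable (Eventually.of_forall fun q => hb q.1 q.2)

lemma PairBound.mono {J : ℝ → ℝ} {a b V L L' : ℝ} (h : PairBound J a b V L) (hL : L ≤ L') :
    PairBound J a b V L' := fun A B hp k m hl => (h A B hp k m hl).trans hL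

namespace Seq3

variable {F : ℝ → ℝ → ℝ → ℝ} {u ux uy uz : ℕ → ℝ → ℝ → ℝ → ℝ}

lemma swap12 (S : Seq3 F u ux uy uz) :
    Seq3 (fun x y z => F y x z) (fun k x y z => u k y x z) (fun k x y z => uy k y x z)
      (fun k x y z => ux k y x z) (fun k x y z => uz k y x z) where
  meas := by
    have : Measurable fun p : ℝ × ℝ × ℝ => ((p.2.1, p.1, p.2.2) : ℝ × ℝ × ℝ) := by fun_prop
    exact S.meas.comp this
  bin := fun x y z => S.bin y x z
  smooth := fun k => by
    have hc : Continuous fun p : ℝ × ℝ × ℝ => ((p.2.1, p.1, p.2.2) : ℝ × ℝ × ℝ) := by fun_prop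
    have hs := S.smooth k
    exact
      { cont := hs.cont.comp hc
        contx := hs.conty.comp hc
        conty := hs.contx.comp hc
        contz := hs.contz.comp hc
        dx := fun x y z => hs.dy y x z
        dy := fun x y z => hs.dx y x z
        dz := fun x y z => hs.dz y x z
        perx := fun y z => hs.pery y z
        pery := fun x z => hs.perx x z
        perz := fun x y => hs.perz y x }
  bdd := fun k x y z => S.bdd k y x z
  conv := by
    filter_upwards [qmp_swap12.ae S.conv] with p hp using hp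

lemma swap13 (S : Seq3 F u ux uy uz) :
    Seq3 (fun x y z => F z y x) (fun k x y z => u k z y x) (fun k x y z => uz k z y x)
      (fun k x y z => uy k z y x) (fun k x y z => ux k z y x) where
  meas := by
    have : Measurable fun p : ℝ × ℝ × ℝ => ((p.2.2, p.2.1, p.1) : ℝ × ℝ × ℝ) := by fun_prop
    exact S.meas.comp this
  bin := fun x y z => S.bin z y x
  smooth := fun k => by
    have hc : Continuous fun p : ℝ × ℝ × ℝ => ((p.2.2, p.2.1, p.1) : ℝ × ℝ × ℝ) := by fun_prop
    have hs := S.smooth k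
    exact
      { cont := hs.cont.comp hc
        contx := hs.contz.comp hc
        conty := hs.conty.comp hc
        contz := hs.contx.comp hc
        dx := fun x y z => hs.dz z y x
        dy := fun x y z => hs.dy z y x
        dz := fun x y z => hs.dx z y x
        perx := fun y z => hs.perz z y
        pery := fun x z => hs.pery z x
        perz := fun x y => hs.perx y x }
  bdd := fun k x y z => S.bdd k z y x
  conv := by
    filter_upwards [qmp_swap13.ae S.conv] with p hp using hp

lemma F_abs (S : Seq3 F u ux uy uz) (x y z : ℝ) : |F x y z| ≤ 1 := by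
  rcases S.bin x y z with h | h <;> simp [h]

lemma vol3_swap12 (S : Seq3 F u ux uy uz) : vol3 (fun x y z => F y x z) = vol3 F := by
  unfold vol3
  refine Seq2.square_swap (f := fun x y => ∫ z in (0 : ℝ)..1, F y x z) ?_
  refine intble_of_bdd (C := 1) S.swap12.meas2 ?_
  intro x y
  have := (S.swap12).G_mem
  have h0 : 0 ≤ marg (fun y z => F y x z) y := by
    exact intervalIntegral.integral_nonneg zero_le_one fun z _ => by
      rcases S.bin y x z with h | h <;> simp [h]
  have hm : Measurable fun z => F y x z := by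
    have : Measurable fun z : ℝ => ((y, x, z) : ℝ × ℝ × ℝ) := by fun_prop
    exact S.meas.comp this
  have hi : IntervalIntegrable (fun z => F y x z) volume 0 1 :=
    ii_of_bdd hm (C := 1) fun z => S.F_abs y x z
  have h1 : marg (fun y z => F y x z) y ≤ ∫ _ in (0 : ℝ)..1, (1 : ℝ) :=
    intervalIntegral.integral_mono_on zero_le_one hi (by simp) fun z _ =>
      (abs_le.1 (S.F_abs y x z)).2
  have h2 : |∫ z in (0 : ℝ)..1, F y x z| ≤ 1 := by
    change |marg (fun y z => F y x z) y| ≤ 1
    rw [abs_of_nonneg h0]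
    simpa using h1
  exact h2

lemma energy_swap12 (S : Seq3 F u ux uy uz) (k : ℕ) :
    energy3 (fun x y z => uy k y x z) (fun x y z => ux k y x z) (fun x y z => uz k y x z) =
      energy3 (ux k) (uy k) (uz k) := by
  have hs := S.smooth k
  have hc : Continuous fun p : ℝ × ℝ × ℝ => ((p.2.1, p.1, p.2.2) : ℝ × ℝ × ℝ) := by fun_prop
  have hq : Continuous fun p : ℝ × ℝ × ℝ =>
      √(uy k p.2.1 p.1 p.2.2 ^ 2 + ux k p.2.1 p.1 p.2.2 ^ 2 + uz k p.2.1 p.1 p.2.2 ^ 2) :=
    ((((hs.conty.comp hc).pow 2).add ((hs.contx.comp hc).pow 2)).add ((hs.contz.comp hc).pow 2)).sqrt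
  unfold energy3
  rw [Seq2.square_swap_cont (f := fun x y => ∫ z in (0 : ℝ)..1,
    √(uy k y x z ^ 2 + ux k y x z ^ 2 + uz k y x z ^ 2)) (cont_marg2 (f := fun x y z =>
      √(uy k y x z ^ 2 + ux k y x z ^ 2 + uz k y x z ^ 2)) hq)]
  refine intervalIntegral.integral_congr fun x _ => ?_
  refine intervalIntegral.integral_congr fun y _ => ?_
  refine intervalIntegral.integral_congr fun z _ => ?_
  simp only [add_comm (uy k x y z ^ 2)]

lemma full3_swap12 (S : Seq3 F u ux uy uz) : full3 (fun x y z => F y x z) = full3 F := by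
  unfold full3
  refine Seq2.square_swap (f := fun x y => fullInd (∫ z in (0 : ℝ)..1, F y x z)) ?_
  refine intble_of_bdd (C := 1) (fullInd_measurable.comp S.swap12.meas2) ?_
  intro x y
  rw [abs_of_nonneg (fullInd_nonneg _)]
  exact fullInd_le_one _

lemma marg_abs (S : Seq3 F u ux uy uz) (x y : ℝ) : |∫ z in (0 : ℝ)..1, F x y z| ≤ 1 := by
  have hm : Measurable fun z => F x y z := by
    have : Measurable fun z : ℝ => ((x, y, z) : ℝ × ℝ × ℝ) := by fun_prop
    exact S.meas.comp this
  have hi : IntervalIntegrable (fun z => F x y z) volume 0 1 :=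
    ii_of_bdd hm (C := 1) fun z => S.F_abs x y z
  have h0 : 0 ≤ ∫ z in (0 : ℝ)..1, F x y z :=
    intervalIntegral.integral_nonneg zero_le_one fun z _ => by
      rcases S.bin x y z with h | h <;> simp [h]
  have h1 : ∫ z in (0 : ℝ)..1, F x y z ≤ ∫ _ in (0 : ℝ)..1, (1 : ℝ) :=
    intervalIntegral.integral_mono_on zero_le_one hi (by simp) fun z _ =>
      (abs_le.1 (S.F_abs x y z)).2
  rw [abs_of_nonneg h0]
  simpa using h1

lemma vol3_swap13 (S : Seq3 F u ux uy uz) : vol3 (fun x y z => F z y x) = vol3 F := by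
  unfold vol3
  refine tri13 ?_ ?_ ?_
  · intro x
    refine intble_of_bdd (C := 1) ?_ (fun y z => S.F_abs z y x)
    have : Measurable fun q : ℝ × ℝ => ((q.2, q.1, x) : ℝ × ℝ × ℝ) := by fun_prop
    exact S.meas.comp this
  · have hm : Measurable fun q : ℝ × ℝ => ∫ y in (0 : ℝ)..1, F q.2 y q.1 :=
      S.meas2'.comp (measurable_snd.prodMk measurable_fst)
    refine intble_of_bdd (C := 1) hm ?_
    intro x z
    have := (S.swap13).marg_abs x z
    have hx : |∫ y in (0 : ℝ)..1, F z y x| ≤ 1 := by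
      have h0 : 0 ≤ ∫ y in (0 : ℝ)..1, F z y x :=
        intervalIntegral.integral_nonneg zero_le_one fun y _ => by
          rcases S.bin z y x with h | h <;> simp [h]
      have hm' : Measurable fun y => F z y x := by
        have : Measurable fun y : ℝ => ((z, y, x) : ℝ × ℝ × ℝ) := by fun_prop
        exact S.meas.comp this
      have hi : IntervalIntegrable (fun y => F z y x) volume 0 1 :=
        ii_of_bdd hm' (C := 1) fun y => S.F_abs z y x
      have h1 : ∫ y in (0 : ℝ)..1, F z y x ≤ ∫ _ in (0 : ℝ)..1, (1 : ℝ) :=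
        intervalIntegral.integral_mono_on zero_le_one hi (by simp) fun y _ =>
          (abs_le.1 (S.F_abs z y x)).2
      rw [abs_of_nonneg h0]
      simpa using h1
    exact hx
  · intro z
    refine intble_of_bdd (C := 1) ?_ (fun x y => S.F_abs z y x)
    have : Measurable fun q : ℝ × ℝ => ((z, q.2, q.1) : ℝ × ℝ × ℝ) := by fun_prop
    exact S.meas.comp this

lemma energy_swap13 (S : Seq3 F u ux uy uz) (k : ℕ) :
    energy3 (fun x y z => uz k z y x) (fun x y z => uy k z y x) (fun x y z => ux k z y x) =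
      energy3 (ux k) (uy k) (uz k) := by
  have hs := S.smooth k
  set g : ℝ → ℝ → ℝ → ℝ := fun x y z => √(ux k x y z ^ 2 + uy k x y z ^ 2 + uz k x y z ^ 2) with hg
  have hgc : Continuous fun p : ℝ × ℝ × ℝ => g p.1 p.2.1 p.2.2 :=
    (((hs.contx.pow 2).add (hs.conty.pow 2)).add (hs.contz.pow 2)).sqrt
  have e : ∫ x in (0 : ℝ)..1, ∫ y in (0 : ℝ)..1, ∫ z in (0 : ℝ)..1, g z y x =
      ∫ x in (0 : ℝ)..1, ∫ y in (0 : ℝ)..1, ∫ z in (0 : ℝ)..1, g x y z := by
    refine tri13 ?_ ?_ ?_
    · intro x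
      refine intble_of_cont ?_
      have : Continuous fun q : ℝ × ℝ => ((q.2, q.1, x) : ℝ × ℝ × ℝ) := by fun_prop
      exact hgc.comp this
    · refine intble_of_cont ?_
      have h1 : Continuous fun q : ℝ × ℝ => ∫ y in (0 : ℝ)..1, g q.2 y q.1 := by
        refine marg_continuous (f := fun (q : ℝ × ℝ) y => g q.2 y q.1) ?_
        have : Continuous fun r : (ℝ × ℝ) × ℝ => ((r.1.2, r.2, r.1.1) : ℝ × ℝ × ℝ) := by fun_prop
        exact hgc.comp this
      exact h1
    · intro z
      refine intble_of_cont ?_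
      have : Continuous fun q : ℝ × ℝ => ((z, q.2, q.1) : ℝ × ℝ × ℝ) := by fun_prop
      exact hgc.comp this
  unfold energy3
  refine Eq.trans ?_ e
  refine intervalIntegral.integral_congr fun x _ => ?_
  refine intervalIntegral.integral_congr fun y _ => ?_
  refine intervalIntegral.integral_congr fun z _ => ?_
  simp only [hg]
  congr 1
  ring

lemma ind_abs (c : ℝ) : |fullInd c| ≤ 1 := by
  rw [abs_of_nonneg (fullInd_nonneg _)]
  exact fullInd_le_one _

lemma full1_swap13 (S : Seq3 F u ux uy uz) : full1 (fun x y z => F z y x) = full3 F := by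
  unfold full1 full3
  have hm : Measurable fun q : ℝ × ℝ => fullInd (marg (F q.2) q.1) :=
    fullInd_measurable.comp (S.meas2.comp (measurable_snd.prodMk measurable_fst))
  exact Seq2.square_swap (f := fun y z => fullInd (∫ x in (0 : ℝ)..1, F z y x))
    (intble_of_bdd (C := 1) hm fun _ _ => ind_abs _)

lemma full2_swap13 (S : Seq3 F u ux uy uz) : full2 (fun x y z => F z y x) = full2 F := by
  unfold full2
  have hm : Measurable fun q : ℝ × ℝ => fullInd (∫ y in (0 : ℝ)..1, F q.2 y q.1) :=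
    fullInd_measurable.comp (S.meas2'.comp (measurable_snd.prodMk measurable_fst))
  exact Seq2.square_swap (f := fun x z => fullInd (∫ y in (0 : ℝ)..1, F z y x))
    (intble_of_bdd (C := 1) hm fun _ _ => ind_abs _)

lemma meas1' (S : Seq3 F u ux uy uz) :
    Measurable fun q : ℝ × ℝ => ∫ x in (0 : ℝ)..1, F x q.1 q.2 := by
  refine marg_measurable' (f := fun (q : ℝ × ℝ) x => F x q.1 q.2) ?_
  have : Measurable fun r : (ℝ × ℝ) × ℝ => ((r.2, r.1.1, r.1.2) : ℝ × ℝ × ℝ) := by fun_prop
  exact S.meas.comp this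

lemma full3_swap13 (S : Seq3 F u ux uy uz) : full3 (fun x y z => F z y x) = full1 F := by
  unfold full1 full3
  have hm : Measurable fun q : ℝ × ℝ => fullInd (∫ z in (0 : ℝ)..1, F z q.2 q.1) :=
    fullInd_measurable.comp (S.meas1'.comp (measurable_snd.prodMk measurable_fst))
  exact Seq2.square_swap (f := fun x y => fullInd (∫ z in (0 : ℝ)..1, F z y x))
    (intble_of_bdd (C := 1) hm fun _ _ => ind_abs _)

/-- Choosing the best direction: the loss is at most four times the lower endpoint. -/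
theorem best_direction (S : Seq3 F u ux uy uz) {Per : ℝ}
    (hPer : ∀ k, energy3 (ux k) (uy k) (uz k) ≤ Per) :
    ∃ a b, 0 ≤ a ∧ a ≤ vol3 F ∧ vol3 F ≤ b ∧ b ≤ 1 ∧
      PairBound I2 a b (vol3 F) Per ∧ PairBound Ju a b (vol3 F) (Per + 4 * a) := by
  by_cases h1 : full2 F ≤ full1 F ∧ full3 F ≤ full1 F
  · obtain ⟨a, b, h0, hV1, hV2, hb, hf, hp1, hp2⟩ := S.direction_x hPer
    refine ⟨a, b, h0, hV1, hV2, hb, hp1, hp2.mono ?_⟩
    linarith [h1.1, h1.2]
  by_cases h2 : full3 F ≤ full2 F
  · have hf2 : full1 F ≤ full2 F := by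
      by_contra hc
      push Not at hc
      exact h1 ⟨hc.le, h2.trans hc.le⟩
    obtain ⟨a, b, h0, hV1, hV2, hb, hf, hp1, hp2⟩ := S.swap12.direction_x (Per := Per)
      (fun k => by rw [S.energy_swap12 k]; exact hPer k)
    rw [S.vol3_swap12] at hV1 hV2 hp1 hp2
    have e1 : full1 (fun x y z => F y x z) = full2 F := rfl
    have e2 : full2 (fun x y z => F y x z) = full1 F := rfl
    rw [e1] at hf
    rw [e2, S.full3_swap12] at hp2
    refine ⟨a, b, h0, hV1, hV2, hb, hp1, hp2.mono ?_⟩
    linarith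
  · have h2' : full2 F ≤ full3 F := (not_le.1 h2).le
    have hf3 : full1 F ≤ full3 F := by
      by_contra hc
      push Not at hc
      exact h1 ⟨h2'.trans hc.le, hc.le⟩
    obtain ⟨a, b, h0, hV1, hV2, hb, hf, hp1, hp2⟩ := S.swap13.direction_x (Per := Per)
      (fun k => by rw [S.energy_swap13 k]; exact hPer k)
    rw [S.vol3_swap13] at hV1 hV2 hp1 hp2
    rw [S.full1_swap13] at hf
    rw [S.full2_swap13, S.full3_swap13] at hp2
    refine ⟨a, b, h0, hV1, hV2, hb, hp1, hp2.mono ?_⟩
    linarith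

end Seq3

end Vale.Agent.Lib.P232
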