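import Vale.Agent.Lib.P232.Chord
import Vale.Agent.Lib.P232.Cert

open MeasureTheory Filter Topology Set
open scoped Real

namespace Vale.Agent.Lib.P232

lemma ballVal_le_tubeVal {V : ℝ} (h0 : 0 ≤ V) (hV : V ≤ 4 * π / 81) : ballVal V ≤ tubeVal V := by
  unfold ballVal tubeVal
  have hpi := Real.pi_pos
  set c := (36 * π) ^ (1 / 3 : ℝ) with hc
  set v := V ^ (1 / 3 : ℝ) with hv
  have hc0 : 0 ≤ c := Real.rpow_nonneg (by positivity) _
  have hv0 : 0 ≤ v := Real.rpow_nonneg h0 _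
  have hc3 : c ^ 3 = 36 * π := by
    rw [hc, ← Real.rpow_natCast, ← Real.rpow_mul (by positivity)]
    norm_num
  have hv3 : v ^ 3 = V := by
    rw [hv, ← Real.rpow_natCast, ← Real.rpow_mul h0]
    norm_num
  have hv2 : V ^ (2 / 3 : ℝ) = v ^ 2 := by
    rw [hv, ← Real.rpow_natCast, ← Real.rpow_mul h0]
    norm_num
  rw [hv2]
  have key : c ^ 2 * v ≤ 4 * π := by
    have h1 : (c ^ 2 * v) ^ 3 ≤ (4 * π) ^ 3 := by
      have e : (c ^ 2 * v) ^ 3 = (c ^ 3) ^ 2 * v ^ 3 := by ring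
      rw [e, hc3, hv3]
      have : (36 * π) ^ 2 * V ≤ (36 * π) ^ 2 * (4 * π / 81) :=
        mul_le_mul_of_nonneg_left hV (by positivity)
      calc (36 * π) ^ 2 * V ≤ (36 * π) ^ 2 * (4 * π / 81) := this
        _ = (4 * π) ^ 3 := by ring
    exact le_of_pow_le_pow_left₀ (by norm_num) (by positivity) h1
  have h2 : (c * v ^ 2 / 2) ^ 2 ≤ π * V := by
    rw [← hv3]
    have e : (c * v ^ 2 / 2) ^ 2 = (c ^ 2 * v) * v ^ 3 / 4 := by ring
    rw [e]
    have := mul_le_mul_of_nonneg_right key (pow_nonneg hv0 3)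
    linarith
  have h3 : c * v ^ 2 / 2 ≤ √(π * V) := Real.le_sqrt_of_sq_le h2
  linarith

lemma ballVal_zero : ballVal 0 = 0 := by
  unfold ballVal
  rw [Real.zero_rpow (by norm_num), mul_zero]

/-- Nonnegativity of the value of a pair bound. -/
lemma PairBound.nonneg {J : ℝ → ℝ} {a b V L : ℝ} (h : PairBound J a b V L) : 0 ≤ L := by
  have hp : CalibPair (fun _ => 0) (fun _ => 0) :=
    { contA := continuous_const
      contB := continuous_const
      nonnegA := fun _ => le_refl _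
      nonnegB := fun _ => le_refl _
      le_one := fun _ => by norm_num }
  have := h _ _ hp 0 0 (fun s _ => by simp)
  simpa using this

lemma two_sqrt_le_I2 {s : ℝ} (h0 : 0 ≤ s) (h1 : s ≤ 1 / π) : 2 * √(π * s) ≤ I2 s := by
  have hpi := Real.pi_pos
  have hpi3 := Real.pi_gt_three
  have hps : π * s ≤ 1 := by
    rw [le_div_iff₀ hpi] at h1
    linarith
  have hs : s ≤ 1 - s := by
    have : s ≤ 1 / 3 := by nlinarith
    linarith
  refine le_min le_rfl (le_min ?_ ?_)
  · have : √(π * s) ≤ 1 := Real.sqrt_le_one.2 hps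
    linarith
  · have : √(π * s) ≤ √(π * (1 - s)) :=
      Real.sqrt_le_sqrt (mul_le_mul_of_nonneg_left hs hpi.le)
    linarith

lemma two_sqrt_le_Ju {s : ℝ} (h1 : s ≤ 3 / 5) : 2 * √(π * s) ≤ Ju s := by
  have hpi := Real.pi_pos
  have hpi4 := Real.pi_lt_four
  refine le_min le_rfl ?_
  have hs : π * s ≤ 2 := by
    have hpid := Real.pi_lt_d2
    nlinarith
  have : √(π * s) ≤ √2 := Real.sqrt_le_sqrt hs
  linarith

/-- The one-dimensional calibration problem gives the ball bound up to the crossing volume. -/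
theorem real_ball {a b V Per : ℝ} (h0 : 0 ≤ a) (haV : a ≤ V) (hVb : V ≤ b) (hb : b ≤ 1)
    (hV : V ≤ 4 * π / 81)
    (h1 : PairBound I2 a b V Per) (h2 : PairBound Ju a b V (Per + 4 * a)) :
    ballVal V ≤ Per := by
  have hV0 : 0 ≤ V := h0.trans haV
  have hpi := Real.pi_pos
  have hPer := h1.nonneg
  rcases (hV0.trans hVb).eq_or_lt with hb0 | hb0
  · have : V = 0 := le_antisymm (hVb.trans hb0.symm.le) hV0
    rw [this, ballVal_zero]
    exact hPer
  have hs1 : (√a) ^ 2 = a := Real.sq_sqrt h0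
  have hs2 : (√b) ^ 2 = b := Real.sq_sqrt hb0.le
  have hq : 0 < √b := Real.sqrt_pos.2 hb0
  have hp0 : 0 ≤ √a := Real.sqrt_nonneg a
  have hpq : √a ≤ √b := Real.sqrt_le_sqrt (haV.trans hVb)
  have hbt := ballVal_le_tubeVal hV0 hV
  by_cases hcase1 : b ≤ 1 / π
  · have hch := chord_bound (J := I2) (p := √a) (q := √b) (V := V) (Λ := Per) hp0 hpq hq
      (fun s hs => by
        rw [hs1, hs2] at hs
        exact two_sqrt_le_I2 (h0.trans hs.1) (hs.2.trans hcase1))
      (by rw [hs1, hs2]; exact h1)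
    have hR := R0_bound hp0 hpq hq hV0
    rw [min_eq_left hbt] at hR
    linarith
  push Not at hcase1
  by_cases hcase2 : a ≤ 1 / 400 ∧ b ≤ 3 / 5
  · have hch := chord_bound (J := Ju) (p := √a) (q := √b) (V := V) (Λ := Per + 4 * a) hp0 hpq hq
      (fun s hs => by
        rw [hs1, hs2] at hs
        exact two_sqrt_le_Ju (hs.2.trans hcase2.2))
      (by rw [hs1, hs2]; exact h2)
    have hp20 : √a ≤ 1 / 20 := by
      rw [Real.sqrt_le_left (by norm_num)]
      norm_num
      linarith [hcase2.1]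
    have hR := R1_bound hp0 hp20 hpq hq (by rw [hs2]; exact hcase2.2) hV0
    rw [min_eq_left hbt, hs1] at hR
    linarith
  · have hc : 1 / 400 ≤ a ∨ 3 / 5 ≤ b := by
      by_contra hcon
      push Not at hcon
      exact hcase2 ⟨hcon.1.le, hcon.2.le⟩
    exact cert_ball h0 haV hVb hb hV hcase1 hc h1

end Vale.Agent.Lib.P232
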