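import Vale.Agent.Lib.P232.Defs
import Vale.Agent.Lib.P232.Mollify
import Vale.Agent.Lib.P232.Perm
import Vale.Agent.Lib.P232.RealPart

open MeasureTheory Filter Topology Set
open scoped Real

namespace Vale.Agent.Lib.P232

namespace Seq3

variable {F : ℝ → ℝ → ℝ → ℝ} {u ux uy uz : ℕ → ℝ → ℝ → ℝ → ℝ}

/-- Complement of a sequence. -/
lemma compl (S : Seq3 F u ux uy uz) :
    Seq3 (fun x y z => 1 - F x y z) (fun k x y z => 1 - u k x y z) (fun k x y z => - ux k x y z)
      (fun k x y z => - uy k x y z) (fun k x y z => - uz k x y z) where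
  meas := measurable_const.sub S.meas
  bin := fun x y z => by
    rcases S.bin x y z with h | h <;> simp [h]
  smooth := fun k =>
    { cont := continuous_const.sub (S.smooth k).cont
      contx := (S.smooth k).contx.neg
      conty := (S.smooth k).conty.neg
      contz := (S.smooth k).contz.neg
      dx := fun x y z => by
        simpa using ((S.smooth k).dx x y z).const_sub 1
      dy := fun x y z => by
        simpa using ((S.smooth k).dy x y z).const_sub 1
      dz := fun x y z => by
        simpa using ((S.smooth k).dz x y z).const_sub 1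
      perx := fun y z => by simp [(S.smooth k).perx y z]
      pery := fun x z => by simp [(S.smooth k).pery x z]
      perz := fun x y => by simp [(S.smooth k).perz x y] }
  bdd := fun k x y z => ⟨by linarith [(S.bdd k x y z).2], by linarith [(S.bdd k x y z).1]⟩
  conv := by
    filter_upwards [S.conv] with q hq using tendsto_const_nhds.sub hq

lemma energy_compl (ux uy uz : ℝ → ℝ → ℝ → ℝ) :
    energy3 (fun x y z => - ux x y z) (fun x y z => - uy x y z) (fun x y z => - uz x y z) =
      energy3 ux uy uz := by
  unfold energy3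
  simp only [neg_sq]

lemma vol3_compl (S : Seq3 F u ux uy uz) : vol3 (fun x y z => 1 - F x y z) = 1 - vol3 F := by
  have hi1 : ∀ x y, IntervalIntegrable (fun z => F x y z) volume 0 1 := fun x y => by
    have hm : Measurable fun z => F x y z := by
      have : Measurable fun z : ℝ => ((x, y, z) : ℝ × ℝ × ℝ) := by fun_prop
      exact S.meas.comp this
    exact ii_of_bdd hm (C := 1) fun z => S.F_abs x y z
  have hi2 : ∀ x, IntervalIntegrable (fun y => marg (F x) y) volume 0 1 := fun x => by
    have hm : Measurable fun y => marg (F x) y :=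
      S.meas2.comp (measurable_const.prodMk measurable_id)
    exact ii_of_bdd hm (C := 1) fun y => S.marg_abs x y
  unfold vol3
  have e1 : ∀ x y, ∫ z in (0 : ℝ)..1, (1 - F x y z) = 1 - marg (F x) y := fun x y => by
    rw [intervalIntegral.integral_sub intervalIntegrable_const (hi1 x y)]
    simp [marg]
  have e2 : ∀ x, ∫ y in (0 : ℝ)..1, (1 - marg (F x) y) = 1 - area (F x) := fun x => by
    rw [intervalIntegral.integral_sub intervalIntegrable_const (hi2 x)]
    simp [area, marg]
  simp only [e1, e2]
  rw [intervalIntegral.integral_sub intervalIntegrable_const S.G_ii]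
  simp [area]

end Seq3

/-- The indicator function of a set as a function of three variables. -/
noncomputable def indF (E : Set (ℝ × ℝ × ℝ)) (x y z : ℝ) : ℝ :=
  E.indicator (fun _ => (1 : ℝ)) (x, y, z)

lemma vol3_indF {E : Set (ℝ × ℝ × ℝ)} (hE : MeasurableSet E) : vol3 (indF E) = torusVol E := by
  set μ : Measure ℝ := volume.restrict (Ioc (0 : ℝ) 1) with hμ
  have hrestrict : μ.prod (μ.prod μ) = (volume : Measure (ℝ × ℝ × ℝ)).restrict unitCell := by
    rw [hμ, Measure.prod_restrict, Measure.prod_restrict]
    rfl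
  have hmeas : Measurable fun p : ℝ × ℝ × ℝ => E.indicator (fun _ => (1 : ℝ)) p :=
    measurable_const.indicator hE
  have hint : Integrable (fun p : ℝ × ℝ × ℝ => E.indicator (fun _ => (1 : ℝ)) p)
      (μ.prod (μ.prod μ)) := by
    refine Integrable.of_bound (C := 1) hmeas.aestronglyMeasurable ?_
    refine Eventually.of_forall fun p => ?_
    by_cases h : p ∈ E <;> simp [h]
  have h1 : ∫ p, E.indicator (fun _ => (1 : ℝ)) p ∂(μ.prod (μ.prod μ)) = vol3 (indF E) := by
    rw [integral_prod _ hint]
    unfold vol3
    simp only [intervalIntegral.integral_of_le (zero_le_one : (0 : ℝ) ≤ 1)]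
    refine integral_congr_ae (Eventually.of_forall fun x => ?_)
    have hs : Integrable (fun q : ℝ × ℝ => E.indicator (fun _ => (1 : ℝ)) (x, q)) (μ.prod μ) := by
      have hm2 : Measurable fun q : ℝ × ℝ => E.indicator (fun _ => (1 : ℝ)) (x, q) :=
        hmeas.comp (measurable_const.prodMk measurable_id)
      refine Integrable.of_bound (C := 1) hm2.aestronglyMeasurable ?_
      refine Eventually.of_forall fun p => ?_
      by_cases h : (x, p) ∈ E <;> simp [h]
    exact integral_prod _ hs
  rw [← h1, hrestrict, integral_indicator hE, torusVol, setIntegral_const]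
  simp only [smul_eq_mul, mul_one, Measure.real]
  rw [Measure.restrict_apply hE]

/-- The sequence of mollifications of the indicator function of a periodic set. -/
theorem exists_seq {E : Set (ℝ × ℝ × ℝ)} (hE : MeasurableSet E) (hp : IsPeriodicSet E) :
    ∃ u ux uy uz : ℕ → ℝ → ℝ → ℝ → ℝ, Seq3 (indF E) u ux uy uz ∧
      ∀ k, ENNReal.ofReal (energy3 (ux k) (uy k) (uz k)) ≤ perimeter E := by
  obtain ⟨u, ux, uy, uz, h1, h2, h3, h4⟩ := exists_smooth_approx hE hp
  refine ⟨u, ux, uy, uz, ⟨?_, ?_, h1, h2, h3⟩, h4⟩
  · exact measurable_const.indicator hE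
  · intro x y z
    by_cases h : (x, y, z) ∈ E <;> simp [indF, h]

/-- The ball bound for sets of small volume. -/
theorem ball_bound {E : Set (ℝ × ℝ × ℝ)} (hE : MeasurableSet E) (hp : IsPeriodicSet E)
    (hV : torusVol E ≤ 4 * π / 81) :
    ENNReal.ofReal (ballVal (torusVol E)) ≤ perimeter E := by
  obtain ⟨u, ux, uy, uz, S, hk⟩ := exists_seq hE hp
  by_cases htop : perimeter E = ⊤
  · rw [htop]; exact le_top
  have hPer : ∀ k, energy3 (ux k) (uy k) (uz k) ≤ (perimeter E).toReal := fun k => by
    exact (ENNReal.ofReal_le_iff_le_toReal htop).1 (hk k)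
  obtain ⟨a, b, h0, hV1, hV2, hb, hp1, hp2⟩ := S.best_direction hPer
  rw [vol3_indF hE] at hV1 hV2 hp1 hp2
  have := real_ball h0 hV1 hV2 hb hV hp1 hp2
  exact (ENNReal.ofReal_le_iff_le_toReal htop).2 this

/-- The ball bound for complements of sets of small volume. -/
theorem ball_bound_compl {E : Set (ℝ × ℝ × ℝ)} (hE : MeasurableSet E) (hp : IsPeriodicSet E)
    (hV : 1 - torusVol E ≤ 4 * π / 81) :
    ENNReal.ofReal (ballVal (1 - torusVol E)) ≤ perimeter E := by
  obtain ⟨u, ux, uy, uz, S, hk⟩ := exists_seq hE hp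
  by_cases htop : perimeter E = ⊤
  · rw [htop]; exact le_top
  have hPer : ∀ k, energy3 (fun x y z => - ux k x y z) (fun x y z => - uy k x y z)
      (fun x y z => - uz k x y z) ≤ (perimeter E).toReal := fun k => by
    rw [Seq3.energy_compl]
    exact (ENNReal.ofReal_le_iff_le_toReal htop).1 (hk k)
  obtain ⟨a, b, h0, hV1, hV2, hb, hp1, hp2⟩ := S.compl.best_direction hPer
  rw [S.vol3_compl, vol3_indF hE] at hV1 hV2 hp1 hp2
  have := real_ball h0 hV1 hV2 hb hV hp1 hp2
  exact (ENNReal.ofReal_le_iff_le_toReal htop).2 this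

end Vale.Agent.Lib.P232
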