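import Vale.Agent.Lib.P232.Defs
import Vale.Agent.Lib.P232.Basic

open MeasureTheory Filter Topology Set Convolution
open scoped ContDiff

namespace Vale.Agent.Lib.P232

/-- The ambient space of periodic functions. -/
abbrev V3 : Type := ℝ × ℝ × ℝ

instance instHaar2 : (volume : Measure (ℝ × ℝ)).IsAddHaarMeasure :=
  inferInstanceAs ((volume : Measure ℝ).prod (volume : Measure ℝ)).IsAddHaarMeasure

instance instHaar3 : (volume : Measure V3).IsAddHaarMeasure :=
  inferInstanceAs ((volume : Measure ℝ).prod (volume : Measure (ℝ × ℝ))).IsAddHaarMeasure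

/-- Convolution of a real kernel with a real function on `V3`. -/
noncomputable def cv (ρ h : V3 → ℝ) (p : V3) : ℝ := ∫ t, ρ t * h (p - t)

lemma cv_eq_conv (ρ h : V3 → ℝ) :
    cv ρ h = ρ ⋆[ContinuousLinearMap.mul ℝ ℝ, volume] h := rfl

/-- Bounded measurable functions are locally integrable. -/
lemma locInt_of_bdd {h : V3 → ℝ} {C : ℝ} (hm : Measurable h) (hb : ∀ p, |h p| ≤ C) :
    LocallyIntegrable h (volume : Measure V3) := by
  intro x
  refine ⟨Metric.ball x 1, Metric.ball_mem_nhds x one_pos, ?_⟩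
  exact Measure.integrableOn_of_bounded (M := C) measure_ball_lt_top.ne
    hm.aestronglyMeasurable (Eventually.of_forall fun a => by simpa using hb a)

/-- Products of an integrable kernel with a bounded shifted function are integrable. -/
lemma integrable_kernel {κ h : V3 → ℝ} {C : ℝ} (hκ : Integrable κ) (hm : Measurable h)
    (hb : ∀ p, |h p| ≤ C) (p : V3) : Integrable (fun t => κ t * h (p - t)) := by
  have hC : 0 ≤ C := (abs_nonneg _).trans (hb 0)
  refine Integrable.mono' (hκ.norm.mul_const C)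
    (hκ.aestronglyMeasurable.mul
      (hm.comp (measurable_const.sub measurable_id)).aestronglyMeasurable) ?_
  refine Eventually.of_forall fun t => ?_
  rw [norm_mul]
  exact mul_le_mul_of_nonneg_left (by simpa using hb (p - t)) (norm_nonneg _)

section kernel

variable {ρ : V3 → ℝ}

lemma hasFDerivAt_cv (hρ : ContDiff ℝ 1 ρ) (hcs : HasCompactSupport ρ) {h : V3 → ℝ}
    (hh : LocallyIntegrable h (volume : Measure V3)) (p : V3) :
    ∃ A : V3 →L[ℝ] ℝ, HasFDerivAt (cv ρ h) A p ∧ ∀ e, A e = ∫ t, fderiv ℝ ρ t e * h (p - t) := by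
  have key := hcs.hasFDerivAt_convolution_left (ContinuousLinearMap.mul ℝ ℝ) hρ hh p
  refine ⟨_, key, fun e => ?_⟩
  have hex := (hcs.fderiv (𝕜 := ℝ)).convolutionExists_left
    ((ContinuousLinearMap.mul ℝ ℝ).precompL V3)
    (hρ.continuous_fderiv one_ne_zero) hh p
  unfold convolution
  rw [ContinuousLinearMap.integral_apply hex e]
  rfl

lemma contDiff_cv (hρ : ContDiff ℝ 1 ρ) (hcs : HasCompactSupport ρ) {h : V3 → ℝ}
    (hh : LocallyIntegrable h (volume : Measure V3)) : ContDiff ℝ 1 (cv ρ h) := by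
  rw [cv_eq_conv]
  exact hcs.contDiff_convolution_left (ContinuousLinearMap.mul ℝ ℝ) hρ hh

lemma fderiv_cv (hρ : ContDiff ℝ 1 ρ) (hcs : HasCompactSupport ρ) {h : V3 → ℝ}
    (hh : LocallyIntegrable h (volume : Measure V3)) (p e : V3) :
    fderiv ℝ (cv ρ h) p e = ∫ t, fderiv ℝ ρ t e * h (p - t) := by
  obtain ⟨A, hA, he⟩ := hasFDerivAt_cv hρ hcs hh p
  rw [hA.fderiv, he]

lemma integrable_fderiv_kernel (hρ : ContDiff ℝ 1 ρ) (hcs : HasCompactSupport ρ) (e : V3) :
    Integrable (fun t => fderiv ℝ ρ t e) := by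
  have h1 : Continuous (fun t => fderiv ℝ ρ t e) :=
    (hρ.continuous_fderiv one_ne_zero).clm_apply continuous_const
  have h2 : HasCompactSupport (fun t => fderiv ℝ ρ t e) := by
    apply (hcs.fderiv (𝕜 := ℝ)).comp_left (g := fun A : V3 →L[ℝ] ℝ => A e)
    simp
  exact h1.integrable_of_hasCompactSupport h2

/-- Odd symmetry of the derivative of an even kernel. -/
lemma fderiv_even_odd (hρ : ContDiff ℝ 1 ρ) (hev : ∀ t, ρ (-t) = ρ t) (t e : V3) :
    fderiv ℝ ρ (-t) e = - fderiv ℝ ρ t e := by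
  have hd : Differentiable ℝ ρ := hρ.differentiable one_ne_zero
  have h1 : HasFDerivAt ρ (fderiv ℝ ρ (-t)) (-t) := (hd (-t)).hasFDerivAt
  have h2 : HasFDerivAt (fun x : V3 => -x) (-ContinuousLinearMap.id ℝ V3) t :=
    (hasFDerivAt_id t).neg
  have h3 := h1.comp t h2
  have h4 : ρ ∘ (fun x : V3 => -x) = ρ := funext hev
  rw [h4] at h3
  rw [h3.fderiv]
  simp

lemma cv_bounds (hnn : ∀ t, 0 ≤ ρ t) (hint : Integrable ρ) (h1 : ∫ t, ρ t = 1) {h : V3 → ℝ}
    {C : ℝ} (hm : Measurable h) (hb : ∀ p, |h p| ≤ C) (p : V3) : |cv ρ h p| ≤ C := by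
  unfold cv
  have hC : 0 ≤ C := (abs_nonneg _).trans (hb 0)
  calc |∫ t, ρ t * h (p - t)| ≤ ∫ t, |ρ t * h (p - t)| := abs_integral_le_integral_abs
    _ ≤ ∫ t, ρ t * C := by
        apply integral_mono (integrable_kernel hint hm hb p).abs (hint.mul_const C)
        intro t
        simp only [abs_mul, abs_of_nonneg (hnn t)]
        exact mul_le_mul_of_nonneg_left (hb _) (hnn t)
    _ = C := by rw [integral_mul_const, h1, one_mul]

end kernel

/-! Periodic functions and the unit cell. -/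

/-- Periodicity in the three coordinates. -/
def IsPer (f : V3 → ℝ) : Prop :=
  ∀ x y z : ℝ, f (x + 1, y, z) = f (x, y, z) ∧ f (x, y + 1, z) = f (x, y, z) ∧
    f (x, y, z + 1) = f (x, y, z)

lemma periodic_shift {F : ℝ → ℝ} (hF : Function.Periodic F 1) (t : ℝ) :
    ∫ x in (0 : ℝ)..1, F (x + t) = ∫ x in (0 : ℝ)..1, F x := by
  rw [intervalIntegral.integral_comp_add_right]
  have := hF.intervalIntegral_add_eq (0 + t) 0
  simpa [add_comm] using this

lemma volume_unitCell : (volume : Measure V3) unitCell = 1 := by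
  unfold unitCell
  have e : (volume : Measure V3) = (volume : Measure ℝ).prod (volume : Measure (ℝ × ℝ)) := rfl
  have e2 : (volume : Measure (ℝ × ℝ)) = (volume : Measure ℝ).prod (volume : Measure ℝ) := rfl
  rw [e, Measure.prod_prod, e2, Measure.prod_prod]
  simp

lemma measurableSet_unitCell : MeasurableSet unitCell :=
  measurableSet_Ioc.prod (measurableSet_Ioc.prod measurableSet_Ioc)

/-- Bounded measurable functions are integrable on the unit cell. -/
lemma integrableOn_cell {f : V3 → ℝ} {C : ℝ} (hm : Measurable f) (hb : ∀ p, |f p| ≤ C) :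
    IntegrableOn f unitCell := by
  refine Measure.integrableOn_of_bounded (M := C) ?_ hm.aestronglyMeasurable
    (Eventually.of_forall fun a => by simpa using hb a)
  rw [volume_unitCell]
  simp

/-- The integral over the unit cell as an iterated interval integral. -/
lemma integral_cell {f : V3 → ℝ} {C : ℝ} (hm : Measurable f) (hb : ∀ p, |f p| ≤ C) :
    ∫ p in unitCell, f p = ∫ x in (0 : ℝ)..1, ∫ y in (0 : ℝ)..1, ∫ z in (0 : ℝ)..1, f (x, y, z) := by
  have hf := integrableOn_cell hm hb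
  have e : (volume : Measure V3) = (volume : Measure ℝ).prod (volume : Measure (ℝ × ℝ)) := rfl
  have e2 : (volume : Measure (ℝ × ℝ)) = (volume : Measure ℝ).prod (volume : Measure ℝ) := rfl
  unfold unitCell at *
  have hI : (0 : ℝ) ≤ 1 := zero_le_one
  rw [intervalIntegral.integral_of_le hI]
  rw [e] at hf ⊢
  rw [setIntegral_prod _ hf]
  refine setIntegral_congr_fun measurableSet_Ioc (fun x _ => ?_)
  have hm2 : Measurable (fun q : ℝ × ℝ => f (x, q)) := hm.comp measurable_prodMk_left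
  have hfin : ((volume : Measure ℝ).prod (volume : Measure ℝ)) (Ioc 0 1 ×ˢ Ioc 0 1) ≠ ⊤ := by
    rw [Measure.prod_prod]
    simp
  have hx : IntegrableOn (fun q : ℝ × ℝ => f (x, q)) (Ioc 0 1 ×ˢ Ioc 0 1)
      ((volume : Measure ℝ).prod (volume : Measure ℝ)) :=
    Measure.integrableOn_of_bounded (M := C) hfin hm2.aestronglyMeasurable
      (Eventually.of_forall fun a => by simpa using hb _)
  show ∫ q in Ioc 0 1 ×ˢ Ioc 0 1, f (x, q) ∂((volume : Measure ℝ).prod (volume : Measure ℝ)) = _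
  rw [setIntegral_prod _ hx, intervalIntegral.integral_of_le hI]
  refine setIntegral_congr_fun measurableSet_Ioc (fun y _ => ?_)
  show ∫ z in Ioc 0 1, f (x, y, z) = _
  rw [intervalIntegral.integral_of_le hI]

/-- Shift invariance of the iterated integral of a periodic function. -/
lemma iterated_shift {f : V3 → ℝ} (hf : IsPer f) (t : V3) :
    ∫ x in (0 : ℝ)..1, ∫ y in (0 : ℝ)..1, ∫ z in (0 : ℝ)..1, f (x + t.1, y + t.2.1, z + t.2.2)
      = ∫ x in (0 : ℝ)..1, ∫ y in (0 : ℝ)..1, ∫ z in (0 : ℝ)..1, f (x, y, z) := by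
  have s3 : ∀ a b : ℝ, ∫ z in (0 : ℝ)..1, f (a, b, z + t.2.2) = ∫ z in (0 : ℝ)..1, f (a, b, z) :=
    fun a b => periodic_shift (F := fun z => f (a, b, z)) (fun z => (hf a b z).2.2) _
  have s2 : ∀ a : ℝ, ∫ y in (0 : ℝ)..1, ∫ z in (0 : ℝ)..1, f (a, y + t.2.1, z)
      = ∫ y in (0 : ℝ)..1, ∫ z in (0 : ℝ)..1, f (a, y, z) := fun a =>
    periodic_shift (F := fun y => ∫ z in (0 : ℝ)..1, f (a, y, z))
      (fun y => by
        show ∫ z in (0 : ℝ)..1, f (a, y + 1, z) = ∫ z in (0 : ℝ)..1, f (a, y, z)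
        simp only [(hf a y _).2.1]) _
  have s1 : ∫ x in (0 : ℝ)..1, ∫ y in (0 : ℝ)..1, ∫ z in (0 : ℝ)..1, f (x + t.1, y, z)
      = ∫ x in (0 : ℝ)..1, ∫ y in (0 : ℝ)..1, ∫ z in (0 : ℝ)..1, f (x, y, z) :=
    periodic_shift (F := fun x => ∫ y in (0 : ℝ)..1, ∫ z in (0 : ℝ)..1, f (x, y, z))
      (fun x => by
        show ∫ y in (0 : ℝ)..1, ∫ z in (0 : ℝ)..1, f (x + 1, y, z)
          = ∫ y in (0 : ℝ)..1, ∫ z in (0 : ℝ)..1, f (x, y, z)
        simp only [(hf x _ _).1]) _
  simp only [s3, s2, s1]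

/-- Shift invariance of the integral over the unit cell. -/
lemma cell_shift {f : V3 → ℝ} {C : ℝ} (hm : Measurable f) (hb : ∀ p, |f p| ≤ C) (hf : IsPer f)
    (t : V3) : ∫ p in unitCell, f (p + t) = ∫ p in unitCell, f p := by
  have hm' : Measurable (fun p => f (p + t)) := hm.comp (measurable_id.add_const t)
  rw [integral_cell hm' (fun p => hb _), integral_cell hm hb, ← iterated_shift hf t]
  rfl

end Vale.Agent.Lib.P232
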