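import Vale.Agent.Lib.P232.MollifyA

open MeasureTheory Filter Topology Set Convolution
open scoped ContDiff

namespace Vale.Agent.Lib.P232

instance instFiniteCell : IsFiniteMeasure ((volume : Measure V3).restrict unitCell) :=
  ⟨by rw [Measure.restrict_apply_univ, volume_unitCell]; simp⟩

lemma per_sub1 {h : V3 → ℝ} (hp : IsPer h) (x y z : ℝ) (t : V3) :
    h ((x + 1, y, z) - t) = h ((x, y, z) - t) := by
  show h (x + 1 - t.1, y - t.2.1, z - t.2.2) = h (x - t.1, y - t.2.1, z - t.2.2)
  rw [show x + 1 - t.1 = (x - t.1) + 1 by ring]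
  exact (hp _ _ _).1

lemma per_sub2 {h : V3 → ℝ} (hp : IsPer h) (x y z : ℝ) (t : V3) :
    h ((x, y + 1, z) - t) = h ((x, y, z) - t) := by
  show h (x - t.1, y + 1 - t.2.1, z - t.2.2) = h (x - t.1, y - t.2.1, z - t.2.2)
  rw [show y + 1 - t.2.1 = (y - t.2.1) + 1 by ring]
  exact (hp _ _ _).2.1

lemma per_sub3 {h : V3 → ℝ} (hp : IsPer h) (x y z : ℝ) (t : V3) :
    h ((x, y, z + 1) - t) = h ((x, y, z) - t) := by
  show h (x - t.1, y - t.2.1, z + 1 - t.2.2) = h (x - t.1, y - t.2.1, z - t.2.2)
  rw [show z + 1 - t.2.2 = (z - t.2.2) + 1 by ring]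
  exact (hp _ _ _).2.2

/-- Adjointness of convolution on the torus. -/
lemma adjoint {κ a b : V3 → ℝ} {A B : ℝ} (hκ : Integrable κ) (hκm : Measurable κ)
    (ham : Measurable a) (hab : ∀ p, |a p| ≤ A) (hap : IsPer a)
    (hbm : Measurable b) (hbb : ∀ p, |b p| ≤ B) (hbp : IsPer b) :
    ∫ p in unitCell, a p * (∫ t, κ t * b (p - t))
      = ∫ w in unitCell, b w * (∫ t, κ t * a (w + t)) := by
  have hA : 0 ≤ A := (abs_nonneg _).trans (hab 0)
  have hB : 0 ≤ B := (abs_nonneg _).trans (hbb 0)
  have dom : Integrable (fun q : V3 × V3 => A * B * |κ q.2|)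
      (((volume : Measure V3).restrict unitCell).prod (volume : Measure V3)) :=
    (hκ.abs.comp_snd _).const_mul _
  have i1 : Integrable (Function.uncurry fun (p t : V3) => a p * (κ t * b (p - t)))
      (((volume : Measure V3).restrict unitCell).prod (volume : Measure V3)) := by
    refine Integrable.mono' dom ?_ (Eventually.of_forall fun q => ?_)
    · exact ((ham.comp measurable_fst).mul ((hκm.comp measurable_snd).mul
        (hbm.comp (measurable_fst.sub measurable_snd)))).aestronglyMeasurable
    · simp only [Function.uncurry, norm_mul, Real.norm_eq_abs]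
      have h1 := hab q.1
      have h2 := hbb (q.1 - q.2)
      have h3 := abs_nonneg (κ q.2)
      calc |a q.1| * (|κ q.2| * |b (q.1 - q.2)|) ≤ A * (|κ q.2| * B) := by gcongr
        _ = A * B * |κ q.2| := by ring
  have i2 : Integrable (Function.uncurry fun (w t : V3) => b w * (κ t * a (w + t)))
      (((volume : Measure V3).restrict unitCell).prod (volume : Measure V3)) := by
    refine Integrable.mono' dom ?_ (Eventually.of_forall fun q => ?_)
    · exact ((hbm.comp measurable_fst).mul ((hκm.comp measurable_snd).mul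
        (ham.comp (measurable_fst.add measurable_snd)))).aestronglyMeasurable
    · simp only [Function.uncurry, norm_mul, Real.norm_eq_abs]
      have h1 := hbb q.1
      have h2 := hab (q.1 + q.2)
      have h3 := abs_nonneg (κ q.2)
      calc |b q.1| * (|κ q.2| * |a (q.1 + q.2)|) ≤ B * (|κ q.2| * A) := by gcongr
        _ = A * B * |κ q.2| := by ring
  have e1 : ∀ p, a p * (∫ t, κ t * b (p - t)) = ∫ t, a p * (κ t * b (p - t)) :=
    fun p => (integral_const_mul _ _).symm
  have e2 : ∀ w, b w * (∫ t, κ t * a (w + t)) = ∫ t, b w * (κ t * a (w + t)) :=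
    fun w => (integral_const_mul _ _).symm
  simp only [e1, e2]
  rw [integral_integral_swap i1, integral_integral_swap i2]
  refine integral_congr_ae (Eventually.of_forall fun t => ?_)
  show ∫ p in unitCell, a p * (κ t * b (p - t)) = ∫ w in unitCell, b w * (κ t * a (w + t))
  -- the shift
  have hf : IsPer (fun p => a p * b (p - t)) := by
    intro x y z
    simp only [per_sub1 hbp, per_sub2 hbp, per_sub3 hbp, (hap x y z).1, (hap x y z).2.1,
      (hap x y z).2.2, and_self]
  have hfm : Measurable (fun p => a p * b (p - t)) :=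
    ham.mul (hbm.comp (measurable_id.sub_const t))
  have hfb : ∀ p, |a p * b (p - t)| ≤ A * B := by
    intro p
    rw [abs_mul]
    exact mul_le_mul (hab _) (hbb _) (abs_nonneg _) hA
  have hs := cell_shift hfm hfb hf t
  simp only [add_sub_cancel_right] at hs
  calc ∫ p in unitCell, a p * (κ t * b (p - t))
      = κ t * ∫ p in unitCell, a p * b (p - t) := by
        rw [← integral_const_mul]
        refine integral_congr_ae (Eventually.of_forall fun p => ?_)
        show a p * (κ t * b (p - t)) = κ t * (a p * b (p - t))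
        ring
    _ = κ t * ∫ w in unitCell, a (w + t) * b w := by rw [hs]
    _ = ∫ w in unitCell, b w * (κ t * a (w + t)) := by
        rw [← integral_const_mul]
        refine integral_congr_ae (Eventually.of_forall fun p => ?_)
        show κ t * (a (p + t) * b p) = b p * (κ t * a (p + t))
        ring

/-- Convolution preserves periodicity. -/
lemma cv_periodic (ρ : V3 → ℝ) {h : V3 → ℝ} (hp : IsPer h) : IsPer (cv ρ h) := by
  intro x y z
  unfold cv
  refine ⟨?_, ?_, ?_⟩
  · simp only [per_sub1 hp]
  · simp only [per_sub2 hp]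
  · simp only [per_sub3 hp]

/-- The general bound for a kernel without sign. -/
lemma cv_bound_abs {κ h : V3 → ℝ} {C : ℝ} (hκ : Integrable κ) (hm : Measurable h)
    (hb : ∀ p, |h p| ≤ C) (p : V3) : |∫ t, κ t * h (p - t)| ≤ (∫ t, |κ t|) * C := by
  have hC : 0 ≤ C := (abs_nonneg _).trans (hb 0)
  calc |∫ t, κ t * h (p - t)| ≤ ∫ t, |κ t * h (p - t)| := abs_integral_le_integral_abs
    _ ≤ ∫ t, |κ t| * C := by
        apply integral_mono (integrable_kernel hκ hm hb p).abs (hκ.abs.mul_const C)
        intro t
        simp only [abs_mul]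
        exact mul_le_mul_of_nonneg_left (hb _) (abs_nonneg _)
    _ = (∫ t, |κ t|) * C := by rw [integral_mul_const]

end Vale.Agent.Lib.P232
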