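import Vale.Agent.Lib.P232.Calc1D

open MeasureTheory Filter Topology Set
open scoped Real

namespace Vale.Agent.Lib.P232

/-- Integral over the second variable. -/
noncomputable def marg (F : ℝ → ℝ → ℝ) (x : ℝ) : ℝ := ∫ y in (0 : ℝ)..1, F x y

lemma marg_continuous {P : Type*} [TopologicalSpace P] [FirstCountableTopology P]
    {f : P → ℝ → ℝ} (hf : Continuous fun q : P × ℝ => f q.1 q.2) :
    Continuous fun p : P => ∫ y in (0 : ℝ)..1, f p y :=
  intervalIntegral.continuous_parametric_intervalIntegral_of_continuous' hf 0 1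

/-- Differentiation under the integral sign for continuous data. -/
lemma hasDerivAt_param {f f' : ℝ → ℝ → ℝ} (hf : Continuous fun q : ℝ × ℝ => f q.1 q.2)
    (hf' : Continuous fun q : ℝ × ℝ => f' q.1 q.2)
    (hd : ∀ x y, HasDerivAt (fun s => f s y) (f' x y) x) (x : ℝ) :
    HasDerivAt (fun s => ∫ y in (0 : ℝ)..1, f s y) (∫ y in (0 : ℝ)..1, f' x y) x := by
  have hcomp : IsCompact (Icc (x - 1) (x + 1) ×ˢ Icc (0 : ℝ) 1) :=
    isCompact_Icc.prod isCompact_Icc
  obtain ⟨C, hC⟩ := hcomp.exists_bound_of_continuousOn hf'.continuousOn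
  have hs : Ioo (x - 1) (x + 1) ∈ 𝓝 x := Ioo_mem_nhds (by linarith) (by linarith)
  have hsl : ∀ s : ℝ, Continuous fun y => f s y := fun s => by
    have : Continuous fun y : ℝ => ((s, y) : ℝ × ℝ) := by fun_prop
    exact hf.comp this
  have hsl' : ∀ s : ℝ, Continuous fun y => f' s y := fun s => by
    have : Continuous fun y : ℝ => ((s, y) : ℝ × ℝ) := by fun_prop
    exact hf'.comp this
  refine (intervalIntegral.hasDerivAt_integral_of_dominated_loc_of_deriv_le
    (bound := fun _ => C) hs ?_ ?_ ?_ ?_ ?_ ?_).2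
  · exact Eventually.of_forall fun s => (hsl s).aestronglyMeasurable
  · exact (hsl x).intervalIntegrable _ _
  · exact (hsl' x).aestronglyMeasurable
  · refine Eventually.of_forall fun t ht s hsm => ?_
    rw [uIoc_of_le zero_le_one] at ht
    exact hC (s, t) ⟨⟨hsm.1.le, hsm.2.le⟩, ⟨ht.1.le, ht.2⟩⟩
  · exact intervalIntegrable_const
  · exact Eventually.of_forall fun t _ s _ => hd s t

/-- Measurability of parametric integrals. -/
lemma marg_measurable' {α : Type*} [MeasurableSpace α] {f : α → ℝ → ℝ}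
    (hf : Measurable fun q : α × ℝ => f q.1 q.2) :
    Measurable fun a => ∫ y in (0 : ℝ)..1, f a y := by
  have : StronglyMeasurable fun x => ∫ y, f x y ∂(volume.restrict (Ioc (0 : ℝ) 1)) :=
    StronglyMeasurable.integral_prod_right' (f := fun q : α × ℝ => f q.1 q.2)
      hf.stronglyMeasurable
  have h2 : (fun a => ∫ y in (0 : ℝ)..1, f a y) =
      fun x => ∫ y, f x y ∂(volume.restrict (Ioc (0 : ℝ) 1)) := by
    funext x
    simp [intervalIntegral.integral_of_le (zero_le_one : (0 : ℝ) ≤ 1)]
  rw [h2]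
  exact this.measurable

/-- Pointwise Cauchy-Schwarz. -/
lemma cs_le {A B p q : ℝ} (h : A ^ 2 + B ^ 2 ≤ 1) : A * p + B * q ≤ √(p ^ 2 + q ^ 2) := by
  apply Real.le_sqrt_of_sq_le
  nlinarith [sq_nonneg (A * q - B * p), sq_nonneg p, sq_nonneg q,
    mul_nonneg (sq_nonneg p) (sub_nonneg.2 h), mul_nonneg (sq_nonneg q) (sub_nonneg.2 h)]

lemma fullInd_measurable : Measurable fullInd := by
  unfold fullInd
  exact Measurable.ite (measurableSet_singleton _) measurable_const measurable_const

lemma chi_measurable : Measurable chi := by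
  unfold chi
  refine Measurable.ite ?_ measurable_const measurable_const
  exact (measurableSet_lt measurable_const measurable_id).inter
    (measurableSet_lt measurable_id measurable_const)

lemma fullInd_nonneg (c : ℝ) : 0 ≤ fullInd c := by unfold fullInd; split_ifs <;> norm_num
lemma fullInd_le_one (c : ℝ) : fullInd c ≤ 1 := by unfold fullInd; split_ifs <;> norm_num
lemma chi_nonneg (c : ℝ) : 0 ≤ chi c := by unfold chi; split_ifs <;> norm_num
lemma chi_le_one (c : ℝ) : chi c ≤ 1 := by unfold chi; split_ifs <;> norm_num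

end Vale.Agent.Lib.P232
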