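import Vale.Agent.Lib.P232.GapDefs

open MeasureTheory Filter Topology Set
open scoped Real

namespace Vale.Agent.Lib.P232

/-- The integral of the two-valued function of the phases. -/
lemma phase_integral {α : ℝ} (h0 : 0 ≤ α) (h1 : α ≤ 1) (m₁ m₂ : ℝ) :
    ∫ x in (0 : ℝ)..1, (if |x - 1 / 2| < α / 2 then m₁ else m₂) = α * m₁ + (1 - α) * m₂ := by
  have hset : {x : ℝ | |x - 1 / 2| < α / 2} = Ioo (1 / 2 - α / 2) (1 / 2 + α / 2) := by
    ext x
    simp only [Set.mem_ofPred_eq, mem_Ioo, abs_lt]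
    constructor
    · rintro ⟨h2, h3⟩
      constructor <;> linarith
    · rintro ⟨h2, h3⟩
      constructor <;> linarith
  have e : (fun x : ℝ => if |x - 1 / 2| < α / 2 then m₁ else m₂) = fun x =>
      m₂ + (Ioo (1 / 2 - α / 2) (1 / 2 + α / 2)).indicator (fun _ => m₁ - m₂) x := by
    funext x
    by_cases h : |x - 1 / 2| < α / 2
    · have : x ∈ Ioo (1 / 2 - α / 2) (1 / 2 + α / 2) := by
        rw [← hset]
        exact h
      rw [if_pos h, indicator_of_mem this]
      ring
    · have : x ∉ Ioo (1 / 2 - α / 2) (1 / 2 + α / 2) := by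
        rw [← hset]
        exact h
      rw [if_neg h, indicator_of_notMem this]
      ring
  rw [e]
  have hii : IntervalIntegrable
      ((Ioo (1 / 2 - α / 2) (1 / 2 + α / 2)).indicator fun _ => m₁ - m₂) volume 0 1 := by
    rw [intervalIntegrable_iff, uIoc_of_le zero_le_one]
    refine Integrable.of_bound (C := |m₁ - m₂|)
      ((measurable_const.indicator measurableSet_Ioo).aestronglyMeasurable) ?_
    refine Eventually.of_forall fun x => ?_
    rw [Real.norm_eq_abs]
    by_cases h : x ∈ Ioo (1 / 2 - α / 2) (1 / 2 + α / 2)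
    · rw [indicator_of_mem h]
    · rw [indicator_of_notMem h, abs_zero]
      exact abs_nonneg _
  rw [intervalIntegral.integral_add intervalIntegrable_const hii]
  simp only [intervalIntegral.integral_const, sub_zero, one_smul, smul_eq_mul]
  rw [intervalIntegral.integral_of_le zero_le_one, integral_indicator measurableSet_Ioo,
    Measure.restrict_restrict measurableSet_Ioo]
  have hsub : Ioo (1 / 2 - α / 2) (1 / 2 + α / 2) ∩ Ioc (0 : ℝ) 1 =
      Ioo (1 / 2 - α / 2) (1 / 2 + α / 2) := by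
    apply inter_eq_left.2
    intro x hx
    exact ⟨by linarith [hx.1], by linarith [hx.2]⟩
  rw [hsub, setIntegral_const]
  have hvol : volume.real (Ioo (1 / 2 - α / 2) (1 / 2 + α / 2)) = α := by
    rw [Measure.real, Real.volume_Ioo, ENNReal.toReal_ofReal (by linarith)]
    ring
  rw [hvol, smul_eq_mul]
  ring

namespace Seq3

variable {F : ℝ → ℝ → ℝ → ℝ} {u ux uy uz : ℕ → ℝ → ℝ → ℝ → ℝ}

/-- The calibration with two phases of the outer variable. -/
theorem phase_bound (S : Seq3 F u ux uy uz) {Per : ℝ}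
    (hPer : ∀ k, energy3 (ux k) (uy k) (uz k) ≤ Per) {f₁ f₂ : ℝ → ℝ}
    (hf1 : Measurable f₁) (hf2 : Measurable f₂) {C : ℝ}
    (hb1 : ∀ s ∈ Icc (0 : ℝ) 1, 0 ≤ f₁ s ∧ f₁ s ≤ C) (hb2 : ∀ s ∈ Icc (0 : ℝ) 1, 0 ≤ f₂ s ∧ f₂ s ≤ C)
    {α : ℝ} (h0 : 0 ≤ α) (h1 : α ≤ 1)
    (hslice : ∀ᵐ x, x ∈ Ioo (0 : ℝ) 1 → ∀ c, (∃ᶠ k in atTop, transCost (uy k) (uz k) x ≤ c) →
      (|x - 1 / 2| < α / 2 → f₁ (area (F x)) ≤ c) ∧
        (¬ |x - 1 / 2| < α / 2 → f₂ (area (F x)) ≤ c))
    {a b : ℝ} (hr : GoodRange (fun k x => area (u k x)) (fun x => area (F x)) a b) :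
    PhaseBound f₁ f₂ α a b (vol3 F) Per := by
  intro A B hp k m₁ m₂ hl1 hl2
  have hmset : MeasurableSet {x : ℝ | |x - 1 / 2| < α / 2} :=
    measurableSet_lt (by fun_prop) measurable_const
  have hC0 : 0 ≤ C := (hb1 0 ⟨le_rfl, zero_le_one⟩).1.trans (hb1 0 ⟨le_rfl, zero_le_one⟩).2
  set Y : ℝ → ℝ := fun x => if x ∈ Ioo (0 : ℝ) 1 then
    (if |x - 1 / 2| < α / 2 then f₁ (area (F x)) else f₂ (area (F x))) else 0 with hY
  have hYm : Measurable Y := Measurable.ite measurableSet_Ioo
    (Measurable.ite hmset (hf1.comp S.G_meas) (hf2.comp S.G_meas)) measurable_const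
  have hY0 : ∀ t, 0 ≤ Y t := fun t => by
    simp only [hY]
    split_ifs
    · exact (hb1 _ (S.G_mem t)).1
    · exact (hb2 _ (S.G_mem t)).1
    · exact le_rfl
  have hYC : ∀ t, Y t ≤ C := fun t => by
    simp only [hY]
    split_ifs
    · exact (hb1 _ (S.G_mem t)).2
    · exact (hb2 _ (S.G_mem t)).2
    · exact hC0
  have hmain := outer_range hp (g := fun k x => area (u k x)) (g' := fun k x => area (ux k x))
    (W := fun k => transCost (uy k) (uz k)) (Y := Y)
    (fun k t => area_hasDerivAt (S.smooth k) t) (fun k => cont_area (S.smooth k).contx)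
    (fun k => area_per (S.smooth k)) S.transCost_cont (fun k t => transCost_nonneg _ _ _)
    (fun k => (S.energy_ge hp k).trans (hPer k)) S.G_meas hYm hY0 hYC S.ae_area_conv ?_ hr
  · -- the affine lower bound
    set M : ℝ → ℝ := fun x => if |x - 1 / 2| < α / 2 then m₁ else m₂ with hM
    have hMm : Measurable M := Measurable.ite hmset measurable_const measurable_const
    have hMii : IntervalIntegrable M volume 0 1 := by
      refine ii_of_bdd hMm (C := |m₁| + |m₂|) fun x => ?_
      simp only [hM]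
      split_ifs
      · linarith [abs_nonneg m₂]
      · linarith [abs_nonneg m₁]
    have hi : IntervalIntegrable (fun x => k * area (F x) + M x) volume 0 1 :=
      (S.G_ii.const_mul k).add hMii
    have hmAY : Measurable fun x => A (area (F x)) * Y x :=
      (hp.contA.measurable.comp S.G_meas).mul hYm
    have hbAY : ∀ x, |A (area (F x)) * Y x| ≤ C := fun x => by
      have hA0 := hp.nonnegA (area (F x))
      have hA1 := calib_A_le_one hp (area (F x))
      rw [abs_of_nonneg (mul_nonneg hA0 (hY0 x))]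
      calc A (area (F x)) * Y x ≤ 1 * Y x := mul_le_mul_of_nonneg_right hA1 (hY0 x)
        _ = Y x := one_mul _
        _ ≤ C := hYC x
    have h2 : ∫ x in (0 : ℝ)..1, (k * area (F x) + M x) ≤
        ∫ x in (0 : ℝ)..1, A (area (F x)) * Y x := by
      refine integral_mono_unit hi (ii_of_bdd hmAY hbAY) ?_
      have hnull : ∀ᵐ t ∂(volume.restrict (Ioc (0 : ℝ) 1)), t ≠ 1 := by
        apply ae_restrict_of_ae
        simp [ae_iff]
      filter_upwards [hr.ae_mem, ae_restrict_mem measurableSet_Ioc, hnull] with x hx hx1 hx2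
      have hx3 : x ∈ Ioo (0 : ℝ) 1 := ⟨hx1.1, lt_of_le_of_ne hx1.2 hx2⟩
      simp only [hM, hY, if_pos hx3]
      split_ifs
      · exact hl1 _ hx
      · exact hl2 _ hx
    have h3 : ∫ x in (0 : ℝ)..1, (k * area (F x) + M x) =
        k * vol3 F + (α * m₁ + (1 - α) * m₂) := by
      rw [intervalIntegral.integral_add (S.G_ii.const_mul k) hMii,
        intervalIntegral.integral_const_mul, phase_integral h0 h1]
      simp [vol3, area]
    linarith
  · filter_upwards [hslice] with x hx c hc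
    simp only [hY]
    split_ifs with h6 h5
    · exact (hx h6 c hc).1 h5
    · exact (hx h6 c hc).2 h5
    · obtain ⟨k, hk⟩ := hc.exists
      exact (transCost_nonneg _ _ _).trans hk

end Seq3

end Vale.Agent.Lib.P232
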