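import Vale.Agent.Lib.P232.Calc1D
import Vale.Agent.Lib.P232.Param

/-!
One-dimensional data for the rigidity statements: profiles of slices along a coordinate,
with sequences whose energy approaches a limit value.
-/

open MeasureTheory Filter Topology Set
open scoped Real

namespace Vale.Agent.Lib.P232

/-- The one-dimensional data of a sequence. -/
structure Data1 (g g' W e : ℕ → ℝ → ℝ) (G Y : ℝ → ℝ) (Λ : ℕ → ℝ) (L : ℝ) : Prop where
  hg : ∀ k t, HasDerivAt (g k) (g' k t) t
  cg' : ∀ k, Continuous (g' k)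
  cW : ∀ k, Continuous (W k)
  W0 : ∀ k t, 0 ≤ W k t
  ce : ∀ k, Continuous (e k)
  pg : ∀ k t, g k (t + 1) = g k t
  pe : ∀ k t, e k (t + 1) = e k t
  pt : ∀ k t (a c : ℝ), 0 ≤ a → 0 ≤ c → a ^ 2 + c ^ 2 ≤ 1 → a * W k t + c * |g' k t| ≤ e k t
  E : ∀ k, ∫ t in (0 : ℝ)..1, e k t ≤ Λ k
  hΛ : Tendsto Λ atTop (𝓝 L)
  mG : Measurable G
  pG : ∀ t, G (t + 1) = G t
  G01 : ∀ t, 0 ≤ G t ∧ G t ≤ 1
  conv : ∀ᵐ t, Tendsto (fun k => g k t) atTop (𝓝 (G t))
  mY : Measurable Y
  Y0 : ∀ t, 0 ≤ Y t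
  Yb : ∃ C, ∀ t, Y t ≤ C
  pY : ∀ t, Y (t + 1) = Y t
  YW : ∀ᵐ t, ∀ c, (∃ᶠ k in atTop, W k t ≤ c) → Y t ≤ c

lemma calib_A_le_one' {A B : ℝ → ℝ} (hp : CalibPair A B) (s : ℝ) : A s ≤ 1 := by
  have := hp.le_one s
  nlinarith [sq_nonneg (B s), hp.nonnegA s]

lemma calib_B_le_one' {A B : ℝ → ℝ} (hp : CalibPair A B) (s : ℝ) : B s ≤ 1 := by
  have := hp.le_one s
  nlinarith [sq_nonneg (A s), hp.nonnegB s]

lemma ii_bdd {f : ℝ → ℝ} (hm : Measurable f) {C : ℝ} (hC : ∀ t, |f t| ≤ C) (x y : ℝ) :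
    IntervalIntegrable f volume x y := by
  refine (intervalIntegrable_const (c := C)).mono_fun hm.aestronglyMeasurable ?_
  refine Eventually.of_forall fun t => ?_
  simp only [Real.norm_eq_abs]
  exact (hC t).trans (le_abs_self C)

namespace Data1

variable {g g' W e : ℕ → ℝ → ℝ} {G Y : ℝ → ℝ} {Λ : ℕ → ℝ} {L : ℝ}

lemma cg (D : Data1 g g' W e G Y Λ L) (k : ℕ) : Continuous (g k) :=
  continuous_iff_continuousAt.2 fun t => (D.hg k t).continuousAt

/-- The product of a continuous function of the profile with the bound `Y` is bounded. -/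
lemma bdd_comp (D : Data1 g g' W e G Y Λ L) {f : ℝ → ℝ} (hf : Continuous f) :
    ∃ C, ∀ t, |f (G t) * Y t| ≤ C := by
  obtain ⟨C, hC⟩ := D.Yb
  obtain ⟨M, hM⟩ := isCompact_Icc.exists_bound_of_continuousOn (s := Icc (0 : ℝ) 1) hf.continuousOn
  refine ⟨max M 0 * max C 0, fun t => ?_⟩
  rw [abs_mul]
  have h1 : |f (G t)| ≤ max M 0 := by
    have := hM (G t) ⟨(D.G01 t).1, (D.G01 t).2⟩
    rw [Real.norm_eq_abs] at this
    exact this.trans (le_max_left _ _)
  have h2 : |Y t| ≤ max C 0 := by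
    rw [abs_of_nonneg (D.Y0 t)]
    exact (hC t).trans (le_max_left _ _)
  exact mul_le_mul h1 h2 (abs_nonneg _) ((abs_nonneg _).trans h1)

lemma meas_comp (D : Data1 g g' W e G Y Λ L) {f : ℝ → ℝ} (hf : Continuous f) :
    Measurable fun t => f (G t) * Y t := (hf.measurable.comp D.mG).mul D.mY

lemma ii_comp (D : Data1 g g' W e G Y Λ L) {f : ℝ → ℝ} (hf : Continuous f) (x y : ℝ) :
    IntervalIntegrable (fun t => f (G t) * Y t) volume x y := by
  obtain ⟨C, hC⟩ := D.bdd_comp hf
  exact ii_bdd (D.meas_comp hf) hC x y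

lemma ii_compG (D : Data1 g g' W e G Y Λ L) {f : ℝ → ℝ} (hf : Continuous f) (x y : ℝ) :
    IntervalIntegrable (fun t => f (G t)) volume x y := by
  obtain ⟨M, hM⟩ := isCompact_Icc.exists_bound_of_continuousOn (s := Icc (0 : ℝ) 1) hf.continuousOn
  exact ii_bdd (hf.measurable.comp D.mG) (C := M)
    (fun t => by simpa using hM (G t) ⟨(D.G01 t).1, (D.G01 t).2⟩) x y

/-- The calibrated inequality on one arc along a frequent bound. -/
theorem arc_freq (D : Data1 g g' W e G Y Λ L) {A B : ℝ → ℝ} (hp : CalibPair A B) {x y : ℝ}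
    (hxy : x ≤ y) (hx : Tendsto (fun k => g k x) atTop (𝓝 (G x)))
    (hy : Tendsto (fun k => g k y) atTop (𝓝 (G y))) {M : ℝ}
    (hM : ∃ᶠ k in atTop, ∫ t in x..y, e k t ≤ M) :
    (∫ t in x..y, A (G t) * Y t) + |primB B (G y) - primB B (G x)| ≤ M := by
  obtain ⟨φ, hφ, hφM⟩ := extraction_of_frequently_atTop hM
  have hφt : Tendsto φ atTop atTop := hφ.tendsto_atTop
  set μ : Measure ℝ := volume.restrict (Ioc x y) with hμ
  have hPc := primB_continuous hp.contB
  set cs : ℕ → ℝ := fun k => |primB B (g (φ k) y) - primB B (g (φ k) x)| with hcs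
  set c : ℝ := |primB B (G y) - primB B (G x)| with hc
  have hcslim : Tendsto cs atTop (𝓝 c) :=
    ((hPc.continuousAt.tendsto.comp (hy.comp hφt)).sub
      (hPc.continuousAt.tendsto.comp (hx.comp hφt))).abs
  have hcont : ∀ k, Continuous fun t => A (g k t) * W k t := fun k =>
    (hp.contA.comp (D.cg k)).mul (D.cW k)
  have hstep : ∀ k, (∫ t in x..y, A (g (φ k) t) * W (φ k) t) + cs k ≤ M := by
    intro k
    set j := φ k with hj
    have hBc : Continuous fun t => B (g j t) * g' j t :=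
      (hp.contB.comp (D.cg j)).mul (D.cg' j)
    have hd : ∀ t, HasDerivAt (fun t => primB B (g j t)) (B (g j t) * g' j t) t := fun t =>
      (primB_hasDerivAt hp.contB (g j t)).comp t (D.hg j t)
    have h1 := abs_sub_le_integral_abs hd hBc hxy
    have h2 : ∀ t, |B (g j t) * g' j t| = B (g j t) * |g' j t| := fun t => by
      rw [abs_mul, abs_of_nonneg (hp.nonnegB _)]
    simp only [h2] at h1
    have hc2 : Continuous fun t => B (g j t) * |g' j t| :=
      (hp.contB.comp (D.cg j)).mul (D.cg' j).abs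
    have h3 : (∫ t in x..y, A (g j t) * W j t) + ∫ t in x..y, B (g j t) * |g' j t| ≤
        ∫ t in x..y, e j t := by
      rw [← intervalIntegral.integral_add ((hcont j).intervalIntegrable _ _)
        (hc2.intervalIntegrable _ _)]
      refine intervalIntegral.integral_mono_on hxy
        (((hcont j).add hc2).intervalIntegrable _ _) ((D.ce j).intervalIntegrable _ _)
        fun t _ => D.pt j t _ _ (hp.nonnegA _) (hp.nonnegB _) (hp.le_one _)
    have h4 := hφM k
    simp only [hcs]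
    linarith
  have hbound : ∀ k, ∫⁻ t, ENNReal.ofReal (A (g (φ k) t) * W (φ k) t) ∂μ ≤
      ENNReal.ofReal (M - cs k) := by
    intro k
    have hint : Integrable (fun t => A (g (φ k) t) * W (φ k) t) μ :=
      ((hcont (φ k)).integrableOn_Icc (a := x) (b := y)).mono_set Ioc_subset_Icc_self
    rw [← ofReal_integral_eq_lintegral_ofReal hint
      (Eventually.of_forall fun t => mul_nonneg (hp.nonnegA _) (D.W0 _ t))]
    apply ENNReal.ofReal_le_ofReal
    have := hstep k
    rw [intervalIntegral.integral_of_le hxy] at this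
    linarith
  have hfatou : ∫⁻ t, ENNReal.ofReal (A (G t) * Y t) ∂μ ≤ ENNReal.ofReal (M - c) := by
    calc ∫⁻ t, ENNReal.ofReal (A (G t) * Y t) ∂μ
        ≤ ∫⁻ t, liminf (fun k => ENNReal.ofReal (A (g (φ k) t) * W (φ k) t)) atTop ∂μ := by
          apply lintegral_mono_ae
          apply ae_restrict_of_ae
          filter_upwards [D.conv, D.YW] with t h1 h2
          exact pointwise_liminf hp.contA hp.nonnegA (fun k => D.W0 _ t) (h1.comp hφt) (D.Y0 t)
            fun c hc => h2 c (hφt.frequently hc)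
      _ ≤ liminf (fun k => ∫⁻ t, ENNReal.ofReal (A (g (φ k) t) * W (φ k) t) ∂μ) atTop :=
          lintegral_liminf_le fun k => ((hcont (φ k)).measurable).ennreal_ofReal
      _ ≤ liminf (fun k => ENNReal.ofReal (M - cs k)) atTop :=
          liminf_le_liminf (Eventually.of_forall hbound)
      _ = ENNReal.ofReal (M - c) :=
          (ENNReal.continuous_ofReal.continuousAt.tendsto.comp
            (tendsto_const_nhds.sub hcslim)).liminf_eq
  have hnn : ∀ k, 0 ≤ ∫ t in x..y, A (g (φ k) t) * W (φ k) t := fun k =>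
    intervalIntegral.integral_nonneg hxy fun t _ => mul_nonneg (hp.nonnegA _) (D.W0 _ t)
  have hLim0 : 0 ≤ M - c := by
    have h1 : Tendsto (fun k => M - cs k) atTop (𝓝 (M - c)) := tendsto_const_nhds.sub hcslim
    refine ge_of_tendsto' h1 fun k => ?_
    have := hstep k
    have := hnn k
    linarith
  have hintAY : Integrable (fun t => A (G t) * Y t) μ := by
    have := D.ii_comp hp.contA x y
    rw [intervalIntegrable_iff, uIoc_of_le hxy] at this
    exact this
  have hfinal : ∫ t, A (G t) * Y t ∂μ ≤ M - c := by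
    have h3 : ENNReal.ofReal (∫ t, A (G t) * Y t ∂μ) ≤ ENNReal.ofReal (M - c) := by
      rw [ofReal_integral_eq_lintegral_ofReal hintAY
        (Eventually.of_forall fun t => mul_nonneg (hp.nonnegA _) (D.Y0 t))]
      exact hfatou
    exact (ENNReal.ofReal_le_ofReal_iff hLim0).1 h3
  rw [intervalIntegral.integral_of_le hxy]
  linarith

/-- The calibrated inequality on one arc, eventually along the whole sequence. -/
theorem arc_ev (D : Data1 g g' W e G Y Λ L) {A B : ℝ → ℝ} (hp : CalibPair A B) {x y : ℝ}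
    (hxy : x ≤ y) (hx : Tendsto (fun k => g k x) atTop (𝓝 (G x)))
    (hy : Tendsto (fun k => g k y) atTop (𝓝 (G y))) {ε : ℝ} (hε : 0 < ε) :
    ∀ᶠ k in atTop, (∫ t in x..y, A (G t) * Y t) + |primB B (G y) - primB B (G x)| ≤
      (∫ t in x..y, e k t) + ε := by
  by_contra hcon
  rw [not_eventually] at hcon
  have h2 : ∃ᶠ k in atTop, ∫ t in x..y, e k t ≤
      (∫ t in x..y, A (G t) * Y t) + |primB B (G y) - primB B (G x)| - ε :=
    hcon.mono fun k hk => by
      push Not at hk
      linarith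
  have := D.arc_freq hp hxy hx hy h2
  linarith

lemma per_e (D : Data1 g g' W e G Y Λ L) (k : ℕ) (x : ℝ) :
    ∫ t in x..(x + 1), e k t = ∫ t in (0 : ℝ)..1, e k t := by
  have hper : Function.Periodic (e k) 1 := D.pe k
  have := hper.intervalIntegral_add_eq x 0
  simpa using this

lemma per_AY (D : Data1 g g' W e G Y Λ L) (A : ℝ → ℝ) (x : ℝ) :
    ∫ t in x..(x + 1), A (G t) * Y t = ∫ t in (0 : ℝ)..1, A (G t) * Y t := by
  have hper : Function.Periodic (fun t => A (G t) * Y t) 1 := fun t => by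
    simp only [D.pG, D.pY]
  have := hper.intervalIntegral_add_eq x 0
  simpa using this

lemma conv_add_one (D : Data1 g g' W e G Y Λ L) {x : ℝ}
    (hx : Tendsto (fun k => g k x) atTop (𝓝 (G x))) :
    Tendsto (fun k => g k (x + 1)) atTop (𝓝 (G (x + 1))) := by
  simp only [D.pg, D.pG]
  exact hx

/-- The limit of the energies bounds the arcs of a partition into two pieces. -/
theorem two_arcs (D : Data1 g g' W e G Y Λ L) {A₁ B₁ A₂ B₂ : ℝ → ℝ} (h₁ : CalibPair A₁ B₁)
    (h₂ : CalibPair A₂ B₂) {x y : ℝ} (hxy : x ≤ y) (hyx : y ≤ x + 1)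
    (hx : Tendsto (fun k => g k x) atTop (𝓝 (G x)))
    (hy : Tendsto (fun k => g k y) atTop (𝓝 (G y))) :
    (∫ t in x..y, A₁ (G t) * Y t) + |primB B₁ (G y) - primB B₁ (G x)| +
      ((∫ t in y..(x + 1), A₂ (G t) * Y t) + |primB B₂ (G x) - primB B₂ (G y)|) ≤ L := by
  refine le_of_forall_pos_le_add fun ε hε => ?_
  have hx1 := D.conv_add_one hx
  have e1 := D.arc_ev h₁ hxy hx hy (ε := ε / 3) (by positivity)
  have e2 := D.arc_ev h₂ hyx hy hx1 (ε := ε / 3) (by positivity)
  have e3 : ∀ᶠ k in atTop, Λ k < L + ε / 3 :=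
    D.hΛ.eventually (gt_mem_nhds (by linarith))
  obtain ⟨k, h1, h2, h3⟩ := (e1.and (e2.and e3)).exists
  have hE := D.E k
  rw [← D.per_e k x] at hE
  have hadd : (∫ t in x..y, e k t) + ∫ t in y..(x + 1), e k t = ∫ t in x..(x + 1), e k t :=
    intervalIntegral.integral_add_adjacent_intervals ((D.ce k).intervalIntegrable _ _)
      ((D.ce k).intervalIntegrable _ _)
  rw [D.pG x] at h2
  linarith

/-- The same bound for a partition into four arcs with one calibration pair. -/
theorem four_arcs (D : Data1 g g' W e G Y Λ L) {A B : ℝ → ℝ} (hp : CalibPair A B) {x y₁ y₂ y₃ : ℝ}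
    (h1 : x ≤ y₁) (h2 : y₁ ≤ y₂) (h3 : y₂ ≤ y₃) (h4 : y₃ ≤ x + 1)
    (hx : Tendsto (fun k => g k x) atTop (𝓝 (G x)))
    (hy₁ : Tendsto (fun k => g k y₁) atTop (𝓝 (G y₁)))
    (hy₂ : Tendsto (fun k => g k y₂) atTop (𝓝 (G y₂)))
    (hy₃ : Tendsto (fun k => g k y₃) atTop (𝓝 (G y₃))) :
    (∫ t in (0 : ℝ)..1, A (G t) * Y t) + (|primB B (G y₁) - primB B (G x)| +
      |primB B (G y₂) - primB B (G y₁)| + |primB B (G y₃) - primB B (G y₂)| +
      |primB B (G x) - primB B (G y₃)|) ≤ L := by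
  refine le_of_forall_pos_le_add fun ε hε => ?_
  have hx1 := D.conv_add_one hx
  have e1 := D.arc_ev hp h1 hx hy₁ (ε := ε / 5) (by positivity)
  have e2 := D.arc_ev hp h2 hy₁ hy₂ (ε := ε / 5) (by positivity)
  have e3 := D.arc_ev hp h3 hy₂ hy₃ (ε := ε / 5) (by positivity)
  have e4 := D.arc_ev hp h4 hy₃ hx1 (ε := ε / 5) (by positivity)
  have e5 : ∀ᶠ k in atTop, Λ k < L + ε / 5 :=
    D.hΛ.eventually (gt_mem_nhds (by linarith))
  obtain ⟨k, h1', h2', h3', h4', h5'⟩ := (e1.and (e2.and (e3.and (e4.and e5)))).exists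
  have hE := D.E k
  rw [← D.per_e k x] at hE
  have hce : ∀ a c : ℝ, IntervalIntegrable (e k) volume a c := fun a c =>
    (D.ce k).intervalIntegrable _ _
  have hadd : (∫ t in x..y₁, e k t) + (∫ t in y₁..y₂, e k t) + (∫ t in y₂..y₃, e k t) +
      ∫ t in y₃..(x + 1), e k t = ∫ t in x..(x + 1), e k t := by
    rw [intervalIntegral.integral_add_adjacent_intervals (hce _ _) (hce _ _),
      intervalIntegral.integral_add_adjacent_intervals (hce _ _) (hce _ _),
      intervalIntegral.integral_add_adjacent_intervals (hce _ _) (hce _ _)]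
  have hai : ∀ a c : ℝ, IntervalIntegrable (fun t => A (G t) * Y t) volume a c := fun a c =>
    D.ii_comp hp.contA a c
  have hadd2 : (∫ t in x..y₁, A (G t) * Y t) + (∫ t in y₁..y₂, A (G t) * Y t) +
      (∫ t in y₂..y₃, A (G t) * Y t) + ∫ t in y₃..(x + 1), A (G t) * Y t =
      ∫ t in x..(x + 1), A (G t) * Y t := by
    rw [intervalIntegral.integral_add_adjacent_intervals (hai _ _) (hai _ _),
      intervalIntegral.integral_add_adjacent_intervals (hai _ _) (hai _ _),
      intervalIntegral.integral_add_adjacent_intervals (hai _ _) (hai _ _)]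
  rw [D.per_AY] at hadd2
  rw [D.pG x] at h4'
  linarith

end Data1

end Vale.Agent.Lib.P232
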