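import Vale.Agent.Lib.P232.RigDefs

/-!
# The arc lemma

A periodic `{0, 1}`-valued function which is an a.e. limit of `C¹` periodic functions with total
variation at most `2 + o(1)`, and which is not a.e. constant, is a.e. the indicator of an arc.
-/

open MeasureTheory Filter Topology Set
open scoped Real

namespace Vale.Agent.Lib.P232

namespace RigArc

lemma dZ_le (x : ℝ) (n : ℤ) : dZ x ≤ |x - n| := round_le x n

lemma dZ_sub_int (x : ℝ) (n : ℤ) : dZ (x - n) = dZ x := by
  unfold dZ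
  rw [round_sub_intCast]
  push_cast
  congr 1
  ring

lemma arcFn_sub_int (c w t : ℝ) (n : ℤ) : arcFn c w (t - n) = arcFn c w t := by
  unfold arcFn
  have h : t - n - c = t - c - n := by ring
  rw [h, dZ_sub_int]

lemma tv_le {v v' : ℝ → ℝ} (hd : ∀ t, HasDerivAt v (v' t) t) (hc : Continuous v') {a b : ℝ}
    (hab : a ≤ b) : |v b - v a| ≤ ∫ t in a..b, |v' t| := by
  have h1 : ∫ t in a..b, v' t = v b - v a :=
    intervalIntegral.integral_eq_sub_of_hasDerivAt (fun t _ => hd t)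
      (hc.intervalIntegrable a b)
  rw [← h1]
  exact intervalIntegral.abs_integral_le_integral_abs hab

lemma deriv_periodic {v v' : ℝ → ℝ} (hd : ∀ t, HasDerivAt v (v' t) t)
    (hper : ∀ t, v (t + 1) = v t) (t : ℝ) : v' (t + 1) = v' t := by
  have h1 : HasDerivAt (fun s => v (s + 1)) (v' (t + 1)) t := by
    simpa using (hd (t + 1)).comp_add_const t 1
  have h2 : (fun s => v (s + 1)) = v := funext hper
  rw [h2] at h1
  exact h1.unique (hd t)

/-- The variation over four consecutive stretches of a period. -/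
lemma four_le {v v' : ℝ → ℝ} (hd : ∀ t, HasDerivAt v (v' t) t) (hc : Continuous v')
    (hper : ∀ t, v (t + 1) = v t) {t₁ t₂ t₃ t₄ : ℝ} (h12 : t₁ ≤ t₂) (h23 : t₂ ≤ t₃)
    (h34 : t₃ ≤ t₄) (h41 : t₄ ≤ t₁ + 1) :
    |v t₂ - v t₁| + |v t₃ - v t₂| + |v t₄ - v t₃| + |v t₁ - v t₄| ≤ ∫ t in (0 : ℝ)..1, |v' t| := by
  have hi : ∀ a b, IntervalIntegrable (fun t => |v' t|) volume a b :=
    fun a b => hc.abs.intervalIntegrable a b
  have h1 := tv_le hd hc h12
  have h2 := tv_le hd hc h23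
  have h3 := tv_le hd hc h34
  have h4 := tv_le hd hc h41
  rw [hper t₁] at h4
  have hP : Function.Periodic (fun t => |v' t|) 1 := fun t => by
    simp only [deriv_periodic hd hper t]
  have h5 : ∫ t in t₁..(t₁ + 1), |v' t| = ∫ t in (0 : ℝ)..(0 + 1), |v' t| :=
    hP.intervalIntegral_add_eq t₁ 0
  rw [zero_add] at h5
  have h6 := intervalIntegral.integral_add_adjacent_intervals (hi t₁ t₂) (hi t₂ t₃)
  have h7 := intervalIntegral.integral_add_adjacent_intervals (hi t₁ t₃) (hi t₃ t₄)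
  have h8 := intervalIntegral.integral_add_adjacent_intervals (hi t₁ t₄) (hi t₄ (t₁ + 1))
  linarith

/-- A `{0, 1}`-valued periodic function on which the four-point pattern `1, 0, 1, 0` does not occur
on a periodic set of full measure is a.e. the indicator of an arc. -/
theorem arc_of_no_pattern {f : ℝ → ℝ} (h01 : ∀ t, f t = 0 ∨ f t = 1)
    (hpf : ∀ t, f (t + 1) = f t) {G : Set ℝ} (hG : ∀ᵐ t, t ∈ G)
    (hGper : ∀ t (n : ℤ), t ∈ G → t - n ∈ G)
    (hno : ∀ t₁ t₂ t₃ t₄, t₁ ∈ G → t₂ ∈ G → t₃ ∈ G → t₄ ∈ G → t₁ < t₂ → t₂ < t₃ → t₃ < t₄ →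
      t₄ < t₁ + 1 → f t₁ = 1 → f t₂ = 0 → f t₃ = 1 → f t₄ = 0 → False)
    (hpos : 0 < ∫ t in (0 : ℝ)..1, f t) (hlt : (∫ t in (0 : ℝ)..1, f t) < 1) :
    ∃ c, ∀ᵐ t, f t = arcFn c (∫ t in (0 : ℝ)..1, f t) t := by
  have hP : Function.Periodic f 1 := hpf
  have hfn : ∀ t (n : ℤ), f (t - n) = f t := fun t n => by
    have := (hP.int_mul n) (t - n)
    rw [mul_one, sub_add_cancel] at this
    exact this.symm
  -- a good point with value zero, a good point with value one
  have hex0 : ∃ t₀, t₀ ∈ G ∧ f t₀ = 0 := by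
    by_contra hcon
    push Not at hcon
    have h1 : ∀ᵐ t, f t = 1 := by
      filter_upwards [hG] with t ht
      rcases h01 t with h | h
      · exact absurd h (hcon t ht)
      · exact h
    have h2 : ∫ t in (0 : ℝ)..1, f t = ∫ t in (0 : ℝ)..1, (1 : ℝ) :=
      intervalIntegral.integral_congr_ae (h1.mono fun t ht _ => ht)
    rw [h2] at hlt
    simp at hlt
  have hex1 : ∃ a, a ∈ G ∧ f a = 1 := by
    by_contra hcon
    push Not at hcon
    have h1 : ∀ᵐ t, f t = 0 := by
      filter_upwards [hG] with t ht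
      rcases h01 t with h | h
      · exact h
      · exact absurd h (hcon t ht)
    have h2 : ∫ t in (0 : ℝ)..1, f t = ∫ t in (0 : ℝ)..1, (0 : ℝ) :=
      intervalIntegral.integral_congr_ae (h1.mono fun t ht _ => ht)
    rw [h2] at hpos
    simp at hpos
  obtain ⟨t₀, ht₀, hft₀⟩ := hex0
  obtain ⟨a, ha, hfa⟩ := hex1
  -- reduction to a period starting at `t₀`
  have hredu : ∀ t, ∃ n : ℤ, t₀ ≤ t - n ∧ t - n < t₀ + 1 := by
    intro t
    refine ⟨⌊t - t₀⌋, ?_, ?_⟩
    · have := Int.floor_le (t - t₀)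
      linarith
    · have := Int.lt_floor_add_one (t - t₀)
      linarith
  set A : Set ℝ := {t | t ∈ G ∧ f t = 1 ∧ t₀ < t ∧ t < t₀ + 1} with hA
  have hAne : A.Nonempty := by
    obtain ⟨n, h1, h2⟩ := hredu a
    refine ⟨a - n, hGper a n ha, by rw [hfn, hfa], ?_, h2⟩
    refine lt_of_le_of_ne h1 fun h => ?_
    have h3 : f (a - n) = 1 := by rw [hfn, hfa]
    rw [← h, hft₀] at h3
    norm_num at h3
  have hAb : BddBelow A := ⟨t₀, fun t ht => ht.2.2.1.le⟩
  have hAa : BddAbove A := ⟨t₀ + 1, fun t ht => ht.2.2.2.le⟩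
  set L := sInf A with hL
  set R := sSup A with hR
  have hL0 : t₀ ≤ L := le_csInf hAne fun t ht => ht.2.2.1.le
  have hR0 : R ≤ t₀ + 1 := csSup_le hAne fun t ht => ht.2.2.2.le
  have hLR : L ≤ R := csInf_le_csSup hAne hAb hAa
  -- inside
  have hin : ∀ t, t ∈ G → L < t → t < R → f t = 1 := by
    intro t ht h1 h2
    obtain ⟨s₁, hs₁, hs₁t⟩ := exists_lt_of_csInf_lt hAne h1
    obtain ⟨s₃, hs₃, hts₃⟩ := exists_lt_of_lt_csSup hAne h2
    rcases h01 t with h | h
    · exfalso
      refine hno s₁ t s₃ (t₀ + 1) hs₁.1 ht hs₃.1 ?_ hs₁t hts₃ hs₃.2.2.2 (by linarith [hs₁.2.2.1])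
        hs₁.2.1 h hs₃.2.1 (by rw [hpf, hft₀])
      have := hGper t₀ (-1) ht₀
      simpa using this
    · exact h
  -- outside
  have hout : ∀ t, t ∈ G → t₀ < t → t < t₀ + 1 → (t < L ∨ R < t) → f t = 0 := by
    intro t ht h1 h2 h3
    rcases h01 t with h | h
    · exact h
    · exfalso
      have hmem : t ∈ A := ⟨ht, h, h1, h2⟩
      rcases h3 with h3 | h3
      · exact absurd (csInf_le hAb hmem) (not_le.mpr h3)
      · exact absurd (le_csSup hAa hmem) (not_le.mpr h3)
  -- the exceptional set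
  set C : Set ℝ := (Set.range fun n : ℤ => t₀ + n) ∪ (Set.range fun n : ℤ => L + n) ∪
    (Set.range fun n : ℤ => R + n) with hC
  have hCc : C.Countable :=
    ((Set.countable_range _).union (Set.countable_range _)).union (Set.countable_range _)
  have hCae : ∀ᵐ t, t ∉ C := hCc.ae_notMem volume
  -- the integral
  have hw : ∫ t in (0 : ℝ)..1, f t = R - L := by
    have h1 : ∫ t in (0 : ℝ)..1, f t = ∫ t in t₀..(t₀ + 1), f t := by
      have := hP.intervalIntegral_add_eq 0 t₀
      simpa using this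
    have h2 : ∫ t in t₀..(t₀ + 1), f t =
        ∫ t in t₀..(t₀ + 1), (Set.Ioo L R).indicator (fun _ => (1 : ℝ)) t := by
      refine intervalIntegral.integral_congr_ae ?_
      filter_upwards [hG, hCae] with t ht htC hu
      rw [Set.uIoc_of_le (by linarith)] at hu
      have hne : t ≠ t₀ + 1 := by
        intro h
        apply htC
        refine Or.inl (Or.inl ⟨1, ?_⟩)
        simp [h]
      have h1t : t < t₀ + 1 := lt_of_le_of_ne hu.2 hne
      have hneL : t ≠ L := by
        intro h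
        apply htC
        refine Or.inl (Or.inr ⟨0, ?_⟩)
        simp [h]
      have hneR : t ≠ R := by
        intro h
        apply htC
        refine Or.inr ⟨0, ?_⟩
        simp [h]
      by_cases hm : t ∈ Set.Ioo L R
      · rw [Set.indicator_of_mem hm]
        exact hin t ht hm.1 hm.2
      · rw [Set.indicator_of_notMem hm]
        refine hout t ht hu.1 h1t ?_
        by_contra hcon
        push Not at hcon
        exact hm ⟨lt_of_le_of_ne hcon.1 (Ne.symm hneL), lt_of_le_of_ne hcon.2 hneR⟩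
    rw [h1, h2, intervalIntegral.integral_of_le (by linarith),
      MeasureTheory.integral_indicator measurableSet_Ioo]
    have h3 : (volume.restrict (Set.Ioc t₀ (t₀ + 1))).restrict (Set.Ioo L R) =
        volume.restrict (Set.Ioo L R) := by
      rw [Measure.restrict_restrict measurableSet_Ioo]
      congr 1
      refine Set.inter_eq_left.mpr ?_
      intro t ht
      exact ⟨lt_of_le_of_lt hL0 ht.1, (ht.2.le).trans hR0⟩
    rw [h3]
    simp [hLR]
  rw [hw]
  set c := (L + R) / 2 with hc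
  refine ⟨c, ?_⟩
  filter_upwards [hG, hCae] with t ht htC
  obtain ⟨n, h1, h2⟩ := hredu t
  have hnotC : ∀ x : ℝ, x = t → x ∉ C := fun x hx => hx ▸ htC
  set t' := t - n with ht'
  have hG' : t' ∈ G := hGper t n ht
  have h1' : t₀ < t' := by
    refine lt_of_le_of_ne h1 fun h => htC ?_
    refine Or.inl (Or.inl ⟨n, ?_⟩)
    simp only
    rw [h, ht']
    ring
  have hneL : t' ≠ L := fun h => htC (Or.inl (Or.inr ⟨n, by
    simp only
    rw [← h, ht']
    ring⟩))
  have hneR : t' ≠ R := fun h => htC (Or.inr ⟨n, by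
    simp only
    rw [← h, ht']
    ring⟩)
  have hf' : f t = f t' := (hfn t n).symm
  have harc : arcFn c (R - L) t = arcFn c (R - L) t' := (arcFn_sub_int c (R - L) t n).symm
  rw [hf', harc]
  by_cases hm : L < t' ∧ t' < R
  · rw [hin t' hG' hm.1 hm.2]
    unfold arcFn
    rw [if_pos]
    have h3 := dZ_le (t' - c) 0
    have h4 : |t' - c - ((0 : ℤ) : ℝ)| < (R - L) / 2 := by
      rw [abs_lt]
      push_cast
      constructor <;> (rw [hc]; linarith [hm.1, hm.2])
    have h5 := lt_of_le_of_lt h3 h4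
    linarith
  · have hout' : t' < L ∨ R < t' := by
      by_contra hcon
      push Not at hcon
      exact hm ⟨lt_of_le_of_ne hcon.1 (Ne.symm hneL), lt_of_le_of_ne hcon.2 hneR⟩
    rw [hout t' hG' h1' h2 hout']
    unfold arcFn
    rw [if_neg]
    intro hlt'
    unfold dZ at hlt'
    set m := round (t' - c) with hm'
    have h4 : |t' - c - (m : ℝ)| < (R - L) / 2 := by linarith
    rw [abs_lt] at h4
    have h5 : L < t' - m := by rw [hc] at h4; linarith [h4.1]
    have h6 : t' - m < R := by rw [hc] at h4; linarith [h4.2]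
    have h7 : (m : ℝ) < 1 := by linarith
    have h8 : -1 < (m : ℝ) := by linarith
    have h9 : m = 0 := by
      have h10 : m < 1 := by exact_mod_cast h7
      have h11 : -1 < m := by exact_mod_cast h8
      omega
    rw [h9] at h5 h6
    simp only [Int.cast_zero, sub_zero] at h5 h6
    exact hm ⟨h5, h6⟩

/-- The point of `(0, 1]` in the class of `t`. -/
noncomputable def rho (t : ℝ) : ℝ := t - ⌈t⌉ + 1

lemma rho_mem (t : ℝ) : rho t ∈ Ioc (0 : ℝ) 1 := by
  unfold rho
  constructor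
  · have := Int.ceil_lt_add_one t
    linarith
  · have := Int.le_ceil t
    linarith

lemma rho_of_mem {t : ℝ} (h : t ∈ Ioc (0 : ℝ) 1) : rho t = t := by
  unfold rho
  have h1 : ⌈t⌉ = 1 := by
    rw [Int.ceil_eq_iff]
    constructor
    · simpa using h.1
    · simpa using h.2
  rw [h1]
  simp

lemma rho_eq {t : ℝ} {n : ℤ} (h : t - n ∈ Ioc (0 : ℝ) 1) : rho t = t - n := by
  have h1 := rho_of_mem h
  rw [← h1]
  unfold rho
  rw [Int.ceil_sub_intCast]
  push_cast
  ring

lemma rho_sub_int (t : ℝ) (n : ℤ) : rho (t - n) = rho t := by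
  unfold rho
  rw [Int.ceil_sub_intCast]
  push_cast
  ring

lemma exists_rho (t : ℝ) : ∃ n : ℤ, t - n ∈ Ioc (0 : ℝ) 1 ∧ rho t = t - n := by
  refine ⟨⌈t⌉ - 1, ?_, ?_⟩
  · have h := rho_mem t
    unfold rho at h
    have e : t - ((⌈t⌉ - 1 : ℤ) : ℝ) = t - ⌈t⌉ + 1 := by
      push_cast
      ring
    rw [e]
    exact h
  · unfold rho
    push_cast
    ring

/-- The variation around the circle at four points of `[0, 1]`. -/
lemma cyc_le {v v' : ℝ → ℝ} (hd : ∀ t, HasDerivAt v (v' t) t) (hc : Continuous v')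
    (hper : v 0 = v 1) {s₁ s₂ s₃ s₄ : ℝ} (h0 : 0 ≤ s₁) (h12 : s₁ ≤ s₂) (h23 : s₂ ≤ s₃)
    (h34 : s₃ ≤ s₄) (h41 : s₄ ≤ 1) :
    |v s₂ - v s₁| + |v s₃ - v s₂| + |v s₄ - v s₃| + |v s₁ - v s₄| ≤ ∫ t in (0 : ℝ)..1, |v' t| := by
  have hi : ∀ a b, IntervalIntegrable (fun t => |v' t|) volume a b :=
    fun a b => hc.abs.intervalIntegrable a b
  have h1 := tv_le hd hc h12
  have h2 := tv_le hd hc h23
  have h3 := tv_le hd hc h34
  have h4 := tv_le hd hc h41
  have h5 := tv_le hd hc h0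
  have h6 := intervalIntegral.integral_add_adjacent_intervals (hi 0 s₁) (hi s₁ s₂)
  have h7 := intervalIntegral.integral_add_adjacent_intervals (hi 0 s₂) (hi s₂ s₃)
  have h8 := intervalIntegral.integral_add_adjacent_intervals (hi 0 s₃) (hi s₃ s₄)
  have h9 := intervalIntegral.integral_add_adjacent_intervals (hi 0 s₄) (hi s₄ 1)
  have h10 : |v s₁ - v s₄| ≤ |v s₁ - v 0| + |v 1 - v s₄| := by
    have : v s₁ - v s₄ = (v s₁ - v 0) + (v 1 - v s₄) := by rw [hper]; ring
    rw [this]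
    exact abs_add_le _ _
  linarith

end RigArc

/-- The arc lemma: a `{0, 1}`-valued function on `(0, 1]` which is an a.e. limit of `C¹` functions
with equal values at the ends and with total variation at most `2 + o(1)`, and which is not a.e.
constant, is a.e. the indicator of an arc of the circle. -/
theorem arc_lemma {v v' : ℕ → ℝ → ℝ} (hd : ∀ k t, HasDerivAt (v k) (v' k t) t)
    (hc : ∀ k, Continuous (v' k)) (hper : ∀ k, v k 0 = v k 1)
    {f : ℝ → ℝ} (hf : Measurable f) (h01 : ∀ t, f t = 0 ∨ f t = 1)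
    (hconv : ∀ᵐ t ∂(volume.restrict (Ioc (0 : ℝ) 1)), Tendsto (fun k => v k t) atTop (𝓝 (f t)))
    {e : ℕ → ℝ} (he : Tendsto e atTop (𝓝 0))
    (hTV : ∀ k, ∫ t in (0 : ℝ)..1, |v' k t| ≤ 2 + e k)
    (hpos : 0 < ∫ t in (0 : ℝ)..1, f t) (hlt : (∫ t in (0 : ℝ)..1, f t) < 1) :
    ∃ c, ∀ᵐ t ∂(volume.restrict (Ioc (0 : ℝ) 1)), f t = arcFn c (∫ t in (0 : ℝ)..1, f t) t := by
  open RigArc in
  -- four good points with alternating values do not exist
  set Gd : Set ℝ := {t | Tendsto (fun k => v k t) atTop (𝓝 (f t))} with hGd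
  have hno : ∀ s₁ s₂ s₃ s₄, s₁ ∈ Gd → s₂ ∈ Gd → s₃ ∈ Gd → s₄ ∈ Gd → 0 < s₁ → s₁ < s₂ → s₂ < s₃ →
      s₃ < s₄ → s₄ ≤ 1 → f s₁ ≠ f s₂ → f s₂ ≠ f s₃ → f s₃ ≠ f s₄ → f s₄ ≠ f s₁ → False := by
    intro s₁ s₂ s₃ s₄ g₁ g₂ g₃ g₄ h0 h12 h23 h34 h41 n₁ n₂ n₃ n₄
    have hb : ∀ k, |v k s₂ - v k s₁| + |v k s₃ - v k s₂| + |v k s₄ - v k s₃| + |v k s₁ - v k s₄| ≤
        2 + e k := fun k =>
      (cyc_le (hd k) (hc k) (hper k) h0.le h12.le h23.le h34.le h41).trans (hTV k)
    have hl : Tendsto (fun k => |v k s₂ - v k s₁| + |v k s₃ - v k s₂| + |v k s₄ - v k s₃| +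
        |v k s₁ - v k s₄|) atTop
        (𝓝 (|f s₂ - f s₁| + |f s₃ - f s₂| + |f s₄ - f s₃| + |f s₁ - f s₄|)) :=
      (((Tendsto.sub g₂ g₁).abs.add (Tendsto.sub g₃ g₂).abs).add (Tendsto.sub g₄ g₃).abs).add
        (Tendsto.sub g₁ g₄).abs
    have hr : Tendsto (fun k => 2 + e k) atTop (𝓝 (2 + 0)) := he.const_add 2
    have h := le_of_tendsto_of_tendsto' hl hr hb
    have habs : ∀ x y, f x ≠ f y → |f y - f x| = 1 := by
      intro x y hxy
      rcases h01 x with hx | hx <;> rcases h01 y with hy | hy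
      · exact absurd (hx.trans hy.symm) hxy
      · rw [hx, hy]; norm_num
      · rw [hx, hy]; norm_num
      · exact absurd (hx.trans hy.symm) hxy
    rw [habs _ _ n₁, habs _ _ n₂, habs _ _ n₃, habs _ _ n₄] at h
    norm_num at h
  -- the periodic extension
  set fe : ℝ → ℝ := fun t => f (rho t) with hfe
  have hfe_mem : ∀ {t : ℝ}, t ∈ Ioc (0 : ℝ) 1 → fe t = f t := fun {t} ht => by
    simp only [hfe]
    rw [rho_of_mem ht]
  have hint : ∫ t in (0 : ℝ)..1, fe t = ∫ t in (0 : ℝ)..1, f t :=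
    intervalIntegral.integral_congr_ae (Eventually.of_forall fun t ht => by
      rw [Set.uIoc_of_le zero_le_one] at ht
      exact hfe_mem ht)
  have hae : ∀ᵐ t, rho t ∈ Gd := by
    have h1 : ∀ᵐ t, t ∈ Ioc (0 : ℝ) 1 → t ∈ Gd := (ae_restrict_iff' measurableSet_Ioc).mp hconv
    have h2 : ∀ n : ℤ, ∀ᵐ t, t + (-(n : ℝ)) ∈ Ioc (0 : ℝ) 1 → t + (-(n : ℝ)) ∈ Gd := fun n =>
      (eventually_add_right_iff volume (-(n : ℝ))).mpr h1
    filter_upwards [ae_all_iff.mpr h2] with t ht
    obtain ⟨n, h3, h4⟩ := exists_rho t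
    rw [h4]
    have h5 := ht n
    rw [← sub_eq_add_neg] at h5
    exact h5 h3
  have hmain := arc_of_no_pattern (f := fe) (G := {t | rho t ∈ Gd}) (fun t => h01 _)
    (fun t => by
      simp only [hfe]
      have h := rho_sub_int (t + 1) 1
      simp only [Int.cast_one, add_sub_cancel_right] at h
      rw [← h])
    hae (fun t n ht => by
      show rho (t - n) ∈ Gd
      rw [rho_sub_int]
      exact ht) ?_ (by rw [hint]; exact hpos) (by rw [hint]; exact hlt)
  · obtain ⟨c, hc'⟩ := hmain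
    refine ⟨c, ?_⟩
    rw [ae_restrict_iff' measurableSet_Ioc]
    filter_upwards [hc'] with t ht hmem
    rw [← hint, ← hfe_mem hmem]
    exact ht
  · intro t₁ t₂ t₃ t₄ g₁ g₂ g₃ g₄ h12 h23 h34 h41 f₁ f₂ f₃ f₄
    obtain ⟨n, hn, hrho⟩ := exists_rho t₁
    have hrho_of : ∀ x : ℝ, x - n ≤ 1 → t₁ ≤ x → rho x = x - n := fun x h1 h2 =>
      rho_eq ⟨by linarith [hn.1], h1⟩
    have hrho_of' : ∀ x : ℝ, 1 < x - n → x < t₁ + 1 → rho x = x - (n + 1 : ℤ) := fun x h1 h2 =>
      rho_eq (by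
        push_cast
        exact ⟨by linarith, by linarith [hn.2]⟩)
    have hval : ∀ x y, fe x = 1 → fe y = 0 → f (rho x) ≠ f (rho y) := fun x y hx hy h => by
      simp only [hfe] at hx hy
      rw [h, hy] at hx
      norm_num at hx
    have n12 := hval t₁ t₂ f₁ f₂
    have n32 := hval t₃ t₂ f₃ f₂
    have n34 := hval t₃ t₄ f₃ f₄
    have n14 := hval t₁ t₄ f₁ f₄
    -- where the period ends
    by_cases c4 : t₄ - n ≤ 1
    · -- no wrap
      rw [hrho] at n12 n14
      have e₁ := hrho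
      have e₂ := hrho_of t₂ (by linarith) h12.le
      have e₃ := hrho_of t₃ (by linarith) (by linarith)
      have e₄ := hrho_of t₄ c4 (by linarith)
      rw [e₂] at n12 n32
      rw [e₃] at n32 n34
      rw [e₄] at n34 n14
      refine hno (t₁ - n) (t₂ - n) (t₃ - n) (t₄ - n) ?_ ?_ ?_ ?_ hn.1 (by linarith) (by linarith)
        (by linarith) c4 n12 n32.symm n34 n14.symm
      · rw [← e₁]; exact g₁
      · rw [← e₂]; exact g₂
      · rw [← e₃]; exact g₃
      · rw [← e₄]; exact g₄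
    · push Not at c4
      by_cases c3 : t₃ - n ≤ 1
      · -- only `t₄` wraps
        rw [hrho] at n12 n14
        have e₁ := hrho
        have e₂ := hrho_of t₂ (by linarith) h12.le
        have e₃ := hrho_of t₃ c3 (by linarith)
        have e₄ := hrho_of' t₄ c4 h41
        rw [e₂] at n12 n32
        rw [e₃] at n32 n34
        rw [e₄] at n34 n14
        have g₄' : t₄ - ((n + 1 : ℤ) : ℝ) ∈ Gd := by rw [← e₄]; exact g₄
        push_cast at g₄' n34 n14
        refine hno (t₄ - (n + 1)) (t₁ - n) (t₂ - n) (t₃ - n) g₄' ?_ ?_ ?_ (by linarith)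
          (by linarith) (by linarith) (by linarith) c3 n14.symm n12 n32.symm n34
        · rw [← e₁]; exact g₁
        · rw [← e₂]; exact g₂
        · rw [← e₃]; exact g₃
      · push Not at c3
        by_cases c2 : t₂ - n ≤ 1
        · -- `t₃, t₄` wrap
          rw [hrho] at n12 n14
          have e₁ := hrho
          have e₂ := hrho_of t₂ c2 h12.le
          have e₃ := hrho_of' t₃ c3 (by linarith)
          have e₄ := hrho_of' t₄ c4 h41
          rw [e₂] at n12 n32
          rw [e₃] at n32 n34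
          rw [e₄] at n34 n14
          have g₃' : t₃ - ((n + 1 : ℤ) : ℝ) ∈ Gd := by rw [← e₃]; exact g₃
          have g₄' : t₄ - ((n + 1 : ℤ) : ℝ) ∈ Gd := by rw [← e₄]; exact g₄
          push_cast at g₃' g₄' n32 n34 n14
          refine hno (t₃ - (n + 1)) (t₄ - (n + 1)) (t₁ - n) (t₂ - n) g₃' g₄' ?_ ?_ (by linarith)
            (by linarith) (by linarith) (by linarith) c2 n34 n14.symm n12 n32.symm
          · rw [← e₁]; exact g₁
          · rw [← e₂]; exact g₂
        · -- `t₂, t₃, t₄` wrap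
          push Not at c2
          rw [hrho] at n12 n14
          have e₁ := hrho
          have e₂ := hrho_of' t₂ c2 (by linarith)
          have e₃ := hrho_of' t₃ c3 (by linarith)
          have e₄ := hrho_of' t₄ c4 h41
          rw [e₂] at n12 n32
          rw [e₃] at n32 n34
          rw [e₄] at n34 n14
          have g₂' : t₂ - ((n + 1 : ℤ) : ℝ) ∈ Gd := by rw [← e₂]; exact g₂
          have g₃' : t₃ - ((n + 1 : ℤ) : ℝ) ∈ Gd := by rw [← e₃]; exact g₃
          have g₄' : t₄ - ((n + 1 : ℤ) : ℝ) ∈ Gd := by rw [← e₄]; exact g₄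
          push_cast at g₂' g₃' g₄' n12 n32 n34 n14
          refine hno (t₂ - (n + 1)) (t₃ - (n + 1)) (t₄ - (n + 1)) (t₁ - n) g₂' g₃' g₄' ?_
            (by linarith) (by linarith) (by linarith) (by linarith) hn.2 n32.symm n34 n14.symm n12
          · rw [← e₁]; exact g₁

end Vale.Agent.Lib.P232
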