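import Vale.Agent.Lib.P232.RigA

/-!
Rotations of calibration pairs, first variation, and the distribution of the profile.
-/

open MeasureTheory Filter Topology Set
open scoped Real

namespace Vale.Agent.Lib.P232

/-- The first component of a small rotation of a calibration pair. -/
noncomputable def rotA (A B η : ℝ → ℝ) (M τ s : ℝ) : ℝ :=
  (1 - τ ^ 2 * M ^ 2) * (A s - τ * (η s * B s))

/-- The second component of a small rotation of a calibration pair. -/
noncomputable def rotB (A B η : ℝ → ℝ) (M τ s : ℝ) : ℝ :=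
  (1 - τ ^ 2 * M ^ 2) * (B s + τ * (η s * A s))

lemma rot_pair {A B η : ℝ → ℝ} {M a₀ τ : ℝ} (hp : CalibPair A B) (hη : Continuous η)
    (hM : ∀ s, |η s| ≤ M) (hsupp : ∀ s, η s ≠ 0 → a₀ ≤ A s ∧ a₀ ≤ B s)
    (hτ : |τ| * M ≤ a₀) (hτ1 : |τ| * M ≤ 1) : CalibPair (rotA A B η M τ) (rotB A B η M τ) := by
  have hM0 : 0 ≤ M := (abs_nonneg _).trans (hM 0)
  have hc0 : 0 ≤ 1 - τ ^ 2 * M ^ 2 := by
    have h2 : (|τ| * M) ^ 2 ≤ 1 := by
      have h3 : 0 ≤ |τ| * M := by positivity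
      nlinarith
    have e : (|τ| * M) ^ 2 = τ ^ 2 * M ^ 2 := by rw [mul_pow, sq_abs]
    linarith
  have key : ∀ s, |τ * η s| ≤ |τ| * M := fun s => by
    rw [abs_mul]
    exact mul_le_mul_of_nonneg_left (hM s) (abs_nonneg _)
  refine ⟨?_, ?_, ?_, ?_, ?_⟩
  · exact continuous_const.mul (hp.contA.sub (continuous_const.mul (hη.mul hp.contB)))
  · exact continuous_const.mul (hp.contB.add (continuous_const.mul (hη.mul hp.contA)))
  · intro s
    refine mul_nonneg hc0 ?_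
    by_cases h : η s = 0
    · simp [h, hp.nonnegA s]
    · have h1 := (hsupp s h).1
      have h2 := key s
      have hB1 := calib_B_le_one' hp s
      have hB0 := hp.nonnegB s
      have h3 : τ * (η s * B s) ≤ |τ| * M := by
        have e : τ * (η s * B s) = (τ * η s) * B s := by ring
        rw [e]
        have h4 : τ * η s ≤ |τ| * M := (le_abs_self _).trans h2
        have h5 : 0 ≤ |τ| * M := by positivity
        nlinarith
      linarith
  · intro s
    refine mul_nonneg hc0 ?_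
    by_cases h : η s = 0
    · simp [h, hp.nonnegB s]
    · have h1 := (hsupp s h).2
      have h2 := key s
      have hA1 := calib_A_le_one' hp s
      have hA0 := hp.nonnegA s
      have h3 : -(τ * (η s * A s)) ≤ |τ| * M := by
        have e : -(τ * (η s * A s)) = (-(τ * η s)) * A s := by ring
        rw [e]
        have h4 : -(τ * η s) ≤ |τ| * M := (neg_le_abs _).trans h2
        have h5 : 0 ≤ |τ| * M := by positivity
        nlinarith
      linarith
  · intro s
    unfold rotA rotB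
    set c := 1 - τ ^ 2 * M ^ 2 with hc
    have e : (c * (A s - τ * (η s * B s))) ^ 2 + (c * (B s + τ * (η s * A s))) ^ 2 =
        c ^ 2 * ((A s ^ 2 + B s ^ 2) * (1 + (τ * η s) ^ 2)) := by ring
    rw [e]
    have h1 := hp.le_one s
    have h2 : (τ * η s) ^ 2 ≤ τ ^ 2 * M ^ 2 := by
      have := key s
      have h3 : (τ * η s) ^ 2 = |τ * η s| ^ 2 := (sq_abs _).symm
      rw [h3]
      have h4 : |τ * η s| ^ 2 ≤ (|τ| * M) ^ 2 := pow_le_pow_left₀ (abs_nonneg _) this 2
      have e2 : (|τ| * M) ^ 2 = τ ^ 2 * M ^ 2 := by rw [mul_pow, sq_abs]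
      linarith
    have h3 : (A s ^ 2 + B s ^ 2) * (1 + (τ * η s) ^ 2) ≤ 1 * (1 + τ ^ 2 * M ^ 2) := by
      apply mul_le_mul h1 (by linarith) (by positivity) (by norm_num)
    have h4 : c ^ 2 * ((A s ^ 2 + B s ^ 2) * (1 + (τ * η s) ^ 2)) ≤ c ^ 2 * (1 * (1 + τ ^ 2 * M ^ 2)) :=
      mul_le_mul_of_nonneg_left h3 (by positivity)
    have h5 : c ^ 2 * (1 * (1 + τ ^ 2 * M ^ 2)) ≤ 1 := by
      have e3 : τ ^ 2 * M ^ 2 = 1 - c := by rw [hc]; ring
      rw [e3]
      have hc1 : c ≤ 1 := by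
        rw [hc]
        nlinarith [mul_nonneg (sq_nonneg τ) (sq_nonneg M)]
      have hc2 : 0 ≤ 1 + c - c ^ 2 := by nlinarith
      have := mul_nonneg (sub_nonneg.2 hc1) hc2
      nlinarith
    linarith

/-- The elementary inequality behind the first variation. -/
lemma fv_bound {V L₀ M τ ε : ℝ} (hτ : 0 < τ) (hsmall : τ ^ 2 * M ^ 2 ≤ 1 / 2)
    (h1 : (1 - τ ^ 2 * M ^ 2) * (V + τ * L₀) ≤ V + ε)
    (h2 : (1 - τ ^ 2 * M ^ 2) * (V + (-τ) * L₀) ≤ V + ε) :
    |L₀| ≤ 2 * τ * M ^ 2 * V + 2 * ε / τ := by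
  set t := τ ^ 2 * M ^ 2 with ht
  have ht0 : 0 ≤ t := by positivity
  have e : 2 * τ * M ^ 2 * V + 2 * ε / τ = (2 * (t * V + ε)) / τ := by
    rw [ht]
    field_simp
  rw [e, le_div_iff₀ hτ]
  have hmain : ∀ x : ℝ, 0 ≤ x → (1 - t) * (V + τ * x) ≤ V + ε → x * τ ≤ 2 * (t * V + ε) := by
    intro x hx h
    have h3 : (1 - t) * (τ * x) ≤ t * V + ε := by nlinarith
    have h4 : 0 ≤ τ * x := by positivity
    have h5 : (1 / 2) * (τ * x) ≤ (1 - t) * (τ * x) :=
      mul_le_mul_of_nonneg_right (by linarith) h4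
    nlinarith
  rcases le_total 0 L₀ with hL | hL
  · rw [abs_of_nonneg hL]
    exact hmain L₀ hL h1
  · rw [abs_of_nonpos hL]
    refine hmain (-L₀) (by linarith) ?_
    have e2 : V + τ * -L₀ = V + (-τ) * L₀ := by ring
    rw [e2]
    exact h2

/-- A number which is small compared with all small parameters vanishes. -/
lemma fv_zero {L₀ K τ₁ : ℝ} (hτ₁ : 0 < τ₁) (h : ∀ τ, 0 < τ → τ ≤ τ₁ → |L₀| ≤ τ * K) : L₀ = 0 := by
  by_contra hne
  have hpos : 0 < |L₀| := abs_pos.2 hne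
  have hK : 0 < K := by
    by_contra hK
    push Not at hK
    have := h τ₁ hτ₁ le_rfl
    nlinarith
  set τ := min τ₁ (|L₀| / (2 * K)) with hτ
  have hτ0 : 0 < τ := lt_min hτ₁ (by positivity)
  have h1 := h τ hτ0 (min_le_left _ _)
  have h2 : τ ≤ |L₀| / (2 * K) := min_le_right _ _
  have h3 : τ * K ≤ |L₀| / (2 * K) * K := mul_le_mul_of_nonneg_right h2 hK.le
  have h4 : |L₀| / (2 * K) * K = |L₀| / 2 := by
    field_simp
  rw [h4] at h3
  linarith

/-- A trapezoid on the interval `[u,v]` with slopes of width `d`. -/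
noncomputable def bmp (u v d s : ℝ) : ℝ := max 0 (min 1 (min ((s - u) / d) ((v - s) / d)))

lemma bmp_cont (u v d : ℝ) : Continuous (bmp u v d) := by
  unfold bmp
  exact continuous_const.max (continuous_const.min
    (((continuous_id.sub continuous_const).div_const d).min
      ((continuous_const.sub continuous_id).div_const d)))

lemma bmp_nonneg (u v d s : ℝ) : 0 ≤ bmp u v d s := le_max_left _ _

lemma bmp_le_one (u v d s : ℝ) : bmp u v d s ≤ 1 :=
  max_le zero_le_one (min_le_left _ _)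

lemma bmp_zero_left {u v d s : ℝ} (hd : 0 < d) (hs : s ≤ u) : bmp u v d s = 0 := by
  unfold bmp
  apply max_eq_left
  have h : (s - u) / d ≤ 0 := div_nonpos_of_nonpos_of_nonneg (by linarith) hd.le
  exact (min_le_right _ _).trans ((min_le_left _ _).trans h)

lemma bmp_zero_right {u v d s : ℝ} (hd : 0 < d) (hs : v ≤ s) : bmp u v d s = 0 := by
  unfold bmp
  apply max_eq_left
  have h : (v - s) / d ≤ 0 := div_nonpos_of_nonpos_of_nonneg (by linarith) hd.le
  exact (min_le_right _ _).trans ((min_le_right _ _).trans h)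

lemma bmp_eq_one {u v d s : ℝ} (hd : 0 < d) (h1 : u + d ≤ s) (h2 : s ≤ v - d) :
    bmp u v d s = 1 := by
  unfold bmp
  have h3 : 1 ≤ (s - u) / d := by rw [le_div_iff₀ hd]; linarith
  have h4 : 1 ≤ (v - s) / d := by rw [le_div_iff₀ hd]; linarith
  rw [min_eq_left (le_min h3 h4)]
  exact max_eq_right zero_le_one

lemma bmp_ne_zero {u v d s : ℝ} (hd : 0 < d) (h : bmp u v d s ≠ 0) : s ∈ Ioo u v := by
  constructor
  · by_contra hc
    push Not at hc
    exact h (bmp_zero_left hd hc)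
  · by_contra hc
    push Not at hc
    exact h (bmp_zero_right hd hc)

/-- The density of the profile. -/
noncomputable def rhoP (A B J : ℝ → ℝ) (s : ℝ) : ℝ := A s / (B s * J s)

/-- Hypotheses of the profile theorem. -/
structure ProfData (g g' W e : ℕ → ℝ → ℝ) (G Y : ℝ → ℝ) (Λ : ℕ → ℝ) (L : ℝ)
    (A B J Df D1 : ℝ → ℝ) (b : ℝ) : Prop where
  data : Data1 g g' W e G Y Λ L
  pair : CalibPair A B
  hb : 0 < b
  posA : ∀ s ∈ Ioo 0 b, 0 < A s
  posB : ∀ s ∈ Ioo 0 b, 0 < B s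
  cJ : Continuous J
  posJ : ∀ s ∈ Ioo 0 b, 0 < J s
  YJ : ∀ᵐ t, G t ∈ Ioo 0 b → Y t = J (G t)
  val : (∫ t in (0 : ℝ)..1, A (G t) * Y t) + 2 * ∫ s in (0 : ℝ)..b, B s = L
  mem : ∀ᵐ t, G t ∈ Icc 0 b
  top : ∀ ε > 0, ∃ t, Tendsto (fun k => g k t) atTop (𝓝 (G t)) ∧ G t ∈ Icc 0 b ∧ b - ε < G t
  low : ∀ ε > 0, ∃ t, Tendsto (fun k => g k t) atTop (𝓝 (G t)) ∧ G t ∈ Icc 0 b ∧ G t < ε
  dDf : ∀ s ∈ Ioo 0 b, HasDerivAt Df (rhoP A B J s) s
  cDf : ContinuousOn Df (Icc 0 b)
  dD1 : ∀ s ∈ Ioo 0 b, HasDerivAt D1 (s * rhoP A B J s) s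
  cD1 : ContinuousOn D1 (Icc 0 b)
  vol : ∫ t in (0 : ℝ)..1, G t = 2 * (D1 b - D1 0)
  width : 2 * (Df b - Df 0) < 1

lemma per_int {f : ℝ → ℝ} (hp : ∀ t, f (t + 1) = f t) (n : ℤ) (t : ℝ) : f (t + n) = f t := by
  have h : Function.Periodic f 1 := hp
  have := (h.int_mul n) t
  simpa using this

lemma exists_shift (x y : ℝ) : ∃ n : ℤ, x ≤ y + n ∧ y + n ≤ x + 1 := by
  refine ⟨⌈x - y⌉, ?_, ?_⟩
  · have := Int.le_ceil (x - y)
    linarith
  · have := Int.ceil_lt_add_one (x - y)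
    linarith

namespace ProfData

variable {g g' W e : ℕ → ℝ → ℝ} {G Y : ℝ → ℝ} {Λ : ℕ → ℝ} {L : ℝ} {A B J Df D1 : ℝ → ℝ} {b : ℝ}

/-- Good points. -/
def Gd (_P : ProfData g g' W e G Y Λ L A B J Df D1 b) (t : ℝ) : Prop :=
  Tendsto (fun k => g k t) atTop (𝓝 (G t)) ∧ G t ∈ Icc 0 b

lemma ae_Gd (P : ProfData g g' W e G Y Λ L A B J Df D1 b) : ∀ᵐ t, P.Gd t := by
  filter_upwards [P.data.conv, P.mem] with t h1 h2 using ⟨h1, h2⟩

lemma Gd_int (P : ProfData g g' W e G Y Λ L A B J Df D1 b) {t : ℝ} (h : P.Gd t) (n : ℤ) :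
    P.Gd (t + n) := by
  refine ⟨?_, ?_⟩
  · have e1 : ∀ k, g k (t + n) = g k t := fun k => per_int (P.data.pg k) n t
    have e2 : G (t + n) = G t := per_int P.data.pG n t
    simp only [e1, e2]
    exact h.1
  · rw [per_int P.data.pG n t]
    exact h.2

lemma primB_mono (P : ProfData g g' W e G Y Λ L A B J Df D1 b) {u v : ℝ} (h : u ≤ v) :
    primB B u ≤ primB B v := by
  have := primB_sub P.pair.contB u v
  have h2 : 0 ≤ ∫ r in u..v, B r :=
    intervalIntegral.integral_nonneg h fun r _ => P.pair.nonnegB r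
  linarith

lemma primB_sub_le (P : ProfData g g' W e G Y Λ L A B J Df D1 b) {u v : ℝ} (h : u ≤ v) :
    primB B v - primB B u ≤ v - u := by
  rw [primB_sub P.pair.contB u v]
  have h2 : ∫ r in u..v, B r ≤ ∫ _ in u..v, (1 : ℝ) :=
    intervalIntegral.integral_mono_on h (P.pair.contB.intervalIntegrable _ _) (by simp)
      fun r _ => calib_B_le_one' P.pair r
  simpa using h2

lemma primB_strict (P : ProfData g g' W e G Y Λ L A B J Df D1 b) {u v : ℝ} (h0 : 0 ≤ u) (h : u < v)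
    (hv : v ≤ b) : primB B u < primB B v := by
  rw [← sub_pos, primB_sub P.pair.contB u v]
  refine intervalIntegral.intervalIntegral_pos_of_pos_on (P.pair.contB.intervalIntegrable _ _)
    (fun r hr => P.posB r ⟨lt_of_le_of_lt h0 hr.1, lt_of_lt_of_le hr.2 hv⟩) h

lemma primB_zero (B : ℝ → ℝ) : primB B 0 = 0 := by simp [primB]

/-- The value of any calibration pair on the range. -/
theorem range_le (P : ProfData g g' W e G Y Λ L A B J Df D1 b) {A' B' : ℝ → ℝ}
    (hp : CalibPair A' B') :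
    (∫ t in (0 : ℝ)..1, A' (G t) * Y t) + 2 * ∫ s in (0 : ℝ)..b, B' s ≤ L := by
  have D := P.data
  refine le_of_forall_pos_le_add fun ε hε => ?_
  obtain ⟨x, hx, hx1, hx2⟩ := P.low (ε / 4) (by positivity)
  obtain ⟨y', hy', hy1, hy2⟩ := P.top (ε / 4) (by positivity)
  obtain ⟨n, hn1, hn2⟩ := exists_shift x y'
  set y := y' + n with hy
  have hgy := P.Gd_int ⟨hy', hy1⟩ n
  have eGy : G y = G y' := per_int D.pG n y'
  have h := D.two_arcs hp hp hn1 hn2 hx hgy.1
  have hai : ∀ a c : ℝ, IntervalIntegrable (fun t => A' (G t) * Y t) volume a c := fun a c =>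
    D.ii_comp hp.contA a c
  have e1 : (∫ t in x..y, A' (G t) * Y t) + ∫ t in y..(x + 1), A' (G t) * Y t =
      ∫ t in (0 : ℝ)..1, A' (G t) * Y t := by
    rw [intervalIntegral.integral_add_adjacent_intervals (hai _ _) (hai _ _), D.per_AY]
  have hP : primB B' (G y) - primB B' (G x) ≤ |primB B' (G y) - primB B' (G x)| := le_abs_self _
  have hP2 : primB B' (G y) - primB B' (G x) ≤ |primB B' (G x) - primB B' (G y)| := by
    rw [abs_sub_comm]
    exact hP
  have hmono1 : ∫ s in (0 : ℝ)..b, B' s = primB B' b := by simp [primB]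
  have hb1 : primB B' b - primB B' (G y) ≤ ε / 4 := by
    have h3 : G y ≤ b := hgy.2.2
    have h4 : primB B' b - primB B' (G y) = ∫ r in (G y)..b, B' r :=
      primB_sub hp.contB _ _
    have h5 : ∫ r in (G y)..b, B' r ≤ ∫ _ in (G y)..b, (1 : ℝ) :=
      intervalIntegral.integral_mono_on h3 (hp.contB.intervalIntegrable _ _) (by simp)
        fun r _ => calib_B_le_one' hp r
    rw [h4]
    refine h5.trans ?_
    simp only [intervalIntegral.integral_const, smul_eq_mul, mul_one]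
    rw [eGy]
    linarith
  have hb2 : primB B' (G x) ≤ ε / 4 := by
    have h3 : 0 ≤ G x := hx1.1
    have h4 : primB B' (G x) = ∫ r in (0 : ℝ)..(G x), B' r := rfl
    have h5 : ∫ r in (0 : ℝ)..(G x), B' r ≤ ∫ _ in (0 : ℝ)..(G x), (1 : ℝ) :=
      intervalIntegral.integral_mono_on h3 (hp.contB.intervalIntegrable _ _) (by simp)
        fun r _ => calib_B_le_one' hp r
    rw [h4]
    refine h5.trans ?_
    simp only [intervalIntegral.integral_const, smul_eq_mul, mul_one]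
    linarith
  rw [hmono1]
  linarith

lemma L_nonneg (P : ProfData g g' W e G Y Λ L A B J Df D1 b) : 0 ≤ L := by
  have D := P.data
  rw [← P.val]
  have h1 : 0 ≤ ∫ t in (0 : ℝ)..1, A (G t) * Y t :=
    intervalIntegral.integral_nonneg zero_le_one fun t _ =>
      mul_nonneg (P.pair.nonnegA _) (D.Y0 t)
  have h2 : 0 ≤ ∫ s in (0 : ℝ)..b, B s :=
    intervalIntegral.integral_nonneg P.hb.le fun s _ => P.pair.nonnegB s
  linarith

lemma int_rotA (P : ProfData g g' W e G Y Λ L A B J Df D1 b) {η : ℝ → ℝ} (hη : Continuous η)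
    (M τ x y : ℝ) :
    ∫ t in x..y, rotA A B η M τ (G t) * Y t =
      (1 - τ ^ 2 * M ^ 2) * ((∫ t in x..y, A (G t) * Y t) -
        τ * ∫ t in x..y, (η (G t) * B (G t)) * Y t) := by
  have D := P.data
  have e1 : ∀ t, rotA A B η M τ (G t) * Y t =
      (1 - τ ^ 2 * M ^ 2) * (A (G t) * Y t - τ * ((η (G t) * B (G t)) * Y t)) := fun t => by
    unfold rotA
    ring
  simp only [e1]
  rw [intervalIntegral.integral_const_mul, intervalIntegral.integral_sub
    (D.ii_comp P.pair.contA x y) ((D.ii_comp (f := fun s => η s * B s)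
      (hη.mul P.pair.contB) x y).const_mul τ), intervalIntegral.integral_const_mul]

lemma int_rotB (P : ProfData g g' W e G Y Λ L A B J Df D1 b) {η : ℝ → ℝ} (hη : Continuous η)
    (M τ u v : ℝ) :
    ∫ s in u..v, rotB A B η M τ s =
      (1 - τ ^ 2 * M ^ 2) * ((∫ s in u..v, B s) + τ * ∫ s in u..v, η s * A s) := by
  unfold rotB
  rw [intervalIntegral.integral_const_mul]
  have hc : Continuous fun s => η s * A s := hη.mul P.pair.contA
  have hadd : ∫ s in u..v, (B s + τ * (η s * A s)) =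
      (∫ s in u..v, B s) + ∫ s in u..v, τ * (η s * A s) :=
    intervalIntegral.integral_add (P.pair.contB.intervalIntegrable _ _)
      ((continuous_const.mul hc).intervalIntegrable _ _)
  rw [hadd, intervalIntegral.integral_const_mul]

/-- The first variation on the whole circle. -/
theorem fv_circle (P : ProfData g g' W e G Y Λ L A B J Df D1 b) {η : ℝ → ℝ} {M a₀ : ℝ}
    (hη : Continuous η) (hM : ∀ s, |η s| ≤ M) (ha₀ : 0 < a₀)
    (hsupp : ∀ s, η s ≠ 0 → a₀ ≤ A s ∧ a₀ ≤ B s) :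
    2 * (∫ s in (0 : ℝ)..b, η s * A s) = ∫ t in (0 : ℝ)..1, (η (G t) * B (G t)) * Y t := by
  have hM0 : 0 ≤ M := (abs_nonneg _).trans (hM 0)
  set L₀ := 2 * (∫ s in (0 : ℝ)..b, η s * A s) - ∫ t in (0 : ℝ)..1, (η (G t) * B (G t)) * Y t
    with hL₀
  have hL := P.L_nonneg
  have hval := P.val
  -- the expansion for all small parameters
  have hexp : ∀ τ, |τ| * M ≤ a₀ → |τ| * M ≤ 1 →
      (1 - τ ^ 2 * M ^ 2) * (L + τ * L₀) ≤ L := by
    intro τ h1 h2
    have hp := rot_pair P.pair hη hM hsupp h1 h2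
    have h3 := P.range_le hp
    rw [P.int_rotA hη, P.int_rotB hη] at h3
    have e : (1 - τ ^ 2 * M ^ 2) * (L + τ * L₀) =
        (1 - τ ^ 2 * M ^ 2) * ((∫ t in (0 : ℝ)..1, A (G t) * Y t) -
          τ * ∫ t in (0 : ℝ)..1, (η (G t) * B (G t)) * Y t) +
        2 * ((1 - τ ^ 2 * M ^ 2) * ((∫ s in (0 : ℝ)..b, B s) + τ * ∫ s in (0 : ℝ)..b, η s * A s)) := by
      rw [hL₀, ← hval]
      ring
    rw [e]
    exact h3
  have hM1 : 0 < M + 1 := by linarith
  set τ₁ := min (a₀ / (M + 1)) (min (1 / (M + 1)) (1 / (2 * (M + 1)))) with hτ₁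
  have hτ₁0 : 0 < τ₁ := lt_min (by positivity) (lt_min (by positivity) (by positivity))
  have hsm : ∀ τ, 0 < τ → τ ≤ τ₁ → τ * M ≤ a₀ ∧ τ * M ≤ 1 ∧ τ ^ 2 * M ^ 2 ≤ 1 / 2 := by
    intro τ h0 h1
    have h2 : τ ≤ a₀ / (M + 1) := h1.trans (min_le_left _ _)
    have h3 : τ ≤ 1 / (M + 1) := h1.trans ((min_le_right _ _).trans (min_le_left _ _))
    have h4 : τ ≤ 1 / (2 * (M + 1)) := h1.trans ((min_le_right _ _).trans (min_le_right _ _))
    rw [le_div_iff₀ hM1] at h2 h3
    rw [le_div_iff₀ (by positivity)] at h4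
    refine ⟨by nlinarith, by nlinarith, ?_⟩
    have h5 : τ * M ≤ 1 / 2 := by nlinarith
    have h6 : 0 ≤ τ * M := by positivity
    have e : τ ^ 2 * M ^ 2 = (τ * M) ^ 2 := by ring
    rw [e]
    nlinarith
  have hfin : L₀ = 0 := by
    refine fv_zero (K := 2 * M ^ 2 * L) hτ₁0 fun τ h0 h1 => ?_
    obtain ⟨h2, h3, h4⟩ := hsm τ h0 h1
    have habs1 : |τ| * M = τ * M := by rw [abs_of_pos h0]
    have habs2 : |(-τ)| * M = τ * M := by rw [abs_neg, abs_of_pos h0]
    have h5 := hexp τ (by rw [habs1]; exact h2) (by rw [habs1]; exact h3)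
    have h6 := hexp (-τ) (by rw [habs2]; exact h2) (by rw [habs2]; exact h3)
    have e2 : (-τ) ^ 2 = τ ^ 2 := by ring
    rw [e2] at h6
    have := fv_bound (V := L) (L₀ := L₀) (M := M) (τ := τ) (ε := 0) h0 h4 (by linarith) (by linarith)
    simp only [mul_zero, zero_div, add_zero] at this
    calc |L₀| ≤ 2 * τ * M ^ 2 * L := this
      _ = τ * (2 * M ^ 2 * L) := by ring
  rw [hL₀] at hfin
  linarith

end ProfData

end Vale.Agent.Lib.P232
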