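import Vale.Agent.Lib.P232.RigB

/-!
The distribution of the profile: test functions, bulk integrals, the top plateau and a zero node.
-/

open MeasureTheory Filter Topology Set
open scoped Real

namespace Vale.Agent.Lib.P232

/-- A periodic property holding almost everywhere on the unit interval holds almost everywhere. -/
lemma ae_per {p : ℝ → Prop} (hp : ∀ t, p (t + 1) ↔ p t) (h : ∀ᵐ t, t ∈ Ioc (0 : ℝ) 1 → p t) :
    ∀ᵐ t, p t := by
  have hz : ∀ (n : ℤ) (t : ℝ), p (t + n) ↔ p t := by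
    intro n t
    induction n using Int.induction_on generalizing t with
    | zero => simp
    | succ i ih =>
      have e : t + ((i : ℤ) + 1 : ℤ) = (t + (i : ℤ)) + 1 := by push_cast; ring
      rw [e, hp, ih]
    | pred i ih =>
      have e : t + (-(i : ℤ) - 1 : ℤ) + 1 = t + (-(i : ℤ) : ℤ) := by push_cast; ring
      rw [← hp, e, ih]
  have h1 : ∀ n : ℤ, ∀ᵐ t : ℝ, (t + (n : ℝ)) ∈ Ioc (0 : ℝ) 1 → p (t + n) := fun n =>
    (measurePreserving_add_right volume (n : ℝ)).quasiMeasurePreserving.ae h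
  filter_upwards [ae_all_iff.2 h1] with t ht
  have h2 := ht (1 - ⌈t⌉)
  rw [hz] at h2
  apply h2
  push_cast
  have h3 := Int.le_ceil t
  have h4 := Int.ceil_lt_add_one t
  constructor <;> linarith

lemma int_upper {φ dens Φ : ℝ → ℝ} {u v b : ℝ} (hφ : Continuous φ) (hu : 0 < u) (huv : u ≤ v)
    (hv : v < b) (h0 : ∀ s, s ∉ Ioo u v → φ s = 0) (hle : ∀ s ∈ Ioo u v, φ s ≤ dens s)
    (hd : ∀ s ∈ Ioo 0 b, HasDerivAt Φ (dens s) s) (hc : ContinuousOn dens (Ioo 0 b)) :
    ∫ s in (0 : ℝ)..b, φ s ≤ Φ v - Φ u := by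
  have hi : ∀ x y : ℝ, IntervalIntegrable φ volume x y := fun x y => hφ.intervalIntegrable x y
  have hsub : Icc u v ⊆ Ioo 0 b := fun s hs => ⟨lt_of_lt_of_le hu hs.1, lt_of_le_of_lt hs.2 hv⟩
  have hdi : IntervalIntegrable dens volume u v := by
    apply ContinuousOn.intervalIntegrable
    rw [uIcc_of_le huv]
    exact hc.mono hsub
  have e1 : ∫ s in (0 : ℝ)..u, φ s = 0 := by
    rw [intervalIntegral.integral_congr (g := fun _ => (0 : ℝ))]
    · simp
    · intro s hs
      rw [uIcc_of_le hu.le] at hs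
      exact h0 s fun h => absurd h.1 (not_lt.2 hs.2)
  have e2 : ∫ s in v..b, φ s = 0 := by
    rw [intervalIntegral.integral_congr (g := fun _ => (0 : ℝ))]
    · simp
    · intro s hs
      rw [uIcc_of_le hv.le] at hs
      exact h0 s fun h => absurd h.2 (not_lt.2 hs.1)
  have e3 : (∫ s in (0 : ℝ)..u, φ s) + (∫ s in u..v, φ s) + ∫ s in v..b, φ s =
      ∫ s in (0 : ℝ)..b, φ s := by
    rw [intervalIntegral.integral_add_adjacent_intervals (hi _ _) (hi _ _),
      intervalIntegral.integral_add_adjacent_intervals (hi _ _) (hi _ _)]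
  have e4 : ∫ s in u..v, dens s = Φ v - Φ u := by
    apply intervalIntegral.integral_eq_sub_of_hasDerivAt
    · intro s hs
      rw [uIcc_of_le huv] at hs
      exact hd s (hsub hs)
    · exact hdi
  have e5 : ∫ s in u..v, φ s ≤ ∫ s in u..v, dens s :=
    intervalIntegral.integral_mono_on_of_le_Ioo huv (hi _ _) hdi hle
  linarith

lemma int_lower {φ dens Φ : ℝ → ℝ} {u v b : ℝ} (hφ : Continuous φ) (hu : 0 < u) (huv : u ≤ v)
    (hv : v < b) (h0 : ∀ s, 0 ≤ φ s) (hle : ∀ s ∈ Icc u v, dens s ≤ φ s)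
    (hd : ∀ s ∈ Ioo 0 b, HasDerivAt Φ (dens s) s) (hc : ContinuousOn dens (Ioo 0 b)) :
    Φ v - Φ u ≤ ∫ s in (0 : ℝ)..b, φ s := by
  have hi : ∀ x y : ℝ, IntervalIntegrable φ volume x y := fun x y => hφ.intervalIntegrable x y
  have hsub : Icc u v ⊆ Ioo 0 b := fun s hs => ⟨lt_of_lt_of_le hu hs.1, lt_of_le_of_lt hs.2 hv⟩
  have hdi : IntervalIntegrable dens volume u v := by
    apply ContinuousOn.intervalIntegrable
    rw [uIcc_of_le huv]
    exact hc.mono hsub
  have e1 : 0 ≤ ∫ s in (0 : ℝ)..u, φ s :=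
    intervalIntegral.integral_nonneg hu.le fun s _ => h0 s
  have e2 : 0 ≤ ∫ s in v..b, φ s :=
    intervalIntegral.integral_nonneg hv.le fun s _ => h0 s
  have e3 : (∫ s in (0 : ℝ)..u, φ s) + (∫ s in u..v, φ s) + ∫ s in v..b, φ s =
      ∫ s in (0 : ℝ)..b, φ s := by
    rw [intervalIntegral.integral_add_adjacent_intervals (hi _ _) (hi _ _),
      intervalIntegral.integral_add_adjacent_intervals (hi _ _) (hi _ _)]
  have e4 : ∫ s in u..v, dens s = Φ v - Φ u := by
    apply intervalIntegral.integral_eq_sub_of_hasDerivAt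
    · intro s hs
      rw [uIcc_of_le huv] at hs
      exact hd s (hsub hs)
    · exact hdi
  have e5 : ∫ s in u..v, dens s ≤ ∫ s in u..v, φ s :=
    intervalIntegral.integral_mono_on huv hdi (hi _ _) hle
  linarith

namespace ProfData

variable {g g' W e : ℕ → ℝ → ℝ} {G Y : ℝ → ℝ} {Λ : ℕ → ℝ} {L : ℝ} {A B J Df D1 : ℝ → ℝ} {b : ℝ}

/-- A test function of the level gives an admissible rotation field. -/
theorem exists_eta (P : ProfData g g' W e G Y Λ L A B J Df D1 b) {ψ : ℝ → ℝ} (hψ : Continuous ψ)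
    {s₁ s₂ : ℝ} (h₁ : 0 < s₁) (h₁₂ : s₁ ≤ s₂) (h₂ : s₂ < b)
    (hsupp : ∀ s, s ∉ Ioo s₁ s₂ → ψ s = 0) :
    ∃ (η : ℝ → ℝ) (M a₀ : ℝ), Continuous η ∧ (∀ s, |η s| ≤ M) ∧ 0 < a₀ ∧
      (∀ s, η s ≠ 0 → a₀ ≤ A s ∧ a₀ ≤ B s) ∧ (∀ s, η s * A s = ψ s * rhoP A B J s) ∧
      (∀ s, s ∉ Ioo s₁ s₂ → η s = 0) ∧ ∀ᵐ t, η (G t) * B (G t) * Y t = ψ (G t) := by
  set c : ℝ → ℝ := fun s => max s₁ (min s s₂) with hc
  have hcc : Continuous c := continuous_const.max (continuous_id.min continuous_const)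
  have hcm : ∀ s, c s ∈ Icc s₁ s₂ := fun s =>
    ⟨le_max_left _ _, max_le h₁₂ (min_le_right _ _)⟩
  have hcs : ∀ s ∈ Icc s₁ s₂, c s = s := fun s hs => by
    simp only [hc]
    rw [min_eq_left hs.2, max_eq_right hs.1]
  have hin : ∀ s ∈ Icc s₁ s₂, s ∈ Ioo 0 b := fun s hs =>
    ⟨lt_of_lt_of_le h₁ hs.1, lt_of_le_of_lt hs.2 h₂⟩
  set β : ℝ → ℝ := fun s => B (c s) * J (c s) with hβ
  have hβc : Continuous β := (P.pair.contB.comp hcc).mul (P.cJ.comp hcc)
  have hβ0 : ∀ s, β s ≠ 0 := fun s => by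
    have h1 := hin _ (hcm s)
    exact (mul_pos (P.posB _ h1) (P.posJ _ h1)).ne'
  set η : ℝ → ℝ := fun s => ψ s / β s with hη
  have hηc : Continuous η := hψ.div hβc hβ0
  have hη0 : ∀ s, s ∉ Ioo s₁ s₂ → η s = 0 := fun s hs => by
    simp only [hη, hsupp s hs, zero_div]
  obtain ⟨M, hM⟩ := (isCompact_Icc (a := s₁) (b := s₂)).exists_bound_of_continuousOn hηc.continuousOn
  have hne : (Icc s₁ s₂).Nonempty := nonempty_Icc.2 h₁₂
  obtain ⟨sA, hsA, hmA⟩ := isCompact_Icc.exists_isMinOn hne P.pair.contA.continuousOn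
  obtain ⟨sB, hsB, hmB⟩ := isCompact_Icc.exists_isMinOn hne P.pair.contB.continuousOn
  refine ⟨η, max M 0, min (A sA) (B sB), hηc, ?_, ?_, ?_, ?_, hη0, ?_⟩
  · intro s
    by_cases hs : s ∈ Icc s₁ s₂
    · have := hM s hs
      rw [Real.norm_eq_abs] at this
      exact this.trans (le_max_left _ _)
    · have hs' : s ∉ Ioo s₁ s₂ := fun h => hs (Ioo_subset_Icc_self h)
      rw [hη0 s hs', abs_zero]
      exact le_max_right _ _
  · exact lt_min (P.posA _ (hin _ hsA)) (P.posB _ (hin _ hsB))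
  · intro s hs
    have hs' : s ∈ Icc s₁ s₂ := by
      by_contra h
      exact hs (hη0 s fun h' => h (Ioo_subset_Icc_self h'))
    exact ⟨(min_le_left _ _).trans (hmA hs'), (min_le_right _ _).trans (hmB hs')⟩
  · intro s
    by_cases hs : s ∈ Ioo s₁ s₂
    · have h1 := hin s (Ioo_subset_Icc_self hs)
      have e1 : c s = s := hcs s (Ioo_subset_Icc_self hs)
      have hB := (P.posB s h1).ne'
      have hJ := (P.posJ s h1).ne'
      simp only [hη, hβ, rhoP, e1]
      field_simp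
    · simp only [hη, hsupp s hs, zero_div, zero_mul]
  · filter_upwards [P.YJ] with t ht
    by_cases hs : G t ∈ Ioo s₁ s₂
    · have h1 := hin _ (Ioo_subset_Icc_self hs)
      have e1 : c (G t) = G t := hcs _ (Ioo_subset_Icc_self hs)
      have hB := (P.posB _ h1).ne'
      have hJ := (P.posJ _ h1).ne'
      simp only [hη, hβ, e1, ht h1]
      field_simp
    · simp only [hη, hsupp _ hs, zero_div, zero_mul]

lemma psi_rho_cont (P : ProfData g g' W e G Y Λ L A B J Df D1 b) {ψ : ℝ → ℝ} (hψ : Continuous ψ)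
    {s₁ s₂ : ℝ} (h₁ : 0 < s₁) (h₁₂ : s₁ ≤ s₂) (h₂ : s₂ < b)
    (hsupp : ∀ s, s ∉ Ioo s₁ s₂ → ψ s = 0) : Continuous fun s => ψ s * rhoP A B J s := by
  obtain ⟨η, M, a₀, h1, -, -, -, h5, -, -⟩ := P.exists_eta hψ h₁ h₁₂ h₂ hsupp
  have e : (fun s => ψ s * rhoP A B J s) = fun s => η s * A s := by
    funext s
    exact (h5 s).symm
  rw [e]
  exact h1.mul P.pair.contA

/-- The whole circle first variation in terms of a test function of the level. -/
theorem circle_psi (P : ProfData g g' W e G Y Λ L A B J Df D1 b) {ψ : ℝ → ℝ} (hψ : Continuous ψ)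
    {s₁ s₂ : ℝ} (h₁ : 0 < s₁) (h₁₂ : s₁ ≤ s₂) (h₂ : s₂ < b)
    (hsupp : ∀ s, s ∉ Ioo s₁ s₂ → ψ s = 0) :
    ∫ t in (0 : ℝ)..1, ψ (G t) = 2 * ∫ s in (0 : ℝ)..b, ψ s * rhoP A B J s := by
  obtain ⟨η, M, a₀, h1, h2, h3, h4, h5, -, h7⟩ := P.exists_eta hψ h₁ h₁₂ h₂ hsupp
  have h := P.fv_circle h1 h2 h3 h4
  have e1 : ∫ s in (0 : ℝ)..b, η s * A s = ∫ s in (0 : ℝ)..b, ψ s * rhoP A B J s := by
    simp only [h5]
  have e2 : ∫ t in (0 : ℝ)..1, η (G t) * B (G t) * Y t = ∫ t in (0 : ℝ)..1, ψ (G t) :=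
    intervalIntegral.integral_congr_ae (h7.mono fun t ht _ => ht)
  rw [← e2, ← h, e1]

lemma rho_cont (P : ProfData g g' W e G Y Λ L A B J Df D1 b) :
    ContinuousOn (rhoP A B J) (Ioo 0 b) := by
  refine ContinuousOn.div P.pair.contA.continuousOn
    (P.pair.contB.mul P.cJ).continuousOn fun s hs => ?_
  exact (mul_pos (P.posB s hs) (P.posJ s hs)).ne'

lemma rho_pos (P : ProfData g g' W e G Y Λ L A B J Df D1 b) {s : ℝ} (hs : s ∈ Ioo 0 b) :
    0 < rhoP A B J s :=
  div_pos (P.posA s hs) (mul_pos (P.posB s hs) (P.posJ s hs))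

/-- Integrating a trapezoid against a density. -/
theorem bmp_bounds (P : ProfData g g' W e G Y Λ L A B J Df D1 b) {h Φ : ℝ → ℝ} (hh : Continuous h)
    (hh0 : ∀ s ∈ Ioo 0 b, 0 ≤ h s) (hd : ∀ s ∈ Ioo 0 b, HasDerivAt Φ (h s * rhoP A B J s) s)
    {u v d : ℝ} (hd0 : 0 < d) (hu : 0 < u) (huv : u ≤ v) (hv : v < b) :
    (∫ s in (0 : ℝ)..b, (h s * bmp u v d s) * rhoP A B J s) ≤ Φ v - Φ u ∧
      (u + d ≤ v - d → Φ (v - d) - Φ (u + d) ≤
        ∫ s in (0 : ℝ)..b, (h s * bmp u v d s) * rhoP A B J s) := by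
  have hψ : Continuous fun s => h s * bmp u v d s := hh.mul (bmp_cont u v d)
  have hzero : ∀ s, s ∉ Ioo u v → h s * bmp u v d s = 0 := fun s hs => by
    have : bmp u v d s = 0 := by
      by_contra hne
      exact hs (bmp_ne_zero hd0 hne)
    rw [this, mul_zero]
  have hφ := P.psi_rho_cont hψ hu huv hv hzero
  have hsub : Ioo u v ⊆ Ioo 0 b := fun s hs => ⟨hu.trans hs.1, hs.2.trans hv⟩
  have hcd : ContinuousOn (fun s => h s * rhoP A B J s) (Ioo 0 b) :=
    hh.continuousOn.mul P.rho_cont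
  constructor
  · refine int_upper hφ hu huv hv (fun s hs => by rw [hzero s hs, zero_mul]) (fun s hs => ?_) hd hcd
    have h1 := hsub hs
    have h2 := P.rho_pos h1
    have h3 := hh0 s h1
    have h4 := bmp_le_one u v d s
    have h5 := bmp_nonneg u v d s
    have e : h s * bmp u v d s * rhoP A B J s = (h s * rhoP A B J s) * bmp u v d s := by ring
    rw [e]
    exact mul_le_of_le_one_right (mul_nonneg h3 h2.le) h4
  · intro hle
    have hu' : 0 < u + d := by linarith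
    have hv' : v - d < b := by linarith
    refine int_lower hφ hu' hle hv' (fun s => ?_) (fun s hs => ?_) hd hcd
    · by_cases hs : s ∈ Ioo u v
      · have h1 := hsub hs
        exact mul_nonneg (mul_nonneg (hh0 s h1) (bmp_nonneg _ _ _ _)) (P.rho_pos h1).le
      · rw [hzero s hs, zero_mul]
    · rw [bmp_eq_one hd0 hs.1 hs.2, mul_one]

/-- The integral over the bulk of a function of the level. -/
theorem bulk (P : ProfData g g' W e G Y Λ L A B J Df D1 b) {h Φ : ℝ → ℝ} (hh : Continuous h)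
    (hh0 : ∀ s ∈ Ioo 0 b, 0 ≤ h s) (hd : ∀ s ∈ Ioo 0 b, HasDerivAt Φ (h s * rhoP A B J s) s)
    (hcΦ : ContinuousOn Φ (Icc 0 b)) :
    ∫ t in (0 : ℝ)..1, (Ioo 0 b).indicator h (G t) = 2 * (Φ b - Φ 0) := by
  have hb := P.hb
  set δ : ℕ → ℝ := fun n => b / ((n : ℝ) + 4) with hδ
  have hδ0 : ∀ n, 0 < δ n := fun n => by simp only [hδ]; positivity
  have hδ4 : ∀ n, 4 * δ n ≤ b := fun n => by
    simp only [hδ]
    rw [← mul_div_assoc, div_le_iff₀ (by positivity)]
    have : (0 : ℝ) ≤ n := Nat.cast_nonneg n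
    nlinarith
  have hδlim : Tendsto δ atTop (𝓝 0) := by
    have h1 : Tendsto (fun n : ℕ => (n : ℝ) + 4) atTop atTop :=
      tendsto_atTop_add_const_right _ _ tendsto_natCast_atTop_atTop
    simpa [hδ] using h1.const_div_atTop b
  set ψ : ℕ → ℝ → ℝ := fun n s => h s * bmp (δ n) (b - δ n) (δ n) s with hψ
  -- pointwise limit
  have hlim : ∀ s, Tendsto (fun n => ψ n s) atTop (𝓝 ((Ioo 0 b).indicator h s)) := by
    intro s
    by_cases hs : s ∈ Ioo 0 b
    · rw [indicator_of_mem hs]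
      have h1 : ∀ᶠ n in atTop, 2 * δ n ≤ s ∧ s ≤ b - 2 * δ n := by
        have h2 : ∀ᶠ n in atTop, 2 * δ n < s := by
          have : Tendsto (fun n => 2 * δ n) atTop (𝓝 (2 * 0)) := hδlim.const_mul 2
          rw [mul_zero] at this
          exact this.eventually (gt_mem_nhds hs.1)
        have h3 : ∀ᶠ n in atTop, 2 * δ n < b - s := by
          have : Tendsto (fun n => 2 * δ n) atTop (𝓝 (2 * 0)) := hδlim.const_mul 2
          rw [mul_zero] at this
          exact this.eventually (gt_mem_nhds (by linarith [hs.2]))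
        filter_upwards [h2, h3] with n h2 h3
        exact ⟨h2.le, by linarith⟩
      refine tendsto_const_nhds.congr' ?_
      filter_upwards [h1] with n hn
      simp only [hψ]
      rw [bmp_eq_one (hδ0 n) (by linarith [hn.1]) (by linarith [hn.2]), mul_one]
    · rw [indicator_of_notMem hs]
      refine tendsto_const_nhds.congr fun n => ?_
      simp only [hψ]
      have : bmp (δ n) (b - δ n) (δ n) s = 0 := by
        by_contra hne
        have h1 := bmp_ne_zero (hδ0 n) hne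
        exact hs ⟨(hδ0 n).trans h1.1, by linarith [h1.2, hδ0 n]⟩
      rw [this, mul_zero]
  -- domination
  obtain ⟨C, hC⟩ := isCompact_Icc.exists_bound_of_continuousOn (s := Icc (0 : ℝ) 1) hh.continuousOn
  have hψc : ∀ n, Continuous (ψ n) := fun n => hh.mul (bmp_cont _ _ _)
  have hdom : Tendsto (fun n => ∫ t in (0 : ℝ)..1, ψ n (G t)) atTop
      (𝓝 (∫ t in (0 : ℝ)..1, (Ioo 0 b).indicator h (G t))) := by
    refine intervalIntegral.tendsto_integral_filter_of_dominated_convergence (fun _ => C)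
      (Eventually.of_forall fun n =>
        ((hψc n).measurable.comp P.data.mG).aestronglyMeasurable)
      (Eventually.of_forall fun n => Eventually.of_forall fun t _ => ?_)
      intervalIntegrable_const
      (Eventually.of_forall fun t _ => hlim (G t))
    have h1 := P.data.G01 t
    have h2 := hC (G t) ⟨h1.1, h1.2⟩
    simp only [hψ, norm_mul]
    have h3 : ‖bmp (δ n) (b - δ n) (δ n) (G t)‖ ≤ 1 := by
      rw [Real.norm_eq_abs, abs_of_nonneg (bmp_nonneg _ _ _ _)]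
      exact bmp_le_one _ _ _ _
    calc ‖h (G t)‖ * ‖bmp (δ n) (b - δ n) (δ n) (G t)‖ ≤ ‖h (G t)‖ * 1 :=
          mul_le_mul_of_nonneg_left h3 (norm_nonneg _)
      _ ≤ C := by rw [mul_one]; exact h2
  -- the values
  have hzero : ∀ n s, s ∉ Ioo (δ n) (b - δ n) → ψ n s = 0 := fun n s hs => by
    simp only [hψ]
    have : bmp (δ n) (b - δ n) (δ n) s = 0 := by
      by_contra hne
      exact hs (bmp_ne_zero (hδ0 n) hne)
    rw [this, mul_zero]
  have hle1 : ∀ n, δ n ≤ b - δ n := fun n => by linarith [hδ4 n, hδ0 n]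
  have hval : ∀ n, ∫ t in (0 : ℝ)..1, ψ n (G t) = 2 * ∫ s in (0 : ℝ)..b, ψ n s * rhoP A B J s :=
    fun n => P.circle_psi (hψc n) (hδ0 n) (hle1 n) (by linarith [hδ0 n]) (hzero n)
  have hbd := fun n => P.bmp_bounds hh hh0 hd (hδ0 n) (hδ0 n) (hle1 n) (by linarith [hδ0 n])
  -- limits at the two ends
  have hlow : Tendsto (fun n => Φ (δ n)) atTop (𝓝 (Φ 0)) := by
    have h1 := hcΦ 0 ⟨le_rfl, hb.le⟩
    refine h1.tendsto.comp (tendsto_nhdsWithin_iff.2 ⟨hδlim, Eventually.of_forall fun n => ?_⟩)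
    exact ⟨(hδ0 n).le, by linarith [hδ4 n, hδ0 n]⟩
  have hup : Tendsto (fun n => Φ (b - δ n)) atTop (𝓝 (Φ b)) := by
    have h1 := hcΦ b ⟨hb.le, le_rfl⟩
    have h2 : Tendsto (fun n => b - δ n) atTop (𝓝 (b - 0)) := tendsto_const_nhds.sub hδlim
    rw [sub_zero] at h2
    refine h1.tendsto.comp (tendsto_nhdsWithin_iff.2 ⟨h2, Eventually.of_forall fun n => ?_⟩)
    exact ⟨by linarith [hδ4 n, hδ0 n], by linarith [hδ0 n]⟩
  have hlow2 : Tendsto (fun n => Φ (δ n + δ n)) atTop (𝓝 (Φ 0)) := by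
    have h1 := hcΦ 0 ⟨le_rfl, hb.le⟩
    have h2 : Tendsto (fun n => δ n + δ n) atTop (𝓝 (0 + 0)) := hδlim.add hδlim
    rw [add_zero] at h2
    refine h1.tendsto.comp (tendsto_nhdsWithin_iff.2 ⟨h2, Eventually.of_forall fun n => ?_⟩)
    exact ⟨by linarith [hδ0 n], by linarith [hδ4 n, hδ0 n]⟩
  have hup2 : Tendsto (fun n => Φ (b - δ n - δ n)) atTop (𝓝 (Φ b)) := by
    have h1 := hcΦ b ⟨hb.le, le_rfl⟩
    have h2 : Tendsto (fun n => b - δ n - δ n) atTop (𝓝 (b - 0 - 0)) :=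
      (tendsto_const_nhds.sub hδlim).sub hδlim
    simp only [sub_zero] at h2
    refine h1.tendsto.comp (tendsto_nhdsWithin_iff.2 ⟨h2, Eventually.of_forall fun n => ?_⟩)
    exact ⟨by linarith [hδ4 n, hδ0 n], by linarith [hδ0 n]⟩
  have hsq : Tendsto (fun n => ∫ s in (0 : ℝ)..b, ψ n s * rhoP A B J s) atTop (𝓝 (Φ b - Φ 0)) := by
    refine tendsto_of_tendsto_of_tendsto_of_le_of_le (hup2.sub hlow2) (hup.sub hlow)
      (fun n => ?_) (fun n => (hbd n).1)
    exact (hbd n).2 (by linarith [hδ4 n])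
  have hsq2 : Tendsto (fun n => ∫ t in (0 : ℝ)..1, ψ n (G t)) atTop (𝓝 (2 * (Φ b - Φ 0))) := by
    simp only [hval]
    exact hsq.const_mul 2
  exact tendsto_nhds_unique hdom hsq2

/-- The total length of the bulk. -/
theorem bulk_one (P : ProfData g g' W e G Y Λ L A B J Df D1 b) :
    ∫ t in (0 : ℝ)..1, (Ioo 0 b).indicator (fun _ => (1 : ℝ)) (G t) = 2 * (Df b - Df 0) :=
  P.bulk continuous_const (fun _ _ => zero_le_one)
    (fun s hs => by simpa using P.dDf s hs) P.cDf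

/-- The top plateau is null. -/
theorem ae_lt_top (P : ProfData g g' W e G Y Λ L A B J Df D1 b) : ∀ᵐ t, G t < b := by
  have D := P.data
  have hb := P.hb
  have h1 : ∫ t in (0 : ℝ)..1, (Ioo 0 b).indicator (fun s => s) (G t) = 2 * (D1 b - D1 0) :=
    P.bulk continuous_id (fun s hs => hs.1.le) (fun s hs => P.dD1 s hs) P.cD1
  have hm1 : Measurable fun t => (Ioo 0 b).indicator (fun s => s) (G t) :=
    (measurable_id.indicator measurableSet_Ioo).comp D.mG
  set f : ℝ → ℝ := fun t => G t - (Ioo 0 b).indicator (fun s => s) (G t) with hf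
  have hbound : ∀ t, |(Ioo 0 b).indicator (fun s => s) (G t)| ≤ 1 := fun t => by
    by_cases hs : G t ∈ Ioo 0 b
    · rw [indicator_of_mem hs, abs_of_nonneg (D.G01 t).1]
      exact (D.G01 t).2
    · rw [indicator_of_notMem hs, abs_zero]
      exact zero_le_one
  have hi1 : IntervalIntegrable (fun t => (Ioo 0 b).indicator (fun s => s) (G t)) volume 0 1 :=
    ii_bdd hm1 hbound 0 1
  have hi2 : IntervalIntegrable G volume 0 1 :=
    ii_bdd D.mG (C := 1) (fun t => by rw [abs_of_nonneg (D.G01 t).1]; exact (D.G01 t).2) 0 1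
  have hint : ∫ t in (0 : ℝ)..1, f t = 0 := by
    simp only [hf]
    rw [intervalIntegral.integral_sub hi2 hi1, h1, P.vol, sub_self]
  have hfm : Measurable f := D.mG.sub hm1
  have hfnn : ∀ᵐ t, 0 ≤ f t := by
    filter_upwards [P.mem] with t ht
    simp only [hf]
    by_cases hs : G t ∈ Ioo 0 b
    · rw [indicator_of_mem hs, sub_self]
    · rw [indicator_of_notMem hs, sub_zero]
      exact ht.1
  have hfi : IntervalIntegrable f volume 0 1 := hi2.sub hi1
  rw [intervalIntegral.integral_of_le zero_le_one] at hint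
  have hae : f =ᵐ[volume.restrict (Ioc (0 : ℝ) 1)] 0 := by
    have h3 : IntegrableOn f (Ioc (0 : ℝ) 1) := by
      rw [intervalIntegrable_iff, uIoc_of_le zero_le_one] at hfi
      exact hfi
    exact (integral_eq_zero_iff_of_nonneg_ae (ae_restrict_of_ae hfnn) h3).1 hint
  have hae2 : ∀ᵐ t, t ∈ Ioc (0 : ℝ) 1 → f t = 0 := by
    rw [Filter.EventuallyEq, ae_restrict_iff' measurableSet_Ioc] at hae
    filter_upwards [hae] with t ht hI using ht hI
  have hper : ∀ t, f (t + 1) = f t := fun t => by simp only [hf, D.pG]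
  have hae3 : ∀ᵐ t, f t = 0 := ae_per (fun t => by rw [hper]) hae2
  filter_upwards [hae3, P.mem] with t h3 h4
  rcases lt_or_eq_of_le h4.2 with h5 | h5
  · exact h5
  · exfalso
    have hs : G t ∉ Ioo 0 b := fun h => absurd h.2 (by rw [h5]; exact lt_irrefl _)
    simp only [hf, indicator_of_notMem hs, sub_zero] at h3
    rw [h5] at h3
    exact hb.ne' h3

/-- There is a good node where the profile vanishes. -/
theorem exists_zero (P : ProfData g g' W e G Y Λ L A B J Df D1 b) : ∃ o, P.Gd o ∧ G o = 0 := by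
  by_contra hcon
  push Not at hcon
  have D := P.data
  have h1 : ∀ᵐ t, (Ioo 0 b).indicator (fun _ => (1 : ℝ)) (G t) = 1 := by
    filter_upwards [P.ae_Gd, P.ae_lt_top] with t h2 h3
    rw [indicator_of_mem]
    exact ⟨lt_of_le_of_ne h2.2.1 (Ne.symm (hcon t h2)), h3⟩
  have h2 : ∫ t in (0 : ℝ)..1, (Ioo 0 b).indicator (fun _ => (1 : ℝ)) (G t) = 1 := by
    rw [intervalIntegral.integral_congr_ae (g := fun _ => (1 : ℝ)) (h1.mono fun t ht _ => ht)]
    simp
  have h3 := P.bulk_one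
  have h4 := P.width
  linarith

end ProfData

end Vale.Agent.Lib.P232
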