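import Vale.Agent.Lib.P232.CertSlab
import Vale.Agent.Lib.P232.CertTube

/-!
# Strict certificates for the slab, the tube and the ball

The certificates of the finite ranges of parameters, with a positive slack `1 / 100000`.
-/

set_option linter.unusedVariables false

open MeasureTheory Filter Topology Set
open scoped Real

namespace Vale.Agent.Lib.P232

namespace CertImpl

open Fast

/-- The target check with a slack of `1 / 100000`. -/
def finS (fin : ℤ → ℤ → Bool) (K LHS : ℤ) : Bool := fin K (LHS - 10000000)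

lemma finS_sound {fin : ℤ → ℤ → Bool} {T V : ℝ}
    (hT : ∀ K LHS : ℤ, fin K LHS = true → T ≤ (K : ℝ) / 1000000 * V + (LHS : ℝ) / 1000000000000) :
    ∀ K LHS : ℤ, finS fin K LHS = true →
      T + 1 / 100000 ≤ (K : ℝ) / 1000000 * V + (LHS : ℝ) / 1000000000000 := by
  intro K LHS h
  have h1 := hT K (LHS - 10000000) h
  push_cast at h1
  have e : ((LHS : ℝ) - 10000000) / 1000000000000 = (LHS : ℝ) / 1000000000000 - 1 / 100000 := by
    ring
  rw [e] at h1
  linarith

/-- The certificate `slabS1`. -/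
def slabS1 : FTree :=
  (.node (.node (.node (.node (.node (.node (.node (.leaf 127) (.node (.node (.leaf 15)
  (.leaf 15)) (.leaf 127))) (.node (.leaf 63) (.leaf 127))) (.node (.node (.node (.node
  (.leaf 63) (.leaf 127)) (.node (.leaf 15) (.leaf 15))) (.node (.node (.node (.leaf 255)
  (.leaf 31)) (.node (.node (.leaf 31) (.node (.node (.leaf 31) (.node (.node (.leaf 31)
  (.node (.node (.leaf 31) (.node (.node (.leaf 31) (.leaf 255)) (.leaf 127))) (.leaf
  255))) (.node (.leaf 15) (.leaf 127)))) (.node (.leaf 15) (.leaf 255)))) (.node (.leaf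
  15) (.node (.node (.leaf 15) (.leaf 63)) (.node (.leaf 15) (.leaf 63)))))) (.node
  (.leaf 15) (.node (.node (.leaf 15) (.leaf 127)) (.node (.leaf 15) (.leaf 63))))))
  (.node (.node (.leaf 15) (.leaf 15)) (.node (.leaf 15) (.node (.node (.leaf 15) (.leaf
  63)) (.node (.leaf 15) (.leaf 31))))))) (.node (.node (.node (.leaf 15) (.leaf 15))
  (.node (.leaf 15) (.leaf 15))) (.node (.node (.leaf 15) (.leaf 15)) (.node (.leaf 15)
  (.node (.node (.leaf 15) (.leaf 31)) (.leaf 255)))))) (.node (.node (.node (.leaf 15)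
  (.leaf 15)) (.node (.leaf 15) (.leaf 15))) (.node (.node (.leaf 15) (.leaf 15)) (.node
  (.leaf 15) (.node (.leaf 127) (.leaf 31)))))) (.node (.node (.node (.node (.leaf 15)
  (.node (.leaf 15) (.leaf 15))) (.node (.leaf 127) (.node (.leaf 31) (.leaf 63))))
  (.node (.node (.leaf 31) (.node (.leaf 31) (.leaf 15))) (.node (.leaf 15) (.leaf 15))))
  (.node (.node (.leaf 31) (.leaf 15)) (.node (.leaf 15) (.node (.leaf 31) (.leaf
  15)))))) (.node (.node (.node (.node (.node (.node (.leaf 15) (.leaf 63)) (.node (.node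
  (.leaf 15) (.leaf 15)) (.node (.node (.leaf 15) (.leaf 63)) (.node (.node (.leaf 15)
  (.leaf 63)) (.node (.leaf 31) (.node (.leaf 127) (.node (.leaf 15) (.leaf 63))))))))
  (.node (.node (.node (.leaf 15) (.node (.leaf 15) (.node (.leaf 15) (.leaf 15))))
  (.node (.node (.leaf 15) (.node (.leaf 15) (.leaf 63))) (.node (.node (.leaf 31) (.node
  (.leaf 31) (.node (.leaf 15) (.leaf 15)))) (.node (.node (.leaf 127) (.node (.leaf 15)
  (.leaf 15))) (.node (.node (.leaf 15) (.leaf 15)) (.node (.leaf 15) (.leaf 15)))))))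
  (.node (.node (.node (.node (.leaf 31) (.node (.leaf 127) (.node (.leaf 15) (.leaf
  31)))) (.node (.node (.leaf 63) (.node (.leaf 15) (.leaf 31))) (.node (.node (.leaf 31)
  (.leaf 127)) (.node (.leaf 255) (.node (.leaf 127) (.node (.leaf 31) (.leaf 31)))))))
  (.node (.node (.node (.node (.leaf 31) (.leaf 15)) (.node (.leaf 31) (.leaf 31)))
  (.node (.node (.leaf 15) (.leaf 15)) (.node (.leaf 15) (.leaf 15)))) (.node (.node
  (.node (.leaf 127) (.leaf 31)) (.node (.node (.leaf 63) (.leaf 127)) (.leaf 31)))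
  (.node (.node (.leaf 15) (.leaf 15)) (.node (.leaf 15) (.leaf 15)))))) (.node (.node
  (.node (.node (.node (.leaf 31) (.leaf 127)) (.node (.leaf 63) (.node (.leaf 127)
  (.node (.leaf 31) (.leaf 63))))) (.node (.node (.node (.leaf 255) (.node (.leaf 31)
  (.leaf 31))) (.node (.node (.leaf 31) (.leaf 31)) (.node (.leaf 31) (.leaf 31))))
  (.node (.node (.node (.leaf 63) (.leaf 63)) (.node (.leaf 63) (.leaf 63))) (.node
  (.node (.leaf 63) (.leaf 31)) (.node (.leaf 63) (.leaf 31)))))) (.node (.node (.node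
  (.leaf 255) (.node (.node (.leaf 31) (.leaf 63)) (.node (.leaf 63) (.leaf 127))))
  (.node (.node (.leaf 255) (.node (.leaf 31) (.leaf 63))) (.node (.node (.leaf 63)
  (.leaf 127)) (.node (.leaf 127) (.leaf 255))))) (.node (.node (.node (.node (.leaf 63)
  (.leaf 63)) (.node (.leaf 127) (.leaf 127))) (.node (.node (.leaf 63) (.leaf 31))
  (.node (.leaf 63) (.leaf 31)))) (.node (.node (.node (.leaf 255) (.leaf 127)) (.node
  (.leaf 255) (.leaf 127))) (.node (.node (.leaf 63) (.leaf 31)) (.node (.leaf 63) (.leaf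
  31))))))) (.node (.node (.node (.node (.node (.leaf 127) (.leaf 127)) (.leaf 31))
  (.node (.node (.leaf 255) (.leaf 127)) (.leaf 31))) (.node (.node (.leaf 15) (.leaf
  15)) (.leaf 127))) (.node (.node (.node (.leaf 255) (.leaf 15)) (.node (.leaf 127)
  (.leaf 15))) (.leaf 63))))))) (.node (.node (.node (.node (.leaf 63) (.node (.leaf 15)
  (.leaf 63))) (.node (.node (.node (.leaf 31) (.node (.node (.leaf 31) (.leaf 127))
  (.node (.leaf 31) (.node (.leaf 63) (.leaf 127))))) (.node (.leaf 127) (.node (.node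
  (.leaf 63) (.node (.leaf 127) (.leaf 255))) (.node (.leaf 63) (.node (.leaf 255) (.node
  (.leaf 31) (.leaf 63))))))) (.node (.node (.node (.leaf 63) (.leaf 63)) (.node (.node
  (.leaf 63) (.node (.node (.leaf 31) (.leaf 63)) (.node (.leaf 31) (.leaf 63)))) (.node
  (.leaf 63) (.node (.leaf 255) (.leaf 255))))) (.node (.node (.leaf 127) (.leaf 127))
  (.node (.node (.leaf 63) (.leaf 255)) (.node (.leaf 63) (.leaf 127))))))) (.node (.node
  (.node (.leaf 15) (.leaf 63)) (.node (.leaf 15) (.leaf 31))) (.node (.node (.node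
  (.leaf 255) (.node (.node (.leaf 31) (.leaf 63)) (.node (.leaf 31) (.leaf 31)))) (.node
  (.leaf 127) (.node (.node (.leaf 31) (.leaf 31)) (.node (.leaf 31) (.leaf 31)))))
  (.node (.node (.leaf 63) (.leaf 127)) (.node (.leaf 31) (.leaf 31)))))) (.node (.node
  (.node (.node (.node (.node (.node (.node (.node (.leaf 63) (.leaf 63)) (.node (.leaf
  63) (.leaf 127))) (.node (.node (.leaf 127) (.leaf 255)) (.node (.leaf 255) (.node
  (.leaf 255) (.leaf 255))))) (.node (.node (.node (.leaf 63) (.leaf 127)) (.node (.leaf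
  63) (.leaf 127))) (.node (.node (.leaf 255) (.node (.leaf 255) (.leaf 255))) (.node
  (.leaf 255) (.leaf 255))))) (.node (.node (.node (.node (.leaf 255) (.leaf 127)) (.node
  (.leaf 255) (.leaf 63))) (.node (.node (.leaf 63) (.leaf 31)) (.node (.leaf 31) (.leaf
  31)))) (.node (.node (.node (.leaf 127) (.leaf 63)) (.node (.leaf 127) (.leaf 63)))
  (.node (.node (.leaf 31) (.leaf 31)) (.node (.leaf 31) (.leaf 15)))))) (.node (.node
  (.node (.node (.node (.leaf 63) (.leaf 127)) (.node (.leaf 63) (.leaf 127))) (.node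
  (.node (.leaf 255) (.leaf 255)) (.node (.leaf 127) (.leaf 127)))) (.node (.node (.node
  (.leaf 63) (.leaf 127)) (.node (.leaf 63) (.leaf 127))) (.node (.node (.leaf 127)
  (.leaf 127)) (.node (.leaf 127) (.leaf 63))))) (.node (.node (.node (.node (.leaf 127)
  (.leaf 63)) (.node (.leaf 63) (.leaf 31))) (.node (.leaf 255) (.leaf 127))) (.node
  (.node (.node (.leaf 63) (.leaf 31)) (.node (.leaf 63) (.leaf 31))) (.leaf 63)))))
  (.node (.node (.node (.node (.leaf 63) (.leaf 15)) (.node (.leaf 31) (.leaf 15)))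
  (.leaf 15)) (.node (.node (.node (.leaf 31) (.leaf 15)) (.node (.leaf 15) (.leaf 15)))
  (.leaf 15)))) (.node (.node (.node (.node (.node (.node (.node (.leaf 63) (.leaf 63))
  (.node (.leaf 63) (.leaf 63))) (.node (.node (.leaf 63) (.leaf 63)) (.node (.leaf 63)
  (.leaf 63)))) (.node (.node (.node (.leaf 63) (.leaf 63)) (.node (.leaf 63) (.leaf
  63))) (.node (.node (.leaf 63) (.leaf 31)) (.node (.leaf 31) (.leaf 31))))) (.node
  (.node (.node (.node (.leaf 31) (.leaf 31)) (.leaf 255)) (.leaf 31)) (.node (.leaf 127)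
  (.leaf 31)))) (.node (.node (.node (.node (.node (.leaf 31) (.leaf 31)) (.leaf 255))
  (.leaf 255)) (.node (.leaf 127) (.leaf 63))) (.node (.node (.leaf 63) (.leaf 15))
  (.node (.leaf 31) (.leaf 15))))) (.node (.node (.node (.node (.leaf 15) (.leaf 15))
  (.leaf 127)) (.leaf 15)) (.node (.leaf 31) (.leaf 15))))) (.node (.node (.node (.node
  (.node (.node (.leaf 63) (.leaf 31)) (.node (.leaf 31) (.leaf 31))) (.node (.node
  (.leaf 31) (.leaf 15)) (.node (.leaf 15) (.leaf 15)))) (.node (.node (.node (.leaf 31)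
  (.leaf 15)) (.node (.leaf 31) (.leaf 15))) (.leaf 63))) (.node (.node (.leaf 15) (.leaf
  15)) (.node (.leaf 15) (.leaf 15)))) (.node (.node (.node (.leaf 63) (.leaf 31)) (.node
  (.leaf 31) (.leaf 15))) (.node (.node (.leaf 15) (.leaf 15)) (.leaf 127))))))) (.node
  (.node (.node (.node (.node (.leaf 127) (.leaf 31)) (.node (.node (.node (.leaf 31)
  (.leaf 31)) (.node (.leaf 15) (.leaf 15))) (.leaf 255))) (.node (.leaf 31) (.leaf 31)))
  (.node (.node (.node (.node (.node (.leaf 15) (.leaf 15)) (.node (.leaf 15) (.leaf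
  15))) (.leaf 15)) (.node (.leaf 63) (.leaf 15))) (.node (.node (.leaf 15) (.leaf 15))
  (.node (.leaf 15) (.leaf 15))))) (.node (.node (.node (.leaf 15) (.leaf 15)) (.leaf
  31)) (.leaf 63)))) (.node (.node (.node (.leaf 15) (.leaf 15)) (.leaf 31)) (.node
  (.leaf 31) (.node (.leaf 15) (.leaf 15))))))

theorem vtf_slabS1 : vtf (finS finSlab) slabS1 100 318400 360000 1000000 = true := by
  decide +kernel

/-- The certificate `slabS2`. -/
def slabS2 : FTree :=
  (.node (.node (.leaf 31) (.node (.leaf 15) (.leaf 15))) (.node (.node (.leaf 63) (.leaf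
  255)) (.node (.node (.leaf 31) (.leaf 31)) (.node (.leaf 63) (.node (.leaf 31) (.node
  (.leaf 31) (.node (.leaf 63) (.node (.leaf 63) (.node (.leaf 63) (.leaf 255))))))))))

theorem vtf_slabS2 : vtf (finS finSlab) slabS2 0 100 360000 999900 = true := by
  decide +kernel

/-- The certificate `slabS3`. -/
def slabS3 : FTree :=
  (.node (.node (.leaf 15) (.leaf 15)) (.leaf 15))

theorem vtf_slabS3 : vtf (finS finSlab) slabS3 318300 500000 681000 1000000 = true := by
  decide +kernel

/-- The certificate `tubeS1`. -/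
def tubeS1 : FTree :=
  (.node (.node (.node (.node (.node (.node (.node (.node (.node (.node (.node (.node
  (.leaf 31) (.leaf 31)) (.leaf 63)) (.node (.node (.leaf 63) (.leaf 63)) (.leaf 63)))
  (.node (.leaf 31) (.leaf 31))) (.node (.node (.node (.node (.leaf 31) (.leaf 31))
  (.leaf 63)) (.node (.node (.leaf 31) (.leaf 63)) (.leaf 63))) (.node (.leaf 31) (.leaf
  63)))) (.node (.node (.leaf 31) (.leaf 31)) (.node (.leaf 31) (.leaf 63)))) (.node
  (.node (.node (.node (.node (.node (.leaf 63) (.leaf 63)) (.leaf 127)) (.node (.node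
  (.leaf 63) (.leaf 63)) (.leaf 63))) (.node (.leaf 63) (.leaf 63))) (.node (.node (.leaf
  127) (.leaf 31)) (.leaf 63))) (.node (.node (.leaf 63) (.leaf 31)) (.leaf 31)))) (.node
  (.node (.node (.node (.leaf 15) (.leaf 15)) (.node (.leaf 15) (.leaf 15))) (.node
  (.node (.leaf 31) (.leaf 31)) (.node (.leaf 31) (.leaf 31)))) (.node (.node (.node
  (.leaf 31) (.leaf 31)) (.node (.leaf 31) (.leaf 15))) (.leaf 31)))) (.node (.node
  (.node (.node (.leaf 63) (.leaf 31)) (.leaf 255)) (.node (.node (.leaf 15) (.leaf 31))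
  (.leaf 63))) (.node (.leaf 63) (.leaf 31)))) (.node (.node (.node (.node (.node (.leaf
  15) (.leaf 15)) (.node (.leaf 15) (.leaf 31))) (.node (.node (.leaf 63) (.leaf 127))
  (.node (.node (.leaf 15) (.leaf 31)) (.node (.leaf 31) (.leaf 31))))) (.node (.node
  (.node (.leaf 63) (.leaf 31)) (.node (.leaf 31) (.leaf 15))) (.leaf 31))) (.node (.leaf
  31) (.leaf 15)))) (.node (.node (.node (.node (.node (.leaf 31) (.node (.leaf 255)
  (.node (.leaf 15) (.leaf 31)))) (.node (.node (.leaf 15) (.leaf 31)) (.node (.node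
  (.leaf 31) (.node (.leaf 15) (.leaf 31))) (.node (.node (.leaf 31) (.leaf 31)) (.node
  (.leaf 63) (.node (.leaf 31) (.leaf 63))))))) (.node (.node (.node (.node (.leaf 31)
  (.leaf 31)) (.node (.leaf 63) (.leaf 127))) (.node (.node (.leaf 31) (.leaf 31)) (.node
  (.leaf 63) (.leaf 31)))) (.node (.node (.node (.node (.leaf 63) (.leaf 63)) (.node
  (.node (.leaf 63) (.leaf 63)) (.node (.leaf 63) (.leaf 63)))) (.node (.node (.leaf 63)
  (.leaf 63)) (.node (.node (.leaf 31) (.leaf 63)) (.leaf 127)))) (.node (.node (.leaf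
  127) (.leaf 127)) (.node (.leaf 31) (.leaf 31)))))) (.node (.node (.node (.node (.leaf
  31) (.leaf 31)) (.leaf 31)) (.node (.leaf 127) (.leaf 15))) (.leaf 63))) (.node (.leaf
  15) (.leaf 15)))) (.node (.node (.node (.node (.node (.node (.node (.leaf 15) (.node
  (.leaf 63) (.node (.leaf 15) (.leaf 63)))) (.node (.node (.leaf 15) (.leaf 127)) (.node
  (.node (.leaf 31) (.leaf 127)) (.node (.node (.leaf 31) (.leaf 63)) (.node (.leaf 63)
  (.node (.leaf 31) (.leaf 31))))))) (.node (.node (.node (.node (.leaf 31) (.node (.leaf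
  31) (.leaf 63))) (.node (.node (.leaf 63) (.leaf 127)) (.node (.node (.leaf 31) (.leaf
  63)) (.node (.leaf 63) (.leaf 63))))) (.node (.node (.node (.leaf 63) (.node (.leaf 31)
  (.leaf 63))) (.node (.leaf 255) (.node (.leaf 63) (.leaf 63)))) (.node (.node (.node
  (.leaf 63) (.leaf 127)) (.node (.leaf 127) (.leaf 255))) (.node (.node (.leaf 127)
  (.leaf 127)) (.node (.leaf 127) (.leaf 127)))))) (.node (.node (.node (.node (.node
  (.leaf 31) (.leaf 31)) (.node (.leaf 63) (.leaf 63))) (.node (.node (.leaf 31) (.leaf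
  31)) (.node (.leaf 63) (.leaf 31)))) (.node (.node (.node (.leaf 63) (.leaf 63)) (.node
  (.leaf 127) (.leaf 127))) (.node (.node (.leaf 63) (.leaf 31)) (.node (.leaf 63) (.leaf
  31))))) (.node (.node (.node (.node (.leaf 127) (.leaf 63)) (.node (.leaf 127) (.leaf
  63))) (.node (.node (.leaf 31) (.leaf 31)) (.node (.leaf 31) (.leaf 15)))) (.node
  (.node (.node (.leaf 127) (.leaf 63)) (.node (.leaf 63) (.leaf 31))) (.node (.node
  (.leaf 31) (.leaf 15)) (.leaf 63))))))) (.node (.node (.node (.node (.leaf 127) (.node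
  (.leaf 31) (.leaf 15))) (.node (.node (.leaf 15) (.leaf 15)) (.node (.leaf 15) (.leaf
  15)))) (.node (.node (.node (.node (.leaf 15) (.leaf 31)) (.leaf 31)) (.node (.node
  (.leaf 63) (.leaf 63)) (.leaf 31))) (.node (.node (.leaf 15) (.leaf 15)) (.leaf 31))))
  (.node (.node (.node (.node (.node (.leaf 127) (.leaf 63)) (.leaf 15)) (.node (.node
  (.leaf 63) (.leaf 31)) (.leaf 15))) (.leaf 15)) (.node (.node (.node (.leaf 31) (.leaf
  15)) (.node (.leaf 15) (.leaf 15))) (.leaf 15))))) (.node (.node (.node (.node (.node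
  (.node (.node (.leaf 255) (.node (.leaf 63) (.leaf 63))) (.node (.leaf 127) (.leaf
  127))) (.node (.node (.node (.leaf 63) (.leaf 63)) (.leaf 255)) (.node (.leaf 63)
  (.leaf 63)))) (.node (.node (.node (.leaf 63) (.leaf 31)) (.leaf 127)) (.node (.leaf
  255) (.leaf 63)))) (.node (.node (.node (.node (.node (.leaf 63) (.leaf 31)) (.node
  (.leaf 31) (.leaf 31))) (.leaf 63)) (.node (.leaf 255) (.leaf 31))) (.node (.node
  (.leaf 31) (.leaf 15)) (.node (.leaf 15) (.leaf 15))))) (.node (.node (.node (.leaf 63)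
  (.leaf 31)) (.leaf 127)) (.leaf 127))) (.node (.node (.node (.node (.node (.leaf 15)
  (.leaf 15)) (.leaf 31)) (.leaf 15)) (.node (.leaf 15) (.leaf 15))) (.node (.node (.leaf
  15) (.leaf 15)) (.leaf 31))))) (.node (.node (.node (.node (.leaf 31) (.leaf 15))
  (.leaf 31)) (.leaf 15)) (.node (.leaf 15) (.leaf 15)))) (.node (.leaf 15) (.leaf 15))))

theorem vtf_tubeS1 : vtf (finS finTube) tubeS1 2500 265000 318300 1000000 = true := by
  decide +kernel

/-- The certificate `tubeS2`. -/
def tubeS2 : FTree :=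
  (.node (.node (.node (.leaf 127) (.leaf 63)) (.leaf 63)) (.node (.leaf 31) (.leaf
  127)))

theorem vtf_tubeS2 : vtf (finS finTube) tubeS2 0 2500 700000 1000000 = true := by
  decide +kernel

/-- The certificate `ballS1`. -/
def ballS1 : FTree :=
  (.node (.node (.node (.node (.node (.node (.node (.node (.node (.node (.node (.node
  (.leaf 31) (.leaf 31)) (.leaf 127)) (.node (.node (.leaf 31) (.leaf 31)) (.leaf 127)))
  (.node (.leaf 63) (.leaf 63))) (.node (.node (.leaf 127) (.leaf 31)) (.leaf 255)))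
  (.node (.node (.leaf 31) (.leaf 31)) (.leaf 31))) (.leaf 127)) (.node (.node (.node
  (.leaf 31) (.leaf 15)) (.leaf 15)) (.leaf 15))) (.leaf 63)) (.node (.node (.node (.node
  (.leaf 127) (.leaf 31)) (.leaf 15)) (.leaf 15)) (.leaf 15))) (.node (.node (.node
  (.node (.leaf 15) (.leaf 15)) (.leaf 15)) (.leaf 15)) (.leaf 15))) (.node (.node (.node
  (.node (.leaf 15) (.leaf 15)) (.leaf 15)) (.leaf 15)) (.leaf 15)))

theorem vtf_ballS1 : vtf (finS finalOK) ballS1 2500 155200 318300 1000000 = true := by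
  decide +kernel

/-- The certificate `ballS2`. -/
def ballS2 : FTree :=
  (.node (.leaf 63) (.leaf 15))

theorem vtf_ballS2 : vtf (finS finalOK) ballS2 0 2500 600000 1000000 = true := by
  decide +kernel

end CertImpl

open CertImpl Fast

/-- The certified finite range of parameters for the slab, with a slack. -/
theorem cert_slab' {a b V Per : ℝ} (h0 : 0 ≤ a) (haV : a ≤ V) (hVb : V ≤ b) (hb : b ≤ 1)
    (hV1 : 9 / 25 ≤ V) (hV2 : V ≤ 1 / 2) (hc : ¬(1 / π ≤ a ∧ b ≤ 1 - 1 / π))
    (hc2 : ¬(a ≤ 1 / 10000 ∧ 1 - 1 / 10000 ≤ b))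
    (h1 : PairBound I2 a b V Per) : 2 + 1 / 100000 ≤ Per := by
  have hpi := Real.pi_gt_d4
  have hpi2 := Real.pi_lt_d4
  have hpi0 := Real.pi_pos
  have hb1' : sn 1000000 = 1 := by unfold sn; norm_num
  have hbb : b ≤ sn 1000000 := by rw [hb1']; exact hb
  have hT : ∀ K LHS : ℤ, finS finSlab K LHS = true →
      (2 : ℝ) + 1 / 100000 ≤ (K : ℝ) / 1000000 * V + (LHS : ℝ) / 1000000000000 :=
    finS_sound fun K LHS h => finSlab_sound h hV1 hV2
  have hp1 : (318300 : ℝ) / 1000000 ≤ 1 / π := by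
    rw [div_le_div_iff₀ (by norm_num) hpi0]
    nlinarith
  have hp2 : 1 / π ≤ (318400 : ℝ) / 1000000 := by
    rw [div_le_div_iff₀ hpi0 (by norm_num)]
    nlinarith
  by_cases ha : a ≤ 1 / 10000
  · have hb2 : b < 1 - 1 / 10000 := by
      by_contra hcon
      exact hc2 ⟨ha, not_lt.1 hcon⟩
    refine cellF_of_vtf vtf_slabS2 V _ hT a b Per ?_ ?_ ?_ ?_ h1
    · unfold sn; push_cast; simpa using h0
    · unfold sn; push_cast; linarith
    · unfold sn; push_cast; linarith
    · unfold sn; push_cast; linarith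
  · have ha' := not_le.1 ha
    by_cases ha2 : 1 / π ≤ a
    · have hb2 : 1 - 1 / π < b := by
        by_contra hcon
        exact hc ⟨ha2, not_lt.1 hcon⟩
      refine cellF_of_vtf vtf_slabS3 V _ hT a b Per ?_ ?_ ?_ hbb h1
      · unfold sn; push_cast; linarith
      · unfold sn; push_cast; linarith
      · unfold sn; push_cast; linarith
    · have ha3 := not_le.1 ha2
      refine cellF_of_vtf vtf_slabS1 V _ hT a b Per ?_ ?_ ?_ hbb h1
      · unfold sn; push_cast; linarith
      · unfold sn; push_cast; linarith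
      · unfold sn; push_cast; linarith

/-- The certified finite range of parameters for the tube, with a slack. -/
theorem cert_tube' {a b V Per : ℝ} (h0 : 0 ≤ a) (haV : a ≤ V) (hVb : V ≤ b) (hb : b ≤ 1)
    (hV1 : 4 * π / 81 ≤ V) (hV2 : V ≤ 53 / 200) (hb1 : 1 / π < b)
    (hc : 1 / 400 ≤ a ∨ 7 / 10 ≤ b)
    (h1 : PairBound I2 a b V Per) : tubeVal V + 1 / 100000 ≤ Per := by
  have hpi := Real.pi_lt_d4
  have hpi0 := Real.pi_pos
  have hb1' : sn 1000000 = 1 := by unfold sn; norm_num
  have hbb : b ≤ sn 1000000 := by rw [hb1']; exact hb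
  have hT : ∀ K LHS : ℤ, finS finTube K LHS = true →
      tubeVal V + 1 / 100000 ≤ (K : ℝ) / 1000000 * V + (LHS : ℝ) / 1000000000000 :=
    finS_sound fun K LHS h => finTube_sound h hV1 hV2
  by_cases ha : 1 / 400 ≤ a
  · refine cellF_of_vtf vtf_tubeS1 V _ hT a b Per ?_ ?_ ?_ hbb h1
    · unfold sn; push_cast; linarith
    · unfold sn; push_cast; linarith
    · have : (318300 : ℝ) / 1000000 ≤ 1 / π := by
        rw [div_le_div_iff₀ (by norm_num) hpi0]
        nlinarith
      unfold sn; push_cast; linarith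
  · have hb3 : 7 / 10 ≤ b := by
      rcases hc with hc | hc
      · exact absurd hc ha
      · exact hc
    refine cellF_of_vtf vtf_tubeS2 V _ hT a b Per ?_ ?_ ?_ hbb h1
    · unfold sn; push_cast; simpa using h0
    · unfold sn; push_cast; linarith [not_le.1 ha]
    · unfold sn; push_cast; linarith

/-- The certified finite range of parameters for the ball, with a slack. -/
theorem cert_ball' {a b V Per : ℝ} (h0 : 0 ≤ a) (haV : a ≤ V) (hVb : V ≤ b) (hb : b ≤ 1)
    (hV : V ≤ 4 * π / 81) (hb' : 1 / π < b) (hc : 1 / 400 ≤ a ∨ 3 / 5 ≤ b)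
    (h1 : PairBound I2 a b V Per) : ballVal V + 1 / 100000 ≤ Per := by
  have hpi := Real.pi_lt_d4
  have hpi0 := Real.pi_pos
  have hV0 : 0 ≤ V := h0.trans haV
  have hb1 : sn 1000000 = 1 := by unfold sn; norm_num
  have hbb : b ≤ sn 1000000 := by rw [hb1]; exact hb
  have hT : ∀ K LHS : ℤ, finS finalOK K LHS = true →
      ballVal V + 1 / 100000 ≤ (K : ℝ) / 1000000 * V + (LHS : ℝ) / 1000000000000 :=
    finS_sound fun K LHS h => finalOK_sound h hV0 hV
  have haup : a ≤ sn 155200 := by
    unfold sn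
    have : 4 * π / 81 ≤ (155200 : ℝ) / 1000000 := by
      rw [div_le_div_iff₀ (by norm_num) (by norm_num)]
      nlinarith
    push_cast
    linarith
  by_cases ha : 1 / 400 ≤ a
  · refine cellF_of_vtf vtf_ballS1 V _ hT a b Per ?_ haup ?_ hbb h1
    · unfold sn; push_cast; linarith
    · have : (318300 : ℝ) / 1000000 ≤ 1 / π := by
        rw [div_le_div_iff₀ (by norm_num) hpi0]
        nlinarith
      unfold sn; push_cast; linarith
  · have hb3 : 3 / 5 ≤ b := by
      rcases hc with hc | hc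
      · exact absurd hc ha
      · exact hc
    refine cellF_of_vtf vtf_ballS2 V _ hT a b Per ?_ ?_ ?_ hbb h1
    · unfold sn; push_cast; simpa using h0
    · unfold sn; push_cast; linarith [not_le.1 ha]
    · unfold sn; push_cast; linarith

end Vale.Agent.Lib.P232
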