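import Vale.Agent.Lib.P232.RigMainG
import Vale.Agent.Lib.P232.RigCertS

namespace Vale.Agent.Lib.P232

/-- The strict certificates of the direct range. -/
theorem rigCerts3 : RigCerts3 (1 / 100000) where
  cert_ball' := fun h1 h2 h3 h4 h5 h6 h7 h8 => cert_ball' h1 h2 h3 h4 h5 h6 h7 h8
  cert_tube' := fun h1 h2 h3 h4 h5 h6 h7 h8 h9 => cert_tube' h1 h2 h3 h4 h5 h6 h7 h8 h9
  cert_slab' := fun h1 h2 h3 h4 h5 h6 h7 h8 h9 => cert_slab' h1 h2 h3 h4 h5 h6 h7 h8 h9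

end Vale.Agent.Lib.P232
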