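import Vale.Agent.Lib.P232.RigCert3
import Vale.Agent.Lib.P232.RigCertA
import Vale.Agent.Lib.P232.CertSB

namespace Vale.Agent.Lib.P232

/-- All the strict certificates. -/
theorem rigCerts : RigCerts (1 / 100000) where
  toRigCerts3 := rigCerts3
  cert_A' := fun h1 h2 h3 h4 h5 h6 h7 => cert_A' h1 h2 h3 h4 h5 h6 h7
  cert_S1' := fun h1 h2 h3 h4 h5 h6 h7 => cert_S1' h1 h2 h3 h4 h5 h6 h7
  cert_S2' := fun h1 h2 h3 h4 h5 h6 h7 => cert_S2' h1 h2 h3 h4 h5 h6 h7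
  cert_S3' := fun h1 h2 h3 h4 h5 h6 h7 => cert_S3' h1 h2 h3 h4 h5 h6 h7
  cert_S4' := fun h1 h2 h3 h4 h5 h6 h7 => cert_S4' h1 h2 h3 h4 h5 h6 h7
  cert_B' := fun h1 h2 h3 h4 h5 h6 h7 h8 => cert_B' h1 h2 h3 h4 h5 h6 h7 h8

end Vale.Agent.Lib.P232
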