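import Vale.Agent.Lib.P232.RigNode

/-!
# The certificate for slices with lines of one kind of small height

The bound `Tgt V + 1 / 100000 ≤ Per` for the pair of profiles `fB1 gapAlpha`, `fB2 gapAlpha`.
-/

open MeasureTheory Filter Topology Set
open scoped Real

namespace Vale.Agent.Lib.P232

namespace Fast

open CertImpl

/-- The target check on the range `53/200 ≤ V ≤ 9/25`, with a slack of `1 / 100000`: for large
slopes the bound is used at the left end of the range. -/
def finGapB (K L : ℤ) : Bool :=
  if K ≤ 3450000 then finGapS K L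
  else decide (45621500000000 ≤ K * 6625000 + (L - 250000000))

theorem finGapB_sound {V : ℝ} (hV1 : 53 / 200 ≤ V) (hV2 : V ≤ 9 / 25) :
    FinOK finGapB (Tgt V + 1 / 100000) V := by
  intro K L h
  unfold finGapB at h
  split_ifs at h with h1
  · exact finGapS_sound hV2 (by linarith) K L h
  · rw [decide_eq_true_eq] at h
    have h' : ((45621500000000 : ℤ) : ℝ) ≤ ((K * 6625000 + (L - 250000000) : ℤ) : ℝ) := by
      exact_mod_cast h
    push_cast at h'
    have hk : (3450000 : ℝ) < K := by exact_mod_cast (not_le.mp h1)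
    have hpi := Real.pi_lt_d4
    have h2 := tube_line (k := 69 / 20) (V := V) (by norm_num) (by linarith)
    have hT1 : Tgt V ≤ tubeVal V := min_le_left _ _
    have h3 : π / (69 / 20) ≤ 3.1416 / (69 / 20) :=
      div_le_div_of_nonneg_right hpi.le (by norm_num)
    have h4 : 0 ≤ ((K : ℝ) - 3450000) * (V - 53 / 200) :=
      mul_nonneg (by linarith) (by linarith)
    have e : (K : ℝ) / 1000000 * V + (L : ℝ) / 25000000000000
        = ((K : ℝ) * (25000000 * V) + L) / 25000000000000 := by ring
    rw [e, le_div_iff₀ (by norm_num)]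
    norm_num at h3
    nlinarith

/-- The height parameter of the arc bound used at a node. -/
def pkB (T : ℕ) : ℕ :=
  nmin 20 (bif Nat.ble T 309000 then Nat.div (Nat.sub T 120000) 18900
    else bif Nat.ble T 488000 then Nat.add 10 (Nat.div (Nat.sub T 309000) 35800)
    else Nat.add 15 (Nat.div (Nat.sub T 488000) 77400))

lemma pkB_le (T : ℕ) : pkB T ≤ 20 := nmin_le_left _ _

lemma pkB_zero (T : ℕ) : pkB T = 0 ∨ 120000 ≤ T := by
  by_cases h : 120000 ≤ T
  · exact Or.inr h
  · left
    have h1 : Nat.ble T 309000 = true := Nat.ble_eq_true_of_le (by omega)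
    have h2 : Nat.sub T 120000 = 0 := by
      show T - 120000 = 0
      omega
    unfold pkB
    rw [h1, h2]
    rfl

/-- Node values for `fB2 gapAlpha`. -/
def NB2 (H S : ℕ) : ℕ := nmin (NJu H S) (NSbN pkB 120000 H S)

/-- Node values for `fB1 gapAlpha`. -/
def NB1 (H S : ℕ) : ℕ := nmin (NfTc H S) (NB2 H S)

lemma NB2_ok : NodeOK NB2 (fB2 gapAlpha) :=
  nodeOK_min NJu_ok (NSbN_ok (by unfold gapAlpha; norm_num) pkB_le pkB_zero)

lemma NB1_ok : NodeOK NB1 (fB1 gapAlpha) := nodeOK_min NfTc_ok NB2_ok

/-- The certificate for the slices with lines of one kind, with a slack. -/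
def treeB : PTree :=
  (.na (.na (.na (.na (.nb (.na (.nb (.na (.nb (.leaf 31 15021121 9999980 9999980) (.leaf
  31 14507182 9999984 9999984)) (.leaf 31 14049613 10243073 10243073)) (.na (.nb (.leaf
  31 14137083 9694515 9999984) (.leaf 31 13794134 9373180 9999984)) (.leaf 31 13507212
  9570439 10246124))) (.nb (.leaf 31 13881667 10332306 10332306) (.leaf 31 13373549
  9662332 10338026))) (.na (.nb (.na (.nb (.leaf 31 13325312 9170213 9999984) (.leaf 31
  13047520 8829886 9999984)) (.leaf 31 12956867 8906375 10249220)) (.na (.nb (.leaf 31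
  12581148 8611319 9999984) (.leaf 31 12140436 7859548 9999984)) (.leaf 63 11959675
  8040309 10254829))) (.nb (.leaf 31 12737263 9091665 10345184) (.leaf 31 11769517
  8230467 10356071)))) (.nb (.nb (.leaf 31 13661393 10449330 10449330) (.leaf 31 13196386
  9784132 10459801)) (.nb (.leaf 31 12426437 9353925 10477125) (.leaf 31 11450168 8549816
  10499091)))) (.nb (.nb (.nb (.leaf 31 13732247 10584013 10584013) (.leaf 31 13377818
  10599970 10599970)) (.nb (.leaf 31 13134537 10305442 10610918) (.leaf 31 12652533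
  10158030 10632608))) (.nb (.leaf 31 11976532 9733532 10663028) (.leaf 31 10965347
  9034637 10708532)))) (.nb (.nb (.nb (.na (.leaf 31 13336955 10763130 10763130) (.nb
  (.leaf 31 13292822 10857935 10857935) (.leaf 31 13057697 10889674 10889674))) (.leaf
  255 13016444 10791976 10791976)) (.nb (.na (.leaf 31 12692725 10574671 10821111) (.leaf
  31 12186653 10883059 11007268)) (.leaf 63 12053333 10569980 10878656))) (.nb (.leaf 63
  11230979 10362592 10952668) (.leaf 31 10139232 9860752 11050925)))) (.nb (.nb (.nb (.na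
  (.nb (.na (.leaf 31 13065072 10952242 10952242) (.nb (.leaf 31 13046396 10996040
  10996040) (.leaf 31 12855646 11038959 11038959))) (.na (.leaf 31 12823773 10995675
  10995675) (.leaf 63 12602641 11095882 11095882))) (.nb (.nb (.na (.nb (.leaf 31
  12999587 11032083 11032083) (.leaf 31 12858424 11070197 11070197)) (.leaf 31 12130158
  11318558 11318558)) (.na (.leaf 63 12633616 11130895 11130895) (.leaf 31 10000051
  11989542 11989542))) (.nb (.na (.leaf 31 12492984 11168866 11168866) (.leaf 31 10000051
  11989542 11989542)) (.na (.leaf 31 12338234 11210648 11210648) (.leaf 31 10000027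
  11989549 11989549))))) (.na (.nb (.na (.leaf 31 12655866 11025905 11025905) (.leaf 31
  12438737 11132765 11132765)) (.leaf 63 12535236 11047618 11047618)) (.nb (.nb (.na
  (.leaf 31 12035313 11292437 11292437) (.leaf 31 10000027 11989549 11989549)) (.leaf 31
  11954649 11314216 11314216)) (.leaf 31 11646538 11397406 11397406)))) (.nb (.na (.nb
  (.leaf 31 12100205 11125919 11125923) (.leaf 31 11657284 11205643 11205649)) (.leaf 31
  10948225 11585951 11585951)) (.na (.leaf 31 11120893 11211033 11302200) (.leaf 31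
  9999989 11841974 11841974)))) (.nb (.nb (.leaf 63 10809247 11096575 11358296) (.leaf 31
  10323341 11128412 11445759)) (.leaf 31 9268616 10731368 11635609))))

theorem vtp_treeB : vtp NB1 NB2 finGapB treeB 0 360000 375000 1000000 = true := by
  decide +kernel

end Fast

open Fast in
/-- The bound in the range of volumes of the gap, with lines of one kind in all slices, with a
slack. -/
theorem cert_B' {a b V Per : ℝ} (h0 : 0 ≤ a) (haV : a ≤ V) (hVb : V ≤ b) (hb : b ≤ 1)
    (hb3 : 3 / 8 ≤ b) (hV1 : 53 / 200 ≤ V) (hV2 : V ≤ 9 / 25)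
    (h1 : PhaseBound (fB1 gapAlpha) (fB2 gapAlpha) gapAlpha a b V Per) :
    Tgt V + 1 / 100000 ≤ Per := by
  refine cellP_of_vtp NB1_ok NB2_ok vtp_treeB V _ (finGapB_sound hV1 hV2) a b Per
    (by linarith) ?_ ?_ ?_ ?_ h1
  · unfold sn; norm_num; linarith
  · unfold sn; norm_num; linarith
  · unfold sn; norm_num; linarith
  · unfold sn; norm_num; linarith

/-- The bound in the range of volumes of the gap, with lines of one kind in all slices. -/
theorem cert_B {a b V Per : ℝ} (h0 : 0 ≤ a) (haV : a ≤ V) (hVb : V ≤ b) (hb : b ≤ 1)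
    (hb3 : 3 / 8 ≤ b) (hV1 : 53 / 200 ≤ V) (hV2 : V ≤ 9 / 25)
    (h1 : PhaseBound (fB1 gapAlpha) (fB2 gapAlpha) gapAlpha a b V Per) :
    Tgt V ≤ Per := by
  have := cert_B' h0 haV hVb hb hb3 hV1 hV2 h1
  linarith

end Vale.Agent.Lib.P232
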