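import Vale.Agent.Lib.P232.RigDefs

/-!
# Reduction to the plane when the areas of the slices are constant

If the energy of a sequence in one direction is negligible (which follows from a Cauchy-Schwarz
trick as soon as the transverse energy is already all of the total energy), then the limit does not
depend on that variable. We also treat the case of a set with nontrivial lines in a direction and
energy `2`: then the slices orthogonal to that direction are trivial.
-/

open MeasureTheory Filter Topology Set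
open scoped Real

namespace Vale.Agent.Lib.P232

section Fatou

/-- Fatou on the unit interval, for a bounded measurable lower bound. -/
lemma fatou_ev {W : ℕ → ℝ → ℝ} (hW : ∀ k, Continuous (W k)) (hW0 : ∀ k t, 0 ≤ W k t)
    {Y : ℝ → ℝ} (hY : Measurable Y) (hY0 : ∀ t, 0 ≤ Y t) {C : ℝ} (hYC : ∀ t, Y t ≤ C)
    (hYW : ∀ᵐ t ∂(volume.restrict (Ioc (0 : ℝ) 1)), ∀ c, (∃ᶠ k in atTop, W k t ≤ c) → Y t ≤ c)
    {ε : ℝ} (hε : 0 < ε) :
    ∀ᶠ k in atTop, (∫ t in (0 : ℝ)..1, Y t) - ε ≤ ∫ t in (0 : ℝ)..1, W k t := by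
  have hle : (0 : ℝ) ≤ 1 := zero_le_one
  set μ : Measure ℝ := volume.restrict (Ioc (0 : ℝ) 1) with hμ
  have : IsFiniteMeasure μ := ⟨by rw [hμ, Measure.restrict_apply_univ]; simp⟩
  have hYi : Integrable Y μ := Integrable.of_bound hY.aestronglyMeasurable C
    (ae_of_all _ fun t => by rw [Real.norm_eq_abs, abs_of_nonneg (hY0 t)]; exact hYC t)
  have hWi : ∀ k, Integrable (W k) μ := fun k =>
    ((hW k).integrableOn_Icc (a := 0) (b := 1)).mono_set Ioc_subset_Icc_self
  have e1 : ∀ k, ∫⁻ t, ENNReal.ofReal (W k t) ∂μ = ENNReal.ofReal (∫ t in (0 : ℝ)..1, W k t) := by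
    intro k
    rw [intervalIntegral.integral_of_le hle,
      ofReal_integral_eq_lintegral_ofReal (hWi k) (Eventually.of_forall fun t => hW0 k t)]
  have e2 : ∫⁻ t, ENNReal.ofReal (Y t) ∂μ = ENNReal.ofReal (∫ t in (0 : ℝ)..1, Y t) := by
    rw [intervalIntegral.integral_of_le hle,
      ofReal_integral_eq_lintegral_ofReal hYi (Eventually.of_forall fun t => hY0 t)]
  have h1 : ENNReal.ofReal (∫ t in (0 : ℝ)..1, Y t) ≤
      liminf (fun k => ENNReal.ofReal (∫ t in (0 : ℝ)..1, W k t)) atTop := by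
    calc ENNReal.ofReal (∫ t in (0 : ℝ)..1, Y t) = ∫⁻ t, ENNReal.ofReal (Y t) ∂μ := e2.symm
      _ ≤ ∫⁻ t, liminf (fun k => ENNReal.ofReal (W k t)) atTop ∂μ := by
          apply lintegral_mono_ae
          filter_upwards [hYW] with t h2
          simpa using pointwise_liminf (A := fun _ => 1) continuous_const (fun _ => zero_le_one)
            (g := fun _ => (0 : ℝ)) (G := 0) (fun k => hW0 k t) tendsto_const_nhds (hY0 t) h2
      _ ≤ liminf (fun k => ∫⁻ t, ENNReal.ofReal (W k t) ∂μ) atTop :=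
          lintegral_liminf_le fun k => (hW k).measurable.ennreal_ofReal
      _ = _ := by simp_rw [e1]
  have hI0 : 0 ≤ ∫ t in (0 : ℝ)..1, Y t :=
    intervalIntegral.integral_nonneg hle fun t _ => hY0 t
  have hWn : ∀ k, 0 ≤ ∫ t in (0 : ℝ)..1, W k t := fun k =>
    intervalIntegral.integral_nonneg hle fun t _ => hW0 k t
  by_cases h : (∫ t in (0 : ℝ)..1, Y t) - ε < 0
  · exact Eventually.of_forall fun k => h.le.trans (hWn k)
  · push Not at h
    have h2 : ENNReal.ofReal ((∫ t in (0 : ℝ)..1, Y t) - ε) <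
        ENNReal.ofReal (∫ t in (0 : ℝ)..1, Y t) :=
      (ENNReal.ofReal_lt_ofReal_iff (by linarith)).2 (by linarith)
    have h3 := eventually_lt_of_lt_liminf (h2.trans_le h1)
    filter_upwards [h3] with k hk
    exact ((ENNReal.ofReal_lt_ofReal_iff_of_nonneg h).1 hk).le

/-- Fatou, in the form of a frequent bound. -/
lemma fatou_freq {W : ℕ → ℝ → ℝ} (hW : ∀ k, Continuous (W k)) (hW0 : ∀ k t, 0 ≤ W k t)
    {Y : ℝ → ℝ} (hY : Measurable Y) (hY0 : ∀ t, 0 ≤ Y t) {C : ℝ} (hYC : ∀ t, Y t ≤ C)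
    (hYW : ∀ᵐ t ∂(volume.restrict (Ioc (0 : ℝ) 1)), ∀ c, (∃ᶠ k in atTop, W k t ≤ c) → Y t ≤ c)
    {c : ℝ} (hc : ∃ᶠ k in atTop, ∫ t in (0 : ℝ)..1, W k t ≤ c) :
    ∫ t in (0 : ℝ)..1, Y t ≤ c := by
  refine le_of_forall_pos_le_add fun ε hε => ?_
  obtain ⟨k, hk1, hk2⟩ := (hc.and_eventually (fatou_ev hW hW0 hY hY0 hYC hYW hε)).exists
  linarith

end Fatou

section Vol3

variable {f g : ℝ → ℝ → ℝ → ℝ}

lemma cont_in_z (hf : Continuous fun p : ℝ × ℝ × ℝ => f p.1 p.2.1 p.2.2) (x y : ℝ) :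
    Continuous fun z => f x y z :=
  hf.comp (by fun_prop : Continuous fun z : ℝ => ((x, y, z) : ℝ × ℝ × ℝ))

lemma cont_in_y (hf : Continuous fun p : ℝ × ℝ × ℝ => f p.1 p.2.1 p.2.2) (x : ℝ) :
    Continuous fun y => ∫ z in (0 : ℝ)..1, f x y z :=
  (cont_marg2 hf).comp (by fun_prop : Continuous fun y : ℝ => ((x, y) : ℝ × ℝ))

lemma vol3_add (hf : Continuous fun p : ℝ × ℝ × ℝ => f p.1 p.2.1 p.2.2)
    (hg : Continuous fun p : ℝ × ℝ × ℝ => g p.1 p.2.1 p.2.2) :
    vol3 (fun x y z => f x y z + g x y z) = vol3 f + vol3 g := by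
  unfold vol3
  have i1 : IntervalIntegrable (fun x => ∫ y in (0 : ℝ)..1, ∫ z in (0 : ℝ)..1, f x y z) volume 0 1 :=
    (cont_area hf).intervalIntegrable _ _
  have i2 : IntervalIntegrable (fun x => ∫ y in (0 : ℝ)..1, ∫ z in (0 : ℝ)..1, g x y z) volume 0 1 :=
    (cont_area hg).intervalIntegrable _ _
  rw [← intervalIntegral.integral_add i1 i2]
  refine intervalIntegral.integral_congr fun x _ => ?_
  simp only []
  rw [← intervalIntegral.integral_add ((cont_in_y hf x).intervalIntegrable _ _)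
    ((cont_in_y hg x).intervalIntegrable _ _)]
  refine intervalIntegral.integral_congr fun y _ => ?_
  exact intervalIntegral.integral_add ((cont_in_z hf x y).intervalIntegrable _ _)
    ((cont_in_z hg x y).intervalIntegrable _ _)

lemma vol3_const_mul (c : ℝ) : vol3 (fun x y z => c * f x y z) = c * vol3 f := by
  simp only [vol3, intervalIntegral.integral_const_mul]

lemma vol3_mono (hf : Continuous fun p : ℝ × ℝ × ℝ => f p.1 p.2.1 p.2.2)
    (hg : Continuous fun p : ℝ × ℝ × ℝ => g p.1 p.2.1 p.2.2) (h : ∀ x y z, f x y z ≤ g x y z) :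
    vol3 f ≤ vol3 g := by
  unfold vol3
  refine intervalIntegral.integral_mono_on zero_le_one ((cont_area hf).intervalIntegrable _ _)
    ((cont_area hg).intervalIntegrable _ _) fun x _ => ?_
  refine intervalIntegral.integral_mono_on zero_le_one ((cont_in_y hf x).intervalIntegrable _ _)
    ((cont_in_y hg x).intervalIntegrable _ _) fun y _ => ?_
  exact intervalIntegral.integral_mono_on zero_le_one ((cont_in_z hf x y).intervalIntegrable _ _)
    ((cont_in_z hg x y).intervalIntegrable _ _) fun z _ => h x y z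

lemma vol3_nonneg' (h : ∀ x y z, 0 ≤ f x y z) : 0 ≤ vol3 f :=
  intervalIntegral.integral_nonneg zero_le_one fun _ _ =>
    intervalIntegral.integral_nonneg zero_le_one fun _ _ =>
      intervalIntegral.integral_nonneg zero_le_one fun _ _ => h _ _ _

/-- Exchange of two integrals over the unit interval. -/
lemma swap2 {g : ℝ → ℝ → ℝ} (hg : Continuous fun q : ℝ × ℝ => g q.1 q.2) :
    ∫ x in (0 : ℝ)..1, ∫ y in (0 : ℝ)..1, g x y = ∫ y in (0 : ℝ)..1, ∫ x in (0 : ℝ)..1, g x y := by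
  simp only [intervalIntegral.integral_of_le (zero_le_one : (0 : ℝ) ≤ 1)]
  refine integral_integral_swap ?_
  rw [Measure.prod_restrict]
  have h1 : IntegrableOn (fun q : ℝ × ℝ => g q.1 q.2) (Icc (0 : ℝ) 1 ×ˢ Icc (0 : ℝ) 1)
      ((volume : Measure ℝ).prod volume) :=
    hg.continuousOn.integrableOn_compact (isCompact_Icc.prod isCompact_Icc)
  exact h1.mono_set (prod_mono Ioc_subset_Icc_self Ioc_subset_Icc_self)

/-- Rotation of the order of the three integrals. -/
lemma vol3_rot (hf : Continuous fun p : ℝ × ℝ × ℝ => f p.1 p.2.1 p.2.2) :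
    vol3 f = ∫ y in (0 : ℝ)..1, ∫ z in (0 : ℝ)..1, ∫ x in (0 : ℝ)..1, f x y z := by
  unfold vol3
  rw [swap2 (g := fun x y => ∫ z in (0 : ℝ)..1, f x y z) (cont_marg2 hf)]
  refine intervalIntegral.integral_congr fun y _ => ?_
  exact swap2 (g := fun x z => f x y z)
    (hf.comp (by fun_prop : Continuous fun q : ℝ × ℝ => ((q.1, y, q.2) : ℝ × ℝ × ℝ)))

end Vol3

section Energy

variable {F : ℝ → ℝ → ℝ → ℝ} {u ux uy uz : ℕ → ℝ → ℝ → ℝ → ℝ}

/-- The energy dominates the norm of the pair of the two directional energies. -/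
lemma Seq3.energy_sq (S : Seq3 F u ux uy uz) (k : ℕ) :
    (vol3 fun x y z => √(uy k x y z ^ 2 + uz k x y z ^ 2)) ^ 2 +
      (vol3 fun x y z => |ux k x y z|) ^ 2 ≤ energy3 (ux k) (uy k) (uz k) ^ 2 := by
  have hsm := S.smooth k
  set a := vol3 fun x y z => √(uy k x y z ^ 2 + uz k x y z ^ 2) with ha
  set b := vol3 fun x y z => |ux k x y z| with hb
  set N := √(a ^ 2 + b ^ 2) with hN
  have hNsq : N ^ 2 = a ^ 2 + b ^ 2 := Real.sq_sqrt (by positivity)
  have hE0 : 0 ≤ energy3 (ux k) (uy k) (uz k) := energy3_nonneg _ _ _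
  rcases (Real.sqrt_nonneg (a ^ 2 + b ^ 2)).eq_or_lt with h0 | hpos
  · have : a ^ 2 + b ^ 2 = 0 := by
      rw [← hNsq, hN, ← h0]
      ring
    rw [this]
    positivity
  have hNpos : 0 < N := hpos
  have hc1 : Continuous fun p : ℝ × ℝ × ℝ =>
      √(uy k p.1 p.2.1 p.2.2 ^ 2 + uz k p.1 p.2.1 p.2.2 ^ 2) := S.cq k
  have hc2 : Continuous fun p : ℝ × ℝ × ℝ => |ux k p.1 p.2.1 p.2.2| := hsm.contx.abs
  have hc3 : Continuous fun p : ℝ × ℝ × ℝ =>
      √(ux k p.1 p.2.1 p.2.2 ^ 2 + uy k p.1 p.2.1 p.2.2 ^ 2 + uz k p.1 p.2.1 p.2.2 ^ 2) :=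
    (((hsm.contx.pow 2).add (hsm.conty.pow 2)).add (hsm.contz.pow 2)).sqrt
  have hAB : (a / N) ^ 2 + (b / N) ^ 2 ≤ 1 := by
    rw [div_pow, div_pow, ← add_div, hNsq, div_self]
    rw [← hNsq]
    positivity
  have hle : vol3 (fun x y z => (a / N) * √(uy k x y z ^ 2 + uz k x y z ^ 2) +
      (b / N) * |ux k x y z|) ≤ energy3 (ux k) (uy k) (uz k) := by
    refine vol3_mono (f := fun x y z => (a / N) * √(uy k x y z ^ 2 + uz k x y z ^ 2) +
      (b / N) * |ux k x y z|) (g := fun x y z => √(ux k x y z ^ 2 + uy k x y z ^ 2 + uz k x y z ^ 2))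
      ((continuous_const.mul hc1).add (continuous_const.mul hc2)) hc3 fun x y z => ?_
    have := cs_le (p := √(uy k x y z ^ 2 + uz k x y z ^ 2)) (q := |ux k x y z|) hAB
    rw [Real.sq_sqrt (by positivity), sq_abs] at this
    have e : uy k x y z ^ 2 + uz k x y z ^ 2 + ux k x y z ^ 2 =
        ux k x y z ^ 2 + uy k x y z ^ 2 + uz k x y z ^ 2 := by ring
    rwa [e] at this
  rw [vol3_add (f := fun x y z => (a / N) * √(uy k x y z ^ 2 + uz k x y z ^ 2))
    (g := fun x y z => (b / N) * |ux k x y z|) (continuous_const.mul hc1)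
    (continuous_const.mul hc2), vol3_const_mul, vol3_const_mul, ← ha, ← hb] at hle
  have e2 : a / N * a + b / N * b = N := by
    field_simp
    nlinarith [hNsq]
  rw [e2] at hle
  rw [← hNsq]
  exact pow_le_pow_left₀ hNpos.le hle 2

end Energy

section D2

/-- The `L¹` distance of two functions on the square. -/
noncomputable def D2 (f g : ℝ → ℝ → ℝ) : ℝ := ∫ y in (0 : ℝ)..1, ∫ z in (0 : ℝ)..1, |f y z - g y z|

/-- Measurable functions on the square with values in the unit interval. -/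
structure BM (f : ℝ → ℝ → ℝ) : Prop where
  meas : Measurable fun q : ℝ × ℝ => f q.1 q.2
  bd : ∀ y z, 0 ≤ f y z ∧ f y z ≤ 1

variable {f g h : ℝ → ℝ → ℝ}

lemma BM.abs_sub_le (hf : BM f) (hg : BM g) (y z : ℝ) : |f y z - g y z| ≤ 1 := by
  have h1 := hf.bd y z
  have h2 := hg.bd y z
  rw [abs_le]
  constructor <;> linarith [h1.1, h1.2, h2.1, h2.2]

lemma BM.meas_abs (hf : BM f) (hg : BM g) :
    Measurable fun q : ℝ × ℝ => |f q.1 q.2 - g q.1 q.2| := (hf.meas.sub hg.meas).abs

lemma BM.inner_ii (hf : BM f) (hg : BM g) (y : ℝ) :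
    IntervalIntegrable (fun z => |f y z - g y z|) volume 0 1 := by
  refine ii_of_bdd (C := 1) ((hf.meas_abs hg).comp (measurable_const.prodMk measurable_id)) ?_
  intro z
  rw [abs_abs]
  exact hf.abs_sub_le hg y z

lemma BM.inner_mem (hf : BM f) (hg : BM g) (y : ℝ) :
    0 ≤ (∫ z in (0 : ℝ)..1, |f y z - g y z|) ∧ (∫ z in (0 : ℝ)..1, |f y z - g y z|) ≤ 1 := by
  constructor
  · exact intervalIntegral.integral_nonneg zero_le_one fun _ _ => abs_nonneg _
  · have h1 : (∫ z in (0 : ℝ)..1, |f y z - g y z|) ≤ ∫ _ in (0 : ℝ)..1, (1 : ℝ) :=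
      intervalIntegral.integral_mono_on zero_le_one (hf.inner_ii hg y) (by simp) fun z _ =>
        hf.abs_sub_le hg y z
    simpa using h1

lemma BM.outer_meas (hf : BM f) (hg : BM g) :
    Measurable fun y => ∫ z in (0 : ℝ)..1, |f y z - g y z| :=
  marg_measurable' (f := fun y z => |f y z - g y z|) (hf.meas_abs hg)

lemma BM.outer_ii (hf : BM f) (hg : BM g) :
    IntervalIntegrable (fun y => ∫ z in (0 : ℝ)..1, |f y z - g y z|) volume 0 1 := by
  refine ii_of_bdd (C := 1) (hf.outer_meas hg) fun y => ?_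
  rw [abs_of_nonneg (hf.inner_mem hg y).1]
  exact (hf.inner_mem hg y).2

lemma D2_nonneg (f g : ℝ → ℝ → ℝ) : 0 ≤ D2 f g :=
  intervalIntegral.integral_nonneg zero_le_one fun _ _ =>
    intervalIntegral.integral_nonneg zero_le_one fun _ _ => abs_nonneg _

lemma D2_comm (f g : ℝ → ℝ → ℝ) : D2 f g = D2 g f := by
  unfold D2
  simp_rw [abs_sub_comm (f _ _)]

lemma D2_triangle (hf : BM f) (hg : BM g) (hh : BM h) : D2 f h ≤ D2 f g + D2 g h := by
  unfold D2
  rw [← intervalIntegral.integral_add (hf.outer_ii hg) (hg.outer_ii hh)]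
  refine intervalIntegral.integral_mono_on zero_le_one (hf.outer_ii hh)
    ((hf.outer_ii hg).add (hg.outer_ii hh)) fun y _ => ?_
  rw [← intervalIntegral.integral_add (hf.inner_ii hg y) (hg.inner_ii hh y)]
  refine intervalIntegral.integral_mono_on zero_le_one (hf.inner_ii hh y)
    ((hf.inner_ii hg y).add (hg.inner_ii hh y)) fun z _ => ?_
  exact abs_sub_le _ _ _

/-- The sequence converges to the limit in `L¹`. -/
lemma Seq2.dist_tendsto {F : ℝ → ℝ → ℝ} {v vx vy : ℕ → ℝ → ℝ → ℝ} (S : Seq2 F v vx vy) :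
    Tendsto (fun k => D2 (v k) F) atTop (𝓝 0) := by
  have hv : ∀ k, BM (v k) := fun k =>
    ⟨(S.smooth k).cont.measurable, fun y z => S.bdd k y z⟩
  have hF : BM F := ⟨S.meas, fun y z => by rcases S.bin y z with h | h <;> simp [h]⟩
  have h0 : (0 : ℝ) = ∫ y in (0 : ℝ)..1, (0 : ℝ) := by simp
  rw [h0]
  refine intervalIntegral.tendsto_integral_filter_of_dominated_convergence (bound := fun _ => 1)
    ?_ ?_ intervalIntegrable_const ?_
  · exact Eventually.of_forall fun k => ((hv k).outer_meas hF).aestronglyMeasurable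
  · refine Eventually.of_forall fun k => Eventually.of_forall fun y _ => ?_
    rw [Real.norm_eq_abs, abs_of_nonneg ((hv k).inner_mem hF y).1]
    exact ((hv k).inner_mem hF y).2
  · filter_upwards [S.ae_slice] with y hy _
    have key : Tendsto (fun k => ∫ z in (0 : ℝ)..1, |v k y z - F y z|) atTop
        (𝓝 (∫ _ in (0 : ℝ)..1, (0 : ℝ))) := by
      refine intervalIntegral.tendsto_integral_filter_of_dominated_convergence
        (bound := fun _ => 1) ?_ ?_ intervalIntegrable_const ?_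
      · exact Eventually.of_forall fun k =>
          (((hv k).meas_abs hF).comp (measurable_const.prodMk measurable_id)).aestronglyMeasurable
      · refine Eventually.of_forall fun k => Eventually.of_forall fun z _ => ?_
        rw [Real.norm_eq_abs, abs_abs]
        exact (hv k).abs_sub_le hF y z
      · filter_upwards [hy] with z hz _
        have := (hz.sub_const (F y z)).abs
        simpa using this
    simpa using key

end D2

namespace Seq3

variable {F : ℝ → ℝ → ℝ → ℝ} {u ux uy uz : ℕ → ℝ → ℝ → ℝ → ℝ}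

lemma bm_u (S : Seq3 F u ux uy uz) (k : ℕ) (x : ℝ) : BM (u k x) :=
  ⟨(cont_slice (S.smooth k).cont x).measurable, fun y z => S.bdd k x y z⟩

lemma bm_F (S : Seq3 F u ux uy uz) (x : ℝ) : BM (F x) :=
  ⟨S.slice_meas x, fun y z => by rcases S.bin x y z with h | h <;> simp [h]⟩

/-- Two slices of a function of the sequence differ by at most the energy in the direction. -/
lemma D2_slices_le (S : Seq3 F u ux uy uz) (k : ℕ) {x x' : ℝ} (hx : x ∈ Icc (0 : ℝ) 1)
    (hx' : x' ∈ Icc (0 : ℝ) 1) :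
    D2 (u k x') (u k x) ≤ vol3 fun x y z => |ux k x y z| := by
  wlog hle : x ≤ x' generalizing x x'
  · rw [D2_comm]
    exact this hx' hx (le_of_not_ge hle)
  have hsm := S.smooth k
  have hc : Continuous fun p : ℝ × ℝ × ℝ => |ux k p.1 p.2.1 p.2.2| := hsm.contx.abs
  rw [vol3_rot (f := fun x y z => |ux k x y z|) hc]
  unfold D2
  -- continuity of the functions on the two sides
  have hg : Continuous fun p : ℝ × ℝ × ℝ => |ux k p.2.2 p.1 p.2.1| := by
    have : Continuous fun p : ℝ × ℝ × ℝ => ((p.2.2, p.1, p.2.1) : ℝ × ℝ × ℝ) := by fun_prop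
    exact hc.comp this
  have hd : Continuous fun q : ℝ × ℝ => |u k x' q.1 q.2 - u k x q.1 q.2| :=
    ((cont_slice hsm.cont x').sub (cont_slice hsm.cont x)).abs
  have hdy : Continuous fun y => ∫ z in (0 : ℝ)..1, |u k x' y z - u k x y z| :=
    marg_continuous (f := fun y z => |u k x' y z - u k x y z|) hd
  have hgy : Continuous fun y => ∫ z in (0 : ℝ)..1, ∫ s in (0 : ℝ)..1, |ux k s y z| :=
    cont_area (f := fun y z s => |ux k s y z|) hg
  refine intervalIntegral.integral_mono_on zero_le_one (hdy.intervalIntegrable _ _)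
    (hgy.intervalIntegrable _ _) fun y _ => ?_
  have hdz : Continuous fun z => |u k x' y z - u k x y z| :=
    hd.comp (by fun_prop : Continuous fun z : ℝ => ((y, z) : ℝ × ℝ))
  have hgz : Continuous fun z => ∫ s in (0 : ℝ)..1, |ux k s y z| :=
    (cont_marg2 (f := fun y z s => |ux k s y z|) hg).comp
      (by fun_prop : Continuous fun z : ℝ => ((y, z) : ℝ × ℝ))
  refine intervalIntegral.integral_mono_on zero_le_one (hdz.intervalIntegrable _ _)
    (hgz.intervalIntegrable _ _) fun z _ => ?_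
  have hline : Continuous fun s => ux k s y z :=
    hsm.contx.comp (by fun_prop : Continuous fun s : ℝ => ((s, y, z) : ℝ × ℝ × ℝ))
  have h1 := abs_sub_le_integral_abs (w := fun s => u k s y z) (w' := fun s => ux k s y z)
    (fun t => hsm.dx t y z) hline hle
  refine h1.trans ?_
  exact intervalIntegral.integral_mono_interval hx.1 hle hx'.2
    (Eventually.of_forall fun s => abs_nonneg _) (hline.abs.intervalIntegrable _ _)

/-- If the energy in the direction tends to zero, good slices coincide. -/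
lemma D2_eq_zero (S : Seq3 F u ux uy uz) (hb : Tendsto (fun k => vol3 fun x y z => |ux k x y z|) atTop (𝓝 0))
    {x x' : ℝ} (hx : x ∈ Icc (0 : ℝ) 1) (hx' : x' ∈ Icc (0 : ℝ) 1)
    (h1 : Seq2 (F x) (fun k => u k x) (fun k => uy k x) (fun k => uz k x))
    (h2 : Seq2 (F x') (fun k => u k x') (fun k => uy k x') (fun k => uz k x')) :
    D2 (F x') (F x) = 0 := by
  refine le_antisymm ?_ (D2_nonneg _ _)
  have ht := (h2.dist_tendsto.add hb).add h1.dist_tendsto
  simp only [add_zero] at ht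
  refine ge_of_tendsto' ht fun k => ?_
  have e1 := D2_triangle (S.bm_F x') (S.bm_u k x') (S.bm_F x)
  have e2 := D2_triangle (S.bm_u k x') (S.bm_u k x) (S.bm_F x)
  have e3 := S.D2_slices_le k hx hx'
  rw [D2_comm (F x') (u k x')] at e1
  linarith

/-- Almost everywhere in the direction `x`, the transverse energy has liminf at most a constant
if its integrals are bounded by that constant up to errors that tend to zero, and it has liminf at
least the constant. -/
lemma ae_freq_of_integral (S : Seq3 F u ux uy uz) {Per : ℝ} (hP0 : 0 ≤ Per) {Λ : ℕ → ℝ}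
    (hΛ : Tendsto Λ atTop (𝓝 Per))
    (hI : ∀ k, ∫ x in (0 : ℝ)..1, transCost (uy k) (uz k) x ≤ Λ k)
    (hsl : ∀ᵐ x ∂(volume.restrict (Ioc (0 : ℝ) 1)), ∀ c,
      (∃ᶠ k in atTop, transCost (uy k) (uz k) x ≤ c) → Per ≤ c) :
    ∀ᵐ x ∂(volume.restrict (Ioc (0 : ℝ) 1)), ∀ ε > 0,
      ∃ᶠ k in atTop, transCost (uy k) (uz k) x ≤ Per + ε := by
  have hle : (0 : ℝ) ≤ 1 := zero_le_one
  set μ : Measure ℝ := volume.restrict (Ioc (0 : ℝ) 1) with hμ
  have : IsProbabilityMeasure μ := ⟨by rw [hμ, Measure.restrict_apply_univ]; simp⟩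
  set T := fun k => transCost (uy k) (uz k) with hT
  have hTc : ∀ k, Continuous (T k) := S.transCost_cont
  have hT0 : ∀ k t, 0 ≤ T k t := fun k t => transCost_nonneg _ _ _
  have hWi : ∀ k, Integrable (T k) μ := fun k =>
    ((hTc k).integrableOn_Icc (a := 0) (b := 1)).mono_set Ioc_subset_Icc_self
  set f : ℝ → ENNReal := fun t => liminf (fun k => ENNReal.ofReal (T k t)) atTop with hf
  have hfm : Measurable f :=
    Measurable.liminf fun k => (hTc k).measurable.ennreal_ofReal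
  have h1 : ∀ᵐ t ∂μ, ENNReal.ofReal Per ≤ f t := by
    filter_upwards [hsl] with t h2
    simpa using pointwise_liminf (A := fun _ => 1) continuous_const (fun _ => zero_le_one)
      (g := fun _ => (0 : ℝ)) (G := 0) (fun k => hT0 k t) tendsto_const_nhds hP0 h2
  have h2 : ∫⁻ t, f t ∂μ ≤ ∫⁻ _, ENNReal.ofReal Per ∂μ := by
    rw [lintegral_const, measure_univ, mul_one]
    calc ∫⁻ t, f t ∂μ ≤ liminf (fun k => ∫⁻ t, ENNReal.ofReal (T k t) ∂μ) atTop :=
          lintegral_liminf_le fun k => (hTc k).measurable.ennreal_ofReal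
      _ ≤ liminf (fun k => ENNReal.ofReal (Λ k)) atTop := by
          refine liminf_le_liminf (Eventually.of_forall fun k => ?_)
          rw [← ofReal_integral_eq_lintegral_ofReal (hWi k) (Eventually.of_forall fun t => hT0 k t)]
          apply ENNReal.ofReal_le_ofReal
          have := hI k
          rwa [intervalIntegral.integral_of_le hle] at this
      _ = ENNReal.ofReal Per :=
          (ENNReal.continuous_ofReal.continuousAt.tendsto.comp hΛ).liminf_eq
  have h3 : (fun _ => ENNReal.ofReal Per) =ᵐ[μ] f :=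
    ae_eq_of_ae_le_of_lintegral_le h1 (by simp) hfm.aemeasurable h2
  filter_upwards [h3] with t ht ε hε
  have h4 : f t < ENNReal.ofReal (Per + ε) := by
    rw [← ht]
    exact (ENNReal.ofReal_lt_ofReal_iff (by linarith)).2 (by linarith)
  have h5 := frequently_lt_of_liminf_lt (by isBoundedDefault) h4
  refine h5.mono fun k hk => ?_
  exact ((ENNReal.ofReal_lt_ofReal_iff (by linarith)).1 hk).le

/-- The reduction to the plane. -/
theorem cyl_reduce (S : Seq3 F u ux uy uz) {Per : ℝ} {e : ℕ → ℝ} (he : Tendsto e atTop (𝓝 0))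
    (hPer : ∀ k, energy3 (ux k) (uy k) (uz k) ≤ Per + e k)
    (hs : ∀ᵐ x ∂(volume.restrict (Ioc (0 : ℝ) 1)), Per ≤ I2 (area (F x))) {V : ℝ}
    (hV : ∀ᵐ x ∂(volume.restrict (Ioc (0 : ℝ) 1)), area (F x) = V) :
    ∃ (x₀ : ℝ) (φ : ℕ → ℕ) (e' : ℕ → ℝ), StrictMono φ ∧ Tendsto e' atTop (𝓝 0) ∧
      Seq2 (F x₀) (fun k => u (φ k) x₀) (fun k => uy (φ k) x₀) (fun k => uz (φ k) x₀) ∧
      (∀ k, ∫ y in (0 : ℝ)..1, ∫ z in (0 : ℝ)..1,
        √(uy (φ k) x₀ y z ^ 2 + uz (φ k) x₀ y z ^ 2) ≤ Per + e' k) ∧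
      area (F x₀) = V ∧
      (∫ x in (0 : ℝ)..1, ∫ y in (0 : ℝ)..1, ∫ z in (0 : ℝ)..1, |F x y z - F x₀ y z|) = 0 := by
  have hle : (0 : ℝ) ≤ 1 := zero_le_one
  set μ : Measure ℝ := volume.restrict (Ioc (0 : ℝ) 1) with hμ
  have : IsProbabilityMeasure μ := ⟨by rw [hμ, Measure.restrict_apply_univ]; simp⟩
  set T := fun k => transCost (uy k) (uz k) with hT
  set a := fun k => vol3 fun x y z => √(uy k x y z ^ 2 + uz k x y z ^ 2) with ha
  set b := fun k => vol3 fun x y z => |ux k x y z| with hb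
  have hTa : ∀ k, ∫ x in (0 : ℝ)..1, T k x = a k := fun k => rfl
  have ha0 : ∀ k, 0 ≤ a k := fun k => vol3_nonneg' fun _ _ _ => Real.sqrt_nonneg _
  have hb0 : ∀ k, 0 ≤ b k := fun k => vol3_nonneg' fun _ _ _ => abs_nonneg _
  have hPk : ∀ k, 0 ≤ Per + e k := fun k => (energy3_nonneg _ _ _).trans (hPer k)
  have hsq : ∀ k, a k ^ 2 + b k ^ 2 ≤ (Per + e k) ^ 2 := fun k =>
    (S.energy_sq k).trans (pow_le_pow_left₀ (energy3_nonneg _ _ _) (hPer k) 2)
  have hPe : Tendsto (fun k => Per + e k) atTop (𝓝 Per) := by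
    simpa using tendsto_const_nhds.add he
  have hP0 : 0 ≤ Per := ge_of_tendsto' hPe hPk
  have hsl : ∀ᵐ x ∂μ, ∀ c, (∃ᶠ k in atTop, T k x ≤ c) → Per ≤ c := by
    filter_upwards [hs, ae_restrict_of_ae S.ae_slice_cost] with x h1 h2 c hc
    exact h1.trans (h2 c hc).1
  have hfat : ∀ ε > 0, ∀ᶠ k in atTop, Per - ε ≤ a k := by
    intro ε hε
    have := fatou_ev (W := T) S.transCost_cont (fun k t => transCost_nonneg _ _ _)
      (Y := fun _ => Per) measurable_const (fun _ => hP0) (C := Per) (fun _ => le_rfl) hsl hε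
    have h2 : ∫ _ in (0 : ℝ)..1, Per = Per := by simp
    filter_upwards [this] with k hk
    rw [h2] at hk
    exact hk
  -- the energy in the direction tends to zero
  have hc : Tendsto (fun k => min (a k) Per) atTop (𝓝 Per) := by
    refine tendsto_order.2 ⟨fun c hc => ?_, fun c hc => ?_⟩
    · filter_upwards [hfat (Per - (Per + c) / 2) (by linarith)] with k hk
      exact lt_min (by linarith) hc
    · exact Eventually.of_forall fun k => (min_le_right _ _).trans_lt hc
  have hbsq : Tendsto (fun k => b k ^ 2) atTop (𝓝 0) := by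
    have h1 : Tendsto (fun k => (Per + e k) ^ 2 - min (a k) Per ^ 2) atTop (𝓝 (Per ^ 2 - Per ^ 2)) :=
      (hPe.pow 2).sub (hc.pow 2)
    rw [sub_self] at h1
    refine squeeze_zero (fun k => sq_nonneg _) (fun k => ?_) h1
    have h2 : min (a k) Per ^ 2 ≤ a k ^ 2 :=
      pow_le_pow_left₀ (le_min (ha0 k) hP0) (min_le_left _ _) 2
    linarith [hsq k]
  have hb' : Tendsto b atTop (𝓝 0) := by
    have h1 := hbsq.sqrt
    simp only [Real.sqrt_zero] at h1
    refine h1.congr fun k => ?_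
    exact Real.sqrt_sq (hb0 k)
  -- a good slice
  have hfr := S.ae_freq_of_integral hP0 hPe (fun k => by
    have h1 : a k ≤ Per + e k := abs_le_of_sq_le_sq' (by nlinarith [sq_nonneg (b k), hsq k]) (hPk k) |>.2
    exact h1) hsl
  have hgood : ∀ᵐ x ∂μ, Seq2 (F x) (fun k => u k x) (fun k => uy k x) (fun k => uz k x) :=
    ae_restrict_of_ae S.ae_slice
  have hVμ : ∀ᵐ x ∂μ, area (F x) = V := hV
  have hmem : ∀ᵐ x ∂μ, x ∈ Ioc (0 : ℝ) 1 := ae_restrict_mem measurableSet_Ioc
  obtain ⟨x₀, hx₁, hx₂, hx₃, hx₄⟩ := (hfr.and (hgood.and (hVμ.and hmem))).exists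
  obtain ⟨φ, hφ, hφT⟩ := extraction_forall_of_frequently
    (P := fun n k => T k x₀ ≤ Per + 1 / ((n : ℝ) + 1)) fun n => hx₁ _ (by positivity)
  refine ⟨x₀, φ, fun n => 1 / ((n : ℝ) + 1), hφ, tendsto_one_div_add_atTop_nhds_zero_nat,
    hx₂.subseq hφ.tendsto_atTop, fun k => hφT k, hx₃, ?_⟩
  have hx₀ : x₀ ∈ Icc (0 : ℝ) 1 := ⟨hx₄.1.le, hx₄.2⟩
  have h0 : ∫ _ in (0 : ℝ)..1, (0 : ℝ) = 0 := by simp
  refine Eq.trans ?_ h0
  refine intervalIntegral.integral_congr_ae ?_
  filter_upwards [S.ae_slice] with x hx hxm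
  rw [uIoc_of_le hle] at hxm
  exact S.D2_eq_zero hb' hx₀ ⟨hxm.1.le, hxm.2⟩ hx₂ hx

/-- Almost every line in the first direction is a line of convergence almost everywhere. -/
lemma ae_line (S : Seq3 F u ux uy uz) :
    ∀ᵐ q : ℝ × ℝ, ∀ᵐ x : ℝ, Tendsto (fun k => u k x q.1 q.2) atTop (𝓝 (F x q.1 q.2)) := by
  have h := S.conv
  rw [Measure.volume_eq_prod] at h
  have h2 := (Measure.measurePreserving_swap (μ := (volume : Measure (ℝ × ℝ)))
    (ν := (volume : Measure ℝ))).quasiMeasurePreserving.ae h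
  exact Measure.ae_ae_of_ae_prod h2

lemma I2_eq_zero {s : ℝ} (h0 : 0 ≤ s) (h1 : s ≤ 1) (h : I2 s = 0) : s = 0 ∨ s = 1 := by
  by_contra hcon
  push Not at hcon
  have h2 : 0 < s := lt_of_le_of_ne h0 (Ne.symm hcon.1)
  have h3 : s < 1 := lt_of_le_of_ne h1 hcon.2
  have h4 : 0 < I2 s := by
    unfold I2
    have h5 : 0 < √(π * s) := Real.sqrt_pos.2 (by positivity)
    have h6 : 0 < √(π * (1 - s)) := Real.sqrt_pos.2 (mul_pos Real.pi_pos (by linarith))
    exact lt_min (by linarith) (lt_min (by norm_num) (by linarith))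
  linarith

/-- If almost all lines in the first direction are nontrivial and the energy tends to `2`, then
the slices orthogonal to that direction are trivial. -/
theorem binary_of_lines (S : Seq3 F u ux uy uz) {e : ℕ → ℝ} (he : Tendsto e atTop (𝓝 0))
    (hPer : ∀ k, energy3 (ux k) (uy k) (uz k) ≤ 2 + e k)
    (hl : ∀ᵐ q ∂((volume.restrict (Ioc (0 : ℝ) 1)).prod (volume.restrict (Ioc (0 : ℝ) 1))),
      (0 < ∫ x in (0 : ℝ)..1, F x q.1 q.2) ∧ (∫ x in (0 : ℝ)..1, F x q.1 q.2) < 1) :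
    ∀ᵐ x ∂(volume.restrict (Ioc (0 : ℝ) 1)), area (F x) = 0 ∨ area (F x) = 1 := by
  have hle : (0 : ℝ) ≤ 1 := zero_le_one
  set μ : Measure ℝ := volume.restrict (Ioc (0 : ℝ) 1) with hμ
  have : IsProbabilityMeasure μ := ⟨by rw [hμ, Measure.restrict_apply_univ]; simp⟩
  set T := fun k => transCost (uy k) (uz k) with hT
  set a := fun k => vol3 fun x y z => √(uy k x y z ^ 2 + uz k x y z ^ 2) with ha
  set b := fun k => vol3 fun x y z => |ux k x y z| with hb
  have ha0 : ∀ k, 0 ≤ a k := fun k => vol3_nonneg' fun _ _ _ => Real.sqrt_nonneg _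
  have hb0 : ∀ k, 0 ≤ b k := fun k => vol3_nonneg' fun _ _ _ => abs_nonneg _
  have hsq : ∀ k, a k ^ 2 + b k ^ 2 ≤ (2 + e k) ^ 2 := fun k =>
    (S.energy_sq k).trans (pow_le_pow_left₀ (energy3_nonneg _ _ _) (hPer k) 2)
  have hPe : Tendsto (fun k => 2 + e k) atTop (𝓝 2) := by
    simpa using (tendsto_const_nhds (x := (2 : ℝ))).add he
  -- the cost of a line
  have hline : ∀ᵐ q ∂(μ.prod μ), ∀ c,
      (∃ᶠ k in atTop, ∫ x in (0 : ℝ)..1, |ux k x q.1 q.2| ≤ c) → 2 ≤ c := by
    have hal : ∀ᵐ q ∂(μ.prod μ), ∀ᵐ x : ℝ, Tendsto (fun k => u k x q.1 q.2) atTop (𝓝 (F x q.1 q.2)) := by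
      have h0 := S.ae_line
      rw [hμ, Measure.prod_restrict]
      exact ae_restrict_of_ae (by simpa [Measure.volume_eq_prod] using h0)
    filter_upwards [hl, hal] with q h1 h2 c hc
    exact line_cost (v := fun k t => u k t q.1 q.2) (v' := fun k t => ux k t q.1 q.2)
      (fun k t => (S.smooth k).dx t q.1 q.2)
      (fun k => (S.smooth k).contx.comp
        (by fun_prop : Continuous fun s : ℝ => ((s, q.1, q.2) : ℝ × ℝ × ℝ)))
      (fun k => (S.smooth k).perx q.1 q.2) (f := fun t => F t q.1 q.2)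
      (fun t => S.bin t q.1 q.2) h2 h1.1 h1.2 hc
  have hline2 := Measure.ae_ae_of_ae_prod hline
  -- continuity of the integrals over lines
  have hg : ∀ k, Continuous fun p : ℝ × ℝ × ℝ => |ux k p.2.2 p.1 p.2.1| := fun k => by
    have : Continuous fun p : ℝ × ℝ × ℝ => ((p.2.2, p.1, p.2.1) : ℝ × ℝ × ℝ) := by fun_prop
    exact (S.smooth k).contx.abs.comp this
  have hL : ∀ k, Continuous fun q : ℝ × ℝ => ∫ x in (0 : ℝ)..1, |ux k x q.1 q.2| := fun k =>
    cont_marg2 (f := fun y z s => |ux k s y z|) (hg k)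
  have hW : ∀ k, Continuous fun y => ∫ z in (0 : ℝ)..1, ∫ x in (0 : ℝ)..1, |ux k x y z| := fun k =>
    cont_area (f := fun y z s => |ux k s y z|) (hg k)
  have hW0 : ∀ k y, 0 ≤ ∫ z in (0 : ℝ)..1, ∫ x in (0 : ℝ)..1, |ux k x y z| := fun k y =>
    intervalIntegral.integral_nonneg hle fun _ _ =>
      intervalIntegral.integral_nonneg hle fun _ _ => abs_nonneg _
  have hbW : ∀ k, b k = ∫ y in (0 : ℝ)..1, ∫ z in (0 : ℝ)..1, ∫ x in (0 : ℝ)..1, |ux k x y z| :=
    fun k => vol3_rot (f := fun x y z => |ux k x y z|) (S.smooth k).contx.abs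
  -- Fatou in `z`, for almost every `y`
  have hy : ∀ᵐ y ∂μ, ∀ c, (∃ᶠ k in atTop, ∫ z in (0 : ℝ)..1, ∫ x in (0 : ℝ)..1, |ux k x y z| ≤ c) →
      (2 : ℝ) ≤ c := by
    filter_upwards [hline2] with y hy c hc
    have h2 := fatou_freq (W := fun k z => ∫ x in (0 : ℝ)..1, |ux k x y z|)
      (fun k => (hL k).comp (by fun_prop : Continuous fun z : ℝ => ((y, z) : ℝ × ℝ)))
      (fun k t => intervalIntegral.integral_nonneg hle fun _ _ => abs_nonneg _)
      (Y := fun _ => (2 : ℝ)) measurable_const (fun _ => zero_le_two) (C := 2) (fun _ => le_rfl)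
      hy hc
    simpa using h2
  -- Fatou in `y`
  have hb2 : ∀ ε > 0, ∀ᶠ k in atTop, 2 - ε ≤ b k := by
    intro ε hε
    have h2 := fatou_ev (W := fun k y => ∫ z in (0 : ℝ)..1, ∫ x in (0 : ℝ)..1, |ux k x y z|) hW hW0
      (Y := fun _ => (2 : ℝ)) measurable_const (fun _ => zero_le_two) (C := 2) (fun _ => le_rfl) hy hε
    have h3 : ∫ _ in (0 : ℝ)..1, (2 : ℝ) = 2 := by simp
    filter_upwards [h2] with k hk
    rw [h3] at hk
    rw [hbW]
    exact hk
  -- Fatou for the transverse energy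
  set I := ∫ x in (0 : ℝ)..1, I2 (area (F x)) with hI
  have hYm : Measurable fun x => I2 (area (F x)) := I2_continuous.measurable.comp S.G_meas
  have hI0 : 0 ≤ I := intervalIntegral.integral_nonneg hle fun x _ => I2_nonneg _
  have ha2 : ∀ ε > 0, ∀ᶠ k in atTop, I - ε ≤ a k := by
    intro ε hε
    have h2 := fatou_ev (W := T) S.transCost_cont (fun k t => transCost_nonneg _ _ _)
      (Y := fun x => I2 (area (F x))) hYm (fun x => I2_nonneg _) (C := 2) (fun x => I2_le_two _)
      (by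
        filter_upwards [ae_restrict_of_ae S.ae_slice_cost] with x h c hc
        exact (h c hc).1) hε
    exact h2
  -- the limit
  have hc1 : Tendsto (fun k => min (a k) I) atTop (𝓝 I) := by
    refine tendsto_order.2 ⟨fun c hc => ?_, fun c hc => ?_⟩
    · filter_upwards [ha2 (I - (I + c) / 2) (by linarith)] with k hk
      exact lt_min (by linarith) hc
    · exact Eventually.of_forall fun k => (min_le_right _ _).trans_lt hc
  have hc2 : Tendsto (fun k => min (b k) 2) atTop (𝓝 2) := by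
    refine tendsto_order.2 ⟨fun c hc => ?_, fun c hc => ?_⟩
    · filter_upwards [hb2 (2 - (2 + c) / 2) (by linarith)] with k hk
      exact lt_min (by linarith) hc
    · exact Eventually.of_forall fun k => (min_le_right _ _).trans_lt hc
  have hlim : I ^ 2 + 2 ^ 2 ≤ (2 : ℝ) ^ 2 := by
    refine le_of_tendsto_of_tendsto' ((hc1.pow 2).add (hc2.pow 2)) (hPe.pow 2) fun k => ?_
    have h2 : min (a k) I ^ 2 ≤ a k ^ 2 := pow_le_pow_left₀ (le_min (ha0 k) hI0) (min_le_left _ _) 2
    have h3 : min (b k) 2 ^ 2 ≤ b k ^ 2 :=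
      pow_le_pow_left₀ (le_min (hb0 k) zero_le_two) (min_le_left _ _) 2
    linarith [hsq k]
  have hI00 : I = 0 := by nlinarith [sq_nonneg I]
  -- conclusion
  have hint : Integrable (fun x => I2 (area (F x))) μ :=
    Integrable.of_bound hYm.aestronglyMeasurable 2 (ae_of_all _ fun x => by
      rw [Real.norm_eq_abs, abs_of_nonneg (I2_nonneg _)]
      exact I2_le_two _)
  have h0 : ∫ x, I2 (area (F x)) ∂μ = 0 := by
    rw [← hI00, hI, intervalIntegral.integral_of_le hle]
  have h1 := (integral_eq_zero_iff_of_nonneg (fun x => I2_nonneg _) hint).1 h0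
  filter_upwards [h1] with x hx
  exact I2_eq_zero (S.G_mem x).1 (S.G_mem x).2 hx

end Seq3

end Vale.Agent.Lib.P232
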