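import Vale.Agent.Lib.P232.RigC

/-!
The profile has no interior minimum; first variation on arcs; positions of levels.
-/

open MeasureTheory Filter Topology Set
open scoped Real

namespace Vale.Agent.Lib.P232

lemma small_params {M a₀ : ℝ} (hM0 : 0 ≤ M) (ha₀ : 0 < a₀) :
    ∃ τ₁ : ℝ, 0 < τ₁ ∧ ∀ τ, 0 < τ → τ ≤ τ₁ → τ * M ≤ a₀ ∧ τ * M ≤ 1 ∧ τ ^ 2 * M ^ 2 ≤ 1 / 2 := by
  have hM1 : 0 < M + 1 := by linarith
  refine ⟨min (a₀ / (M + 1)) (min (1 / (M + 1)) (1 / (2 * (M + 1)))),
    lt_min (by positivity) (lt_min (by positivity) (by positivity)), ?_⟩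
  intro τ h0 h1
  have h2 : τ ≤ a₀ / (M + 1) := h1.trans (min_le_left _ _)
  have h3 : τ ≤ 1 / (M + 1) := h1.trans ((min_le_right _ _).trans (min_le_left _ _))
  have h4 : τ ≤ 1 / (2 * (M + 1)) := h1.trans ((min_le_right _ _).trans (min_le_right _ _))
  rw [le_div_iff₀ hM1] at h2 h3
  rw [le_div_iff₀ (by positivity)] at h4
  refine ⟨by nlinarith, by nlinarith, ?_⟩
  have h5 : τ * M ≤ 1 / 2 := by nlinarith
  have h6 : 0 ≤ τ * M := by positivity
  have e : τ ^ 2 * M ^ 2 = (τ * M) ^ 2 := by ring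
  rw [e]
  nlinarith

namespace ProfData

variable {g g' W e : ℕ → ℝ → ℝ} {G Y : ℝ → ℝ} {Λ : ℕ → ℝ} {L : ℝ} {A B J Df D1 : ℝ → ℝ} {b : ℝ}

/-- A good node near the top in the fundamental domain of a node. -/
lemma exists_top (P : ProfData g g' W e G Y Λ L A B J Df D1 b) (o : ℝ) {ε : ℝ} (hε : 0 < ε) :
    ∃ w, P.Gd w ∧ o ≤ w ∧ w ≤ o + 1 ∧ b - ε < G w := by
  obtain ⟨w', hw', hw1, hw2⟩ := P.top ε hε
  obtain ⟨n, hn1, hn2⟩ := exists_shift o w'
  refine ⟨w' + n, P.Gd_int ⟨hw', hw1⟩ n, hn1, hn2, ?_⟩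
  rw [per_int P.data.pG n w']
  exact hw2

/-- No strict interior minimum between a zero node and its translate. -/
theorem no_min (P : ProfData g g' W e G Y Λ L A B J Df D1 b) {o y₁ y₂ y₃ : ℝ} (ho : P.Gd o)
    (h0 : G o = 0) (h1 : o ≤ y₁) (h2 : y₁ ≤ y₂) (h3 : y₂ ≤ y₃) (h4 : y₃ ≤ o + 1)
    (g1 : P.Gd y₁) (g2 : P.Gd y₂) (g3 : P.Gd y₃) : min (G y₁) (G y₃) ≤ G y₂ := by
  by_contra hc
  push Not at hc
  have a1 : G y₂ < G y₁ := hc.trans_le (min_le_left _ _)
  have a3 : G y₂ < G y₃ := hc.trans_le (min_le_right _ _)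
  have s1 := P.primB_strict g2.2.1 a1 g1.2.2
  have s3 := P.primB_strict g2.2.1 a3 g3.2.2
  set ε := min (primB B (G y₁) - primB B (G y₂)) (primB B (G y₃) - primB B (G y₂)) with hε
  have hε0 : 0 < ε := lt_min (by linarith) (by linarith)
  have hε1 : ε ≤ primB B (G y₁) - primB B (G y₂) := min_le_left _ _
  have hε3 : ε ≤ primB B (G y₃) - primB B (G y₂) := min_le_right _ _
  obtain ⟨w, gw, hw1, hw2, hw3⟩ := P.exists_top o hε0
  have htop := P.primB_sub_le gw.2.2
  have hval := P.val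
  have hPb : ∫ s in (0 : ℝ)..b, B s = primB B b := rfl
  have hP0 : primB B (G o) = 0 := by rw [h0]; exact primB_zero B
  have hw0 : 0 ≤ primB B (G w) := by
    have := P.primB_mono gw.2.1
    rwa [primB_zero] at this
  rcases le_total w y₂ with hw | hw
  · have h := P.data.four_arcs P.pair hw1 hw h3 h4 ho.1 gw.1 g2.1 g3.1
    rw [hP0] at h
    have h5 := le_abs_self (primB B (G w) - 0)
    have h6 := neg_abs_le (primB B (G y₂) - primB B (G w))
    have h7 := le_abs_self (primB B (G y₃) - primB B (G y₂))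
    have h8 := neg_abs_le (0 - primB B (G y₃))
    linarith
  · have h := P.data.four_arcs P.pair h1 h2 hw hw2 ho.1 g1.1 g2.1 gw.1
    rw [hP0] at h
    have h5 := le_abs_self (primB B (G y₁) - 0)
    have h6 := neg_abs_le (primB B (G y₂) - primB B (G y₁))
    have h7 := le_abs_self (primB B (G w) - primB B (G y₂))
    have h8 := neg_abs_le (0 - primB B (G w))
    linarith

/-- Between two high good nodes the profile stays high. -/
lemma high_between (P : ProfData g g' W e G Y Λ L A B J Df D1 b) {o z w x s : ℝ} (ho : P.Gd o)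
    (h0 : G o = 0) (gz : P.Gd z) (gw : P.Gd w) (hoz : o ≤ z) (hzo : z ≤ o + 1) (how : o ≤ w)
    (hwo : w ≤ o + 1) (hz : s < G z) (hw : s < G w) (hx : x ∈ uIoc z w) (gx : P.Gd x) :
    s < G x := by
  rcases le_total z w with h | h
  · rw [uIoc_of_le h] at hx
    have := P.no_min ho h0 hoz hx.1.le hx.2 hwo gz gx gw
    exact (lt_min hz hw).trans_le this
  · rw [uIoc_of_ge h] at hx
    have := P.no_min ho h0 how hx.1.le hx.2 hzo gw gx gz
    exact (lt_min hw hz).trans_le this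

/-- First variation on the arc from a zero node to a high node. -/
theorem fv_left_eta (P : ProfData g g' W e G Y Λ L A B J Df D1 b) {o z s₂ : ℝ} (ho : P.Gd o)
    (h0 : G o = 0) {η : ℝ → ℝ} {M a₀ : ℝ} (hη : Continuous η) (hM : ∀ s, |η s| ≤ M) (ha₀ : 0 < a₀)
    (hsupp : ∀ s, η s ≠ 0 → a₀ ≤ A s ∧ a₀ ≤ B s) (hhigh : ∀ s, s₂ ≤ s → η s = 0)
    (hs₂ : s₂ < b) (gz : P.Gd z) (hoz : o ≤ z) (hzo : z ≤ o + 1) (hz : s₂ < G z) :
    ∫ s in (0 : ℝ)..b, η s * A s = ∫ t in o..z, η (G t) * B (G t) * Y t := by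
  have D := P.data
  have hM0 : 0 ≤ M := (abs_nonneg _).trans (hM 0)
  have hL := P.L_nonneg
  have hval := P.val
  set e₁ := ∫ t in o..z, η (G t) * B (G t) * Y t with he₁
  set e₂ := ∫ s in (0 : ℝ)..b, η s * A s with he₂
  set a := ∫ t in (0 : ℝ)..1, A (G t) * Y t with ha
  have hηY : ∀ x y : ℝ, IntervalIntegrable (fun t => η (G t) * B (G t) * Y t) volume x y :=
    fun x y => D.ii_comp (f := fun s => η s * B s) (hη.mul P.pair.contB) x y
  have hηA : ∀ x y : ℝ, IntervalIntegrable (fun s => η s * A s) volume x y :=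
    fun x y => (hη.mul P.pair.contA).intervalIntegrable x y
  have hAY : ∀ x y : ℝ, IntervalIntegrable (fun t => A (G t) * Y t) volume x y :=
    fun x y => D.ii_comp P.pair.contA x y
  -- the basic inequality at a high node
  have hbase : ∀ w τ, P.Gd w → o ≤ w → w ≤ o + 1 → s₂ < G w → |τ| * M ≤ a₀ → |τ| * M ≤ 1 →
      (1 - τ ^ 2 * M ^ 2) * (a + 2 * primB B (G w) + τ * (e₂ - e₁)) ≤ L := by
    intro w τ gw how hwo hw h1 h2
    have hp := rot_pair P.pair hη hM hsupp h1 h2
    have h3 := D.two_arcs hp P.pair how hwo ho.1 gw.1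
    have hc0 : 0 ≤ 1 - τ ^ 2 * M ^ 2 := by
      have h4 : (|τ| * M) ^ 2 ≤ 1 := by
        have h5 : 0 ≤ |τ| * M := by positivity
        nlinarith
      have e4 : (|τ| * M) ^ 2 = τ ^ 2 * M ^ 2 := by rw [mul_pow, sq_abs]
      linarith
    have hc1 : 1 - τ ^ 2 * M ^ 2 ≤ 1 := by
      have : 0 ≤ τ ^ 2 * M ^ 2 := by positivity
      linarith
    -- replacing the arc
    have e1 : ∫ t in o..w, η (G t) * B (G t) * Y t = e₁ := by
      have h4 : ∫ t in z..w, η (G t) * B (G t) * Y t = 0 := by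
        apply intervalIntegral.integral_zero_ae
        filter_upwards [P.ae_Gd] with t gt ht
        have h5 := P.high_between ho h0 gz gw hoz hzo how hwo hz hw ht gt
        rw [hhigh _ h5.le]
        ring
      rw [he₁, ← intervalIntegral.integral_add_adjacent_intervals (hηY o z) (hηY z w), h4,
        add_zero]
    -- replacing the level integral
    have e2 : ∫ s in (0 : ℝ)..(G w), η s * A s = e₂ := by
      have h4 : ∫ s in (G w)..b, η s * A s = 0 := by
        rw [intervalIntegral.integral_congr (g := fun _ => (0 : ℝ))]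
        · simp
        · intro s hs
          rw [uIcc_of_le gw.2.2] at hs
          simp only
          rw [hhigh s (hw.le.trans hs.1), zero_mul]
      rw [he₂, ← intervalIntegral.integral_add_adjacent_intervals (hηA 0 (G w)) (hηA (G w) b), h4,
        add_zero]
    have e3 : primB (rotB A B η M τ) (G w) =
        (1 - τ ^ 2 * M ^ 2) * (primB B (G w) + τ * e₂) := by
      have := P.int_rotB hη M τ 0 (G w)
      rw [e2] at this
      exact this
    have e4 : primB (rotB A B η M τ) (G o) = 0 := by rw [h0]; exact primB_zero _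
    have e5 : primB B (G o) = 0 := by rw [h0]; exact primB_zero _
    rw [e3, e4, e5, P.int_rotA hη, e1] at h3
    have h5 := le_abs_self ((1 - τ ^ 2 * M ^ 2) * (primB B (G w) + τ * e₂) - 0)
    have h6 := neg_abs_le (0 - primB B (G w))
    have e6 : (∫ t in o..w, A (G t) * Y t) + ∫ t in w..(o + 1), A (G t) * Y t = a := by
      rw [intervalIntegral.integral_add_adjacent_intervals (hAY _ _) (hAY _ _), D.per_AY]
    have h7 : 0 ≤ ∫ t in w..(o + 1), A (G t) * Y t :=
      intervalIntegral.integral_nonneg hwo fun t _ => mul_nonneg (P.pair.nonnegA _) (D.Y0 t)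
    have h8 : 0 ≤ primB B (G w) := by
      have := P.primB_mono gw.2.1
      rwa [primB_zero] at this
    have h9 := mul_le_mul_of_nonneg_right hc1 (add_nonneg h7 h8)
    have e7 : (1 - τ ^ 2 * M ^ 2) * (a + 2 * primB B (G w) + τ * (e₂ - e₁)) =
        (1 - τ ^ 2 * M ^ 2) * ((∫ t in o..w, A (G t) * Y t) - τ * e₁) +
          (1 - τ ^ 2 * M ^ 2) * (primB B (G w) + τ * e₂) +
          (1 - τ ^ 2 * M ^ 2) * ((∫ t in w..(o + 1), A (G t) * Y t) + primB B (G w)) := by
      rw [← e6]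
      ring
    rw [e7]
    linarith
  obtain ⟨τ₁, hτ₁, hsm⟩ := small_params hM0 ha₀
  have hfin : e₂ - e₁ = 0 := by
    refine fv_zero (K := 2 * M ^ 2 * L) hτ₁ fun τ h1 h2 => ?_
    refine le_of_forall_pos_le_add fun ε hε => ?_
    obtain ⟨h3, h4, h5⟩ := hsm τ h1 h2
    -- choose a node near the top
    have hε' : 0 < min (ε * τ / 4) (b - s₂) := lt_min (by positivity) (by linarith)
    obtain ⟨w, gw, hw1, hw2, hw3⟩ := P.exists_top o hε'
    have hw4 : s₂ < G w := by
      have := min_le_right (ε * τ / 4) (b - s₂)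
      linarith
    have hw5 : b - ε * τ / 4 < G w := by
      have := min_le_left (ε * τ / 4) (b - s₂)
      linarith
    have habs1 : |τ| * M = τ * M := by rw [abs_of_pos h1]
    have habs2 : |(-τ)| * M = τ * M := by rw [abs_neg, abs_of_pos h1]
    have h6 := hbase w τ gw hw1 hw2 hw4 (by rw [habs1]; exact h3) (by rw [habs1]; exact h4)
    have h7 := hbase w (-τ) gw hw1 hw2 hw4 (by rw [habs2]; exact h3) (by rw [habs2]; exact h4)
    have e8 : (-τ) ^ 2 = τ ^ 2 := by ring
    rw [e8] at h7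
    set pw := primB B (G w) with hpw
    have hPb : a + 2 * primB B b = L := hval
    have htop := P.primB_sub_le gw.2.2
    have hmono := P.primB_mono gw.2.2
    set ε' := 2 * (primB B b - pw) with hε''
    have hε'0 : 0 ≤ ε' := by
      rw [hε'']
      linarith
    have hLV : L = (a + 2 * pw) + ε' := by
      rw [hε'', ← hPb]
      ring
    have hb1 := fv_bound (V := a + 2 * pw) (L₀ := e₂ - e₁) (M := M) (τ := τ) (ε := ε') h1 h5
      (by rw [← hLV]; exact h6) (by rw [← hLV]; exact h7)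
    have hV : a + 2 * pw ≤ L := by rw [hLV]; linarith
    have h8 : 2 * τ * M ^ 2 * (a + 2 * pw) ≤ 2 * τ * M ^ 2 * L :=
      mul_le_mul_of_nonneg_left hV (by positivity)
    have h9 : 2 * ε' / τ ≤ ε := by
      rw [div_le_iff₀ h1, hε'']
      nlinarith
    calc |e₂ - e₁| ≤ 2 * τ * M ^ 2 * (a + 2 * pw) + 2 * ε' / τ := hb1
      _ ≤ τ * (2 * M ^ 2 * L) + ε := by nlinarith
  linarith

/-- The level distribution on an arc from a zero node to a high node. -/
theorem fv_left (P : ProfData g g' W e G Y Λ L A B J Df D1 b) {o z : ℝ} (ho : P.Gd o)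
    (h0 : G o = 0) {ψ : ℝ → ℝ} (hψ : Continuous ψ) {s₁ s₂ : ℝ} (h₁ : 0 < s₁) (h₁₂ : s₁ ≤ s₂)
    (h₂ : s₂ < b) (hsupp : ∀ s, s ∉ Ioo s₁ s₂ → ψ s = 0) (gz : P.Gd z) (hoz : o ≤ z)
    (hzo : z ≤ o + 1) (hz : s₂ < G z) :
    ∫ t in o..z, ψ (G t) = ∫ s in (0 : ℝ)..b, ψ s * rhoP A B J s := by
  obtain ⟨η, M, a₀, h1, h2, h3, h4, h5, h6, h7⟩ := P.exists_eta hψ h₁ h₁₂ h₂ hsupp
  have h := P.fv_left_eta ho h0 h1 h2 h3 h4 (s₂ := s₂)
    (fun s hs => h6 s fun h' => absurd h'.2 (not_lt.2 hs)) h₂ gz hoz hzo hz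
  have e1 : ∫ s in (0 : ℝ)..b, η s * A s = ∫ s in (0 : ℝ)..b, ψ s * rhoP A B J s := by
    simp only [h5]
  have e2 : ∫ t in o..z, η (G t) * B (G t) * Y t = ∫ t in o..z, ψ (G t) :=
    intervalIntegral.integral_congr_ae (h7.mono fun t ht _ => ht)
  rw [← e2, ← h, e1]

/-- The level distribution on the complementary arc. -/
theorem fv_right (P : ProfData g g' W e G Y Λ L A B J Df D1 b) {o z : ℝ} (ho : P.Gd o)
    (h0 : G o = 0) {ψ : ℝ → ℝ} (hψ : Continuous ψ) {s₁ s₂ : ℝ} (h₁ : 0 < s₁) (h₁₂ : s₁ ≤ s₂)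
    (h₂ : s₂ < b) (hsupp : ∀ s, s ∉ Ioo s₁ s₂ → ψ s = 0) (gz : P.Gd z) (hoz : o ≤ z)
    (hzo : z ≤ o + 1) (hz : s₂ < G z) :
    ∫ t in z..(o + 1), ψ (G t) = ∫ s in (0 : ℝ)..b, ψ s * rhoP A B J s := by
  have D := P.data
  have h1 := P.fv_left ho h0 hψ h₁ h₁₂ h₂ hsupp gz hoz hzo hz
  have h2 := P.circle_psi hψ h₁ h₁₂ h₂ hsupp
  have hi : ∀ x y : ℝ, IntervalIntegrable (fun t => ψ (G t)) volume x y := fun x y =>
    D.ii_compG hψ x y
  have h3 : (∫ t in o..z, ψ (G t)) + ∫ t in z..(o + 1), ψ (G t) = ∫ t in o..(o + 1), ψ (G t) :=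
    intervalIntegral.integral_add_adjacent_intervals (hi _ _) (hi _ _)
  have hper : Function.Periodic (fun t => ψ (G t)) 1 := fun t => by
    simp only [D.pG]
  have h4 : ∫ t in o..(o + 1), ψ (G t) = ∫ t in (0 : ℝ)..1, ψ (G t) := by
    have := hper.intervalIntegral_add_eq o 0
    simpa using this
  linarith

lemma bmp_zero_of_notMem {u v d s : ℝ} (hd : 0 < d) (hs : s ∉ Ioo u v) : bmp u v d s = 0 := by
  by_contra hne
  exact hs (bmp_ne_zero hd hne)

/-- The position of a level on an arc, from the level distribution. -/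
theorem pos_core (P : ProfData g g' W e G Y Λ L A B J Df D1 b) {t t' r r' : ℝ} (htt : t ≤ t')
    (hr : 0 < r) (hrr : r ≤ r') (hr' : r' < b)
    (hG : ∀ᵐ s, s ∈ Ioo t t' → G s ∈ Icc r r')
    (hU : ∀ u v d, 0 < d → 0 < u → u ≤ r → r' ≤ v → v < b →
      ∫ s in t..t', bmp u v d (G s) ≤ ∫ s in (0 : ℝ)..b, bmp u v d s * rhoP A B J s)
    (hL : ∀ u v d, 0 < d → r ≤ u → u ≤ v → v < r' →
      ∫ s in (0 : ℝ)..b, bmp u v d s * rhoP A B J s ≤ ∫ s in t..t', bmp u v d (G s)) :
    t' - t = Df r' - Df r := by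
  have D := P.data
  have hcr : ContinuousAt Df r := (P.dDf r ⟨hr, hrr.trans_lt hr'⟩).continuousAt
  have hcr' : ContinuousAt Df r' := (P.dDf r' ⟨hr.trans_le hrr, hr'⟩).continuousAt
  have hbd : ∀ {u v d : ℝ}, 0 < d → 0 < u → u ≤ v → v < b →
      (∫ s in (0 : ℝ)..b, bmp u v d s * rhoP A B J s) ≤ Df v - Df u ∧
        (u + d ≤ v - d → Df (v - d) - Df (u + d) ≤
          ∫ s in (0 : ℝ)..b, bmp u v d s * rhoP A B J s) := by
    intro u v d hd hu huv hv
    have := P.bmp_bounds (h := fun _ => (1 : ℝ)) (Φ := Df) continuous_const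
      (fun _ _ => zero_le_one) (fun s hs => by simpa using P.dDf s hs) hd hu huv hv
    simpa using this
  apply le_antisymm
  · -- upper bound
    have hc : ContinuousAt (fun δ : ℝ => Df (r' + 2 * δ) - Df (r - 2 * δ)) 0 := by
      apply ContinuousAt.sub
      · refine ContinuousAt.comp (f := fun δ : ℝ => r' + 2 * δ) (g := Df) ?_ (by fun_prop)
        simpa using hcr'
      · refine ContinuousAt.comp (f := fun δ : ℝ => r - 2 * δ) (g := Df) ?_ (by fun_prop)
        simpa using hcr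
    have hlim : Tendsto (fun δ : ℝ => Df (r' + 2 * δ) - Df (r - 2 * δ)) (𝓝[>] 0)
        (𝓝 (Df r' - Df r)) := by
      have := hc.tendsto
      simp only [mul_zero, add_zero, sub_zero] at this
      exact this.mono_left nhdsWithin_le_nhds
    refine ge_of_tendsto hlim ?_
    have hδ : 0 < min r (b - r') := lt_min hr (by linarith)
    have hev : ∀ᶠ δ : ℝ in 𝓝[>] 0, δ ∈ Ioo 0 (min r (b - r') / 2) :=
      Ioo_mem_nhdsGT (by positivity)
    filter_upwards [hev] with δ hδ1
    have hδ0 := hδ1.1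
    have h1 : 2 * δ < r := by
      have := hδ1.2
      have := min_le_left r (b - r')
      linarith
    have h2 : 2 * δ < b - r' := by
      have := hδ1.2
      have := min_le_right r (b - r')
      linarith
    have hu0 : 0 < r - 2 * δ := by linarith
    have huv : r - 2 * δ ≤ r' + 2 * δ := by linarith
    have hvb : r' + 2 * δ < b := by linarith
    have e1 : ∫ s in t..t', bmp (r - 2 * δ) (r' + 2 * δ) δ (G s) = t' - t := by
      have : ∫ s in t..t', bmp (r - 2 * δ) (r' + 2 * δ) δ (G s) = ∫ _ in t..t', (1 : ℝ) := by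
        apply intervalIntegral.integral_congr_ae
        filter_upwards [hG, compl_mem_ae_iff.2 (measure_singleton t')] with s hs1 hs2 hs3
        rw [uIoc_of_le htt] at hs3
        have hs4 : s ∈ Ioo t t' := ⟨hs3.1, lt_of_le_of_ne hs3.2 hs2⟩
        have hs5 := hs1 hs4
        exact bmp_eq_one hδ0 (by linarith [hs5.1]) (by linarith [hs5.2])
      rw [this]
      simp
    have h3 := hU (r - 2 * δ) (r' + 2 * δ) δ hδ0 hu0 (by linarith) (by linarith) hvb
    rw [e1] at h3
    exact h3.trans (hbd hδ0 hu0 huv hvb).1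
  · -- lower bound
    rcases eq_or_lt_of_le hrr with hrr' | hrr'
    · rw [hrr', sub_self]
      linarith
    have hc : ContinuousAt (fun δ : ℝ => Df (r' - δ - δ) - Df (r + δ)) 0 := by
      apply ContinuousAt.sub
      · refine ContinuousAt.comp (f := fun δ : ℝ => r' - δ - δ) (g := Df) ?_ (by fun_prop)
        simpa using hcr'
      · refine ContinuousAt.comp (f := fun δ : ℝ => r + δ) (g := Df) ?_ (by fun_prop)
        simpa using hcr
    have hlim : Tendsto (fun δ : ℝ => Df (r' - δ - δ) - Df (r + δ)) (𝓝[>] 0)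
        (𝓝 (Df r' - Df r)) := by
      have := hc.tendsto
      simp only [add_zero, sub_zero] at this
      exact this.mono_left nhdsWithin_le_nhds
    refine le_of_tendsto hlim ?_
    have hev : ∀ᶠ δ : ℝ in 𝓝[>] 0, δ ∈ Ioo 0 ((r' - r) / 4) :=
      Ioo_mem_nhdsGT (by linarith)
    filter_upwards [hev] with δ hδ1
    have hδ0 := hδ1.1
    have hδ2 := hδ1.2
    have hv : r' - δ < r' := by linarith
    have h3 := hL r (r' - δ) δ hδ0 le_rfl (by linarith) hv
    have h4 := (hbd (u := r) (v := r' - δ) (d := δ) hδ0 hr (by linarith) (by linarith)).2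
      (by linarith)
    have h5 : ∫ s in t..t', bmp r (r' - δ) δ (G s) ≤ ∫ _ in t..t', (1 : ℝ) :=
      intervalIntegral.integral_mono_on htt (D.ii_compG (bmp_cont _ _ _) _ _) (by simp)
        fun s _ => bmp_le_one _ _ _ _
    simp only [intervalIntegral.integral_const, smul_eq_mul, mul_one] at h5
    linarith

/-- Left records. -/
def Rec (P : ProfData g g' W e G Y Λ L A B J Df D1 b) (o t : ℝ) : Prop :=
  P.Gd t ∧ o < t ∧ t < o + 1 ∧ ∀ s, P.Gd s → o < s → s < t → G s ≤ G t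

/-- Right records. -/
def CoRec (P : ProfData g g' W e G Y Λ L A B J Df D1 b) (o t : ℝ) : Prop :=
  P.Gd t ∧ o < t ∧ t < o + 1 ∧ ∀ s, P.Gd s → t < s → s < o + 1 → G s ≤ G t

/-- Every good node is a record from one side. -/
theorem rec_or (P : ProfData g g' W e G Y Λ L A B J Df D1 b) {o t : ℝ} (ho : P.Gd o)
    (h0 : G o = 0) (gt : P.Gd t) (h1 : o < t) (h2 : t < o + 1) : P.Rec o t ∨ P.CoRec o t := by
  by_contra hc
  push Not at hc
  obtain ⟨hc1, hc2⟩ := hc
  have h3 : ∃ s, P.Gd s ∧ o < s ∧ s < t ∧ G t < G s := by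
    by_contra h
    push Not at h
    exact hc1 ⟨gt, h1, h2, fun s gs hs1 hs2 => h s gs hs1 hs2⟩
  have h4 : ∃ s, P.Gd s ∧ t < s ∧ s < o + 1 ∧ G t < G s := by
    by_contra h
    push Not at h
    exact hc2 ⟨gt, h1, h2, fun s gs hs1 hs2 => h s gs hs1 hs2⟩
  obtain ⟨s, gs, hs1, hs2, hs3⟩ := h3
  obtain ⟨s', gs', hs1', hs2', hs3'⟩ := h4
  have := P.no_min ho h0 hs1.le hs2.le hs1'.le hs2'.le gs gt gs'
  exact absurd this (not_le.2 (lt_min hs3 hs3'))

/-- A high good node is strictly inside the period of a zero node. -/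
lemma high_inside (P : ProfData g g' W e G Y Λ L A B J Df D1 b) {o w v : ℝ}
    (h0 : G o = 0) (hv : 0 ≤ v) (h1 : o ≤ w) (h2 : w ≤ o + 1) (hw : v < G w) :
    o < w ∧ w < o + 1 := by
  constructor
  · rcases eq_or_lt_of_le h1 with h | h
    · rw [← h, h0] at hw
      linarith
    · exact h
  · rcases eq_or_lt_of_le h2 with h | h
    · rw [h, P.data.pG, h0] at hw
      linarith
    · exact h

/-- Positions on the left branch. -/
theorem rec_pos (P : ProfData g g' W e G Y Λ L A B J Df D1 b) {o t t' : ℝ} (ho : P.Gd o)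
    (h0 : G o = 0) (ht : P.Rec o t) (ht' : P.Rec o t') (hlt : t < t') (h1 : 0 < G t)
    (h2 : G t' < b) : t' - t = Df (G t') - Df (G t) := by
  have D := P.data
  have hrr : G t ≤ G t' := ht'.2.2.2 t ht.1 ht.2.1 hlt
  refine P.pos_core hlt.le h1 hrr h2 ?_ ?_ ?_
  · filter_upwards [P.ae_Gd] with s gs hs
    refine ⟨?_, ht'.2.2.2 s gs (ht.2.1.trans hs.1) hs.2⟩
    have := P.no_min ho h0 ht.2.1.le hs.1.le hs.2.le ht'.2.2.1.le ht.1 gs ht'.1
    rwa [min_eq_left hrr] at this
  · intro u v d hd hu hur hrv hvb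
    obtain ⟨w, gw, hw1, hw2, hw3⟩ := P.exists_top o (ε := b - v) (by linarith)
    have hw4 : v < G w := by linarith
    have hin := P.high_inside h0 (hu.le.trans (hur.trans (hrr.trans hrv))) hw1 hw2 hw4
    have htw : t' ≤ w := by
      by_contra hc
      push Not at hc
      have := ht'.2.2.2 w gw hin.1 hc
      linarith
    rw [← P.fv_left ho h0 (bmp_cont u v d) hu (hur.trans (hrr.trans hrv)) hvb
      (fun s hs => bmp_zero_of_notMem hd hs) gw hw1 hw2 hw4]
    refine intervalIntegral.integral_mono_interval ht.2.1.le hlt.le htw ?_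
      (D.ii_compG (bmp_cont _ _ _) _ _)
    exact Eventually.of_forall fun s => bmp_nonneg _ _ _ _
  · intro u v d hd hru huv hvr
    have hi : ∀ x y : ℝ, IntervalIntegrable (fun s => bmp u v d (G s)) volume x y := fun x y =>
      D.ii_compG (bmp_cont _ _ _) x y
    rw [← P.fv_left ho h0 (bmp_cont u v d) (h1.trans_le hru) huv (hvr.trans h2)
      (fun s hs => bmp_zero_of_notMem hd hs) ht'.1 ht'.2.1.le ht'.2.2.1.le hvr]
    have h3 : ∫ s in o..t, bmp u v d (G s) = 0 := by
      apply intervalIntegral.integral_zero_ae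
      filter_upwards [P.ae_Gd, compl_mem_ae_iff.2 (measure_singleton t)] with s gs hst hs
      rw [uIoc_of_le ht.2.1.le] at hs
      have hs4 : s < t := lt_of_le_of_ne hs.2 hst
      have h4 := ht.2.2.2 s gs hs.1 hs4
      exact bmp_zero_left hd (h4.trans hru)
    rw [← intervalIntegral.integral_add_adjacent_intervals (hi o t) (hi t t'), h3, zero_add]

/-- Positions on the right branch. -/
theorem corec_pos (P : ProfData g g' W e G Y Λ L A B J Df D1 b) {o t t' : ℝ} (ho : P.Gd o)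
    (h0 : G o = 0) (ht : P.CoRec o t) (ht' : P.CoRec o t') (hlt : t < t') (h1 : 0 < G t')
    (h2 : G t < b) : t' - t = Df (G t) - Df (G t') := by
  have D := P.data
  have hrr : G t' ≤ G t := ht.2.2.2 t' ht'.1 hlt ht'.2.2.1
  refine P.pos_core hlt.le h1 hrr h2 ?_ ?_ ?_
  · filter_upwards [P.ae_Gd] with s gs hs
    refine ⟨?_, ht.2.2.2 s gs hs.1 (hs.2.trans ht'.2.2.1)⟩
    have := P.no_min ho h0 ht.2.1.le hs.1.le hs.2.le ht'.2.2.1.le ht.1 gs ht'.1
    rwa [min_eq_right hrr] at this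
  · intro u v d hd hu hur hrv hvb
    obtain ⟨w, gw, hw1, hw2, hw3⟩ := P.exists_top o (ε := b - v) (by linarith)
    have hw4 : v < G w := by linarith
    have hin := P.high_inside h0 (hu.le.trans (hur.trans (hrr.trans hrv))) hw1 hw2 hw4
    have htw : w ≤ t := by
      by_contra hc
      push Not at hc
      have := ht.2.2.2 w gw hc hin.2
      linarith
    rw [← P.fv_right ho h0 (bmp_cont u v d) hu (hur.trans (hrr.trans hrv)) hvb
      (fun s hs => bmp_zero_of_notMem hd hs) gw hw1 hw2 hw4]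
    refine intervalIntegral.integral_mono_interval htw hlt.le ht'.2.2.1.le ?_
      (D.ii_compG (bmp_cont _ _ _) _ _)
    exact Eventually.of_forall fun s => bmp_nonneg _ _ _ _
  · intro u v d hd hru huv hvr
    have hi : ∀ x y : ℝ, IntervalIntegrable (fun s => bmp u v d (G s)) volume x y := fun x y =>
      D.ii_compG (bmp_cont _ _ _) x y
    rw [← P.fv_right ho h0 (bmp_cont u v d) (h1.trans_le hru) huv (hvr.trans h2)
      (fun s hs => bmp_zero_of_notMem hd hs) ht.1 ht.2.1.le ht.2.2.1.le hvr]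
    have h3 : ∫ s in t'..(o + 1), bmp u v d (G s) = 0 := by
      apply intervalIntegral.integral_zero_ae
      filter_upwards [P.ae_Gd, compl_mem_ae_iff.2 (measure_singleton (o + 1))] with s gs hst hs
      rw [uIoc_of_le ht'.2.2.1.le] at hs
      have hs4 : s < o + 1 := lt_of_le_of_ne hs.2 hst
      have h4 := ht'.2.2.2 s gs hs.1 hs4
      exact bmp_zero_left hd (h4.trans hru)
    rw [← intervalIntegral.integral_add_adjacent_intervals (hi t t') (hi t' (o + 1)), h3, add_zero]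

end ProfData

end Vale.Agent.Lib.P232
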