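import Vale.Agent.Lib.P232.T3

open MeasureTheory Filter Topology Set
open scoped Real

namespace Vale.Agent.Lib.P232

/-- The distance from a real number to the nearest integer. -/
noncomputable def dZ (t : ℝ) : ℝ := |t - round t|

/-- Functions of three variables that do not increase with the distance to the lattice,
in each coordinate separately. -/
def SymMono (F : ℝ → ℝ → ℝ → ℝ) : Prop :=
  ∀ x y z x' y' z', dZ x' ≤ dZ x → dZ y' ≤ dZ y → dZ z' ≤ dZ z → F x y z ≤ F x' y' z'

/-- Polarization of a function of one variable with respect to the reflection `z ↦ κ - z`: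
larger values are moved to the side which is closer to the lattice. -/
noncomputable def pol1 (κ : ℝ) (g : ℝ → ℝ) (z : ℝ) : ℝ :=
  if dZ z ≤ dZ (κ - z) then max (g z) (g (κ - z)) else min (g z) (g (κ - z))

/-- Polarization in the last variable. -/
noncomputable def polz (κ : ℝ) (f : ℝ → ℝ → ℝ → ℝ) (x y : ℝ) : ℝ → ℝ := pol1 κ (f x y)

/-- Iterated polarization along a list. -/
noncomputable def polL (L : List ℝ) (f : ℝ → ℝ → ℝ → ℝ) : ℝ → ℝ → ℝ → ℝ :=
  L.foldr polz f

/-- The Steiner rearrangement in the last variable: each line is replaced by a centered arc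
of the same length. -/
noncomputable def symz (F : ℝ → ℝ → ℝ → ℝ) (x y z : ℝ) : ℝ :=
  if 2 * dZ z < ∫ t in (0 : ℝ)..1, F x y t then 1 else 0

/-- The distance in `L¹` of the unit cell, as an iterated integral. -/
noncomputable def dist3 (f g : ℝ → ℝ → ℝ → ℝ) : ℝ :=
  ∫ x in (0 : ℝ)..1, ∫ y in (0 : ℝ)..1, ∫ z in (0 : ℝ)..1, |f x y z - g x y z|

/-- Full periodicity in the three variables. -/
structure Per3 (u : ℝ → ℝ → ℝ → ℝ) : Prop where
  perx : ∀ x y z, u (x + 1) y z = u x y z
  pery : ∀ x y z, u x (y + 1) z = u x y z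
  perz : ∀ x y z, u x y (z + 1) = u x y z

end Vale.Agent.Lib.P232
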