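import Vale.Agent.Lib.P232.GapFinal
import Vale.Agent.Lib.P232.SymDefs

/-!
Definitions for the classification of the minimizers (`notes/P232_classif_plan.md`).
-/

open MeasureTheory Filter Topology Set
open scoped Real

namespace Vale.Agent.Lib.P232

/-- A geodesic ball of the torus: center `(c₁, c₂, c₃)`, radius `R`. -/
def ballSet (c₁ c₂ c₃ R : ℝ) : Set (ℝ × ℝ × ℝ) :=
  {p | dZ (p.1 - c₁) ^ 2 + dZ (p.2.1 - c₂) ^ 2 + dZ (p.2.2 - c₃) ^ 2 < R ^ 2}

/-- A solid tube about a closed geodesic parallel to the first axis. -/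
def tubeX (c₂ c₃ r : ℝ) : Set (ℝ × ℝ × ℝ) :=
  {p | dZ (p.2.1 - c₂) ^ 2 + dZ (p.2.2 - c₃) ^ 2 < r ^ 2}

/-- A solid tube about a closed geodesic parallel to the second axis. -/
def tubeY (c₁ c₃ r : ℝ) : Set (ℝ × ℝ × ℝ) :=
  {p | dZ (p.1 - c₁) ^ 2 + dZ (p.2.2 - c₃) ^ 2 < r ^ 2}

/-- A solid tube about a closed geodesic parallel to the third axis. -/
def tubeZ (c₁ c₂ r : ℝ) : Set (ℝ × ℝ × ℝ) :=
  {p | dZ (p.1 - c₁) ^ 2 + dZ (p.2.1 - c₂) ^ 2 < r ^ 2}

/-- A slab normal to the first axis: center `c`, width `w`. -/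
def slabX (c w : ℝ) : Set (ℝ × ℝ × ℝ) := {p | 2 * dZ (p.1 - c) < w}

/-- A slab normal to the second axis. -/
def slabY (c w : ℝ) : Set (ℝ × ℝ × ℝ) := {p | 2 * dZ (p.2.1 - c) < w}

/-- A slab normal to the third axis. -/
def slabZ (c w : ℝ) : Set (ℝ × ℝ × ℝ) := {p | 2 * dZ (p.2.2 - c) < w}

/-- Equality of two periodic sets up to a null set of the unit cell. -/
def AECell (E S : Set (ℝ × ℝ × ℝ)) : Prop := volume (symmDiff E S ∩ unitCell) = 0

/-- The canonical regions of volume `v`, up to null sets of the unit cell: a geodesic ball of volume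
`v`, a solid tube of volume `v` about a closed geodesic parallel to an axis, or a slab of width `v`
normal to an axis. -/
def IsCanonical (E : Set (ℝ × ℝ × ℝ)) (v : ℝ) : Prop :=
  (∃ c₁ c₂ c₃ R, 0 < R ∧ 4 / 3 * π * R ^ 3 = v ∧ AECell E (ballSet c₁ c₂ c₃ R)) ∨
  (∃ c₂ c₃ r, 0 < r ∧ π * r ^ 2 = v ∧ AECell E (tubeX c₂ c₃ r)) ∨
  (∃ c₁ c₃ r, 0 < r ∧ π * r ^ 2 = v ∧ AECell E (tubeY c₁ c₃ r)) ∨
  (∃ c₁ c₂ r, 0 < r ∧ π * r ^ 2 = v ∧ AECell E (tubeZ c₁ c₂ r)) ∨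
  (∃ c, AECell E (slabX c v)) ∨ (∃ c, AECell E (slabY c v)) ∨ (∃ c, AECell E (slabZ c v))

/-- Full periodicity in two variables. -/
structure Per2 (v : ℝ → ℝ → ℝ) : Prop where
  perx : ∀ x y, v (x + 1) y = v x y
  pery : ∀ x y, v x (y + 1) = v x y

/-- The `L¹` distance on the square. -/
noncomputable def dist2 (f g : ℝ → ℝ → ℝ) : ℝ :=
  ∫ x in (0 : ℝ)..1, ∫ y in (0 : ℝ)..1, |f x y - g x y|

/-- A centered disc function on the square. -/
noncomputable def discFn (c₁ c₂ r : ℝ) (x y : ℝ) : ℝ :=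
  if dZ (x - c₁) ^ 2 + dZ (y - c₂) ^ 2 < r ^ 2 then 1 else 0

/-- A strip function on the circle. -/
noncomputable def arcFn (c w : ℝ) (t : ℝ) : ℝ := if 2 * dZ (t - c) < w then 1 else 0

/-- The one-dimensional system obtained by slicing a minimizing sequence: `g k` is the area of
the slice, `W k` the cost of the slice. -/
structure Prof (g g' W : ℕ → ℝ → ℝ) (G : ℝ → ℝ) : Prop where
  deriv : ∀ k t, HasDerivAt (g k) (g' k t) t
  contD : ∀ k, Continuous (g' k)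
  contW : ∀ k, Continuous (W k)
  W0 : ∀ k t, 0 ≤ W k t
  perg : ∀ k t, g k (t + 1) = g k t
  perW : ∀ k t, W k (t + 1) = W k t
  meas : Measurable G
  perG : ∀ t, G (t + 1) = G t
  conv : ∀ᵐ t, Tendsto (fun k => g k t) atTop (𝓝 (G t))

end Vale.Agent.Lib.P232
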