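import Vale.Agent.Lib.P232.RigD

/-!
The shape of the profile.
-/

open MeasureTheory Filter Topology Set
open scoped Real

namespace Vale.Agent.Lib.P232

lemma exists_ae_Ioo {p : ℝ → Prop} (h : ∀ᵐ t, p t) {u v : ℝ} (huv : u < v) :
    ∃ t ∈ Ioo u v, p t := by
  by_contra hc
  push Not at hc
  have h1 : volume (Ioo u v) = 0 := by
    refine measure_mono_null (t := {t | ¬ p t}) (fun t ht => hc t ht) ?_
    exact ae_iff.1 h
  rw [Real.volume_Ioo] at h1
  have : 0 < v - u := by linarith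
  simp only [ENNReal.ofReal_eq_zero] at h1
  linarith

lemma open_subset_of_ae {U C : Set ℝ} (hU : IsOpen U) (hC : IsClosed C)
    (h : ∀ᵐ t, t ∈ U → t ∈ C) : U ⊆ C := by
  intro t ht
  by_contra hc
  have h1 : IsOpen (U ∩ Cᶜ) := hU.inter hC.isOpen_compl
  have h2 : 0 < volume (U ∩ Cᶜ) := h1.measure_pos volume ⟨t, ht, hc⟩
  have h3 : volume (U ∩ Cᶜ) = 0 := by
    refine measure_mono_null ?_ (ae_iff.1 h)
    intro s hs
    simp only [mem_ofPred_eq, not_forall]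
    exact ⟨hs.1, hs.2⟩
  exact absurd h3 h2.ne'

lemma Ioo_sub_Icc {u v c d : ℝ} (huv : u < v) (h : Ioo u v ⊆ Icc c d) : c ≤ u ∧ v ≤ d := by
  have h1 : Icc u v ⊆ Icc c d := by
    rw [← closure_Ioo huv.ne]
    exact closure_minimal h isClosed_Icc
  exact (Icc_subset_Icc_iff huv.le).1 h1

namespace ProfData

variable {g g' W e : ℕ → ℝ → ℝ} {G Y : ℝ → ℝ} {Λ : ℕ → ℝ} {L : ℝ} {A B J Df D1 : ℝ → ℝ} {b : ℝ}

lemma Df_strict (P : ProfData g g' W e G Y Λ L A B J Df D1 b) : StrictMonoOn Df (Icc 0 b) := by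
  apply strictMonoOn_of_deriv_pos (convex_Icc 0 b) P.cDf
  intro s hs
  rw [interior_Icc] at hs
  rw [(P.dDf s hs).deriv]
  exact P.rho_pos hs

/-- Left record positions have a common origin. -/
lemma exists_x0 (P : ProfData g g' W e G Y Λ L A B J Df D1 b) {o : ℝ} (ho : P.Gd o) (h0 : G o = 0) :
    ∃ x₀, ∀ t, P.Rec o t → 0 < G t → G t < b → Df (G t) = t - x₀ := by
  by_cases hne : ∃ t, P.Rec o t ∧ 0 < G t ∧ G t < b
  · obtain ⟨t₀, h1, h2, h3⟩ := hne
    refine ⟨t₀ - Df (G t₀), fun t ht h4 h5 => ?_⟩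
    rcases lt_trichotomy t t₀ with h | h | h
    · have := P.rec_pos ho h0 ht h1 h h4 h3
      linarith
    · rw [h]
      ring
    · have := P.rec_pos ho h0 h1 ht h h2 h5
      linarith
  · push Not at hne
    exact ⟨0, fun t ht h4 h5 => absurd h5 (not_lt.2 (hne t ht h4))⟩

/-- Right record positions have a common origin. -/
lemma exists_x1 (P : ProfData g g' W e G Y Λ L A B J Df D1 b) {o : ℝ} (ho : P.Gd o) (h0 : G o = 0) :
    ∃ x₁, ∀ t, P.CoRec o t → 0 < G t → G t < b → Df (G t) = x₁ - t := by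
  by_cases hne : ∃ t, P.CoRec o t ∧ 0 < G t ∧ G t < b
  · obtain ⟨t₀, h1, h2, h3⟩ := hne
    refine ⟨t₀ + Df (G t₀), fun t ht h4 h5 => ?_⟩
    rcases lt_trichotomy t t₀ with h | h | h
    · have := P.corec_pos ho h0 ht h1 h h2 h5
      linarith
    · rw [h]
      ring
    · have := P.corec_pos ho h0 h1 ht h h4 h3
      linarith
  · push Not at hne
    exact ⟨0, fun t ht h4 h5 => absurd h5 (not_lt.2 (hne t ht h4))⟩

/-- The volume of the bulk in one period. -/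
lemma vol_bulk (P : ProfData g g' W e G Y Λ L A B J Df D1 b) {o : ℝ} (h0 : G o = 0) :
    volume (Ioo o (o + 1) ∩ G ⁻¹' Ioo 0 b) = ENNReal.ofReal (2 * (Df b - Df 0)) := by
  have D := P.data
  have hM : MeasurableSet (G ⁻¹' Ioo 0 b) := D.mG measurableSet_Ioo
  have e1 : Ioo o (o + 1) ∩ G ⁻¹' Ioo 0 b = Ioc o (o + 1) ∩ G ⁻¹' Ioo 0 b := by
    ext t
    constructor
    · rintro ⟨h1, h2⟩
      exact ⟨Ioo_subset_Ioc_self h1, h2⟩
    · rintro ⟨h1, h2⟩
      refine ⟨⟨h1.1, lt_of_le_of_ne h1.2 ?_⟩, h2⟩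
      rintro rfl
      have h3 : G (o + 1) = 0 := by rw [D.pG, h0]
      have h4 : G (o + 1) ∈ Ioo 0 b := h2
      rw [h3] at h4
      exact lt_irrefl _ h4.1
  have h1 := P.bulk_one
  have hper : Function.Periodic (fun t => (Ioo 0 b).indicator (fun _ => (1 : ℝ)) (G t)) 1 :=
    fun t => by simp only [D.pG]
  have h2 := hper.intervalIntegral_add_eq o 0
  simp only [zero_add] at h2
  rw [h1, intervalIntegral.integral_of_le (by linarith)] at h2
  have e2 : (fun t => (Ioo 0 b).indicator (fun _ => (1 : ℝ)) (G t)) =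
      (G ⁻¹' Ioo 0 b).indicator (fun _ => (1 : ℝ)) := by
    funext t
    by_cases h : G t ∈ Ioo 0 b
    · rw [indicator_of_mem h, indicator_of_mem (show t ∈ G ⁻¹' Ioo 0 b from h)]
    · rw [indicator_of_notMem h, indicator_of_notMem (show t ∉ G ⁻¹' Ioo 0 b from h)]
  rw [e2, integral_indicator hM, setIntegral_const, smul_eq_mul, mul_one] at h2
  rw [e1, inter_comm]
  have e3 : (volume.real (G ⁻¹' Ioo 0 b ∩ Ioc o (o + 1))) = 2 * (Df b - Df 0) := by
    rw [← h2]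
    simp [Measure.real, Measure.restrict_apply hM]
  rw [← e3]
  simp only [Measure.real]
  rw [ENNReal.ofReal_toReal]
  exact ne_top_of_le_ne_top (by simp : volume (Ioc o (o + 1)) ≠ ⊤)
    (measure_mono inter_subset_right)

/-- The shape of the profile: an arc determined by the density. -/
theorem shape (P : ProfData g g' W e G Y Λ L A B J Df D1 b) :
    ∃ o c : ℝ, o ≤ c - (Df b - Df 0) ∧ c + (Df b - Df 0) ≤ o + 1 ∧ ∀ᵐ t, t ∈ Ioo o (o + 1) →
      ((|t - c| < Df b - Df 0 → Df (G t) = Df b - |t - c| ∧ G t ∈ Ioo 0 b) ∧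
        (Df b - Df 0 < |t - c| → G t = 0)) := by
  have D := P.data
  have hb := P.hb
  obtain ⟨o, go, h0⟩ := P.exists_zero
  obtain ⟨x₀, hx₀⟩ := P.exists_x0 go h0
  obtain ⟨x₁, hx₁⟩ := P.exists_x1 go h0
  have hstr := P.Df_strict
  have hw : Df 0 < Df b := hstr ⟨le_rfl, hb.le⟩ ⟨hb.le, le_rfl⟩ hb
  set I₀ := Ioo (x₀ + Df 0) (x₀ + Df b) with hI₀
  set I₁ := Ioo (x₁ - Df b) (x₁ - Df 0) with hI₁
  set U := Ioo o (o + 1) ∩ G ⁻¹' Ioo 0 b with hU
  have hUm : MeasurableSet U := measurableSet_Ioo.inter (D.mG measurableSet_Ioo)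
  have hmid : ∀ {s : ℝ}, s ∈ Ioo 0 b → Df 0 < Df s ∧ Df s < Df b := fun {s} hs =>
    ⟨hstr ⟨le_rfl, hb.le⟩ ⟨hs.1.le, hs.2.le⟩ hs.1, hstr ⟨hs.1.le, hs.2.le⟩ ⟨hb.le, le_rfl⟩ hs.2⟩
  -- the bulk lies in the two intervals
  have hsub : ∀ᵐ t, t ∈ U → t ∈ I₀ ∪ I₁ := by
    filter_upwards [P.ae_Gd] with t gt ht
    obtain ⟨h1, h2⟩ := hmid ht.2
    rcases P.rec_or go h0 gt ht.1.1 ht.1.2 with hr | hr
    · left
      have := hx₀ t hr ht.2.1 ht.2.2
      exact ⟨by linarith, by linarith⟩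
    · right
      have := hx₁ t hr ht.2.1 ht.2.2
      exact ⟨by linarith, by linarith⟩
  have hvU := P.vol_bulk (o := o) h0
  have hvI₀ : volume I₀ = ENNReal.ofReal (Df b - Df 0) := by
    rw [hI₀, Real.volume_Ioo]
    congr 1
    ring
  have hvI₁ : volume I₁ = ENNReal.ofReal (Df b - Df 0) := by
    rw [hI₁, Real.volume_Ioo]
    congr 1
    ring
  have hsum : volume I₀ + volume I₁ = ENNReal.ofReal (2 * (Df b - Df 0)) := by
    rw [hvI₀, hvI₁, ← ENNReal.ofReal_add (by linarith) (by linarith)]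
    congr 1
    ring
  have hfin : volume (I₀ ∪ I₁) ≠ ⊤ := by
    refine ne_top_of_le_ne_top ?_ (measure_union_le _ _)
    rw [hsum]
    exact ENNReal.ofReal_ne_top
  have hle : volume (I₀ ∪ I₁) ≤ volume U := by
    rw [hvU, ← hsum]
    exact measure_union_le _ _
  have heq : U =ᵐ[volume] (I₀ ∪ I₁ : Set ℝ) :=
    ae_eq_of_ae_subset_of_measure_ge hsub hle hUm.nullMeasurableSet hfin
  have heq' : ∀ᵐ t, t ∈ I₀ ∪ I₁ → t ∈ U := by
    filter_upwards [heq] with t ht h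
    have : (t ∈ U) = (t ∈ I₀ ∪ I₁) := ht
    rw [this]
    exact h
  -- the intervals are disjoint
  have hdisj : volume (I₀ ∩ I₁) = 0 := by
    have h1 := measure_union_add_inter (μ := volume) I₀ (t := I₁) measurableSet_Ioo
    have h2 : volume (I₀ ∪ I₁) = volume U := measure_congr heq.symm
    rw [h2, hvU, hsum] at h1
    have h3 : ENNReal.ofReal (2 * (Df b - Df 0)) ≠ ⊤ := ENNReal.ofReal_ne_top
    have h4 : ENNReal.ofReal (2 * (Df b - Df 0)) + volume (I₀ ∩ I₁) =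
        ENNReal.ofReal (2 * (Df b - Df 0)) + 0 := by rw [add_zero, h1]
    exact (ENNReal.add_right_inj h3).1 h4
  have hdisj' : I₀ ∩ I₁ = ∅ := by
    by_contra hne
    have h1 : IsOpen (I₀ ∩ I₁) := isOpen_Ioo.inter isOpen_Ioo
    exact (h1.measure_pos volume (nonempty_iff_ne_empty.2 hne)).ne' hdisj
  -- containment in the period
  have hcont : I₀ ∪ I₁ ⊆ Icc o (o + 1) := by
    refine open_subset_of_ae (isOpen_Ioo.union isOpen_Ioo) isClosed_Icc ?_
    filter_upwards [heq'] with t ht h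
    exact Ioo_subset_Icc_self (ht h).1
  have hc₀ : o ≤ x₀ + Df 0 ∧ x₀ + Df b ≤ o + 1 :=
    Ioo_sub_Icc (by linarith) (subset_union_left.trans hcont)
  have hc₁ : o ≤ x₁ - Df b ∧ x₁ - Df 0 ≤ o + 1 :=
    Ioo_sub_Icc (by linarith) (subset_union_right.trans hcont)
  -- the behaviour on the intervals
  have hP₀ : ∀ᵐ t, t ∈ I₀ → P.Rec o t ∧ 0 < G t ∧ G t < b ∧ Df (G t) = t - x₀ := by
    filter_upwards [heq', P.ae_Gd] with t ht gt htI
    have h1 := ht (Or.inl htI)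
    obtain ⟨h2, h3⟩ := hmid h1.2
    rcases P.rec_or go h0 gt h1.1.1 h1.1.2 with hr | hr
    · exact ⟨hr, h1.2.1, h1.2.2, hx₀ t hr h1.2.1 h1.2.2⟩
    · exfalso
      have h4 := hx₁ t hr h1.2.1 h1.2.2
      have h5 : t ∈ I₁ := ⟨by linarith, by linarith⟩
      have : t ∈ I₀ ∩ I₁ := ⟨htI, h5⟩
      rw [hdisj'] at this
      exact this
  have hP₁ : ∀ᵐ t, t ∈ I₁ → P.CoRec o t ∧ 0 < G t ∧ G t < b ∧ Df (G t) = x₁ - t := by
    filter_upwards [heq', P.ae_Gd] with t ht gt htI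
    have h1 := ht (Or.inr htI)
    obtain ⟨h2, h3⟩ := hmid h1.2
    rcases P.rec_or go h0 gt h1.1.1 h1.1.2 with hr | hr
    · exfalso
      have h4 := hx₀ t hr h1.2.1 h1.2.2
      have h5 : t ∈ I₀ := ⟨by linarith, by linarith⟩
      have : t ∈ I₀ ∩ I₁ := ⟨h5, htI⟩
      rw [hdisj'] at this
      exact this
    · exact ⟨hr, h1.2.1, h1.2.2, hx₁ t hr h1.2.1 h1.2.2⟩
  have hZ : ∀ᵐ t, t ∈ Ioo o (o + 1) → t ∉ I₀ ∪ I₁ → G t = 0 := by
    filter_upwards [heq, P.ae_Gd, P.ae_lt_top] with t ht gt hlt hI hn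
    have h1 : (t ∈ U) = (t ∈ I₀ ∪ I₁) := ht
    have h2 : t ∉ U := by rw [h1]; exact hn
    by_contra hc
    exact h2 ⟨hI, lt_of_le_of_ne gt.2.1 (Ne.symm hc), hlt⟩
  -- the order of the intervals
  have hord : x₀ + Df b ≤ x₁ - Df b := by
    by_contra hc
    push Not at hc
    have hcase : x₁ - Df 0 ≤ x₀ + Df 0 := by
      by_contra hc2
      push Not at hc2
      have h1 : (max (x₀ + Df 0) (x₁ - Df b) + min (x₀ + Df b) (x₁ - Df 0)) / 2 ∈ I₀ ∩ I₁ := by
        have h2 : max (x₀ + Df 0) (x₁ - Df b) < min (x₀ + Df b) (x₁ - Df 0) :=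
          max_lt (lt_min (by linarith) hc2) (lt_min hc (by linarith))
        have h3 := le_max_left (x₀ + Df 0) (x₁ - Df b)
        have h4 := le_max_right (x₀ + Df 0) (x₁ - Df b)
        have h5 := min_le_left (x₀ + Df b) (x₁ - Df 0)
        have h6 := min_le_right (x₀ + Df b) (x₁ - Df 0)
        exact ⟨⟨by linarith, by linarith⟩, ⟨by linarith, by linarith⟩⟩
      rw [hdisj'] at h1
      exact h1
    obtain ⟨t, ht, hpt⟩ := exists_ae_Ioo hP₁ (u := x₁ - Df b) (v := x₁ - Df 0) (by linarith)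
    obtain ⟨s₁, hs₁, hps₁⟩ := exists_ae_Ioo hP₀ (u := x₀ + Df 0) (v := x₀ + Df b) (by linarith)
    obtain ⟨s₂, hs₂, hps₂⟩ := exists_ae_Ioo hP₀ (u := s₁) (v := x₀ + Df b) hs₁.2
    have hs₂' : s₂ ∈ I₀ := ⟨hs₁.1.trans hs₂.1, hs₂.2⟩
    obtain ⟨t1, t2, t3, t4⟩ := hpt ht
    obtain ⟨a1, a2, a3, a4⟩ := hps₁ hs₁
    obtain ⟨c1, c2, c3, c4⟩ := hps₂ hs₂'
    have hts : t < s₁ := ht.2.trans_le (hcase.trans hs₁.1.le)
    have e1 : G s₁ ≤ G t := t1.2.2.2 s₁ a1.1 hts a1.2.2.1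
    have e2 : G t ≤ G s₁ := a1.2.2.2 t t1.1 t1.2.1 hts
    have e3 : G s₂ ≤ G t := t1.2.2.2 s₂ c1.1 (hts.trans hs₂.1) c1.2.2.1
    have e4 : G t ≤ G s₂ := c1.2.2.2 t t1.1 t1.2.1 (hts.trans hs₂.1)
    have e5 : G s₁ = G s₂ := by linarith
    rw [e5] at a4
    have := hs₂.1
    linarith
  -- no gap between the intervals
  have hgap : x₀ + Df b = x₁ - Df b := by
    by_contra hne
    have hlt : x₀ + Df b < x₁ - Df b := lt_of_le_of_ne hord hne
    have hall := P.ae_Gd.and hZ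
    obtain ⟨y₂, hy₂, gy₂, hzy⟩ := exists_ae_Ioo hall hlt
    obtain ⟨y₁, hy₁, hp₁⟩ := exists_ae_Ioo hP₀ (u := x₀ + Df 0) (v := x₀ + Df b) (by linarith)
    obtain ⟨y₃, hy₃, hp₃⟩ := exists_ae_Ioo hP₁ (u := x₁ - Df b) (v := x₁ - Df 0) (by linarith)
    obtain ⟨a1, a2, -, -⟩ := hp₁ hy₁
    obtain ⟨c1, c2, -, -⟩ := hp₃ hy₃
    have hy₂I : y₂ ∈ Ioo o (o + 1) :=
      ⟨by linarith [hc₀.1, hy₂.1], by linarith [hc₁.2, hy₂.2]⟩
    have hy₂n : y₂ ∉ I₀ ∪ I₁ := by
      rintro (h | h)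
      · exact absurd h.2 (not_lt.2 hy₂.1.le)
      · exact absurd h.1 (not_lt.2 hy₂.2.le)
    have h0y := hzy hy₂I hy₂n
    have := P.no_min go h0 a1.2.1.le (hy₁.2.trans hy₂.1).le (hy₂.2.trans hy₃.1).le c1.2.2.1.le a1.1
      gy₂ c1.1
    rw [h0y] at this
    exact absurd this (not_le.2 (lt_min a2 c2))
  -- conclusion
  set c := x₀ + Df b with hc
  have hx₁c : x₁ = c + Df b := by linarith
  have hx₀c : x₀ = c - Df b := by rw [hc]; ring
  refine ⟨o, c, ?_, ?_, ?_⟩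
  · have := hc₀.1
    linarith
  · have := hc₁.2
    linarith
  · filter_upwards [hP₀, hP₁, hZ, compl_mem_ae_iff.2 (measure_singleton c)] with t ha1 ha2 ha3 hne hI
    have htc : t ≠ c := hne
    constructor
    · intro hlt
      rcases lt_or_gt_of_ne htc with h | h
      · have hab : |t - c| = c - t := by rw [abs_of_neg (by linarith)]; ring
        rw [hab] at hlt ⊢
        obtain ⟨-, a2, a3, a4⟩ := ha1 ⟨by linarith, by linarith⟩
        exact ⟨by linarith, a2, a3⟩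
      · have hab : |t - c| = t - c := abs_of_pos (by linarith)
        rw [hab] at hlt ⊢
        obtain ⟨-, a2, a3, a4⟩ := ha2 ⟨by linarith, by linarith⟩
        exact ⟨by linarith, a2, a3⟩
    · intro hlt
      apply ha3 hI
      rintro (h | h)
      · have h1 : |t - c| = c - t := by
          rw [abs_of_neg (by linarith [h.2])]; ring
        rw [h1] at hlt
        have := h.1
        linarith
      · have h1 : |t - c| = t - c := abs_of_pos (by linarith [h.1])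
        rw [h1] at hlt
        have := h.2
        linarith

end ProfData

end Vale.Agent.Lib.P232
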