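import Vale.Agent.Lib.P232.RigDefs

/-!
Module M-D of the classification of minimizers (`notes/P232_classif_plan.md`): a binary function
with the marginals of a ball (or a disc) coincides with the ball (or the disc) almost everywhere.
-/

open MeasureTheory Filter Topology Set
open scoped Real

namespace Vale.Agent.Lib.P232

lemma dZ_eq_min (t : ℝ) : dZ t = min (Int.fract t) (1 - Int.fract t) := abs_sub_round_eq_min t

lemma measurable_dZ : Measurable dZ := by
  have h : dZ = fun t => min (Int.fract t) (1 - Int.fract t) := funext dZ_eq_min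
  rw [h]
  exact measurable_fract.min (measurable_const.sub measurable_fract)

lemma dZ_add_one (t : ℝ) : dZ (t + 1) = dZ t := by
  rw [dZ_eq_min, dZ_eq_min, Int.fract_add_one]

lemma dZ_nonneg (t : ℝ) : 0 ≤ dZ t := abs_nonneg _

lemma dZ_eq_abs {u : ℝ} (h1 : -(1 / 2) ≤ u) (h2 : u ≤ 1 / 2) : dZ u = |u| := by
  unfold dZ
  rcases h2.lt_or_eq with h3 | h3
  · have : round u = 0 := by
      rw [round_eq, Int.floor_eq_iff]
      constructor
      · push_cast; linarith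
      · push_cast; linarith
    rw [this]; simp
  · subst h3
    have : round (1 / 2 : ℝ) = 1 := by
      rw [round_eq, Int.floor_eq_iff]
      constructor <;> norm_num
    rw [this, abs_of_pos (by norm_num : (0 : ℝ) < 1 / 2)]
    push_cast
    rw [abs_of_neg (by norm_num)]
    norm_num

/-- Integrals of functions of `dZ (a - c)` over a period. -/
lemma integral_dZ_shift (h : ℝ → ℝ) (c : ℝ) :
    ∫ a in (0 : ℝ)..1, h (dZ (a - c)) = ∫ u in (-(1 / 2) : ℝ)..(1 / 2), h |u| := by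
  have hper : Function.Periodic (fun a => h (dZ (a - c))) 1 := by
    intro a
    have : a + 1 - c = (a - c) + 1 := by ring
    simp only [this, dZ_add_one]
  have h1 := hper.intervalIntegral_add_eq 0 (c - 1 / 2)
  rw [zero_add] at h1
  rw [h1, intervalIntegral.integral_comp_sub_right (fun u => h (dZ u)) c]
  have e1 : c - 1 / 2 - c = -(1 / 2) := by ring
  have e2 : c - 1 / 2 + 1 - c = 1 / 2 := by ring
  rw [e1, e2]
  apply intervalIntegral.integral_congr
  intro u hu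
  rw [uIcc_of_le (by norm_num)] at hu
  simp only [dZ_eq_abs hu.1 hu.2]

lemma sqrt_le_half {τ : ℝ} (hτ : τ ≤ 1 / 4) : √τ ≤ 1 / 2 := by
  rw [show (1 / 2 : ℝ) = √(1 / 4) by
    rw [show (1 / 4 : ℝ) = (1 / 2) ^ 2 by norm_num, Real.sqrt_sq (by norm_num)]]
  exact Real.sqrt_le_sqrt hτ

lemma integral_indicator_sq (τ : ℝ) (hτ : τ ≤ 1 / 4) :
    ∫ u in (-(1 / 2) : ℝ)..(1 / 2), (if |u| ^ 2 < τ then (1 : ℝ) else 0) = 2 * √(max 0 τ) := by
  rcases le_or_gt τ 0 with h0 | h0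
  · have h1 : ∀ u : ℝ, (if |u| ^ 2 < τ then (1 : ℝ) else 0) = 0 := fun u =>
      if_neg (by have := sq_nonneg |u|; linarith)
    simp only [h1, max_eq_left h0]
    simp
  · set s := √τ with hs
    have hs0 : 0 < s := Real.sqrt_pos.mpr h0
    have hs2 : s ^ 2 = τ := Real.sq_sqrt h0.le
    have hs12 : s ≤ 1 / 2 := sqrt_le_half hτ
    have key : ∀ u : ℝ, (if |u| ^ 2 < τ then (1 : ℝ) else 0) =
        (Ioo (-s) s).indicator (fun _ => (1 : ℝ)) u := by
      intro u
      by_cases hu : u ∈ Ioo (-s) s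
      · rw [indicator_of_mem hu, if_pos]
        have : |u| < s := abs_lt.mpr hu
        rw [← hs2]
        exact pow_lt_pow_left₀ this (abs_nonneg _) two_ne_zero
      · rw [indicator_of_notMem hu, if_neg]
        intro h2
        apply hu
        rw [← hs2] at h2
        exact abs_lt.mp (lt_of_pow_lt_pow_left₀ 2 hs0.le h2)
    rw [intervalIntegral.integral_of_le (by norm_num)]
    simp_rw [key]
    rw [setIntegral_indicator measurableSet_Ioo]
    have hsub : Ioc (-(1 / 2) : ℝ) (1 / 2) ∩ Ioo (-s) s = Ioo (-s) s := by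
      apply inter_eq_right.mpr
      intro u hu
      exact ⟨by linarith [hu.1], by linarith [hu.2]⟩
    rw [hsub, setIntegral_const, max_eq_right h0.le, smul_eq_mul, mul_one]
    simp [Measure.real, Real.volume_Ioo]
    rw [ENNReal.toReal_ofReal (by linarith)]
    ring

/-- `∫_{-s}^{s} √(s² - u²) = π s² / 2`. -/
lemma integral_sqrt_sub_sq {s : ℝ} (hs : 0 < s) :
    ∫ u in (-s)..s, √(s ^ 2 - u ^ 2) = π / 2 * s ^ 2 := by
  have h1 : ∀ u : ℝ, √(s ^ 2 - u ^ 2) = s * √(1 - (u / s) ^ 2) := by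
    intro u
    have : s ^ 2 - u ^ 2 = s ^ 2 * (1 - (u / s) ^ 2) := by
      field_simp
    rw [this, Real.sqrt_mul (sq_nonneg s), Real.sqrt_sq hs.le]
  simp_rw [h1]
  rw [intervalIntegral.integral_const_mul,
    intervalIntegral.integral_comp_div (fun v => √(1 - v ^ 2)) hs.ne']
  have e1 : -s / s = -1 := by field_simp
  have e2 : s / s = 1 := by field_simp
  rw [e1, e2, integral_sqrt_one_sub_sq, smul_eq_mul]
  ring

lemma integral_sqrt_bump (σ : ℝ) (hσ : σ ≤ 1 / 4) :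
    ∫ u in (-(1 / 2) : ℝ)..(1 / 2), 2 * √(max 0 (σ - |u| ^ 2)) = π * max 0 σ := by
  rcases le_or_gt σ 0 with h0 | h0
  · have h1 : ∀ u : ℝ, 2 * √(max 0 (σ - |u| ^ 2)) = 0 := by
      intro u
      have : σ - |u| ^ 2 ≤ 0 := by have := sq_nonneg |u|; linarith
      rw [max_eq_left this]; simp
    simp only [h1, max_eq_left h0]
    simp
  · set s := √σ with hs
    have hs0 : 0 < s := Real.sqrt_pos.mpr h0
    have hs2 : s ^ 2 = σ := Real.sq_sqrt h0.le
    have hs12 : s ≤ 1 / 2 := sqrt_le_half hσ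
    set f : ℝ → ℝ := fun u => 2 * √(max 0 (σ - |u| ^ 2)) with hf
    have hcont : Continuous f := by
      have : Continuous fun u : ℝ => max 0 (σ - |u| ^ 2) :=
        continuous_const.max (continuous_const.sub (continuous_abs.pow 2))
      exact continuous_const.mul (Real.continuous_sqrt.comp this)
    have hi : ∀ a b : ℝ, IntervalIntegrable f volume a b := fun a b => hcont.intervalIntegrable a b
    have hsplit : ∫ u in (-(1 / 2) : ℝ)..(1 / 2), f u =
        (∫ u in (-(1 / 2) : ℝ)..(-s), f u) + (∫ u in (-s)..s, f u) + ∫ u in s..(1 / 2), f u := by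
      rw [intervalIntegral.integral_add_adjacent_intervals (hi _ _) (hi _ _),
        intervalIntegral.integral_add_adjacent_intervals (hi _ _) (hi _ _)]
    have hzero : ∀ u : ℝ, s ≤ |u| → f u = 0 := by
      intro u hu
      have : σ - |u| ^ 2 ≤ 0 := by
        have := pow_le_pow_left₀ hs0.le hu 2
        linarith
      simp only [hf]
      rw [max_eq_left this]; simp
    have h1 : ∫ u in (-(1 / 2) : ℝ)..(-s), f u = 0 := by
      have : EqOn f (fun _ => (0 : ℝ)) (uIcc (-(1 / 2) : ℝ) (-s)) := by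
        intro u hu
        rw [uIcc_of_le (by linarith)] at hu
        apply hzero
        rw [abs_of_nonpos (by linarith [hu.2])]
        linarith [hu.2]
      rw [intervalIntegral.integral_congr this]; simp
    have h3 : ∫ u in s..(1 / 2), f u = 0 := by
      have : EqOn f (fun _ => (0 : ℝ)) (uIcc s (1 / 2 : ℝ)) := by
        intro u hu
        rw [uIcc_of_le hs12] at hu
        apply hzero
        rw [abs_of_nonneg (by linarith [hu.1])]
        exact hu.1
      rw [intervalIntegral.integral_congr this]; simp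
    have h2 : ∫ u in (-s)..s, f u = π * σ := by
      have : EqOn f (fun u => 2 * √(s ^ 2 - u ^ 2)) (uIcc (-s) s) := by
        intro u hu
        rw [uIcc_of_le (by linarith)] at hu
        simp only [hf]
        have h4 : 0 ≤ s ^ 2 - u ^ 2 := by
          have : u ^ 2 ≤ s ^ 2 := sq_le_sq' hu.1 hu.2
          linarith
        rw [sq_abs, ← hs2, max_eq_right h4]
      rw [intervalIntegral.integral_congr this, intervalIntegral.integral_const_mul,
        integral_sqrt_sub_sq hs0, hs2]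
      ring
    rw [hsplit, h1, h2, h3, max_eq_right h0.le]
    ring

/-- Length of an arc of the circle. -/
lemma disc_slice (c τ : ℝ) (hτ : τ ≤ 1 / 4) :
    ∫ b in (0 : ℝ)..1, (if dZ (b - c) ^ 2 < τ then (1 : ℝ) else 0) = 2 * √(max 0 τ) := by
  rw [integral_dZ_shift (fun t => if t ^ 2 < τ then (1 : ℝ) else 0) c]
  exact integral_indicator_sq τ hτ

/-- Area of a disc of the flat two-torus. -/
lemma disc_area (c c' σ : ℝ) (hσ : σ ≤ 1 / 4) :
    ∫ a in (0 : ℝ)..1, ∫ b in (0 : ℝ)..1,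
      (if dZ (a - c) ^ 2 + dZ (b - c') ^ 2 < σ then (1 : ℝ) else 0) = π * max 0 σ := by
  have h1 : ∀ a : ℝ, ∫ b in (0 : ℝ)..1,
      (if dZ (a - c) ^ 2 + dZ (b - c') ^ 2 < σ then (1 : ℝ) else 0) =
      2 * √(max 0 (σ - dZ (a - c) ^ 2)) := by
    intro a
    have h2 : ∀ b : ℝ, (if dZ (a - c) ^ 2 + dZ (b - c') ^ 2 < σ then (1 : ℝ) else 0) =
        (if dZ (b - c') ^ 2 < σ - dZ (a - c) ^ 2 then (1 : ℝ) else 0) := by
      intro b
      by_cases h : dZ (a - c) ^ 2 + dZ (b - c') ^ 2 < σ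
      · rw [if_pos h, if_pos (by linarith)]
      · rw [if_neg h, if_neg (by linarith)]
    simp_rw [h2]
    exact disc_slice c' _ (by have := sq_nonneg (dZ (a - c)); linarith)
  simp_rw [h1]
  rw [integral_dZ_shift (fun t => 2 * √(max 0 (σ - t ^ 2))) c]
  exact integral_sqrt_bump σ hσ

/-! ## The abstract uniqueness lemma -/

lemma integrable_of_bdd {Ω : Type*} [MeasurableSpace Ω] {ν : Measure Ω} [IsFiniteMeasure ν]
    {f : Ω → ℝ} (hf : Measurable f) (C : ℝ) (h : ∀ p, |f p| ≤ C) : Integrable f ν :=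
  Integrable.of_bound hf.aestronglyMeasurable C
    (ae_of_all _ fun p => by simpa [Real.norm_eq_abs] using h p)

/-- Bathtub uniqueness. -/
lemma lorentz_abstract {Ω : Type*} [MeasurableSpace Ω] {ν : Measure Ω} [IsFiniteMeasure ν]
    {F B D : Ω → ℝ} {ρ C : ℝ} (hF : Measurable F) (hF01 : ∀ p, F p = 0 ∨ F p = 1)
    (hD : Measurable D) (hDb : ∀ p, |D p| ≤ C)
    (hB : ∀ p, B p = if D p < ρ then 1 else 0)
    (h0 : ∫ p, F p ∂ν = ∫ p, B p ∂ν)
    (h1 : ∫ p, F p * D p ∂ν = ∫ p, B p * D p ∂ν)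
    (hnull : ν {p | D p = ρ} = 0) : ∀ᵐ p ∂ν, F p = B p := by
  have hBm : Measurable B := by
    have : B = fun p => if D p < ρ then 1 else 0 := funext hB
    rw [this]
    exact Measurable.ite (measurableSet_lt hD measurable_const) measurable_const measurable_const
  have hFb : ∀ p, |F p| ≤ 1 := fun p => by
    rcases hF01 p with h | h <;> simp [h]
  have hBb : ∀ p, |B p| ≤ 1 := fun p => by
    rw [hB]; split_ifs <;> simp
  have iF : Integrable F ν := integrable_of_bdd hF 1 hFb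
  have iB : Integrable B ν := integrable_of_bdd hBm 1 hBb
  have iFD : Integrable (fun p => F p * D p) ν :=
    integrable_of_bdd (hF.mul hD) C fun p => by
      rw [abs_mul]
      calc |F p| * |D p| ≤ 1 * C := mul_le_mul (hFb p) (hDb p) (abs_nonneg _) zero_le_one
        _ = C := one_mul C
  have iBD : Integrable (fun p => B p * D p) ν :=
    integrable_of_bdd (hBm.mul hD) C fun p => by
      rw [abs_mul]
      calc |B p| * |D p| ≤ 1 * C := mul_le_mul (hBb p) (hDb p) (abs_nonneg _) zero_le_one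
        _ = C := one_mul C
  set φ : Ω → ℝ := fun p => (F p - B p) * (D p - ρ) with hφ
  have hφ0 : 0 ≤ φ := by
    intro p
    simp only [hφ, Pi.zero_apply]
    rw [hB]
    by_cases hp : D p < ρ
    · rw [if_pos hp]
      rcases hF01 p with h | h <;> rw [h]
      · nlinarith
      · simp
    · rw [if_neg hp]
      push Not at hp
      rcases hF01 p with h | h <;> rw [h]
      · simp
      · nlinarith
  have hφe : φ = fun p => F p * D p - B p * D p - ρ * (F p - B p) := by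
    funext p; simp only [hφ]; ring
  have iφ : Integrable φ ν := by
    rw [hφe]
    exact (iFD.sub iBD).sub ((iF.sub iB).const_mul ρ)
  have hint : ∫ p, φ p ∂ν = 0 := by
    have e1 : ∫ p, (F p * D p - B p * D p) ∂ν = ∫ p, F p * D p ∂ν - ∫ p, B p * D p ∂ν :=
      integral_sub iFD iBD
    have e2 : ∫ p, (F p - B p) ∂ν = ∫ p, F p ∂ν - ∫ p, B p ∂ν := integral_sub iF iB
    have e3 : ∫ p, (F p * D p - B p * D p - ρ * (F p - B p)) ∂ν =
        ∫ p, (F p * D p - B p * D p) ∂ν - ∫ p, ρ * (F p - B p) ∂ν :=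
      integral_sub (iFD.sub iBD) ((iF.sub iB).const_mul ρ)
    rw [hφe]
    change ∫ p, (F p * D p - B p * D p - ρ * (F p - B p)) ∂ν = 0
    rw [e3, integral_const_mul, e1, e2, h0, h1]
    simp
  have hae := (integral_eq_zero_iff_of_nonneg hφ0 iφ).mp hint
  have hnull' : ∀ᵐ p ∂ν, D p ≠ ρ := by
    have : {p | ¬ D p ≠ ρ} = {p | D p = ρ} := by ext p; simp
    rw [ae_iff, this]
    exact hnull
  filter_upwards [hae, hnull'] with p hp hp'
  have h2 : (F p - B p) * (D p - ρ) = 0 := hp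
  rcases mul_eq_zero.mp h2 with h3 | h3
  · linarith
  · exact absurd (by linarith) hp'

/-! ## Level sets -/

/-- The unit interval as a measure space. -/
noncomputable abbrev lorMu : Measure ℝ := volume.restrict (Ioc (0 : ℝ) 1)

lemma dZ_level_null (c a : ℝ) : lorMu {z | dZ (z - c) ^ 2 = a} = 0 := by
  have hsub : {z | dZ (z - c) ^ 2 = a} ⊆
      (Set.range fun n : ℤ => c + √a + n) ∪ (Set.range fun n : ℤ => c - √a + n) := by
    intro z hz
    have hz' : dZ (z - c) ^ 2 = a := hz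
    have h1 : dZ (z - c) = √a := by
      rw [← hz', Real.sqrt_sq (dZ_nonneg _)]
    unfold dZ at h1
    rcases abs_eq_abs.mp (show |z - c - round (z - c)| = |√a| by
      rw [h1, abs_of_nonneg (Real.sqrt_nonneg a)]) with h2 | h2
    · left
      exact ⟨round (z - c), by linarith⟩
    · right
      exact ⟨round (z - c), by linarith⟩
  have hc : ((Set.range fun n : ℤ => c + √a + (n : ℝ)) ∪
      (Set.range fun n : ℤ => c - √a + (n : ℝ))).Countable :=
    (Set.countable_range _).union (Set.countable_range _)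
  have h0 : volume {z | dZ (z - c) ^ 2 = a} = 0 :=
    measure_mono_null hsub (hc.measure_zero volume)
  exact le_antisymm ((Measure.restrict_le_self _).trans (le_of_eq h0)) zero_le

lemma measurable_dZ_sub (c : ℝ) : Measurable fun t : ℝ => dZ (t - c) ^ 2 :=
  (measurable_dZ.comp (measurable_id.sub measurable_const)).pow_const 2

lemma dZ_sq_le (t : ℝ) : dZ t ^ 2 ≤ 1 / 4 := by
  have h1 : dZ t ≤ 1 / 2 := abs_sub_round t
  have h2 := dZ_nonneg t
  nlinarith

/-! ## Two dimensions -/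

section Two

variable {G : ℝ → ℝ → ℝ}

lemma fubini2 (hG : Measurable fun p : ℝ × ℝ => G p.1 p.2) {C : ℝ} (hC : ∀ x y, |G x y| ≤ C) :
    ∫ p, G p.1 p.2 ∂(lorMu.prod lorMu) = ∫ x in (0 : ℝ)..1, ∫ y in (0 : ℝ)..1, G x y := by
  simp only [intervalIntegral.integral_of_le zero_le_one]
  exact integral_prod (fun p => G p.1 p.2) (integrable_of_bdd hG C fun p => hC _ _)

lemma fubini2' (hG : Measurable fun p : ℝ × ℝ => G p.1 p.2) {C : ℝ} (hC : ∀ x y, |G x y| ≤ C) :
    ∫ p, G p.1 p.2 ∂(lorMu.prod lorMu) = ∫ y in (0 : ℝ)..1, ∫ x in (0 : ℝ)..1, G x y := by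
  simp only [intervalIntegral.integral_of_le zero_le_one]
  exact integral_prod_symm (fun p => G p.1 p.2) (integrable_of_bdd hG C fun p => hC _ _)

/-- Weight in the first variable. -/
lemma weight2_fst (hG : Measurable fun p : ℝ × ℝ => G p.1 p.2) (hG1 : ∀ x y, |G x y| ≤ 1)
    {w : ℝ → ℝ} (hw : Measurable w) {C : ℝ} (hwC : ∀ x, |w x| ≤ C) :
    ∫ p, w p.1 * G p.1 p.2 ∂(lorMu.prod lorMu) =
      ∫ x in (0 : ℝ)..1, w x * ∫ y in (0 : ℝ)..1, G x y := by
  have hm : Measurable fun p : ℝ × ℝ => w p.1 * G p.1 p.2 := (hw.comp measurable_fst).mul hG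
  have hb : ∀ x y, |w x * G x y| ≤ C := fun x y => by
    rw [abs_mul]
    calc |w x| * |G x y| ≤ C * 1 := mul_le_mul (hwC x) (hG1 x y) (abs_nonneg _)
          ((abs_nonneg _).trans (hwC x))
      _ = C := mul_one C
  rw [fubini2 (G := fun x y => w x * G x y) hm hb]
  simp only [intervalIntegral.integral_const_mul]

/-- Weight in the second variable. -/
lemma weight2_snd (hG : Measurable fun p : ℝ × ℝ => G p.1 p.2) (hG1 : ∀ x y, |G x y| ≤ 1)
    {w : ℝ → ℝ} (hw : Measurable w) {C : ℝ} (hwC : ∀ x, |w x| ≤ C) :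
    ∫ p, w p.2 * G p.1 p.2 ∂(lorMu.prod lorMu) =
      ∫ y in (0 : ℝ)..1, w y * ∫ x in (0 : ℝ)..1, G x y := by
  have hm : Measurable fun p : ℝ × ℝ => w p.2 * G p.1 p.2 := (hw.comp measurable_snd).mul hG
  have hb : ∀ x y, |w y * G x y| ≤ C := fun x y => by
    rw [abs_mul]
    calc |w y| * |G x y| ≤ C * 1 := mul_le_mul (hwC y) (hG1 x y) (abs_nonneg _)
          ((abs_nonneg _).trans (hwC y))
      _ = C := mul_one C
  rw [fubini2' (G := fun x y => w y * G x y) hm hb]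
  simp only [intervalIntegral.integral_const_mul]

end Two

/-- The disc is determined by its two marginals. -/
theorem lorentz_disc {F : ℝ → ℝ → ℝ} (hm : Measurable fun p : ℝ × ℝ => F p.1 p.2)
    (h01 : ∀ x y, F x y = 0 ∨ F x y = 1) {c₁ c₂ r : ℝ} (hr0 : 0 < r) (hr : r ≤ 1 / 2)
    (h1 : ∀ᵐ x ∂(volume.restrict (Ioc (0 : ℝ) 1)),
      (∫ y in (0 : ℝ)..1, F x y) = 2 * √(max 0 (r ^ 2 - dZ (x - c₁) ^ 2)))
    (h2 : ∀ᵐ y ∂(volume.restrict (Ioc (0 : ℝ) 1)),
      (∫ x in (0 : ℝ)..1, F x y) = 2 * √(max 0 (r ^ 2 - dZ (y - c₂) ^ 2))) :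
    dist2 F (discFn c₁ c₂ r) = 0 := by
  set B : ℝ → ℝ → ℝ := discFn c₁ c₂ r with hB
  have hr2 : r ^ 2 ≤ 1 / 4 := by nlinarith
  have hdx : Measurable fun p : ℝ × ℝ => dZ (p.1 - c₁) ^ 2 :=
    (measurable_dZ_sub c₁).comp measurable_fst
  have hdy : Measurable fun p : ℝ × ℝ => dZ (p.2 - c₂) ^ 2 :=
    (measurable_dZ_sub c₂).comp measurable_snd
  set D : ℝ × ℝ → ℝ := fun p => dZ (p.1 - c₁) ^ 2 + dZ (p.2 - c₂) ^ 2 with hD
  have hDm : Measurable D := hdx.add hdy
  have hBm : Measurable fun p : ℝ × ℝ => B p.1 p.2 := by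
    have : (fun p : ℝ × ℝ => B p.1 p.2) = fun p => if D p < r ^ 2 then 1 else 0 := rfl
    rw [this]
    exact Measurable.ite (measurableSet_lt hDm measurable_const) measurable_const measurable_const
  have hF1 : ∀ x y, |F x y| ≤ 1 := fun x y => by
    rcases h01 x y with h | h <;> simp [h]
  have hB1 : ∀ x y, |B x y| ≤ 1 := fun x y => by
    simp only [hB, discFn]; split_ifs <;> simp
  -- marginals of `B`
  have mB1 : ∀ x, (∫ y in (0 : ℝ)..1, B x y) = 2 * √(max 0 (r ^ 2 - dZ (x - c₁) ^ 2)) := by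
    intro x
    have h3 : ∀ y, B x y = if dZ (y - c₂) ^ 2 < r ^ 2 - dZ (x - c₁) ^ 2 then (1 : ℝ) else 0 := by
      intro y
      simp only [hB, discFn]
      by_cases h : dZ (x - c₁) ^ 2 + dZ (y - c₂) ^ 2 < r ^ 2
      · rw [if_pos h, if_pos (by linarith)]
      · rw [if_neg h, if_neg (by linarith)]
    simp_rw [h3]
    exact disc_slice c₂ _ (by have := sq_nonneg (dZ (x - c₁)); linarith)
  have mB2 : ∀ y, (∫ x in (0 : ℝ)..1, B x y) = 2 * √(max 0 (r ^ 2 - dZ (y - c₂) ^ 2)) := by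
    intro y
    have h3 : ∀ x, B x y = if dZ (x - c₁) ^ 2 < r ^ 2 - dZ (y - c₂) ^ 2 then (1 : ℝ) else 0 := by
      intro x
      simp only [hB, discFn]
      by_cases h : dZ (x - c₁) ^ 2 + dZ (y - c₂) ^ 2 < r ^ 2
      · rw [if_pos h, if_pos (by linarith)]
      · rw [if_neg h, if_neg (by linarith)]
    simp_rw [h3]
    exact disc_slice c₁ _ (by have := sq_nonneg (dZ (y - c₂)); linarith)
  -- equality of weighted integrals
  have e1 : ∀ {w : ℝ → ℝ} (_ : Measurable w) {C : ℝ} (_ : ∀ x, |w x| ≤ C),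
      ∫ p, w p.1 * F p.1 p.2 ∂(lorMu.prod lorMu) = ∫ p, w p.1 * B p.1 p.2 ∂(lorMu.prod lorMu) := by
    intro w hw C hwC
    rw [weight2_fst hm hF1 hw hwC, weight2_fst hBm hB1 hw hwC]
    simp only [intervalIntegral.integral_of_le zero_le_one]
    refine integral_congr_ae ?_
    filter_upwards [h1] with x hx
    have h3 := mB1 x
    simp only [intervalIntegral.integral_of_le zero_le_one] at hx h3
    rw [hx, h3]
  have e2 : ∀ {w : ℝ → ℝ} (_ : Measurable w) {C : ℝ} (_ : ∀ x, |w x| ≤ C),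
      ∫ p, w p.2 * F p.1 p.2 ∂(lorMu.prod lorMu) = ∫ p, w p.2 * B p.1 p.2 ∂(lorMu.prod lorMu) := by
    intro w hw C hwC
    rw [weight2_snd hm hF1 hw hwC, weight2_snd hBm hB1 hw hwC]
    simp only [intervalIntegral.integral_of_le zero_le_one]
    refine integral_congr_ae ?_
    filter_upwards [h2] with y hy
    have h3 := mB2 y
    simp only [intervalIntegral.integral_of_le zero_le_one] at hy h3
    rw [hy, h3]
  -- integrability
  have iw : ∀ {H : ℝ → ℝ → ℝ} (_ : Measurable fun p : ℝ × ℝ => H p.1 p.2)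
      (_ : ∀ x y, |H x y| ≤ 1) {g : ℝ × ℝ → ℝ} (_ : Measurable g) (_ : ∀ p, |g p| ≤ 1 / 4),
      Integrable (fun p => g p * H p.1 p.2) (lorMu.prod lorMu) := by
    intro H hH hH1 g hg hgb
    refine integrable_of_bdd (hg.mul hH) (1 / 4) fun p => ?_
    rw [abs_mul]
    calc |g p| * |H p.1 p.2| ≤ 1 / 4 * 1 := mul_le_mul (hgb p) (hH1 _ _) (abs_nonneg _) (by norm_num)
      _ = 1 / 4 := mul_one _
  have hbx : ∀ c t : ℝ, |dZ (t - c) ^ 2| ≤ 1 / 4 := fun c t => by
    rw [abs_of_nonneg (sq_nonneg _)]; exact dZ_sq_le _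
  have split : ∀ {H : ℝ → ℝ → ℝ} (_ : Measurable fun p : ℝ × ℝ => H p.1 p.2)
      (_ : ∀ x y, |H x y| ≤ 1), ∫ p, H p.1 p.2 * D p ∂(lorMu.prod lorMu) =
        ∫ p, dZ (p.1 - c₁) ^ 2 * H p.1 p.2 ∂(lorMu.prod lorMu) +
        ∫ p, dZ (p.2 - c₂) ^ 2 * H p.1 p.2 ∂(lorMu.prod lorMu) := by
    intro H hH hH1
    rw [← integral_add (iw hH hH1 hdx fun p => hbx _ _) (iw hH hH1 hdy fun p => hbx _ _)]
    refine integral_congr_ae (ae_of_all _ fun p => ?_)
    simp only [hD]; ring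
  have hae := lorentz_abstract (ν := lorMu.prod lorMu) (F := fun p => F p.1 p.2)
    (B := fun p => B p.1 p.2) (D := D) (ρ := r ^ 2) (C := 1 / 2) hm (fun p => h01 _ _) hDm
    (fun p => by
      simp only [hD]
      rw [abs_of_nonneg (by positivity)]
      have := dZ_sq_le (p.1 - c₁)
      have := dZ_sq_le (p.2 - c₂)
      linarith)
    (fun p => rfl)
    (by
      have := e1 (w := fun _ => (1 : ℝ)) measurable_const (C := 1) (fun _ => by simp)
      simpa using this)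
    (by
      rw [split hm hF1, split hBm hB1, e1 (measurable_dZ_sub c₁) (hbx c₁),
        e2 (measurable_dZ_sub c₂) (hbx c₂)])
    (by
      have hS : MeasurableSet {p : ℝ × ℝ | D p = r ^ 2} :=
        measurableSet_eq_fun hDm measurable_const
      rw [Measure.measure_prod_null hS]
      refine ae_of_all _ fun x => ?_
      have : Prod.mk x ⁻¹' {p : ℝ × ℝ | D p = r ^ 2} =
          {y | dZ (y - c₂) ^ 2 = r ^ 2 - dZ (x - c₁) ^ 2} := by
        ext y
        constructor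
        · intro h
          have h' : dZ (x - c₁) ^ 2 + dZ (y - c₂) ^ 2 = r ^ 2 := h
          change dZ (y - c₂) ^ 2 = r ^ 2 - dZ (x - c₁) ^ 2
          linarith
        · intro h
          have h' : dZ (y - c₂) ^ 2 = r ^ 2 - dZ (x - c₁) ^ 2 := h
          change dZ (x - c₁) ^ 2 + dZ (y - c₂) ^ 2 = r ^ 2
          linarith
      change lorMu (Prod.mk x ⁻¹' {p : ℝ × ℝ | D p = r ^ 2}) = 0
      rw [this]
      exact dZ_level_null _ _)
  -- conclusion
  have hab : Measurable fun p : ℝ × ℝ => |F p.1 p.2 - B p.1 p.2| := (hm.sub hBm).abs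
  unfold dist2
  rw [← fubini2 (G := fun x y => |F x y - B x y|) hab (C := 2) (fun x y => by
    rw [abs_abs]
    calc |F x y - B x y| ≤ |F x y| + |B x y| := abs_sub _ _
      _ ≤ 1 + 1 := add_le_add (hF1 x y) (hB1 x y)
      _ = 2 := by norm_num)]
  refine integral_eq_zero_of_ae ?_
  filter_upwards [hae] with p hp
  have hp' : F p.1 p.2 = B p.1 p.2 := hp
  simp [hp']

/-! ## Three dimensions -/

section Three

variable {G : ℝ → ℝ → ℝ → ℝ}

lemma fubini3 (hG : Measurable fun p : ℝ × ℝ × ℝ => G p.1 p.2.1 p.2.2) {C : ℝ}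
    (hC : ∀ x y z, |G x y z| ≤ C) :
    ∫ p, G p.1 p.2.1 p.2.2 ∂(lorMu.prod (lorMu.prod lorMu)) =
      ∫ x in (0 : ℝ)..1, ∫ y in (0 : ℝ)..1, ∫ z in (0 : ℝ)..1, G x y z := by
  have h1 := integral_prod (μ := lorMu) (ν := lorMu.prod lorMu) (fun p => G p.1 p.2.1 p.2.2)
    (integrable_of_bdd hG C fun p => hC _ _ _)
  rw [h1]
  rw [intervalIntegral.integral_of_le zero_le_one]
  refine integral_congr_ae (ae_of_all _ fun x => ?_)
  have hm : Measurable fun q : ℝ × ℝ => G x q.1 q.2 :=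
    hG.comp (measurable_const.prodMk (measurable_fst.prodMk measurable_snd))
  exact fubini2 (G := fun y z => G x y z) hm (fun y z => hC x y z)

lemma swap_xy (hG : Measurable fun p : ℝ × ℝ × ℝ => G p.1 p.2.1 p.2.2) {C : ℝ}
    (hC : ∀ x y z, |G x y z| ≤ C) :
    ∫ x in (0 : ℝ)..1, ∫ y in (0 : ℝ)..1, ∫ z in (0 : ℝ)..1, G x y z =
      ∫ y in (0 : ℝ)..1, ∫ x in (0 : ℝ)..1, ∫ z in (0 : ℝ)..1, G x y z := by
  simp only [intervalIntegral.integral_of_le zero_le_one]
  have hm : Measurable fun q : (ℝ × ℝ) × ℝ => G q.1.1 q.1.2 q.2 :=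
    hG.comp ((measurable_fst.comp measurable_fst).prodMk
      ((measurable_snd.comp measurable_fst).prodMk measurable_snd))
  have hi : Integrable (fun q : (ℝ × ℝ) × ℝ => G q.1.1 q.1.2 q.2)
      ((lorMu.prod lorMu).prod lorMu) := integrable_of_bdd hm C fun q => hC _ _ _
  exact integral_integral_swap (f := fun x y => ∫ z, G x y z ∂lorMu) hi.integral_prod_left

lemma swap_zyx (hG : Measurable fun p : ℝ × ℝ × ℝ => G p.1 p.2.1 p.2.2) {C : ℝ}
    (hC : ∀ x y z, |G x y z| ≤ C) :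
    ∫ x in (0 : ℝ)..1, ∫ y in (0 : ℝ)..1, ∫ z in (0 : ℝ)..1, G x y z =
      ∫ z in (0 : ℝ)..1, ∫ y in (0 : ℝ)..1, ∫ x in (0 : ℝ)..1, G x y z := by
  have s1 : ∀ x, ∫ y in (0 : ℝ)..1, ∫ z in (0 : ℝ)..1, G x y z =
      ∫ z in (0 : ℝ)..1, ∫ y in (0 : ℝ)..1, G x y z := by
    intro x
    have hm : Measurable fun q : ℝ × ℝ => G x q.1 q.2 :=
      hG.comp (measurable_const.prodMk (measurable_fst.prodMk measurable_snd))
    rw [← fubini2 (G := fun y z => G x y z) hm (fun y z => hC x y z),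
      fubini2' (G := fun y z => G x y z) hm (fun y z => hC x y z)]
  have hm2 : Measurable fun p : ℝ × ℝ × ℝ => G p.1 p.2.2 p.2.1 :=
    hG.comp (measurable_fst.prodMk ((measurable_snd.comp measurable_snd).prodMk
      (measurable_fst.comp measurable_snd)))
  have s2 := swap_xy (G := fun x z y => G x y z) hm2 (C := C) (fun x z y => hC x y z)
  have s3 : ∀ z, ∫ x in (0 : ℝ)..1, ∫ y in (0 : ℝ)..1, G x y z =
      ∫ y in (0 : ℝ)..1, ∫ x in (0 : ℝ)..1, G x y z := by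
    intro z
    have hm : Measurable fun q : ℝ × ℝ => G q.1 q.2 z :=
      hG.comp (measurable_fst.prodMk (measurable_snd.prodMk measurable_const))
    rw [← fubini2 (G := fun x y => G x y z) hm (fun x y => hC x y z),
      fubini2' (G := fun x y => G x y z) hm (fun x y => hC x y z)]
  simp_rw [s1]
  rw [s2]
  simp_rw [s3]

lemma weight_bound {a b C : ℝ} (ha : |a| ≤ C) (hb : |b| ≤ 1) : |a * b| ≤ C := by
  rw [abs_mul]
  calc |a| * |b| ≤ C * 1 := mul_le_mul ha hb (abs_nonneg _) ((abs_nonneg _).trans ha)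
    _ = C := mul_one C

lemma weight3_x (hG : Measurable fun p : ℝ × ℝ × ℝ => G p.1 p.2.1 p.2.2)
    (hG1 : ∀ x y z, |G x y z| ≤ 1) {w : ℝ → ℝ} (hw : Measurable w) {C : ℝ} (hwC : ∀ x, |w x| ≤ C) :
    ∫ p, w p.1 * G p.1 p.2.1 p.2.2 ∂(lorMu.prod (lorMu.prod lorMu)) =
      ∫ x in (0 : ℝ)..1, w x * ∫ y in (0 : ℝ)..1, ∫ z in (0 : ℝ)..1, G x y z := by
  have hm : Measurable fun p : ℝ × ℝ × ℝ => w p.1 * G p.1 p.2.1 p.2.2 :=
    (hw.comp measurable_fst).mul hG
  rw [fubini3 (G := fun x y z => w x * G x y z) hm (C := C)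
    (fun x y z => weight_bound (hwC x) (hG1 x y z))]
  simp only [intervalIntegral.integral_const_mul]

lemma weight3_y (hG : Measurable fun p : ℝ × ℝ × ℝ => G p.1 p.2.1 p.2.2)
    (hG1 : ∀ x y z, |G x y z| ≤ 1) {w : ℝ → ℝ} (hw : Measurable w) {C : ℝ} (hwC : ∀ x, |w x| ≤ C) :
    ∫ p, w p.2.1 * G p.1 p.2.1 p.2.2 ∂(lorMu.prod (lorMu.prod lorMu)) =
      ∫ y in (0 : ℝ)..1, w y * ∫ x in (0 : ℝ)..1, ∫ z in (0 : ℝ)..1, G x y z := by
  have hm : Measurable fun p : ℝ × ℝ × ℝ => w p.2.1 * G p.1 p.2.1 p.2.2 :=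
    (hw.comp (measurable_fst.comp measurable_snd)).mul hG
  rw [fubini3 (G := fun x y z => w y * G x y z) hm (C := C)
    (fun x y z => weight_bound (hwC y) (hG1 x y z)),
    swap_xy (G := fun x y z => w y * G x y z) hm (C := C)
      (fun x y z => weight_bound (hwC y) (hG1 x y z))]
  simp only [intervalIntegral.integral_const_mul]

lemma weight3_z (hG : Measurable fun p : ℝ × ℝ × ℝ => G p.1 p.2.1 p.2.2)
    (hG1 : ∀ x y z, |G x y z| ≤ 1) {w : ℝ → ℝ} (hw : Measurable w) {C : ℝ} (hwC : ∀ x, |w x| ≤ C) :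
    ∫ p, w p.2.2 * G p.1 p.2.1 p.2.2 ∂(lorMu.prod (lorMu.prod lorMu)) =
      ∫ z in (0 : ℝ)..1, w z * ∫ y in (0 : ℝ)..1, ∫ x in (0 : ℝ)..1, G x y z := by
  have hm : Measurable fun p : ℝ × ℝ × ℝ => w p.2.2 * G p.1 p.2.1 p.2.2 :=
    (hw.comp (measurable_snd.comp measurable_snd)).mul hG
  rw [fubini3 (G := fun x y z => w z * G x y z) hm (C := C)
    (fun x y z => weight_bound (hwC z) (hG1 x y z)),
    swap_zyx (G := fun x y z => w z * G x y z) hm (C := C)
      (fun x y z => weight_bound (hwC z) (hG1 x y z))]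
  simp only [intervalIntegral.integral_const_mul]

end Three

/-- The ball is determined by its three marginals. -/
theorem lorentz_ball {F : ℝ → ℝ → ℝ → ℝ} (hm : Measurable fun p : ℝ × ℝ × ℝ => F p.1 p.2.1 p.2.2)
    (h01 : ∀ x y z, F x y z = 0 ∨ F x y z = 1) {c₁ c₂ c₃ R : ℝ} (hR0 : 0 < R) (hR : R ≤ 1 / 2)
    (h1 : ∀ᵐ x ∂(volume.restrict (Ioc (0 : ℝ) 1)),
      (∫ y in (0 : ℝ)..1, ∫ z in (0 : ℝ)..1, F x y z) = π * max 0 (R ^ 2 - dZ (x - c₁) ^ 2))
    (h2 : ∀ᵐ y ∂(volume.restrict (Ioc (0 : ℝ) 1)),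
      (∫ x in (0 : ℝ)..1, ∫ z in (0 : ℝ)..1, F x y z) = π * max 0 (R ^ 2 - dZ (y - c₂) ^ 2))
    (h3 : ∀ᵐ z ∂(volume.restrict (Ioc (0 : ℝ) 1)),
      (∫ y in (0 : ℝ)..1, ∫ x in (0 : ℝ)..1, F x y z) = π * max 0 (R ^ 2 - dZ (z - c₃) ^ 2)) :
    dist3 F (indF (ballSet c₁ c₂ c₃ R)) = 0 := by
  set B : ℝ → ℝ → ℝ → ℝ := indF (ballSet c₁ c₂ c₃ R) with hB
  have hR2 : R ^ 2 ≤ 1 / 4 := by nlinarith
  have hdx : Measurable fun p : ℝ × ℝ × ℝ => dZ (p.1 - c₁) ^ 2 :=
    (measurable_dZ_sub c₁).comp measurable_fst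
  have hdy : Measurable fun p : ℝ × ℝ × ℝ => dZ (p.2.1 - c₂) ^ 2 :=
    (measurable_dZ_sub c₂).comp (measurable_fst.comp measurable_snd)
  have hdz : Measurable fun p : ℝ × ℝ × ℝ => dZ (p.2.2 - c₃) ^ 2 :=
    (measurable_dZ_sub c₃).comp (measurable_snd.comp measurable_snd)
  set D : ℝ × ℝ × ℝ → ℝ := fun p =>
    dZ (p.1 - c₁) ^ 2 + dZ (p.2.1 - c₂) ^ 2 + dZ (p.2.2 - c₃) ^ 2 with hD
  have hDm : Measurable D := (hdx.add hdy).add hdz
  have hBeq : ∀ x y z, B x y z =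
      if dZ (x - c₁) ^ 2 + dZ (y - c₂) ^ 2 + dZ (z - c₃) ^ 2 < R ^ 2 then 1 else 0 := by
    intro x y z
    simp only [hB, indF]
    by_cases h : dZ (x - c₁) ^ 2 + dZ (y - c₂) ^ 2 + dZ (z - c₃) ^ 2 < R ^ 2
    · rw [if_pos h]
      exact indicator_of_mem (s := ballSet c₁ c₂ c₃ R) h _
    · rw [if_neg h]
      exact indicator_of_notMem (s := ballSet c₁ c₂ c₃ R) h _
  have hBm : Measurable fun p : ℝ × ℝ × ℝ => B p.1 p.2.1 p.2.2 := by
    have : (fun p : ℝ × ℝ × ℝ => B p.1 p.2.1 p.2.2) = fun p => if D p < R ^ 2 then 1 else 0 :=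
      funext fun p => hBeq _ _ _
    rw [this]
    exact Measurable.ite (measurableSet_lt hDm measurable_const) measurable_const measurable_const
  have hF1 : ∀ x y z, |F x y z| ≤ 1 := fun x y z => by
    rcases h01 x y z with h | h <;> simp [h]
  have hB1 : ∀ x y z, |B x y z| ≤ 1 := fun x y z => by
    rw [hBeq]; split_ifs <;> simp
  -- marginals of `B`
  have mB1 : ∀ x, (∫ y in (0 : ℝ)..1, ∫ z in (0 : ℝ)..1, B x y z) =
      π * max 0 (R ^ 2 - dZ (x - c₁) ^ 2) := by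
    intro x
    have h4 : ∀ y z, B x y z = if dZ (y - c₂) ^ 2 + dZ (z - c₃) ^ 2 < R ^ 2 - dZ (x - c₁) ^ 2
        then (1 : ℝ) else 0 := by
      intro y z
      rw [hBeq]
      by_cases h : dZ (x - c₁) ^ 2 + dZ (y - c₂) ^ 2 + dZ (z - c₃) ^ 2 < R ^ 2
      · rw [if_pos h, if_pos (by linarith)]
      · rw [if_neg h, if_neg (by linarith)]
    simp_rw [h4]
    exact disc_area c₂ c₃ _ (by have := sq_nonneg (dZ (x - c₁)); linarith)
  have mB2 : ∀ y, (∫ x in (0 : ℝ)..1, ∫ z in (0 : ℝ)..1, B x y z) =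
      π * max 0 (R ^ 2 - dZ (y - c₂) ^ 2) := by
    intro y
    have h4 : ∀ x z, B x y z = if dZ (x - c₁) ^ 2 + dZ (z - c₃) ^ 2 < R ^ 2 - dZ (y - c₂) ^ 2
        then (1 : ℝ) else 0 := by
      intro x z
      rw [hBeq]
      by_cases h : dZ (x - c₁) ^ 2 + dZ (y - c₂) ^ 2 + dZ (z - c₃) ^ 2 < R ^ 2
      · rw [if_pos h, if_pos (by linarith)]
      · rw [if_neg h, if_neg (by linarith)]
    simp_rw [h4]
    exact disc_area c₁ c₃ _ (by have := sq_nonneg (dZ (y - c₂)); linarith)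
  have mB3 : ∀ z, (∫ y in (0 : ℝ)..1, ∫ x in (0 : ℝ)..1, B x y z) =
      π * max 0 (R ^ 2 - dZ (z - c₃) ^ 2) := by
    intro z
    have h4 : ∀ x y, B x y z = if dZ (y - c₂) ^ 2 + dZ (x - c₁) ^ 2 < R ^ 2 - dZ (z - c₃) ^ 2
        then (1 : ℝ) else 0 := by
      intro x y
      rw [hBeq]
      by_cases h : dZ (x - c₁) ^ 2 + dZ (y - c₂) ^ 2 + dZ (z - c₃) ^ 2 < R ^ 2
      · rw [if_pos h, if_pos (by linarith)]
      · rw [if_neg h, if_neg (by linarith)]
    simp_rw [h4]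
    exact disc_area c₂ c₁ _ (by have := sq_nonneg (dZ (z - c₃)); linarith)
  set ν : Measure (ℝ × ℝ × ℝ) := lorMu.prod (lorMu.prod lorMu) with hν
  -- equality of weighted integrals
  have e1 : ∀ {w : ℝ → ℝ} (_ : Measurable w) {C : ℝ} (_ : ∀ x, |w x| ≤ C),
      ∫ p, w p.1 * F p.1 p.2.1 p.2.2 ∂ν = ∫ p, w p.1 * B p.1 p.2.1 p.2.2 ∂ν := by
    intro w hw C hwC
    rw [hν, weight3_x hm hF1 hw hwC, weight3_x hBm hB1 hw hwC]
    simp only [intervalIntegral.integral_of_le (zero_le_one (α := ℝ))]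
    refine integral_congr_ae ?_
    filter_upwards [h1] with x hx
    have h4 := mB1 x
    simp only [intervalIntegral.integral_of_le (zero_le_one (α := ℝ))] at hx h4
    rw [hx, h4]
  have e2 : ∀ {w : ℝ → ℝ} (_ : Measurable w) {C : ℝ} (_ : ∀ x, |w x| ≤ C),
      ∫ p, w p.2.1 * F p.1 p.2.1 p.2.2 ∂ν = ∫ p, w p.2.1 * B p.1 p.2.1 p.2.2 ∂ν := by
    intro w hw C hwC
    rw [hν, weight3_y hm hF1 hw hwC, weight3_y hBm hB1 hw hwC]
    simp only [intervalIntegral.integral_of_le (zero_le_one (α := ℝ))]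
    refine integral_congr_ae ?_
    filter_upwards [h2] with x hx
    have h4 := mB2 x
    simp only [intervalIntegral.integral_of_le (zero_le_one (α := ℝ))] at hx h4
    rw [hx, h4]
  have e3 : ∀ {w : ℝ → ℝ} (_ : Measurable w) {C : ℝ} (_ : ∀ x, |w x| ≤ C),
      ∫ p, w p.2.2 * F p.1 p.2.1 p.2.2 ∂ν = ∫ p, w p.2.2 * B p.1 p.2.1 p.2.2 ∂ν := by
    intro w hw C hwC
    rw [hν, weight3_z hm hF1 hw hwC, weight3_z hBm hB1 hw hwC]
    simp only [intervalIntegral.integral_of_le (zero_le_one (α := ℝ))]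
    refine integral_congr_ae ?_
    filter_upwards [h3] with x hx
    have h4 := mB3 x
    simp only [intervalIntegral.integral_of_le (zero_le_one (α := ℝ))] at hx h4
    rw [hx, h4]
  -- integrability
  have iw : ∀ {H : ℝ → ℝ → ℝ → ℝ} (_ : Measurable fun p : ℝ × ℝ × ℝ => H p.1 p.2.1 p.2.2)
      (_ : ∀ x y z, |H x y z| ≤ 1) {g : ℝ × ℝ × ℝ → ℝ} (_ : Measurable g)
      (_ : ∀ p, |g p| ≤ 1 / 4), Integrable (fun p => g p * H p.1 p.2.1 p.2.2) ν := by
    intro H hH hH1 g hg hgb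
    exact integrable_of_bdd (hg.mul hH) (1 / 4) fun p => weight_bound (hgb p) (hH1 _ _ _)
  have hbx : ∀ c t : ℝ, |dZ (t - c) ^ 2| ≤ 1 / 4 := fun c t => by
    rw [abs_of_nonneg (sq_nonneg _)]; exact dZ_sq_le _
  have split : ∀ {H : ℝ → ℝ → ℝ → ℝ} (_ : Measurable fun p : ℝ × ℝ × ℝ => H p.1 p.2.1 p.2.2)
      (_ : ∀ x y z, |H x y z| ≤ 1), ∫ p, H p.1 p.2.1 p.2.2 * D p ∂ν =
        ∫ p, dZ (p.1 - c₁) ^ 2 * H p.1 p.2.1 p.2.2 ∂ν +
        ∫ p, dZ (p.2.1 - c₂) ^ 2 * H p.1 p.2.1 p.2.2 ∂ν +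
        ∫ p, dZ (p.2.2 - c₃) ^ 2 * H p.1 p.2.1 p.2.2 ∂ν := by
    intro H hH hH1
    have i1 := iw hH hH1 hdx fun p => hbx _ _
    have i2 := iw hH hH1 hdy fun p => hbx _ _
    have i3 := iw hH hH1 hdz fun p => hbx _ _
    have i12 : Integrable (fun p => dZ (p.1 - c₁) ^ 2 * H p.1 p.2.1 p.2.2 +
        dZ (p.2.1 - c₂) ^ 2 * H p.1 p.2.1 p.2.2) ν := i1.add i2
    have e : ∫ p, H p.1 p.2.1 p.2.2 * D p ∂ν =
        ∫ p, (dZ (p.1 - c₁) ^ 2 * H p.1 p.2.1 p.2.2 + dZ (p.2.1 - c₂) ^ 2 * H p.1 p.2.1 p.2.2 +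
          dZ (p.2.2 - c₃) ^ 2 * H p.1 p.2.1 p.2.2) ∂ν := by
      refine integral_congr_ae (ae_of_all _ fun p => ?_)
      simp only [hD]; ring
    rw [e, integral_add i12 i3, integral_add i1 i2]
  have hae := lorentz_abstract (ν := ν) (F := fun p => F p.1 p.2.1 p.2.2)
    (B := fun p => B p.1 p.2.1 p.2.2) (D := D) (ρ := R ^ 2) (C := 1) hm (fun p => h01 _ _ _) hDm
    (fun p => by
      simp only [hD]
      rw [abs_of_nonneg (by positivity)]
      have := dZ_sq_le (p.1 - c₁)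
      have := dZ_sq_le (p.2.1 - c₂)
      have := dZ_sq_le (p.2.2 - c₃)
      linarith)
    (fun p => hBeq _ _ _)
    (by
      have := e1 (w := fun _ => (1 : ℝ)) measurable_const (C := 1) (fun _ => by simp)
      simpa using this)
    (by
      rw [split hm hF1, split hBm hB1, e1 (measurable_dZ_sub c₁) (hbx c₁),
        e2 (measurable_dZ_sub c₂) (hbx c₂), e3 (measurable_dZ_sub c₃) (hbx c₃)])
    (by
      have hS : MeasurableSet {p : ℝ × ℝ × ℝ | D p = R ^ 2} :=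
        measurableSet_eq_fun hDm measurable_const
      rw [hν, Measure.measure_prod_null hS]
      refine ae_of_all _ fun x => ?_
      change (lorMu.prod lorMu) (Prod.mk x ⁻¹' {p : ℝ × ℝ × ℝ | D p = R ^ 2}) = 0
      have hS2 : MeasurableSet (Prod.mk x ⁻¹' {p : ℝ × ℝ × ℝ | D p = R ^ 2}) :=
        hS.preimage (measurable_const.prodMk measurable_id)
      rw [Measure.measure_prod_null hS2]
      refine ae_of_all _ fun y => ?_
      change lorMu (Prod.mk y ⁻¹' (Prod.mk x ⁻¹' {p : ℝ × ℝ × ℝ | D p = R ^ 2})) = 0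
      have : Prod.mk y ⁻¹' (Prod.mk x ⁻¹' {p : ℝ × ℝ × ℝ | D p = R ^ 2}) =
          {z | dZ (z - c₃) ^ 2 = R ^ 2 - dZ (x - c₁) ^ 2 - dZ (y - c₂) ^ 2} := by
        ext z
        constructor
        · intro h
          have h' : dZ (x - c₁) ^ 2 + dZ (y - c₂) ^ 2 + dZ (z - c₃) ^ 2 = R ^ 2 := h
          change dZ (z - c₃) ^ 2 = R ^ 2 - dZ (x - c₁) ^ 2 - dZ (y - c₂) ^ 2
          linarith
        · intro h
          have h' : dZ (z - c₃) ^ 2 = R ^ 2 - dZ (x - c₁) ^ 2 - dZ (y - c₂) ^ 2 := h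
          change dZ (x - c₁) ^ 2 + dZ (y - c₂) ^ 2 + dZ (z - c₃) ^ 2 = R ^ 2
          linarith
      rw [this]
      exact dZ_level_null _ _)
  -- conclusion
  have hab : Measurable fun p : ℝ × ℝ × ℝ => |F p.1 p.2.1 p.2.2 - B p.1 p.2.1 p.2.2| :=
    (hm.sub hBm).abs
  unfold dist3
  rw [← fubini3 (G := fun x y z => |F x y z - B x y z|) hab (C := 2) (fun x y z => by
    rw [abs_abs]
    calc |F x y z - B x y z| ≤ |F x y z| + |B x y z| := abs_sub _ _
      _ ≤ 1 + 1 := add_le_add (hF1 x y z) (hB1 x y z)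
      _ = 2 := by norm_num)]
  refine integral_eq_zero_of_ae ?_
  filter_upwards [hae] with p hp
  have hp' : F p.1 p.2.1 p.2.2 = B p.1 p.2.1 p.2.2 := hp
  simp [hp']

end Vale.Agent.Lib.P232
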