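import Vale.Agent.Lib.P232.RigInputs

open MeasureTheory Filter Topology Set
open scoped Real

namespace Vale.Agent.Lib.P232

/-- Pointwise form: the length of a vector is a supremum of linear forms. -/
lemma sqrt_of_forms {W g e : ℝ} (hW : 0 ≤ W)
    (h : ∀ a b : ℝ, 0 ≤ a → 0 ≤ b → a ^ 2 + b ^ 2 ≤ 1 → a * W + b * |g| ≤ e) :
    √(g ^ 2 + W ^ 2) ≤ e := by
  set n := √(g ^ 2 + W ^ 2) with hn
  have hn2 : n ^ 2 = g ^ 2 + W ^ 2 := Real.sq_sqrt (by positivity)
  rcases (Real.sqrt_nonneg (g ^ 2 + W ^ 2)).eq_or_lt with h0 | h0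
  · rw [hn, ← h0]
    have := h 0 0 le_rfl le_rfl (by norm_num)
    simpa using this
  · have hn0 : 0 < n := h0
    have hab : (W / n) ^ 2 + (|g| / n) ^ 2 ≤ 1 := by
      rw [div_pow, div_pow, ← add_div, sq_abs, div_le_one (by positivity)]
      linarith
    have := h (W / n) (|g| / n) (by positivity) (by positivity) hab
    have e1 : W / n * W + |g| / n * |g| = n := by
      have : W / n * W + |g| / n * |g| = (g ^ 2 + W ^ 2) / n := by
        rw [← sq_abs g]
        ring
      rw [this, ← hn2]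
      field_simp
    rwa [e1] at this

namespace Seq3

variable {F : ℝ → ℝ → ℝ → ℝ} {u ux uy uz : ℕ → ℝ → ℝ → ℝ → ℝ}

/-- The energy of a slice dominates the linear forms. -/
theorem slice_forms (S : Seq3 F u ux uy uz) (k : ℕ) (x : ℝ) {a b : ℝ} (ha0 : 0 ≤ a) (hb0 : 0 ≤ b)
    (hab : a ^ 2 + b ^ 2 ≤ 1) :
    a * transCost (uy k) (uz k) x + b * |area (ux k x)| ≤
      ∫ y in (0 : ℝ)..1, ∫ z in (0 : ℝ)..1, √(ux k x y z ^ 2 + uy k x y z ^ 2 + uz k x y z ^ 2) := by
  have hsm := S.smooth k
  have hcq : Continuous fun p : ℝ × ℝ × ℝ =>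
      √(ux k p.1 p.2.1 p.2.2 ^ 2 + uy k p.1 p.2.1 p.2.2 ^ 2 + uz k p.1 p.2.1 p.2.2 ^ 2) :=
    (((hsm.contx.pow 2).add (hsm.conty.pow 2)).add (hsm.contz.pow 2)).sqrt
  have hm1 : Continuous fun y => ∫ z in (0 : ℝ)..1, √(uy k x y z ^ 2 + uz k x y z ^ 2) := by
    exact marg_continuous (f := fun y z => √(uy k x y z ^ 2 + uz k x y z ^ 2))
      (cont_slice (f := fun x y z => √(uy k x y z ^ 2 + uz k x y z ^ 2)) (S.cq k) x)
  have hm2 : Continuous fun y => ∫ z in (0 : ℝ)..1, |ux k x y z| :=
    marg_continuous (f := fun y z => |ux k x y z|) (cont_slice (f := fun x y z => |ux k x y z|) hsm.contx.abs x)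
  have hm3 : Continuous fun y => ∫ z in (0 : ℝ)..1,
      √(ux k x y z ^ 2 + uy k x y z ^ 2 + uz k x y z ^ 2) :=
    marg_continuous (f := fun y z => √(ux k x y z ^ 2 + uy k x y z ^ 2 + uz k x y z ^ 2))
      (cont_slice (f := fun x y z => √(ux k x y z ^ 2 + uy k x y z ^ 2 + uz k x y z ^ 2)) hcq x)
  have hm4 : Continuous fun y => ∫ z in (0 : ℝ)..1, ux k x y z :=
    marg_continuous (f := fun y z => ux k x y z) (cont_slice (f := fun x y z => ux k x y z) hsm.contx x)
  have e1 : |area (ux k x)| ≤ ∫ y in (0 : ℝ)..1, ∫ z in (0 : ℝ)..1, |ux k x y z| := by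
    refine (intervalIntegral.abs_integral_le_integral_abs zero_le_one).trans ?_
    refine intervalIntegral.integral_mono_on zero_le_one (hm4.abs.intervalIntegrable _ _)
      (hm2.intervalIntegrable _ _) fun y _ => ?_
    exact intervalIntegral.abs_integral_le_integral_abs zero_le_one
  have e2 : a * transCost (uy k) (uz k) x + b * ∫ y in (0 : ℝ)..1, ∫ z in (0 : ℝ)..1, |ux k x y z|
      ≤ ∫ y in (0 : ℝ)..1, ∫ z in (0 : ℝ)..1,
        √(ux k x y z ^ 2 + uy k x y z ^ 2 + uz k x y z ^ 2) := by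
    have h1 : Continuous fun y => a * ∫ z in (0 : ℝ)..1, √(uy k x y z ^ 2 + uz k x y z ^ 2) :=
      continuous_const.mul hm1
    have h2 : Continuous fun y => b * ∫ z in (0 : ℝ)..1, |ux k x y z| :=
      continuous_const.mul hm2
    unfold transCost
    rw [← intervalIntegral.integral_const_mul, ← intervalIntegral.integral_const_mul,
      ← intervalIntegral.integral_add (h1.intervalIntegrable _ _) (h2.intervalIntegrable _ _)]
    refine intervalIntegral.integral_mono_on zero_le_one ((h1.add h2).intervalIntegrable _ _)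
      (hm3.intervalIntegrable _ _) fun y _ => ?_
    have hs1 : Continuous fun z => √(uy k x y z ^ 2 + uz k x y z ^ 2) := by
      have : Continuous fun z : ℝ => ((y, z) : ℝ × ℝ) := by fun_prop
      exact (cont_slice (f := fun x y z => √(uy k x y z ^ 2 + uz k x y z ^ 2)) (S.cq k) x).comp this
    have hs2 : Continuous fun z => |ux k x y z| := by
      have : Continuous fun z : ℝ => ((y, z) : ℝ × ℝ) := by fun_prop
      exact (cont_slice (f := fun x y z => |ux k x y z|) hsm.contx.abs x).comp this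
    have hs3 : Continuous fun z => √(ux k x y z ^ 2 + uy k x y z ^ 2 + uz k x y z ^ 2) := by
      have : Continuous fun z : ℝ => ((y, z) : ℝ × ℝ) := by fun_prop
      exact (cont_slice (f := fun x y z => √(ux k x y z ^ 2 + uy k x y z ^ 2 + uz k x y z ^ 2)) hcq x).comp this
    have h3 : Continuous fun z => a * √(uy k x y z ^ 2 + uz k x y z ^ 2) :=
      continuous_const.mul hs1
    have h4 : Continuous fun z => b * |ux k x y z| := continuous_const.mul hs2
    rw [← intervalIntegral.integral_const_mul, ← intervalIntegral.integral_const_mul,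
      ← intervalIntegral.integral_add (h3.intervalIntegrable _ _) (h4.intervalIntegrable _ _)]
    refine intervalIntegral.integral_mono_on zero_le_one ((h3.add h4).intervalIntegrable _ _)
      (hs3.intervalIntegrable _ _) fun z _ => ?_
    have := cs_le (p := √(uy k x y z ^ 2 + uz k x y z ^ 2)) (q := |ux k x y z|) hab
    rw [Real.sq_sqrt (by positivity), sq_abs] at this
    have e : uy k x y z ^ 2 + uz k x y z ^ 2 + ux k x y z ^ 2 =
        ux k x y z ^ 2 + uy k x y z ^ 2 + uz k x y z ^ 2 := by ring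
    rwa [e] at this
  have := mul_le_mul_of_nonneg_left e1 hb0
  linarith

/-- The one-dimensional energy is at most the energy. -/
theorem energy_sqrt_le (S : Seq3 F u ux uy uz) (k : ℕ) :
    ∫ x in (0 : ℝ)..1, √(area (ux k x) ^ 2 + transCost (uy k) (uz k) x ^ 2) ≤
      energy3 (ux k) (uy k) (uz k) := by
  have hsm := S.smooth k
  have hcq : Continuous fun p : ℝ × ℝ × ℝ =>
      √(ux k p.1 p.2.1 p.2.2 ^ 2 + uy k p.1 p.2.1 p.2.2 ^ 2 + uz k p.1 p.2.1 p.2.2 ^ 2) :=
    (((hsm.contx.pow 2).add (hsm.conty.pow 2)).add (hsm.contz.pow 2)).sqrt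
  have hc2 : Continuous fun x => ∫ y in (0 : ℝ)..1, ∫ z in (0 : ℝ)..1,
      √(ux k x y z ^ 2 + uy k x y z ^ 2 + uz k x y z ^ 2) :=
    cont_area (f := fun x y z => √(ux k x y z ^ 2 + uy k x y z ^ 2 + uz k x y z ^ 2)) hcq
  have hc1 : Continuous fun x => √(area (ux k x) ^ 2 + transCost (uy k) (uz k) x ^ 2) :=
    (((cont_area hsm.contx).pow 2).add ((S.transCost_cont k).pow 2)).sqrt
  refine intervalIntegral.integral_mono_on zero_le_one (hc1.intervalIntegrable _ _)
    (hc2.intervalIntegrable _ _) fun x _ => ?_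
  exact sqrt_of_forms (transCost_nonneg _ _ _) fun a b ha hb hab => S.slice_forms k x ha hb hab

/-- The direction data together with the range. -/
theorem direction_x' (S : Seq3 F u ux uy uz) {Per : ℝ}
    (hPer : ∀ k, energy3 (ux k) (uy k) (uz k) ≤ Per) :
    ∃ a b, GoodRange (fun k x => area (u k x)) (fun x => area (F x)) a b ∧
      a ≤ vol3 F ∧ vol3 F ≤ b ∧ full1 F ≤ a ∧
      PairBound I2 a b (vol3 F) Per ∧
      PairBound Ju a b (vol3 F) (Per + 2 * (full2 F + full3 F)) := by
  obtain ⟨a, b, hr, hQ⟩ := exists_goodRange_Q (g := fun k x => area (u k x))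
    (G := fun x => area (F x)) (fun x => (S.G_mem x).1) (fun x => (S.G_mem x).2)
    S.ae_area_conv S.full1_le
  have hV1 : a ≤ vol3 F := by
    have := integral_mono_unit (f := fun _ => a) (g := fun x => area (F x))
      intervalIntegrable_const S.G_ii (by filter_upwards [hr.ae_mem] with x hx using hx.1)
    simpa [vol3, area] using this
  have hV2 : vol3 F ≤ b := by
    have := integral_mono_unit (g := fun _ => b) (f := fun x => area (F x))
      S.G_ii intervalIntegrable_const (by filter_upwards [hr.ae_mem] with x hx using hx.2)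
    simpa [vol3, area] using this
  refine ⟨a, b, hr, hV1, hV2, ?_, S.pairBound_I2 hPer hr, S.pairBound_Ju hPer hr⟩
  refine le_of_forall_pos_le_add fun ε hε => ?_
  obtain ⟨x, h1, h2⟩ := hQ ε hε
  linarith

end Seq3

end Vale.Agent.Lib.P232
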