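import Vale.Agent.Lib.P232.RigMainA

open MeasureTheory Filter Topology Set
open scoped Real

namespace Vale.Agent.Lib.P232




lemma measurableSet_ballSet (c₁ c₂ c₃ R : ℝ) : MeasurableSet (ballSet c₁ c₂ c₃ R) := by
  have h : Measurable fun p : ℝ × ℝ × ℝ =>
      dZ (p.1 - c₁) ^ 2 + dZ (p.2.1 - c₂) ^ 2 + dZ (p.2.2 - c₃) ^ 2 :=
    ((((dZ_measurable.comp (measurable_fst.sub_const _)).pow_const 2).add
      ((dZ_measurable.comp ((measurable_fst.comp measurable_snd).sub_const _)).pow_const 2))).add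
      ((dZ_measurable.comp ((measurable_snd.comp measurable_snd).sub_const _)).pow_const 2)
  exact measurableSet_lt h measurable_const

lemma measurableSet_tubeX (c₂ c₃ r : ℝ) : MeasurableSet (tubeX c₂ c₃ r) := by
  have h : Measurable fun p : ℝ × ℝ × ℝ => dZ (p.2.1 - c₂) ^ 2 + dZ (p.2.2 - c₃) ^ 2 :=
    ((dZ_measurable.comp ((measurable_fst.comp measurable_snd).sub_const _)).pow_const 2).add
      ((dZ_measurable.comp ((measurable_snd.comp measurable_snd).sub_const _)).pow_const 2)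
  exact measurableSet_lt h measurable_const

lemma measurableSet_tubeY (c₁ c₃ r : ℝ) : MeasurableSet (tubeY c₁ c₃ r) := by
  have h : Measurable fun p : ℝ × ℝ × ℝ => dZ (p.1 - c₁) ^ 2 + dZ (p.2.2 - c₃) ^ 2 :=
    ((dZ_measurable.comp (measurable_fst.sub_const _)).pow_const 2).add
      ((dZ_measurable.comp ((measurable_snd.comp measurable_snd).sub_const _)).pow_const 2)
  exact measurableSet_lt h measurable_const

lemma measurableSet_tubeZ (c₁ c₂ r : ℝ) : MeasurableSet (tubeZ c₁ c₂ r) := by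
  have h : Measurable fun p : ℝ × ℝ × ℝ => dZ (p.1 - c₁) ^ 2 + dZ (p.2.1 - c₂) ^ 2 :=
    ((dZ_measurable.comp (measurable_fst.sub_const _)).pow_const 2).add
      ((dZ_measurable.comp ((measurable_fst.comp measurable_snd).sub_const _)).pow_const 2)
  exact measurableSet_lt h measurable_const

lemma measurableSet_slabX (c w : ℝ) : MeasurableSet (slabX c w) :=
  measurableSet_lt ((dZ_measurable.comp (measurable_fst.sub_const _)).const_mul _) measurable_const

lemma measurableSet_slabY (c w : ℝ) : MeasurableSet (slabY c w) :=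
  measurableSet_lt ((dZ_measurable.comp ((measurable_fst.comp measurable_snd).sub_const _)).const_mul _)
    measurable_const

lemma measurableSet_slabZ (c w : ℝ) : MeasurableSet (slabZ c w) :=
  measurableSet_lt ((dZ_measurable.comp ((measurable_snd.comp measurable_snd).sub_const _)).const_mul _)
    measurable_const

/-- Bound for one integral. -/
lemma int_abs_le_one {f : ℝ → ℝ} (hm : Measurable f) (hb : ∀ t, |f t| ≤ 1) :
    |∫ t in (0 : ℝ)..1, f t| ≤ 1 := by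
  have hi : IntervalIntegrable f volume 0 1 := ii_of_bdd hm hb
  have h1 : |∫ t in (0 : ℝ)..1, f t| ≤ ∫ t in (0 : ℝ)..1, |f t| :=
    intervalIntegral.abs_integral_le_integral_abs zero_le_one
  have h2 : ∫ t in (0 : ℝ)..1, |f t| ≤ ∫ _ in (0 : ℝ)..1, (1 : ℝ) :=
    intervalIntegral.integral_mono_on zero_le_one hi.abs (by simp) fun t _ => hb t
  simp at h2
  linarith

/-- Exchange of the first two variables in a bounded measurable function. -/
lemma vol3_swap12_gen {g : ℝ → ℝ → ℝ → ℝ} (hm : Measurable fun p : ℝ × ℝ × ℝ => g p.1 p.2.1 p.2.2)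
    (hb : ∀ x y z, |g x y z| ≤ 1) : vol3 (fun x y z => g y x z) = vol3 g := by
  unfold vol3
  refine Seq2.square_swap (f := fun x y => ∫ z in (0 : ℝ)..1, g y x z) ?_
  have hm2 : Measurable fun q : ℝ × ℝ => ∫ z in (0 : ℝ)..1, g q.2 q.1 z := by
    have h1 : Measurable fun r : (ℝ × ℝ) × ℝ => g r.1.2 r.1.1 r.2 := by
      have : Measurable fun r : (ℝ × ℝ) × ℝ => ((r.1.2, r.1.1, r.2) : ℝ × ℝ × ℝ) := by fun_prop
      exact hm.comp this
    exact marg_measurable' (f := fun (q : ℝ × ℝ) z => g q.2 q.1 z) h1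
  refine intble_of_bdd (C := 1) hm2 fun x y => ?_
  refine int_abs_le_one ?_ fun t => hb y x t
  have : Measurable fun t : ℝ => ((y, x, t) : ℝ × ℝ × ℝ) := by fun_prop
  exact hm.comp this

/-- Exchange of the first and third variables in a bounded measurable function. -/
lemma vol3_swap13_gen {g : ℝ → ℝ → ℝ → ℝ} (hm : Measurable fun p : ℝ × ℝ × ℝ => g p.1 p.2.1 p.2.2)
    (hb : ∀ x y z, |g x y z| ≤ 1) : vol3 (fun x y z => g z y x) = vol3 g := by
  unfold vol3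
  refine tri13 ?_ ?_ ?_
  · intro x
    refine intble_of_bdd (C := 1) ?_ (fun y z => hb z y x)
    have : Measurable fun q : ℝ × ℝ => ((q.2, q.1, x) : ℝ × ℝ × ℝ) := by fun_prop
    exact hm.comp this
  · have hm2 : Measurable fun q : ℝ × ℝ => ∫ y in (0 : ℝ)..1, g q.2 y q.1 := by
      have h1 : Measurable fun r : (ℝ × ℝ) × ℝ => g r.1.2 r.2 r.1.1 := by
        have : Measurable fun r : (ℝ × ℝ) × ℝ => ((r.1.2, r.2, r.1.1) : ℝ × ℝ × ℝ) := by fun_prop
        exact hm.comp this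
      exact marg_measurable' (f := fun (q : ℝ × ℝ) y => g q.2 y q.1) h1
    refine intble_of_bdd (C := 1) hm2 fun x z => ?_
    refine int_abs_le_one ?_ fun t => hb z t x
    have : Measurable fun t : ℝ => ((z, t, x) : ℝ × ℝ × ℝ) := by fun_prop
    exact hm.comp this
  · intro z
    refine intble_of_bdd (C := 1) ?_ (fun x y => hb z y x)
    have : Measurable fun q : ℝ × ℝ => ((z, q.2, q.1) : ℝ × ℝ × ℝ) := by fun_prop
    exact hm.comp this

lemma indF_abs (S : Set (ℝ × ℝ × ℝ)) (x y z : ℝ) : |indF S x y z| ≤ 1 := by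
  unfold indF
  by_cases h : (x, y, z) ∈ S <;> simp [h]

lemma indF_meas {S : Set (ℝ × ℝ × ℝ)} (hS : MeasurableSet S) :
    Measurable fun p : ℝ × ℝ × ℝ => indF S p.1 p.2.1 p.2.2 :=
  measurable_const.indicator hS

lemma dist3_abs {f g : ℝ → ℝ → ℝ → ℝ} (hf : ∀ x y z, f x y z = 0 ∨ f x y z = 1)
    (hg : ∀ x y z, g x y z = 0 ∨ g x y z = 1) (x y z : ℝ) : |(|f x y z - g x y z|)| ≤ 1 := by
  rcases hf x y z with h | h <;> rcases hg x y z with h' | h' <;> simp [h, h']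

lemma indF_bin (S : Set (ℝ × ℝ × ℝ)) (x y z : ℝ) : indF S x y z = 0 ∨ indF S x y z = 1 := by
  unfold indF
  by_cases h : (x, y, z) ∈ S <;> simp [h]

/-- Invariance of the distance under exchanges. -/
lemma dist3_swap12 {f g : ℝ → ℝ → ℝ → ℝ} (hf : Measurable fun p : ℝ × ℝ × ℝ => f p.1 p.2.1 p.2.2)
    (hg : Measurable fun p : ℝ × ℝ × ℝ => g p.1 p.2.1 p.2.2)
    (hf' : ∀ x y z, f x y z = 0 ∨ f x y z = 1) (hg' : ∀ x y z, g x y z = 0 ∨ g x y z = 1) :
    dist3 (fun x y z => f y x z) (fun x y z => g y x z) = dist3 f g :=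
  vol3_swap12_gen (g := fun x y z => |f x y z - g x y z|) (hf.sub hg).abs (dist3_abs hf' hg')

lemma dist3_swap13 {f g : ℝ → ℝ → ℝ → ℝ} (hf : Measurable fun p : ℝ × ℝ × ℝ => f p.1 p.2.1 p.2.2)
    (hg : Measurable fun p : ℝ × ℝ × ℝ => g p.1 p.2.1 p.2.2)
    (hf' : ∀ x y z, f x y z = 0 ∨ f x y z = 1) (hg' : ∀ x y z, g x y z = 0 ∨ g x y z = 1) :
    dist3 (fun x y z => f z y x) (fun x y z => g z y x) = dist3 f g :=
  vol3_swap13_gen (g := fun x y z => |f x y z - g x y z|) (hf.sub hg).abs (dist3_abs hf' hg')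

lemma indF_congr {S S' : Set (ℝ × ℝ × ℝ)} {x y z x' y' z' : ℝ}
    (h : (x, y, z) ∈ S ↔ (x', y', z') ∈ S') : indF S x y z = indF S' x' y' z' := by
  unfold indF
  by_cases h1 : (x, y, z) ∈ S
  · rw [indicator_of_mem h1, indicator_of_mem (h.1 h1)]
  · rw [indicator_of_notMem h1, indicator_of_notMem (fun h2 => h1 (h.2 h2))]

/-- The canonical regions of volume `V`, at the level of indicator functions. -/
def Canon (F : ℝ → ℝ → ℝ → ℝ) (V : ℝ) : Prop :=
  (∃ c₁ c₂ c₃ R, 0 < R ∧ 4 / 3 * π * R ^ 3 = V ∧ dist3 F (indF (ballSet c₁ c₂ c₃ R)) = 0) ∨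
  (∃ c₂ c₃ r, 0 < r ∧ π * r ^ 2 = V ∧ dist3 F (indF (tubeX c₂ c₃ r)) = 0) ∨
  (∃ c₁ c₃ r, 0 < r ∧ π * r ^ 2 = V ∧ dist3 F (indF (tubeY c₁ c₃ r)) = 0) ∨
  (∃ c₁ c₂ r, 0 < r ∧ π * r ^ 2 = V ∧ dist3 F (indF (tubeZ c₁ c₂ r)) = 0) ∨
  (∃ c, dist3 F (indF (slabX c V)) = 0) ∨
  (∃ c, dist3 F (indF (slabY c V)) = 0) ∨
  (∃ c, dist3 F (indF (slabZ c V)) = 0)

/-- Canonical regions under the exchange of the first two variables. -/
lemma Canon.of_swap12 {F : ℝ → ℝ → ℝ → ℝ} {V : ℝ}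
    (hF : Measurable fun p : ℝ × ℝ × ℝ => F p.1 p.2.1 p.2.2)
    (hb : ∀ x y z, F x y z = 0 ∨ F x y z = 1) (h : Canon (fun x y z => F y x z) V) : Canon F V := by
  have key : ∀ {S S' : Set (ℝ × ℝ × ℝ)}, MeasurableSet S' →
      (∀ x y z, indF S x y z = indF S' y x z) →
      dist3 (fun x y z => F y x z) (indF S) = 0 → dist3 F (indF S') = 0 := by
    intro S S' hS' he hd
    have e : indF S = fun x y z => indF S' y x z := by
      funext x y z
      exact he x y z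
    rw [e, dist3_swap12 hF (indF_meas hS') hb (indF_bin S')] at hd
    exact hd
  rcases h with ⟨c₁, c₂, c₃, R, h1, h2, h3⟩ | ⟨c₂, c₃, r, h1, h2, h3⟩ | ⟨c₁, c₃, r, h1, h2, h3⟩ |
    ⟨c₁, c₂, r, h1, h2, h3⟩ | ⟨c, h3⟩ | ⟨c, h3⟩ | ⟨c, h3⟩
  · refine Or.inl ⟨c₂, c₁, c₃, R, h1, h2, key (measurableSet_ballSet _ _ _ _) ?_ h3⟩
    intro x y z
    refine indF_congr (Iff.of_eq ?_)
    show ((_ : ℝ) < _) = ((_ : ℝ) < _)
    congr 1
    ring
  · refine Or.inr (Or.inr (Or.inl ⟨c₂, c₃, r, h1, h2, key (measurableSet_tubeY _ _ _) ?_ h3⟩))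
    intro x y z
    exact indF_congr Iff.rfl
  · refine Or.inr (Or.inl ⟨c₁, c₃, r, h1, h2, key (measurableSet_tubeX _ _ _) ?_ h3⟩)
    intro x y z
    exact indF_congr Iff.rfl
  · refine Or.inr (Or.inr (Or.inr (Or.inl ⟨c₂, c₁, r, h1, h2, key (measurableSet_tubeZ _ _ _) ?_ h3⟩)))
    intro x y z
    refine indF_congr (Iff.of_eq ?_)
    show ((_ : ℝ) < _) = ((_ : ℝ) < _)
    congr 1
    ring
  · refine Or.inr (Or.inr (Or.inr (Or.inr (Or.inr (Or.inl ⟨c, key (measurableSet_slabY _ _) ?_ h3⟩)))))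
    intro x y z
    exact indF_congr Iff.rfl
  · refine Or.inr (Or.inr (Or.inr (Or.inr (Or.inl ⟨c, key (measurableSet_slabX _ _) ?_ h3⟩))))
    intro x y z
    exact indF_congr Iff.rfl
  · refine Or.inr (Or.inr (Or.inr (Or.inr (Or.inr (Or.inr ⟨c, key (measurableSet_slabZ _ _) ?_ h3⟩)))))
    intro x y z
    exact indF_congr Iff.rfl

/-- Canonical regions under the exchange of the first and third variables. -/
lemma Canon.of_swap13 {F : ℝ → ℝ → ℝ → ℝ} {V : ℝ}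
    (hF : Measurable fun p : ℝ × ℝ × ℝ => F p.1 p.2.1 p.2.2)
    (hb : ∀ x y z, F x y z = 0 ∨ F x y z = 1) (h : Canon (fun x y z => F z y x) V) : Canon F V := by
  have key : ∀ {S S' : Set (ℝ × ℝ × ℝ)}, MeasurableSet S' →
      (∀ x y z, indF S x y z = indF S' z y x) →
      dist3 (fun x y z => F z y x) (indF S) = 0 → dist3 F (indF S') = 0 := by
    intro S S' hS' he hd
    have e : indF S = fun x y z => indF S' z y x := by
      funext x y z
      exact he x y z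
    rw [e, dist3_swap13 hF (indF_meas hS') hb (indF_bin S')] at hd
    exact hd
  rcases h with ⟨c₁, c₂, c₃, R, h1, h2, h3⟩ | ⟨c₂, c₃, r, h1, h2, h3⟩ | ⟨c₁, c₃, r, h1, h2, h3⟩ |
    ⟨c₁, c₂, r, h1, h2, h3⟩ | ⟨c, h3⟩ | ⟨c, h3⟩ | ⟨c, h3⟩
  · refine Or.inl ⟨c₃, c₂, c₁, R, h1, h2, key (measurableSet_ballSet _ _ _ _) ?_ h3⟩
    intro x y z
    refine indF_congr (Iff.of_eq ?_)
    show ((_ : ℝ) < _) = ((_ : ℝ) < _)
    congr 1
    ring
  · refine Or.inr (Or.inr (Or.inr (Or.inl ⟨c₃, c₂, r, h1, h2, key (measurableSet_tubeZ _ _ _) ?_ h3⟩)))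
    intro x y z
    refine indF_congr (Iff.of_eq ?_)
    show ((_ : ℝ) < _) = ((_ : ℝ) < _)
    congr 1
    ring
  · refine Or.inr (Or.inr (Or.inl ⟨c₃, c₁, r, h1, h2, key (measurableSet_tubeY _ _ _) ?_ h3⟩))
    intro x y z
    refine indF_congr (Iff.of_eq ?_)
    show ((_ : ℝ) < _) = ((_ : ℝ) < _)
    congr 1
    ring
  · refine Or.inr (Or.inl ⟨c₂, c₁, r, h1, h2, key (measurableSet_tubeX _ _ _) ?_ h3⟩)
    intro x y z
    refine indF_congr (Iff.of_eq ?_)
    show ((_ : ℝ) < _) = ((_ : ℝ) < _)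
    congr 1
    ring
  · refine Or.inr (Or.inr (Or.inr (Or.inr (Or.inr (Or.inr ⟨c, key (measurableSet_slabZ _ _) ?_ h3⟩)))))
    intro x y z
    exact indF_congr Iff.rfl
  · refine Or.inr (Or.inr (Or.inr (Or.inr (Or.inr (Or.inl ⟨c, key (measurableSet_slabY _ _) ?_ h3⟩)))))
    intro x y z
    exact indF_congr Iff.rfl
  · refine Or.inr (Or.inr (Or.inr (Or.inr (Or.inl ⟨c, key (measurableSet_slabX _ _) ?_ h3⟩))))
    intro x y z
    exact indF_congr Iff.rfl

end Vale.Agent.Lib.P232
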