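import Vale.Agent.Lib.P232.RigMainB

open MeasureTheory Filter Topology Set
open scoped Real

namespace Vale.Agent.Lib.P232

open Stein


/-- Iterated integrals as integrals over a product. -/
lemma vol3_eq_integral {f : ℝ → ℝ → ℝ → ℝ} (hm : Measurable fun p : ℝ × ℝ × ℝ => f p.1 p.2.1 p.2.2)
    (hb : ∀ x y z, |f x y z| ≤ 1) :
    vol3 f = ∫ p, f p.1 p.2.1 p.2.2 ∂(mu1.prod (mu1.prod mu1)) := by
  have hint : Integrable (fun p : ℝ × ℝ × ℝ => f p.1 p.2.1 p.2.2) (mu1.prod (mu1.prod mu1)) :=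
    Integrable.of_bound (C := 1) hm.aestronglyMeasurable
      (Eventually.of_forall fun p => hb _ _ _)
  rw [integral_prod _ hint]
  unfold vol3
  simp only [intervalIntegral.integral_of_le (zero_le_one : (0 : ℝ) ≤ 1)]
  refine integral_congr_ae (Eventually.of_forall fun x => ?_)
  have hs : Integrable (fun q : ℝ × ℝ => f x q.1 q.2) (mu1.prod mu1) := by
    have hm2 : Measurable fun q : ℝ × ℝ => f x q.1 q.2 :=
      hm.comp (measurable_const.prodMk measurable_id)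
    exact Integrable.of_bound (C := 1) hm2.aestronglyMeasurable
      (Eventually.of_forall fun p => hb _ _ _)
  exact (integral_prod _ hs).symm

/-- Vanishing of a nonnegative iterated integral. -/
lemma vol3_eq_zero_iff {f : ℝ → ℝ → ℝ → ℝ} (hm : Measurable fun p : ℝ × ℝ × ℝ => f p.1 p.2.1 p.2.2)
    (hb : ∀ x y z, |f x y z| ≤ 1) (h0 : ∀ x y z, 0 ≤ f x y z) :
    vol3 f = 0 ↔ ∀ᵐ p ∂(mu1.prod (mu1.prod mu1)), f p.1 p.2.1 p.2.2 = 0 := by
  rw [vol3_eq_integral hm hb]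
  have hint : Integrable (fun p : ℝ × ℝ × ℝ => f p.1 p.2.1 p.2.2) (mu1.prod (mu1.prod mu1)) :=
    Integrable.of_bound (C := 1) hm.aestronglyMeasurable
      (Eventually.of_forall fun p => hb _ _ _)
  rw [integral_eq_zero_iff_of_nonneg (fun p => h0 _ _ _) hint]
  rfl

/-- Vanishing of the distance. -/
lemma dist3_eq_zero_iff {f g : ℝ → ℝ → ℝ → ℝ} (hf : Measurable fun p : ℝ × ℝ × ℝ => f p.1 p.2.1 p.2.2)
    (hg : Measurable fun p : ℝ × ℝ × ℝ => g p.1 p.2.1 p.2.2)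
    (hf' : ∀ x y z, f x y z = 0 ∨ f x y z = 1) (hg' : ∀ x y z, g x y z = 0 ∨ g x y z = 1) :
    dist3 f g = 0 ↔ ∀ᵐ p ∂(mu1.prod (mu1.prod mu1)), f p.1 p.2.1 p.2.2 = g p.1 p.2.1 p.2.2 := by
  have h := vol3_eq_zero_iff (f := fun x y z => |f x y z - g x y z|) (hf.sub hg).abs
    (dist3_abs hf' hg') (fun x y z => abs_nonneg _)
  unfold dist3
  unfold vol3 at h
  rw [h]
  constructor
  · intro h1
    filter_upwards [h1] with p hp
    exact sub_eq_zero.1 (abs_eq_zero.1 hp)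
  · intro h1
    filter_upwards [h1] with p hp
    exact abs_eq_zero.2 (sub_eq_zero.2 hp)

/-- The same on the square. -/
lemma dist2_eq_zero_iff {f g : ℝ → ℝ → ℝ} (hf : Measurable fun p : ℝ × ℝ => f p.1 p.2)
    (hg : Measurable fun p : ℝ × ℝ => g p.1 p.2)
    (hf' : ∀ x y, f x y = 0 ∨ f x y = 1) (hg' : ∀ x y, g x y = 0 ∨ g x y = 1) :
    dist2 f g = 0 ↔ ∀ᵐ p ∂(mu1.prod mu1), f p.1 p.2 = g p.1 p.2 := by
  have hint : Integrable (fun p : ℝ × ℝ => |f p.1 p.2 - g p.1 p.2|) (mu1.prod mu1) := by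
    refine Integrable.of_bound (C := 1) (hf.sub hg).abs.aestronglyMeasurable
      (Eventually.of_forall fun p => ?_)
    rcases hf' p.1 p.2 with h | h <;> rcases hg' p.1 p.2 with h' | h' <;> simp [h, h']
  have e : dist2 f g = ∫ p, |f p.1 p.2 - g p.1 p.2| ∂(mu1.prod mu1) := by
    rw [integral_prod _ hint]
    unfold dist2
    simp only [intervalIntegral.integral_of_le (zero_le_one : (0 : ℝ) ≤ 1)]
  rw [e, integral_eq_zero_iff_of_nonneg (fun p => abs_nonneg _) hint]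
  constructor
  · intro h1
    filter_upwards [h1] with p hp
    exact sub_eq_zero.1 (abs_eq_zero.1 hp)
  · intro h1
    filter_upwards [h1] with p hp
    exact abs_eq_zero.2 (sub_eq_zero.2 hp)

lemma discFn_meas (c₁ c₂ r : ℝ) : Measurable fun p : ℝ × ℝ => discFn c₁ c₂ r p.1 p.2 := by
  unfold discFn
  refine Measurable.ite ?_ measurable_const measurable_const
  have h : Measurable fun p : ℝ × ℝ => dZ (p.1 - c₁) ^ 2 + dZ (p.2 - c₂) ^ 2 :=
    ((dZ_measurable.comp (measurable_fst.sub_const _)).pow_const 2).add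
      ((dZ_measurable.comp (measurable_snd.sub_const _)).pow_const 2)
  exact measurableSet_lt h measurable_const

lemma discFn_bin (c₁ c₂ r x y : ℝ) : discFn c₁ c₂ r x y = 0 ∨ discFn c₁ c₂ r x y = 1 := by
  unfold discFn
  split_ifs <;> simp

lemma arcFn_meas (c w : ℝ) : Measurable (arcFn c w) := by
  unfold arcFn
  refine Measurable.ite ?_ measurable_const measurable_const
  exact measurableSet_lt ((dZ_measurable.comp (measurable_id.sub_const _)).const_mul _)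
    measurable_const

lemma arcFn_bin' (c w t : ℝ) : arcFn c w t = 0 ∨ arcFn c w t = 1 := by
  unfold arcFn
  split_ifs <;> simp

lemma indF_if {S : Set (ℝ × ℝ × ℝ)} {x y z : ℝ} {P : Prop} [Decidable P]
    (h : (x, y, z) ∈ S ↔ P) : indF S x y z = if P then 1 else 0 := by
  unfold indF
  by_cases h1 : P
  · rw [if_pos h1, indicator_of_mem (h.2 h1)]
  · rw [if_neg h1, indicator_of_notMem (fun h2 => h1 (h.1 h2))]

namespace Seq3

variable {F : ℝ → ℝ → ℝ → ℝ} {u ux uy uz : ℕ → ℝ → ℝ → ℝ → ℝ}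

/-- From equality with a slice and the identification of the slice. -/
lemma dist3_of_slice (S : Seq3 F u ux uy uz) {x₀ : ℝ} {B : ℝ → ℝ → ℝ} {T : Set (ℝ × ℝ × ℝ)}
    (hT : MeasurableSet T) (hTB : ∀ x y z, indF T x y z = B y z)
    (hd : (∫ x in (0 : ℝ)..1, ∫ y in (0 : ℝ)..1, ∫ z in (0 : ℝ)..1, |F x y z - F x₀ y z|) = 0)
    (hB : Measurable fun q : ℝ × ℝ => B q.1 q.2) (hB' : ∀ y z, B y z = 0 ∨ B y z = 1)
    (h2 : dist2 (F x₀) B = 0) : dist3 F (indF T) = 0 := by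
  have hF0 : Measurable fun q : ℝ × ℝ => F x₀ q.1 q.2 := S.slice_meas x₀
  have h3 := (dist2_eq_zero_iff hF0 hB (S.bin x₀) hB').1 h2
  have hB3 : Measurable fun p : ℝ × ℝ × ℝ => F x₀ p.2.1 p.2.2 := hF0.comp measurable_snd
  have h4 := (dist3_eq_zero_iff (g := fun _ y z => F x₀ y z) S.meas hB3 S.bin
    (fun _ y z => S.bin x₀ y z)).1 hd
  refine (dist3_eq_zero_iff S.meas (indF_meas hT) S.bin (indF_bin T)).2 ?_
  have h5 : ∀ᵐ p ∂(mu1.prod (mu1.prod mu1)), F x₀ p.2.1 p.2.2 = B p.2.1 p.2.2 :=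
    Measure.quasiMeasurePreserving_snd.ae h3
  filter_upwards [h4, h5] with p h6 h7
  rw [hTB, h6, h7]

/-- The cylinder path. -/
theorem cyl_path (S : Seq3 F u ux uy uz) (hperF : Per3 F)
    (hper : ∀ k, Per3 (u k) ∧ Per3 (ux k) ∧ Per3 (uy k) ∧ Per3 (uz k))
    {Per V : ℝ} {e : ℕ → ℝ} (he : Tendsto e atTop (𝓝 0))
    (hPer : ∀ k, energy3 (ux k) (uy k) (uz k) ≤ Per + e k)
    (hs : ∀ᵐ x ∂mu1, area (F x) = V) (hV0 : 0 < V) (hV2 : V ≤ 1 / 2) (hP : Per ≤ I2 V) :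
    Canon F V := by
  have hs' : ∀ᵐ x ∂mu1, Per ≤ I2 (area (F x)) := by
    filter_upwards [hs] with x hx
    rw [hx]
    exact hP
  obtain ⟨x₀, φ, e', hφ, he', S2, hE, harea, hd⟩ := S.cyl_reduce he hPer hs' hs
  have hF2 : Per2 (F x₀) := ⟨fun y z => hperF.pery x₀ y z, fun y z => hperF.perz x₀ y z⟩
  have hv2 : ∀ k, Per2 (u (φ k) x₀) ∧ Per2 (uy (φ k) x₀) ∧ Per2 (uz (φ k) x₀) := fun k =>
    ⟨⟨fun y z => (hper _).1.pery x₀ y z, fun y z => (hper _).1.perz x₀ y z⟩,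
     ⟨fun y z => (hper _).2.2.1.pery x₀ y z, fun y z => (hper _).2.2.1.perz x₀ y z⟩,
     ⟨fun y z => (hper _).2.2.2.pery x₀ y z, fun y z => (hper _).2.2.2.perz x₀ y z⟩⟩
  rcases S2.classify hF2 hv2 he' hE (by rw [harea]; exact hV0) (by rw [harea]; exact hV2)
    (by rw [harea]; exact hP) with ⟨c₁, c₂, r, h1, h2, h3⟩ | ⟨c, h3⟩ | ⟨c, h3⟩
  · rw [harea] at h2
    refine Or.inr (Or.inl ⟨c₁, c₂, r, h1, h2, ?_⟩)
    refine S.dist3_of_slice (measurableSet_tubeX _ _ _) (B := discFn c₁ c₂ r) ?_ hd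
      (discFn_meas _ _ _) (discFn_bin _ _ _) h3
    intro x y z
    exact indF_if Iff.rfl
  · rw [harea] at h3
    refine Or.inr (Or.inr (Or.inr (Or.inr (Or.inr (Or.inl ⟨c, ?_⟩)))))
    refine S.dist3_of_slice (measurableSet_slabY _ _) (B := fun y _ => arcFn c V y) ?_ hd
      ((arcFn_meas _ _).comp measurable_fst) (fun y _ => arcFn_bin' _ _ _) h3
    intro x y z
    exact indF_if Iff.rfl
  · rw [harea] at h3
    refine Or.inr (Or.inr (Or.inr (Or.inr (Or.inr (Or.inr ⟨c, ?_⟩)))))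
    refine S.dist3_of_slice (measurableSet_slabZ _ _) (B := fun _ z => arcFn c V z) ?_ hd
      ((arcFn_meas _ _).comp measurable_snd) (fun _ z => arcFn_bin' _ _ _) h3
    intro x y z
    exact indF_if Iff.rfl

end Seq3

end Vale.Agent.Lib.P232
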