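import Vale.Agent.Lib.P232.RigMainC

open MeasureTheory Filter Topology Set
open scoped Real

namespace Vale.Agent.Lib.P232

open Stein

/-- The chord value at a tangency point is the ball value. -/
lemma chord_tangent_eq {q V : ℝ} (hq : 0 < q) (hV : 0 < V) (h : q ^ 3 = 3 * √π / 4 * V) :
    chordVal 0 q V = ballVal V := by
  obtain ⟨c, x, hc, hx, hc3, hx3, hb⟩ := ball_data hV
  have hpi := Real.pi_pos
  have hr : 0 < √π := Real.sqrt_pos.2 hpi
  have hr2 : √π ^ 2 = π := Real.sq_sqrt hpi.le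
  set r := √π with hrdef
  have hcq : q * c = 3 * r * x := by
    have h1 : (q * c) ^ 3 = (3 * r * x) ^ 3 := by
      have e : (3 * r * x) ^ 3 = 27 * r ^ 2 * r * x ^ 3 := by ring
      rw [mul_pow, h, hc3, e, hr2, hx3]
      ring
    exact (pow_left_inj₀ (by positivity) (by positivity) (by norm_num)).1 h1
  have e1 : 2 * r / q * V = 2 / 3 * c * x ^ 2 := by
    rw [← hx3, div_mul_eq_mul_div, div_eq_iff hq.ne']
    linear_combination (-(2 / 3) * x ^ 2) * hcq
  have e2 : q ^ 2 = c / 4 * x ^ 2 := by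
    have h3 : (q * c) ^ 2 = (3 * r * x) ^ 2 := by rw [hcq]
    have h4 : c ^ 2 * q ^ 2 = c ^ 2 * (c / 4 * x ^ 2) := by
      have e5 : (3 * r * x) ^ 2 = 9 * r ^ 2 * x ^ 2 := by ring
      have hπ : π = c ^ 3 / 36 := by rw [hc3]; ring
      rw [e5, hr2, hπ] at h3
      linear_combination h3
    exact mul_left_cancel₀ (by positivity) h4
  unfold chordVal
  rw [hb]
  simp only [zero_add, mul_zero, zero_mul, zero_div, add_zero, sub_zero]
  rw [e1, e2]
  ring

lemma le_I2_of {Per V : ℝ} (h1 : Per ≤ tubeVal V) (h2 : Per ≤ 2) (hV : V ≤ 1 / 2) : Per ≤ I2 V := by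
  unfold I2
  refine le_min h1 (le_min h2 (h2.trans ?_))
  have hpi := Real.pi_gt_three
  have : 1 ≤ √(π * (1 - V)) := Real.one_le_sqrt.2 (by nlinarith)
  linarith

lemma Per3.swap12 {f : ℝ → ℝ → ℝ → ℝ} (h : Per3 f) : Per3 (fun x y z => f y x z) :=
  ⟨fun x y z => h.pery y x z, fun x y z => h.perx y x z, fun x y z => h.perz y x z⟩

lemma Per3.swap13 {f : ℝ → ℝ → ℝ → ℝ} (h : Per3 f) : Per3 (fun x y z => f z y x) :=
  ⟨fun x y z => h.perz z y x, fun x y z => h.pery z y x, fun x y z => h.perx z y x⟩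

/-- An elementary optimization. -/
lemma const_pair_bound {c : ℝ} (hc : 0 ≤ c)
    (h : ∀ A B : ℝ, 0 ≤ A → 0 ≤ B → A ^ 2 + B ^ 2 ≤ 1 → A * c + 2 * B ≤ 2) : c = 0 := by
  set w := √(c ^ 2 + 4) with hw
  have hw2 : w ^ 2 = c ^ 2 + 4 := Real.sq_sqrt (by positivity)
  have hw0 : 0 < w := Real.sqrt_pos.2 (by positivity)
  have h1 := h (c / w) (2 / w) (by positivity) (by positivity) (by
    rw [div_pow, div_pow, ← add_div, div_le_one (by positivity)]
    nlinarith)
  have h2 : c / w * c + 2 * (2 / w) = w := by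
    field_simp
    nlinarith
  rw [h2] at h1
  have h3 : c ^ 2 ≤ 0 := by nlinarith
  nlinarith [sq_nonneg c]

namespace Seq3

variable {F : ℝ → ℝ → ℝ → ℝ} {u ux uy uz : ℕ → ℝ → ℝ → ℝ → ℝ}

lemma full1_nonneg' (F : ℝ → ℝ → ℝ → ℝ) : 0 ≤ full1 F :=
  intervalIntegral.integral_nonneg zero_le_one fun _ _ =>
    intervalIntegral.integral_nonneg zero_le_one fun _ _ => fullInd_nonneg _

lemma full2_nonneg' (F : ℝ → ℝ → ℝ → ℝ) : 0 ≤ full2 F :=
  intervalIntegral.integral_nonneg zero_le_one fun _ _ =>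
    intervalIntegral.integral_nonneg zero_le_one fun _ _ => fullInd_nonneg _

lemma full3_nonneg' (F : ℝ → ℝ → ℝ → ℝ) : 0 ≤ full3 F :=
  intervalIntegral.integral_nonneg zero_le_one fun _ _ =>
    intervalIntegral.integral_nonneg zero_le_one fun _ _ => fullInd_nonneg _

/-- The slab from binary marginals. -/
theorem slab_of_binary (S : Seq3 F u ux uy uz) {e : ℕ → ℝ} (he : Tendsto e atTop (𝓝 0))
    (hPer : ∀ k, energy3 (ux k) (uy k) (uz k) ≤ 2 + e k)
    (hb : ∀ᵐ x ∂mu1, area (F x) = 0 ∨ area (F x) = 1) (hV0 : 0 < vol3 F) (hV1 : vol3 F < 1) :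
    ∃ c, dist3 F (indF (slabX c (vol3 F))) = 0 := by
  have hle : (0 : ℝ) ≤ 1 := zero_le_one
  set f : ℝ → ℝ := fun t => if area (F t) = 1 then 1 else 0 with hf
  have hfm : Measurable f :=
    Measurable.ite (S.G_meas (measurableSet_singleton 1)) measurable_const measurable_const
  have h01 : ∀ t, f t = 0 ∨ f t = 1 := by
    intro t
    simp only [hf]
    split_ifs <;> simp
  have hae : ∀ᵐ t ∂mu1, f t = area (F t) := by
    filter_upwards [hb] with t ht
    simp only [hf]
    rcases ht with h | h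
    · rw [h]
      simp
    · rw [h]
      simp
  have hint : ∫ t in (0 : ℝ)..1, f t = vol3 F := by
    rw [intervalIntegral.integral_of_le hle, integral_congr_ae hae,
      ← intervalIntegral.integral_of_le hle]
    rfl
  have hconv : ∀ᵐ t ∂mu1, Tendsto (fun k => area (u k t)) atTop (𝓝 (f t)) := by
    filter_upwards [ae_restrict_of_ae S.ae_area_conv, hae] with t h1 h2
    rw [h2]
    exact h1
  have hTV : ∀ k, ∫ t in (0 : ℝ)..1, |area (ux k t)| ≤ 2 + e k := by
    intro k
    refine le_trans ?_ (hPer k)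
    have hsm := S.smooth k
    have hcq : Continuous fun p : ℝ × ℝ × ℝ =>
        √(ux k p.1 p.2.1 p.2.2 ^ 2 + uy k p.1 p.2.1 p.2.2 ^ 2 + uz k p.1 p.2.1 p.2.2 ^ 2) :=
      (((hsm.contx.pow 2).add (hsm.conty.pow 2)).add (hsm.contz.pow 2)).sqrt
    have hc2 : Continuous fun x => ∫ y in (0 : ℝ)..1, ∫ z in (0 : ℝ)..1,
        √(ux k x y z ^ 2 + uy k x y z ^ 2 + uz k x y z ^ 2) :=
      cont_area (f := fun x y z => √(ux k x y z ^ 2 + uy k x y z ^ 2 + uz k x y z ^ 2)) hcq
    refine intervalIntegral.integral_mono_on hle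
      ((cont_area hsm.contx).abs.intervalIntegrable _ _) (hc2.intervalIntegrable _ _) fun x _ => ?_
    have := S.slice_forms k x (a := 0) (b := 1) le_rfl zero_le_one (by norm_num)
    simpa using this
  obtain ⟨c, hc⟩ := arc_lemma (v := fun k t => area (u k t)) (v' := fun k t => area (ux k t))
    (fun k t => area_hasDerivAt (S.smooth k) t) (fun k => cont_area (S.smooth k).contx)
    (fun k => area_per (S.smooth k)) hfm h01 hconv he hTV (by rw [hint]; exact hV0)
    (by rw [hint]; exact hV1)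
  rw [hint] at hc
  refine ⟨c, ?_⟩
  unfold dist3
  rw [intervalIntegral.integral_of_le hle]
  refine (integral_eq_zero_of_ae ?_)
  filter_upwards [hc, hae] with x h1 h2
  have hi1 : ∀ y, IntervalIntegrable (fun z => F x y z) volume 0 1 := fun y => S.line_ii x y
  have hi2 : IntervalIntegrable (fun y => marg (F x) y) volume 0 1 := by
    have hm : Measurable fun y => marg (F x) y :=
      S.meas2.comp (measurable_const.prodMk measurable_id)
    exact ii_of_bdd hm (C := 1) fun y => S.marg_abs x y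
  rcases arcFn_bin c (vol3 F) x with h3 | h3
  · -- the empty slice
    have hT : ∀ y z, indF (slabX c (vol3 F)) x y z = 0 := by
      intro y z
      have : indF (slabX c (vol3 F)) x y z = arcFn c (vol3 F) x := indF_if Iff.rfl
      rw [this, h3]
    have e1 : ∀ y z, |F x y z - indF (slabX c (vol3 F)) x y z| = F x y z := by
      intro y z
      rw [hT, sub_zero]
      rcases S.bin x y z with h | h <;> simp [h]
    simp only [e1]
    have : area (F x) = 0 := by rw [← h2, h1, h3]
    simpa [area] using this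
  · have hT : ∀ y z, indF (slabX c (vol3 F)) x y z = 1 := by
      intro y z
      have : indF (slabX c (vol3 F)) x y z = arcFn c (vol3 F) x := indF_if Iff.rfl
      rw [this, h3]
    have e1 : ∀ y z, |F x y z - indF (slabX c (vol3 F)) x y z| = 1 - F x y z := by
      intro y z
      rw [hT]
      rcases S.bin x y z with h | h <;> simp [h]
    simp only [e1]
    have e2 : ∀ y, ∫ z in (0 : ℝ)..1, (1 - F x y z) = 1 - marg (F x) y := fun y => by
      rw [intervalIntegral.integral_sub intervalIntegrable_const (hi1 y)]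
      simp [marg]
    simp only [e2]
    rw [intervalIntegral.integral_sub intervalIntegrable_const hi2]
    have : area (F x) = 1 := by rw [← h2, h1, h3]
    have e3 : ∫ y in (0 : ℝ)..1, marg (F x) y = 1 := this
    rw [e3]
    simp

/-- Binary marginals from the extreme range. -/
theorem binary_of_range (S : Seq3 F u ux uy uz)
    (hA : ∀ A B : ℝ, 0 ≤ A → 0 ≤ B → A ^ 2 + B ^ 2 ≤ 1 →
      A * (∫ x in (0 : ℝ)..1, I2 (area (F x))) + 2 * B ≤ 2) :
    ∀ᵐ x ∂mu1, area (F x) = 0 ∨ area (F x) = 1 := by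
  have hle : (0 : ℝ) ≤ 1 := zero_le_one
  have hc0 : 0 ≤ ∫ x in (0 : ℝ)..1, I2 (area (F x)) :=
    intervalIntegral.integral_nonneg hle fun _ _ => I2_nonneg _
  have h0 := const_pair_bound hc0 hA
  have hYm : Measurable fun x => I2 (area (F x)) := I2_continuous.measurable.comp S.G_meas
  have hint : Integrable (fun x => I2 (area (F x))) mu1 :=
    Integrable.of_bound hYm.aestronglyMeasurable 2 (ae_of_all _ fun x => by
      rw [Real.norm_eq_abs, abs_of_nonneg (I2_nonneg _)]
      exact I2_le_two _)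
  rw [intervalIntegral.integral_of_le hle, integral_eq_zero_iff_of_nonneg
    (fun x => I2_nonneg _) hint] at h0
  filter_upwards [h0] with x hx
  exact I2_eq_zero (S.G_mem x).1 (S.G_mem x).2 hx

/-- The pair with constant components. -/
lemma const_calib {A B : ℝ} (hA : 0 ≤ A) (hB : 0 ≤ B) (h : A ^ 2 + B ^ 2 ≤ 1) :
    CalibPair (fun _ => A) (fun _ => B) :=
  { contA := continuous_const
    contB := continuous_const
    nonnegA := fun _ => hA
    nonnegB := fun _ => hB
    le_one := fun _ => h }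

/-- Binary marginals at the corner of the parameter square. -/
theorem binary_of_corner (S : Seq3 F u ux uy uz) {Per : ℝ}
    (hPer : ∀ k, energy3 (ux k) (uy k) (uz k) ≤ Per) (hP : Per ≤ 2)
    (hr : GoodRange (fun k x => area (u k x)) (fun x => area (F x)) 0 1) :
    ∀ᵐ x ∂mu1, area (F x) = 0 ∨ area (F x) = 1 := by
  refine S.binary_of_range fun A B hA hB hAB => ?_
  have h1 := S.pair_I2 hPer (const_calib hA hB hAB) hr
  rw [intervalIntegral.integral_const_mul] at h1
  simp only [intervalIntegral.integral_const, smul_eq_mul] at h1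
  linarith

/-- The one dimensional system of a sequence. -/
lemma prof (S : Seq3 F u ux uy uz) (hperF : Per3 F)
    (hper : ∀ k, Per3 (u k) ∧ Per3 (ux k) ∧ Per3 (uy k) ∧ Per3 (uz k)) :
    Prof (fun k x => area (u k x)) (fun k x => area (ux k x))
      (fun k => transCost (uy k) (uz k)) (fun x => area (F x)) where
  deriv := fun k t => area_hasDerivAt (S.smooth k) t
  contD := fun k => cont_area (S.smooth k).contx
  contW := S.transCost_cont
  W0 := fun k t => transCost_nonneg _ _ _
  perg := fun k t => by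
    unfold area
    simp only [(hper k).1.perx]
  perW := fun k t => by
    unfold transCost
    simp only [(hper k).2.2.1.perx, (hper k).2.2.2.perx]
  meas := S.G_meas
  perG := fun t => by
    unfold area
    simp only [hperF.perx]
  conv := S.ae_area_conv

/-- The exact marginal in one direction in the ball range. -/
theorem ball_dir (S : Seq3 F u ux uy uz) (hperF : Per3 F)
    (hper : ∀ k, Per3 (u k) ∧ Per3 (ux k) ∧ Per3 (uy k) ∧ Per3 (uz k)) {Per : ℝ}
    (hPer : ∀ k, energy3 (ux k) (uy k) (uz k) ≤ Per) (hV0 : 0 < vol3 F)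
    (hVc : vol3 F ≤ 4 * π / 81) (hP : Per ≤ ballVal (vol3 F)) {b : ℝ}
    (hr : GoodRange (fun k x => area (u k x)) (fun x => area (F x)) 0 b)
    (hq : √b ^ 3 = 3 * √π / 4 * vol3 F)
    (hl2 : full2 F = 0) (hl3 : full3 F = 0) :
    ∃ c, ∀ᵐ t ∂mu1, area (F t) = max 0 (b - π * dZ (t - c) ^ 2) := by
  have hle : (0 : ℝ) ≤ 1 := zero_le_one
  have hpi := Real.pi_pos
  have hr0 : 0 < √π := Real.sqrt_pos.2 hpi
  have hr2 : √π ^ 2 = π := Real.sq_sqrt hpi.le
  have hq0 : 0 < √b := by
    have h1 : 0 < √b ^ 3 := by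
      rw [hq]
      positivity
    rcases (Real.sqrt_nonneg b).eq_or_lt with h | h
    · rw [← h] at h1
      simp at h1
    · exact h
  have hb : 0 < b := Real.sqrt_pos.1 hq0
  have hq2 : √b ^ 2 = b := Real.sq_sqrt hb.le
  -- size of `b`
  have hqb : √b ≤ √π / 3 := by
    have h1 : √b ^ 3 ≤ (√π / 3) ^ 3 := by
      rw [hq]
      have e : (√π / 3) ^ 3 = √π ^ 2 * √π / 27 := by ring
      rw [e, hr2]
      have : 3 * √π / 4 * vol3 F ≤ 3 * √π / 4 * (4 * π / 81) :=
        mul_le_mul_of_nonneg_left hVc (by positivity)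
      linarith [this, show 3 * √π / 4 * (4 * π / 81) = π * √π / 27 by ring]
    exact le_of_pow_le_pow_left₀ (by norm_num) (by positivity) h1
  have hb9 : b ≤ π / 9 := by
    rw [← hq2]
    have := pow_le_pow_left₀ hq0.le hqb 2
    have e : (√π / 3) ^ 2 = √π ^ 2 / 9 := by ring
    rw [e, hr2] at this
    exact this
  have hb35 : b ≤ 3 / 5 := by
    have := Real.pi_lt_d2
    linarith
  have hll2 : ∀ᵐ x ∂mu1, lineX (F x) = 0 := by
    have h1 : ∫ x in (0 : ℝ)..1, lineX (F x) = 0 := hl2
    have hint : Integrable (fun x => lineX (F x)) mu1 :=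
      Integrable.of_bound S.lineX_meas.aestronglyMeasurable 1 (ae_of_all _ fun x => by
        rw [Real.norm_eq_abs, abs_of_nonneg (lineX_nonneg' _)]
        exact lineX_le_one (S.slice_meas x))
    rw [intervalIntegral.integral_of_le hle, integral_eq_zero_iff_of_nonneg
      (fun x => lineX_nonneg' _) hint] at h1
    exact h1
  have hll3 : ∀ᵐ x ∂mu1, lineY (F x) = 0 := by
    have h1 : ∫ x in (0 : ℝ)..1, lineY (F x) = 0 := hl3
    have hint : Integrable (fun x => lineY (F x)) mu1 :=
      Integrable.of_bound S.lineY_meas.aestronglyMeasurable 1 (ae_of_all _ fun x => by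
        rw [Real.norm_eq_abs, abs_of_nonneg (lineY_nonneg' _)]
        exact lineY_le_one (S.slice_meas x))
    rw [intervalIntegral.integral_of_le hle, integral_eq_zero_iff_of_nonneg
      (fun x => lineY_nonneg' _) hint] at h1
    exact h1
  have hY : ∀ᵐ t ∂mu1, ∀ c, (∃ᶠ k in atTop, transCost (uy k) (uz k) t ≤ c) →
      2 * √(π * area (F t)) ≤ c := by
    filter_upwards [hll2, hll3, ae_restrict_of_ae S.ae_slice_cost, hr.ae_mem] with t h1 h2 h3 h4 c hc
    have h5 := (h3 c hc).2
    rw [h1, h2] at h5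
    have h6 := two_sqrt_le_Ju (s := area (F t)) (h4.2.trans hb35)
    linarith
  have hE : ∀ k, ∫ t in (0 : ℝ)..1, √(area (ux k t) ^ 2 + transCost (uy k) (uz k) t ^ 2) ≤
      chordVal 0 √b (vol3 F) + 0 := by
    intro k
    rw [add_zero, chord_tangent_eq hq0 hV0 hq]
    exact (S.energy_sqrt_le k).trans ((hPer k).trans hP)
  obtain ⟨c, hc⟩ := Prof.ball_marginal (V := vol3 F) (S.prof hperF hper) (e₀ := fun _ => 0)
    tendsto_const_nhds hb hr (fun t => S.G_mem t) rfl hq
    (by nlinarith) hY hE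
  exact ⟨c, ae_restrict_of_ae hc⟩

end Seq3

end Vale.Agent.Lib.P232
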