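import Vale.Agent.Lib.P232.RigMainD

open MeasureTheory Filter Topology Set
open scoped Real

namespace Vale.Agent.Lib.P232

open Stein

namespace Seq3

variable {F : ℝ → ℝ → ℝ → ℝ} {u ux uy uz : ℕ → ℝ → ℝ → ℝ → ℝ}

/-- One direction in the ball range with no full lines. -/
theorem ball_one {δ : ℝ} (C : RigCerts3 δ) (hδ : 0 < δ) (S : Seq3 F u ux uy uz) (hperF : Per3 F)
    (hper : ∀ k, Per3 (u k) ∧ Per3 (ux k) ∧ Per3 (uy k) ∧ Per3 (uz k)) {Per : ℝ}
    (hPer : ∀ k, energy3 (ux k) (uy k) (uz k) ≤ Per) (hV0 : 0 < vol3 F)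
    (hVc : vol3 F ≤ 4 * π / 81) (hP : Per ≤ ballVal (vol3 F))
    (hl2 : full2 F = 0) (hl3 : full3 F = 0) :
    Canon F (vol3 F) ∨ ∃ b c, √b ^ 3 = 3 * √π / 4 * vol3 F ∧ 0 < b ∧
      ∀ᵐ t ∂mu1, area (F t) = max 0 (b - π * dZ (t - c) ^ 2) := by
  obtain ⟨a, b, hr, hVa, hVb, -, hI, hJ⟩ := S.direction_x' hPer
  have hJ' : PairBound Ju a b (vol3 F) (Per + 4 * a) := by
    refine hJ.mono ?_
    rw [hl2, hl3]
    have := hr.nonneg
    linarith
  rcases real_ball' C hδ hr.nonneg hVa hVb hr.le_one hV0 hVc hI hJ' hP with ⟨h1, h2⟩ | ⟨h1, h2, h3⟩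
  · right
    subst h1
    obtain ⟨c, hc⟩ := S.ball_dir hperF hper hPer hV0 hVc hP hr h2 hl2 hl3
    refine ⟨b, c, h2, hV0.trans_le hVb, hc⟩
  · left
    have hs : ∀ᵐ x ∂mu1, area (F x) = vol3 F := by
      filter_upwards [hr.ae_mem] with x hx
      rw [h2, h3] at hx
      exact le_antisymm hx.2 hx.1
    refine S.cyl_path hperF hper (e := fun _ => 0) tendsto_const_nhds
      (fun k => by rw [add_zero]; exact hPer k) hs hV0 ?_ ?_
    · have hpi := Real.pi_lt_d4
      linarith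
    · have hpi := Real.pi_pos
      have hpi2 := Real.pi_gt_three
      refine (hP.trans (ballVal_le_tubeVal hV0.le hVc)).trans (two_sqrt_le_I2 hV0.le ?_)
      rw [le_div_iff₀ hpi]
      nlinarith [Real.pi_lt_d4]

/-- Cube roots in the radius. -/
lemma ball_radius {b V : ℝ} (hb : 0 < b) (hV : 0 < V) (hq : √b ^ 3 = 3 * √π / 4 * V) :
    4 / 3 * π * (√(b / π)) ^ 3 = V := by
  have hpi := Real.pi_pos
  have hr0 : 0 < √π := Real.sqrt_pos.2 hpi
  have hr2 : √π ^ 2 = π := Real.sq_sqrt hpi.le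
  rw [Real.sqrt_div hb.le, div_pow, hq]
  have e : √π ^ 3 = π * √π := by rw [pow_succ, hr2]
  rw [e]
  field_simp

/-- No full lines in the ball range: the ball. -/
theorem ball_all {δ : ℝ} (C : RigCerts3 δ) (hδ : 0 < δ) (S : Seq3 F u ux uy uz) (hperF : Per3 F)
    (hper : ∀ k, Per3 (u k) ∧ Per3 (ux k) ∧ Per3 (uy k) ∧ Per3 (uz k)) {Per : ℝ}
    (hPer : ∀ k, energy3 (ux k) (uy k) (uz k) ≤ Per) (hV0 : 0 < vol3 F)
    (hVc : vol3 F ≤ 4 * π / 81) (hP : Per ≤ ballVal (vol3 F))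
    (hl1 : full1 F = 0) (hl2 : full2 F = 0) (hl3 : full3 F = 0) :
    Canon F (vol3 F) := by
  have hpi := Real.pi_pos
  have hper12 : ∀ k, Per3 (fun x y z => u k y x z) ∧ Per3 (fun x y z => uy k y x z) ∧
      Per3 (fun x y z => ux k y x z) ∧ Per3 (fun x y z => uz k y x z) := fun k =>
    ⟨(hper k).1.swap12, (hper k).2.2.1.swap12, (hper k).2.1.swap12, (hper k).2.2.2.swap12⟩
  have hper13 : ∀ k, Per3 (fun x y z => u k z y x) ∧ Per3 (fun x y z => uz k z y x) ∧
      Per3 (fun x y z => uy k z y x) ∧ Per3 (fun x y z => ux k z y x) := fun k =>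
    ⟨(hper k).1.swap13, (hper k).2.2.2.swap13, (hper k).2.2.1.swap13, (hper k).2.1.swap13⟩
  rcases S.ball_one C hδ hperF hper hPer hV0 hVc hP hl2 hl3 with h1 | ⟨b₁, c₁, hq₁, hb₁, hm₁⟩
  · exact h1
  have hV12 := S.vol3_swap12
  have hV13 := S.vol3_swap13
  rcases S.swap12.ball_one C hδ hperF.swap12 hper12
    (fun k => by rw [S.energy_swap12 k]; exact hPer k) (by rw [hV12]; exact hV0)
    (by rw [hV12]; exact hVc) (by rw [hV12]; exact hP) hl1 (by rw [S.full3_swap12]; exact hl3) with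
    h2 | ⟨b₂, c₂, hq₂, hb₂, hm₂⟩
  · rw [hV12] at h2
    exact Canon.of_swap12 S.meas S.bin h2
  rw [hV12] at hq₂
  rcases S.swap13.ball_one C hδ hperF.swap13 hper13
    (fun k => by rw [S.energy_swap13 k]; exact hPer k) (by rw [hV13]; exact hV0)
    (by rw [hV13]; exact hVc) (by rw [hV13]; exact hP) (by rw [S.full2_swap13]; exact hl2)
    (by rw [S.full3_swap13]; exact hl1) with
    h3 | ⟨b₃, c₃, hq₃, hb₃, hm₃⟩
  · rw [hV13] at h3
    exact Canon.of_swap13 S.meas S.bin h3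
  rw [hV13] at hq₃
  -- equal levels
  have heq : ∀ {b b' : ℝ}, 0 < b → 0 < b' → √b ^ 3 = 3 * √π / 4 * vol3 F →
      √b' ^ 3 = 3 * √π / 4 * vol3 F → b' = b := by
    intro b b' h1 h2 h3 h4
    have h5 : √b' = √b := (pow_left_inj₀ (by positivity) (by positivity) (by norm_num)).1
      (h4.trans h3.symm)
    rw [← Real.sq_sqrt h1.le, ← Real.sq_sqrt h2.le, h5]
  have e2 := heq hb₁ hb₂ hq₁ hq₂
  have e3 := heq hb₁ hb₃ hq₁ hq₃
  subst e2 e3
  set R := √(b₃ / π) with hR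
  have hR2 : R ^ 2 = b₃ / π := Real.sq_sqrt (by positivity)
  have hR0 : 0 < R := Real.sqrt_pos.2 (by positivity)
  have hvol := ball_radius hb₁ hV0 hq₁
  rw [← hR] at hvol
  have hR3 : R ≤ 1 / 2 := by
    by_contra hcon
    push Not at hcon
    have h1 : (1 / 2 : ℝ) ^ 3 < R ^ 3 := pow_lt_pow_left₀ hcon (by norm_num) (by norm_num)
    have h2 : 4 / 3 * π * (1 / 2 : ℝ) ^ 3 < 4 / 3 * π * R ^ 3 :=
      mul_lt_mul_of_pos_left h1 (by positivity)
    rw [hvol] at h2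
    have := Real.pi_gt_three
    norm_num at h2
    nlinarith
  have hmax : ∀ d : ℝ, max 0 (b₃ - π * d ^ 2) = π * max 0 (R ^ 2 - d ^ 2) := by
    intro d
    rw [hR2, mul_max_of_nonneg _ _ hpi.le, mul_zero, mul_sub, mul_div_cancel₀ _ hpi.ne']
  refine Or.inl ⟨c₁, c₂, c₃, R, hR0, hvol, lorentz_ball S.meas S.bin hR0 hR3 ?_ ?_ ?_⟩
  · filter_upwards [hm₁] with x hx
    rw [← hmax]
    exact hx
  · filter_upwards [hm₂] with x hx
    rw [← hmax]
    exact hx
  · filter_upwards [hm₃] with x hx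
    rw [← hmax]
    exact hx

/-- The equality case when the first direction has the most full lines. -/
theorem classify_best {δ : ℝ} (C : RigCerts3 δ) (hδ : 0 < δ) (S : Seq3 F u ux uy uz) (hperF : Per3 F)
    (hper : ∀ k, Per3 (u k) ∧ Per3 (ux k) ∧ Per3 (uy k) ∧ Per3 (uz k)) {Per : ℝ}
    (hPer : ∀ k, energy3 (ux k) (uy k) (uz k) ≤ Per) (hV0 : 0 < vol3 F) (hV2 : vol3 F ≤ 1 / 2)
    (hV : vol3 F ≤ 53 / 200 ∨ 9 / 25 ≤ vol3 F)
    (hP : Per ≤ min (ballVal (vol3 F)) (min (tubeVal (vol3 F)) 2))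
    (h2 : full2 F ≤ full1 F) (h3 : full3 F ≤ full1 F) : Canon F (vol3 F) := by
  have hpi := Real.pi_pos
  obtain ⟨a, b, hr, hVa, hVb, hf, hI, hJ⟩ := S.direction_x' hPer
  have hJ' : PairBound Ju a b (vol3 F) (Per + 4 * a) := by
    refine hJ.mono ?_
    linarith
  have hPb : Per ≤ ballVal (vol3 F) := hP.trans (min_le_left _ _)
  have hPt : Per ≤ tubeVal (vol3 F) := hP.trans ((min_le_right _ _).trans (min_le_left _ _))
  have hP2 : Per ≤ 2 := hP.trans ((min_le_right _ _).trans (min_le_right _ _))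
  have hI2 : Per ≤ I2 (vol3 F) := le_I2_of hPt hP2 hV2
  have hcyl : a = vol3 F → b = vol3 F → Canon F (vol3 F) := by
    intro h4 h5
    have hs : ∀ᵐ x ∂mu1, area (F x) = vol3 F := by
      filter_upwards [hr.ae_mem] with x hx
      rw [h4, h5] at hx
      exact le_antisymm hx.2 hx.1
    exact S.cyl_path hperF hper (e := fun _ => 0) tendsto_const_nhds
      (fun k => by rw [add_zero]; exact hPer k) hs hV0 hV2 hI2
  by_cases hc : vol3 F ≤ 4 * π / 81
  · rcases real_ball' C hδ hr.nonneg hVa hVb hr.le_one hV0 hc hI hJ' hPb with ⟨h4, -⟩ | ⟨-, h4, h5⟩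
    · have h6 : full1 F = 0 := le_antisymm (hf.trans h4.le) (full1_nonneg' F)
      have h7 : full2 F = 0 := le_antisymm (h2.trans h6.le) (full2_nonneg' F)
      have h8 : full3 F = 0 := le_antisymm (h3.trans h6.le) (full3_nonneg' F)
      exact S.ball_all C hδ hperF hper hPer hV0 hc hPb h6 h7 h8
    · exact hcyl h4 h5
  push Not at hc
  rcases hV with hV | hV
  · rcases real_tube' C hδ hr.nonneg hVa hVb hr.le_one hc.le hV hI hJ' hPt with ⟨h4, h5⟩ | ⟨h4, -⟩
    · exact hcyl h4 h5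
    · exact absurd h4 hc.ne'
  · rcases real_slab' C hδ hr.nonneg hVa hVb hr.le_one hV hV2 hI hP2 with ⟨h4, h5⟩ | ⟨h4, h5⟩
    · exact hcyl h4 h5
    · subst h4 h5
      have hb := S.binary_of_corner hPer hP2 hr
      obtain ⟨c, hc'⟩ := S.slab_of_binary (e := fun _ => 0) tendsto_const_nhds
        (fun k => by rw [add_zero]; exact (hPer k).trans hP2) hb hV0 (by linarith)
      exact Or.inr (Or.inr (Or.inr (Or.inr (Or.inl ⟨c, hc'⟩))))

/-- The equality case outside the volume range `(53/200, 9/25)`. -/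
theorem classify_direct {δ : ℝ} (C : RigCerts3 δ) (hδ : 0 < δ) (S : Seq3 F u ux uy uz) (hperF : Per3 F)
    (hper : ∀ k, Per3 (u k) ∧ Per3 (ux k) ∧ Per3 (uy k) ∧ Per3 (uz k)) {Per : ℝ}
    (hPer : ∀ k, energy3 (ux k) (uy k) (uz k) ≤ Per) (hV0 : 0 < vol3 F) (hV2 : vol3 F ≤ 1 / 2)
    (hV : vol3 F ≤ 53 / 200 ∨ 9 / 25 ≤ vol3 F)
    (hP : Per ≤ min (ballVal (vol3 F)) (min (tubeVal (vol3 F)) 2)) : Canon F (vol3 F) := by
  have hper12 : ∀ k, Per3 (fun x y z => u k y x z) ∧ Per3 (fun x y z => uy k y x z) ∧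
      Per3 (fun x y z => ux k y x z) ∧ Per3 (fun x y z => uz k y x z) := fun k =>
    ⟨(hper k).1.swap12, (hper k).2.2.1.swap12, (hper k).2.1.swap12, (hper k).2.2.2.swap12⟩
  have hper13 : ∀ k, Per3 (fun x y z => u k z y x) ∧ Per3 (fun x y z => uz k z y x) ∧
      Per3 (fun x y z => uy k z y x) ∧ Per3 (fun x y z => ux k z y x) := fun k =>
    ⟨(hper k).1.swap13, (hper k).2.2.2.swap13, (hper k).2.2.1.swap13, (hper k).2.1.swap13⟩
  have hV12 := S.vol3_swap12
  have hV13 := S.vol3_swap13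
  by_cases h1 : full2 F ≤ full1 F ∧ full3 F ≤ full1 F
  · exact S.classify_best C hδ hperF hper hPer hV0 hV2 hV hP h1.1 h1.2
  by_cases h2 : full3 F ≤ full2 F
  · have hf2 : full1 F ≤ full2 F := by
      by_contra hc
      push Not at hc
      exact h1 ⟨hc.le, h2.trans hc.le⟩
    have := S.swap12.classify_best C hδ hperF.swap12 hper12 (Per := Per)
      (fun k => by rw [S.energy_swap12 k]; exact hPer k) (by rw [hV12]; exact hV0)
      (by rw [hV12]; exact hV2) (by rw [hV12]; exact hV) (by rw [hV12]; exact hP)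
      hf2 (by rw [S.full3_swap12]; exact h2)
    rw [hV12] at this
    exact Canon.of_swap12 S.meas S.bin this
  · have h2' : full2 F ≤ full3 F := (not_le.1 h2).le
    have hf3 : full1 F ≤ full3 F := by
      by_contra hc
      push Not at hc
      exact h1 ⟨h2'.trans hc.le, hc.le⟩
    have := S.swap13.classify_best C hδ hperF.swap13 hper13 (Per := Per)
      (fun k => by rw [S.energy_swap13 k]; exact hPer k) (by rw [hV13]; exact hV0)
      (by rw [hV13]; exact hV2) (by rw [hV13]; exact hV) (by rw [hV13]; exact hP)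
      (by rw [S.full1_swap13, S.full2_swap13]; exact h2') (by rw [S.full1_swap13, S.full3_swap13]; exact hf3)
    rw [hV13] at this
    exact Canon.of_swap13 S.meas S.bin this

end Seq3

end Vale.Agent.Lib.P232
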