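import Vale.Agent.Lib.P232.RigMainE
import Vale.Agent.Lib.P232.Dir

open MeasureTheory Filter Topology Set
open scoped Real

namespace Vale.Agent.Lib.P232

open Stein

/-- The essential top of a bounded function. -/
lemma exists_ess_top {H : ℝ → ℝ} {C C' : ℝ} (h1 : ∀ t, H t ≤ C) (h0 : ∀ t, C' ≤ H t) :
    ∃ b, (∀ᵐ t ∂mu1, H t ≤ b) ∧ ∀ ε > 0, ¬ ∀ᵐ t ∂mu1, H t ≤ b - ε := by
  set B : Set ℝ := {c | ∀ᵐ t ∂mu1, H t ≤ c} with hB
  have hne : B.Nonempty := ⟨C, ae_of_all _ h1⟩
  have hbd : BddBelow B := by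
    refine ⟨C', fun c hc => ?_⟩
    obtain ⟨t, -, ht⟩ := exists_of_ae_Ioc hc
    exact (h0 t).trans ht
  refine ⟨sInf B, ?_, fun ε hε hcon => ?_⟩
  · have h2 : ∀ n : ℕ, ∃ c ∈ B, c < sInf B + 1 / ((n : ℝ) + 1) := fun n =>
      exists_lt_of_csInf_lt hne (lt_add_of_pos_right _ (by positivity))
    choose c hc hcl using h2
    have h3 : ∀ᵐ t ∂mu1, ∀ n, H t ≤ c n := ae_all_iff.2 hc
    filter_upwards [h3] with t ht
    refine le_of_forall_pos_le_add fun ε hε => ?_
    obtain ⟨n, hn⟩ := exists_nat_one_div_lt hε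
    linarith [ht n, hcl n]
  · have := csInf_le hbd (show sInf B - ε ∈ B from hcon)
    linarith

/-- The essential range data of a function with values in the unit interval. -/
structure EssRange (G : ℝ → ℝ) (a b : ℝ) : Prop where
  nonneg : 0 ≤ a
  le : a ≤ b
  le_one : b ≤ 1
  ae_mem : ∀ᵐ t ∂mu1, G t ∈ Icc a b
  low : ∀ ε > 0, ¬ ∀ᵐ t ∂mu1, a + ε ≤ G t
  high : ∀ ε > 0, ¬ ∀ᵐ t ∂mu1, G t ≤ b - ε

lemma exists_essRange {G : ℝ → ℝ} (h0 : ∀ t, 0 ≤ G t) (h1 : ∀ t, G t ≤ 1) :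
    ∃ a b, EssRange G a b := by
  obtain ⟨b, hb1, hb2⟩ := exists_ess_top h1 h0
  obtain ⟨a', ha1, ha2⟩ := exists_ess_top (H := fun t => - G t) (C := 0) (C' := -1)
    (fun t => by linarith [h0 t]) (fun t => by linarith [h1 t])
  have ha3 : ∀ᵐ t ∂mu1, - a' ≤ G t := by
    filter_upwards [ha1] with t ht
    linarith
  refine ⟨- a', b, ?_, ?_, ?_, ?_, ?_, ?_⟩
  · by_contra hcon
    push Not at hcon
    refine ha2 (- (- a')) (by linarith) (ae_of_all _ fun t => ?_)
    have := h0 t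
    show - G t ≤ a' - - (- a')
    linarith
  · obtain ⟨t, -, h2, h3⟩ := exists_of_ae_Ioc (hb1.and ha3)
    linarith
  · by_contra hcon
    push Not at hcon
    refine hb2 (b - 1) (by linarith) (ae_of_all _ fun t => ?_)
    have := h1 t
    linarith
  · filter_upwards [ha3, hb1] with t h2 h3 using ⟨h2, h3⟩
  · intro ε hε hcon
    refine ha2 ε hε ?_
    filter_upwards [hcon] with t ht
    linarith
  · exact hb2

lemma EssRange.good {G : ℝ → ℝ} {a b : ℝ} (h : EssRange G a b) {g : ℕ → ℝ → ℝ}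
    (hg : ∀ᵐ t, Tendsto (fun k => g k t) atTop (𝓝 (G t))) : GoodRange g G a b where
  nonneg := h.nonneg
  le := h.le
  le_one := h.le_one
  ae_mem := h.ae_mem
  low := fun ε hε => by
    by_contra hcon
    push Not at hcon
    refine h.low ε hε ?_
    filter_upwards [ae_restrict_mem measurableSet_Ioc, ae_restrict_of_ae hg, h.ae_mem] with
      t h1 h2 h3
    by_contra h4
    push Not at h4
    have h5 := hcon t h1 h2
    exact absurd (mem_Ico.2 ⟨h3.1, h4⟩) h5
  high := fun ε hε => by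
    by_contra hcon
    push Not at hcon
    refine h.high ε hε ?_
    filter_upwards [ae_restrict_mem measurableSet_Ioc, ae_restrict_of_ae hg, h.ae_mem] with
      t h1 h2 h3
    by_contra h4
    push Not at h4
    have h5 := hcon t h1 h2
    exact absurd (mem_Ioc.2 ⟨h4, h3.2⟩) h5

lemma PhaseBound.of_forall {f₁ f₂ : ℝ → ℝ} {α a b V L : ℝ}
    (h : ∀ ε > 0, PhaseBound f₁ f₂ α a b V (L + ε)) : PhaseBound f₁ f₂ α a b V L := by
  intro A B hp k m₁ m₂ h1 h2
  refine le_of_forall_pos_le_add fun ε hε => ?_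
  exact h ε hε A B hp k m₁ m₂ h1 h2

/-- A family of monotone sequences with energies tending to a value. -/
def MonoSeqs (G : ℝ → ℝ → ℝ → ℝ) (Per : ℝ) : Prop :=
  ∀ ε > 0, ∃ w wx wy wz : ℕ → ℝ → ℝ → ℝ → ℝ, Seq3 G w wx wy wz ∧
    (∀ k, energy3 (wx k) (wy k) (wz k) ≤ Per + ε) ∧ ∀ k, MonoX (w k) ∧ MonoY (w k) ∧ MonoZ (w k)

lemma MonoSeqs.swap12 {G : ℝ → ℝ → ℝ → ℝ} {Per : ℝ} (h : MonoSeqs G Per) :
    MonoSeqs (fun x y z => G y x z) Per := by
  intro ε hε
  obtain ⟨w, wx, wy, wz, S, hE, hw⟩ := h ε hε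
  exact ⟨_, _, _, _, S.swap12, fun k => by rw [S.energy_swap12 k]; exact hE k, fun k =>
    ⟨fun x x' y z h => (hw k).2.1 y x x' z h, fun x y y' z h => (hw k).1 y y' x z h,
      fun x y z z' h => (hw k).2.2 y x z z' h⟩⟩

lemma MonoSeqs.swap13 {G : ℝ → ℝ → ℝ → ℝ} {Per : ℝ} (h : MonoSeqs G Per) :
    MonoSeqs (fun x y z => G z y x) Per := by
  intro ε hε
  obtain ⟨w, wx, wy, wz, S, hE, hw⟩ := h ε hε
  exact ⟨_, _, _, _, S.swap13, fun k => by rw [S.energy_swap13 k]; exact hE k, fun k =>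
    ⟨fun x x' y z h => (hw k).2.2 z y x x' h, fun x y y' z h => (hw k).2.1 z y y' x h,
      fun x y z z' h => (hw k).1 z z' y x h⟩⟩

section

variable {δ : ℝ}

/-- Rigidity in one direction in the volume range. -/
theorem dir_rigid (C : RigCerts δ) (hδ : 0 < δ) {G : ℝ → ℝ → ℝ → ℝ} {Per : ℝ} (hX : MonoX G)
    (hY : MonoY G) (hZ : MonoZ G) (hs : MonoSeqs G Per) (hV1 : 53 / 200 ≤ vol3 G)
    (hV2 : vol3 G ≤ 9 / 25) (hP : Per ≤ Tgt (vol3 G))
    (hcase : (gapAlpha ≤ extent (rod2 G) ∧ gapAlpha ≤ extent (rod3 G)) ∨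
      (extent (rod3 G) < gapAlpha ∧ extent (fun z x => rod2 G x z) ≤ gapAlpha ∧
        extent (rod3 G) ≤ extent (rod2 G)) ∨
      (extent (rod2 G) < gapAlpha ∧ extent (fun y x => rod3 G x y) ≤ gapAlpha ∧
        extent (rod2 G) ≤ extent (rod3 G))) :
    (∀ᵐ x ∂mu1, area (G x) = vol3 G) ∨ (∀ᵐ x ∂mu1, area (G x) = 0 ∨ area (G x) = 1) := by
  obtain ⟨w₁, wx₁, wy₁, wz₁, S₁, -, -⟩ := hs 1 one_pos
  obtain ⟨a, b, hrr⟩ := exists_essRange (G := fun x => area (G x)) (fun x => (S₁.G_mem x).1)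
    (fun x => (S₁.G_mem x).2)
  have hr : ∀ {w wx wy wz : ℕ → ℝ → ℝ → ℝ → ℝ}, Seq3 G w wx wy wz →
      GoodRange (fun k x => area (w k x)) (fun x => area (G x)) a b :=
    fun S => hrr.good S.ae_area_conv
  have h0 := hrr.nonneg
  have hb := hrr.le_one
  have hVa : a ≤ vol3 G := by
    have := integral_mono_unit (f := fun _ => a) (g := fun x => area (G x))
      intervalIntegrable_const S₁.G_ii (by filter_upwards [hrr.ae_mem] with x hx using hx.1)
    simpa [vol3, area] using this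
  have hVb : vol3 G ≤ b := by
    have := integral_mono_unit (g := fun _ => b) (f := fun x => area (G x))
      S₁.G_ii intervalIntegrable_const (by filter_upwards [hrr.ae_mem] with x hx using hx.2)
    simpa [vol3, area] using this
  have hcon : ∀ {L : ℝ}, Tgt (vol3 G) + δ ≤ L → L ≤ Per → False := by
    intro L h1 h2
    linarith
  have hBcase : PhaseBound (fB1 gapAlpha) (fB2 gapAlpha) gapAlpha a b (vol3 G) Per →
      (∀ᵐ x ∂mu1, area (G x) = vol3 G) := by
    intro hPB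
    by_cases hb38 : 3 / 8 ≤ b
    · exact (hcon (C.cert_B' h0 hVa hVb hb hb38 hV1 hV2 hPB) le_rfl).elim
    · push Not at hb38
      have hpb : PairBound tubeVal a b (vol3 G) Per := hPB.toPair
        (fun s hs => tube_le_fB1 (h0.trans hs.1) (by linarith [hs.2]))
        (fun s hs => tube_le_fB2 (h0.trans hs.1) (by linarith [hs.2]))
      obtain ⟨e1, e2⟩ := tube_zone' h0 hVa hVb hV1 hpb (hP.trans (min_le_left _ _))
      filter_upwards [hrr.ae_mem] with x hx
      rw [e1, e2] at hx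
      exact le_antisymm hx.2 hx.1
  rcases hcase with ⟨h1, h2⟩ | ⟨h1, h2, h3⟩ | ⟨h1, h2, h3⟩
  · have hPA : PhaseBound fTc I2 gapAlpha a b (vol3 G) Per := PhaseBound.of_forall fun ε hε => by
      obtain ⟨w, wx, wy, wz, S, hE, hw⟩ := hs ε hε
      exact S.phase_A hX hY hZ (fun k => (hw k).2) hE h1 h2 (hr S)
    by_cases ha : 1 / 10000 ≤ a
    · exact (hcon (C.cert_A' ha hVa hVb hb hV1 hV2 hPA) le_rfl).elim
    push Not at ha
    by_cases hbc : b ≤ 1 - 1 / 10000
    · exfalso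
      set γ := max (lineX (G (1 / 2 + gapAlpha / 2))) (lineY (G (1 / 2 + gapAlpha / 2))) with hγ
      have hγ0 : 0 ≤ γ := (Seq3.lineX_nonneg' _).trans (le_max_left _ _)
      have hγ1 : γ ≤ 1 := max_le (Seq3.lineX_le_one (S₁.slice_meas _)) (Seq3.lineY_le_one (S₁.slice_meas _))
      have hPS : ∀ {g₁ g₂ : ℝ}, 0 ≤ g₁ → g₁ ≤ 27 / 50 → g₁ ≤ γ → γ ≤ g₂ →
          PhaseBound (fSt g₁) (fAr g₂) gapAlpha a b (vol3 G) Per := by
        intro g₁ g₂ hg0 hg1 hg₁ hg₂
        refine PhaseBound.of_forall fun ε hε => ?_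
        obtain ⟨w, wx, wy, wz, S, hE, hw⟩ := hs ε hε
        exact S.phase_S hX hY hZ (fun k => (hw k).2) hE h1 h2 (hr S) hg0 hg1 hg₁ hg₂
      rcases le_total γ (23 / 50) with c1 | c1
      · exact hcon (C.cert_S1' h0 ha.le hVb hbc hV1 hV2
          (hPS (by norm_num) (by norm_num) hγ0 c1)) le_rfl
      rcases le_total γ (1 / 2) with c2 | c2
      · exact hcon (C.cert_S2' h0 ha.le hVb hbc hV1 hV2
          (hPS (by norm_num) (by norm_num) c1 c2)) le_rfl
      rcases le_total γ (27 / 50) with c3 | c3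
      · exact hcon (C.cert_S3' h0 ha.le hVb hbc hV1 hV2
          (hPS (by norm_num) (by norm_num) c2 c3)) le_rfl
      · exact hcon (C.cert_S4' h0 ha.le hVb hbc hV1 hV2
          (hPS (by norm_num) (by norm_num) c3 hγ1)) le_rfl
    · push Not at hbc
      have hpb : PairBound I2 a b (vol3 G) Per :=
        hPA.toPair (fun s _ => I2_le_fTc s) (fun s _ => le_rfl)
      obtain ⟨e1, e2⟩ := corner_zone' h0 ha.le hb hbc.le hV2 hpb hP
      subst e1 e2
      right
      refine S₁.binary_of_range fun A B hA hB hAB => ?_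
      refine le_of_forall_pos_le_add fun ε hε => ?_
      obtain ⟨w, wx, wy, wz, S, hE, hw⟩ := hs ε hε
      have h4 := S.pair_I2 hE (Seq3.const_calib hA hB hAB) (hr S)
      rw [intervalIntegral.integral_const_mul] at h4
      simp only [intervalIntegral.integral_const, smul_eq_mul] at h4
      have h5 : Per ≤ 2 := hP.trans (min_le_right _ _)
      linarith
  · left
    refine hBcase (PhaseBound.of_forall fun ε hε => ?_)
    obtain ⟨w, wx, wy, wz, S, hE, hw⟩ := hs ε hε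
    exact S.phase_By hX hY hZ (fun k => (hw k).2) hE h1 h2 h3 (hr S)
  · left
    refine hBcase (PhaseBound.of_forall fun ε hε => ?_)
    obtain ⟨w, wx, wy, wz, S, hE, hw⟩ := hs ε hε
    exact S.phase_Bz hX hY hZ (fun k => (hw k).2) hE h1 h2 h3 (hr S)

namespace Seq3

variable {F : ℝ → ℝ → ℝ → ℝ} {u ux uy uz : ℕ → ℝ → ℝ → ℝ → ℝ}

/-- Canonical regions from the two outcomes of rigidity. -/
theorem canon_of_alt (S : Seq3 F u ux uy uz) (hperF : Per3 F)
    (hper : ∀ k, Per3 (u k) ∧ Per3 (ux k) ∧ Per3 (uy k) ∧ Per3 (uz k)) {Per : ℝ}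
    (hPer : ∀ k, energy3 (ux k) (uy k) (uz k) ≤ Per) (hV0 : 0 < vol3 F) (hV2 : vol3 F ≤ 1 / 2)
    (hI : Per ≤ I2 (vol3 F)) (hP2 : Per ≤ 2)
    (h : (∀ᵐ x ∂mu1, area (F x) = vol3 F) ∨
      (∀ᵐ q ∂(mu1.prod mu1), ∫ x in (0 : ℝ)..1, F x q.1 q.2 = vol3 F)) :
    Canon F (vol3 F) := by
  have he : Tendsto (fun _ : ℕ => (0 : ℝ)) atTop (𝓝 0) := tendsto_const_nhds
  rcases h with h | h
  · exact S.cyl_path hperF hper he (fun k => by rw [add_zero]; exact hPer k) h hV0 hV2 hI
  · have h1 : ∀ᵐ q ∂(mu1.prod mu1), (0 < ∫ x in (0 : ℝ)..1, F x q.1 q.2) ∧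
        (∫ x in (0 : ℝ)..1, F x q.1 q.2) < 1 := by
      filter_upwards [h] with q hq
      rw [hq]
      exact ⟨hV0, by linarith⟩
    have hb := S.binary_of_lines he (fun k => by rw [add_zero]; exact (hPer k).trans hP2) h1
    obtain ⟨c, hc⟩ := S.slab_of_binary he (fun k => by rw [add_zero]; exact (hPer k).trans hP2) hb
      hV0 (by linarith)
    exact Or.inr (Or.inr (Or.inr (Or.inr (Or.inl ⟨c, hc⟩))))

/-- The equality case in the volume range `(53/200, 9/25)`. -/
theorem classify_gap (C : RigCerts δ) (hδ : 0 < δ) (S : Seq3 F u ux uy uz) (hperF : Per3 F)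
    (hper : ∀ k, Per3 (u k) ∧ Per3 (ux k) ∧ Per3 (uy k) ∧ Per3 (uz k)) {Per : ℝ}
    (hPer : ∀ k, energy3 (ux k) (uy k) (uz k) ≤ Per) (hV1 : 53 / 200 ≤ vol3 F)
    (hV2 : vol3 F ≤ 9 / 25) (hP : Per ≤ Tgt (vol3 F)) : Canon F (vol3 F) := by
  set G := stein3 F with hG
  have hV0 : 0 < vol3 F := by linarith
  have hV5 : vol3 F ≤ 1 / 2 := by linarith
  have hPt : Per ≤ tubeVal (vol3 F) := hP.trans (min_le_left _ _)
  have hP2 : Per ≤ 2 := hP.trans (min_le_right _ _)
  have hI : Per ≤ I2 (vol3 F) := le_I2_of hPt hP2 hV5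
  obtain ⟨w₁, wx₁, wy₁, wz₁, S₁, -, hVG, hX, hY, hZ, -⟩ := S.exists_mono_seq3 hPer one_pos
  have hs : MonoSeqs G Per := by
    intro ε hε
    obtain ⟨w, wx, wy, wz, S', hE, -, -, -, -, hw⟩ := S.exists_mono_seq3 hPer hε
    exact ⟨w, wx, wy, wz, S', hE, hw⟩
  have hper12 : ∀ k, Per3 (fun x y z => u k y x z) ∧ Per3 (fun x y z => uy k y x z) ∧
      Per3 (fun x y z => ux k y x z) ∧ Per3 (fun x y z => uz k y x z) := fun k =>
    ⟨(hper k).1.swap12, (hper k).2.2.1.swap12, (hper k).2.1.swap12, (hper k).2.2.2.swap12⟩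
  have hper13 : ∀ k, Per3 (fun x y z => u k z y x) ∧ Per3 (fun x y z => uz k z y x) ∧
      Per3 (fun x y z => uy k z y x) ∧ Per3 (fun x y z => ux k z y x) := fun k =>
    ⟨(hper k).1.swap13, (hper k).2.2.2.swap13, (hper k).2.2.1.swap13, (hper k).2.1.swap13⟩
  have hV12 := S.vol3_swap12
  have hV13 := S.vol3_swap13
  have hlog := logic_six (α := gapAlpha) (xy := extent (rod1 G))
    (xz := extent (fun z y => rod1 G y z)) (yx := extent (rod2 G))
    (yz := extent (fun z x => rod2 G x z)) (zx := extent (rod3 G))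
    (zy := extent (fun y x => rod3 G x y))
  rcases hlog with h | h | h
  · -- the first direction
    have hr := dir_rigid C hδ hX hY hZ hs (by rw [hVG]; exact hV1) (by rw [hVG]; exact hV2)
      (by rw [hVG]; exact hP) h
    rw [hVG] at hr
    refine S.canon_of_alt hperF hper hPer hV0 hV5 hI hP2 ?_
    rcases hr with hr | hr
    · left
      exact S.transfer_const_x hr
    · right
      exact S.transfer_bin_x hr
  · -- the second direction
    have hr := dir_rigid C hδ (G := fun x y z => G y x z) (Per := Per)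
      (fun x x' y z h => hY y x x' z h) (fun x y y' z h => hX y y' x z h)
      (fun x y z z' h => hZ y x z z' h) hs.swap12
      (by rw [S₁.vol3_swap12, hVG]; exact hV1) (by rw [S₁.vol3_swap12, hVG]; exact hV2)
      (by rw [S₁.vol3_swap12, hVG]; exact hP) h
    rw [S₁.vol3_swap12, hVG] at hr
    have h2 : Canon (fun x y z => F y x z) (vol3 fun x y z => F y x z) := by
      refine S.swap12.canon_of_alt hperF.swap12 hper12
        (fun k => by rw [S.energy_swap12 k]; exact hPer k) (by rw [hV12]; exact hV0)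
        (by rw [hV12]; exact hV5) (by rw [hV12]; exact hI) hP2 ?_
      rw [hV12]
      rcases hr with hr | hr
      · left
        exact S.transfer_const_y hr
      · right
        exact S.transfer_bin_y hr
    rw [hV12] at h2
    exact Canon.of_swap12 S.meas S.bin h2
  · -- the third direction
    have hr := dir_rigid C hδ (G := fun x y z => G z y x) (Per := Per)
      (fun x x' y z h => hZ z y x x' h) (fun x y y' z h => hY z y y' x h)
      (fun x y z z' h => hX z z' y x h) hs.swap13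
      (by rw [S₁.vol3_swap13, hVG]; exact hV1) (by rw [S₁.vol3_swap13, hVG]; exact hV2)
      (by rw [S₁.vol3_swap13, hVG]; exact hP) h
    rw [S₁.vol3_swap13, hVG] at hr
    have h2 : Canon (fun x y z => F z y x) (vol3 fun x y z => F z y x) := by
      refine S.swap13.canon_of_alt hperF.swap13 hper13
        (fun k => by rw [S.energy_swap13 k]; exact hPer k) (by rw [hV13]; exact hV0)
        (by rw [hV13]; exact hV5) (by rw [hV13]; exact hI) hP2 ?_
      rw [hV13]
      rcases hr with hr | hr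
      · left
        exact S.transfer_const_z hr
      · right
        have h3 := S.transfer_bin_z hr
        exact (Measure.measurePreserving_swap (μ := mu1) (ν := mu1)).quasiMeasurePreserving.ae h3
    rw [hV13] at h2
    exact Canon.of_swap13 S.meas S.bin h2

/-- The equality case for volumes at most one half. -/
theorem classify_half (C : RigCerts δ) (hδ : 0 < δ) (S : Seq3 F u ux uy uz) (hperF : Per3 F)
    (hper : ∀ k, Per3 (u k) ∧ Per3 (ux k) ∧ Per3 (uy k) ∧ Per3 (uz k)) {Per : ℝ}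
    (hPer : ∀ k, energy3 (ux k) (uy k) (uz k) ≤ Per) (hV0 : 0 < vol3 F) (hV2 : vol3 F ≤ 1 / 2)
    (hP : Per ≤ min (ballVal (vol3 F)) (min (tubeVal (vol3 F)) 2)) : Canon F (vol3 F) := by
  by_cases hV : vol3 F ≤ 53 / 200 ∨ 9 / 25 ≤ vol3 F
  · exact S.classify_direct C.toRigCerts3 hδ hperF hper hPer hV0 hV2 hV hP
  push Not at hV
  exact S.classify_gap C hδ hperF hper hPer hV.1.le hV.2.le (hP.trans (min_le_right _ _))

end Seq3

end

end Vale.Agent.Lib.P232
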