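import Vale.Agent.Lib.P232.RigMainF

open MeasureTheory Filter Topology Set
open scoped Real

namespace Vale.Agent.Lib.P232

open Stein

lemma aeCell_of_dist {E S : Set (ℝ × ℝ × ℝ)} (hE : MeasurableSet E) (hS : MeasurableSet S)
    (h : dist3 (indF E) (indF S) = 0) : AECell E S := by
  have h1 := (dist3_eq_zero_iff (indF_meas hE) (indF_meas hS) (indF_bin E) (indF_bin S)).1 h
  have hrestrict : mu1.prod (mu1.prod mu1) = (volume : Measure (ℝ × ℝ × ℝ)).restrict unitCell := by
    rw [Measure.prod_restrict, Measure.prod_restrict]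
    rfl
  rw [hrestrict] at h1
  unfold AECell
  rw [← Measure.restrict_apply (hE.symmDiff hS)]
  rw [ae_iff] at h1
  refine measure_mono_null ?_ h1
  intro p hp
  simp only [mem_setOf_eq]
  intro hne
  rcases hp with ⟨h2, h3⟩ | ⟨h2, h3⟩
  · have e1 : indF E p.1 p.2.1 p.2.2 = 1 := by
      unfold indF
      exact indicator_of_mem h2 _
    have e2 : indF S p.1 p.2.1 p.2.2 = 0 := by
      unfold indF
      exact indicator_of_notMem h3 _
    rw [e1, e2] at hne
    norm_num at hne
  · have e1 : indF S p.1 p.2.1 p.2.2 = 1 := by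
      unfold indF
      exact indicator_of_mem h2 _
    have e2 : indF E p.1 p.2.1 p.2.2 = 0 := by
      unfold indF
      exact indicator_of_notMem h3 _
    rw [e1, e2] at hne
    norm_num at hne

lemma canon_to_set {E : Set (ℝ × ℝ × ℝ)} (hE : MeasurableSet E) {v : ℝ} (h : Canon (indF E) v) :
    IsCanonical E v := by
  rcases h with ⟨c₁, c₂, c₃, R, h1, h2, h3⟩ | ⟨c₂, c₃, r, h1, h2, h3⟩ | ⟨c₁, c₃, r, h1, h2, h3⟩ |
    ⟨c₁, c₂, r, h1, h2, h3⟩ | ⟨c, h3⟩ | ⟨c, h3⟩ | ⟨c, h3⟩
  · exact Or.inl ⟨c₁, c₂, c₃, R, h1, h2, aeCell_of_dist hE (measurableSet_ballSet _ _ _ _) h3⟩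
  · exact Or.inr (Or.inl ⟨c₂, c₃, r, h1, h2, aeCell_of_dist hE (measurableSet_tubeX _ _ _) h3⟩)
  · exact Or.inr (Or.inr (Or.inl ⟨c₁, c₃, r, h1, h2, aeCell_of_dist hE (measurableSet_tubeY _ _ _) h3⟩))
  · exact Or.inr (Or.inr (Or.inr (Or.inl
      ⟨c₁, c₂, r, h1, h2, aeCell_of_dist hE (measurableSet_tubeZ _ _ _) h3⟩)))
  · exact Or.inr (Or.inr (Or.inr (Or.inr (Or.inl ⟨c, aeCell_of_dist hE (measurableSet_slabX _ _) h3⟩))))
  · exact Or.inr (Or.inr (Or.inr (Or.inr (Or.inr (Or.inl
      ⟨c, aeCell_of_dist hE (measurableSet_slabY _ _) h3⟩)))))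
  · exact Or.inr (Or.inr (Or.inr (Or.inr (Or.inr (Or.inr
      ⟨c, aeCell_of_dist hE (measurableSet_slabZ _ _) h3⟩)))))

lemma per3_indF {E : Set (ℝ × ℝ × ℝ)} (hp : IsPeriodicSet E) : Per3 (indF E) where
  perx x y z := by
    unfold indF
    by_cases h : (x, y, z) ∈ E
    · rw [indicator_of_mem h, indicator_of_mem ((hp x y z).1.2 h)]
    · rw [indicator_of_notMem h, indicator_of_notMem (fun h' => h ((hp x y z).1.1 h'))]
  pery x y z := by
    unfold indF
    by_cases h : (x, y, z) ∈ E
    · rw [indicator_of_mem h, indicator_of_mem ((hp x y z).2.1.2 h)]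
    · rw [indicator_of_notMem h, indicator_of_notMem (fun h' => h ((hp x y z).2.1.1 h'))]
  perz x y z := by
    unfold indF
    by_cases h : (x, y, z) ∈ E
    · rw [indicator_of_mem h, indicator_of_mem ((hp x y z).2.2.2 h)]
    · rw [indicator_of_notMem h, indicator_of_notMem (fun h' => h ((hp x y z).2.2.1 h'))]

lemma indF_compl (E : Set (ℝ × ℝ × ℝ)) : (fun x y z => 1 - indF E x y z) = indF Eᶜ := by
  funext x y z
  unfold indF
  by_cases h : (x, y, z) ∈ E
  · rw [indicator_of_mem h, indicator_of_notMem (by simpa using h)]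
    norm_num
  · rw [indicator_of_notMem h, indicator_of_mem (by simpa using h)]
    norm_num

/-- The strict certificates give the plain certificates. -/
theorem RigCerts.toGap {δ : ℝ} (C : RigCerts δ) (hδ : 0 < δ) : GapCerts where
  certA := fun h1 h2 h3 h4 h5 h6 h7 => by linarith [C.cert_A' h1 h2 h3 h4 h5 h6 h7]
  certS1 := fun h1 h2 h3 h4 h5 h6 h7 => by linarith [C.cert_S1' h1 h2 h3 h4 h5 h6 h7]
  certS2 := fun h1 h2 h3 h4 h5 h6 h7 => by linarith [C.cert_S2' h1 h2 h3 h4 h5 h6 h7]
  certS3 := fun h1 h2 h3 h4 h5 h6 h7 => by linarith [C.cert_S3' h1 h2 h3 h4 h5 h6 h7]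
  certS4 := fun h1 h2 h3 h4 h5 h6 h7 => by linarith [C.cert_S4' h1 h2 h3 h4 h5 h6 h7]
  certB := fun h1 h2 h3 h4 h5 h6 h7 h8 => by linarith [C.cert_B' h1 h2 h3 h4 h5 h6 h7 h8]

/-- The classification of limits of sequences, for the volumes with a given property. -/
def SeqClassify (Q : ℝ → Prop) : Prop :=
  ∀ {F : ℝ → ℝ → ℝ → ℝ} {u ux uy uz : ℕ → ℝ → ℝ → ℝ → ℝ}, Seq3 F u ux uy uz → Per3 F →
    (∀ k, Per3 (u k) ∧ Per3 (ux k) ∧ Per3 (uy k) ∧ Per3 (uz k)) → ∀ {Per : ℝ},
    (∀ k, energy3 (ux k) (uy k) (uz k) ≤ Per) → 0 < vol3 F → vol3 F ≤ 1 / 2 → Q (vol3 F) →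
    Per ≤ min (ballVal (vol3 F)) (min (tubeVal (vol3 F)) 2) → Canon F (vol3 F)

theorem seqClassify_all {δ : ℝ} (C : RigCerts δ) (hδ : 0 < δ) : SeqClassify fun _ => True := by
  intro F u ux uy uz S hperF hper Per hPer hV0 hV2 _ hP
  exact S.classify_half C hδ hperF hper hPer hV0 hV2 hP

theorem seqClassify_out {δ : ℝ} (C : RigCerts3 δ) (hδ : 0 < δ) :
    SeqClassify fun v => v ≤ 53 / 200 ∨ 9 / 25 ≤ v := by
  intro F u ux uy uz S hperF hper Per hPer hV0 hV2 hV hP
  exact S.classify_direct C hδ hperF hper hPer hV0 hV2 hV hP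

section

variable {Q : ℝ → Prop}

/-- Sets of volume at most one half with the perimeter of the minimum are canonical. -/
theorem classify_set (K : SeqClassify Q) {E : Set (ℝ × ℝ × ℝ)} (hE : MeasurableSet E)
    (hp : IsPeriodicSet E) (hV0 : 0 < torusVol E) (hV2 : torusVol E ≤ 1 / 2) (hQ : Q (torusVol E))
    (hP : perimeter E ≤ ENNReal.ofReal (min (ballVal (torusVol E)) (min (tubeVal (torusVol E)) 2))) :
    IsCanonical E (torusVol E) := by
  obtain ⟨u, ux, uy, uz, S, hk, hper⟩ := exists_seq_per hE hp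
  have htop : perimeter E ≠ ⊤ := ne_top_of_le_ne_top ENNReal.ofReal_ne_top hP
  have hPer : ∀ k, energy3 (ux k) (uy k) (uz k) ≤ (perimeter E).toReal := fun k =>
    (ENNReal.ofReal_le_iff_le_toReal htop).1 (hk k)
  have hvol := vol3_indF hE
  have hJ0 : 0 ≤ min (ballVal (torusVol E)) (min (tubeVal (torusVol E)) 2) := by
    refine le_min ?_ (le_min ?_ (by norm_num))
    · unfold ballVal
      positivity
    · unfold tubeVal
      positivity
  have hle : (perimeter E).toReal ≤ min (ballVal (vol3 (indF E))) (min (tubeVal (vol3 (indF E))) 2) := by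
    rw [hvol]
    exact ENNReal.toReal_le_of_le_ofReal hJ0 hP
  have h := K S (per3_indF hp) hper hPer (by rw [hvol]; exact hV0)
    (by rw [hvol]; exact hV2) (by rw [hvol]; exact hQ) hle
  rw [hvol] at h
  exact canon_to_set hE h

/-- The same for the complement. -/
theorem classify_set_compl (K : SeqClassify Q) {E : Set (ℝ × ℝ × ℝ)}
    (hE : MeasurableSet E) (hp : IsPeriodicSet E) (hV0 : 0 < 1 - torusVol E)
    (hV2 : 1 - torusVol E ≤ 1 / 2) (hQ : Q (1 - torusVol E))
    (hP : perimeter E ≤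
      ENNReal.ofReal (min (ballVal (1 - torusVol E)) (min (tubeVal (1 - torusVol E)) 2))) :
    IsCanonical Eᶜ (1 - torusVol E) := by
  obtain ⟨u, ux, uy, uz, S, hk, hper⟩ := exists_seq_per hE hp
  have htop : perimeter E ≠ ⊤ := ne_top_of_le_ne_top ENNReal.ofReal_ne_top hP
  have hPer : ∀ k, energy3 (fun x y z => - ux k x y z) (fun x y z => - uy k x y z)
      (fun x y z => - uz k x y z) ≤ (perimeter E).toReal := fun k => by
    rw [Seq3.energy_compl]
    exact (ENNReal.ofReal_le_iff_le_toReal htop).1 (hk k)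
  have hvol : vol3 (fun x y z => 1 - indF E x y z) = 1 - torusVol E := by
    rw [S.vol3_compl, vol3_indF hE]
  have hJ0 : 0 ≤ min (ballVal (1 - torusVol E)) (min (tubeVal (1 - torusVol E)) 2) := by
    refine le_min ?_ (le_min ?_ (by norm_num))
    · unfold ballVal
      positivity
    · unfold tubeVal
      positivity
  have hle : (perimeter E).toReal ≤ min (ballVal (vol3 (fun x y z => 1 - indF E x y z)))
      (min (tubeVal (vol3 (fun x y z => 1 - indF E x y z))) 2) := by
    rw [hvol]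
    exact ENNReal.toReal_le_of_le_ofReal hJ0 hP
  have hperF : Per3 (fun x y z => 1 - indF E x y z) := by
    have h := per3_indF hp
    exact ⟨fun x y z => by simp only [h.perx], fun x y z => by simp only [h.pery],
      fun x y z => by simp only [h.perz]⟩
  have hper' : ∀ k, Per3 (fun x y z => 1 - u k x y z) ∧ Per3 (fun x y z => - ux k x y z) ∧
      Per3 (fun x y z => - uy k x y z) ∧ Per3 (fun x y z => - uz k x y z) := fun k => by
    obtain ⟨h1, h2, h3, h4⟩ := hper k
    exact ⟨⟨fun x y z => by simp only [h1.perx], fun x y z => by simp only [h1.pery],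
        fun x y z => by simp only [h1.perz]⟩,
      ⟨fun x y z => by simp only [h2.perx], fun x y z => by simp only [h2.pery],
        fun x y z => by simp only [h2.perz]⟩,
      ⟨fun x y z => by simp only [h3.perx], fun x y z => by simp only [h3.pery],
        fun x y z => by simp only [h3.perz]⟩,
      ⟨fun x y z => by simp only [h4.perx], fun x y z => by simp only [h4.pery],
        fun x y z => by simp only [h4.perz]⟩⟩
  have h := K S.compl hperF hper' hPer (by rw [hvol]; exact hV0)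
    (by rw [hvol]; exact hV2) (by rw [hvol]; exact hQ) hle
  rw [hvol, indF_compl] at h
  exact canon_to_set hE.compl h

end

/-- The classification for all the volumes with a given property. -/
theorem classify_all {Q : ℝ → Prop} (K : SeqClassify Q) {E : Set (ℝ × ℝ × ℝ)} (hE : MeasurableSet E)
    (hp : IsPeriodicSet E) (hV0 : 0 < torusVol E) (hV1 : torusVol E < 1)
    (hQ : Q (min (torusVol E) (1 - torusVol E)))
    (hP : perimeter E ≤ ENNReal.ofReal (min (ballVal (min (torusVol E) (1 - torusVol E)))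
      (min (tubeVal (min (torusVol E) (1 - torusVol E))) 2))) :
    IsCanonical E (min (torusVol E) (1 - torusVol E)) ∨
      IsCanonical Eᶜ (min (torusVol E) (1 - torusVol E)) := by
  rcases le_total (torusVol E) (1 - torusVol E) with h | h
  · rw [min_eq_left h] at hP hQ ⊢
    exact Or.inl (classify_set K hE hp hV0 (by linarith) hQ hP)
  · rw [min_eq_right h] at hP hQ ⊢
    exact Or.inr (classify_set_compl K hE hp (by linarith) (by linarith) hQ hP)

end Vale.Agent.Lib.P232
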