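import Vale.Agent.Lib.P232.RigCertA

/-!
# Node values for the profiles of the gap certificates

Values at the nodes for the minimum of profiles, for the profile `Ju`, and for the family of
arc bounds `Sb`.
-/

open MeasureTheory Filter Topology Set
open scoped Real

namespace Vale.Agent.Lib.P232

namespace Fast

open CertImpl

lemma nodeOK_of_le {N N' : ℕ → ℕ → ℕ} {f : ℝ → ℝ} (h : NodeOK N f)
    (hle : ∀ H S, N' H S ≤ N H S) : NodeOK N' f := by
  intro H S hS t ht0 ht1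
  refine le_trans (Real.sqrt_le_sqrt ?_) (h H S hS t ht0 ht1)
  have h1 : (N' H S : ℝ) ≤ N H S := by exact_mod_cast hle H S
  have h2 : (N' H (S + H) : ℝ) ≤ N H (S + H) := by exact_mod_cast hle H (S + H)
  have ht1' : 0 ≤ 1 - t := by linarith
  have h3 := mul_le_mul_of_nonneg_left
    (div_le_div_of_nonneg_right h1 (by norm_num : (0 : ℝ) ≤ 100000000000)) ht1'
  have h4 := mul_le_mul_of_nonneg_left
    (div_le_div_of_nonneg_right h2 (by norm_num : (0 : ℝ) ≤ 100000000000)) ht0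
  exact add_le_add h3 h4

lemma nodeOK_min {N N' : ℕ → ℕ → ℕ} {f f' : ℝ → ℝ} (h : NodeOK N f) (h' : NodeOK N' f') :
    NodeOK (fun H S => nmin (N H S) (N' H S)) (fun s => min (f s) (f' s)) := by
  intro H S hS t ht0 ht1
  exact le_min (nodeOK_of_le h (fun H S => nmin_le_left _ _) H S hS t ht0 ht1)
    (nodeOK_of_le h' (fun H S => nmin_le_right _ _) H S hS t ht0 ht1)

/-- Node values for `2 √(π s)`. -/
def NJ1 (_ S : ℕ) : ℕ := Nat.mul 1256636 S

lemma NJ1_ok : NodeOK NJ1 (fun s => 2 * √(π * s)) := by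
  intro H S hS t ht0 ht1
  have hpi : (3.14159 : ℝ) < π := by linarith [Real.pi_gt_d6]
  have ht1' : 0 ≤ 1 - t := by linarith
  have key : ∀ S : ℕ, (NJ1 H S : ℝ) / 100000000000 ≤ 4 * (π * sn S) := by
    intro S
    have e : ((NJ1 H S : ℕ) : ℝ) = 1256636 * S := by
      show ((1256636 * S : ℕ) : ℝ) = _
      rw [Nat.cast_mul]
      norm_num
    rw [e]
    unfold sn
    rw [div_le_iff₀ (by norm_num)]
    have hp : (0 : ℝ) ≤ S := Nat.cast_nonneg S
    have : 4 * (π * ((S : ℝ) / 1000000)) * 100000000000 = 400000 * π * S := by ring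
    rw [this]
    nlinarith
  show √_ ≤ 2 * √(π * _)
  rw [two_mul_sqrt]
  apply Real.sqrt_le_sqrt
  have e3 := mul_le_mul_of_nonneg_left (key S) ht1'
  have e4 := mul_le_mul_of_nonneg_left (key (S + H)) ht0
  have e5 : 4 * (π * ((1 - t) * sn S + t * sn (S + H)))
      = (1 - t) * (4 * (π * sn S)) + t * (4 * (π * sn (S + H))) := by ring
  rw [e5]
  exact add_le_add e3 e4

/-- Node values for the constant `2 √2`. -/
def NJ2 (_ _ : ℕ) : ℕ := 800000000000

lemma NJ2_ok : NodeOK NJ2 (fun _ => 2 * √2) := by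
  intro H S hS t ht0 ht1
  show √_ ≤ 2 * √2
  rw [two_mul_sqrt]
  apply Real.sqrt_le_sqrt
  have e : ((NJ2 H S : ℕ) : ℝ) = 800000000000 := by
    show ((800000000000 : ℕ) : ℝ) = _
    norm_num
  have e' : ((NJ2 H (S + H) : ℕ) : ℝ) = 800000000000 := by
    show ((800000000000 : ℕ) : ℝ) = _
    norm_num
  rw [e, e']
  have : (1 - t) * ((800000000000 : ℝ) / 100000000000) + t * ((800000000000 : ℝ) / 100000000000)
      = 8 := by ring
  rw [this]
  norm_num

/-- Node values for `Ju`. -/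
def NJu (H S : ℕ) : ℕ := nmin (NJ1 H S) (NJ2 H S)

lemma NJu_ok : NodeOK NJu Ju := nodeOK_min NJ1_ok NJ2_ok

/-! The arc bounds. -/

/-- A lower bound of `2 Epoly (j / 20)`, in units of `10⁻⁶`. -/
def ccB (j : ℕ) : ℕ :=
  (fun q => Nat.sub (Nat.sub (Nat.sub 2000000 (Nat.succ (Nat.div (Nat.mul 2500 q) 3)))
    (Nat.succ (Nat.div (Nat.mul 5 (Nat.mul q q)) 16)))
    (Nat.succ (Nat.div (Nat.mul 3 (Nat.mul q (Nat.mul q q))) 1792))) (Nat.mul j j)

lemma ccB_ge {j : ℕ} (hj : j ≤ 20) : 1509000 ≤ ccB j := by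
  interval_cases j <;> decide

lemma ccB_le {j : ℕ} (hj : j ≤ 20) :
    (ccB j : ℝ) ≤ 1000000 * (2 * Epoly ((j : ℝ) / 20)) := by
  have h : ccB j * 5376 + 2500 * j ^ 2 * 1792 + 5 * j ^ 4 * 336 + 9 * j ^ 6 ≤ 2000000 * 5376 := by
    interval_cases j <;> decide
  have h' : (ccB j : ℝ) * 5376 + 2500 * (j : ℝ) ^ 2 * 1792 + 5 * (j : ℝ) ^ 4 * 336
      + 9 * (j : ℝ) ^ 6 ≤ 2000000 * 5376 := by exact_mod_cast h
  unfold Epoly
  have e : 1000000 * (2 * (1 - ((j : ℝ) / 20) ^ 2 / 6 - ((j : ℝ) / 20) ^ 4 / 40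
      - 3 / 56 * ((j : ℝ) / 20) ^ 6))
      = (2000000 * 5376 - 2500 * (j : ℝ) ^ 2 * 1792 - 5 * (j : ℝ) ^ 4 * 336
        - 9 * (j : ℝ) ^ 6) / 5376 := by
    ring
  rw [e, le_div_iff₀ (by norm_num)]
  linarith

/-- The arc value for `p = j / 20`, height `B / 10⁶`, at `T / 10⁶`, in units of `10⁻⁶`. -/
def arcVN (B j T : ℕ) : ℕ :=
  Nat.div (Nat.sub (Nat.add (Nat.mul j T) (Nat.mul 10 (ccB j))) (Nat.mul B j)) 10

lemma arcVN_spec {B j T : ℕ} (hj : j = 0 ∨ B ≤ T) :
    10 * arcVN B j T + B * j ≤ j * T + 10 * ccB j ∧ ccB j ≤ arcVN B j T := by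
  have hle : B * j ≤ j * T := by
    rcases hj with rfl | h
    · simp
    · rw [Nat.mul_comm]
      exact Nat.mul_le_mul_left _ h
  have e : arcVN B j T = (j * T + 10 * ccB j - B * j) / 10 := rfl
  rw [e]
  generalize j * T = x at *
  generalize B * j = y at *
  generalize ccB j = z at *
  omega

/-- Node values for the arc bounds. -/
def NSbN (pk : ℕ → ℕ) (B H T : ℕ) : ℕ :=
  (fun a => Nat.sub (Nat.div (Nat.mul a a) 10) (Nat.succ (Nat.div (Nat.mul H H) 10)))
    (nmin (arcVN B (pk T) T) (arcVN B (pk (Nat.sub T H)) T))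

lemma NSbN_spec {pk : ℕ → ℕ} {B H T a : ℕ} (haT : arcVN B (pk T) T ≤ a ∨
    arcVN B (pk (Nat.sub T H)) T ≤ a)
    (hH : H ≤ nmin (arcVN B (pk T) T) (arcVN B (pk (Nat.sub T H)) T)) :
    10 * NSbN pk B H T + H * H ≤ a * a := by
  set b := nmin (arcVN B (pk T) T) (arcVN B (pk (Nat.sub T H)) T) with hb
  have hba : b ≤ a := by
    rcases haT with h | h
    · exact (nmin_le_left _ _).trans h
    · exact (nmin_le_right _ _).trans h
  have h1 : H * H ≤ b * b := Nat.mul_le_mul hH hH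
  have h2 : b * b ≤ a * a := Nat.mul_le_mul hba hba
  have e : NSbN pk B H T = b * b / 10 - (H * H / 10 + 1) := rfl
  rw [e]
  generalize b * b = x at *
  generalize H * H = y at *
  generalize a * a = z at *
  omega

lemma nmin_ge {a b c : ℕ} (h1 : c ≤ a) (h2 : c ≤ b) : c ≤ nmin a b := by
  unfold nmin
  cases Nat.ble a b <;> simp <;> assumption

/-- The interpolation of the squares of an affine function. -/
lemma arc_interp {X Y r₀ p h t : ℝ} (hp0 : 0 ≤ p) (hp1 : p ≤ 1) (hh0 : 0 ≤ h) (hr0 : h ≤ r₀)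
    (ht0 : 0 ≤ t) (ht1 : t ≤ 1) (hf0 : X ≤ r₀ ^ 2 - h ^ 2)
    (hf1 : Y ≤ (r₀ + 2 * p * h) ^ 2 - h ^ 2) :
    √((1 - t) * X + t * Y) ≤ r₀ + 2 * p * (t * h) := by
  have hr : 0 ≤ r₀ + 2 * p * (t * h) := by
    have : 0 ≤ 2 * p * (t * h) := by positivity
    linarith
  apply Real.sqrt_le_iff.2 ⟨hr, ?_⟩
  have ht1' : 0 ≤ 1 - t := by linarith
  have e3 := mul_le_mul_of_nonneg_left hf0 ht1'
  have e4 := mul_le_mul_of_nonneg_left hf1 ht0
  have hp2 : p ^ 2 ≤ 1 := by nlinarith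
  have htt : 0 ≤ 1 - 4 * t * (1 - t) := by nlinarith [sq_nonneg (2 * t - 1)]
  have htt0 : 0 ≤ 4 * t * (1 - t) := by positivity
  have hfin : 0 ≤ h ^ 2 * (1 - p ^ 2 * (4 * t * (1 - t))) := by
    apply mul_nonneg (sq_nonneg h)
    nlinarith
  nlinarith

lemma node_sq {N H a r h : ℝ} (hN : 10 * N + H * H ≤ a * a) (ha0 : 0 ≤ a) (ha : a ≤ 1000000 * r)
    (hH : H = 1000000 * h) : N / 100000000000 ≤ r ^ 2 - h ^ 2 := by
  have hq : a * a ≤ (1000000 * r) * (1000000 * r) := mul_le_mul ha ha ha0 (ha0.trans ha)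
  subst hH
  rw [div_le_iff₀ (by norm_num)]
  nlinarith

/-- The arc bound interpolated with a correction term. -/
theorem NSbN_ok {pk : ℕ → ℕ} {B : ℕ} {β : ℝ} (hB : (B : ℝ) = 1000000 * β)
    (h20 : ∀ T, pk T ≤ 20) (h0 : ∀ T, pk T = 0 ∨ B ≤ T) :
    NodeOK (NSbN pk B) (Sb β) := by
  intro H S hS t ht0 ht1
  set j := pk S with hj
  have hj20 : j ≤ 20 := h20 S
  have hj0 : j = 0 ∨ B ≤ S := h0 S
  have hj0' : j = 0 ∨ B ≤ S + H := hj0.imp_right (fun h => by omega)
  have hH1 : H ≤ 1000000 := by omega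
  refine le_trans ?_ (arcVal_le_Sb hj20 β _)
  set p : ℝ := (j : ℝ) / 20 with hp
  have hp0 : 0 ≤ p := by positivity
  have hp1 : p ≤ 1 := by
    have : (j : ℝ) ≤ 20 := by exact_mod_cast hj20
    rw [hp, div_le_one (by norm_num)]
    exact this
  -- the value at a node
  have hcc : ∀ {i : ℕ}, i ≤ 20 → 1000000 ≤ ccB i := fun hi => le_trans (by norm_num) (ccB_ge hi)
  have node : ∀ T : ℕ, (j = 0 ∨ B ≤ T) →
      (arcVN B j T : ℝ) ≤ 1000000 * arcVal p β (sn T) ∧ H ≤ arcVN B j T := by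
    intro T hT
    obtain ⟨h1, h2⟩ := arcVN_spec hT
    have h1' : 10 * (arcVN B j T : ℝ) + (B : ℝ) * j ≤ j * T + 10 * ccB j := by exact_mod_cast h1
    have h3 := ccB_le hj20
    constructor
    · rw [hB] at h1'
      unfold arcVal sn
      have e' : 1000000 * (2 * p * ((T : ℝ) / 1000000 - β) + 2 * Epoly p)
          = (j : ℝ) * T / 10 - 100000 * β * j + 1000000 * (2 * Epoly p) := by
        rw [hp]; ring
      rw [e']
      linarith
    · exact hH1.trans ((hcc hj20).trans h2)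
  obtain ⟨n0a, n0b⟩ := node S hj0
  obtain ⟨n1a, n1b⟩ := node (S + H) hj0'
  set r₀ := arcVal p β (sn S) with hr₀
  set h : ℝ := (H : ℝ) / 1000000 with hh
  have hh0 : 0 ≤ h := by positivity
  have hr₁ : arcVal p β (sn (S + H)) = r₀ + 2 * p * h := by
    rw [hr₀, hh]
    unfold arcVal sn
    push_cast
    ring
  rw [hr₁] at n1a
  have hs : arcVal p β ((1 - t) * sn S + t * sn (S + H)) = r₀ + 2 * p * (t * h) := by
    rw [hr₀, hh]
    unfold arcVal sn
    push_cast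
    ring
  rw [hs]
  -- the lower bounds of the values
  have hval0 : (H : ℝ) ≤ arcVN B j S := by exact_mod_cast n0b
  have hval1 : (H : ℝ) ≤ arcVN B j (S + H) := by exact_mod_cast n1b
  have hH0 : (0 : ℝ) ≤ H := Nat.cast_nonneg H
  have hr0 : h ≤ r₀ := by
    rw [hh, div_le_iff₀ (by norm_num)]
    linarith
  have hr1 : h ≤ r₀ + 2 * p * h := by
    rw [hh] at n1a ⊢
    rw [div_le_iff₀ (by norm_num)]
    nlinarith
  -- the bounds of the node values
  -- to be filled: the lower bound of the other term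
  have hlow : ∀ {T : ℕ}, H ≤ arcVN B (pk T) T → H ≤ arcVN B (pk (Nat.sub T H)) T →
      H ≤ nmin (arcVN B (pk T) T) (arcVN B (pk (Nat.sub T H)) T) := fun h1 h2 => nmin_ge h1 h2
  have hother : ∀ T : ℕ, H ≤ arcVN B (pk T) T := by
    intro T
    exact hH1.trans ((hcc (h20 T)).trans (arcVN_spec (h0 T)).2)
  have hother' : ∀ T U : ℕ, (pk U = 0 ∨ B ≤ T) → H ≤ arcVN B (pk U) T := by
    intro T U hU
    exact hH1.trans ((hcc (h20 U)).trans (arcVN_spec hU).2)
  have hN0 : 10 * NSbN pk B H S + H * H ≤ arcVN B j S * arcVN B j S := by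
    apply NSbN_spec (Or.inl (le_refl _))
    apply hlow (hother S)
    apply hother'
    rcases h0 (Nat.sub S H) with h1 | h1
    · exact Or.inl h1
    · right
      have : Nat.sub S H ≤ S := Nat.sub_le _ _
      omega
  have hN1 : 10 * NSbN pk B H (S + H) + H * H
      ≤ arcVN B j (S + H) * arcVN B j (S + H) := by
    have e : Nat.sub (S + H) H = S := by
      show S + H - H = S
      omega
    apply NSbN_spec (Or.inr (by rw [e]))
    apply hlow (hother (S + H))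
    rw [e]
    exact hother' _ _ hj0'
  have hN0' : 10 * (NSbN pk B H S : ℝ) + H * H ≤ (arcVN B j S : ℝ) * arcVN B j S := by
    exact_mod_cast hN0
  have hN1' : 10 * (NSbN pk B H (S + H) : ℝ) + H * H
      ≤ (arcVN B j (S + H) : ℝ) * arcVN B j (S + H) := by
    exact_mod_cast hN1
  have hHh : (H : ℝ) = 1000000 * h := by
    rw [hh]; ring
  have hf0 := node_sq hN0' (Nat.cast_nonneg _) n0a hHh
  have hf1 := node_sq hN1' (Nat.cast_nonneg _) n1a hHh
  exact arc_interp hp0 hp1 hh0 hr0 ht0 ht1 hf0 hf1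

end Fast

end Vale.Agent.Lib.P232
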