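import Vale.Agent.Lib.P232.RigProf

/-!
The profile theorem for the slices of a disc.
-/

open MeasureTheory Filter Topology Set
open scoped Real

namespace Vale.Agent.Lib.P232

lemma disc_rho {b s : ℝ} (hb : 0 < b) (hs : s ∈ Ioo 0 b) :
    rhoP (clampA b) (fun t => √(1 - clampA b t ^ 2)) (fun _ => 2) s =
      (s / b) / (√(1 - (s / b) ^ 2) * 2) := by
  unfold rhoP
  beta_reduce
  rw [clampA_eq hb hs.1.le hs.2.le]

/-- The position function of the disc. -/
noncomputable def discDf (b s : ℝ) : ℝ := b / 2 * (1 - √(1 - (s / b) ^ 2))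

/-- The first moment function of the disc. -/
noncomputable def discD1 (b s : ℝ) : ℝ :=
  b ^ 2 / 4 * (Real.arcsin (s / b) - s / b * √(1 - (s / b) ^ 2))

lemma disc_pos {b s : ℝ} (hb : 0 < b) (hs : s ∈ Ioo 0 b) :
    0 < s / b ∧ s / b < 1 ∧ 0 < 1 - (s / b) ^ 2 := by
  have h1 : 0 < s / b := div_pos hs.1 hb
  have h2 : s / b < 1 := (div_lt_one hb).2 hs.2
  exact ⟨h1, h2, by nlinarith⟩

lemma disc_h {b s : ℝ} (hb : 0 < b) (hs : s ∈ Ioo 0 b) :
    HasDerivAt (fun s => √(1 - (s / b) ^ 2)) (-(s / b) * (1 / b) / √(1 - (s / b) ^ 2)) s := by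
  obtain ⟨h1, h2, h3⟩ := disc_pos hb hs
  have h4 : HasDerivAt (fun s => s / b) (1 / b) s := by
    simpa using (hasDerivAt_id s).div_const b
  have h5 : HasDerivAt (fun s => 1 - (s / b) ^ 2) (-(2 * (s / b) * (1 / b))) s := by
    have := (h4.pow 2).const_sub 1
    simpa using this
  have h6 := h5.sqrt h3.ne'
  refine h6.congr_deriv ?_
  have h7 : 0 < √(1 - (s / b) ^ 2) := Real.sqrt_pos.2 h3
  generalize √(1 - (s / b) ^ 2) = x at h7 ⊢
  field_simp

lemma disc_dDf {b s : ℝ} (hb : 0 < b) (hs : s ∈ Ioo 0 b) :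
    HasDerivAt (discDf b)
      (rhoP (clampA b) (fun t => √(1 - clampA b t ^ 2)) (fun _ => 2) s) s := by
  rw [disc_rho hb hs]
  obtain ⟨h1, h2, h3⟩ := disc_pos hb hs
  have h := (((hasDerivAt_const s (1 : ℝ)).sub (disc_h hb hs)).const_mul (b / 2))
  refine h.congr_deriv ?_
  have h7 : 0 < √(1 - (s / b) ^ 2) := Real.sqrt_pos.2 h3
  generalize √(1 - (s / b) ^ 2) = x at h7 ⊢
  field_simp
  ring

lemma disc_dD1 {b s : ℝ} (hb : 0 < b) (hs : s ∈ Ioo 0 b) :
    HasDerivAt (discD1 b)
      (s * rhoP (clampA b) (fun t => √(1 - clampA b t ^ 2)) (fun _ => 2) s) s := by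
  rw [disc_rho hb hs]
  obtain ⟨h1, h2, h3⟩ := disc_pos hb hs
  have h4 : HasDerivAt (fun s => s / b) (1 / b) s := by
    simpa using (hasDerivAt_id s).div_const b
  have hA : HasDerivAt Real.arcsin (1 / √(1 - (s / b) ^ 2)) (s / b) :=
    Real.hasDerivAt_arcsin (by linarith) h2.ne
  have h5 : HasDerivAt (fun s => Real.arcsin (s / b)) (1 / √(1 - (s / b) ^ 2) * (1 / b)) s := by
    have h5' := hA.comp s h4
    simpa only [Function.comp_def] using h5'
  have hh := disc_h hb hs
  have h := ((h5.sub (h4.mul hh)).const_mul (b ^ 2 / 4))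
  refine h.congr_deriv ?_
  have h7 : 0 < √(1 - (s / b) ^ 2) := Real.sqrt_pos.2 h3
  have h8 : √(1 - (s / b) ^ 2) ^ 2 = 1 - (s / b) ^ 2 := Real.sq_sqrt h3.le
  generalize √(1 - (s / b) ^ 2) = x at h7 h8 ⊢
  have h9 : x ^ 2 = 1 - s ^ 2 / b ^ 2 := by rw [h8, div_pow]
  have hb' : b ≠ 0 := hb.ne'
  have hx : x ≠ 0 := h7.ne'
  field_simp
  field_simp at h9
  nlinarith

/-- The marginal of an optimal sequence at the disc value. -/
theorem Prof.disc_marginal {g g' W : ℕ → ℝ → ℝ} {G : ℝ → ℝ} (P : Prof g g' W G) {e₀ : ℕ → ℝ}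
    (he : Tendsto e₀ atTop (𝓝 0)) {b V : ℝ} (hb : 0 < b) (hb1 : b < 1) (hr : GoodRange g G 0 b)
    (h01 : ∀ t, 0 ≤ G t ∧ G t ≤ 1) (hV : ∫ t in (0 : ℝ)..1, G t = V)
    (htan : π * b ^ 2 = 4 * V)
    (hY : ∀ᵐ t ∂(volume.restrict (Ioc (0 : ℝ) 1)), ∀ c, (∃ᶠ k in atTop, W k t ≤ c) → 0 < G t → 2 ≤ c)
    (hE : ∀ k, ∫ t in (0 : ℝ)..1, √(g' k t ^ 2 + W k t ^ 2) ≤ 2 * √(π * V) + e₀ k) :
    ∃ c : ℝ, ∀ᵐ t, G t = 2 * √(max 0 (b ^ 2 / 4 - dZ (t - c) ^ 2)) := by
  have hpi := Real.pi_pos
  set Y : ℝ → ℝ := fun t => (Ioi (0 : ℝ)).indicator (fun _ => (2 : ℝ)) (G t) with hYd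
  have hYpos : ∀ {t}, 0 < G t → Y t = 2 := fun {t} h => by
    simp only [hYd]
    rw [indicator_of_mem (mem_Ioi.2 h)]
  have hYzero : ∀ {t}, ¬ 0 < G t → Y t = 0 := fun {t} h => by
    simp only [hYd]
    rw [indicator_of_notMem (by simpa using h)]
  have hmY : Measurable Y := (measurable_const.indicator measurableSet_Ioi).comp P.meas
  have hY0 : ∀ t, 0 ≤ Y t := fun t => by
    by_cases h : 0 < G t
    · rw [hYpos h]; norm_num
    · rw [hYzero h]
  have hYb : ∃ C, ∀ t, Y t ≤ C := by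
    refine ⟨2, fun t => ?_⟩
    by_cases h : 0 < G t
    · rw [hYpos h]
    · rw [hYzero h]; norm_num
  have hpY : ∀ t, Y (t + 1) = Y t := fun t => by
    simp only [hYd, P.perG]
  have hYW : ∀ᵐ t ∂(volume.restrict (Ioc (0 : ℝ) 1)), ∀ c, (∃ᶠ k in atTop, W k t ≤ c) → Y t ≤ c := by
    filter_upwards [hY] with t ht c hc
    by_cases h : 0 < G t
    · rw [hYpos h]
      exact ht c hc h
    · rw [hYzero h]
      obtain ⟨k, hk⟩ := hc.exists
      exact (P.W0 k t).trans hk
  have D := P.toData1 he h01 hmY hY0 hYb hpY hYW hE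
  have hmem : ∀ᵐ t, G t ∈ Icc 0 b := ae_per_restrict (fun t => by rw [P.perG]) hr.ae_mem
  have hL : 2 * √(π * V) = π * b := by
    have h1 : π * V = (π * b / 2) ^ 2 := by
      have : V = π * b ^ 2 / 4 := by linarith
      rw [this]
      ring
    rw [h1, Real.sqrt_sq (by positivity)]
    ring
  have hval : (∫ t in (0 : ℝ)..1, clampA b (G t) * Y t) +
      2 * ∫ s in (0 : ℝ)..b, √(1 - clampA b s ^ 2) = 2 * √(π * V) := by
    rw [clamp_integral hb, hL]
    have e1 : ∫ t in (0 : ℝ)..1, clampA b (G t) * Y t = ∫ t in (0 : ℝ)..1, 2 / b * G t := by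
      refine intervalIntegral.integral_congr_ae (hmem.mono fun t ht _ => ?_)
      rw [clampA_eq hb ht.1 ht.2]
      by_cases h : 0 < G t
      · rw [hYpos h]
        ring
      · rw [hYzero h]
        have : G t = 0 := le_antisymm (not_lt.1 h) ht.1
        rw [this]
        ring
    rw [e1, intervalIntegral.integral_const_mul, hV]
    have : V = π * b ^ 2 / 4 := by linarith
    rw [this]
    field_simp
    ring
  have hbb : b / b = 1 := div_self hb.ne'
  have Q : ProfData g g' W (fun k t => √(g' k t ^ 2 + W k t ^ 2)) G Y (fun k => 2 * √(π * V) + e₀ k)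
      (2 * √(π * V)) (clampA b) (fun t => √(1 - clampA b t ^ 2)) (fun _ => 2) (discDf b) (discD1 b) b :=
    { data := D
      pair := clamp_pair b
      hb := hb
      posA := fun s hs => by
        rw [clampA_eq hb hs.1.le hs.2.le]
        exact div_pos hs.1 hb
      posB := fun s hs => by
        rw [clampA_eq hb hs.1.le hs.2.le]
        exact Real.sqrt_pos.2 (disc_pos hb hs).2.2
      cJ := continuous_const
      posJ := fun s _ => by norm_num
      YJ := by
        filter_upwards with t ht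
        exact hYpos ht.1
      val := hval
      mem := hmem
      top := fun ε hε => by
        obtain ⟨x, -, h1, h2⟩ := hr.high ε hε
        exact ⟨x, h1, ⟨(h01 x).1, h2.2⟩, h2.1⟩
      low := fun ε hε => by
        obtain ⟨x, -, h1, h2⟩ := hr.low (min ε b) (lt_min hε hb)
        have h3 : G x < min ε b := by simpa using h2.2
        exact ⟨x, h1, ⟨(h01 x).1, (h3.trans_le (min_le_right _ _)).le⟩, h3.trans_le (min_le_left _ _)⟩
      dDf := fun s hs => disc_dDf hb hs
      cDf := by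
        have : Continuous (discDf b) := by
          unfold discDf
          fun_prop
        exact this.continuousOn
      dD1 := fun s hs => disc_dD1 hb hs
      cD1 := by
        have : Continuous (discD1 b) := by
          unfold discD1
          have := Real.continuous_arcsin
          fun_prop
        exact this.continuousOn
      vol := by
        rw [hV]
        unfold discD1
        simp only [hbb, zero_div, Real.arcsin_one, Real.arcsin_zero]
        norm_num
        have : V = π * b ^ 2 / 4 := by linarith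
        rw [this]
        ring
      width := by
        unfold discDf
        simp only [hbb, zero_div]
        norm_num
        linarith }
  obtain ⟨c, hc⟩ := Q.shape_dZ
  have hDb : discDf b b = b / 2 := by
    unfold discDf
    simp only [hbb]
    norm_num
  have hD0 : discDf b 0 = 0 := by
    unfold discDf
    simp
  refine ⟨c, ?_⟩
  filter_upwards [hc] with t ht
  rw [hDb, hD0, sub_zero] at ht
  have hd0 : 0 ≤ dZ (t - c) := abs_nonneg _
  rcases ht with ⟨h1, h2, h3⟩ | ⟨h1, h2⟩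
  · obtain ⟨h4, h5, h6⟩ := disc_pos hb h3
    have h7 : b / 2 * √(1 - (G t / b) ^ 2) = dZ (t - c) := by
      unfold discDf at h2
      linarith
    have h8 : √(1 - (G t / b) ^ 2) ^ 2 = 1 - (G t / b) ^ 2 := Real.sq_sqrt h6.le
    have h9 : (G t / 2) ^ 2 = b ^ 2 / 4 - dZ (t - c) ^ 2 := by
      rw [← h7, mul_pow, h8]
      field_simp
      ring
    have h10 : 0 ≤ b ^ 2 / 4 - dZ (t - c) ^ 2 := by
      rw [← h9]
      positivity
    rw [max_eq_right h10, ← h9, Real.sqrt_sq (by linarith [h3.1])]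
    ring
  · have h3 : (b / 2) ^ 2 < dZ (t - c) ^ 2 := pow_lt_pow_left₀ h1 (by positivity) (by norm_num)
    rw [h2, max_eq_left (by nlinarith)]
    simp

end Vale.Agent.Lib.P232
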