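import Vale.Agent.Lib.P232.RigArc
import Vale.Agent.Lib.P232.RigC
import Vale.Agent.Lib.P232.RigProfD
import Vale.Agent.Lib.P232.RigLor

/-!
# The classification in the plane

A sequence on the square two-torus with energy tending to the profile value has as its limit a
disc or a strip.
-/

open MeasureTheory Filter Topology Set
open scoped Real

namespace Vale.Agent.Lib.P232

lemma dZ_measurable : Measurable dZ := by
  have h : dZ = fun t => |t - ((⌊t + 1 / 2⌋ : ℤ) : ℝ)| := by
    funext t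
    simp [dZ, round_eq]
  rw [h]
  exact (measurable_id.sub (measurable_from_top.comp
    (Int.measurable_floor.comp (measurable_id.add_const _)))).abs

lemma arcFn_measurable (c w : ℝ) : Measurable (arcFn c w) := by
  unfold arcFn
  refine Measurable.ite ?_ measurable_const measurable_const
  exact measurableSet_lt (measurable_const.mul (dZ_measurable.comp (measurable_id.sub_const c)))
    measurable_const

lemma arcFn_bin (c w t : ℝ) : arcFn c w t = 0 ∨ arcFn c w t = 1 := by
  unfold arcFn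
  split_ifs <;> simp

lemma exists_of_ae_Ioc {p : ℝ → Prop} (h : ∀ᵐ t ∂(volume.restrict (Ioc (0 : ℝ) 1)), p t) :
    ∃ t ∈ Ioc (0 : ℝ) 1, p t := by
  have h1 : ∀ᵐ t ∂(volume.restrict (Ioc (0 : ℝ) 1)), t ∈ Ioc (0 : ℝ) 1 ∧ p t := by
    filter_upwards [ae_restrict_mem measurableSet_Ioc, h] with t h2 h3 using ⟨h2, h3⟩
  have h2 : (volume.restrict (Ioc (0 : ℝ) 1)) ≠ 0 := by
    intro h0
    have := Measure.restrict_eq_zero.1 h0
    simp at this
  have : NeBot (ae (volume.restrict (Ioc (0 : ℝ) 1))) := ae_neBot.2 h2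
  obtain ⟨t, h3, h4⟩ := h1.exists
  exact ⟨t, h3, h4⟩

lemma const_pair {A B : ℝ} (hA : 0 ≤ A) (hB : 0 ≤ B) (h : A ^ 2 + B ^ 2 ≤ 1) :
    CalibPair (fun _ => A) (fun _ => B) :=
  ⟨continuous_const, continuous_const, fun _ => hA, fun _ => hB, fun _ => h⟩

lemma sq_le_of_pairs {X D L : ℝ} (hX : 0 ≤ X) (hD : 0 ≤ D)
    (h : ∀ A B : ℝ, 0 ≤ A → 0 ≤ B → A ^ 2 + B ^ 2 ≤ 1 → A * X + B * D ≤ L) :
    X ^ 2 + D ^ 2 ≤ L ^ 2 ∧ 0 ≤ L := by
  have hL : 0 ≤ L := by simpa using h 0 0 le_rfl le_rfl (by norm_num)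
  refine ⟨?_, hL⟩
  set R := √(X ^ 2 + D ^ 2) with hR
  have hR2 : R ^ 2 = X ^ 2 + D ^ 2 := Real.sq_sqrt (by positivity)
  by_cases h0 : R = 0
  · have h3 : X ^ 2 + D ^ 2 = 0 := by
      rw [← hR2, h0]
      norm_num
    rw [h3]
    positivity
  have hRpos : 0 < R := lt_of_le_of_ne (Real.sqrt_nonneg _) (Ne.symm h0)
  have h1 := h (X / R) (D / R) (by positivity) (by positivity) (by
    rw [div_pow, div_pow, ← add_div, ← hR2, div_self (by positivity)])
  have h2 : X / R * X + D / R * D = R := by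
    field_simp
    nlinarith
  rw [h2] at h1
  rw [← hR2]
  exact pow_le_pow_left₀ hRpos.le h1 2

namespace Seq2

variable {F : ℝ → ℝ → ℝ} {v vx vy : ℕ → ℝ → ℝ → ℝ}

lemma exists_shift {Λ : ℝ} {e : ℕ → ℝ} (he : Tendsto e atTop (𝓝 0))
    (hΛ : ∀ k, ∫ x in (0 : ℝ)..1, ∫ y in (0 : ℝ)..1, √(vx k x y ^ 2 + vy k x y ^ 2) ≤ Λ + e k)
    {ε : ℝ} (hε : 0 < ε) :
    ∃ K : ℕ, ∀ k, ∫ x in (0 : ℝ)..1, ∫ y in (0 : ℝ)..1,
      √(vx (k + K) x y ^ 2 + vy (k + K) x y ^ 2) ≤ Λ + ε := by
  obtain ⟨K, hK⟩ := eventually_atTop.1 ((tendsto_order.1 he).2 ε hε)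
  exact ⟨K, fun k => (hΛ (k + K)).trans (by linarith [hK (k + K) (by omega)])⟩

/-- The calibration inequality in the limit. -/
lemma calib_lim (S : Seq2 F v vx vy) {Λ : ℝ} {e : ℕ → ℝ} (he : Tendsto e atTop (𝓝 0))
    (hΛ : ∀ k, ∫ x in (0 : ℝ)..1, ∫ y in (0 : ℝ)..1, √(vx k x y ^ 2 + vy k x y ^ 2) ≤ Λ + e k)
    {A B : ℝ → ℝ} (hp : CalibPair A B) {a b : ℝ}
    (hr : GoodRange (fun k => marg (v k)) (marg F) a b) :
    (∫ x in (0 : ℝ)..1, A (marg F x) * (2 * chi (marg F x))) + 2 * ∫ s in a..b, B s ≤ Λ := by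
  refine le_of_forall_pos_le_add fun ε hε => ?_
  obtain ⟨K, hK⟩ := exists_shift he hΛ hε
  have hφ : Tendsto (fun k => k + K) atTop atTop := tendsto_add_atTop_nat K
  exact (S.subseq hφ).calib_energy hp hK (GoodRange_comp hr hφ)

/-- The calibration with constants. -/
lemma calib_const (S : Seq2 F v vx vy) {Λ : ℝ} {e : ℕ → ℝ} (he : Tendsto e atTop (𝓝 0))
    (hΛ : ∀ k, ∫ x in (0 : ℝ)..1, ∫ y in (0 : ℝ)..1, √(vx k x y ^ 2 + vy k x y ^ 2) ≤ Λ + e k)
    {a b : ℝ} (hr : GoodRange (fun k => marg (v k)) (marg F) a b) {A B : ℝ} (hA : 0 ≤ A) (hB : 0 ≤ B)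
    (h : A ^ 2 + B ^ 2 ≤ 1) :
    A * (∫ x in (0 : ℝ)..1, 2 * chi (marg F x)) + B * (2 * (b - a)) ≤ Λ := by
  have h1 := S.calib_lim he hΛ (const_pair hA hB h) hr
  simp only [intervalIntegral.integral_const_mul, intervalIntegral.integral_const, smul_eq_mul]
    at h1
  simp only [intervalIntegral.integral_const_mul]
  nlinarith

lemma chi_integral_nonneg (F : ℝ → ℝ → ℝ) : 0 ≤ ∫ x in (0 : ℝ)..1, 2 * chi (marg F x) :=
  intervalIntegral.integral_nonneg zero_le_one fun x _ => mul_nonneg zero_le_two (chi_nonneg _)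

/-- The integrated form of the calibration with constants. -/
lemma calib_sq (S : Seq2 F v vx vy) {Λ : ℝ} {e : ℕ → ℝ} (he : Tendsto e atTop (𝓝 0))
    (hΛ : ∀ k, ∫ x in (0 : ℝ)..1, ∫ y in (0 : ℝ)..1, √(vx k x y ^ 2 + vy k x y ^ 2) ≤ Λ + e k)
    {a b : ℝ} (hr : GoodRange (fun k => marg (v k)) (marg F) a b) :
    (∫ x in (0 : ℝ)..1, 2 * chi (marg F x)) ^ 2 + (2 * (b - a)) ^ 2 ≤ Λ ^ 2 ∧ 0 ≤ Λ :=
  sq_le_of_pairs (chi_integral_nonneg F) (by linarith [hr.le])
    fun _ _ hA hB h => S.calib_const he hΛ hr hA hB h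

lemma chi_ae_zero (S : Seq2 F v vx vy)
    (h : ∫ x in (0 : ℝ)..1, 2 * chi (marg F x) = 0) :
    ∀ᵐ x ∂(volume.restrict (Ioc (0 : ℝ) 1)), marg F x = 0 ∨ marg F x = 1 := by
  rw [intervalIntegral.integral_of_le zero_le_one] at h
  have hi : Integrable (fun x => 2 * chi (marg F x)) (volume.restrict (Ioc (0 : ℝ) 1)) := by
    refine Integrable.of_bound (C := 2)
      ((chi_measurable.comp S.marg_measurable).const_mul 2).aestronglyMeasurable ?_
    refine Eventually.of_forall fun x => ?_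
    rw [Real.norm_eq_abs, abs_of_nonneg (mul_nonneg zero_le_two (chi_nonneg _))]
    linarith [chi_le_one (marg F x)]
  have h0 : (0 : ℝ → ℝ) ≤ᵐ[volume.restrict (Ioc (0 : ℝ) 1)] fun x => 2 * chi (marg F x) :=
    Eventually.of_forall fun x => mul_nonneg zero_le_two (chi_nonneg _)
  have h1 := (integral_eq_zero_iff_of_nonneg_ae h0 hi).1 h
  filter_upwards [h1] with x hx
  have h2 : chi (marg F x) = 0 := by
    have : 2 * chi (marg F x) = 0 := hx
    linarith
  unfold chi at h2
  by_contra hcon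
  push Not at hcon
  have h3 : 0 < marg F x := lt_of_le_of_ne (S.marg_nonneg x) (Ne.symm hcon.1)
  have h4 : marg F x < 1 := lt_of_le_of_ne (S.marg_le_one x) hcon.2
  rw [if_pos ⟨h3, h4⟩] at h2
  norm_num at h2

lemma marg_per {f : ℝ → ℝ → ℝ} (hf : Per2 f) (t : ℝ) : marg f (t + 1) = marg f t := by
  unfold marg
  exact intervalIntegral.integral_congr fun y _ => hf.perx t y

/-- A binary marginal gives a strip. -/
theorem arc_of_binary (S : Seq2 F v vx vy) (hF : Per2 F)
    (hv : ∀ k, Per2 (v k) ∧ Per2 (vx k) ∧ Per2 (vy k)) {e : ℕ → ℝ} (he : Tendsto e atTop (𝓝 0))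
    (hΛ : ∀ k, ∫ x in (0 : ℝ)..1, ∫ y in (0 : ℝ)..1, √(vx k x y ^ 2 + vy k x y ^ 2) ≤ 2 + e k)
    (hV0 : 0 < area F) (hV1 : area F < 1)
    (hbin : ∀ᵐ x ∂(volume.restrict (Ioc (0 : ℝ) 1)), marg F x = 0 ∨ marg F x = 1) :
    ∃ c, dist2 F (fun x _ => arcFn c (area F) x) = 0 := by
  set f : ℝ → ℝ := fun t => if marg F t = 1 then 1 else 0 with hf
  have hfm : Measurable f :=
    Measurable.ite (S.marg_measurable (measurableSet_singleton 1)) measurable_const measurable_const
  have h01 : ∀ t, f t = 0 ∨ f t = 1 := fun t => by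
    simp only [hf]
    split_ifs <;> simp
  have hGper := marg_per hF
  have hpf : ∀ t, f (t + 1) = f t := fun t => by simp only [hf, hGper]
  have hbin' : ∀ᵐ t, marg F t = 0 ∨ marg F t = 1 :=
    ae_per (fun t => by rw [hGper]) ((ae_restrict_iff' measurableSet_Ioc).1 hbin)
  have hfG : ∀ᵐ t, f t = marg F t := by
    filter_upwards [hbin'] with t ht
    rcases ht with h | h <;> simp [hf, h]
  have hconv : ∀ᵐ t, Tendsto (fun k => marg (v k) t) atTop (𝓝 (f t)) := by
    filter_upwards [S.ae_slice, hfG] with x hx h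
    rw [h]
    exact S.marg_conv hx
  have hint : ∫ t in (0 : ℝ)..1, f t = area F := by
    have h1 : area F = ∫ t in (0 : ℝ)..1, marg F t := rfl
    rw [h1, intervalIntegral.integral_of_le zero_le_one, intervalIntegral.integral_of_le zero_le_one]
    exact integral_congr_ae (ae_restrict_of_ae hfG)
  have hTV : ∀ k, ∫ t in (0 : ℝ)..1, |marg (vx k) t| ≤ 2 + e k := by
    intro k
    refine le_trans ?_ (hΛ k)
    have := S.energy_ge pair01 k
    simpa using this
  obtain ⟨c, hc⟩ := arc_lemma (v := fun k => marg (v k)) (v' := fun k => marg (vx k))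
    (S.marg_v_hasDerivAt) (S.marg_vx_cont) (fun k => by simpa using (marg_per (hv k).1 0).symm) hfm h01 (ae_restrict_of_ae hconv) he hTV
    (by rw [hint]; exact hV0) (by rw [hint]; exact hV1)
  refine ⟨c, ?_⟩
  rw [hint] at hc
  unfold dist2
  have h0 : ∀ᵐ x ∂(volume.restrict (Ioc (0 : ℝ) 1)),
      ∫ y in (0 : ℝ)..1, |F x y - arcFn c (area F) x| = 0 := by
    filter_upwards [hc, ae_restrict_of_ae hfG] with x h1 h2
    rw [← h1, h2]
    rcases h01 x with h3 | h3
    · have h4 : marg F x = 0 := by rw [← h2, h3]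
      rw [h4]
      have h5 : ∀ y, |F x y - 0| = F x y := fun y => by
        rcases S.bin x y with h | h <;> simp [h]
      simp only [h5]
      exact h4
    · have h4 : marg F x = 1 := by rw [← h2, h3]
      rw [h4]
      have h5 : ∀ y, |F x y - 1| = 1 - F x y := fun y => by
        rcases S.bin x y with h | h <;> simp [h]
      simp only [h5]
      rw [intervalIntegral.integral_sub intervalIntegrable_const (S.slice_integrable x)]
      have h6 : ∫ y in (0 : ℝ)..1, F x y = marg F x := rfl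
      rw [h6, h4]
      simp
  rw [intervalIntegral.integral_of_le zero_le_one, integral_congr_ae h0]
  simp

/-! ### Lines of constant mass -/

/-- The pointwise calibration with constants on a slice. -/
lemma slice_ge_const (S : Seq2 F v vx vy) (k : ℕ) (x : ℝ) {A B : ℝ} (h : A ^ 2 + B ^ 2 ≤ 1) :
    A * innerCost (vy k) x + B * ∫ y in (0 : ℝ)..1, |vx k x y| ≤
      ∫ y in (0 : ℝ)..1, √(vx k x y ^ 2 + vy k x y ^ 2) := by
  have hcvx : Continuous fun y => vx k x y := by
    have : Continuous fun y : ℝ => ((x, y) : ℝ × ℝ) := by fun_prop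
    exact (S.smooth k).contx.comp this
  have hcvy : Continuous fun y => vy k x y := by
    have : Continuous fun y : ℝ => ((x, y) : ℝ × ℝ) := by fun_prop
    exact (S.smooth k).conty.comp this
  have h1 : Continuous fun y => A * |vy k x y| := continuous_const.mul hcvy.abs
  have h2 : Continuous fun y => B * |vx k x y| := continuous_const.mul hcvx.abs
  unfold innerCost
  rw [← intervalIntegral.integral_const_mul, ← intervalIntegral.integral_const_mul,
    ← intervalIntegral.integral_add (h1.intervalIntegrable _ _) (h2.intervalIntegrable _ _)]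
  refine intervalIntegral.integral_mono_on zero_le_one
    ((h1.add h2).intervalIntegrable _ _)
    (((hcvx.pow 2).add (hcvy.pow 2)).sqrt.intervalIntegrable _ _) fun y _ => ?_
  have := cs_le (p := |vy k x y|) (q := |vx k x y|) h
  rw [sq_abs, sq_abs, add_comm (vy k x y ^ 2)] at this
  exact this

lemma energy_ge_const (S : Seq2 F v vx vy) (k : ℕ) {A B : ℝ} (h : A ^ 2 + B ^ 2 ≤ 1) :
    A * (∫ x in (0 : ℝ)..1, innerCost (vy k) x) + B * ∫ x in (0 : ℝ)..1, ∫ y in (0 : ℝ)..1, |vx k x y| ≤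
      ∫ x in (0 : ℝ)..1, ∫ y in (0 : ℝ)..1, √(vx k x y ^ 2 + vy k x y ^ 2) := by
  have hc1 : Continuous (innerCost (vy k)) := S.innerCost_cont k
  have hc2 : Continuous fun x => ∫ y in (0 : ℝ)..1, |vx k x y| :=
    marg_continuous (f := fun x y => |vx k x y|) (S.smooth k).contx.abs
  have hcq : Continuous fun q : ℝ × ℝ => √(vx k q.1 q.2 ^ 2 + vy k q.1 q.2 ^ 2) :=
    (((S.smooth k).contx.pow 2).add ((S.smooth k).conty.pow 2)).sqrt
  have hc3 : Continuous fun x => ∫ y in (0 : ℝ)..1, √(vx k x y ^ 2 + vy k x y ^ 2) :=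
    marg_continuous (f := fun x y => √(vx k x y ^ 2 + vy k x y ^ 2)) hcq
  have h1 : Continuous fun x => A * innerCost (vy k) x := continuous_const.mul hc1
  have h2 : Continuous fun x => B * ∫ y in (0 : ℝ)..1, |vx k x y| := continuous_const.mul hc2
  rw [← intervalIntegral.integral_const_mul, ← intervalIntegral.integral_const_mul,
    ← intervalIntegral.integral_add (h1.intervalIntegrable _ _) (h2.intervalIntegrable _ _)]
  exact intervalIntegral.integral_mono_on zero_le_one
    ((h1.add h2).intervalIntegrable _ _)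
    (hc3.intervalIntegrable _ _) fun x _ => S.slice_ge_const k x h

/-- The Cauchy trick: the energy in the other direction vanishes. -/
lemma cross_tendsto (S : Seq2 F v vx vy) {e : ℕ → ℝ} (he : Tendsto e atTop (𝓝 0))
    (hΛ : ∀ k, ∫ x in (0 : ℝ)..1, ∫ y in (0 : ℝ)..1, √(vx k x y ^ 2 + vy k x y ^ 2) ≤ 2 + e k)
    (hq : ∀ c < 2, ∀ᶠ k in atTop, c < ∫ x in (0 : ℝ)..1, innerCost (vy k) x) :
    Tendsto (fun k => ∫ x in (0 : ℝ)..1, ∫ y in (0 : ℝ)..1, |vx k x y|) atTop (𝓝 0) := by
  have hp0 : ∀ k, 0 ≤ ∫ x in (0 : ℝ)..1, ∫ y in (0 : ℝ)..1, |vx k x y| := fun k =>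
    intervalIntegral.integral_nonneg zero_le_one fun _ _ =>
      intervalIntegral.integral_nonneg zero_le_one fun _ _ => abs_nonneg _
  refine tendsto_order.2 ⟨fun a ha => Eventually.of_forall fun k => lt_of_lt_of_le ha (hp0 k),
    fun a ha => ?_⟩
  -- the parameters
  set t : ℝ := min (a / 8) 1 with ht
  have ht0 : 0 < t := lt_min (by positivity) one_pos
  have ht1 : t ≤ 1 := min_le_right _ _
  have ht2 : t ≤ a / 8 := min_le_left _ _
  set A : ℝ := √(1 - t ^ 2) with hA
  have h1t : 0 ≤ 1 - t ^ 2 := by nlinarith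
  have hA2 : A ^ 2 = 1 - t ^ 2 := Real.sq_sqrt h1t
  have hA3 : 1 - t ^ 2 ≤ A := by
    apply Real.le_sqrt_of_sq_le
    nlinarith [sq_nonneg t]
  set δ : ℝ := t * a / 8 with hδ
  have hδ0 : 0 < δ := by positivity
  filter_upwards [hq (2 - δ) (by linarith), (tendsto_order.1 he).2 δ hδ0] with k h1 h2
  have h3 := (S.energy_ge_const k (A := A) (B := t) (by rw [hA2]; linarith)).trans (hΛ k)
  set q := ∫ x in (0 : ℝ)..1, innerCost (vy k) x with hqq
  set p := ∫ x in (0 : ℝ)..1, ∫ y in (0 : ℝ)..1, |vx k x y| with hpp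
  have hq0 : 0 ≤ q := intervalIntegral.integral_nonneg zero_le_one fun _ _ => innerCost_nonneg _ _
  have h4 : (1 - t ^ 2) * q ≤ A * q := mul_le_mul_of_nonneg_right hA3 hq0
  have h5 : (1 - t ^ 2) * (2 - δ) ≤ (1 - t ^ 2) * q := mul_le_mul_of_nonneg_left h1.le h1t
  have h6 : t * p ≤ 2 * δ + 2 * t ^ 2 := by nlinarith [mul_nonneg (sq_nonneg t) hδ0.le]
  have h7 : t * p < t * a := by
    have : 2 * t ^ 2 ≤ 2 * t * (a / 8) := by nlinarith
    have h8 : 2 * δ = t * a / 4 := by rw [hδ]; ring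
    nlinarith
  exact lt_of_mul_lt_mul_left h7 ht0.le

/-- Slices at two points are close if the energy in the direction vanishes. -/
lemma slice_close (S : Seq2 F v vx vy) (k : ℕ) {x x' : ℝ} (hx : x ∈ Icc (0 : ℝ) 1)
    (hx' : x' ∈ Icc (0 : ℝ) 1) :
    ∫ y in (0 : ℝ)..1, |v k x y - v k x' y| ≤ ∫ t in (0 : ℝ)..1, ∫ y in (0 : ℝ)..1, |vx k t y| := by
  have hsq := square_swap_cont (f := fun t y => |vx k t y|) (S.smooth k).contx.abs
  rw [hsq]
  have hc : Continuous fun y => |v k x y - v k x' y| := (S.cont_v k x).sub (S.cont_v k x') |>.abs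
  have hc2 : Continuous fun y => ∫ t in (0 : ℝ)..1, |vx k t y| := by
    have h1 : Continuous fun q : ℝ × ℝ => |vx k q.2 q.1| :=
      ((S.smooth k).contx.comp (continuous_snd.prodMk continuous_fst)).abs
    exact marg_continuous (f := fun y t => |vx k t y|) h1
  refine intervalIntegral.integral_mono_on zero_le_one (hc.intervalIntegrable _ _)
    (hc2.intervalIntegrable _ _) fun y _ => ?_
  have hd : ∀ t, HasDerivAt (fun s => v k s y) (vx k t y) t := fun t => (S.smooth k).dx t y
  have hcx : Continuous fun t => vx k t y := by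
    have : Continuous fun t : ℝ => ((t, y) : ℝ × ℝ) := by fun_prop
    exact (S.smooth k).contx.comp this
  have key : ∀ u u' : ℝ, u ∈ Icc (0 : ℝ) 1 → u' ∈ Icc (0 : ℝ) 1 → u ≤ u' →
      |v k u' y - v k u y| ≤ ∫ t in (0 : ℝ)..1, |vx k t y| := by
    intro u u' hu hu' huu
    refine (abs_sub_le_integral_abs hd hcx huu).trans ?_
    exact intervalIntegral.integral_mono_interval hu.1 huu hu'.2
      (Eventually.of_forall fun t => abs_nonneg _) (hcx.abs.intervalIntegrable _ _)
  rcases le_total x x' with h | h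
  · rw [abs_sub_comm]
    exact key _ _ hx hx' h
  · exact key _ _ hx' hx h

/-- If the energy in a direction vanishes, the marginal in the other direction is binary. -/
theorem swap_binary (S : Seq2 F v vx vy)
    (hp : Tendsto (fun k => ∫ x in (0 : ℝ)..1, ∫ y in (0 : ℝ)..1, |vx k x y|) atTop (𝓝 0)) :
    ∀ᵐ y ∂(volume.restrict (Ioc (0 : ℝ) 1)),
      marg (fun x y => F y x) y = 0 ∨ marg (fun x y => F y x) y = 1 := by
  obtain ⟨x₀, hx₀, hg₀⟩ := exists_of_ae_Ioc (ae_restrict_of_ae S.ae_slice)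
  have h1 : ∀ᵐ x ∂(volume.restrict (Ioc (0 : ℝ) 1)), ∀ᵐ y ∂(volume.restrict (Ioc (0 : ℝ) 1)),
      F x y = F x₀ y := by
    filter_upwards [ae_restrict_mem measurableSet_Ioc, ae_restrict_of_ae S.ae_slice] with x hx hg
    have hlim : Tendsto (fun k => ∫ y in (0 : ℝ)..1, |v k x y - v k x₀ y|) atTop
        (𝓝 (∫ y in (0 : ℝ)..1, |F x y - F x₀ y|)) := by
      refine intervalIntegral.tendsto_integral_filter_of_dominated_convergence
        (bound := fun _ => 1) ?_ ?_ intervalIntegrable_const ?_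
      · exact Eventually.of_forall fun k =>
          ((S.cont_v k x).sub (S.cont_v k x₀)).abs.aestronglyMeasurable
      · refine Eventually.of_forall fun k => Eventually.of_forall fun y _ => ?_
        rw [Real.norm_eq_abs, abs_abs, abs_le]
        have h2 := S.bdd k x y
        have h3 := S.bdd k x₀ y
        constructor <;> linarith [h2.1, h2.2, h3.1, h3.2]
      · filter_upwards [hg, hg₀] with y h2 h3 _ using (h2.sub h3).abs
    have hle : ∫ y in (0 : ℝ)..1, |F x y - F x₀ y| ≤ 0 :=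
      le_of_tendsto_of_tendsto' hlim hp fun k =>
        S.slice_close k ⟨hx.1.le, hx.2⟩ ⟨hx₀.1.le, hx₀.2⟩
    have hge : 0 ≤ ∫ y in (0 : ℝ)..1, |F x y - F x₀ y| :=
      intervalIntegral.integral_nonneg zero_le_one fun _ _ => abs_nonneg _
    have heq : ∫ y in (0 : ℝ)..1, |F x y - F x₀ y| = 0 := le_antisymm hle hge
    rw [intervalIntegral.integral_of_le zero_le_one] at heq
    have hi : Integrable (fun y => |F x y - F x₀ y|) (volume.restrict (Ioc (0 : ℝ) 1)) := by
      refine Integrable.of_bound (C := 1)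
        (((S.slice_meas x).sub (S.slice_meas x₀)).abs).aestronglyMeasurable ?_
      refine Eventually.of_forall fun y => ?_
      rw [Real.norm_eq_abs, abs_abs]
      rcases S.bin x y with h | h <;> rcases S.bin x₀ y with h' | h' <;> simp [h, h']
    have h0 : (0 : ℝ → ℝ) ≤ᵐ[volume.restrict (Ioc (0 : ℝ) 1)] fun y => |F x y - F x₀ y| :=
      Eventually.of_forall fun y => abs_nonneg _
    have h2 := (integral_eq_zero_iff_of_nonneg_ae h0 hi).1 heq
    filter_upwards [h2] with y hy
    have : |F x y - F x₀ y| = 0 := hy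
    rw [abs_eq_zero] at this
    linarith
  have hm : MeasurableSet {q : ℝ × ℝ | F q.1 q.2 = F x₀ q.2} :=
    measurableSet_eq_fun S.meas ((S.slice_meas x₀).comp measurable_snd)
  have h2 := (Measure.ae_ae_comm hm).1 h1
  filter_upwards [h2] with y hy
  have h3 : marg (fun x y => F y x) y = F x₀ y := by
    unfold marg
    rw [intervalIntegral.integral_of_le zero_le_one, integral_congr_ae hy]
    simp
  rw [h3]
  exact S.bin x₀ y

/-! ### Transposition of the strips -/

lemma dist2_swap (S : Seq2 F v vx vy) {φ : ℝ → ℝ} (hφ : Measurable φ)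
    (h01 : ∀ t, φ t = 0 ∨ φ t = 1) :
    dist2 (fun x y => F y x) (fun x _ => φ x) = dist2 F (fun _ y => φ y) := by
  unfold dist2
  refine square_swap (f := fun x y => |F y x - φ x|) ?_
  refine Integrable.of_bound (C := 1) ?_ ?_
  · have h1 : Measurable fun q : ℝ × ℝ => |F q.2 q.1 - φ q.1| :=
      (S.swap.meas.sub (hφ.comp measurable_fst)).abs
    exact h1.aestronglyMeasurable
  · refine Eventually.of_forall fun q => ?_
    rcases S.bin q.2 q.1 with h | h <;> rcases h01 q.1 with h' | h' <;>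
      simp [Function.uncurry, h, h']

lemma dist2_swap' (S : Seq2 F v vx vy) {φ : ℝ → ℝ} (hφ : Measurable φ)
    (h01 : ∀ t, φ t = 0 ∨ φ t = 1) :
    dist2 (fun x y => F y x) (fun _ y => φ y) = dist2 F (fun x _ => φ x) := by
  unfold dist2
  refine square_swap (f := fun x y => |F y x - φ y|) ?_
  refine Integrable.of_bound (C := 1) ?_ ?_
  · have h1 : Measurable fun q : ℝ × ℝ => |F q.2 q.1 - φ q.2| :=
      (S.swap.meas.sub (hφ.comp measurable_snd)).abs
    exact h1.aestronglyMeasurable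
  · refine Eventually.of_forall fun q => ?_
    rcases S.bin q.2 q.1 with h | h <;> rcases h01 q.2 with h' | h' <;>
      simp [Function.uncurry, h, h']

/-! ### The disc case -/

/-- The Minkowski inequality on a slice. -/
lemma slice_minkowski (S : Seq2 F v vx vy) (k : ℕ) (x : ℝ) :
    √(marg (vx k) x ^ 2 + innerCost (vy k) x ^ 2) ≤
      ∫ y in (0 : ℝ)..1, √(vx k x y ^ 2 + vy k x y ^ 2) := by
  have h1 := sq_le_of_pairs (X := innerCost (vy k) x) (D := ∫ y in (0 : ℝ)..1, |vx k x y|)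
    (L := ∫ y in (0 : ℝ)..1, √(vx k x y ^ 2 + vy k x y ^ 2)) (innerCost_nonneg _ _)
    (intervalIntegral.integral_nonneg zero_le_one fun _ _ => abs_nonneg _)
    (fun _ _ _ _ h => S.slice_ge_const k x h)
  have h2 : |marg (vx k) x| ≤ ∫ y in (0 : ℝ)..1, |vx k x y| :=
    intervalIntegral.abs_integral_le_integral_abs zero_le_one
  have h3 : marg (vx k) x ^ 2 ≤ (∫ y in (0 : ℝ)..1, |vx k x y|) ^ 2 := by
    rw [← sq_abs]
    exact pow_le_pow_left₀ (abs_nonneg _) h2 2
  apply Real.sqrt_le_iff.2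
  exact ⟨h1.2, by linarith [h1.1]⟩

/-- The profile of a sequence. -/
lemma prof_of (S : Seq2 F v vx vy) (hF : Per2 F)
    (hv : ∀ k, Per2 (v k) ∧ Per2 (vx k) ∧ Per2 (vy k)) :
    Prof (fun k => marg (v k)) (fun k => marg (vx k)) (fun k => innerCost (vy k)) (marg F) where
  deriv := S.marg_v_hasDerivAt
  contD := S.marg_vx_cont
  contW := S.innerCost_cont
  W0 := fun k t => innerCost_nonneg _ _
  perg := fun k t => marg_per (hv k).1 t
  perW := fun k t => by
    unfold innerCost
    exact intervalIntegral.integral_congr fun y _ => by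
      show |vy k (t + 1) y| = |vy k t y|
      rw [(hv k).2.2.perx t y]
  meas := S.marg_measurable
  perG := marg_per hF
  conv := by
    filter_upwards [S.ae_slice] with x hx using S.marg_conv hx

lemma amgm_sq {b s Λ : ℝ} (hb : 0 < b) (hs : 0 ≤ s) (h1 : 2 / b * s + 2 * (b * (π / 4)) ≤ Λ)
    (h2 : Λ ≤ 2 * √(π * s)) : π * b ^ 2 = 4 * s := by
  have hpi := Real.pi_pos
  set x := √(π * s) with hx
  have hx2 : x ^ 2 = π * s := Real.sq_sqrt (by positivity)
  have hs' : s = x ^ 2 / π := by field_simp; linarith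
  have h3 : 2 / b * s + 2 * (b * (π / 4)) - 2 * x = 2 / (π * b) * (x - π * b / 2) ^ 2 := by
    rw [hs']
    field_simp
    ring
  have h4 : 2 / (π * b) * (x - π * b / 2) ^ 2 ≤ 0 := by linarith
  have h5 : 0 < 2 / (π * b) := by positivity
  have h6 : (x - π * b / 2) ^ 2 ≤ 0 := by
    by_contra hc
    push Not at hc
    have := mul_pos h5 hc
    linarith
  have h7 : x - π * b / 2 = 0 := by
    have : (x - π * b / 2) ^ 2 = 0 := le_antisymm h6 (sq_nonneg _)
    exact pow_eq_zero_iff (by norm_num) |>.1 this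
  have h8 : x = π * b / 2 := by linarith
  rw [h8] at hx2
  have h9 : π * (π * b ^ 2 - 4 * s) = 0 := by nlinarith
  have h10 := (mul_eq_zero.1 h9).resolve_left hpi.ne'
  linarith

/-- The analysis of one direction. -/
theorem dir_cases (S : Seq2 F v vx vy) (hF : Per2 F)
    (hv : ∀ k, Per2 (v k) ∧ Per2 (vx k) ∧ Per2 (vy k))
    {Λ : ℝ} {e : ℕ → ℝ} (he : Tendsto e atTop (𝓝 0))
    (hΛ : ∀ k, ∫ x in (0 : ℝ)..1, ∫ y in (0 : ℝ)..1, √(vx k x y ^ 2 + vy k x y ^ 2) ≤ Λ + e k)
    (hV0 : 0 < area F) (hV : area F ≤ 1 / 2) (hΛV : Λ ≤ I2 (area F)) :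
    (∃ c r, 0 < r ∧ r ≤ 1 / 2 ∧ π * r ^ 2 = area F ∧ ∀ᵐ x ∂(volume.restrict (Ioc (0 : ℝ) 1)),
      marg F x = 2 * √(max 0 (r ^ 2 - dZ (x - c) ^ 2))) ∨
    (∃ c, dist2 F (fun x _ => arcFn c (area F) x) = 0) ∨
    (∃ c, dist2 F (fun _ y => arcFn c (area F) y) = 0) := by
  have hconv : ∀ᵐ t, Tendsto (fun k => marg (v k) t) atTop (𝓝 (marg F t)) := by
    filter_upwards [S.ae_slice] with x hx using S.marg_conv hx
  obtain ⟨a, b, hr⟩ := exists_goodRange S.marg_nonneg S.marg_le_one hconv
  have hI1 : Λ ≤ 2 * √(π * area F) := hΛV.trans (min_le_left _ _)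
  have hI2 : Λ ≤ 2 := hΛV.trans ((min_le_right _ _).trans (min_le_left _ _))
  have hΛ2 : ∀ k, ∫ x in (0 : ℝ)..1, ∫ y in (0 : ℝ)..1, √(vx k x y ^ 2 + vy k x y ^ 2) ≤ 2 + e k :=
    fun k => (hΛ k).trans (by linarith)
  have hV1 : area F < 1 := by linarith
  have hsq := S.calib_sq he hΛ hr
  have hL4 : Λ ^ 2 ≤ 4 := by nlinarith [hsq.2]
  rcases hr.nonneg.eq_or_lt with ha | ha
  · -- infimum zero
    subst ha
    rcases hr.le_one.lt_or_eq with hb | hb
    · -- the disc case
      left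
      have hb0 : 0 < b := by
        rcases hr.le.eq_or_lt with h | h
        · exfalso
          have h1 : ∀ᵐ x ∂(volume.restrict (Ioc (0 : ℝ) 1)), marg F x = 0 := by
            filter_upwards [hr.ae_mem] with x hx
            rw [← h] at hx
            exact le_antisymm hx.2 hx.1
          have h2 : area F = 0 := by
            change ∫ x in (0 : ℝ)..1, marg F x = 0
            rw [intervalIntegral.integral_of_le zero_le_one, integral_congr_ae h1]
            simp
          linarith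
        · exact h
      have hline := S.range_top_of_line hr hb
      have hval : 2 / b * area F + 2 * (b * (π / 4)) ≤ Λ := by
        refine le_of_forall_pos_le_add fun ε hε => ?_
        obtain ⟨K, hK⟩ := exists_shift he hΛ hε
        have hφ : Tendsto (fun k => k + K) atTop atTop := tendsto_add_atTop_nat K
        have h1 := (S.subseq hφ).clamp_value hK (GoodRange_comp hr hφ) hb0
        rwa [hline, sub_zero] at h1
      have htan := amgm_sq hb0 S.area_nonneg hval hI1
      obtain ⟨c, hc⟩ := Prof.disc_marginal (S.prof_of hF hv) he hb0 hb hr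
        (fun t => ⟨S.marg_nonneg t, S.marg_le_one t⟩) (V := area F) rfl htan
        (by
          filter_upwards [ae_restrict_of_ae S.ae_slice, hr.ae_mem] with x hx hm c hfr hpos
          have h1 := S.inner_liminf hx c hfr
          have h2 : chi (marg F x) = 1 := by
            unfold chi
            rw [if_pos ⟨hpos, lt_of_le_of_lt hm.2 hb⟩]
          rw [h2, mul_one] at h1
          exact h1)
        (fun k => by
          have hcq : Continuous fun q : ℝ × ℝ => √(vx k q.1 q.2 ^ 2 + vy k q.1 q.2 ^ 2) :=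
            (((S.smooth k).contx.pow 2).add ((S.smooth k).conty.pow 2)).sqrt
          have hc3 : Continuous fun x => ∫ y in (0 : ℝ)..1, √(vx k x y ^ 2 + vy k x y ^ 2) :=
            marg_continuous (f := fun x y => √(vx k x y ^ 2 + vy k x y ^ 2)) hcq
          have hc4 : Continuous fun t => √(marg (vx k) t ^ 2 + innerCost (vy k) t ^ 2) :=
            (((S.marg_vx_cont k).pow 2).add ((S.innerCost_cont k).pow 2)).sqrt
          refine le_trans (intervalIntegral.integral_mono_on zero_le_one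
            (hc4.intervalIntegrable _ _) (hc3.intervalIntegrable _ _)
            fun x _ => S.slice_minkowski k x) ?_
          linarith [hΛ k])
      refine ⟨c, b / 2, by positivity, by linarith, by nlinarith, ?_⟩
      filter_upwards [ae_restrict_of_ae hc] with x hx
      rw [hx]
      congr 3
      ring
    · -- the strip with the slices as variable
      right
      left
      subst hb
      have h1 : (∫ x in (0 : ℝ)..1, 2 * chi (marg F x)) ^ 2 ≤ 0 := by
        have := hsq.1
        nlinarith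
      have h2 : ∫ x in (0 : ℝ)..1, 2 * chi (marg F x) = 0 :=
        pow_eq_zero_iff (n := 2) (by norm_num) |>.1 (le_antisymm h1 (sq_nonneg _))
      exact S.arc_of_binary hF hv he hΛ2 hV0 hV1 (S.chi_ae_zero h2)
  · rcases hr.le_one.lt_or_eq with hb | hb
    · -- all lines are nontrivial: the strip with the other variable
      right
      right
      have hline := S.range_top_of_line hr hb
      have hq : ∀ c < 2, ∀ᶠ k in atTop, c < ∫ x in (0 : ℝ)..1, innerCost (vy k) x := by
        intro c hc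
        exact S.eventually_cost hr ha (by rw [hline]; linarith)
      have hp := S.cross_tendsto he hΛ2 hq
      have hbin := S.swap_binary hp
      have hΛ' : ∀ k, ∫ x in (0 : ℝ)..1, ∫ y in (0 : ℝ)..1,
          √(vy k y x ^ 2 + vx k y x ^ 2) ≤ 2 + e k := fun k => by
        rw [S.energy_swap k]
        exact hΛ2 k
      have hv' : ∀ k, Per2 (fun x y => v k y x) ∧ Per2 (fun x y => vy k y x) ∧
          Per2 (fun x y => vx k y x) := fun k =>
        ⟨⟨fun x y => (hv k).1.pery y x, fun x y => (hv k).1.perx y x⟩,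
          ⟨fun x y => (hv k).2.2.pery y x, fun x y => (hv k).2.2.perx y x⟩,
          ⟨fun x y => (hv k).2.1.pery y x, fun x y => (hv k).2.1.perx y x⟩⟩
      have hF' : Per2 fun x y => F y x := ⟨fun x y => hF.pery y x, fun x y => hF.perx y x⟩
      obtain ⟨c, hc⟩ := S.swap.arc_of_binary hF' hv' he hΛ'
        (by rw [S.area_swap]; exact hV0) (by rw [S.area_swap]; exact hV1) hbin
      refine ⟨c, ?_⟩
      rw [S.area_swap, S.dist2_swap (arcFn_measurable _ _) (arcFn_bin _ _)] at hc
      exact hc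
    · -- impossible for small volumes
      exfalso
      have hr' : GoodRange (fun k => marg (v k)) (marg F) a 1 := hb ▸ hr
      have h1 : 2 * √(π * (1 - area F)) ≤ Λ := by
        refine le_of_forall_pos_le_add fun ε hε => ?_
        obtain ⟨K, hK⟩ := exists_shift he hΛ hε
        have hφ : Tendsto (fun k => k + K) atTop atTop := tendsto_add_atTop_nat K
        exact (S.subseq hφ).compl_disc_bound hK (GoodRange_comp hr' hφ) ha
      have h2 : √(π * (1 - area F)) ≤ 1 := by linarith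
      have h3 : π * (1 - area F) ≤ 1 := by
        have := Real.sqrt_le_iff.1 h2
        nlinarith [this.2]
      nlinarith [Real.pi_gt_three]

/-- The classification in the plane. -/
theorem classify (S : Seq2 F v vx vy)
    (hF : Per2 F) (hv : ∀ k, Per2 (v k) ∧ Per2 (vx k) ∧ Per2 (vy k))
    {Λ : ℝ} {e : ℕ → ℝ} (he : Tendsto e atTop (𝓝 0))
    (hΛ : ∀ k, ∫ x in (0 : ℝ)..1, ∫ y in (0 : ℝ)..1, √(vx k x y ^ 2 + vy k x y ^ 2) ≤ Λ + e k)
    (hV0 : 0 < area F) (hV : area F ≤ 1 / 2) (hΛV : Λ ≤ I2 (area F)) :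
    (∃ c₁ c₂ r, 0 < r ∧ π * r ^ 2 = area F ∧ dist2 F (discFn c₁ c₂ r) = 0) ∨
    (∃ c, dist2 F (fun x _ => arcFn c (area F) x) = 0) ∨
    (∃ c, dist2 F (fun _ y => arcFn c (area F) y) = 0) := by
  have hΛ' : ∀ k, ∫ x in (0 : ℝ)..1, ∫ y in (0 : ℝ)..1,
      √(vy k y x ^ 2 + vx k y x ^ 2) ≤ Λ + e k := fun k => by
    rw [S.energy_swap k]
    exact hΛ k
  have hv' : ∀ k, Per2 (fun x y => v k y x) ∧ Per2 (fun x y => vy k y x) ∧
      Per2 (fun x y => vx k y x) := fun k =>
    ⟨⟨fun x y => (hv k).1.pery y x, fun x y => (hv k).1.perx y x⟩,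
      ⟨fun x y => (hv k).2.2.pery y x, fun x y => (hv k).2.2.perx y x⟩,
      ⟨fun x y => (hv k).2.1.pery y x, fun x y => (hv k).2.1.perx y x⟩⟩
  have hF' : Per2 fun x y => F y x := ⟨fun x y => hF.pery y x, fun x y => hF.perx y x⟩
  rcases S.dir_cases hF hv he hΛ hV0 hV hΛV with h1 | h1 | h1
  · rcases S.swap.dir_cases hF' hv' he hΛ' (by rw [S.area_swap]; exact hV0)
      (by rw [S.area_swap]; exact hV) (by rw [S.area_swap]; exact hΛV) with h2 | h2 | h2
    · obtain ⟨c₁, r, hr0, hr1, hr2, hm1⟩ := h1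
      obtain ⟨c₂, r', hr0', hr1', hr2', hm2⟩ := h2
      rw [S.area_swap] at hr2'
      have hrr : r' = r := by
        have hpi := Real.pi_pos
        have h3 : π * (r' ^ 2 - r ^ 2) = 0 := by linarith
        have h4 := (mul_eq_zero.1 h3).resolve_left hpi.ne'
        nlinarith
      subst hrr
      left
      exact ⟨c₁, c₂, r', hr0, hr2, lorentz_disc S.meas S.bin hr0 hr1 hm1 hm2⟩
    · obtain ⟨c, hc⟩ := h2
      right
      right
      refine ⟨c, ?_⟩
      rw [S.area_swap, S.dist2_swap (arcFn_measurable _ _) (arcFn_bin _ _)] at hc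
      exact hc
    · obtain ⟨c, hc⟩ := h2
      right
      left
      refine ⟨c, ?_⟩
      rw [S.area_swap, S.dist2_swap' (arcFn_measurable _ _) (arcFn_bin _ _)] at hc
      exact hc
  · right
    left
    exact h1
  · right
    right
    exact h1

end Seq2

end Vale.Agent.Lib.P232
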