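import Vale.Agent.Lib.P232.RigE
import Vale.Agent.Lib.P232.RigDefs

/-!
Shared tools for the two instances of the profile theorem.
-/

open MeasureTheory Filter Topology Set
open scoped Real

namespace Vale.Agent.Lib.P232

lemma dZ_add_one' (t : ℝ) : dZ (t + 1) = dZ t := by
  unfold dZ
  rw [round_add_one]
  push_cast
  congr 1
  ring

lemma dZ_ge_of {x w : ℝ} (h1 : w ≤ |x|) (h2 : |x| ≤ 1 - w) : w ≤ dZ x := by
  unfold dZ
  by_cases hn : round x = 0
  · rw [hn]
    simpa using h1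
  · have h3 : (1 : ℝ) ≤ |((round x : ℤ) : ℝ)| := by
      have : (1 : ℤ) ≤ |round x| := Int.one_le_abs hn
      exact_mod_cast this
    have h4 : |((round x : ℤ) : ℝ)| - |x| ≤ |x - round x| := by
      rw [abs_sub_comm]
      exact abs_sub_abs_le_abs_sub _ _
    linarith

lemma dZ_eq_abs_of {x : ℝ} (h : |x| ≤ 1 / 2) : dZ x = |x| := by
  apply le_antisymm
  · have := round_le x 0
    simpa [dZ] using this
  · exact dZ_ge_of le_rfl (by linarith)

/-- A periodic property holding almost everywhere on a period holds almost everywhere. -/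
lemma ae_per_shift {p : ℝ → Prop} (hp : ∀ t, p (t + 1) ↔ p t) {o : ℝ}
    (h : ∀ᵐ t, t ∈ Ioo o (o + 1) → p t) : ∀ᵐ t, p t := by
  have h1 : ∀ᵐ t : ℝ, (t + o) ∈ Ioo o (o + 1) → p (t + o) :=
    (measurePreserving_add_right volume o).quasiMeasurePreserving.ae h
  have h2 : ∀ᵐ t : ℝ, t ∈ Ioc (0 : ℝ) 1 → p (t + o) := by
    filter_upwards [h1, compl_mem_ae_iff.2 (measure_singleton (1 : ℝ))] with t ht hne hI
    apply ht
    have h3 : t < 1 := lt_of_le_of_ne hI.2 hne
    exact ⟨by linarith [hI.1], by linarith⟩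
  have h3 : ∀ᵐ t : ℝ, p (t + o) := by
    refine ae_per (p := fun t => p (t + o)) (fun t => ?_) h2
    have e : t + 1 + o = t + o + 1 := by ring
    simp only [e, hp]
  have h4 : ∀ᵐ t : ℝ, p (t + -o + o) :=
    (measurePreserving_add_right volume (-o)).quasiMeasurePreserving.ae h3
  filter_upwards [h4] with t ht
  have e : t + -o + o = t := by ring
  rwa [e] at ht

lemma ae_per_restrict {p : ℝ → Prop} (hp : ∀ t, p (t + 1) ↔ p t)
    (h : ∀ᵐ t ∂(volume.restrict (Ioc (0 : ℝ) 1)), p t) : ∀ᵐ t, p t := by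
  refine ae_per hp ?_
  rwa [ae_restrict_iff' measurableSet_Ioc] at h

lemma Prof.per_deriv {g g' W : ℕ → ℝ → ℝ} {G : ℝ → ℝ} (P : Prof g g' W G) (k : ℕ) (t : ℝ) :
    g' k (t + 1) = g' k t := by
  have h1 : HasDerivAt (fun s => g k (s + 1)) (g' k (t + 1)) t :=
    HasDerivAt.comp_add_const t 1 (P.deriv k (t + 1))
  have h2 : (fun s => g k (s + 1)) = g k := by
    funext s
    exact P.perg k s
  rw [h2] at h1
  exact h1.unique (P.deriv k t)

/-- The data associated with a system of slices. -/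
lemma Prof.toData1 {g g' W : ℕ → ℝ → ℝ} {G Y : ℝ → ℝ} (P : Prof g g' W G) {e₀ : ℕ → ℝ}
    (he : Tendsto e₀ atTop (𝓝 0)) {L : ℝ} (h01 : ∀ t, 0 ≤ G t ∧ G t ≤ 1) (hmY : Measurable Y)
    (hY0 : ∀ t, 0 ≤ Y t) (hYb : ∃ C, ∀ t, Y t ≤ C) (hpY : ∀ t, Y (t + 1) = Y t)
    (hYW : ∀ᵐ t ∂(volume.restrict (Ioc (0 : ℝ) 1)), ∀ c, (∃ᶠ k in atTop, W k t ≤ c) → Y t ≤ c)
    (hE : ∀ k, ∫ t in (0 : ℝ)..1, √(g' k t ^ 2 + W k t ^ 2) ≤ L + e₀ k) :
    Data1 g g' W (fun k t => √(g' k t ^ 2 + W k t ^ 2)) G Y (fun k => L + e₀ k) L where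
  hg := P.deriv
  cg' := P.contD
  cW := P.contW
  W0 := P.W0
  ce := fun k => (((P.contD k).pow 2).add ((P.contW k).pow 2)).sqrt
  pg := P.perg
  pe := fun k t => by simp only [P.per_deriv, P.perW]
  pt := fun k t a c ha hc hac => by
    have h1 : a * W k t + c * |g' k t| ≤ √(W k t ^ 2 + |g' k t| ^ 2) := cs_le hac
    have e : W k t ^ 2 + g' k t ^ 2 = g' k t ^ 2 + W k t ^ 2 := by ring
    rw [sq_abs, e] at h1
    exact h1
  E := hE
  hΛ := by simpa using tendsto_const_nhds.add he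
  mG := P.meas
  pG := P.perG
  G01 := h01
  conv := P.conv
  mY := hmY
  Y0 := hY0
  Yb := hYb
  pY := hpY
  YW := by
    refine ae_per_restrict (fun t => ?_) hYW
    simp only [P.perW, hpY]

lemma dZ_gt_of {x w : ℝ} (h1 : w < |x|) (h2 : |x| < 1 - w) : w < dZ x := by
  unfold dZ
  by_cases hn : round x = 0
  · rw [hn]
    simpa using h1
  · have h3 : (1 : ℝ) ≤ |((round x : ℤ) : ℝ)| := by
      have : (1 : ℤ) ≤ |round x| := Int.one_le_abs hn
      exact_mod_cast this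
    have h4 : |((round x : ℤ) : ℝ)| - |x| ≤ |x - round x| := by
      rw [abs_sub_comm]
      exact abs_sub_abs_le_abs_sub _ _
    linarith

namespace ProfData

variable {g g' W e : ℕ → ℝ → ℝ} {G Y : ℝ → ℝ} {Λ : ℕ → ℝ} {L : ℝ} {A B J Df D1 : ℝ → ℝ} {b : ℝ}

/-- The shape of the profile in terms of the distance to the lattice. -/
theorem shape_dZ (P : ProfData g g' W e G Y Λ L A B J Df D1 b) :
    ∃ c : ℝ, ∀ᵐ t, (dZ (t - c) < Df b - Df 0 ∧ Df (G t) = Df b - dZ (t - c) ∧ G t ∈ Ioo 0 b) ∨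
      (Df b - Df 0 < dZ (t - c) ∧ G t = 0) := by
  obtain ⟨o, c, h1, h2, h3⟩ := P.shape
  have hw : Df 0 < Df b := P.Df_strict ⟨le_rfl, P.hb.le⟩ ⟨P.hb.le, le_rfl⟩ P.hb
  set w := Df b - Df 0 with hwd
  refine ⟨c, ?_⟩
  refine ae_per_shift (o := o) (fun t => ?_) ?_
  · have e1 : t + 1 - c = (t - c) + 1 := by ring
    rw [e1, dZ_add_one', P.data.pG]
  · filter_upwards [h3, compl_mem_ae_iff.2 (measure_singleton (c + w)),
      compl_mem_ae_iff.2 (measure_singleton (c - w))] with t ht hn1 hn2 hI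
    have hn1' : t ≠ c + w := hn1
    have hn2' : t ≠ c - w := hn2
    obtain ⟨h4, h5⟩ := ht hI
    have hsm : |t - c| < 1 - w := by
      rw [abs_lt]
      constructor <;> linarith [hI.1, hI.2]
    have hne : |t - c| ≠ w := by
      intro h
      rcases abs_eq (by linarith : 0 ≤ w) |>.1 h with h' | h'
      · exact hn1' (by linarith)
      · exact hn2' (by linarith)
    rcases lt_or_gt_of_ne hne with h | h
    · left
      have hle : |t - c| ≤ 1 / 2 := by
        have h6 : w ≤ 1 / 2 := by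
          have := h1.trans (by linarith : c - w ≤ o + 1 - w - w)
          linarith
        linarith
      rw [dZ_eq_abs_of hle]
      obtain ⟨h6, h7⟩ := h4 h
      exact ⟨h, h6, h7⟩
    · right
      exact ⟨dZ_gt_of h hsm, h5 h⟩

end ProfData

end Vale.Agent.Lib.P232
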