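import Vale.Agent.Lib.P232.RigProf

/-!
The profile theorem for the slices of a ball.
-/

open MeasureTheory Filter Topology Set
open scoped Real

namespace Vale.Agent.Lib.P232

/-- First component of the calibration pair of the ball. -/
noncomputable def ballA (b s : ℝ) : ℝ := min 1 √(s / b)

/-- Second component of the calibration pair of the ball. -/
noncomputable def ballB (b s : ℝ) : ℝ := √(1 - ballA b s ^ 2)

lemma ballA_nonneg (b s : ℝ) : 0 ≤ ballA b s := le_min zero_le_one (Real.sqrt_nonneg _)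

lemma ballA_le_one (b s : ℝ) : ballA b s ≤ 1 := min_le_left _ _

lemma ball_pair (b : ℝ) : CalibPair (ballA b) (ballB b) where
  contA := by
    unfold ballA
    fun_prop
  contB := by
    unfold ballB ballA
    fun_prop
  nonnegA := ballA_nonneg b
  nonnegB := fun _ => Real.sqrt_nonneg _
  le_one := fun s => by
    have h0 := ballA_nonneg b s
    have h1 := ballA_le_one b s
    have h2 : 0 ≤ 1 - ballA b s ^ 2 := by nlinarith
    unfold ballB
    rw [Real.sq_sqrt h2]
    linarith

lemma ballA_eq {b s : ℝ} (hb : 0 < b) (hs : s ≤ b) : ballA b s = √(s / b) :=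
  min_eq_right (Real.sqrt_le_one.2 ((div_le_one hb).2 hs))

lemma ballB_eq {b s : ℝ} (hb : 0 < b) (h0 : 0 ≤ s) (hs : s ≤ b) : ballB b s = √(1 - s / b) := by
  unfold ballB
  rw [ballA_eq hb hs, Real.sq_sqrt (div_nonneg h0 hb.le)]

lemma ball_rho {b s : ℝ} (hb : 0 < b) (hs : s ∈ Ioo 0 b) :
    rhoP (ballA b) (ballB b) (fun s => 2 * √(π * s)) s = 1 / (√π * (2 * √(b - s))) := by
  unfold rhoP
  beta_reduce
  rw [ballA_eq hb hs.2.le, ballB_eq hb hs.1.le hs.2.le]
  have h1 : 1 - s / b = (b - s) / b := by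
    field_simp
  have hs1 : 0 < s := hs.1
  have hs2 : 0 < b - s := by linarith [hs.2]
  rw [h1, Real.sqrt_div hs1.le, Real.sqrt_div hs2.le, Real.sqrt_mul Real.pi_pos.le]
  have h2 : 0 < √s := Real.sqrt_pos.2 hs1
  have h3 : 0 < √b := Real.sqrt_pos.2 hb
  have h4 : 0 < √(b - s) := Real.sqrt_pos.2 hs2
  have h5 : 0 < √π := Real.sqrt_pos.2 Real.pi_pos
  field_simp

/-- The position function of the ball. -/
noncomputable def ballDf (b s : ℝ) : ℝ := (√b - √(b - s)) / √π

/-- The first moment function of the ball. -/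
noncomputable def ballD1 (b s : ℝ) : ℝ := (√(b - s) ^ 3 / 3 - b * √(b - s)) / √π

lemma ball_h {b s : ℝ} (hs : s < b) :
    HasDerivAt (fun s => √(b - s)) (-1 / (2 * √(b - s))) s := by
  have h := ((hasDerivAt_id s).const_sub b).sqrt (by simp only [id]; linarith)
  simpa using h

lemma ball_dDf {b s : ℝ} (hb : 0 < b) (hs : s ∈ Ioo 0 b) :
    HasDerivAt (ballDf b) (rhoP (ballA b) (ballB b) (fun s => 2 * √(π * s)) s) s := by
  rw [ball_rho hb hs]
  have h := ((hasDerivAt_const s √b).sub (ball_h hs.2)).div_const √π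
  refine h.congr_deriv ?_
  have h4 : 0 < √(b - s) := Real.sqrt_pos.2 (by linarith [hs.2])
  have h5 : 0 < √π := Real.sqrt_pos.2 Real.pi_pos
  field_simp
  ring

lemma ball_dD1 {b s : ℝ} (hb : 0 < b) (hs : s ∈ Ioo 0 b) :
    HasDerivAt (ballD1 b) (s * rhoP (ballA b) (ballB b) (fun s => 2 * √(π * s)) s) s := by
  rw [ball_rho hb hs]
  have hh := ball_h hs.2
  have h := ((((hh.pow 3).div_const 3).sub (hh.const_mul b))).div_const √π
  refine h.congr_deriv ?_
  have h4 : 0 < √(b - s) := Real.sqrt_pos.2 (by linarith [hs.2])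
  have h5 : 0 < √π := Real.sqrt_pos.2 Real.pi_pos
  have h6 : √(b - s) ^ 2 = b - s := Real.sq_sqrt (by linarith [hs.2])
  field_simp
  rw [h6]
  ring

lemma ball_int_B {b : ℝ} (hb : 0 < b) : ∫ s in (0 : ℝ)..b, ballB b s = 2 / 3 * b := by
  have e1 : ∫ s in (0 : ℝ)..b, ballB b s = ∫ s in (0 : ℝ)..b, √(1 - s / b) := by
    refine intervalIntegral.integral_congr fun s hs => ?_
    rw [uIcc_of_le hb.le] at hs
    exact ballB_eq hb hs.1 hs.2
  rw [e1]
  have hc : Continuous fun s : ℝ => √(1 - s / b) := by fun_prop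
  have hF : ∀ s ∈ Ioo 0 b, HasDerivAt (fun s => -(2 / 3) * b * √(1 - s / b) ^ 3) (√(1 - s / b)) s := by
    intro s hs
    have h1 : 0 < 1 - s / b := by
      have : s / b < 1 := (div_lt_one hb).2 hs.2
      linarith
    have h2 : HasDerivAt (fun s => 1 - s / b) (-(1 / b)) s := by
      have := ((hasDerivAt_id s).div_const b).const_sub 1
      simpa using this
    have h3 := h2.sqrt h1.ne'
    have h4 := ((h3.pow 3).const_mul (-(2 / 3) * b))
    refine h4.congr_deriv ?_
    have h5 : 0 < √(1 - s / b) := Real.sqrt_pos.2 h1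
    generalize √(1 - s / b) = x at h5 ⊢
    have e0 : ((3 : ℕ) : ℝ) = 3 := by norm_num
    have e3 : (3 : ℕ) - 1 = 2 := rfl
    rw [e0, e3]
    field_simp
  have hcF : ContinuousOn (fun s => -(2 / 3) * b * √(1 - s / b) ^ 3) (Icc 0 b) :=
    (by fun_prop : Continuous fun s => -(2 / 3) * b * √(1 - s / b) ^ 3).continuousOn
  rw [intervalIntegral.integral_eq_sub_of_hasDerivAt_of_le hb.le hcF hF (hc.intervalIntegrable _ _)]
  have e2 : b / b = 1 := div_self hb.ne'
  simp only [e2, sub_self, Real.sqrt_zero, zero_div, sub_zero, Real.sqrt_one]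
  ring

/-- The marginal of an optimal sequence at the ball value. -/
theorem Prof.ball_marginal {g g' W : ℕ → ℝ → ℝ} {G : ℝ → ℝ} (P : Prof g g' W G) {e₀ : ℕ → ℝ}
    (he : Tendsto e₀ atTop (𝓝 0)) {b V : ℝ} (hb : 0 < b) (hr : GoodRange g G 0 b)
    (h01 : ∀ t, 0 ≤ G t ∧ G t ≤ 1) (hV : ∫ t in (0 : ℝ)..1, G t = V)
    (htan : √b ^ 3 = 3 * √π / 4 * V) (hV6 : V < π / 6)
    (hY : ∀ᵐ t ∂(volume.restrict (Ioc (0 : ℝ) 1)), ∀ c, (∃ᶠ k in atTop, W k t ≤ c) →
      2 * √(π * G t) ≤ c)
    (hE : ∀ k, ∫ t in (0 : ℝ)..1, √(g' k t ^ 2 + W k t ^ 2) ≤ chordVal 0 √b V + e₀ k) :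
    ∃ c : ℝ, ∀ᵐ t, G t = max 0 (b - π * dZ (t - c) ^ 2) := by
  have hpi := Real.pi_pos
  have hq : 0 < √b := Real.sqrt_pos.2 hb
  have hsp : 0 < √π := Real.sqrt_pos.2 hpi
  have hq2 : √b ^ 2 = b := Real.sq_sqrt hb.le
  have hsp2 : √π ^ 2 = π := Real.sq_sqrt hpi.le
  set J : ℝ → ℝ := fun s => 2 * √(π * s) with hJ
  have hcJ : Continuous J := by
    simp only [hJ]
    fun_prop
  set Y : ℝ → ℝ := fun t => J (G t) with hYd
  have hmY : Measurable Y := hcJ.measurable.comp P.meas
  have hY0 : ∀ t, 0 ≤ Y t := fun t => by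
    simp only [hYd, hJ]
    positivity
  have hYb : ∃ C, ∀ t, Y t ≤ C := by
    refine ⟨2 * √(π * 1), fun t => ?_⟩
    simp only [hYd, hJ]
    have := Real.sqrt_le_sqrt (mul_le_mul_of_nonneg_left (h01 t).2 hpi.le)
    linarith
  have hpY : ∀ t, Y (t + 1) = Y t := fun t => by
    simp only [hYd, P.perG]
  have D := P.toData1 he h01 hmY hY0 hYb hpY hY hE
  have hmem : ∀ᵐ t, G t ∈ Icc 0 b := ae_per_restrict (fun t => by rw [P.perG]) hr.ae_mem
  have hL : chordVal 0 √b V = 2 * √π / √b * V + 4 / 3 * b := by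
    unfold chordVal
    simp only [zero_add, mul_zero, zero_mul, zero_div, add_zero, sub_zero]
    rw [hq2]
  have hval : (∫ t in (0 : ℝ)..1, ballA b (G t) * Y t) + 2 * ∫ s in (0 : ℝ)..b, ballB b s =
      chordVal 0 √b V := by
    rw [ball_int_B hb, hL]
    have e1 : ∫ t in (0 : ℝ)..1, ballA b (G t) * Y t = ∫ t in (0 : ℝ)..1, 2 * √π / √b * G t := by
      refine intervalIntegral.integral_congr_ae (hmem.mono fun t ht _ => ?_)
      simp only [hYd, hJ]
      rw [ballA_eq hb ht.2, Real.sqrt_div ht.1, Real.sqrt_mul hpi.le]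
      have h6 : √(G t) * √(G t) = G t := Real.mul_self_sqrt ht.1
      field_simp
      nlinarith
    rw [e1, intervalIntegral.integral_const_mul, hV]
    ring
  have hq3 : 2 * √b < √π := by
    have h1 : (√b) ^ 3 < (√π / 2) ^ 3 := by
      rw [htan]
      have h2 : (√π / 2) ^ 3 = √π * π / 8 := by
        have : (√π / 2) ^ 3 = √π * √π ^ 2 / 8 := by ring
        rw [this, hsp2]
      rw [h2]
      nlinarith
    have h2 := lt_of_pow_lt_pow_left₀ 3 (by positivity) h1
    linarith
  have Q : ProfData g g' W (fun k t => √(g' k t ^ 2 + W k t ^ 2)) G Y (fun k => chordVal 0 √b V + e₀ k)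
      (chordVal 0 √b V) (ballA b) (ballB b) J (ballDf b) (ballD1 b) b :=
    { data := D
      pair := ball_pair b
      hb := hb
      posA := fun s hs => by
        rw [ballA_eq hb hs.2.le]
        exact Real.sqrt_pos.2 (div_pos hs.1 hb)
      posB := fun s hs => by
        rw [ballB_eq hb hs.1.le hs.2.le]
        have : s / b < 1 := (div_lt_one hb).2 hs.2
        exact Real.sqrt_pos.2 (by linarith)
      cJ := hcJ
      posJ := fun s hs => by
        simp only [hJ]
        have := Real.sqrt_pos.2 (mul_pos hpi hs.1)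
        linarith
      YJ := Eventually.of_forall fun t _ => rfl
      val := hval
      mem := hmem
      top := fun ε hε => by
        obtain ⟨x, -, h1, h2⟩ := hr.high ε hε
        exact ⟨x, h1, ⟨(h01 x).1, h2.2⟩, h2.1⟩
      low := fun ε hε => by
        obtain ⟨x, -, h1, h2⟩ := hr.low (min ε b) (lt_min hε hb)
        have h3 : G x < min ε b := by simpa using h2.2
        exact ⟨x, h1, ⟨(h01 x).1, (h3.trans_le (min_le_right _ _)).le⟩, h3.trans_le (min_le_left _ _)⟩
      dDf := fun s hs => ball_dDf hb hs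
      cDf := by
        have : Continuous (ballDf b) := by
          unfold ballDf
          fun_prop
        exact this.continuousOn
      dD1 := fun s hs => ball_dD1 hb hs
      cD1 := by
        have : Continuous (ballD1 b) := by
          unfold ballD1
          fun_prop
        exact this.continuousOn
      vol := by
        rw [hV]
        unfold ballD1
        simp only [sub_self, sub_zero, Real.sqrt_zero]
        have h7 : b * √b = √b ^ 3 := by
          nth_rewrite 1 [← hq2]
          ring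
        rw [h7, htan]
        field_simp
        ring
      width := by
        unfold ballDf
        simp only [sub_self, sub_zero, Real.sqrt_zero, zero_div]
        rw [mul_div_assoc', div_lt_one hsp]
        linarith }
  obtain ⟨c, hc⟩ := Q.shape_dZ
  have hDb : ballDf b b - ballDf b 0 = √b / √π := by
    unfold ballDf
    simp only [sub_self, sub_zero, Real.sqrt_zero, zero_div]
  have hDbb : ballDf b b = √b / √π := by
    unfold ballDf
    simp only [sub_self, sub_zero, Real.sqrt_zero]
  refine ⟨c, ?_⟩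
  filter_upwards [hc] with t ht
  rw [hDb, hDbb] at ht
  rcases ht with ⟨h1, h2, h3⟩ | ⟨h1, h2⟩
  · -- the interior of the ball
    have h4 : 0 ≤ dZ (t - c) := abs_nonneg _
    have h5 : √(b - G t) = √π * dZ (t - c) := by
      unfold ballDf at h2
      field_simp at h2
      linarith
    have h6 : √(b - G t) ^ 2 = b - G t := Real.sq_sqrt (by linarith [h3.2])
    rw [h5, mul_pow, hsp2] at h6
    have h7 : G t = b - π * dZ (t - c) ^ 2 := by linarith
    rw [max_eq_right]
    · exact h7
    · rw [← h7]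
      exact h3.1.le
  · -- outside of the ball
    rw [h2, max_eq_left]
    have h3 : √b / √π * √π = √b := by field_simp
    have h4 : √b < √π * dZ (t - c) := by
      calc √b = √b / √π * √π := h3.symm
        _ < dZ (t - c) * √π := mul_lt_mul_of_pos_right h1 hsp
        _ = √π * dZ (t - c) := by ring
    have h5 : √b ^ 2 < (√π * dZ (t - c)) ^ 2 := pow_lt_pow_left₀ h4 hq.le (by norm_num)
    rw [hq2, mul_pow, hsp2] at h5
    linarith

end Vale.Agent.Lib.P232
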