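import Vale.Agent.Lib.P232.RigDefs

set_option linter.unusedVariables false

open MeasureTheory Filter Topology Set
open scoped Real

namespace Vale.Agent.Lib.P232

/-- Notation-free facts about the cube root constants. -/
lemma ball_data {V : ℝ} (hV : 0 < V) :
    ∃ c x : ℝ, 0 < c ∧ 0 < x ∧ c ^ 3 = 36 * π ∧ x ^ 3 = V ∧ ballVal V = c * x ^ 2 := by
  have hpi := Real.pi_pos
  refine ⟨(36 * π) ^ (1 / 3 : ℝ), V ^ (1 / 3 : ℝ), by positivity, by positivity, ?_, ?_, ?_⟩
  · rw [← Real.rpow_natCast, ← Real.rpow_mul (by positivity)]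
    norm_num
  · rw [← Real.rpow_natCast, ← Real.rpow_mul hV.le]
    norm_num
  · unfold ballVal
    congr 1
    rw [← Real.rpow_natCast, ← Real.rpow_mul hV.le]
    norm_num

/-- Below the crossing the ball is strictly better. -/
lemma ballVal_lt_tubeVal {V : ℝ} (h0 : 0 < V) (hV : V < 4 * π / 81) : ballVal V < tubeVal V := by
  obtain ⟨c, x, hc, hx, hc3, hx3, hb⟩ := ball_data h0
  have hpi := Real.pi_pos
  rw [hb]
  have key : c ^ 2 * x < 4 * π := by
    have h1 : (c ^ 2 * x) ^ 3 < (4 * π) ^ 3 := by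
      have e : (c ^ 2 * x) ^ 3 = (c ^ 3) ^ 2 * x ^ 3 := by ring
      rw [e, hc3, hx3]
      have : (36 * π) ^ 2 * V < (36 * π) ^ 2 * (4 * π / 81) :=
        mul_lt_mul_of_pos_left hV (by positivity)
      calc (36 * π) ^ 2 * V < (36 * π) ^ 2 * (4 * π / 81) := this
        _ = (4 * π) ^ 3 := by ring
    exact lt_of_pow_lt_pow_left₀ 3 (by positivity) h1
  unfold tubeVal
  have h2 : (c * x ^ 2 / 2) ^ 2 < π * V := by
    rw [← hx3]
    have e : (c * x ^ 2 / 2) ^ 2 = (c ^ 2 * x) * x ^ 3 / 4 := by ring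
    rw [e]
    have := mul_lt_mul_of_pos_right key (pow_pos hx 3)
    linarith
  have h3 : c * x ^ 2 / 2 < √(π * V) := Real.lt_sqrt_of_sq_lt h2
  linarith

/-- Above the crossing the tube is strictly better. -/
lemma tubeVal_lt_ballVal {V : ℝ} (hV : 4 * π / 81 < V) : tubeVal V < ballVal V := by
  have hpi := Real.pi_pos
  have h0 : 0 < V := lt_trans (by positivity) hV
  obtain ⟨c, x, hc, hx, hc3, hx3, hb⟩ := ball_data h0
  rw [hb]
  have key : 4 * π < c ^ 2 * x := by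
    have h1 : (4 * π) ^ 3 < (c ^ 2 * x) ^ 3 := by
      have e : (c ^ 2 * x) ^ 3 = (c ^ 3) ^ 2 * x ^ 3 := by ring
      rw [e, hc3, hx3]
      have : (36 * π) ^ 2 * (4 * π / 81) < (36 * π) ^ 2 * V :=
        mul_lt_mul_of_pos_left hV (by positivity)
      calc (4 * π) ^ 3 = (36 * π) ^ 2 * (4 * π / 81) := by ring
        _ < _ := this
    exact lt_of_pow_lt_pow_left₀ 3 (by positivity) h1
  unfold tubeVal
  have h2 : π * V < (c * x ^ 2 / 2) ^ 2 := by
    rw [← hx3]
    have e : (c * x ^ 2 / 2) ^ 2 = (c ^ 2 * x) * x ^ 3 / 4 := by ring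
    rw [e]
    have := mul_lt_mul_of_pos_right key (pow_pos hx 3)
    linarith
  have h3 : √(π * V) < c * x ^ 2 / 2 := (Real.sqrt_lt' (by positivity)).2 h2
  linarith

/-- Tangency in the supporting lines of the ball value. -/
lemma ball_tangent_eq {V k c x : ℝ} (hk : 0 < k) (hc : 0 < c) (hx : 0 < x) (hc3 : c ^ 3 = 36 * π)
    (hx3 : x ^ 3 = V) (hb : ballVal V = c * x ^ 2) (h : k * V + (16 * π / 3) / k ^ 2 ≤ ballVal V) :
    3 * k * x = 2 * c := by
  rw [hb, ← hx3] at h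
  have hk2 : 0 < k ^ 2 := by positivity
  have e : k ^ 2 * (k * x ^ 3 + 16 * π / 3 / k ^ 2) = k ^ 3 * x ^ 3 + 16 * π / 3 := by
    field_simp
  have h2 := mul_le_mul_of_nonneg_left h hk2.le
  rw [e] at h2
  have hπ : π = c ^ 3 / 36 := by rw [hc3]; ring
  have h3 : (3 * k * x - 2 * c) ^ 2 * (3 * k * x + c) ≤ 0 := by
    have e2 : (3 * k * x - 2 * c) ^ 2 * (3 * k * x + c) =
        27 * (k ^ 3 * x ^ 3 + 16 * (c ^ 3 / 36) / 3 - k ^ 2 * (c * x ^ 2)) := by ring
    rw [e2, ← hπ]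
    nlinarith
  have h4 : 0 < 3 * k * x + c := by positivity
  have h5 : (3 * k * x - 2 * c) ^ 2 ≤ 0 := by
    by_contra hcon
    push Not at hcon
    have := mul_pos hcon h4
    linarith
  have h6 : 3 * k * x - 2 * c = 0 := by
    have := sq_nonneg (3 * k * x - 2 * c)
    exact pow_eq_zero_iff (two_ne_zero) |>.1 (le_antisymm h5 this)
  linarith

/-- The chord at coinciding end points. -/
lemma chord_self {p : ℝ} (hp : 0 < p) (V : ℝ) : chordVal p p V = √π / p * V + √π * p := by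
  unfold chordVal
  field_simp
  ring

lemma tube_le_chord_self {p V : ℝ} (hp : 0 < p) (hV : 0 < V) : tubeVal V ≤ chordVal p p V := by
  have hpi := Real.pi_pos
  have hr : 0 < √π := Real.sqrt_pos.2 hpi
  rw [chord_self hp]
  have h6 : tubeVal V = 2 * (√π * √V) := by
    unfold tubeVal
    rw [Real.sqrt_mul hpi.le]
  have hV2 : √V ^ 2 = V := Real.sq_sqrt hV.le
  rw [h6]
  have e3 : √π / p * V + √π * p = √π * (V + p ^ 2) / p := by
    field_simp
  rw [e3, le_div_iff₀ hp]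
  nlinarith [mul_nonneg hr.le (sq_nonneg (p - √V))]

/-- Tangency at coinciding end points. -/
lemma chord_self_tan {p V : ℝ} (hp : 0 < p) (hV : 0 < V) (h : chordVal p p V ≤ tubeVal V) :
    p ^ 2 = V := by
  have hpi := Real.pi_pos
  have hr : 0 < √π := Real.sqrt_pos.2 hpi
  rw [chord_self hp] at h
  have h6 : tubeVal V = 2 * (√π * √V) := by
    unfold tubeVal
    rw [Real.sqrt_mul hpi.le]
  have hV2 : √V ^ 2 = V := Real.sq_sqrt hV.le
  rw [h6] at h
  have e3 : √π / p * V + √π * p = √π * (V + p ^ 2) / p := by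
    field_simp
  rw [e3, div_le_iff₀ hp] at h
  have h8 : √π * (p - √V) ^ 2 ≤ 0 := by nlinarith
  have h9 : (p - √V) ^ 2 ≤ 0 := by
    by_contra hcon
    push Not at hcon
    have := mul_pos hr hcon
    linarith
  have h10 : p - √V = 0 := pow_eq_zero_iff (two_ne_zero) |>.1 (le_antisymm h9 (sq_nonneg _))
  have h11 : p = √V := by linarith
  rw [h11, hV2]

lemma chord_self_ge {p V : ℝ} (hp : 0 < p) (hV : 0 < V) (h : chordVal p p V ≤ ballVal V) :
    4 * π / 81 ≤ V := by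
  by_contra hcon
  push Not at hcon
  have h5 := ballVal_lt_tubeVal hV hcon
  have h6 := tube_le_chord_self hp hV
  linarith

/-- The equality cases of the chord bound. -/
theorem chord_tight {p q V : ℝ} (hp : 0 ≤ p) (hpq : p ≤ q) (hq : 0 < q) (hV : 0 < V)
    (h : chordVal p q V ≤ min (ballVal V) (tubeVal V)) :
    (p = 0 ∧ q ^ 3 = 3 * √π / 4 * V ∧ V ≤ 4 * π / 81) ∨ (p = q ∧ q ^ 2 = V ∧ 4 * π / 81 ≤ V) := by
  have hpi := Real.pi_pos
  have hσ : 0 < p + q := by linarith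
  have hr : 0 < √π := Real.sqrt_pos.2 hpi
  have hr2 : √π ^ 2 = π := Real.sq_sqrt hpi.le
  have hB := (le_min_iff.1 h).1
  have hT := (le_min_iff.1 h).2
  have hc0 := h
  unfold chordVal at hB hT
  set σ := p + q with hσdef
  by_cases hcase : σ ≤ 3 * √π / 8
  · left
    have hbc := ball_chord (p := p) (q := q) hσ hV.le
    rw [← hσdef] at hbc
    have h1 : 16 / 3 ≤ 2 * √π / σ := by
      rw [le_div_iff₀ hσ]
      linarith
    have h2 : 2 * √π * p * q / σ = 2 * √π / σ * (p * q) := by ring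
    rw [h2] at hB hT
    have hpq0 : 0 ≤ p * q := mul_nonneg hp hq.le
    have h3 : 16 / 3 * (p * q) ≤ 2 * √π / σ * (p * q) := mul_le_mul_of_nonneg_right h1 hpq0
    have e : 4 / 3 * σ ^ 2 = 4 / 3 * (q - p) ^ 2 + 16 / 3 * (p * q) := by
      rw [hσdef]; ring
    -- the ball is at most the tube
    have hVc : V ≤ 4 * π / 81 := by
      by_contra hcon
      push Not at hcon
      have := tubeVal_lt_ballVal hcon
      linarith
    obtain ⟨c, x, hc, hx, hc3, hx3, hb⟩ := ball_data hV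
    set k := 2 * √π / σ with hk
    have hk0 : 0 < k := by positivity
    have hmain : k * V + (16 * π / 3) / k ^ 2 ≤ ballVal V := by
      have e3 : 16 * π / 3 / k ^ 2 = 4 / 3 * σ ^ 2 := by
        rw [hk, div_pow, mul_pow, hr2]
        field_simp
        ring
      rw [e3]
      linarith
    have htan := ball_tangent_eq hk0 hc hx hc3 hx3 hb hmain
    -- the slope is at least six
    have hk6 : 6 ≤ k := by
      have h5 : 9 * x ≤ c := by
        have h6 : (9 * x) ^ 3 ≤ c ^ 3 := by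
          rw [mul_pow, hx3, hc3]
          nlinarith
        exact le_of_pow_le_pow_left₀ (by norm_num) hc.le h6
      nlinarith
    have hpq1 : p * q = 0 := by
      have h7 : (k - 16 / 3) * (p * q) ≤ 0 := by nlinarith
      have h8 : 0 < k - 16 / 3 := by linarith
      nlinarith
    have hp0 : p = 0 := by
      rcases mul_eq_zero.1 hpq1 with h9 | h9
      · exact h9
      · exact absurd h9 hq.ne'
    refine ⟨hp0, ?_, hVc⟩
    have hσq : σ = q := by rw [hσdef, hp0]; ring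
    have hkq : k * q = 2 * √π := by
      rw [hk, hσq]; field_simp
    have hq1 : q * c = 3 * √π * x := by
      have : k * q * (3 * x) = (3 * k * x) * q := by ring
      rw [hkq, htan] at this
      linarith
    have hq3 : q ^ 3 * c ^ 3 = (3 * √π) ^ 3 * x ^ 3 := by
      rw [← mul_pow, hq1, mul_pow]
    rw [hc3, hx3] at hq3
    have hr3 : √π ^ 3 = π * √π := by
      rw [pow_succ, hr2]
    have e6 : (3 * √π) ^ 3 = 27 * (π * √π) := by
      rw [mul_pow, hr3]; norm_num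
    rw [e6] at hq3
    have hne : (36 * π) ≠ 0 := by positivity
    apply mul_right_cancel₀ hne
    rw [hq3]
    ring
  · right
    push Not at hcase
    have hbc := tube_chord (p := p) (q := q) hσ hV.le
    rw [← hσdef] at hbc
    have h1 : 2 * √π * p * q / σ + 4 / 3 * (q - p) ^ 2 - √π * σ / 2 =
        (q - p) ^ 2 * (4 / 3 - √π / (2 * σ)) := by
      have : σ ≠ 0 := hσ.ne'
      rw [hσdef] at this ⊢
      field_simp
      ring
    have h2 : √π / (2 * σ) < 4 / 3 := by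
      rw [div_lt_iff₀ (by positivity)]
      linarith
    have h3 : (q - p) ^ 2 * (4 / 3 - √π / (2 * σ)) ≤ 0 := by linarith
    have h4 : (q - p) ^ 2 ≤ 0 := by
      by_contra hcon
      push Not at hcon
      have := mul_pos hcon (by linarith : 0 < 4 / 3 - √π / (2 * σ))
      linarith
    have hpq' : q - p = 0 := pow_eq_zero_iff (two_ne_zero) |>.1 (le_antisymm h4 (sq_nonneg _))
    have hpq2 : p = q := by linarith
    clear_value σ
    clear hσdef hB hT
    subst hpq2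
    have h5 := le_min_iff.1 hc0
    exact ⟨rfl, chord_self_tan hq hV h5.2, chord_self_ge hq hV h5.1⟩

/-- Arithmetic for the middle range, with a margin. -/
lemma R1_mid_num' {σ r P : ℝ} (hc1 : 3 / 5 < σ) (hc3 : σ ≤ 7 / 10) (hr1 : 1.7724 < r)
    (hP1 : 3.1415 < P) (hP2 : P < 3.1416) :
    4 / 81 * (27 * σ ^ 3 - 9 * P * σ + 2 * P * r) +
      1 / 20 * (σ - 1 / 20) * (2 * r - 16 / 3 * σ) - 4 * (1 / 20) ^ 2 * σ ≥ 1 / 1000 := by
  norm_num at hr1 hP1 hP2
  have h7 : 2 * P * r ≥ 2 * (6283 / 2000) * (4431 / 2500) := by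
    have := mul_nonneg (sub_nonneg.2 hP1.le) (sub_nonneg.2 hr1.le)
    nlinarith
  have h8 : 9 * P * σ ≤ 9 * (3927 / 1250) * σ := by
    have := mul_nonneg (sub_nonneg.2 hP2.le) (by linarith : (0 : ℝ) ≤ σ)
    nlinarith
  have h9 : 1 / 20 * (σ - 1 / 20) * (2 * r - 16 / 3 * σ) ≥
      1 / 20 * (σ - 1 / 20) * (2 * (4431 / 2500) - 16 / 3 * σ) := by
    apply mul_le_mul_of_nonneg_left _ (by nlinarith)
    linarith
  have h10 := mul_nonneg (sq_nonneg (σ - 311 / 500))
    (by linarith : (0 : ℝ) ≤ 4 / 3 * (σ + 311 / 250) - 4 / 15)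
  nlinarith [h7, h8, h9, h10]

/-- The middle range is not tight. -/
lemma R1_mid' {p σ V : ℝ} (hp : 0 ≤ p) (hp' : p ≤ 1 / 20) (hc1 : 3 / 5 < σ) (hc3 : σ ≤ 7 / 10)
    (hV : 0 ≤ V) :
    min (ballVal V) (tubeVal V) + 4 * p ^ 2 <
      2 * √π / σ * V + 2 * √π * p * (σ - p) / σ + 4 / 3 * (σ - p - p) ^ 2 := by
  have hσ : 0 < σ := by linarith
  obtain ⟨hr1, hr2⟩ := sqrtPi_bounds
  have hrsq := sq_sqrtPi
  have hpi1 := Real.pi_gt_d4
  have hpi2 := Real.pi_lt_d4
  have hQ05 := R1_mid_num' hc1 hc3 hr1 hpi1 hpi2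
  set r := √π with hrdef
  norm_num at hr1 hr2
  have h2 : 2 * r * p * (σ - p) / σ = 2 * r / σ * (p * (σ - p)) := by ring
  set k := 2 * r / σ with hk
  have hk1 : 9 / 2 ≤ k := by
    rw [hk, le_div_iff₀ hσ]
    linarith
  have hk2 : k ≤ 6 := by
    rw [hk, div_le_iff₀ hσ]
    linarith
  have hT := kink_le hV hk1 hk2
  obtain ⟨F, hF⟩ : ∃ F, F = 4 / 81 * ((3 * σ - r) ^ 2 * (3 * σ + 2 * r)) := ⟨_, rfl⟩
  obtain ⟨D, hD⟩ : ∃ D, D = 2 * r - 16 / 3 * σ := ⟨_, rfl⟩
  have hF0 : 0 < F := by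
    rw [hF]
    have h3 : 0 < 3 * σ + 2 * r := by linarith
    have h4 : 3 * σ - r ≠ 0 := by
      have : 0 < 3 * σ - r := by linarith
      exact this.ne'
    positivity
  have e3 : (3 * σ - r) ^ 2 * (3 * σ + 2 * r) = 27 * σ ^ 3 - 9 * π * σ + 2 * π * r := by
    rw [← hrsq]; ring
  have hQ05' : F + 1 / 20 * (σ - 1 / 20) * D - 4 * (1 / 20) ^ 2 * σ ≥ 1 / 1000 := by
    rw [hF, hD, e3]
    exact hQ05
  have hDσ : D + 4 * σ ≥ 0 := by
    rw [hD]; linarith
  have hQ : 0 < F + p * (σ - p) * D - 4 * p ^ 2 * σ := by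
    have e4 : F + p * (σ - p) * D - 4 * p ^ 2 * σ =
        (1 - 20 * p) * F + 20 * p * (F + 1 / 20 * (σ - 1 / 20) * D - 4 * (1 / 20) ^ 2 * σ) +
          (D + 4 * σ) * (p * (1 / 20 - p)) := by ring
    rw [e4]
    have h11 : 0 ≤ 1 - 20 * p := by linarith
    have h12 : 0 ≤ p * (1 / 20 - p) := mul_nonneg hp (by linarith)
    have h15 := mul_nonneg hDσ h12
    rcases h11.lt_or_eq with h13 | h13
    · have h14 := mul_pos h13 hF0
      have h16 := mul_nonneg (by positivity : 0 ≤ 20 * p) (by linarith : 0 ≤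
        F + 1 / 20 * (σ - 1 / 20) * D - 4 * (1 / 20) ^ 2 * σ)
      linarith
    · have hp20 : 20 * p = 1 := by linarith
      rw [← h13, hp20]
      linarith
  rw [h2]
  have e5 : k * V + k * (p * (σ - p)) + 4 / 3 * (σ - p - p) ^ 2 -
      (4 * π / 9 + k * (V - 4 * π / 81) + 4 * p ^ 2) =
      (F + p * (σ - p) * D - 4 * p ^ 2 * σ) / σ := by
    rw [hk, hF, hD, ← hrsq]
    field_simp
    ring
  have h16 : 0 < (F + p * (σ - p) * D - 4 * p ^ 2 * σ) / σ := div_pos hQ hσ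
  linarith

/-- The large range is not tight. -/
lemma R1_large' {p σ V : ℝ} (hp : 0 ≤ p) (hp' : p ≤ 1 / 20) (hc3 : 7 / 10 < σ) (hV : 0 ≤ V) :
    tubeVal V + 4 * p ^ 2 <
      2 * √π / σ * V + 2 * √π * p * (σ - p) / σ + 4 / 3 * (σ - p - p) ^ 2 := by
  have hσ : 0 < σ := by linarith
  obtain ⟨hr1, hr2⟩ := sqrtPi_bounds
  have hb := tube_chord (p := p) (q := σ - p) (by linarith) hV
  have e : p + (σ - p) = σ := by ring
  rw [e] at hb
  set r := √π with hrdef
  norm_num at hr1 hr2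
  have h1 : 2 * r * p * (σ - p) / σ + 4 / 3 * (σ - p - p) ^ 2 - r * σ / 2 =
      (σ - p - p) ^ 2 * (4 / 3 - r / (2 * σ)) := by
    field_simp
    ring
  have h3 : r / (2 * σ) ≤ 633 / 500 + 1 / 10000 := by
    rw [div_le_iff₀ (by positivity)]
    nlinarith
  have h4 : (3 / 5 : ℝ) ≤ σ - p - p := by linarith
  have h5 : (9 / 25 : ℝ) ≤ (σ - p - p) ^ 2 := by nlinarith
  have h6 : 4 * p ^ 2 ≤ 1 / 100 := by nlinarith
  have h7 : (σ - p - p) ^ 2 * (4 / 3 - r / (2 * σ)) ≥ 9 / 25 * (4 / 3 - (633 / 500 + 1 / 10000)) := by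
    apply mul_le_mul h5 (by linarith) (by norm_num) (by positivity)
  norm_num at h7
  linarith

/-- Equality cases of the bound with the loss term: only the unperturbed ball remains. -/
theorem chord_tight' {p q V : ℝ} (hp : 0 ≤ p) (hp' : p ≤ 1 / 20) (hpq : p ≤ q) (hq : 0 < q)
    (hq' : q ^ 2 ≤ 3 / 5) (hq2 : 1 / π < q ^ 2) (hV : 0 < V)
    (h : chordVal p q V ≤ min (ballVal V) (tubeVal V) + 4 * p ^ 2) :
    p = 0 ∧ q ^ 3 = 3 * √π / 4 * V ∧ V ≤ 4 * π / 81 := by
  have h00 := h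
  unfold chordVal at h
  obtain ⟨σ, hσdef⟩ : ∃ σ, σ = p + q := ⟨_, rfl⟩
  have hσ : 0 < σ := by linarith
  rw [← hσdef] at h
  have hqσ : q = σ - p := by linarith
  have hpσ : p ≤ σ / 2 := by linarith
  subst hqσ
  by_cases hc1 : σ ≤ 3 / 5
  · -- the small range
    obtain ⟨hr1, hr2⟩ := sqrtPi_bounds
    have hb := ball_chord (p := p) (q := σ - p) (by linarith) hV.le
    have e : p + (σ - p) = σ := by ring
    rw [e] at hb
    have hpi2 := Real.pi_lt_d4
    have hq3 : (14 / 25 : ℝ) < σ - p := by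
      by_contra hcon
      push Not at hcon
      have h1 : (σ - p) ^ 2 ≤ (14 / 25) ^ 2 := pow_le_pow_left₀ (by linarith) hcon 2
      have h2 : ((14 / 25 : ℝ)) ^ 2 ≤ 1 / π := by
        rw [le_div_iff₀ Real.pi_pos]
        norm_num
        linarith
      linarith
    set r := √π with hrdef
    have hX : 0 < (σ - p) * (2 * r - 16 / 3 * σ) - 4 * p * σ := by
      have h3 : 17 / 50 ≤ 2 * r - 16 / 3 * σ := by
        norm_num at hr1
        linarith
      have h4 : 14 / 25 * (17 / 50) ≤ (σ - p) * (2 * r - 16 / 3 * σ) :=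
        mul_le_mul hq3.le h3 (by norm_num) (by linarith)
      have h5 : p * σ ≤ 1 / 20 * (3 / 5) := mul_le_mul hp' hc1 hσ.le (by norm_num)
      norm_num at h4 h5
      nlinarith
    have h3 : 2 * r / σ * (p * (σ - p)) - (16 / 3 * (p * (σ - p)) + 4 * p ^ 2) =
        p * ((σ - p) * (2 * r - 16 / 3 * σ) - 4 * p * σ) / σ := by
      field_simp
      ring
    have h2 : 2 * r * p * (σ - p) / σ = 2 * r / σ * (p * (σ - p)) := by ring
    have h4 : 4 / 3 * σ ^ 2 = 4 / 3 * (σ - p - p) ^ 2 + 16 / 3 * (p * (σ - p)) := by ring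
    rw [h2] at h
    have h5 := min_le_left (ballVal V) (tubeVal V)
    have h6 : p * ((σ - p) * (2 * r - 16 / 3 * σ) - 4 * p * σ) / σ ≤ 0 := by
      rw [← h3]
      linarith
    have hp0 : p = 0 := by
      by_contra hne
      have hpos : 0 < p := lt_of_le_of_ne hp (Ne.symm hne)
      have := div_pos (mul_pos hpos hX) hσ
      linarith
    subst hp0
    have h7 : chordVal 0 (σ - 0) V ≤ min (ballVal V) (tubeVal V) := by
      simpa using h00
    rcases chord_tight le_rfl hpq hq hV h7 with h8 | h8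
    · exact ⟨rfl, h8.2⟩
    · exact absurd h8.1.symm hq.ne'
  · push Not at hc1
    exfalso
    by_cases hc3 : σ ≤ 7 / 10
    · have := R1_mid' hp hp' hc1 hc3 hV.le
      linarith
    · push Not at hc3
      have h1 := R1_large' hp hp' hc3 hV.le
      have h2 := min_le_right (ballVal V) (tubeVal V)
      linarith

/-- The slab bound at the corner of the parameter square, with a gain. -/
theorem corner_gain {a b V Per : ℝ} (h0 : 0 ≤ a) (ha : a ≤ 1 / 10000) (hb1 : b ≤ 1)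
    (hb : 1 - 1 / 10000 ≤ b) (hV1 : 31 / 100 ≤ V) (hV2 : V ≤ 69 / 100) (h : PairBound I2 a b V Per) :
    2 + (√a + √(1 - b)) / 1000 ≤ Per := by
  have hab : a ≤ b := by linarith
  have hpi := Real.pi_pos
  obtain ⟨hr1, hr2⟩ := sqrtPi_bounds
  set B : ℝ → ℝ := fun s => 1 - f1 a b s - f2 a b s with hB
  set A : ℝ → ℝ := fun s => √(1 - B s ^ 2) with hA
  have hf1 := f1_bounds (b := b) h0
  have hf2 := f2_bounds hab hb1
  have hB78 : ∀ s, 7 / 8 ≤ B s := by
    intro s
    have := (hf1 s).2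
    have := (hf2 s).2
    simp only [hB]
    linarith
  have hB1 : ∀ s, B s ≤ 1 := by
    intro s
    have := (hf1 s).1
    have := (hf2 s).1
    simp only [hB]
    linarith
  have hBsq : ∀ s, 0 ≤ 1 - B s ^ 2 := by
    intro s
    have := hB78 s
    have := hB1 s
    nlinarith
  have hBc : Continuous B := (continuous_const.sub (f1_cont h0)).sub (f2_cont hab hb1)
  have hpair : CalibPair A B :=
    { contA := Real.continuous_sqrt.comp (continuous_const.sub (hBc.pow 2))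
      contB := hBc
      nonnegA := fun s => Real.sqrt_nonneg _
      nonnegB := fun s => by linarith [hB78 s]
      le_one := fun s => by
        simp only [hA]
        rw [Real.sq_sqrt (hBsq s)]
        linarith }
  set p := √a with hp
  set q := √(1 - b) with hq
  have hb0 : 0 ≤ 1 - b := by linarith
  have hp0 : 0 ≤ p := Real.sqrt_nonneg _
  have hq0 : 0 ≤ q := Real.sqrt_nonneg _
  have hp2 : p ^ 2 = a := Real.sq_sqrt h0
  have hq2 : q ^ 2 = 1 - b := Real.sq_sqrt hb0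
  have hp1 : p ≤ 1 / 100 := by
    rw [hp, Real.sqrt_le_left (by norm_num)]
    norm_num
    linarith
  have hq1 : q ≤ 1 / 100 := by
    rw [hq, Real.sqrt_le_left (by norm_num)]
    norm_num
    linarith
  set r := √π with hr
  have hdom : ∀ s ∈ Icc a b, (2 * r * (q / 4 - p / 4)) * s + 2 * r * (p / 4) ≤ A s * I2 s := by
    intro s hs
    have hs0 : 0 ≤ s := h0.trans hs.1
    have hs1 : s ≤ 1 := hs.2.trans hb1
    have hs2 : 0 ≤ 1 - s := by linarith
    have hu : 0 ≤ s * (1 - s) := mul_nonneg hs0 hs2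
    have h1 := corner_dom h0 hab hb1 hs
    have h2 := I2_ge hs0 hs1
    have hA0 : 0 ≤ A s := Real.sqrt_nonneg _
    have e : (2 * r * (q / 4 - p / 4)) * s + 2 * r * (p / 4)
        = 2 * r * (p / 4 * (1 - s) + q / 4 * s) := by ring
    rw [e]
    have h3 : √(π * (s * (1 - s))) = r * √(s * (1 - s)) := by
      rw [hr, Real.sqrt_mul hpi.le]
    rw [h3] at h2
    have hX : p / 4 * (1 - s) + q / 4 * s ≤ A s * √(s * (1 - s)) := by
      have e2 : A s * √(s * (1 - s)) = √((1 - B s ^ 2) * (s * (1 - s))) := by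
        simp only [hA]
        rw [Real.sqrt_mul (hBsq s)]
      rw [e2]
      apply Real.le_sqrt_of_sq_le
      refine h1.trans ?_
      apply mul_le_mul_of_nonneg_right _ hu
      have h4 := hB78 s
      have h5 := hB1 s
      have : f1 a b s + f2 a b s = 1 - B s := by
        simp only [hB]
        ring
      rw [this]
      nlinarith
    have hr0 : 0 < r := by linarith
    calc 2 * r * (p / 4 * (1 - s) + q / 4 * s) ≤ 2 * r * (A s * √(s * (1 - s))) :=
          mul_le_mul_of_nonneg_left hX (by positivity)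
      _ = A s * (2 * (r * √(s * (1 - s)))) := by ring
      _ ≤ A s * I2 s := mul_le_mul_of_nonneg_left h2 hA0
  have hmain := h A B hpair _ _ hdom
  have hI : ∫ s in a..b, B s = (b - a) - (∫ s in a..b, f1 a b s) - ∫ s in a..b, f2 a b s := by
    simp only [hB]
    have c1 : Continuous fun s => 1 - f1 a b s := continuous_const.sub (f1_cont h0)
    have i1 : ∫ s in a..b, (1 - f1 a b s - f2 a b s)
        = (∫ s in a..b, (1 - f1 a b s)) - ∫ s in a..b, f2 a b s :=
      intervalIntegral.integral_sub (c1.intervalIntegrable _ _)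
        ((f2_cont hab hb1).intervalIntegrable _ _)
    have i2 : ∫ s in a..b, (1 - f1 a b s) = (∫ s in a..b, (1 : ℝ)) - ∫ s in a..b, f1 a b s :=
      intervalIntegral.integral_sub (continuous_const.intervalIntegrable _ _)
        ((f1_cont h0).intervalIntegrable _ _)
    rw [i1, i2]
    simp
  have h1 := int_f1 h0 hab hb1
  have h2 := int_f2 h0 hab hb1
  rw [← hp] at h1
  rw [← hq] at h2
  rw [hI] at hmain
  have h3 : (2 * r * (q / 4 - p / 4)) * V + 2 * r * (p / 4)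
      = 2 * r * (p / 4 * (1 - V) + q / 4 * V) := by ring
  rw [h3] at hmain
  have h4 : (p + q) * (31 / 400) ≤ p / 4 * (1 - V) + q / 4 * V := by nlinarith
  have h5 : 2 * r * ((p + q) * (31 / 400)) ≤ 2 * r * (p / 4 * (1 - V) + q / 4 * V) :=
    mul_le_mul_of_nonneg_left h4 (by linarith)
  have h6 : 2 * (p ^ 2 + q ^ 2) ≤ 0.02 * (p + q) := by nlinarith
  have h7 : b - a = 1 - p ^ 2 - q ^ 2 := by rw [hp2, hq2]; ring
  rw [h7] at hmain
  have h8 : 0 ≤ p + q := by linarith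
  have h9 : 1.7724 * (p + q) ≤ r * (p + q) := mul_le_mul_of_nonneg_right hr1.le h8
  have h10 : (31 / 200) * (1.7724 * (p + q)) ≤ 2 * r * ((p + q) * (31 / 400)) := by
    have e : 2 * r * ((p + q) * (31 / 400)) = (31 / 200) * (r * (p + q)) := by ring
    rw [e]
    exact mul_le_mul_of_nonneg_left h9 (by norm_num)
  norm_num at h6 h10 ⊢
  linarith


/-- Tightness at the corner. -/
theorem corner_slab' {a b V Per : ℝ} (h0 : 0 ≤ a) (ha : a ≤ 1 / 10000) (hb1 : b ≤ 1)
    (hb : 1 - 1 / 10000 ≤ b) (hV1 : 31 / 100 ≤ V) (hV2 : V ≤ 69 / 100) (h : PairBound I2 a b V Per)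
    (hP : Per ≤ 2) : a = 0 ∧ b = 1 := by
  have h1 := corner_gain h0 ha hb1 hb hV1 hV2 h
  have h2 : 0 ≤ √a := Real.sqrt_nonneg _
  have h3 : 0 ≤ √(1 - b) := Real.sqrt_nonneg _
  have h4 : √a = 0 := by linarith
  have h5 : √(1 - b) = 0 := by linarith
  constructor
  · exact le_antisymm ((Real.sqrt_eq_zero h0).1 h4).le h0
  · have := (Real.sqrt_eq_zero (by linarith)).1 h5
    linarith

lemma tube_num' {p q r c : ℝ} (hp0 : 0 ≤ p) (hp : p ≤ 1 / 20) (hq1 : 3 / 5 ≤ q ^ 2) (hq2 : q ^ 2 ≤ 7 / 10)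
    (hq0 : 0 < q) (hr1 : 1.7724 < r) (hr2 : r < 1.7725) (hc0 : 0 < c) (hc1 : c ≤ 1.05)
    (hc2 : c ^ 2 = 7 / 20 * r ^ 2) :
    c ^ 2 * (p + q) * r / 2 + 4 * c * p ^ 2 + 1 / 100
      ≤ 2 * r * p * q / (p + q) + 4 / 3 * (q - p) ^ 2 := by
  have hq3 : 0.7745 < q := by
    by_contra hlt
    push Not at hlt
    nlinarith
  have hq4 : q < 0.8367 := by
    by_contra hlt
    push Not at hlt
    nlinarith
  have hσ : 0 < p + q := by linarith
  have h1 : c ^ 2 * (p + q) * r / 2 ≤ 0.9747 * (p + q) := by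
    have h2 : c ^ 2 * r / 2 ≤ 0.9747 := by
      rw [hc2]
      have : r ^ 3 ≤ 1.7725 ^ 3 := pow_le_pow_left₀ (by linarith) hr2.le 3
      nlinarith
    have := mul_le_mul_of_nonneg_right h2 hσ.le
    nlinarith
  have h3 : 4 * c * p ^ 2 ≤ 4.2 * p ^ 2 := by
    have : 0 ≤ p ^ 2 := sq_nonneg p
    nlinarith
  have h4 : 3.5448 * p * q / (p + q) ≤ 2 * r * p * q / (p + q) := by
    apply div_le_div_of_nonneg_right _ hσ.le
    have : 0 ≤ p * q := mul_nonneg hp0 hq0.le
    nlinarith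
  have h5 : 0.9747 * (p + q) + 4.2 * p ^ 2 + 1 / 100 ≤ 3.5448 * p * q / (p + q) + 4 / 3 * (q - p) ^ 2 := by
    have e : 3.5448 * p * q / (p + q) + 4 / 3 * (q - p) ^ 2
        = (3.5448 * p * q + 4 / 3 * (q - p) ^ 2 * (p + q)) / (p + q) := by
      field_simp
    rw [e, le_div_iff₀ hσ]
    have c1 : 3 / 100 ≤ q ^ 2 * (4 / 3 * q - 0.9747) := by
      have h6 : (5 / 100 : ℝ) ≤ 4 / 3 * q - 0.9747 := by
        norm_num at hq3 ⊢
        linarith
      nlinarith
    have c2 : 0 ≤ p * (q * (1.5954 - 4 / 3 * q) - p * (4.2 * q + 4 / 3 * q + 0.9747)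
        - p ^ 2 * (4.2 - 4 / 3) - 1 / 100) := by
      apply mul_nonneg hp0
      have c3 : 0.37 ≤ q * (1.5954 - 4 / 3 * q) := by nlinarith
      have c4 : p * (4.2 * q + 4 / 3 * q + 0.9747) ≤ 0.05 * (4.2 * 0.84 + 4 / 3 * 0.84 + 0.9747) := by
        have hp' : p ≤ 0.05 := by norm_num at hp ⊢; linarith
        apply mul_le_mul hp' (by linarith) (by positivity) (by norm_num)
      have c5 : p ^ 2 * (4.2 - 4 / 3) ≤ 0.0025 * (4.2 - 4 / 3) := by
        apply mul_le_mul_of_nonneg_right _ (by norm_num)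
        nlinarith
      norm_num at c3 c4 c5 ⊢
      linarith
    nlinarith
  linarith

/-- The tube bound in the region where the right endpoint is near the plateau of `Ju`: strict. -/
theorem tube_regionB' {a b V Per : ℝ} (h0 : 0 ≤ a) (ha : a ≤ 1 / 400) (hb1 : 3 / 5 ≤ b)
    (hb2 : b ≤ 7 / 10) (hV0 : 0 ≤ V) (h2 : PairBound Ju a b V (Per + 4 * a)) :
    tubeVal V < Per := by
  have hpi := Real.pi_pos
  obtain ⟨hr1, hr2⟩ := sqrtPi_bounds
  have hr2' := sq_sqrtPi
  set r := √π with hr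
  set c := √(π * (7 / 20)) with hc
  have hcpos : 0 < c := Real.sqrt_pos.2 (by positivity)
  have hcsq : c ^ 2 = π * (7 / 20) := Real.sq_sqrt (by positivity)
  have hc1 : 1 ≤ c := by
    rw [hc]
    apply Real.one_le_sqrt.2
    nlinarith [Real.pi_gt_three]
  have hc2 : c ≤ 1.05 := by
    rw [hc]
    apply Real.sqrt_le_iff.2
    constructor
    · norm_num
    · nlinarith [Real.pi_lt_d2]
  have hab : a ≤ b := by linarith
  have hb0 : 0 < b := by linarith
  have hs1 : (√a) ^ 2 = a := Real.sq_sqrt h0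
  have hs2 : (√b) ^ 2 = b := Real.sq_sqrt hb0.le
  have hq : 0 < √b := Real.sqrt_pos.2 hb0
  have hp0 : 0 ≤ √a := Real.sqrt_nonneg a
  have hpq : √a ≤ √b := Real.sqrt_le_sqrt hab
  have hp20 : √a ≤ 1 / 20 := by
    rw [Real.sqrt_le_left (by norm_num)]
    norm_num
    linarith
  have hJ : ∀ s ∈ Icc ((√a) ^ 2) ((√b) ^ 2), 2 * √(π * s) ≤ c * Ju s := by
    intro s hs
    rw [hs1, hs2] at hs
    have hs7 : s ≤ 7 / 10 := hs.2.trans hb2
    have hsn : 0 ≤ 2 * √(π * s) := by positivity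
    unfold Ju
    rw [mul_min_of_nonneg _ _ hcpos.le]
    refine le_min ?_ ?_
    · nlinarith
    · have h3 : √(π * s) ≤ √(2 * (π * (7 / 20))) :=
        Real.sqrt_le_sqrt (by nlinarith)
      have h4 : √(2 * (π * (7 / 20))) = √2 * c := by
        rw [Real.sqrt_mul (by norm_num)]
      rw [h4] at h3
      nlinarith
  have hch := chord_bound (J := fun s => c * Ju s) (p := √a) (q := √b) (V := V)
    (Λ := c * (Per + 4 * a)) hp0 hpq hq hJ
    (by rw [hs1, hs2]; exact h2.scale hab hc1)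
  set p := √a with hpdef
  set q := √b with hqdef
  have hσ : 0 < p + q := by linarith
  have ht := tube_le hV0 (k := (2 * r / (p + q)) / c) (by positivity)
  have hnum := tube_num' hp0 hp20 (by rw [hs2]; exact hb1) (by rw [hs2]; exact hb2) hq hr1 hr2 hcpos
    hc2 (by rw [hcsq, hr2']; ring)
  have e1 : c * ((2 * r / (p + q)) / c * V + π / ((2 * r / (p + q)) / c))
      = 2 * r / (p + q) * V + c ^ 2 * (p + q) * r / 2 := by
    rw [← hr2']
    have hr0 : r ≠ 0 := by linarith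
    field_simp
  have h5 : c * tubeVal V ≤ 2 * r / (p + q) * V + c ^ 2 * (p + q) * r / 2 := by
    rw [← e1]
    exact mul_le_mul_of_nonneg_left ht hcpos.le
  have h6 : chordVal p q V = 2 * r / (p + q) * V + 2 * r * p * q / (p + q) + 4 / 3 * (q - p) ^ 2 := rfl
  rw [h6] at hch
  have h7 : c * tubeVal V + 4 * c * p ^ 2 + 1 / 100 ≤ c * (Per + 4 * a) := by linarith
  rw [hs1] at h7
  have h8 : c * tubeVal V < c * Per := by nlinarith
  exact lt_of_mul_lt_mul_left h8 hcpos.le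

/-- The flat part of the profile of the square torus. -/
theorem flat_zone' {a b V Per : ℝ} (ha : 1 / π ≤ a) (hab : a ≤ b) (hb : b ≤ 1 - 1 / π)
    (haV : a ≤ V) (hVb : V ≤ b)
    (h : PairBound I2 a b V Per) (hP : Per ≤ 2) : a = V ∧ b = V := by
  have hpi := Real.pi_pos
  set d := b - a with hd
  have hd0 : 0 ≤ d := by rw [hd]; linarith
  set w := √(1 + d ^ 2) with hw
  have hw2 : w ^ 2 = 1 + d ^ 2 := Real.sq_sqrt (by positivity)
  have hw1 : 1 ≤ w := Real.one_le_sqrt.2 (by nlinarith)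
  have hw0 : 0 < w := by linarith
  have hpair : CalibPair (fun _ => 1 / w) (fun _ => d / w) :=
    { contA := continuous_const
      contB := continuous_const
      nonnegA := fun _ => by positivity
      nonnegB := fun _ => by positivity
      le_one := fun _ => by
        rw [div_pow, div_pow, ← add_div, hw2, one_pow]
        rw [div_le_one (by positivity)]
        }
  have h1 := h _ _ hpair 0 (2 / w) (fun s hs => by
    have hs1 : 1 / π ≤ s := ha.trans hs.1
    have hs2 : s ≤ 1 - 1 / π := hs.2.trans hb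
    have e1 : 1 ≤ π * s := by
      rw [div_le_iff₀ hpi] at hs1
      linarith
    have e2 : 1 ≤ π * (1 - s) := by
      have : 1 / π ≤ 1 - s := by linarith
      rw [div_le_iff₀ hpi] at this
      linarith
    have e3 : (2 : ℝ) ≤ I2 s := by
      refine le_min ?_ (le_min le_rfl ?_)
      · have : 1 ≤ √(π * s) := Real.one_le_sqrt.2 e1
        linarith
      · have : 1 ≤ √(π * (1 - s)) := Real.one_le_sqrt.2 e2
        linarith
    have e4 : 0 * s + 2 / w = 1 / w * 2 := by ring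
    rw [e4]
    exact mul_le_mul_of_nonneg_left e3 (by positivity))
  simp only [zero_mul, intervalIntegral.integral_const, smul_eq_mul, zero_add] at h1
  have h2 : 2 / w + 2 * ((b - a) * (d / w)) = 2 * w := by
    rw [← hd]
    field_simp
    nlinarith
  have h3 : w ≤ 1 := by linarith
  have h4 : w = 1 := le_antisymm h3 hw1
  have h5 : d = 0 := by
    rw [h4] at hw2
    nlinarith
  have h6 : b = a := by rw [hd] at h5; linarith
  exact ⟨by linarith, by linarith⟩

/-- The strict certificates of the direct range. -/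
structure RigCerts3 (δ : ℝ) : Prop where
  cert_ball' : ∀ {a b V Per : ℝ}, 0 ≤ a → a ≤ V → V ≤ b → b ≤ 1 →
    V ≤ 4 * π / 81 → 1 / π < b → (1 / 400 ≤ a ∨ 3 / 5 ≤ b) →
    PairBound I2 a b V Per → ballVal V + δ ≤ Per
  cert_tube' : ∀ {a b V Per : ℝ}, 0 ≤ a → a ≤ V → V ≤ b → b ≤ 1 →
    4 * π / 81 ≤ V → V ≤ 53 / 200 → 1 / π < b → (1 / 400 ≤ a ∨ 7 / 10 ≤ b) →
    PairBound I2 a b V Per → tubeVal V + δ ≤ Per
  cert_slab' : ∀ {a b V Per : ℝ}, 0 ≤ a → a ≤ V → V ≤ b → b ≤ 1 →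
    9 / 25 ≤ V → V ≤ 1 / 2 → ¬(1 / π ≤ a ∧ b ≤ 1 - 1 / π) →
    ¬(a ≤ 1 / 10000 ∧ 1 - 1 / 10000 ≤ b) →
    PairBound I2 a b V Per → 2 + δ ≤ Per

/-- The strict certificates. -/
structure RigCerts (δ : ℝ) : Prop extends RigCerts3 δ where
  cert_A' : ∀ {a b V Per : ℝ}, 1 / 10000 ≤ a → a ≤ V → V ≤ b → b ≤ 1 → 53 / 200 ≤ V → V ≤ 9 / 25 →
    PhaseBound fTc I2 gapAlpha a b V Per → Tgt V + δ ≤ Per
  cert_S1' : ∀ {a b V Per : ℝ}, 0 ≤ a → a ≤ 1 / 10000 → V ≤ b → b ≤ 1 - 1 / 10000 → 53 / 200 ≤ V →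
    V ≤ 9 / 25 → PhaseBound (fSt 0) (fAr (23 / 50)) gapAlpha a b V Per → Tgt V + δ ≤ Per
  cert_S2' : ∀ {a b V Per : ℝ}, 0 ≤ a → a ≤ 1 / 10000 → V ≤ b → b ≤ 1 - 1 / 10000 → 53 / 200 ≤ V →
    V ≤ 9 / 25 → PhaseBound (fSt (23 / 50)) (fAr (1 / 2)) gapAlpha a b V Per → Tgt V + δ ≤ Per
  cert_S3' : ∀ {a b V Per : ℝ}, 0 ≤ a → a ≤ 1 / 10000 → V ≤ b → b ≤ 1 - 1 / 10000 → 53 / 200 ≤ V →
    V ≤ 9 / 25 → PhaseBound (fSt (1 / 2)) (fAr (27 / 50)) gapAlpha a b V Per → Tgt V + δ ≤ Per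
  cert_S4' : ∀ {a b V Per : ℝ}, 0 ≤ a → a ≤ 1 / 10000 → V ≤ b → b ≤ 1 - 1 / 10000 → 53 / 200 ≤ V →
    V ≤ 9 / 25 → PhaseBound (fSt (27 / 50)) (fAr 1) gapAlpha a b V Per → Tgt V + δ ≤ Per
  cert_B' : ∀ {a b V Per : ℝ}, 0 ≤ a → a ≤ V → V ≤ b → b ≤ 1 → 3 / 8 ≤ b → 53 / 200 ≤ V → V ≤ 9 / 25 →
    PhaseBound (fB1 gapAlpha) (fB2 gapAlpha) gapAlpha a b V Per → Tgt V + δ ≤ Per

section Real

variable {δ : ℝ}

/-- Equality in the ball range. -/
theorem real_ball' (C : RigCerts3 δ) (hδ : 0 < δ) {a b V Per : ℝ} (h0 : 0 ≤ a) (haV : a ≤ V)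
    (hVb : V ≤ b) (hb : b ≤ 1) (hV0 : 0 < V)
    (hV : V ≤ 4 * π / 81) (h1 : PairBound I2 a b V Per) (h2 : PairBound Ju a b V (Per + 4 * a))
    (hP : Per ≤ ballVal V) :
    (a = 0 ∧ √b ^ 3 = 3 * √π / 4 * V) ∨ (V = 4 * π / 81 ∧ a = V ∧ b = V) := by
  have hpi := Real.pi_pos
  have hb0 : 0 < b := hV0.trans_le hVb
  have hs1 : (√a) ^ 2 = a := Real.sq_sqrt h0
  have hs2 : (√b) ^ 2 = b := Real.sq_sqrt hb0.le
  have hq : 0 < √b := Real.sqrt_pos.2 hb0
  have hp0 : 0 ≤ √a := Real.sqrt_nonneg a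
  have hpq : √a ≤ √b := Real.sqrt_le_sqrt (haV.trans hVb)
  have hbt := ballVal_le_tubeVal hV0.le hV
  by_cases hcase1 : b ≤ 1 / π
  · have hch := chord_bound (J := I2) (p := √a) (q := √b) (V := V) (Λ := Per) hp0 hpq hq
      (fun s hs => by
        rw [hs1, hs2] at hs
        exact two_sqrt_le_I2 (h0.trans hs.1) (hs.2.trans hcase1))
      (by rw [hs1, hs2]; exact h1)
    have hle : chordVal (√a) (√b) V ≤ min (ballVal V) (tubeVal V) := by
      rw [min_eq_left hbt]; linarith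
    rcases chord_tight hp0 hpq hq hV0 hle with h | h
    · left
      refine ⟨?_, h.2.1⟩
      exact (Real.sqrt_eq_zero h0).1 h.1
    · right
      have hVe : V = 4 * π / 81 := le_antisymm hV h.2.2
      refine ⟨hVe, ?_, ?_⟩
      · rw [← hs1, h.1]; exact h.2.1
      · rw [← hs2]; exact h.2.1
  push Not at hcase1
  by_cases hcase2 : a ≤ 1 / 400 ∧ b ≤ 3 / 5
  · have hch := chord_bound (J := Ju) (p := √a) (q := √b) (V := V) (Λ := Per + 4 * a) hp0 hpq hq
      (fun s hs => by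
        rw [hs1, hs2] at hs
        exact two_sqrt_le_Ju (hs.2.trans hcase2.2))
      (by rw [hs1, hs2]; exact h2)
    have hp20 : √a ≤ 1 / 20 := by
      rw [Real.sqrt_le_left (by norm_num)]
      norm_num
      linarith [hcase2.1]
    have hle : chordVal (√a) (√b) V ≤ min (ballVal V) (tubeVal V) + 4 * (√a) ^ 2 := by
      rw [min_eq_left hbt, hs1]; linarith
    obtain ⟨h3, h4, -⟩ := chord_tight' hp0 hp20 hpq hq (by rw [hs2]; exact hcase2.2)
      (by rw [hs2]; exact hcase1) hV0 hle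
    left
    exact ⟨(Real.sqrt_eq_zero h0).1 h3, h4⟩
  · have hc : 1 / 400 ≤ a ∨ 3 / 5 ≤ b := by
      by_contra hcon
      push Not at hcon
      exact hcase2 ⟨hcon.1.le, hcon.2.le⟩
    have := C.cert_ball' h0 haV hVb hb hV hcase1 hc h1
    linarith

/-- Equality in the tube range. -/
theorem real_tube' (C : RigCerts3 δ) (hδ : 0 < δ) {a b V Per : ℝ} (h0 : 0 ≤ a) (haV : a ≤ V)
    (hVb : V ≤ b) (hb : b ≤ 1)
    (hV1 : 4 * π / 81 ≤ V) (hV2 : V ≤ 53 / 200)
    (h1 : PairBound I2 a b V Per) (h2 : PairBound Ju a b V (Per + 4 * a)) (hP : Per ≤ tubeVal V) :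
    (a = V ∧ b = V) ∨ (V = 4 * π / 81 ∧ a = 0 ∧ √b ^ 3 = 3 * √π / 4 * V) := by
  have hpi := Real.pi_pos
  have hV0 : 0 < V := lt_of_lt_of_le (by positivity) hV1
  have hb0 : 0 < b := hV0.trans_le hVb
  have hs1 : (√a) ^ 2 = a := Real.sq_sqrt h0
  have hs2 : (√b) ^ 2 = b := Real.sq_sqrt hb0.le
  have hq : 0 < √b := Real.sqrt_pos.2 hb0
  have hp0 : 0 ≤ √a := Real.sqrt_nonneg a
  have hpq : √a ≤ √b := Real.sqrt_le_sqrt (haV.trans hVb)
  have hbt := tubeVal_le_ballVal hV1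
  by_cases hcase1 : b ≤ 1 / π
  · have hch := chord_bound (J := I2) (p := √a) (q := √b) (V := V) (Λ := Per) hp0 hpq hq
      (fun s hs => by
        rw [hs1, hs2] at hs
        exact two_sqrt_le_I2 (h0.trans hs.1) (hs.2.trans hcase1))
      (by rw [hs1, hs2]; exact h1)
    have hle : chordVal (√a) (√b) V ≤ min (ballVal V) (tubeVal V) := by
      rw [min_eq_right hbt]; linarith
    rcases chord_tight hp0 hpq hq hV0 hle with h | h
    · right
      exact ⟨le_antisymm h.2.2 hV1, (Real.sqrt_eq_zero h0).1 h.1, h.2.1⟩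
    · left
      constructor
      · rw [← hs1, h.1]; exact h.2.1
      · rw [← hs2]; exact h.2.1
  push Not at hcase1
  by_cases hcase2 : a ≤ 1 / 400 ∧ b ≤ 3 / 5
  · have hch := chord_bound (J := Ju) (p := √a) (q := √b) (V := V) (Λ := Per + 4 * a) hp0 hpq hq
      (fun s hs => by
        rw [hs1, hs2] at hs
        exact two_sqrt_le_Ju (hs.2.trans hcase2.2))
      (by rw [hs1, hs2]; exact h2)
    have hp20 : √a ≤ 1 / 20 := by
      rw [Real.sqrt_le_left (by norm_num)]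
      norm_num
      linarith [hcase2.1]
    have hle : chordVal (√a) (√b) V ≤ min (ballVal V) (tubeVal V) + 4 * (√a) ^ 2 := by
      rw [min_eq_right hbt, hs1]; linarith
    obtain ⟨h3, h4, h5⟩ := chord_tight' hp0 hp20 hpq hq (by rw [hs2]; exact hcase2.2)
      (by rw [hs2]; exact hcase1) hV0 hle
    right
    exact ⟨le_antisymm h5 hV1, (Real.sqrt_eq_zero h0).1 h3, h4⟩
  by_cases hcase3 : a ≤ 1 / 400 ∧ b ≤ 7 / 10
  · exfalso
    push Not at hcase2
    have := hcase2 hcase3.1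
    have h3 := tube_regionB' h0 hcase3.1 this.le hcase3.2 hV0.le h2
    linarith
  · exfalso
    have hc : 1 / 400 ≤ a ∨ 7 / 10 ≤ b := by
      by_contra hcon
      push Not at hcon
      exact hcase3 ⟨hcon.1.le, hcon.2.le⟩
    have := C.cert_tube' h0 haV hVb hb hV1 hV2 hcase1 hc h1
    linarith

/-- Equality in the slab range. -/
theorem real_slab' (C : RigCerts3 δ) (hδ : 0 < δ) {a b V Per : ℝ} (h0 : 0 ≤ a) (haV : a ≤ V)
    (hVb : V ≤ b) (hb : b ≤ 1)
    (hV1 : 9 / 25 ≤ V) (hV2 : V ≤ 1 / 2) (h1 : PairBound I2 a b V Per) (hP : Per ≤ 2) :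
    (a = V ∧ b = V) ∨ (a = 0 ∧ b = 1) := by
  by_cases hc1 : 1 / π ≤ a ∧ b ≤ 1 - 1 / π
  · left
    exact flat_zone' hc1.1 (haV.trans hVb) hc1.2 haV hVb h1 hP
  by_cases hc2 : a ≤ 1 / 10000 ∧ 1 - 1 / 10000 ≤ b
  · right
    exact corner_slab' h0 hc2.1 hb hc2.2 (by linarith) (by linarith) h1 hP
  · exfalso
    have := C.cert_slab' h0 haV hVb hb hV1 hV2 hc1 hc2 h1
    linarith

end Real

/-- Equality in the zone of small `b` of the volume range. -/
theorem tube_zone' {a b V Per : ℝ} (h0 : 0 ≤ a) (haV : a ≤ V) (hVb : V ≤ b) (hV1 : 53 / 200 ≤ V)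
    (h : PairBound tubeVal a b V Per) (hP : Per ≤ tubeVal V) : a = V ∧ b = V := by
  have hpi := Real.pi_lt_d4
  have hpi0 := Real.pi_pos
  have hV0 : 0 < V := by linarith
  have hb0 : 0 < b := by linarith
  have hs1 : (√a) ^ 2 = a := Real.sq_sqrt h0
  have hs2 : (√b) ^ 2 = b := Real.sq_sqrt hb0.le
  have hq : 0 < √b := Real.sqrt_pos.2 hb0
  have hp0 : 0 ≤ √a := Real.sqrt_nonneg a
  have hpq : √a ≤ √b := Real.sqrt_le_sqrt (haV.trans hVb)
  have hch := chord_bound (J := tubeVal) (p := √a) (q := √b) (V := V) (Λ := Per) hp0 hpq hq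
    (fun s _ => le_refl _) (by rw [hs1, hs2]; exact h)
  have hV1' : 4 * π / 81 ≤ V := by linarith
  have hle : chordVal (√a) (√b) V ≤ min (ballVal V) (tubeVal V) := by
    rw [min_eq_right (tubeVal_le_ballVal hV1')]; linarith
  rcases chord_tight hp0 hpq hq hV0 hle with h1 | h1
  · exfalso
    have := h1.2.2
    linarith
  · constructor
    · rw [← hs1, h1.1]; exact h1.2.1
    · rw [← hs2]; exact h1.2.1

/-- Equality at the corner of the parameter square, in the volume range. -/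
theorem corner_zone' {a b V Per : ℝ} (h0 : 0 ≤ a) (ha : a ≤ 1 / 10000) (hb1 : b ≤ 1)
    (hb : 1 - 1 / 10000 ≤ b) (hV2 : V ≤ 9 / 25) (h : PairBound I2 a b V Per)
    (hP : Per ≤ Tgt V) : a = 0 ∧ b = 1 := by
  by_cases hV : 31 / 100 ≤ V
  · exact corner_slab' h0 ha hb1 hb hV (by linarith) h (hP.trans (min_le_right _ _))
  · push Not at hV
    exfalso
    have h1 := h _ _ Seq2.pair01 0 0 (fun s _ => by simp)
    simp only [zero_mul, add_zero, intervalIntegral.integral_const, smul_eq_mul, mul_one] at h1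
    have h2 : Tgt V ≤ tubeVal V := min_le_left _ _
    have h3 : tubeVal V < 2 * (b - a) := by
      unfold tubeVal
      have hpi := Real.pi_lt_d4
      have hpi0 := Real.pi_pos
      have h4 : √(π * V) < 9998 / 10000 := by
        rw [Real.sqrt_lt' (by norm_num)]
        nlinarith
      linarith
    linarith

end Vale.Agent.Lib.P232
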