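import Vale.Agent.Lib.P232.RigDefs

/-!
Module M-A of the classification of minimizers: the mollified sequence of `exists_seq` with the
periodicity of the terms.
-/

open MeasureTheory Filter Topology Set
open scoped Real

namespace Vale.Agent.Lib.P232

lemma per3_of_isPer {h : V3 → ℝ} (hh : IsPer h) : Per3 (fun x y z => h (x, y, z)) where
  perx x y z := (hh x y z).1
  pery x y z := (hh x y z).2.1
  perz x y z := (hh x y z).2.2

/-- The sequence of mollifications of the indicator function of a periodic set, with periodicity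
of the functions and of their derivatives. -/
theorem exists_seq_per {E : Set (ℝ × ℝ × ℝ)} (hE : MeasurableSet E) (hp : IsPeriodicSet E) :
    ∃ u ux uy uz : ℕ → ℝ → ℝ → ℝ → ℝ, Seq3 (indF E) u ux uy uz ∧
      (∀ k, ENNReal.ofReal (energy3 (ux k) (uy k) (uz k)) ≤ perimeter E) ∧
      ∀ k, Per3 (u k) ∧ Per3 (ux k) ∧ Per3 (uy k) ∧ Per3 (uz k) := by
  have hgm := gE_meas hE
  have hgb := gE_bd E
  have hgp := gE_per hp
  have hgl := locInt_of_bdd hgm hgb
  refine ⟨fun k x y z => cv (rhoK k) (gE E) (x, y, z),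
    fun k x y z => fderiv ℝ (cv (rhoK k) (gE E)) (x, y, z) eX,
    fun k x y z => fderiv ℝ (cv (rhoK k) (gE E)) (x, y, z) eY,
    fun k x y z => fderiv ℝ (cv (rhoK k) (gE E)) (x, y, z) eZ, ⟨?_, ?_, ?_, ?_, ?_⟩, ?_, ?_⟩
  · exact measurable_const.indicator hE
  · intro x y z
    by_cases h : (x, y, z) ∈ E <;> simp [indF, h]
  · intro k
    exact smooth3_cv (kern_rhoK k) hgm hgb hgp
  · intro k x y z
    have hρ := kern_rhoK k
    have hi := integrable_kernel hρ.integrable hgm hgb (x, y, z)
    constructor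
    · exact integral_nonneg fun t => mul_nonneg (hρ.nn t) (gE_nonneg E _)
    · calc cv (rhoK k) (gE E) (x, y, z) ≤ ∫ t, rhoK k t := by
            apply integral_mono hi hρ.integrable
            intro t
            have := mul_le_mul_of_nonneg_left (gE_le E ((x, y, z) - t)) (hρ.nn t)
            simpa using this
        _ = 1 := hρ.one
  · have hφ : Tendsto (fun k => (bumpK k).rOut) atTop (𝓝 0) :=
      tendsto_one_div_add_atTop_nhds_zero_nat
    have hφ' : ∀ᶠ k in atTop, (bumpK k).rOut ≤ 2 * (bumpK k).rIn := by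
      refine Eventually.of_forall fun k => ?_
      show 1 / ((k : ℝ) + 1) ≤ 2 * (1 / (2 * ((k : ℝ) + 1)))
      have h : (0 : ℝ) < (k : ℝ) + 1 := by positivity
      apply le_of_eq
      field_simp
    have := ContDiffBump.ae_convolution_tendsto_right_of_locallyIntegrable
      (μ := (volume : Measure V3)) hφ hφ' hgl
    filter_upwards [this] with p hp'
    exact hp'
  · intro k
    have hρ := kern_rhoK k
    have key := tv_le_perimeter hE hp hρ
    have c1 := continuous_dcv hρ hgl eX
    have c2 := continuous_dcv hρ hgl eY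
    have c3 := continuous_dcv hρ hgl eZ
    have b1 := dcv_bound hρ hgm hgb eX
    have b2 := dcv_bound hρ hgm hgb eY
    have b3 := dcv_bound hρ hgm hgb eZ
    have hNm : Measurable (fun p => √(fderiv ℝ (cv (rhoK k) (gE E)) p eX ^ 2
        + fderiv ℝ (cv (rhoK k) (gE E)) p eY ^ 2 + fderiv ℝ (cv (rhoK k) (gE E)) p eZ ^ 2)) :=
      (((c1.pow 2).add (c2.pow 2)).add (c3.pow 2)).sqrt.measurable
    have hNb : ∀ p, |√(fderiv ℝ (cv (rhoK k) (gE E)) p eX ^ 2
        + fderiv ℝ (cv (rhoK k) (gE E)) p eY ^ 2 + fderiv ℝ (cv (rhoK k) (gE E)) p eZ ^ 2)|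
        ≤ (∫ t, |fderiv ℝ (rhoK k) t eX|) * 1 + (∫ t, |fderiv ℝ (rhoK k) t eY|) * 1
          + (∫ t, |fderiv ℝ (rhoK k) t eZ|) * 1 := by
      intro p
      have h1 := b1 p
      have h2 := b2 p
      have h3 := b3 p
      set a := fderiv ℝ (cv (rhoK k) (gE E)) p eX
      set b := fderiv ℝ (cv (rhoK k) (gE E)) p eY
      set c := fderiv ℝ (cv (rhoK k) (gE E)) p eZ
      rw [abs_of_nonneg (Real.sqrt_nonneg _)]
      refine le_trans ?_ (add_le_add (add_le_add h1 h2) h3)
      rw [Real.sqrt_le_iff]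
      refine ⟨by positivity, ?_⟩
      have sa := sq_abs a
      have sb := sq_abs b
      have sc := sq_abs c
      nlinarith [abs_nonneg a, abs_nonneg b, abs_nonneg c, mul_nonneg (abs_nonneg a) (abs_nonneg b),
        mul_nonneg (abs_nonneg a) (abs_nonneg c), mul_nonneg (abs_nonneg b) (abs_nonneg c)]
    rw [integral_cell hNm hNb] at key
    exact key
  · intro k
    have hρ := kern_rhoK k
    exact ⟨per3_of_isPer (cv_periodic (rhoK k) hgp), per3_of_isPer (dcv_periodic hρ hgm hgb hgp eX),
      per3_of_isPer (dcv_periodic hρ hgm hgb hgp eY), per3_of_isPer (dcv_periodic hρ hgm hgb hgp eZ)⟩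

end Vale.Agent.Lib.P232
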