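import Vale.Agent.Lib.P232.RigDefs

/-!
# Rigidity of the Steiner steps

If the slices of a Steiner symmetrization all have the same area, then the lines of the original set
are full or empty, so that the set did not change; if the slices are full or empty, then the lines
of the original set have the same length.
-/

open MeasureTheory Filter Topology Set
open scoped Real

namespace Vale.Agent.Lib.P232

namespace Stein

/-- Lebesgue measure on the unit interval. -/
noncomputable abbrev mu1 : Measure ℝ := volume.restrict (Ioc (0 : ℝ) 1)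

instance : IsProbabilityMeasure mu1 := ⟨by simp [mu1]⟩

lemma ii_eq (f : ℝ → ℝ) : ∫ t in (0 : ℝ)..1, f t = ∫ t, f t ∂mu1 :=
  intervalIntegral.integral_of_le zero_le_one

variable {Y : Type*} [MeasurableSpace Y] {ν : Measure Y} [IsProbabilityMeasure ν] {g : Y → ℝ → ℝ}

/-- A family of `0`-`1` functions on the unit interval. -/
structure BinL (g : Y → ℝ → ℝ) : Prop where
  meas : Measurable fun p : Y × ℝ => g p.1 p.2
  bin : ∀ q t, g q t = 0 ∨ g q t = 1

/-- The length of a line. -/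
noncomputable def len (g : Y → ℝ → ℝ) (q : Y) : ℝ := ∫ t, g q t ∂mu1

/-- The symmetrized lines. -/
noncomputable def sym (g : Y → ℝ → ℝ) (q : Y) (t : ℝ) : ℝ :=
  if 2 * |t - 1 / 2| < len g q then 1 else 0

namespace BinL

variable (hg : BinL g)
include hg

lemma line_meas (q : Y) : Measurable (g q) := by
  have : Measurable fun t : ℝ => (q, t) := by fun_prop
  exact hg.meas.comp this

lemma abs_le (q : Y) (t : ℝ) : ‖g q t‖ ≤ 1 := by
  rcases hg.bin q t with h | h <;> simp [h]

lemma line_int (q : Y) : Integrable (g q) mu1 :=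
  Integrable.of_bound (hg.line_meas q).aestronglyMeasurable 1
    (Eventually.of_forall fun t => hg.abs_le q t)

lemma nonneg (q : Y) (t : ℝ) : 0 ≤ g q t := by
  rcases hg.bin q t with h | h <;> simp [h]

lemma le_one (q : Y) (t : ℝ) : g q t ≤ 1 := by
  rcases hg.bin q t with h | h <;> simp [h]

lemma len_nonneg (q : Y) : 0 ≤ len g q := integral_nonneg fun t => hg.nonneg q t

lemma len_le_one (q : Y) : len g q ≤ 1 := by
  have h := integral_mono (hg.line_int q) (integrable_const (1 : ℝ)) (fun t => hg.le_one q t)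
  simpa [len] using h

lemma len_meas : Measurable (len g) :=
  (StronglyMeasurable.integral_prod_right' (f := fun p : Y × ℝ => g p.1 p.2)
    hg.meas.stronglyMeasurable).measurable

lemma sym_meas : Measurable fun p : Y × ℝ => sym g p.1 p.2 := by
  unfold sym
  refine Measurable.ite ?_ measurable_const measurable_const
  have h1 : Measurable fun p : Y × ℝ => len g p.1 := hg.len_meas.comp measurable_fst
  have h2 : Measurable fun p : Y × ℝ => 2 * |p.2 - 1 / 2| := by
    have : Measurable fun p : Y × ℝ => p.2 - 1 / 2 := by fun_prop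
    exact (this.abs).const_mul 2
  exact measurableSet_lt h2 h1

lemma symL : BinL (sym g) :=
  ⟨hg.sym_meas, fun q t => by
    unfold sym
    split_ifs <;> simp⟩

/-- The symmetrization preserves the length of a line. -/
lemma integral_sym (q : Y) : ∫ t, sym g q t ∂mu1 = len g q := by
  rw [← ii_eq]
  exact indicator_integral (hg.len_nonneg q) (hg.len_le_one q)

end BinL

lemma hasDerivAt_cube (x : ℝ) :
    HasDerivAt (fun z : ℝ => (z - 1 / 2) ^ 3 / 3) ((x - 1 / 2) ^ 2) x := by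
  have h1 : HasDerivAt (fun z : ℝ => z - 1 / 2) 1 x := (hasDerivAt_id' x).sub_const _
  have h2 := (h1.fun_pow 3).div_const 3
  refine h2.congr_deriv ?_
  norm_num

/-- The integral of the square of the distance to the center on a centered interval. -/
lemma weight_integral {L : ℝ} (h0 : 0 ≤ L) (h1 : L ≤ 1) :
    ∫ z, (z - 1 / 2) ^ 2 * (if 2 * |z - 1 / 2| < L then (1 : ℝ) else 0) ∂mu1 = L ^ 3 / 12 := by
  have hset : {z : ℝ | 2 * |z - 1 / 2| < L} = Ioo (1 / 2 - L / 2) (1 / 2 + L / 2) := by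
    ext z
    simp only [Set.mem_ofPred_eq, mem_Ioo]
    constructor
    · intro h
      have h2 : |z - 1 / 2| < L / 2 := by linarith
      have := abs_lt.1 h2
      constructor <;> linarith [this.1, this.2]
    · rintro ⟨h2, h3⟩
      have : |z - 1 / 2| < L / 2 := abs_lt.2 ⟨by linarith, by linarith⟩
      linarith
  have e1 : (fun z : ℝ => (z - 1 / 2) ^ 2 * if 2 * |z - 1 / 2| < L then (1 : ℝ) else 0) =
      (Ioo (1 / 2 - L / 2) (1 / 2 + L / 2)).indicator (fun z => (z - 1 / 2) ^ 2) := by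
    funext z
    by_cases h : 2 * |z - 1 / 2| < L
    · have hz : z ∈ Ioo (1 / 2 - L / 2) (1 / 2 + L / 2) := by
        rw [← hset]
        exact h
      rw [if_pos h, indicator_of_mem hz, mul_one]
    · have hz : z ∉ Ioo (1 / 2 - L / 2) (1 / 2 + L / 2) := by
        rw [← hset]
        exact h
      rw [if_neg h, indicator_of_notMem hz, mul_zero]
  rw [e1, setIntegral_indicator measurableSet_Ioo]
  have hsub : Ioc (0 : ℝ) 1 ∩ Ioo (1 / 2 - L / 2) (1 / 2 + L / 2) =
      Ioo (1 / 2 - L / 2) (1 / 2 + L / 2) := by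
    apply inter_eq_right.2
    intro z hz
    exact ⟨by linarith [hz.1], by linarith [hz.2]⟩
  rw [hsub, ← integral_Ioc_eq_integral_Ioo, ← intervalIntegral.integral_of_le (by linarith)]
  have hd : ∀ x ∈ uIcc (1 / 2 - L / 2) (1 / 2 + L / 2),
      HasDerivAt (fun z : ℝ => (z - 1 / 2) ^ 3 / 3) ((x - 1 / 2) ^ 2) x := by
    intro x _
    exact hasDerivAt_cube x
  rw [intervalIntegral.integral_eq_sub_of_hasDerivAt hd
    ((by fun_prop : Continuous fun z : ℝ => (z - 1 / 2) ^ 2).intervalIntegrable _ _)]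
  ring

section Fubini

variable (hg : BinL g) {φ : ℝ → ℝ} (hφ : Measurable φ) {C : ℝ}
  (hC : ∀ t ∈ Ioc (0 : ℝ) 1, |φ t| ≤ C)

include hg hφ hC in
/-- Fubini for a weight. -/
lemma fubini_weight :
    ∫ t, φ t * ∫ q, g q t ∂ν ∂mu1 = ∫ q, ∫ t, φ t * g q t ∂mu1 ∂ν := by
  have h1 : ∀ t, φ t * ∫ q, g q t ∂ν = ∫ q, φ t * g q t ∂ν := fun t =>
    (integral_const_mul _ _).symm
  simp only [h1]
  refine integral_integral_swap (f := fun t q => φ t * g q t) ?_
  have hm : Measurable (Function.uncurry fun t q => φ t * g q t) := by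
    have h2 : Measurable fun p : ℝ × Y => g p.2 p.1 := by
      have : Measurable fun p : ℝ × Y => (p.2, p.1) := by fun_prop
      exact hg.meas.comp this
    exact (hφ.comp measurable_fst).mul h2
  refine Integrable.of_bound hm.aestronglyMeasurable C ?_
  have h3 : ∀ᵐ p : ℝ × Y ∂mu1.prod ν, p.1 ∈ Ioc (0 : ℝ) 1 :=
    Measure.quasiMeasurePreserving_fst.ae (ae_restrict_mem measurableSet_Ioc)
  filter_upwards [h3] with p hp
  have h4 := hC p.1 hp
  have h5 := hg.abs_le p.2 p.1
  rw [Real.norm_eq_abs] at h5 ⊢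
  simp only [Function.uncurry, abs_mul]
  have h6 : 0 ≤ |φ p.1| := abs_nonneg _
  nlinarith [abs_nonneg (g p.2 p.1)]

end Fubini

namespace BinL

variable (hg : BinL g)
include hg

/-- The mean of the slices. -/
lemma mean_slices : ∫ t, ∫ q, sym g q t ∂ν ∂mu1 = ∫ q, len g q ∂ν := by
  have h := fubini_weight (ν := ν) hg.symL (φ := fun _ => 1) measurable_const (C := 1)
    (fun _ _ => by simp)
  simp only [one_mul] at h
  rw [h]
  exact integral_congr_ae (Eventually.of_forall fun q => hg.integral_sym q)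

/-- The second moment of the slices. -/
lemma moment_slices :
    ∫ t, (t - 1 / 2) ^ 2 * ∫ q, sym g q t ∂ν ∂mu1 = ∫ q, len g q ^ 3 / 12 ∂ν := by
  have h := fubini_weight (ν := ν) hg.symL (φ := fun t => (t - 1 / 2) ^ 2) (by fun_prop) (C := 1)
    (fun t ht => by
      have h1 : |t - 1 / 2| ≤ 1 := _root_.abs_le.2 ⟨by linarith [ht.1], by linarith [ht.2]⟩
      rw [abs_pow]
      exact pow_le_one₀ (abs_nonneg _) h1)
  rw [h]
  exact integral_congr_ae (Eventually.of_forall fun q =>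
    weight_integral (hg.len_nonneg q) (hg.len_le_one q))

lemma len3_int : Integrable (fun q => len g q ^ 3 / 12) ν := by
  refine Integrable.of_bound ((hg.len_meas.pow_const 3).div_const 12).aestronglyMeasurable 1
    (Eventually.of_forall fun q => ?_)
  have h0 := hg.len_nonneg q
  have h1 := hg.len_le_one q
  have h2 : len g q ^ 3 ≤ 1 := pow_le_one₀ h0 h1
  have h3 : 0 ≤ len g q ^ 3 := pow_nonneg h0 3
  rw [Real.norm_eq_abs, abs_of_nonneg (by positivity)]
  linarith

lemma len_norm (q : Y) : ‖len g q‖ ≤ 1 := by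
  rw [Real.norm_eq_abs, abs_of_nonneg (hg.len_nonneg q)]
  exact hg.len_le_one q

lemma len_int : Integrable (len g) ν :=
  Integrable.of_bound hg.len_meas.aestronglyMeasurable 1 (Eventually.of_forall fun q => by
    rw [Real.norm_eq_abs, abs_of_nonneg (hg.len_nonneg q)]
    exact hg.len_le_one q)

/-- If all slices of the symmetrization have the same area, then all lines are full or empty. -/
lemma full_or_empty {V : ℝ} (h : ∀ᵐ t ∂mu1, ∫ q, sym g q t ∂ν = V) :
    ∀ᵐ q ∂ν, len g q = 0 ∨ len g q = 1 := by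
  have h1 : ∫ q, len g q ∂ν = V := by
    rw [← hg.mean_slices]
    rw [integral_congr_ae h]
    simp
  have h2 : ∫ q, len g q ^ 3 / 12 ∂ν = V / 12 := by
    rw [← hg.moment_slices]
    have h3 : ∫ t, (t - 1 / 2) ^ 2 * ∫ q, sym g q t ∂ν ∂mu1 = ∫ t, (t - 1 / 2) ^ 2 * V ∂mu1 := by
      refine integral_congr_ae ?_
      filter_upwards [h] with t ht
      rw [ht]
    rw [h3, integral_mul_const, ← ii_eq]
    have hd : ∀ x ∈ uIcc (0 : ℝ) 1,
        HasDerivAt (fun z : ℝ => (z - 1 / 2) ^ 3 / 3) ((x - 1 / 2) ^ 2) x := by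
      intro x _
      exact hasDerivAt_cube x
    rw [intervalIntegral.integral_eq_sub_of_hasDerivAt hd
      ((by fun_prop : Continuous fun z : ℝ => (z - 1 / 2) ^ 2).intervalIntegrable _ _)]
    ring
  have h3 : ∫ q, (len g q - 12 * (len g q ^ 3 / 12)) ∂ν = 0 := by
    rw [integral_sub hg.len_int (hg.len3_int.const_mul 12), integral_const_mul, h1, h2]
    ring
  have h4 : ∀ q, 0 ≤ len g q - 12 * (len g q ^ 3 / 12) := by
    intro q
    have h0 := hg.len_nonneg q
    have h1 := hg.len_le_one q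
    have : len g q ^ 3 ≤ len g q := by
      have : len g q ^ 2 ≤ 1 := pow_le_one₀ h0 h1
      nlinarith
    linarith
  have h5 := (integral_eq_zero_iff_of_nonneg h4
    (hg.len_int.sub (hg.len3_int.const_mul 12))).1 h3
  filter_upwards [h5] with q hq
  have hq' : len g q - 12 * (len g q ^ 3 / 12) = 0 := hq
  have h0 := hg.len_nonneg q
  have h1 := hg.len_le_one q
  have h6 : len g q * ((1 - len g q) * (1 + len g q)) = 0 := by
    ring_nf at hq' ⊢
    linarith
  rcases mul_eq_zero.1 h6 with h7 | h7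
  · exact Or.inl h7
  · rcases mul_eq_zero.1 h7 with h8 | h8
    · exact Or.inr (by linarith)
    · linarith

/-- A full or empty line does not change under symmetrization. -/
lemma sym_eq_of_full_or_empty (q : Y) (h : len g q = 0 ∨ len g q = 1) :
    ∀ᵐ t ∂mu1, sym g q t = g q t := by
  rcases h with h | h
  · have h1 : ∀ᵐ t ∂mu1, g q t = 0 :=
      (integral_eq_zero_iff_of_nonneg (fun t => hg.nonneg q t) (hg.line_int q)).1 h
    filter_upwards [h1] with t ht
    rw [ht]
    unfold sym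
    rw [h, if_neg]
    have := abs_nonneg (t - 1 / 2)
    linarith
  · have h1 : ∀ᵐ t ∂mu1, 1 - g q t = 0 := by
      have hi : Integrable (fun t => 1 - g q t) mu1 := (integrable_const 1).sub (hg.line_int q)
      have hn : 0 ≤ fun t => 1 - g q t := fun t => by
        have := hg.le_one q t
        simpa using this
      refine (integral_eq_zero_iff_of_nonneg hn hi).1 ?_
      rw [integral_sub (integrable_const 1) (hg.line_int q)]
      have : ∫ t, g q t ∂mu1 = 1 := h
      rw [this]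
      simp
    have h2 : ∀ᵐ t ∂mu1, t ≠ 1 := by
      have : (mu1) {(1 : ℝ)} = 0 := by
        refine Measure.restrict_apply_eq_zero' measurableSet_Ioc |>.2 ?_
        exact measure_mono_null (inter_subset_left) (by simp)
      exact compl_mem_ae_iff.2 this
    have h3 : ∀ᵐ t ∂mu1, t ∈ Ioc (0 : ℝ) 1 := ae_restrict_mem measurableSet_Ioc
    filter_upwards [h1, h2, h3] with t ht ht2 ht3
    have h4 : g q t = 1 := by linarith
    rw [h4]
    unfold sym
    rw [h, if_pos]
    have h5 : t < 1 := lt_of_le_of_ne ht3.2 ht2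
    have h6 : |t - 1 / 2| < 1 / 2 := abs_lt.2 ⟨by linarith [ht3.1], by linarith⟩
    linarith

/-- If the slices of the symmetrization are full or empty, then all lines have the same length. -/
lemma lines_const (h : ∀ᵐ t ∂mu1, (∫ q, sym g q t ∂ν = 0 ∨ ∫ q, sym g q t ∂ν = 1)) :
    ∀ᵐ q ∂ν, len g q = ∫ q, len g q ∂ν := by
  set V := ∫ q, len g q ∂ν with hV
  have hsi : ∀ t, Integrable (fun q => sym g q t) ν := by
    intro t
    have h1 : Measurable fun q => sym g q t := by
      have : Measurable fun q : Y => (q, t) := by fun_prop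
      exact hg.sym_meas.comp this
    exact Integrable.of_bound h1.aestronglyMeasurable 1
      (Eventually.of_forall fun q => hg.symL.abs_le q t)
  have hh0 : ∀ t, 0 ≤ ∫ q, sym g q t ∂ν := fun t =>
    integral_nonneg fun q => hg.symL.nonneg q t
  have hhm : Measurable fun t => ∫ q, sym g q t ∂ν := by
    have h2 : Measurable fun p : ℝ × Y => sym g p.2 p.1 := by
      have : Measurable fun p : ℝ × Y => (p.2, p.1) := by fun_prop
      exact hg.sym_meas.comp this
    exact (StronglyMeasurable.integral_prod_right' (f := fun p : ℝ × Y => sym g p.2 p.1)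
      h2.stronglyMeasurable).measurable
  have hh1 : ∀ t, ∫ q, sym g q t ∂ν ≤ 1 := fun t => by
    have := integral_mono (hsi t) (integrable_const (1 : ℝ)) fun q => hg.symL.le_one q t
    simpa using this
  have hhi : Integrable (fun t => ∫ q, sym g q t ∂ν) mu1 :=
    Integrable.of_bound hhm.aestronglyMeasurable 1 (Eventually.of_forall fun t => by
      rw [Real.norm_eq_abs, abs_of_nonneg (hh0 t)]
      exact hh1 t)
  -- the key step: above the mean, there are points with empty slices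
  have key : ∀ a, V < a → a < 1 → ∃ t, 2 * |t - 1 / 2| ≤ a ∧ ∫ q, sym g q t ∂ν = 0 := by
    intro a ha ha1
    have hV0 : 0 ≤ V := integral_nonneg fun q => hg.len_nonneg q
    have hpos : volume (Ioo (1 / 2 + V / 2) (1 / 2 + a / 2)) ≠ 0 := by
      rw [Real.volume_Ioo]
      simp only [ne_eq, ENNReal.ofReal_eq_zero, not_le]
      linarith
    have hsub : Ioo (1 / 2 + V / 2) (1 / 2 + a / 2) ⊆ Ioc (0 : ℝ) 1 := fun z hz =>
      ⟨by linarith [hz.1], by linarith [hz.2]⟩
    have hae : ∀ᵐ t ∂(volume.restrict (Ioo (1 / 2 + V / 2) (1 / 2 + a / 2))),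
        (∫ q, sym g q t ∂ν = 0 ∨ ∫ q, sym g q t ∂ν = 1) :=
      ae_mono (Measure.restrict_mono hsub le_rfl) h
    obtain ⟨t, ht, hP⟩ := Measure.exists_mem_of_measure_ne_zero_of_ae hpos hae
    have hw : 2 * |t - 1 / 2| = 2 * t - 1 := by
      rw [abs_of_pos (by linarith [ht.1])]
      ring
    rcases hP with hP | hP
    · exact ⟨t, by rw [hw]; linarith [ht.2], hP⟩
    · exfalso
      -- the slices closer to the center are full
      have hmono : ∀ t', (if 2 * |t' - 1 / 2| < 2 * |t - 1 / 2| then (1 : ℝ) else 0) ≤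
          ∫ q, sym g q t' ∂ν := by
        intro t'
        split_ifs with hlt
        · rw [← hP]
          refine integral_mono (hsi t) (hsi t') fun q => ?_
          change sym g q t ≤ sym g q t'
          unfold sym
          by_cases h1 : 2 * |t - 1 / 2| < len g q
          · rw [if_pos h1, if_pos (by linarith)]
          · rw [if_neg h1]
            split_ifs <;> norm_num
        · exact hh0 t'
      have h1 : (∫ t', (if 2 * |t' - 1 / 2| < 2 * |t - 1 / 2| then (1 : ℝ) else 0) ∂mu1) ≤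
          ∫ t', ∫ q, sym g q t' ∂ν ∂mu1 := by
        refine integral_mono ?_ hhi hmono
        refine Integrable.of_bound (Measurable.aestronglyMeasurable ?_) 1
          (Eventually.of_forall fun t' => ?_)
        · refine Measurable.ite ?_ measurable_const measurable_const
          have h2 : Measurable fun t' : ℝ => 2 * |t' - 1 / 2| := by
            have : Measurable fun t' : ℝ => t' - 1 / 2 := by fun_prop
            exact (this.abs).const_mul 2
          exact measurableSet_lt h2 measurable_const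
        · split_ifs <;> simp
      rw [hg.mean_slices, ← ii_eq, indicator_integral (by positivity) (by
        rw [hw]
        linarith [ht.2])] at h1
      rw [hw] at h1
      linarith [ht.1]
  -- hence the lengths are at most the mean
  have hle : ∀ᵐ q ∂ν, len g q ≤ V := by
    by_cases hV1 : 1 ≤ V
    · exact Eventually.of_forall fun q => (hg.len_le_one q).trans hV1
    · have hV1' : V < 1 := not_le.1 hV1
      have hall : ∀ n : ℕ, ∀ᵐ q ∂ν, len g q ≤ V + (1 - V) / (n + 2) := by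
        intro n
        have hn : 0 < (1 - V) / ((n : ℝ) + 2) := div_pos (by linarith) (by positivity)
        have hn2 : (1 - V) / ((n : ℝ) + 2) < 1 - V := by
          refine div_lt_self (by linarith) ?_
          have : (0 : ℝ) ≤ n := Nat.cast_nonneg n
          linarith
        obtain ⟨t, ht, ht0⟩ := key (V + (1 - V) / (n + 2)) (by linarith) (by linarith)
        have h1 := (integral_eq_zero_iff_of_nonneg (fun q => hg.symL.nonneg q t) (hsi t)).1 ht0
        filter_upwards [h1] with q hq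
        have hq' : sym g q t = 0 := hq
        unfold sym at hq'
        by_contra hcon
        rw [if_pos (by linarith)] at hq'
        exact one_ne_zero hq'
      have hall' := ae_all_iff.2 hall
      filter_upwards [hall'] with q hq
      have hlim : Tendsto (fun n : ℕ => V + (1 - V) / ((n : ℝ) + 2)) atTop (𝓝 (V + 0)) := by
        refine tendsto_const_nhds.add ?_
        refine Tendsto.div_atTop tendsto_const_nhds ?_
        exact tendsto_atTop_add_const_right _ _ tendsto_natCast_atTop_atTop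
      rw [add_zero] at hlim
      exact ge_of_tendsto' hlim hq
  -- and the integral closes
  have hz : ∫ q, (V - len g q) ∂ν = 0 := by
    rw [integral_sub (integrable_const V) hg.len_int]
    simp [hV]
  have hnn : 0 ≤ᵐ[ν] fun q => V - len g q := by
    filter_upwards [hle] with q hq
    simpa using hq
  have h3 := (integral_eq_zero_iff_of_nonneg_ae hnn ((integrable_const V).sub hg.len_int)).1 hz
  filter_upwards [h3] with q hq
  have hq' : V - len g q = 0 := hq
  linarith

end BinL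

/-! ### Three variables -/

section Perm

/-- A measurable predicate on three variables. -/
def Mset (P : ℝ → ℝ → ℝ → Prop) : Prop := MeasurableSet {p : ℝ × ℝ × ℝ | P p.1 p.2.1 p.2.2}

/-- A property of almost all triples, as an iterated statement. -/
def Ae3 (P : ℝ → ℝ → ℝ → Prop) : Prop := ∀ᵐ x ∂mu1, ∀ᵐ y ∂mu1, ∀ᵐ z ∂mu1, P x y z

lemma Mset.swap12 {P : ℝ → ℝ → ℝ → Prop} (hP : Mset P) : Mset fun y x z => P x y z := by
  have : Measurable fun p : ℝ × ℝ × ℝ => ((p.2.1, p.1, p.2.2) : ℝ × ℝ × ℝ) := by fun_prop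
  exact this hP

lemma Mset.swap23 {P : ℝ → ℝ → ℝ → Prop} (hP : Mset P) : Mset fun x z y => P x y z := by
  have : Measurable fun p : ℝ × ℝ × ℝ => ((p.1, p.2.2, p.2.1) : ℝ × ℝ × ℝ) := by fun_prop
  exact this hP

lemma Mset.aeLast {P : ℝ → ℝ → ℝ → Prop} (hP : Mset P) :
    MeasurableSet {r : ℝ × ℝ | ∀ᵐ z ∂mu1, P r.1 r.2 z} := by
  have hs : MeasurableSet {p : (ℝ × ℝ) × ℝ | ¬ P p.1.1 p.1.2 p.2} := by
    have : Measurable fun p : (ℝ × ℝ) × ℝ => ((p.1.1, p.1.2, p.2) : ℝ × ℝ × ℝ) := by fun_prop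
    exact (this hP).compl
  have h1 := measurable_measure_prodMk_left (ν := mu1) hs
  have h2 : {r : ℝ × ℝ | ∀ᵐ z ∂mu1, P r.1 r.2 z} =
      (fun r => mu1 (Prod.mk r ⁻¹' {p : (ℝ × ℝ) × ℝ | ¬ P p.1.1 p.1.2 p.2})) ⁻¹' {0} := by
    ext r
    simp only [Set.mem_ofPred_eq, mem_preimage, mem_singleton_iff, ae_iff]
    rfl
  rw [h2]
  exact h1 (measurableSet_singleton 0)

lemma Ae3.swap12 {P : ℝ → ℝ → ℝ → Prop} (hP : Mset P) (h : Ae3 P) : Ae3 fun y x z => P x y z :=
  (Measure.ae_ae_comm hP.aeLast).1 h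

lemma Ae3.swap23 {P : ℝ → ℝ → ℝ → Prop} (hP : Mset P) (h : Ae3 P) : Ae3 fun x z y => P x y z := by
  refine h.mono fun x hx => ?_
  have hs : MeasurableSet {r : ℝ × ℝ | P x r.1 r.2} := by
    have : Measurable fun r : ℝ × ℝ => ((x, r.1, r.2) : ℝ × ℝ × ℝ) := by fun_prop
    exact this hP
  exact (Measure.ae_ae_comm hs).1 hx

end Perm

/-- A `0`-`1` function on the cube. -/
structure Bin3 (G : ℝ → ℝ → ℝ → ℝ) : Prop where
  meas : Measurable fun p : ℝ × ℝ × ℝ => G p.1 p.2.1 p.2.2
  bin : ∀ x y z, G x y z = 0 ∨ G x y z = 1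

end Stein

/-- Steiner step in the first variable. -/
noncomputable def stepX (G : ℝ → ℝ → ℝ → ℝ) (x y z : ℝ) : ℝ :=
  steinerZ (fun x y z => G z y x) z y x

/-- Steiner step in the second variable. -/
noncomputable def stepY (G : ℝ → ℝ → ℝ → ℝ) (x y z : ℝ) : ℝ :=
  steinerZ (fun x y z => G x z y) x z y

/-- The three Steiner steps, third variable first. -/
noncomputable def stein3 (F : ℝ → ℝ → ℝ → ℝ) : ℝ → ℝ → ℝ → ℝ :=
  stepY (stepX (steinerZ F))

/-- Area of the slices normal to the first axis. -/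
noncomputable def sX (F : ℝ → ℝ → ℝ → ℝ) (x : ℝ) : ℝ := ∫ y in (0 : ℝ)..1, ∫ z in (0 : ℝ)..1, F x y z

/-- Area of the slices normal to the second axis. -/
noncomputable def sY (F : ℝ → ℝ → ℝ → ℝ) (y : ℝ) : ℝ := ∫ x in (0 : ℝ)..1, ∫ z in (0 : ℝ)..1, F x y z

/-- Area of the slices normal to the third axis. -/
noncomputable def sZ (F : ℝ → ℝ → ℝ → ℝ) (z : ℝ) : ℝ := ∫ y in (0 : ℝ)..1, ∫ x in (0 : ℝ)..1, F x y z

namespace Stein

lemma sX_eq (F : ℝ → ℝ → ℝ → ℝ) (x : ℝ) : sX F x = ∫ y, ∫ z, F x y z ∂mu1 ∂mu1 := by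
  simp only [sX, ii_eq]

lemma sY_eq (F : ℝ → ℝ → ℝ → ℝ) (y : ℝ) : sY F y = ∫ x, ∫ z, F x y z ∂mu1 ∂mu1 := by
  simp only [sY, ii_eq]

lemma sZ_eq (F : ℝ → ℝ → ℝ → ℝ) (z : ℝ) : sZ F z = ∫ y, ∫ x, F x y z ∂mu1 ∂mu1 := by
  simp only [sZ, ii_eq]

lemma vol3_eq (F : ℝ → ℝ → ℝ → ℝ) : vol3 F = ∫ x, ∫ y, ∫ z, F x y z ∂mu1 ∂mu1 ∂mu1 := by
  simp only [vol3, ii_eq]

/-- Bounded measurable functions are integrable on finite measures. -/
lemma int_of_bdd {X : Type*} [MeasurableSpace X] {m : Measure X} [IsFiniteMeasure m] {f : X → ℝ}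
    (hf : Measurable f) (hb : ∀ x, ‖f x‖ ≤ 1) : Integrable f m :=
  Integrable.of_bound hf.aestronglyMeasurable 1 (Eventually.of_forall hb)

namespace Bin3

variable {G : ℝ → ℝ → ℝ → ℝ} (hG : Bin3 G)
include hG

lemma abs_le (x y z : ℝ) : ‖G x y z‖ ≤ 1 := by
  rcases hG.bin x y z with h | h <;> simp [h]

/-- The lines in the third direction. -/
lemma gZ : BinL (fun (q : ℝ × ℝ) t => G q.1 q.2 t) := by
  refine ⟨?_, fun q t => hG.bin _ _ _⟩
  have : Measurable fun p : (ℝ × ℝ) × ℝ => ((p.1.1, p.1.2, p.2) : ℝ × ℝ × ℝ) := by fun_prop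
  exact hG.meas.comp this

/-- The lines in the first direction. -/
lemma gX : BinL (fun (q : ℝ × ℝ) t => G t q.1 q.2) := by
  refine ⟨?_, fun q t => hG.bin _ _ _⟩
  have : Measurable fun p : (ℝ × ℝ) × ℝ => ((p.2, p.1.1, p.1.2) : ℝ × ℝ × ℝ) := by fun_prop
  exact hG.meas.comp this

/-- The lines in the second direction. -/
lemma gY : BinL (fun (q : ℝ × ℝ) t => G q.1 t q.2) := by
  refine ⟨?_, fun q t => hG.bin _ _ _⟩
  have : Measurable fun p : (ℝ × ℝ) × ℝ => ((p.1.1, p.2, p.1.2) : ℝ × ℝ × ℝ) := by fun_prop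
  exact hG.meas.comp this

lemma perm13 : Bin3 fun x y z => G z y x := by
  refine ⟨?_, fun _ _ _ => hG.bin _ _ _⟩
  have : Measurable fun p : ℝ × ℝ × ℝ => ((p.2.2, p.2.1, p.1) : ℝ × ℝ × ℝ) := by fun_prop
  exact hG.meas.comp this

lemma perm23 : Bin3 fun x y z => G x z y := by
  refine ⟨?_, fun _ _ _ => hG.bin _ _ _⟩
  have : Measurable fun p : ℝ × ℝ × ℝ => ((p.1, p.2.2, p.2.1) : ℝ × ℝ × ℝ) := by fun_prop
  exact hG.meas.comp this

lemma steiner : Bin3 (steinerZ G) :=
  ⟨steinerZ_meas hG.meas, steinerZ_bin G⟩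

lemma stepX : Bin3 (stepX G) := by
  have h := hG.perm13.steiner
  refine ⟨?_, fun _ _ _ => h.bin _ _ _⟩
  have : Measurable fun p : ℝ × ℝ × ℝ => ((p.2.2, p.2.1, p.1) : ℝ × ℝ × ℝ) := by fun_prop
  exact h.meas.comp this

lemma stepY : Bin3 (stepY G) := by
  have h := hG.perm23.steiner
  refine ⟨?_, fun _ _ _ => h.bin _ _ _⟩
  have : Measurable fun p : ℝ × ℝ × ℝ => ((p.1, p.2.2, p.2.1) : ℝ × ℝ × ℝ) := by fun_prop
  exact h.meas.comp this

/-- The predicate of equality is measurable. -/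
lemma mset_eq {H : ℝ → ℝ → ℝ → ℝ} (hH : Bin3 H) : Mset fun x y z => G x y z = H x y z :=
  measurableSet_eq_fun hG.meas hH.meas

omit hG in
/-- The symmetrization in the third direction. -/
lemma sym_gZ (q : ℝ × ℝ) (t : ℝ) :
    sym (fun (q : ℝ × ℝ) t => G q.1 q.2 t) q t = steinerZ G q.1 q.2 t := by
  simp only [sym, steinerZ, len, ell, ii_eq]
  congr

omit hG in
/-- The symmetrization in the first direction. -/
lemma sym_gX (q : ℝ × ℝ) (t : ℝ) :
    sym (fun (q : ℝ × ℝ) t => G t q.1 q.2) q t = Vale.Agent.Lib.P232.stepX G t q.1 q.2 := by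
  simp only [sym, Vale.Agent.Lib.P232.stepX, steinerZ, len, ell, ii_eq]
  congr

omit hG in
/-- The symmetrization in the second direction. -/
lemma sym_gY (q : ℝ × ℝ) (t : ℝ) :
    sym (fun (q : ℝ × ℝ) t => G q.1 t q.2) q t = Vale.Agent.Lib.P232.stepY G q.1 t q.2 := by
  simp only [sym, Vale.Agent.Lib.P232.stepY, steinerZ, len, ell, ii_eq]
  congr

/-! Steiner steps preserve the lengths of their lines. -/

lemma line_steiner (x y : ℝ) : ∫ z, steinerZ G x y z ∂mu1 = ∫ z, G x y z ∂mu1 := by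
  have h := hG.gZ.integral_sym (x, y)
  simp only [sym_gZ] at h
  exact h

lemma line_stepX (y z : ℝ) :
    ∫ x, Vale.Agent.Lib.P232.stepX G x y z ∂mu1 = ∫ x, G x y z ∂mu1 := by
  have h := hG.gX.integral_sym (y, z)
  simp only [sym_gX] at h
  exact h

lemma line_stepY (x z : ℝ) :
    ∫ y, Vale.Agent.Lib.P232.stepY G x y z ∂mu1 = ∫ y, G x y z ∂mu1 := by
  have h := hG.gY.integral_sym (x, z)
  simp only [sym_gY] at h
  exact h

/-! Fubini. -/

lemma sw_last (x : ℝ) : ∫ y, ∫ z, G x y z ∂mu1 ∂mu1 = ∫ z, ∫ y, G x y z ∂mu1 ∂mu1 := by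
  refine integral_integral_swap (f := fun y z => G x y z) (int_of_bdd ?_ fun q => hG.abs_le _ _ _)
  have : Measurable fun r : ℝ × ℝ => ((x, r.1, r.2) : ℝ × ℝ × ℝ) := by fun_prop
  exact hG.meas.comp this

lemma sw_mid (y : ℝ) : ∫ x, ∫ z, G x y z ∂mu1 ∂mu1 = ∫ z, ∫ x, G x y z ∂mu1 ∂mu1 := by
  refine integral_integral_swap (f := fun x z => G x y z) (int_of_bdd ?_ fun q => hG.abs_le _ _ _)
  have : Measurable fun r : ℝ × ℝ => ((r.1, y, r.2) : ℝ × ℝ × ℝ) := by fun_prop
  exact hG.meas.comp this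

lemma sw_first (z : ℝ) : ∫ x, ∫ y, G x y z ∂mu1 ∂mu1 = ∫ y, ∫ x, G x y z ∂mu1 ∂mu1 := by
  refine integral_integral_swap (f := fun x y => G x y z) (int_of_bdd ?_ fun q => hG.abs_le _ _ _)
  have : Measurable fun r : ℝ × ℝ => ((r.1, r.2, z) : ℝ × ℝ × ℝ) := by fun_prop
  exact hG.meas.comp this

/-- The outer two integrals of the volume. -/
lemma vol3_sY : vol3 G = ∫ y, sY G y ∂mu1 := by
  rw [vol3_eq]
  simp only [sY_eq]
  exact integral_integral_swap (f := fun x y => ∫ z, G x y z ∂mu1)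
    (int_of_bdd hG.gZ.len_meas fun q => hG.gZ.len_norm q)

/-! The areas of the slices. -/

lemma sX_steiner (x : ℝ) : sX (steinerZ G) x = sX G x := by
  simp only [sX_eq, hG.line_steiner]

lemma sY_steiner (y : ℝ) : sY (steinerZ G) y = sY G y := by
  simp only [sY_eq, hG.line_steiner]

lemma sZ_stepX (z : ℝ) : sZ (Vale.Agent.Lib.P232.stepX G) z = sZ G z := by
  simp only [sZ_eq, hG.line_stepX]

lemma sY_stepX (y : ℝ) : sY (Vale.Agent.Lib.P232.stepX G) y = sY G y := by
  simp only [sY_eq]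
  rw [hG.stepX.sw_mid, hG.sw_mid]
  simp only [hG.line_stepX]

lemma sX_stepY (x : ℝ) : sX (Vale.Agent.Lib.P232.stepY G) x = sX G x := by
  simp only [sX_eq]
  rw [hG.stepY.sw_last, hG.sw_last]
  simp only [hG.line_stepY]

lemma sZ_stepY (z : ℝ) : sZ (Vale.Agent.Lib.P232.stepY G) z = sZ G z := by
  simp only [sZ_eq]
  rw [← hG.stepY.sw_first, ← hG.sw_first]
  simp only [hG.line_stepY]

lemma vol3_steiner : vol3 (steinerZ G) = vol3 G := by
  rw [vol3_eq, vol3_eq]
  simp only [hG.line_steiner]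

lemma vol3_stepX : vol3 (Vale.Agent.Lib.P232.stepX G) = vol3 G := by
  rw [hG.stepX.vol3_sY, hG.vol3_sY]
  simp only [hG.sY_stepX]

lemma vol3_stepY : vol3 (Vale.Agent.Lib.P232.stepY G) = vol3 G := by
  have h : ∀ H : ℝ → ℝ → ℝ → ℝ, vol3 H = ∫ x, sX H x ∂mu1 := fun H => by
    rw [vol3_eq]
    simp only [sX_eq]
  rw [h, h]
  simp only [hG.sX_stepY]

/-! The slices of the symmetrizations. -/

lemma slice_Z (t : ℝ) :
    ∫ q, sym (fun (q : ℝ × ℝ) t => G q.1 q.2 t) q t ∂(mu1.prod mu1) = sZ (steinerZ G) t := by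
  simp only [sym_gZ]
  rw [integral_prod _ (int_of_bdd ?_ fun q => hG.steiner.abs_le _ _ _), sZ_eq]
  · exact hG.steiner.sw_first t
  · have : Measurable fun r : ℝ × ℝ => ((r.1, r.2, t) : ℝ × ℝ × ℝ) := by fun_prop
    exact hG.steiner.meas.comp this

lemma slice_X (t : ℝ) :
    ∫ q, sym (fun (q : ℝ × ℝ) t => G t q.1 q.2) q t ∂(mu1.prod mu1) =
      sX (Vale.Agent.Lib.P232.stepX G) t := by
  simp only [sym_gX]
  rw [integral_prod _ (int_of_bdd ?_ fun q => hG.stepX.abs_le _ _ _), sX_eq]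
  have : Measurable fun r : ℝ × ℝ => ((t, r.1, r.2) : ℝ × ℝ × ℝ) := by fun_prop
  exact hG.stepX.meas.comp this

lemma slice_Y (t : ℝ) :
    ∫ q, sym (fun (q : ℝ × ℝ) t => G q.1 t q.2) q t ∂(mu1.prod mu1) =
      sY (Vale.Agent.Lib.P232.stepY G) t := by
  simp only [sym_gY]
  rw [integral_prod _ (int_of_bdd ?_ fun q => hG.stepY.abs_le _ _ _), sY_eq]
  have : Measurable fun r : ℝ × ℝ => ((r.1, t, r.2) : ℝ × ℝ × ℝ) := by fun_prop
  exact hG.stepY.meas.comp this

/-! Slices of constant area: the set does not change. -/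

lemma const_Z {V : ℝ} (h : ∀ᵐ z ∂mu1, sZ (steinerZ G) z = V) :
    Ae3 fun x y z => steinerZ G x y z = G x y z := by
  have h1 := hG.gZ.full_or_empty (ν := mu1.prod mu1) (V := V) (by
    filter_upwards [h] with t ht
    rw [hG.slice_Z, ht])
  have h2 := h1.mono fun q hq => hG.gZ.sym_eq_of_full_or_empty q hq
  simp only [sym_gZ] at h2
  exact Measure.ae_ae_of_ae_prod h2

lemma const_X {V : ℝ} (h : ∀ᵐ x ∂mu1, sX (Vale.Agent.Lib.P232.stepX G) x = V) :
    Ae3 fun y z x => Vale.Agent.Lib.P232.stepX G x y z = G x y z := by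
  have h1 := hG.gX.full_or_empty (ν := mu1.prod mu1) (V := V) (by
    filter_upwards [h] with t ht
    rw [hG.slice_X, ht])
  have h2 := h1.mono fun q hq => hG.gX.sym_eq_of_full_or_empty q hq
  simp only [sym_gX] at h2
  exact Measure.ae_ae_of_ae_prod h2

lemma const_Y {V : ℝ} (h : ∀ᵐ y ∂mu1, sY (Vale.Agent.Lib.P232.stepY G) y = V) :
    Ae3 fun x z y => Vale.Agent.Lib.P232.stepY G x y z = G x y z := by
  have h1 := hG.gY.full_or_empty (ν := mu1.prod mu1) (V := V) (by
    filter_upwards [h] with t ht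
    rw [hG.slice_Y, ht])
  have h2 := h1.mono fun q hq => hG.gY.sym_eq_of_full_or_empty q hq
  simp only [sym_gY] at h2
  exact Measure.ae_ae_of_ae_prod h2

/-! Slices full or empty: the lines have the same length. -/

lemma mean_Z : ∫ q, len (fun (q : ℝ × ℝ) t => G q.1 q.2 t) q ∂(mu1.prod mu1) = vol3 G := by
  have hi : Integrable (fun q : ℝ × ℝ => ∫ t, G q.1 q.2 t ∂mu1) (mu1.prod mu1) :=
    int_of_bdd hG.gZ.len_meas fun q => hG.gZ.len_norm q
  simp only [len]
  rw [integral_prod _ hi, vol3_eq]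

lemma mean_Y : ∫ q, len (fun (q : ℝ × ℝ) t => G q.1 t q.2) q ∂(mu1.prod mu1) = vol3 G := by
  have hi : Integrable (fun q : ℝ × ℝ => ∫ t, G q.1 t q.2 ∂mu1) (mu1.prod mu1) :=
    int_of_bdd hG.gY.len_meas fun q => hG.gY.len_norm q
  simp only [len]
  rw [integral_prod _ hi, vol3_eq]
  refine integral_congr_ae (Eventually.of_forall fun x => ?_)
  exact (hG.sw_last x).symm

lemma mean_X : ∫ q, len (fun (q : ℝ × ℝ) t => G t q.1 q.2) q ∂(mu1.prod mu1) = vol3 G := by
  have hi : Integrable (fun q : ℝ × ℝ => ∫ t, G t q.1 q.2 ∂mu1) (mu1.prod mu1) :=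
    int_of_bdd hG.gX.len_meas fun q => hG.gX.len_norm q
  simp only [len]
  rw [integral_prod _ hi, hG.vol3_sY]
  simp only [sY_eq]
  refine integral_congr_ae (Eventually.of_forall fun y => ?_)
  exact (hG.sw_mid y).symm

lemma bin_Z (h : ∀ᵐ z ∂mu1, sZ (steinerZ G) z = 0 ∨ sZ (steinerZ G) z = 1) :
    ∀ᵐ q ∂(mu1.prod mu1), ∫ t, G q.1 q.2 t ∂mu1 = vol3 G := by
  have h1 := hG.gZ.lines_const (ν := mu1.prod mu1) (by
    filter_upwards [h] with t ht
    rw [hG.slice_Z]
    exact ht)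
  rw [hG.mean_Z] at h1
  exact h1

lemma bin_X (h : ∀ᵐ x ∂mu1, sX (Vale.Agent.Lib.P232.stepX G) x = 0 ∨
    sX (Vale.Agent.Lib.P232.stepX G) x = 1) :
    ∀ᵐ q ∂(mu1.prod mu1), ∫ t, G t q.1 q.2 ∂mu1 = vol3 G := by
  have h1 := hG.gX.lines_const (ν := mu1.prod mu1) (by
    filter_upwards [h] with t ht
    rw [hG.slice_X]
    exact ht)
  rw [hG.mean_X] at h1
  exact h1

lemma bin_Y (h : ∀ᵐ y ∂mu1, sY (Vale.Agent.Lib.P232.stepY G) y = 0 ∨
    sY (Vale.Agent.Lib.P232.stepY G) y = 1) :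
    ∀ᵐ q ∂(mu1.prod mu1), ∫ t, G q.1 t q.2 ∂mu1 = vol3 G := by
  have h1 := hG.gY.lines_const (ν := mu1.prod mu1) (by
    filter_upwards [h] with t ht
    rw [hG.slice_Y]
    exact ht)
  rw [hG.mean_Y] at h1
  exact h1

end Bin3

/-! Changing the order of the iterated statements. -/

section Orders

variable {P : ℝ → ℝ → ℝ → Prop}

lemma Ae3.to_yxz (hP : Mset P) (h : Ae3 P) : Ae3 fun y x z => P x y z := h.swap12 hP

lemma Ae3.to_xzy (hP : Mset P) (h : Ae3 P) : Ae3 fun x z y => P x y z := h.swap23 hP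

lemma Ae3.to_yzx (hP : Mset P) (h : Ae3 P) : Ae3 fun y z x => P x y z :=
  (h.swap12 hP).swap23 hP.swap12

lemma Ae3.to_zyx (hP : Mset P) (h : Ae3 P) : Ae3 fun z y x => P x y z :=
  (h.to_yzx hP).swap12 hP.swap12.swap23

lemma Ae3.of_yzx (hP : Mset P) (h : Ae3 fun y z x => P x y z) : Ae3 P :=
  (h.swap23 hP.swap12.swap23).swap12 hP.swap12

lemma Ae3.of_xzy (hP : Mset P) (h : Ae3 fun x z y => P x y z) : Ae3 P :=
  h.swap23 hP.swap23

end Orders

variable {G H : ℝ → ℝ → ℝ → ℝ}

lemma sX_congr (h : Ae3 fun x y z => G x y z = H x y z) : ∀ᵐ x ∂mu1, sX G x = sX H x := by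
  refine h.mono fun x hx => ?_
  rw [sX_eq, sX_eq]
  refine integral_congr_ae (hx.mono fun y hy => ?_)
  exact integral_congr_ae hy

lemma sY_congr (h : Ae3 fun y x z => G x y z = H x y z) : ∀ᵐ y ∂mu1, sY G y = sY H y := by
  refine h.mono fun y hy => ?_
  rw [sY_eq, sY_eq]
  refine integral_congr_ae (hy.mono fun x hx => ?_)
  exact integral_congr_ae hx

lemma sZ_congr (h : Ae3 fun z y x => G x y z = H x y z) : ∀ᵐ z ∂mu1, sZ G z = sZ H z := by
  refine h.mono fun z hz => ?_
  rw [sZ_eq, sZ_eq]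
  refine integral_congr_ae (hz.mono fun y hy => ?_)
  exact integral_congr_ae hy

end Stein

namespace Seq3

open Stein

variable {F : ℝ → ℝ → ℝ → ℝ} {u ux uy uz : ℕ → ℝ → ℝ → ℝ → ℝ}

lemma bin3 (S : Seq3 F u ux uy uz) : Bin3 F := ⟨S.meas, S.bin⟩

theorem transfer_const_x (S : Seq3 F u ux uy uz) {V : ℝ}
    (h : ∀ᵐ x ∂(volume.restrict (Ioc (0 : ℝ) 1)), sX (stein3 F) x = V) :
    ∀ᵐ x ∂(volume.restrict (Ioc (0 : ℝ) 1)), sX F x = V := by
  have h0 := S.bin3
  have h1 := h0.steiner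
  have h2 := h1.stepX
  have h3 : ∀ᵐ x ∂mu1, sX (stepX (steinerZ F)) x = V := by
    filter_upwards [h] with x hx
    rw [← h2.sX_stepY]
    exact hx
  have h4 := (h1.const_X h3).of_yzx (h2.mset_eq h1)
  filter_upwards [sX_congr h4, h3] with x hx hx2
  rw [← h0.sX_steiner, ← hx, hx2]

theorem transfer_const_y (S : Seq3 F u ux uy uz) {V : ℝ}
    (h : ∀ᵐ y ∂(volume.restrict (Ioc (0 : ℝ) 1)), sY (stein3 F) y = V) :
    ∀ᵐ y ∂(volume.restrict (Ioc (0 : ℝ) 1)), sY F y = V := by
  have h0 := S.bin3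
  have h1 := h0.steiner
  have h2 := h1.stepX
  have h3 := h2.stepY
  have h4 := (h2.const_Y h).of_xzy (h3.mset_eq h2)
  filter_upwards [sY_congr (h4.to_yxz (h3.mset_eq h2)), h] with y hy hy2
  have hy3 : sY (stepY (stepX (steinerZ F))) y = V := hy2
  rw [← h0.sY_steiner, ← h1.sY_stepX, ← hy, hy3]

theorem transfer_const_z (S : Seq3 F u ux uy uz) {V : ℝ}
    (h : ∀ᵐ z ∂(volume.restrict (Ioc (0 : ℝ) 1)), sZ (stein3 F) z = V) :
    ∀ᵐ z ∂(volume.restrict (Ioc (0 : ℝ) 1)), sZ F z = V := by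
  have h0 := S.bin3
  have h1 := h0.steiner
  have h2 := h1.stepX
  have h3 : ∀ᵐ z ∂mu1, sZ (steinerZ F) z = V := by
    filter_upwards [h] with z hz
    rw [← h1.sZ_stepX, ← h2.sZ_stepY]
    exact hz
  have h4 := h0.const_Z h3
  filter_upwards [sZ_congr (h4.to_zyx (h1.mset_eq h0)), h3] with z hz hz2
  rw [← hz, hz2]

/-- If the slices in one direction have constant length `V`, the area of the slices in another
direction is `V`. -/
lemma area_of_lines {f : ℝ → ℝ → ℝ} (hm : Measurable fun q : ℝ × ℝ => f q.1 q.2) {V : ℝ}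
    (h : ∀ᵐ q ∂(mu1.prod mu1), f q.1 q.2 = V) : ∀ᵐ b ∂mu1, ∫ a, f a b ∂mu1 = V := by
  have h1 := Measure.ae_ae_of_ae_prod h
  have hs : MeasurableSet {q : ℝ × ℝ | f q.1 q.2 = V} :=
    measurableSet_eq_fun hm measurable_const
  have h2 := (Measure.ae_ae_comm (p := fun a b => f a b = V) hs).1 h1
  refine h2.mono fun b hb => ?_
  rw [integral_congr_ae hb]
  simp

/-- A slab normal to the third axis comes from a set whose lines in the third direction have
the same length. -/
theorem transfer_bin_z (S : Seq3 F u ux uy uz)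
    (h : ∀ᵐ z ∂(volume.restrict (Ioc (0 : ℝ) 1)), sZ (stein3 F) z = 0 ∨ sZ (stein3 F) z = 1) :
    ∀ᵐ q ∂((volume.restrict (Ioc (0 : ℝ) 1)).prod (volume.restrict (Ioc (0 : ℝ) 1))),
      (∫ z in (0 : ℝ)..1, F q.1 q.2 z) = vol3 F := by
  have h0 := S.bin3
  have h1 := h0.steiner
  have h2 := h1.stepX
  have h3 : ∀ᵐ z ∂mu1, sZ (steinerZ F) z = 0 ∨ sZ (steinerZ F) z = 1 := by
    filter_upwards [h] with z hz
    rw [← h1.sZ_stepX, ← h2.sZ_stepY]
    exact hz
  filter_upwards [h0.bin_Z h3] with q hq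
  rw [ii_eq]
  exact hq

/-- A slab normal to the first axis comes from a set whose lines in the first direction have
the same length. -/
theorem transfer_bin_x (S : Seq3 F u ux uy uz)
    (h : ∀ᵐ x ∂(volume.restrict (Ioc (0 : ℝ) 1)), sX (stein3 F) x = 0 ∨ sX (stein3 F) x = 1) :
    ∀ᵐ q ∂((volume.restrict (Ioc (0 : ℝ) 1)).prod (volume.restrict (Ioc (0 : ℝ) 1))),
      (∫ x in (0 : ℝ)..1, F x q.1 q.2) = vol3 F := by
  have h0 := S.bin3
  have h1 := h0.steiner
  have h2 := h1.stepX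
  have h3 : ∀ᵐ x ∂mu1, sX (stepX (steinerZ F)) x = 0 ∨ sX (stepX (steinerZ F)) x = 1 := by
    filter_upwards [h] with x hx
    rw [← h2.sX_stepY]
    exact hx
  have h4 := h1.bin_X h3
  rw [h0.vol3_steiner] at h4
  -- the slices of the first step have constant area
  have h5 : ∀ᵐ z ∂mu1, sZ (steinerZ F) z = vol3 F := by
    have := area_of_lines (f := fun y z => ∫ x, steinerZ F x y z ∂mu1) h1.gX.len_meas h4
    filter_upwards [this] with z hz
    rw [sZ_eq]
    exact hz
  have h6 := ((h0.const_Z h5).to_yzx (h1.mset_eq h0))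
  -- hence the first step did not change the set
  have h7 : ∀ᵐ y ∂mu1, ∀ᵐ z ∂mu1, ∫ x, steinerZ F x y z ∂mu1 = ∫ x, F x y z ∂mu1 :=
    h6.mono fun y hy => hy.mono fun z hz => integral_congr_ae hz
  have h8 := Measure.ae_ae_of_ae_prod h4
  have hs : MeasurableSet {q : ℝ × ℝ | ∫ x, F x q.1 q.2 ∂mu1 = vol3 F} :=
    measurableSet_eq_fun h0.gX.len_meas measurable_const
  have h9 := (Measure.ae_prod_iff_ae_ae hs).2 (by
    filter_upwards [h7, h8] with y hy hy2
    filter_upwards [hy, hy2] with z hz hz2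
    rw [← hz]
    exact hz2)
  filter_upwards [h9] with q hq
  rw [ii_eq]
  exact hq

/-- A slab normal to the second axis comes from a set whose lines in the second direction have
the same length. -/
theorem transfer_bin_y (S : Seq3 F u ux uy uz)
    (h : ∀ᵐ y ∂(volume.restrict (Ioc (0 : ℝ) 1)), sY (stein3 F) y = 0 ∨ sY (stein3 F) y = 1) :
    ∀ᵐ q ∂((volume.restrict (Ioc (0 : ℝ) 1)).prod (volume.restrict (Ioc (0 : ℝ) 1))),
      (∫ y in (0 : ℝ)..1, F q.1 y q.2) = vol3 F := by
  have h0 := S.bin3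
  have h1 := h0.steiner
  have h2 := h1.stepX
  have h4 := h2.bin_Y h
  rw [h1.vol3_stepX, h0.vol3_steiner] at h4
  -- the slices of the second step have constant area
  have h5 : ∀ᵐ x ∂mu1, sX (stepX (steinerZ F)) x = vol3 F := by
    have hm : Measurable fun q : ℝ × ℝ => ∫ y, stepX (steinerZ F) q.2 y q.1 ∂mu1 := by
      have := h2.gY.len_meas
      exact this.comp (measurable_snd.prodMk measurable_fst)
    have hsw : ∀ᵐ q ∂(mu1.prod mu1), ∫ y, stepX (steinerZ F) q.2 y q.1 ∂mu1 = vol3 F := by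
      have h4' := (Measure.measurePreserving_swap (μ := mu1) (ν := mu1)).quasiMeasurePreserving.ae h4
      exact h4'
    have := area_of_lines (f := fun z x => ∫ y, stepX (steinerZ F) x y z ∂mu1) hm hsw
    filter_upwards [this] with x hx
    rw [sX_eq, h2.sw_last]
    exact hx
  have h6 := h1.const_X h5
  have h6' := (h6.of_yzx (h2.mset_eq h1)).to_xzy (h2.mset_eq h1)
  -- the lines of the first step
  have h7 : ∀ᵐ x ∂mu1, ∀ᵐ z ∂mu1, ∫ y, stepX (steinerZ F) x y z ∂mu1 = ∫ y, steinerZ F x y z ∂mu1 :=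
    h6'.mono fun x hx => hx.mono fun z hz => integral_congr_ae hz
  have h8 := Measure.ae_ae_of_ae_prod h4
  have hs1 : MeasurableSet {q : ℝ × ℝ | ∫ y, steinerZ F q.1 y q.2 ∂mu1 = vol3 F} :=
    measurableSet_eq_fun h1.gY.len_meas measurable_const
  have h9 := (Measure.ae_prod_iff_ae_ae hs1).2 (by
    filter_upwards [h7, h8] with x hx hx2
    filter_upwards [hx, hx2] with z hz hz2
    rw [← hz]
    exact hz2)
  -- the slices of the first step have constant area
  have h10 : ∀ᵐ z ∂mu1, sZ (steinerZ F) z = vol3 F := by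
    have := area_of_lines (f := fun x z => ∫ y, steinerZ F x y z ∂mu1) h1.gY.len_meas h9
    filter_upwards [this] with z hz
    rw [sZ_eq, ← h1.sw_first]
    exact hz
  have h11 := ((h0.const_Z h10).to_xzy (h1.mset_eq h0))
  have h12 : ∀ᵐ x ∂mu1, ∀ᵐ z ∂mu1, ∫ y, steinerZ F x y z ∂mu1 = ∫ y, F x y z ∂mu1 :=
    h11.mono fun x hx => hx.mono fun z hz => integral_congr_ae hz
  have h13 := Measure.ae_ae_of_ae_prod h9
  have hs : MeasurableSet {q : ℝ × ℝ | ∫ y, F q.1 y q.2 ∂mu1 = vol3 F} :=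
    measurableSet_eq_fun h0.gY.len_meas measurable_const
  have h14 := (Measure.ae_prod_iff_ae_ae hs).2 (by
    filter_upwards [h12, h13] with x hx hx2
    filter_upwards [hx, hx2] with z hz hz2
    rw [← hz]
    exact hz2)
  filter_upwards [h14] with q hq
  rw [ii_eq]
  exact hq

/-- Three Steiner steps with the explicit limit `stein3 F`: the limit and the sequence are monotone
in the three variables. -/
theorem exists_mono_seq3 (S : Seq3 F u ux uy uz) {Per : ℝ}
    (hPer : ∀ k, energy3 (ux k) (uy k) (uz k) ≤ Per) {ε : ℝ} (hε : 0 < ε) :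
    ∃ w wx wy wz : ℕ → ℝ → ℝ → ℝ → ℝ, Seq3 (stein3 F) w wx wy wz ∧
      (∀ k, energy3 (wx k) (wy k) (wz k) ≤ Per + ε) ∧ vol3 (stein3 F) = vol3 F ∧
      MonoX (stein3 F) ∧ MonoY (stein3 F) ∧ MonoZ (stein3 F) ∧
      ∀ k, MonoX (w k) ∧ MonoY (w k) ∧ MonoZ (w k) := by
  have hε3 : 0 < ε / 3 := by positivity
  -- the first step
  obtain ⟨d1, η1, κ1, hd1, -, S1, hE1⟩ := S.exists_sym_seq hPer hε3
  have hV1 := S.vol3_steinerZ
  have hZ1 := steinerZ_monoZ F
  have hw1 : ∀ k, MonoZ (symW (d1 k) (η1 k) (u (κ1 k))) := fun k => symW_monoZ (hd1 k) _ _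
  -- the second step: the first variable
  have S1' := S1.swap13
  obtain ⟨d2, η2, κ2, hd2, -, S2, hE2⟩ := S1'.exists_sym_seq (Per := Per + ε / 3)
    (fun k => by rw [S1.energy_swap13 k]; exact hE1 k) hε3
  have hV2 := S2.swap13
  have hV2' : vol3 (fun x y z => steinerZ (fun x y z => steinerZ F z y x) z y x) = vol3 F := by
    rw [S2.vol3_swap13, S1'.vol3_steinerZ, S1.vol3_swap13, hV1]
  have hX2 : MonoX (fun x y z => steinerZ (fun x y z => steinerZ F z y x) z y x) := by
    intro x x' y z h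
    exact steinerZ_monoZ _ z y x x' h
  have hZ2 : MonoZ (fun x y z => steinerZ (fun x y z => steinerZ F z y x) z y x) := by
    intro x y z z' h
    refine S1'.steinerZ_monoX ?_ z z' y x h
    intro x x' y z h
    exact hZ1 z y x x' h
  -- the sequence after the second step
  have hw2X : ∀ k, MonoX fun x y z => symW (d2 k) (η2 k)
      (fun x y z => symW (d1 (κ2 k)) (η1 (κ2 k)) (u (κ1 (κ2 k))) z y x) z y x := by
    intro k x x' y z h
    exact symW_monoZ (hd2 k) _ _ z y x x' h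
  have hw2Z : ∀ k, MonoZ fun x y z => symW (d2 k) (η2 k)
      (fun x y z => symW (d1 (κ2 k)) (η1 (κ2 k)) (u (κ1 (κ2 k))) z y x) z y x := by
    intro k x y z z' h
    refine symW_monoX (hd2 k) (S1'.smooth (κ2 k)) ?_ z z' y x h
    intro x x' y z h
    exact hw1 (κ2 k) z y x x' h
  -- the third step: the second variable
  have S2' := hV2.swap23
  obtain ⟨d3, η3, κ3, hd3, -, S3, hE3⟩ := S2'.exists_sym_seq (Per := Per + ε / 3 + ε / 3)
    (fun k => by
      rw [hV2.energy_swap23 k, S2.energy_swap13 k]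
      exact hE2 k) hε3
  have S4 := S3.swap23
  refine ⟨_, _, _, _, S4, ?_, ?_, ?_, ?_, ?_, ?_⟩
  · intro k
    rw [S3.energy_swap23 k]
    have := hE3 k
    linarith
  · refine (S3.vol3_swap23.trans ?_)
    rw [S2'.vol3_steinerZ, hV2.vol3_swap23]
    exact hV2'
  · -- first variable
    intro x x' y z h
    refine S2'.steinerZ_monoX ?_ x x' z y h
    intro x x' y z h
    exact hX2 x x' z y h
  · -- second variable
    intro x y y' z h
    exact steinerZ_monoZ _ x z y y' h
  · -- third variable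
    intro x y z z' h
    refine S2'.steinerZ_monoY ?_ x z z' y h
    intro x y y' z h
    exact hZ2 x z y y' h
  · intro k
    refine ⟨?_, ?_, ?_⟩
    · intro x x' y z h
      refine symW_monoX (hd3 k) (S2'.smooth (κ3 k)) ?_ x x' z y h
      intro x x' y z h
      exact hw2X (κ3 k) x x' z y h
    · intro x y y' z h
      exact symW_monoZ (hd3 k) _ _ x z y y' h
    · intro x y z z' h
      refine symW_monoY (hd3 k) (S2'.smooth (κ3 k)) ?_ x z z' y h
      intro x y y' z h
      exact hw2Z (κ3 k) x z y y' h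

end Seq3

end Vale.Agent.Lib.P232
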