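import Vale.Agent.Lib.P232.RigDefs

open MeasureTheory Filter Topology Set
open scoped Real

namespace Vale.Agent.Lib.P232

variable {F : ℝ → ℝ → ℝ → ℝ} {u ux uy uz : ℕ → ℝ → ℝ → ℝ → ℝ}

-- M-A
theorem exists_seq_per {E : Set (ℝ × ℝ × ℝ)} (hE : MeasurableSet E) (hp : IsPeriodicSet E) :
    ∃ u ux uy uz : ℕ → ℝ → ℝ → ℝ → ℝ, Seq3 (indF E) u ux uy uz ∧
      (∀ k, ENNReal.ofReal (energy3 (ux k) (uy k) (uz k)) ≤ perimeter E) ∧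
      ∀ k, Per3 (u k) ∧ Per3 (ux k) ∧ Per3 (uy k) ∧ Per3 (uz k) := sorry

-- M-C T1
theorem Prof.ball_marginal {g g' W : ℕ → ℝ → ℝ} {G : ℝ → ℝ} (P : Prof g g' W G) {e : ℕ → ℝ}
    (he : Tendsto e atTop (𝓝 0)) {b V : ℝ} (hb : 0 < b)
    (hmem : ∀ᵐ t ∂(volume.restrict (Ioc (0 : ℝ) 1)), G t ∈ Icc 0 b)
    (hlow : ∀ ε > 0, ∃ x, Tendsto (fun k => g k x) atTop (𝓝 (G x)) ∧ G x < ε)
    (hhigh : ∀ ε > 0, ∃ x, Tendsto (fun k => g k x) atTop (𝓝 (G x)) ∧ b - ε < G x)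
    (hV : ∫ t in (0 : ℝ)..1, G t = V) (htan : √b ^ 3 = 3 * √π / 4 * V)
    (hY : ∀ᵐ t ∂(volume.restrict (Ioc (0 : ℝ) 1)), ∀ c, (∃ᶠ k in atTop, W k t ≤ c) → 2 * √(π * G t) ≤ c)
    (hE : ∀ k, ∫ t in (0 : ℝ)..1, √(g' k t ^ 2 + W k t ^ 2) ≤ chordVal 0 (√b) V + e k) :
    ∃ c : ℝ, ∀ᵐ t ∂(volume.restrict (Ioc (0 : ℝ) 1)), G t = max 0 (b - π * dZ (t - c) ^ 2) := sorry

theorem Prof.disc_marginal {g g' W : ℕ → ℝ → ℝ} {G : ℝ → ℝ} (P : Prof g g' W G) {e : ℕ → ℝ}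
    (he : Tendsto e atTop (𝓝 0)) {b V : ℝ} (hb : 0 < b) (hb1 : b < 1)
    (hmem : ∀ᵐ t ∂(volume.restrict (Ioc (0 : ℝ) 1)), G t ∈ Icc 0 b)
    (hlow : ∀ ε > 0, ∃ x, Tendsto (fun k => g k x) atTop (𝓝 (G x)) ∧ G x < ε)
    (hhigh : ∀ ε > 0, ∃ x, Tendsto (fun k => g k x) atTop (𝓝 (G x)) ∧ b - ε < G x)
    (hV : ∫ t in (0 : ℝ)..1, G t = V) (htan : π * b ^ 2 = 4 * V)
    (hY : ∀ᵐ t ∂(volume.restrict (Ioc (0 : ℝ) 1)), ∀ c, (∃ᶠ k in atTop, W k t ≤ c) → 0 < G t → 2 ≤ c)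
    (hE : ∀ k, ∫ t in (0 : ℝ)..1, √(g' k t ^ 2 + W k t ^ 2) ≤ 2 * √(π * V) + e k) :
    ∃ c : ℝ, ∀ᵐ t ∂(volume.restrict (Ioc (0 : ℝ) 1)), G t = 2 * √(max 0 (b ^ 2 / 4 - dZ (t - c) ^ 2)) := sorry

-- M-D Lorentz
theorem lorentz_ball {F : ℝ → ℝ → ℝ → ℝ} (hm : Measurable fun p : ℝ × ℝ × ℝ => F p.1 p.2.1 p.2.2)
    (h01 : ∀ x y z, F x y z = 0 ∨ F x y z = 1) {c₁ c₂ c₃ R : ℝ} (hR0 : 0 < R) (hR : R ≤ 1 / 2)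
    (h1 : ∀ᵐ x ∂(volume.restrict (Ioc (0 : ℝ) 1)), (∫ y in (0 : ℝ)..1, ∫ z in (0 : ℝ)..1, F x y z) = π * max 0 (R ^ 2 - dZ (x - c₁) ^ 2))
    (h2 : ∀ᵐ y ∂(volume.restrict (Ioc (0 : ℝ) 1)), (∫ x in (0 : ℝ)..1, ∫ z in (0 : ℝ)..1, F x y z) = π * max 0 (R ^ 2 - dZ (y - c₂) ^ 2))
    (h3 : ∀ᵐ z ∂(volume.restrict (Ioc (0 : ℝ) 1)), (∫ y in (0 : ℝ)..1, ∫ x in (0 : ℝ)..1, F x y z) = π * max 0 (R ^ 2 - dZ (z - c₃) ^ 2)) :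
    dist3 F (indF (ballSet c₁ c₂ c₃ R)) = 0 := sorry

theorem lorentz_disc {F : ℝ → ℝ → ℝ} (hm : Measurable fun p : ℝ × ℝ => F p.1 p.2)
    (h01 : ∀ x y, F x y = 0 ∨ F x y = 1) {c₁ c₂ r : ℝ} (hr0 : 0 < r) (hr : r ≤ 1 / 2)
    (h1 : ∀ᵐ x ∂(volume.restrict (Ioc (0 : ℝ) 1)), (∫ y in (0 : ℝ)..1, F x y) = 2 * √(max 0 (r ^ 2 - dZ (x - c₁) ^ 2)))
    (h2 : ∀ᵐ y ∂(volume.restrict (Ioc (0 : ℝ) 1)), (∫ x in (0 : ℝ)..1, F x y) = 2 * √(max 0 (r ^ 2 - dZ (y - c₂) ^ 2))) :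
    dist2 F (discFn c₁ c₂ r) = 0 := sorry

-- M-F arc
theorem arc_lemma {v v' : ℕ → ℝ → ℝ} (hd : ∀ k t, HasDerivAt (v k) (v' k t) t)
    (hc : ∀ k, Continuous (v' k)) (hper : ∀ k, v k 0 = v k 1)
    {f : ℝ → ℝ} (hf : Measurable f) (h01 : ∀ t, f t = 0 ∨ f t = 1)
    (hconv : ∀ᵐ t ∂(volume.restrict (Ioc (0 : ℝ) 1)), Tendsto (fun k => v k t) atTop (𝓝 (f t)))
    {e : ℕ → ℝ} (he : Tendsto e atTop (𝓝 0))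
    (hTV : ∀ k, ∫ t in (0 : ℝ)..1, |v' k t| ≤ 2 + e k)
    (hpos : 0 < ∫ t in (0 : ℝ)..1, f t) (hlt : (∫ t in (0 : ℝ)..1, f t) < 1) :
    ∃ c, ∀ᵐ t ∂(volume.restrict (Ioc (0 : ℝ) 1)), f t = arcFn c (∫ t in (0 : ℝ)..1, f t) t := sorry

-- M-B Cauchy
theorem Seq3.cyl_reduce (S : Seq3 F u ux uy uz) {Per : ℝ} {e : ℕ → ℝ} (he : Tendsto e atTop (𝓝 0))
    (hPer : ∀ k, energy3 (ux k) (uy k) (uz k) ≤ Per + e k)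
    (hs : ∀ᵐ x ∂(volume.restrict (Ioc (0 : ℝ) 1)), Per ≤ I2 (area (F x))) {V : ℝ}
    (hV : ∀ᵐ x ∂(volume.restrict (Ioc (0 : ℝ) 1)), area (F x) = V) :
    ∃ (x₀ : ℝ) (φ : ℕ → ℕ) (e' : ℕ → ℝ), StrictMono φ ∧ Tendsto e' atTop (𝓝 0) ∧
      Seq2 (F x₀) (fun k => u (φ k) x₀) (fun k => uy (φ k) x₀) (fun k => uz (φ k) x₀) ∧
      (∀ k, ∫ y in (0 : ℝ)..1, ∫ z in (0 : ℝ)..1,
        √(uy (φ k) x₀ y z ^ 2 + uz (φ k) x₀ y z ^ 2) ≤ Per + e' k) ∧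
      area (F x₀) = V ∧
      (∫ x in (0 : ℝ)..1, ∫ y in (0 : ℝ)..1, ∫ z in (0 : ℝ)..1, |F x y z - F x₀ y z|) = 0 := sorry

theorem Seq3.binary_of_lines (S : Seq3 F u ux uy uz) {e : ℕ → ℝ} (he : Tendsto e atTop (𝓝 0))
    (hPer : ∀ k, energy3 (ux k) (uy k) (uz k) ≤ 2 + e k)
    (hl : ∀ᵐ q ∂((volume.restrict (Ioc (0 : ℝ) 1)).prod (volume.restrict (Ioc (0 : ℝ) 1))),
      (0 < ∫ x in (0 : ℝ)..1, F x q.1 q.2) ∧ (∫ x in (0 : ℝ)..1, F x q.1 q.2) < 1) :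
    ∀ᵐ x ∂(volume.restrict (Ioc (0 : ℝ) 1)), area (F x) = 0 ∨ area (F x) = 1 := sorry

-- M-E 2D class
theorem Seq2.classify {F : ℝ → ℝ → ℝ} {v vx vy : ℕ → ℝ → ℝ → ℝ} (S : Seq2 F v vx vy)
    (hF : Per2 F) (hv : ∀ k, Per2 (v k) ∧ Per2 (vx k) ∧ Per2 (vy k))
    {Λ : ℝ} {e : ℕ → ℝ} (he : Tendsto e atTop (𝓝 0))
    (hΛ : ∀ k, ∫ x in (0 : ℝ)..1, ∫ y in (0 : ℝ)..1, √(vx k x y ^ 2 + vy k x y ^ 2) ≤ Λ + e k)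
    (hV0 : 0 < area F) (hV : area F ≤ 1 / 2) (hΛV : Λ ≤ I2 (area F)) :
    (∃ c₁ c₂ r, 0 < r ∧ π * r ^ 2 = area F ∧ dist2 F (discFn c₁ c₂ r) = 0) ∨
    (∃ c, dist2 F (fun x _ => arcFn c (area F) x) = 0) ∨
    (∃ c, dist2 F (fun _ y => arcFn c (area F) y) = 0) := sorry

end Vale.Agent.Lib.P232
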