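import Vale.Agent.Lib.P232.RigDefs

open MeasureTheory Filter Topology Set
open scoped Real

namespace Vale.Agent.Lib.P232

variable {F : ℝ → ℝ → ℝ → ℝ} {u ux uy uz : ℕ → ℝ → ℝ → ℝ → ℝ}

/-- The slack of the strict certificates (helper66 may choose another positive value). -/
noncomputable def rigδ : ℝ := 1 / 100000

-- M-H: strict certificates (helper66)
theorem cert_ball' {a b V Per : ℝ} (h0 : 0 ≤ a) (haV : a ≤ V) (hVb : V ≤ b) (hb : b ≤ 1)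
    (hV : V ≤ 4 * π / 81) (hb' : 1 / π < b) (hc : 1 / 400 ≤ a ∨ 3 / 5 ≤ b)
    (h1 : PairBound I2 a b V Per) : ballVal V + rigδ ≤ Per := sorry

theorem cert_tube' {a b V Per : ℝ} (h0 : 0 ≤ a) (haV : a ≤ V) (hVb : V ≤ b) (hb : b ≤ 1)
    (hV1 : 4 * π / 81 ≤ V) (hV2 : V ≤ 53 / 200) (hb1 : 1 / π < b)
    (hc : 1 / 400 ≤ a ∨ 7 / 10 ≤ b)
    (h1 : PairBound I2 a b V Per) : tubeVal V + rigδ ≤ Per := sorry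

theorem cert_slab' {a b V Per : ℝ} (h0 : 0 ≤ a) (haV : a ≤ V) (hVb : V ≤ b) (hb : b ≤ 1)
    (hV1 : 9 / 25 ≤ V) (hV2 : V ≤ 1 / 2) (hc : ¬(1 / π ≤ a ∧ b ≤ 1 - 1 / π))
    (hc2 : ¬(a ≤ 1 / 10000 ∧ 1 - 1 / 10000 ≤ b))
    (h1 : PairBound I2 a b V Per) : 2 + rigδ ≤ Per := sorry

theorem cert_A' {a b V Per : ℝ} (h0 : 1 / 10000 ≤ a) (haV : a ≤ V) (hVb : V ≤ b) (hb : b ≤ 1)
    (hV1 : 53 / 200 ≤ V) (hV2 : V ≤ 9 / 25) (h1 : PhaseBound fTc I2 gapAlpha a b V Per) :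
    Tgt V + rigδ ≤ Per := sorry

theorem cert_S' {g₁ g₂ a b V Per : ℝ}
    (hg : (g₁ = 0 ∧ g₂ = 23 / 50) ∨ (g₁ = 23 / 50 ∧ g₂ = 1 / 2) ∨ (g₁ = 1 / 2 ∧ g₂ = 27 / 50) ∨
      (g₁ = 27 / 50 ∧ g₂ = 1))
    (h0 : 0 ≤ a) (ha : a ≤ 1 / 10000) (hVb : V ≤ b) (hb : b ≤ 1 - 1 / 10000)
    (hV1 : 53 / 200 ≤ V) (hV2 : V ≤ 9 / 25)
    (h1 : PhaseBound (fSt g₁) (fAr g₂) gapAlpha a b V Per) : Tgt V + rigδ ≤ Per := sorry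

theorem cert_B' {a b V Per : ℝ} (h0 : 0 ≤ a) (haV : a ≤ V) (hVb : V ≤ b) (hb : b ≤ 1)
    (hb38 : 3 / 8 ≤ b) (hV1 : 53 / 200 ≤ V) (hV2 : V ≤ 9 / 25)
    (h1 : PhaseBound (fB1 gapAlpha) (fB2 gapAlpha) gapAlpha a b V Per) : Tgt V + rigδ ≤ Per := sorry

-- M-G: strict analytic zones
theorem chord_tight {p q V : ℝ} (hp : 0 ≤ p) (hpq : p ≤ q) (hq : 0 < q) (hV : 0 < V)
    (h : chordVal p q V ≤ min (ballVal V) (tubeVal V)) :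
    (p = 0 ∧ q ^ 3 = 3 * √π / 4 * V ∧ V ≤ 4 * π / 81) ∨ (p = q ∧ q ^ 2 = V ∧ 4 * π / 81 ≤ V) := sorry

theorem chord_tight' {p q V : ℝ} (hp : 0 ≤ p) (hp' : p ≤ 1 / 20) (hpq : p ≤ q) (hq : 0 < q)
    (hq' : q ^ 2 ≤ 3 / 5) (hq2 : 1 / π < q ^ 2) (hV : 0 < V)
    (h : chordVal p q V ≤ min (ballVal V) (tubeVal V) + 4 * p ^ 2) :
    p = 0 ∧ q ^ 3 = 3 * √π / 4 * V ∧ V ≤ 4 * π / 81 := sorry

theorem tube_regionB' {a b V Per : ℝ} (h0 : 0 ≤ a) (ha : a ≤ 1 / 400) (hb1 : 3 / 5 ≤ b)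
    (hb2 : b ≤ 7 / 10) (hV0 : 0 ≤ V) (hV : V ≤ 53 / 200) (h2 : PairBound Ju a b V (Per + 4 * a)) :
    tubeVal V < Per := sorry

theorem corner_slab' {a b V Per : ℝ} (h0 : 0 ≤ a) (ha : a ≤ 1 / 10000) (hb1 : b ≤ 1)
    (hb : 1 - 1 / 10000 ≤ b) (hV1 : 31 / 100 ≤ V) (hV2 : V ≤ 69 / 100) (h : PairBound I2 a b V Per)
    (hP : Per ≤ 2) : a = 0 ∧ b = 1 := sorry

theorem flat_zone' {a b V Per : ℝ} (ha : 1 / π ≤ a) (hab : a ≤ b) (hb : b ≤ 1 - 1 / π)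
    (haV : a ≤ V) (hVb : V ≤ b)
    (h : PairBound I2 a b V Per) (hP : Per ≤ 2) : a = V ∧ b = V := sorry

theorem real_ball' {a b V Per : ℝ} (h0 : 0 ≤ a) (haV : a ≤ V) (hVb : V ≤ b) (hb : b ≤ 1) (hV0 : 0 < V)
    (hV : V ≤ 4 * π / 81) (h1 : PairBound I2 a b V Per) (h2 : PairBound Ju a b V (Per + 4 * a))
    (hP : Per ≤ ballVal V) :
    (a = 0 ∧ √b ^ 3 = 3 * √π / 4 * V) ∨ (V = 4 * π / 81 ∧ a = V ∧ b = V) := sorry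

theorem real_tube' {a b V Per : ℝ} (h0 : 0 ≤ a) (haV : a ≤ V) (hVb : V ≤ b) (hb : b ≤ 1)
    (hV1 : 4 * π / 81 ≤ V) (hV2 : V ≤ 53 / 200)
    (h1 : PairBound I2 a b V Per) (h2 : PairBound Ju a b V (Per + 4 * a)) (hP : Per ≤ tubeVal V) :
    (a = V ∧ b = V) ∨ (V = 4 * π / 81 ∧ a = 0 ∧ √b ^ 3 = 3 * √π / 4 * V) := sorry

theorem real_slab' {a b V Per : ℝ} (h0 : 0 ≤ a) (haV : a ≤ V) (hVb : V ≤ b) (hb : b ≤ 1)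
    (hV1 : 9 / 25 ≤ V) (hV2 : V ≤ 1 / 2) (h1 : PairBound I2 a b V Per) (hP : Per ≤ 2) :
    (a = V ∧ b = V) ∨ (a = 0 ∧ b = 1) := sorry

-- gap zones
theorem tube_zone' {a b V Per : ℝ} (h0 : 0 ≤ a) (haV : a ≤ V) (hVb : V ≤ b) (hV1 : 53 / 200 ≤ V)
    (h : PairBound tubeVal a b V Per) (hP : Per ≤ tubeVal V) : a = V ∧ b = V := sorry

theorem corner_zone' {a b V Per : ℝ} (h0 : 0 ≤ a) (ha : a ≤ 1 / 10000) (hb1 : b ≤ 1)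
    (hb : 1 - 1 / 10000 ≤ b) (hV1 : 53 / 200 ≤ V) (hV2 : V ≤ 9 / 25) (h : PairBound I2 a b V Per)
    (hP : Per ≤ Tgt V) : a = 0 ∧ b = 1 := sorry

end Vale.Agent.Lib.P232
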