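import Vale.Agent.Lib.P232.RigDefs

open MeasureTheory Filter Topology Set
open scoped Real

namespace Vale.Agent.Lib.P232

variable {F : ℝ → ℝ → ℝ → ℝ} {u ux uy uz : ℕ → ℝ → ℝ → ℝ → ℝ}

/-- Steiner step in the first variable. -/
noncomputable def stepX (G : ℝ → ℝ → ℝ → ℝ) (x y z : ℝ) : ℝ :=
  steinerZ (fun x y z => G z y x) z y x

/-- Steiner step in the second variable. -/
noncomputable def stepY (G : ℝ → ℝ → ℝ → ℝ) (x y z : ℝ) : ℝ :=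
  steinerZ (fun x y z => G x z y) x z y

/-- The three Steiner steps, third variable first. -/
noncomputable def stein3 (F : ℝ → ℝ → ℝ → ℝ) : ℝ → ℝ → ℝ → ℝ :=
  stepY (stepX (steinerZ F))

/-- Area of the slices normal to the first axis. -/
noncomputable def sX (F : ℝ → ℝ → ℝ → ℝ) (x : ℝ) : ℝ := ∫ y in (0 : ℝ)..1, ∫ z in (0 : ℝ)..1, F x y z

/-- Area of the slices normal to the second axis. -/
noncomputable def sY (F : ℝ → ℝ → ℝ → ℝ) (y : ℝ) : ℝ := ∫ x in (0 : ℝ)..1, ∫ z in (0 : ℝ)..1, F x y z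

/-- Area of the slices normal to the third axis. -/
noncomputable def sZ (F : ℝ → ℝ → ℝ → ℝ) (z : ℝ) : ℝ := ∫ y in (0 : ℝ)..1, ∫ x in (0 : ℝ)..1, F x y z

-- helper46: same as exists_mono_seq2 with explicit limit
theorem Seq3.exists_mono_seq3 (S : Seq3 F u ux uy uz) {Per : ℝ}
    (hPer : ∀ k, energy3 (ux k) (uy k) (uz k) ≤ Per) {ε : ℝ} (hε : 0 < ε) :
    ∃ w wx wy wz : ℕ → ℝ → ℝ → ℝ → ℝ, Seq3 (stein3 F) w wx wy wz ∧
      (∀ k, energy3 (wx k) (wy k) (wz k) ≤ Per + ε) ∧ vol3 (stein3 F) = vol3 F ∧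
      MonoX (stein3 F) ∧ MonoY (stein3 F) ∧ MonoZ (stein3 F) ∧
      ∀ k, MonoX (w k) ∧ MonoY (w k) ∧ MonoZ (w k) := sorry

-- transfer
theorem Seq3.transfer_const_x (S : Seq3 F u ux uy uz) {V : ℝ}
    (h : ∀ᵐ x ∂(volume.restrict (Ioc (0 : ℝ) 1)), sX (stein3 F) x = V) :
    ∀ᵐ x ∂(volume.restrict (Ioc (0 : ℝ) 1)), sX F x = V := sorry

theorem Seq3.transfer_const_y (S : Seq3 F u ux uy uz) {V : ℝ}
    (h : ∀ᵐ y ∂(volume.restrict (Ioc (0 : ℝ) 1)), sY (stein3 F) y = V) :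
    ∀ᵐ y ∂(volume.restrict (Ioc (0 : ℝ) 1)), sY F y = V := sorry

theorem Seq3.transfer_const_z (S : Seq3 F u ux uy uz) {V : ℝ}
    (h : ∀ᵐ z ∂(volume.restrict (Ioc (0 : ℝ) 1)), sZ (stein3 F) z = V) :
    ∀ᵐ z ∂(volume.restrict (Ioc (0 : ℝ) 1)), sZ F z = V := sorry

/-- A slab normal to the first axis comes from a set whose lines in the first direction have
the same length. -/
theorem Seq3.transfer_bin_x (S : Seq3 F u ux uy uz)
    (h : ∀ᵐ x ∂(volume.restrict (Ioc (0 : ℝ) 1)), sX (stein3 F) x = 0 ∨ sX (stein3 F) x = 1) :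
    ∀ᵐ q ∂((volume.restrict (Ioc (0 : ℝ) 1)).prod (volume.restrict (Ioc (0 : ℝ) 1))),
      (∫ x in (0 : ℝ)..1, F x q.1 q.2) = vol3 F := sorry

theorem Seq3.transfer_bin_y (S : Seq3 F u ux uy uz)
    (h : ∀ᵐ y ∂(volume.restrict (Ioc (0 : ℝ) 1)), sY (stein3 F) y = 0 ∨ sY (stein3 F) y = 1) :
    ∀ᵐ q ∂((volume.restrict (Ioc (0 : ℝ) 1)).prod (volume.restrict (Ioc (0 : ℝ) 1))),
      (∫ y in (0 : ℝ)..1, F q.1 y q.2) = vol3 F := sorry

theorem Seq3.transfer_bin_z (S : Seq3 F u ux uy uz)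
    (h : ∀ᵐ z ∂(volume.restrict (Ioc (0 : ℝ) 1)), sZ (stein3 F) z = 0 ∨ sZ (stein3 F) z = 1) :
    ∀ᵐ q ∂((volume.restrict (Ioc (0 : ℝ) 1)).prod (volume.restrict (Ioc (0 : ℝ) 1))),
      (∫ z in (0 : ℝ)..1, F q.1 q.2 z) = vol3 F := sorry

end Vale.Agent.Lib.P232
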