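import Vale.Agent.Lib.P232.SymF

open MeasureTheory Filter Topology Set
open scoped Real

namespace Vale.Agent.Lib.P232

lemma symW_monoZ {d : ℝ} (hd : 0 < d) (η : ℝ) (u : ℝ → ℝ → ℝ → ℝ) : MonoZ (symW d η u) := by
  intro x y z z' h
  unfold symW
  refine rampW_mono hd ?_
  have := tent_mono (η := η) h
  linarith

lemma line_cont_of_smooth {u ux uy uz : ℝ → ℝ → ℝ → ℝ} (h : Smooth3 u ux uy uz) (x y : ℝ) :
    Continuous fun t => u x y t := by
  have : Continuous fun t : ℝ => ((x, y, t) : ℝ × ℝ × ℝ) := by fun_prop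
  exact h.cont.comp this

lemma symW_monoX {d η : ℝ} (hd : 0 < d) {u ux uy uz : ℝ → ℝ → ℝ → ℝ} (hs : Smooth3 u ux uy uz)
    (h : MonoX u) : MonoX (symW d η u) := by
  intro x x' y z hx
  unfold symW heightG
  refine rampW_mono hd ?_
  have hle : ell u x y ≤ ell u x' y :=
    intervalIntegral.integral_mono_on zero_le_one
      ((line_cont_of_smooth hs x y).intervalIntegrable _ _)
      ((line_cont_of_smooth hs x' y).intervalIntegrable _ _) fun t _ => h x x' y t hx
  have := mul_le_mul_of_nonneg_left hle (by linarith : 0 ≤ 1 + 4 * d)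
  linarith

lemma symW_monoY {d η : ℝ} (hd : 0 < d) {u ux uy uz : ℝ → ℝ → ℝ → ℝ} (hs : Smooth3 u ux uy uz)
    (h : MonoY u) : MonoY (symW d η u) := by
  intro x y y' z hy
  unfold symW heightG
  refine rampW_mono hd ?_
  have hle : ell u x y ≤ ell u x y' :=
    intervalIntegral.integral_mono_on zero_le_one
      ((line_cont_of_smooth hs x y).intervalIntegrable _ _)
      ((line_cont_of_smooth hs x y').intervalIntegrable _ _) fun t _ => h x y y' t hy
  have := mul_le_mul_of_nonneg_left hle (by linarith : 0 ≤ 1 + 4 * d)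
  linarith

namespace Seq3

variable {F : ℝ → ℝ → ℝ → ℝ} {u ux uy uz : ℕ → ℝ → ℝ → ℝ → ℝ}

/-- Three Steiner steps: the limit and the sequence are monotone in the three variables. -/
theorem exists_mono_seq2 (S : Seq3 F u ux uy uz) {Per : ℝ}
    (hPer : ∀ k, energy3 (ux k) (uy k) (uz k) ≤ Per) {ε : ℝ} (hε : 0 < ε) :
    ∃ (G : ℝ → ℝ → ℝ → ℝ) (w wx wy wz : ℕ → ℝ → ℝ → ℝ → ℝ), Seq3 G w wx wy wz ∧
      (∀ k, energy3 (wx k) (wy k) (wz k) ≤ Per + ε) ∧ vol3 G = vol3 F ∧
      MonoX G ∧ MonoY G ∧ MonoZ G ∧ ∀ k, MonoX (w k) ∧ MonoY (w k) ∧ MonoZ (w k) := by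
  have hε3 : 0 < ε / 3 := by positivity
  -- the first step
  obtain ⟨d1, η1, κ1, hd1, -, S1, hE1⟩ := S.exists_sym_seq hPer hε3
  have hV1 := S.vol3_steinerZ
  have hZ1 := steinerZ_monoZ F
  have hw1 : ∀ k, MonoZ (symW (d1 k) (η1 k) (u (κ1 k))) := fun k => symW_monoZ (hd1 k) _ _
  -- the second step: the first variable
  have S1' := S1.swap13
  obtain ⟨d2, η2, κ2, hd2, -, S2, hE2⟩ := S1'.exists_sym_seq (Per := Per + ε / 3)
    (fun k => by rw [S1.energy_swap13 k]; exact hE1 k) hε3
  have hV2 := S2.swap13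
  have hV2' : vol3 (fun x y z => steinerZ (fun x y z => steinerZ F z y x) z y x) = vol3 F := by
    rw [S2.vol3_swap13, S1'.vol3_steinerZ, S1.vol3_swap13, hV1]
  have hX2 : MonoX (fun x y z => steinerZ (fun x y z => steinerZ F z y x) z y x) := by
    intro x x' y z h
    exact steinerZ_monoZ _ z y x x' h
  have hZ2 : MonoZ (fun x y z => steinerZ (fun x y z => steinerZ F z y x) z y x) := by
    intro x y z z' h
    refine S1'.steinerZ_monoX ?_ z z' y x h
    intro x x' y z h
    exact hZ1 z y x x' h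
  -- the sequence after the second step
  have hw2X : ∀ k, MonoX fun x y z => symW (d2 k) (η2 k)
      (fun x y z => symW (d1 (κ2 k)) (η1 (κ2 k)) (u (κ1 (κ2 k))) z y x) z y x := by
    intro k x x' y z h
    exact symW_monoZ (hd2 k) _ _ z y x x' h
  have hw2Z : ∀ k, MonoZ fun x y z => symW (d2 k) (η2 k)
      (fun x y z => symW (d1 (κ2 k)) (η1 (κ2 k)) (u (κ1 (κ2 k))) z y x) z y x := by
    intro k x y z z' h
    refine symW_monoX (hd2 k) (S1'.smooth (κ2 k)) ?_ z z' y x h
    intro x x' y z h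
    exact hw1 (κ2 k) z y x x' h
  -- the third step: the second variable
  have S2' := hV2.swap23
  obtain ⟨d3, η3, κ3, hd3, -, S3, hE3⟩ := S2'.exists_sym_seq (Per := Per + ε / 3 + ε / 3)
    (fun k => by
      rw [hV2.energy_swap23 k, S2.energy_swap13 k]
      exact hE2 k) hε3
  have S4 := S3.swap23
  refine ⟨_, _, _, _, _, S4, ?_, ?_, ?_, ?_, ?_, ?_⟩
  · intro k
    rw [S3.energy_swap23 k]
    have := hE3 k
    linarith
  · rw [S3.vol3_swap23, S2'.vol3_steinerZ, hV2.vol3_swap23]
    exact hV2'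
  · -- first variable
    intro x x' y z h
    refine S2'.steinerZ_monoX ?_ x x' z y h
    intro x x' y z h
    exact hX2 x x' z y h
  · -- second variable
    intro x y y' z h
    exact steinerZ_monoZ _ x z y y' h
  · -- third variable
    intro x y z z' h
    refine S2'.steinerZ_monoY ?_ x z z' y h
    intro x y y' z h
    exact hZ2 x z y y' h
  · intro k
    refine ⟨?_, ?_, ?_⟩
    · intro x x' y z h
      refine symW_monoX (hd3 k) (S2'.smooth (κ3 k)) ?_ x x' z y h
      intro x x' y z h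
      exact hw2X (κ3 k) x x' z y h
    · intro x y y' z h
      exact symW_monoZ (hd3 k) _ _ x z y y' h
    · intro x y z z' h
      refine symW_monoY (hd3 k) (S2'.smooth (κ3 k)) ?_ x z z' y h
      intro x y y' z h
      exact hw2Z (κ3 k) x z y y' h

end Seq3

end Vale.Agent.Lib.P232
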