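import Vale.Agent.Lib.P232.Phase
import Vale.Agent.Lib.P232.SymG

open MeasureTheory Filter Topology Set
open scoped Real

namespace Vale.Agent.Lib.P232

/-- Extent of a planar function in its first variable: twice the largest distance to `1/2` of a
nonnegligible slice. -/
noncomputable def extent (D : ℝ → ℝ → ℝ) : ℝ :=
  2 * sSup ({t : ℝ | ∃ x ∈ Ioo (0 : ℝ) 1, |x - 1 / 2| = t ∧ 0 < marg D x} ∪ {0})

section extent

variable {D : ℝ → ℝ → ℝ}

lemma extent_set_bdd (D : ℝ → ℝ → ℝ) :
    BddAbove ({t : ℝ | ∃ x ∈ Ioo (0 : ℝ) 1, |x - 1 / 2| = t ∧ 0 < marg D x} ∪ {0}) := by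
  refine ⟨1 / 2, ?_⟩
  rintro t (⟨x, hx, rfl, -⟩ | rfl)
  · rw [abs_le]
    constructor <;> linarith [hx.1, hx.2]
  · norm_num

lemma extent_nonneg (D : ℝ → ℝ → ℝ) : 0 ≤ extent D := by
  have : (0 : ℝ) ≤ sSup ({t : ℝ | ∃ x ∈ Ioo (0 : ℝ) 1, |x - 1 / 2| = t ∧ 0 < marg D x} ∪ {0}) :=
    le_csSup (extent_set_bdd D) (Or.inr rfl)
  unfold extent
  linarith

/-- Above the extent slices are negligible. -/
lemma marg_nonpos_of_extent {x : ℝ} (hx : x ∈ Ioo (0 : ℝ) 1) (h : extent D / 2 < |x - 1 / 2|) :
    marg D x ≤ 0 := by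
  by_contra hcon
  push Not at hcon
  have : |x - 1 / 2| ≤ sSup ({t : ℝ | ∃ x ∈ Ioo (0 : ℝ) 1, |x - 1 / 2| = t ∧ 0 < marg D x} ∪ {0}) :=
    le_csSup (extent_set_bdd D) (Or.inl ⟨x, hx, rfl, hcon⟩)
  unfold extent at h
  linarith

/-- The marginal is monotone. -/
lemma marg_mono_of_mono (h01 : ∀ x y, 0 ≤ D x y ∧ D x y ≤ 1) (hm : Measurable fun q : ℝ × ℝ => D q.1 q.2)
    (h1 : ∀ x x' y, |x' - 1 / 2| ≤ |x - 1 / 2| → D x y ≤ D x' y) {x x' : ℝ}
    (h : |x' - 1 / 2| ≤ |x - 1 / 2|) : marg D x ≤ marg D x' := by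
  have hs : ∀ t, IntervalIntegrable (D t) volume 0 1 := fun t =>
    ii_of_bdd (hm.comp (measurable_const.prodMk measurable_id)) (C := 1) fun y => by
      rw [abs_of_nonneg (h01 t y).1]
      exact (h01 t y).2
  exact intervalIntegral.integral_mono_on zero_le_one (hs x) (hs x') fun y _ => h1 x x' y h

/-- Below the extent slices are nonnegligible. -/
lemma marg_pos_of_extent (h01 : ∀ x y, 0 ≤ D x y ∧ D x y ≤ 1)
    (hm : Measurable fun q : ℝ × ℝ => D q.1 q.2)
    (h1 : ∀ x x' y, |x' - 1 / 2| ≤ |x - 1 / 2| → D x y ≤ D x' y) {x : ℝ}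
    (h : |x - 1 / 2| < extent D / 2) : 0 < marg D x := by
  have h2 : |x - 1 / 2| < sSup ({t : ℝ | ∃ x ∈ Ioo (0 : ℝ) 1, |x - 1 / 2| = t ∧ 0 < marg D x} ∪ {0}) := by
    unfold extent at h
    linarith
  have hne : ({t : ℝ | ∃ x ∈ Ioo (0 : ℝ) 1, |x - 1 / 2| = t ∧ 0 < marg D x} ∪ {0}).Nonempty :=
    ⟨0, Or.inr rfl⟩
  obtain ⟨t, ht, hlt⟩ := exists_lt_of_lt_csSup hne h2
  rcases ht with ⟨x', -, rfl, hpos⟩ | ht
  · exact hpos.trans_le (marg_mono_of_mono h01 hm h1 hlt.le)
  · rw [mem_singleton_iff] at ht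
    rw [ht] at hlt
    exact absurd hlt (not_lt.2 (abs_nonneg _))

/-- The marginal of a slice is at most the extent in the other direction. -/
lemma marg_le_extent (h01 : ∀ x y, D x y = 0 ∨ D x y = 1)
    (hm : Measurable fun q : ℝ × ℝ => D q.1 q.2)
    (h1 : ∀ x x' y, |x' - 1 / 2| ≤ |x - 1 / 2| → D x y ≤ D x' y) {x : ℝ}
    (hx : x ∈ Ioo (0 : ℝ) 1) (hne : x ≠ 1 / 2) : marg D x ≤ extent (fun y x => D x y) := by
  have hb : ∀ x y, 0 ≤ D x y ∧ D x y ≤ 1 := fun x y => by
    rcases h01 x y with h | h <;> simp [h]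
  set e := extent (fun y x => D x y) with he
  have he0 : 0 ≤ e := extent_nonneg _
  have hs : IntervalIntegrable (D x) volume 0 1 :=
    ii_of_bdd (hm.comp (measurable_const.prodMk measurable_id)) (C := 1) fun y => by
      rw [abs_of_nonneg (hb x y).1]
      exact (hb x y).2
  have hr : 0 < |x - 1 / 2| := abs_pos.2 (sub_ne_zero.2 hne)
  have hr2 : |x - 1 / 2| < 1 / 2 := by
    rw [abs_lt]
    constructor <;> linarith [hx.1, hx.2]
  have hmT : Measurable fun q : ℝ × ℝ => D q.2 q.1 := hm.comp (measurable_snd.prodMk measurable_fst)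
  have hsT : ∀ z, IntervalIntegrable (fun t => D t z) volume 0 1 := fun z =>
    ii_of_bdd (hmT.comp (measurable_const.prodMk measurable_id)) (C := 1) fun y => by
      rw [abs_of_nonneg (hb y z).1]
      exact (hb y z).2
  -- the nonzero part lies in the centered interval
  have hkey : ∀ z ∈ Ioo (0 : ℝ) 1, D x z = 1 → |z - 1 / 2| ≤ e / 2 := by
    intro z hz hxz
    by_contra hcon
    push Not at hcon
    have h2 := marg_nonpos_of_extent (D := fun y x => D x y) hz hcon
    -- positive marginal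
    have h3 : 0 < marg (fun y x => D x y) z := by
      have hind : ∫ t in (0 : ℝ)..1, (if |t - 1 / 2| < (2 * |x - 1 / 2|) / 2 then (1 : ℝ) else 0) =
          2 * |x - 1 / 2| * 1 + (1 - 2 * |x - 1 / 2|) * 0 := by
        exact phase_integral (by positivity) (by linarith) 1 0
      have hle : ∫ t in (0 : ℝ)..1, (if |t - 1 / 2| < (2 * |x - 1 / 2|) / 2 then (1 : ℝ) else 0) ≤
          marg (fun y x => D x y) z := by
        refine intervalIntegral.integral_mono_on zero_le_one ?_ (hsT z) fun t _ => ?_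
        · refine ii_of_bdd (f := fun t : ℝ => if |t - 1 / 2| < (2 * |x - 1 / 2|) / 2 then (1 : ℝ) else 0)
            (Measurable.ite (measurableSet_lt (by fun_prop) measurable_const) measurable_const
              measurable_const) (C := 1) fun t => ?_
          split_ifs <;> simp
        · split_ifs with hlt
          · have : D x z ≤ D t z := h1 x t z (by linarith)
            rw [hxz] at this
            exact this
          · exact (hb t z).1
      rw [hind] at hle
      have : (0 : ℝ) < 2 * |x - 1 / 2| := by positivity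
      linarith
    linarith
  -- comparison with the indicator
  refine le_of_forall_gt_imp_ge_of_dense fun e' he' => ?_
  by_cases he1 : 1 ≤ e'
  · have h3 : marg D x ≤ ∫ _ in (0 : ℝ)..1, (1 : ℝ) :=
      intervalIntegral.integral_mono_on zero_le_one hs (by simp) fun y _ => (hb x y).2
    simp only [intervalIntegral.integral_const, sub_zero, one_smul] at h3
    simpa using h3.trans he1
  push Not at he1
  have hind := phase_integral (α := e') (by linarith) he1.le 1 0
  have hle : marg D x ≤ ∫ t in (0 : ℝ)..1, (if |t - 1 / 2| < e' / 2 then (1 : ℝ) else 0) := by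
    unfold marg
    rw [intervalIntegral.integral_of_le zero_le_one, intervalIntegral.integral_of_le zero_le_one]
    have hi1 : IntegrableOn (D x) (Ioc (0 : ℝ) 1) volume := by
      have := hs
      rwa [intervalIntegrable_iff, uIoc_of_le zero_le_one] at this
    have hi2 : IntegrableOn (fun t : ℝ => if |t - 1 / 2| < e' / 2 then (1 : ℝ) else 0)
        (Ioc (0 : ℝ) 1) volume := by
      have := ii_of_bdd (f := fun t : ℝ => if |t - 1 / 2| < e' / 2 then (1 : ℝ) else 0)
        (Measurable.ite (measurableSet_lt (by fun_prop) measurable_const) measurable_const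
          measurable_const) (C := 1) (fun t => by split_ifs <;> simp)
      rwa [intervalIntegrable_iff, uIoc_of_le zero_le_one] at this
    refine integral_mono_ae hi1 hi2 ?_
    have hnull : ∀ᵐ t ∂(volume.restrict (Ioc (0 : ℝ) 1)), t ≠ 1 := by
      apply ae_restrict_of_ae
      simp [ae_iff, Real.volume_singleton]
    filter_upwards [ae_restrict_mem measurableSet_Ioc, hnull] with t ht ht1
    have ht2 : t ∈ Ioo (0 : ℝ) 1 := ⟨ht.1, lt_of_le_of_ne ht.2 ht1⟩
    rcases h01 x t with h | h
    · simp only [h]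
      split_ifs <;> norm_num
    · have := hkey t ht2 h
      rw [h, if_pos (by linarith)]
  rw [hind] at hle
  linarith

end extent

/-- Full lines in the first direction, as a function of the two others. -/
noncomputable def rod1 (F : ℝ → ℝ → ℝ → ℝ) (y z : ℝ) : ℝ := fullInd (∫ x in (0 : ℝ)..1, F x y z)

/-- Full lines in the second direction, as a function of the two others. -/
noncomputable def rod2 (F : ℝ → ℝ → ℝ → ℝ) (x z : ℝ) : ℝ := fullInd (∫ y in (0 : ℝ)..1, F x y z)

/-- Full lines in the third direction, as a function of the two others. -/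
noncomputable def rod3 (F : ℝ → ℝ → ℝ → ℝ) (x y : ℝ) : ℝ := fullInd (∫ z in (0 : ℝ)..1, F x y z)

/-- Three-direction logic: at least one direction has good extents. -/
theorem logic_six {α xy xz yx yz zx zy : ℝ} :
    ((α ≤ yx ∧ α ≤ zx) ∨ (zx < α ∧ yz ≤ α ∧ zx ≤ yx) ∨ (yx < α ∧ zy ≤ α ∧ yx ≤ zx)) ∨
    ((α ≤ xy ∧ α ≤ zy) ∨ (zy < α ∧ xz ≤ α ∧ zy ≤ xy) ∨ (xy < α ∧ zx ≤ α ∧ xy ≤ zy)) ∨
    ((α ≤ yz ∧ α ≤ xz) ∨ (xz < α ∧ yx ≤ α ∧ xz ≤ yz) ∨ (yz < α ∧ xy ≤ α ∧ yz ≤ xz)) := by
  by_contra hcon
  push Not at hcon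
  obtain ⟨⟨x1, x2, x3⟩, ⟨y1, y2, y3⟩, ⟨z1, z2, z3⟩⟩ := hcon
  rcases le_total zx yx with h | h
  · -- case of the larger second rod
    have hzx : zx < α := by
      by_contra hc
      push Not at hc
      exact absurd (x1 (hc.trans h)) (not_lt.2 hc)
    have hyz : α < yz := by
      by_contra hc
      push Not at hc
      exact absurd h (not_le.2 (x2 hzx hc))
    have hxz : xz < α := z1 hyz.le
    have hyx : α < yx := by
      by_contra hc
      push Not at hc
      exact absurd (hxz.le.trans hyz.le) (not_le.2 (z2 hxz hc))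
    rcases le_total zy xy with h' | h'
    · have hzy : zy < α := by
        by_contra hc
        push Not at hc
        exact absurd (y1 (hc.trans h')) (not_lt.2 hc)
      exact absurd h' (not_le.2 (y2 hzy hxz.le))
    · have hxy : xy < α := by
        by_contra hc
        push Not at hc
        exact absurd (y1 hc) (not_lt.2 (hc.trans h'))
      exact absurd h' (not_le.2 (y3 hxy hzx.le))
  · have hyx : yx < α := by
      by_contra hc
      push Not at hc
      exact absurd (x1 hc) (not_lt.2 (hc.trans h))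
    have hzy : α < zy := by
      by_contra hc
      push Not at hc
      exact absurd h (not_le.2 (x3 hyx hc))
    have hxy : xy < α := by
      by_contra hc
      push Not at hc
      exact absurd (y1 hc) (not_lt.2 hzy.le)
    have hzx : α < zx := by
      by_contra hc
      push Not at hc
      exact absurd (hxy.le.trans hzy.le) (not_le.2 (y3 hxy hc))
    rcases le_total xz yz with h' | h'
    · have hxz : xz < α := by
        by_contra hc
        push Not at hc
        exact absurd (z1 (hc.trans h')) (not_lt.2 hc)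
      exact absurd h' (not_le.2 (z2 hxz hyx.le))
    · have hyz : yz < α := by
        by_contra hc
        push Not at hc
        exact absurd (z1 hc) (not_lt.2 (hc.trans h'))
      exact absurd h' (not_le.2 (z3 hyz hxy.le))

end Vale.Agent.Lib.P232
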