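import Vale.Agent.Lib.P232.SymG

open MeasureTheory Filter Topology Set
open scoped Real

namespace Vale.Agent.Lib.P232

/-- The polynomial lower bound of `√(1 - w)` on `[0,1]`. -/
noncomputable def polyQ (w : ℝ) : ℝ := 1 - w / 2 - w ^ 2 / 8 - 3 / 8 * w ^ 3

lemma polyQ_nonneg {w : ℝ} (h0 : 0 ≤ w) (h1 : w ≤ 1) : 0 ≤ polyQ w := by
  have e : polyQ w = (1 - w) * (1 + w / 2 + 3 / 8 * w ^ 2) := by unfold polyQ; ring
  rw [e]
  exact mul_nonneg (by linarith) (by positivity)

lemma polyQ_sq_le {w : ℝ} (h0 : 0 ≤ w) (h1 : w ≤ 1) : polyQ w ^ 2 ≤ 1 - w := by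
  have e : 1 - w - polyQ w ^ 2 =
      (1 - w) * (5 / 8 * w ^ 3 + 15 / 64 * w ^ 4 + 9 / 64 * w ^ 5) := by
    unfold polyQ; ring
  have : 0 ≤ 1 - w - polyQ w ^ 2 := by
    rw [e]
    exact mul_nonneg (by linarith) (by positivity)
  linarith

/-- The lower bound for the integrated vertical weight. -/
noncomputable def Ehat (p : ℝ) : ℝ := 1 - p ^ 2 / 6 - p ^ 4 / 40 - 3 / 56 * p ^ 6

/-- The horizontal weight on the cell. -/
noncomputable def tauW (p x : ℝ) : ℝ := 2 * p * (x - 1 / 2)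

/-- The vertical weight on the cell. -/
noncomputable def betaW (p x : ℝ) : ℝ := max 0 (polyQ (tauW p x ^ 2))

lemma tauW_cont (p : ℝ) : Continuous (tauW p) := by
  unfold tauW
  fun_prop

lemma betaW_cont (p : ℝ) : Continuous (betaW p) := by
  unfold betaW polyQ tauW
  fun_prop

lemma betaW_nonneg (p x : ℝ) : 0 ≤ betaW p x := le_max_left _ _

lemma tauW_sq_le {p x : ℝ} (hp0 : 0 ≤ p) (hp1 : p ≤ 1) (hx : x ∈ Icc (0 : ℝ) 1) :
    tauW p x ^ 2 ≤ 1 := by
  unfold tauW
  have h1 : (x - 1 / 2) ^ 2 ≤ 1 / 4 := by nlinarith [hx.1, hx.2]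
  have h2 : p ^ 2 ≤ 1 := by nlinarith
  have e : (2 * p * (x - 1 / 2)) ^ 2 = 4 * p ^ 2 * (x - 1 / 2) ^ 2 := by ring
  rw [e]
  have h3 : 0 ≤ p ^ 2 := sq_nonneg p
  have h4 : 0 ≤ (x - 1 / 2) ^ 2 := sq_nonneg _
  nlinarith

lemma weight_le {p x : ℝ} (hp0 : 0 ≤ p) (hp1 : p ≤ 1) (hx : x ∈ Icc (0 : ℝ) 1) :
    (-tauW p x) ^ 2 + betaW p x ^ 2 ≤ 1 := by
  have h1 := tauW_sq_le hp0 hp1 hx
  have h0 : 0 ≤ tauW p x ^ 2 := sq_nonneg _
  have h2 := polyQ_nonneg h0 h1
  have h3 := polyQ_sq_le h0 h1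
  unfold betaW
  rw [max_eq_right h2, neg_sq]
  linarith

/-- The integral of the vertical weight. -/
lemma betaW_integral {p : ℝ} (hp0 : 0 ≤ p) (hp1 : p ≤ 1) :
    ∫ x in (0 : ℝ)..1, betaW p x = Ehat p := by
  have e1 : ∫ x in (0 : ℝ)..1, betaW p x =
      ∫ x in (0 : ℝ)..1, (1 - 2 * p ^ 2 * (x - 1 / 2) ^ 2 - 2 * p ^ 4 * (x - 1 / 2) ^ 4 -
        24 * p ^ 6 * (x - 1 / 2) ^ 6) := by
    refine intervalIntegral.integral_congr fun x hx => ?_
    rw [uIcc_of_le zero_le_one] at hx
    have h1 := tauW_sq_le hp0 hp1 hx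
    have h0 : 0 ≤ tauW p x ^ 2 := sq_nonneg _
    simp only [betaW]
    rw [max_eq_right (polyQ_nonneg h0 h1)]
    unfold polyQ tauW
    ring
  rw [e1]
  have h2 : ∀ x ∈ uIcc (0 : ℝ) 1, HasDerivAt (fun x : ℝ => (x - 1 / 2) - 2 / 3 * p ^ 2 * (x - 1 / 2) ^ 3 -
      2 / 5 * p ^ 4 * (x - 1 / 2) ^ 5 - 24 / 7 * p ^ 6 * (x - 1 / 2) ^ 7)
      (1 - 2 * p ^ 2 * (x - 1 / 2) ^ 2 - 2 * p ^ 4 * (x - 1 / 2) ^ 4 -
        24 * p ^ 6 * (x - 1 / 2) ^ 6) x := fun x _ => by
    have hu : HasDerivAt (fun x : ℝ => x - 1 / 2) 1 x := (hasDerivAt_id x).sub_const _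
    have h3 := ((hu.sub ((hu.pow 3).const_mul (2 / 3 * p ^ 2))).sub
      ((hu.pow 5).const_mul (2 / 5 * p ^ 4))).sub ((hu.pow 7).const_mul (24 / 7 * p ^ 6))
    refine HasDerivAt.congr_deriv h3 ?_
    norm_num
    ring
  rw [intervalIntegral.integral_eq_sub_of_hasDerivAt h2
    (Continuous.intervalIntegrable (by fun_prop) _ _)]
  unfold Ehat
  ring

/-- A weighted Fatou lemma with values in the reals. -/
lemma fatou_weighted {β : ℝ → ℝ} (hβ : Continuous β) (hβ0 : ∀ t, 0 ≤ β t)
    {W : ℕ → ℝ → ℝ} (hW : ∀ k, Continuous (W k)) (hW0 : ∀ k t, 0 ≤ W k t) {Y : ℝ} (hY0 : 0 ≤ Y)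
    (hYW : ∀ᵐ t ∂(volume.restrict (Ioc (0 : ℝ) 1)), ∀ c, (∃ᶠ k in atTop, W k t ≤ c) → Y ≤ c)
    {Λ : ℕ → ℝ} {L : ℝ} (hΛ : Tendsto Λ atTop (𝓝 L))
    (h : ∀ k, ∫ t in (0 : ℝ)..1, β t * W k t ≤ Λ k) :
    ∫ t in (0 : ℝ)..1, β t * Y ≤ L := by
  have hle : (0 : ℝ) ≤ 1 := zero_le_one
  set μ : Measure ℝ := volume.restrict (Ioc (0 : ℝ) 1) with hμ
  have hcontk : ∀ k, Continuous fun t => β t * W k t := fun k => hβ.mul (hW k)
  have hbound : ∀ k, ∫⁻ t, ENNReal.ofReal (β t * W k t) ∂μ ≤ ENNReal.ofReal (Λ k) := by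
    intro k
    have hint : Integrable (fun t => β t * W k t) μ :=
      ((hcontk k).integrableOn_Icc (a := 0) (b := 1) |>.mono_set Ioc_subset_Icc_self)
    rw [← ofReal_integral_eq_lintegral_ofReal hint
      (Eventually.of_forall fun t => mul_nonneg (hβ0 _) (hW0 k t))]
    apply ENNReal.ofReal_le_ofReal
    have := h k
    rw [intervalIntegral.integral_of_le hle] at this
    exact this
  have hfatou : ∫⁻ t, ENNReal.ofReal (β t * Y) ∂μ ≤ ENNReal.ofReal L := by
    calc ∫⁻ t, ENNReal.ofReal (β t * Y) ∂μ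
        ≤ ∫⁻ t, liminf (fun k => ENNReal.ofReal (β t * W k t)) atTop ∂μ := by
          apply lintegral_mono_ae
          filter_upwards [hYW] with t h2
          exact pointwise_liminf (A := fun _ => β t) continuous_const (fun _ => hβ0 t)
            (g := fun _ => (0 : ℝ)) (G := 0) (fun k => hW0 k t) tendsto_const_nhds hY0 h2
      _ ≤ liminf (fun k => ∫⁻ t, ENNReal.ofReal (β t * W k t) ∂μ) atTop :=
          lintegral_liminf_le fun k => ((hcontk k).measurable).ennreal_ofReal
      _ ≤ liminf (fun k => ENNReal.ofReal (Λ k)) atTop :=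
          liminf_le_liminf (Eventually.of_forall hbound)
      _ = ENNReal.ofReal L :=
          (ENNReal.continuous_ofReal.continuousAt.tendsto.comp hΛ).liminf_eq
  have hintAY : Integrable (fun t => β t * Y) μ :=
    ((hβ.mul continuous_const).integrableOn_Icc (a := 0) (b := 1) |>.mono_set Ioc_subset_Icc_self)
  have hL0 : 0 ≤ L := by
    refine ge_of_tendsto' hΛ fun k => (?_ : 0 ≤ Λ k)
    refine le_trans ?_ (h k)
    exact intervalIntegral.integral_nonneg hle fun t _ => mul_nonneg (hβ0 _) (hW0 k t)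
  rw [intervalIntegral.integral_of_le hle]
  have h3 : ENNReal.ofReal (∫ t, β t * Y ∂μ) ≤ ENNReal.ofReal L := by
    rw [ofReal_integral_eq_lintegral_ofReal hintAY
      (Eventually.of_forall fun t => mul_nonneg (hβ0 _) hY0)]
    exact hfatou
  exact (ENNReal.ofReal_le_ofReal_iff hL0).1 h3

namespace Seq2

variable {F : ℝ → ℝ → ℝ} {v vx vy : ℕ → ℝ → ℝ → ℝ}

/-- The energy inequality with the weights, for a fixed index. -/
theorem energy_weight (S : Seq2 F v vx vy) {p : ℝ} (hp0 : 0 ≤ p) (hp1 : p ≤ 1) (k : ℕ) :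
    2 * p * area (v k) - 2 * p * marg (v k) 0 + ∫ x in (0 : ℝ)..1, betaW p x * innerCost (vy k) x ≤
      ∫ x in (0 : ℝ)..1, ∫ y in (0 : ℝ)..1, √(vx k x y ^ 2 + vy k x y ^ 2) := by
  have hcvx : Continuous fun q : ℝ × ℝ => vx k q.1 q.2 := (S.smooth k).contx
  have hcvy : Continuous fun q : ℝ × ℝ => vy k q.1 q.2 := (S.smooth k).conty
  have hmc : Continuous (marg (v k)) :=
    continuous_iff_continuousAt.2 fun t => (S.marg_v_hasDerivAt k t).continuousAt
  have hm' := S.marg_vx_cont k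
  have hW := S.innerCost_cont k
  have hcq : Continuous fun q : ℝ × ℝ => √(vx k q.1 q.2 ^ 2 + vy k q.1 q.2 ^ 2) :=
    ((hcvx.pow 2).add (hcvy.pow 2)).sqrt
  have hc2 : Continuous fun x => ∫ y in (0 : ℝ)..1, √(vx k x y ^ 2 + vy k x y ^ 2) :=
    marg_continuous (f := fun x y => √(vx k x y ^ 2 + vy k x y ^ 2)) hcq
  -- integration by parts
  have hparts : ∫ x in (0 : ℝ)..1, (-tauW p x * marg (vx k) x) =
      2 * p * area (v k) - 2 * p * marg (v k) 0 := by
    have h1 : ∀ x ∈ uIcc (0 : ℝ) 1, HasDerivAt (fun x => -tauW p x * marg (v k) x +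
        2 * p * ∫ t in (0 : ℝ)..x, marg (v k) t) (-tauW p x * marg (vx k) x) x := fun x _ => by
      have h2 : HasDerivAt (tauW p) (2 * p) x := by
        have := ((hasDerivAt_id x).sub_const (1 / 2 : ℝ)).const_mul (2 * p)
        refine HasDerivAt.congr_deriv this ?_
        ring
      have h3 := S.marg_v_hasDerivAt k x
      have h4 : HasDerivAt (fun x => ∫ t in (0 : ℝ)..x, marg (v k) t) (marg (v k) x) x :=
        intervalIntegral.integral_hasDerivAt_right (hmc.intervalIntegrable _ _)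
          hmc.aestronglyMeasurable.stronglyMeasurableAtFilter hmc.continuousAt
      have h5 := (h2.neg.mul h3).add (h4.const_mul (2 * p))
      refine HasDerivAt.congr_deriv h5 ?_
      simp only [Pi.neg_apply]
      ring
    have hc : Continuous fun x => -tauW p x * marg (vx k) x := (tauW_cont p).neg.mul hm'
    rw [intervalIntegral.integral_eq_sub_of_hasDerivAt h1 (hc.intervalIntegrable _ _)]
    have hper := S.marg_v_per k
    simp only [intervalIntegral.integral_same, mul_zero, add_zero]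
    have e1 : ∫ t in (0 : ℝ)..1, marg (v k) t = area (v k) := rfl
    rw [e1, ← hper]
    unfold tauW
    ring
  have hpt : ∀ x ∈ Icc (0 : ℝ) 1, -tauW p x * marg (vx k) x + betaW p x * innerCost (vy k) x ≤
      ∫ y in (0 : ℝ)..1, √(vx k x y ^ 2 + vy k x y ^ 2) := by
    intro x hx
    have hcvxs : Continuous fun y => vx k x y := cont_section hcvx x
    have hcvys : Continuous fun y => vy k x y := cont_section hcvy x
    have hw := weight_le hp0 hp1 hx
    have a1 : IntervalIntegrable (fun y => -tauW p x * vx k x y) volume 0 1 :=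
      (continuous_const.mul hcvxs).intervalIntegrable _ _
    have a2 : IntervalIntegrable (fun y => betaW p x * |vy k x y|) volume 0 1 :=
      (continuous_const.mul hcvys.abs).intervalIntegrable _ _
    have e : -tauW p x * marg (vx k) x + betaW p x * innerCost (vy k) x =
        ∫ y in (0 : ℝ)..1, (-tauW p x * vx k x y + betaW p x * |vy k x y|) := by
      rw [intervalIntegral.integral_add a1 a2,
        intervalIntegral.integral_const_mul, intervalIntegral.integral_const_mul]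
      rfl
    rw [e]
    refine intervalIntegral.integral_mono_on zero_le_one
      (((continuous_const.mul hcvxs).add (continuous_const.mul hcvys.abs)).intervalIntegrable _ _)
      ((((hcvxs.pow 2).add (hcvys.pow 2)).sqrt).intervalIntegrable _ _) fun y _ => ?_
    have := cs_le (A := -tauW p x) (B := betaW p x) (p := vx k x y) (q := |vy k x y|) hw
    rwa [sq_abs] at this
  have hi1 : IntervalIntegrable (fun x => -tauW p x * marg (vx k) x) volume 0 1 :=
    ((tauW_cont p).neg.mul hm').intervalIntegrable _ _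
  have hi2 : IntervalIntegrable (fun x => betaW p x * innerCost (vy k) x) volume 0 1 :=
    ((betaW_cont p).mul hW).intervalIntegrable _ _
  rw [← hparts, ← intervalIntegral.integral_add hi1 hi2]
  exact intervalIntegral.integral_mono_on zero_le_one (hi1.add hi2)
    (hc2.intervalIntegrable _ _) hpt

/-- The lines near the far face converge to the indicator of full lines. -/
lemma far_line_tendsto (S : Seq2 F v vx vy)
    (hF : ∀ x x' y, |x' - 1 / 2| ≤ |x - 1 / 2| → F x y ≤ F x' y) (y : ℝ) :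
    Tendsto (fun n : ℕ => F (1 / ((n : ℝ) + 2)) y) atTop
      (𝓝 (fullInd (∫ x in (0 : ℝ)..1, F x y))) := by
  have hmeas : Measurable fun x => F x y := by
    have : Measurable fun x : ℝ => ((x, y) : ℝ × ℝ) := by fun_prop
    exact S.meas.comp this
  have hab : ∀ x, |F x y| ≤ 1 := fun x => by
    rcases S.bin x y with h | h <;> simp [h]
  have hint : ∀ a b : ℝ, IntervalIntegrable (fun x => F x y) volume a b := fun a b => by
    rw [intervalIntegrable_iff, uIoc]
    refine Integrable.of_bound (C := 1) hmeas.aestronglyMeasurable ?_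
    exact Eventually.of_forall fun x => by simpa using hab x
  have h01 : ∀ x, 0 ≤ F x y ∧ F x y ≤ 1 := fun x => by
    rcases S.bin x y with h | h <;> simp [h]
  have hpos : ∀ n : ℕ, (0 : ℝ) < 1 / ((n : ℝ) + 2) := fun n => by positivity
  have hle : ∀ n : ℕ, 1 / ((n : ℝ) + 2) ≤ 1 / 2 := fun n => by
    apply one_div_le_one_div_of_le (by norm_num)
    have : (0 : ℝ) ≤ n := Nat.cast_nonneg n
    linarith
  by_cases hfull : ∫ x in (0 : ℝ)..1, F x y = 1
  · -- all near lines are full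
    have hval : fullInd (∫ x in (0 : ℝ)..1, F x y) = 1 := by simp [fullInd, hfull]
    rw [hval]
    refine tendsto_const_nhds.congr fun n => ?_
    rcases S.bin (1 / ((n : ℝ) + 2)) y with h0 | h1
    · exfalso
      set t := 1 / ((n : ℝ) + 2) with ht
      have htp : 0 < t := hpos n
      have ht2 : t ≤ 1 / 2 := hle n
      have e1 : ∫ x in (0 : ℝ)..1, F x y =
          (∫ x in (0 : ℝ)..t, F x y) + ∫ x in t..1, F x y :=
        (intervalIntegral.integral_add_adjacent_intervals (hint _ _) (hint _ _)).symm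
      have e2 : ∫ x in (0 : ℝ)..t, F x y ≤ ∫ _ in (0 : ℝ)..t, (0 : ℝ) := by
        refine intervalIntegral.integral_mono_on htp.le (hint _ _) (by simp) fun x hx => ?_
        have h3 : |t - 1 / 2| ≤ |x - 1 / 2| := by
          rw [abs_of_nonpos (by linarith), abs_of_nonpos (by linarith [hx.2])]
          linarith [hx.2]
        have := hF x t y h3
        rwa [h0] at this
      have e3 : ∫ x in t..1, F x y ≤ ∫ _ in t..1, (1 : ℝ) :=
        intervalIntegral.integral_mono_on (by linarith) (hint _ _) (by simp) fun x _ => (h01 x).2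
      simp only [intervalIntegral.integral_zero, intervalIntegral.integral_const, smul_eq_mul,
        mul_one] at e2 e3
      linarith
    · exact h1.symm
  · -- some line is empty
    have hval : fullInd (∫ x in (0 : ℝ)..1, F x y) = 0 := by simp [fullInd, hfull]
    rw [hval]
    obtain ⟨x₀, hx₀, hz⟩ : ∃ x₀ ∈ Ioo (0 : ℝ) 1, F x₀ y = 0 := by
      by_contra hcon
      push Not at hcon
      apply hfull
      have : ∫ x in (0 : ℝ)..1, F x y = ∫ _ in (0 : ℝ)..1, (1 : ℝ) := by
        rw [intervalIntegral.integral_of_le zero_le_one, intervalIntegral.integral_of_le zero_le_one,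
          integral_Ioc_eq_integral_Ioo, integral_Ioc_eq_integral_Ioo]
        refine setIntegral_congr_fun measurableSet_Ioo fun x hx => ?_
        rcases S.bin x y with h | h
        · exact absurd h (hcon x hx)
        · exact h
      rw [this]
      simp
    have hlim : Tendsto (fun n : ℕ => 1 / ((n : ℝ) + 2)) atTop (𝓝 0) := by
      have := tendsto_one_div_add_atTop_nhds_zero_nat (𝕜 := ℝ)
      have h2 := this.comp (tendsto_add_atTop_nat 1)
      refine h2.congr fun n => ?_
      simp only [Function.comp]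
      push_cast
      ring_nf
    have hev : ∀ᶠ n : ℕ in atTop, 1 / ((n : ℝ) + 2) < min x₀ (1 - x₀) :=
      hlim.eventually (gt_mem_nhds (lt_min hx₀.1 (by linarith [hx₀.2])))
    refine tendsto_const_nhds.congr' ?_
    filter_upwards [hev] with n hn
    have h1 := lt_of_lt_of_le hn (min_le_left _ _)
    have h2 := lt_of_lt_of_le hn (min_le_right _ _)
    have h3 : |x₀ - 1 / 2| ≤ |1 / ((n : ℝ) + 2) - 1 / 2| := by
      have h4 := hle n
      rw [abs_of_nonpos (by linarith : 1 / ((n : ℝ) + 2) - 1 / 2 ≤ 0)]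
      refine abs_le.2 ⟨by linarith, by linarith⟩
    have := hF _ x₀ y h3
    rw [hz] at this
    exact (le_antisymm this (h01 _).1).symm

/-- There are good lines whose mass is nearly the mass of full lines. -/
lemma exists_far_line (S : Seq2 F v vx vy)
    (hF : ∀ x x' y, |x' - 1 / 2| ≤ |x - 1 / 2| → F x y ≤ F x' y) {ε : ℝ} (hε : 0 < ε) :
    ∃ x₂ ∈ Ioo (0 : ℝ) 1, Tendsto (fun k => marg (v k) x₂) atTop (𝓝 (marg F x₂)) ∧
      marg F x₂ ≤ lineX F + ε := by
  have hlim : Tendsto (fun n : ℕ => marg F (1 / ((n : ℝ) + 2))) atTop (𝓝 (lineX F)) := by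
    refine intervalIntegral.tendsto_integral_filter_of_dominated_convergence (bound := fun _ => 1)
      ?_ ?_ intervalIntegrable_const ?_
    · exact Eventually.of_forall fun n => (S.slice_meas _).aestronglyMeasurable
    · refine Eventually.of_forall fun n => Eventually.of_forall fun y _ => ?_
      rw [Real.norm_eq_abs]
      rcases S.bin (1 / ((n : ℝ) + 2)) y with h | h <;> rw [h] <;> norm_num
    · exact Eventually.of_forall fun y _ => S.far_line_tendsto hF y
  have hev : ∀ᶠ n : ℕ in atTop, marg F (1 / ((n : ℝ) + 2)) < lineX F + ε :=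
    hlim.eventually (gt_mem_nhds (by linarith))
  obtain ⟨n, hn⟩ := hev.exists
  set t := 1 / ((n : ℝ) + 2) with ht
  have htp : 0 < t := by positivity
  have ht2 : t ≤ 1 / 2 := by
    apply one_div_le_one_div_of_le (by norm_num)
    have : (0 : ℝ) ≤ n := Nat.cast_nonneg n
    linarith
  have hgood : ∀ᵐ x ∂(volume.restrict (Ioo (0 : ℝ) t)),
      Tendsto (fun k => marg (v k) x) atTop (𝓝 (marg F x)) := by
    apply ae_restrict_of_ae
    filter_upwards [S.ae_slice] with x hx using S.marg_conv hx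
  have hmeas : volume (Ioo (0 : ℝ) t) ≠ 0 := by
    rw [Real.volume_Ioo]
    simp [htp]
  obtain ⟨x₂, hx₂, hconv⟩ := Measure.exists_mem_of_measure_ne_zero_of_ae hmeas hgood
  refine ⟨x₂, ⟨hx₂.1, by linarith [hx₂.2]⟩, hconv, ?_⟩
  have hle : marg F x₂ ≤ marg F t := by
    refine intervalIntegral.integral_mono_on zero_le_one (S.slice_integrable _)
      (S.slice_integrable _) fun y _ => ?_
    refine hF x₂ t y ?_
    rw [abs_of_nonpos (by linarith), abs_of_nonpos (by linarith [hx₂.2])]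
    linarith [hx₂.2]
  linarith

/-- The bound for slices with full lines in one direction only. -/
theorem S_bound (S : Seq2 F v vx vy)
    (hv : ∀ k x x' y, |x' - 1 / 2| ≤ |x - 1 / 2| → v k x y ≤ v k x' y)
    (hF : ∀ x x' y, |x' - 1 / 2| ≤ |x - 1 / 2| → F x y ≤ F x' y) {p : ℝ} (hp0 : 0 ≤ p) (hp1 : p ≤ 1)
    (hchi : ∀ᵐ x ∂(volume.restrict (Ioc (0 : ℝ) 1)), 0 < marg F x ∧ marg F x < 1) {Λ : ℝ}
    (hΛ : ∀ k, ∫ x in (0 : ℝ)..1, ∫ y in (0 : ℝ)..1, √(vx k x y ^ 2 + vy k x y ^ 2) ≤ Λ) :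
    2 * (p * (area F - lineX F) + Ehat p) ≤ Λ := by
  refine le_of_forall_pos_le_add fun ε hε => ?_
  -- choose the far line
  have hε' : 0 < ε / (2 * p + 1) := by positivity
  obtain ⟨x₂, hx₂, hconv, hfar⟩ := S.exists_far_line hF hε'
  have hstep : ∀ k, ∫ x in (0 : ℝ)..1, betaW p x * innerCost (vy k) x ≤
      Λ - 2 * p * area (v k) + 2 * p * marg (v k) x₂ := by
    intro k
    have h1 := S.energy_weight hp0 hp1 k
    have h2 := hΛ k
    have h3 : marg (v k) 0 ≤ marg (v k) x₂ := by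
      refine intervalIntegral.integral_mono_on zero_le_one
        ((S.cont_v k 0).intervalIntegrable _ _) ((S.cont_v k x₂).intervalIntegrable _ _)
        fun y _ => hv k 0 x₂ y ?_
      have e0 : |(0 : ℝ) - 1 / 2| = 1 / 2 := by norm_num [abs_of_neg]
      rw [e0]
      exact abs_le.2 ⟨by linarith [hx₂.1], by linarith [hx₂.2]⟩
    have h4 := mul_le_mul_of_nonneg_left h3 (by linarith : 0 ≤ 2 * p)
    linarith
  have hlimΛ : Tendsto (fun k => Λ - 2 * p * area (v k) + 2 * p * marg (v k) x₂) atTop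
      (𝓝 (Λ - 2 * p * area F + 2 * p * marg F x₂)) :=
    (tendsto_const_nhds.sub (S.area_conv.const_mul _)).add (hconv.const_mul _)
  have hYW : ∀ᵐ t ∂(volume.restrict (Ioc (0 : ℝ) 1)),
      ∀ c, (∃ᶠ k in atTop, innerCost (vy k) t ≤ c) → (2 : ℝ) ≤ c := by
    have hae : ∀ᵐ t ∂(volume.restrict (Ioc (0 : ℝ) 1)),
        ∀ᵐ y, Tendsto (fun k => v k t y) atTop (𝓝 (F t y)) := ae_restrict_of_ae S.ae_slice
    filter_upwards [hchi, hae] with t h1 h2 c hc
    have := S.inner_liminf h2 c hc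
    have e : chi (marg F t) = 1 := by simp [chi, h1]
    rwa [e, mul_one] at this
  have hf := fatou_weighted (betaW_cont p) (betaW_nonneg p) (S.innerCost_cont)
    (fun k t => innerCost_nonneg _ _) (Y := 2) (by norm_num) hYW hlimΛ hstep
  have e1 : ∫ t in (0 : ℝ)..1, betaW p t * 2 = 2 * Ehat p := by
    rw [intervalIntegral.integral_mul_const, betaW_integral hp0 hp1]
    ring
  rw [e1] at hf
  have h5 : 2 * p * marg F x₂ ≤ 2 * p * (lineX F + ε / (2 * p + 1)) :=
    mul_le_mul_of_nonneg_left hfar (by linarith)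
  have h6 : 2 * p * (ε / (2 * p + 1)) ≤ ε := by
    rw [← mul_div_assoc, div_le_iff₀ (by positivity)]
    nlinarith
  nlinarith

end Seq2

end Vale.Agent.Lib.P232
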