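import Vale.Agent.Lib.P232.Perm

open MeasureTheory Filter Topology Set
open scoped Real

namespace Vale.Agent.Lib.P232

/-! Ramp and rounded tent used for the Steiner step. -/

/-- The density of the ramp. -/
noncomputable def rampD (t : ℝ) : ℝ := max 0 (6 * t * (1 - t))

lemma rampD_cont : Continuous rampD := by
  unfold rampD
  fun_prop

lemma rampD_nonneg (t : ℝ) : 0 ≤ rampD t := le_max_left _ _

lemma rampD_le (t : ℝ) : rampD t ≤ 3 / 2 := by
  unfold rampD
  refine max_le (by norm_num) ?_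
  nlinarith [sq_nonneg (2 * t - 1)]

lemma rampD_of_nonpos {t : ℝ} (h : t ≤ 0) : rampD t = 0 := by
  unfold rampD
  refine max_eq_left ?_
  nlinarith

lemma rampD_of_one_le {t : ℝ} (h : 1 ≤ t) : rampD t = 0 := by
  unfold rampD
  refine max_eq_left ?_
  nlinarith

/-- The ramp: a `C¹` monotone function, zero on the left of `0`, one on the right of `1`. -/
noncomputable def ramp (t : ℝ) : ℝ := ∫ r in (0 : ℝ)..t, rampD r

lemma ramp_hasDerivAt (t : ℝ) : HasDerivAt ramp (rampD t) t :=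
  intervalIntegral.integral_hasDerivAt_right (rampD_cont.intervalIntegrable _ _)
    rampD_cont.aestronglyMeasurable.stronglyMeasurableAtFilter rampD_cont.continuousAt

lemma ramp_mono : Monotone ramp :=
  monotone_of_deriv_nonneg (fun t => (ramp_hasDerivAt t).differentiableAt)
    fun t => by rw [(ramp_hasDerivAt t).deriv]; exact rampD_nonneg t

lemma ramp_of_nonpos {t : ℝ} (h : t ≤ 0) : ramp t = 0 := by
  unfold ramp
  have : ∫ r in (0 : ℝ)..t, rampD r = ∫ r in (0 : ℝ)..t, (0 : ℝ) := by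
    refine intervalIntegral.integral_congr fun r hr => ?_
    rw [uIcc_of_ge h] at hr
    exact rampD_of_nonpos hr.2
  rw [this]
  simp

lemma ramp_one : ramp 1 = 1 := by
  unfold ramp
  have h1 : ∫ r in (0 : ℝ)..1, rampD r = ∫ r in (0 : ℝ)..1, (6 * r * (1 - r)) := by
    refine intervalIntegral.integral_congr fun r hr => ?_
    rw [uIcc_of_le zero_le_one] at hr
    have h0 : 0 ≤ 6 * r * (1 - r) := by nlinarith [hr.1, hr.2]
    exact max_eq_right h0
  rw [h1]
  have h2 : ∀ r ∈ uIcc (0 : ℝ) 1, HasDerivAt (fun r : ℝ => 3 * r ^ 2 - 2 * r ^ 3)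
      (6 * r * (1 - r)) r := fun r _ => by
    have := ((hasDerivAt_pow 2 r).const_mul 3).sub ((hasDerivAt_pow 3 r).const_mul 2)
    refine HasDerivAt.congr_deriv this ?_
    norm_num
    ring
  rw [intervalIntegral.integral_eq_sub_of_hasDerivAt h2]
  · norm_num
  · exact Continuous.intervalIntegrable (by fun_prop) _ _

lemma ramp_of_one_le {t : ℝ} (h : 1 ≤ t) : ramp t = 1 := by
  have h1 : ramp t = ramp 1 + ∫ r in (1 : ℝ)..t, rampD r := by
    unfold ramp
    rw [intervalIntegral.integral_add_adjacent_intervals (rampD_cont.intervalIntegrable _ _)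
      (rampD_cont.intervalIntegrable _ _)]
  have h2 : ∫ r in (1 : ℝ)..t, rampD r = ∫ r in (1 : ℝ)..t, (0 : ℝ) := by
    refine intervalIntegral.integral_congr fun r hr => ?_
    rw [uIcc_of_le h] at hr
    exact rampD_of_one_le hr.1
  rw [h1, h2, ramp_one]
  simp

lemma ramp_nonneg (t : ℝ) : 0 ≤ ramp t := by
  rcases le_total t 0 with h | h
  · rw [ramp_of_nonpos h]
  · have := ramp_mono h
    rwa [ramp_of_nonpos le_rfl] at this

lemma ramp_le_one (t : ℝ) : ramp t ≤ 1 := by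
  rcases le_total t 1 with h | h
  · have := ramp_mono h
    rwa [ramp_one] at this
  · rw [ramp_of_one_le h]

/-- The ramp of width `d`. -/
noncomputable def rampW (d t : ℝ) : ℝ := ramp (t / d)

/-- The derivative of the ramp of width `d`. -/
noncomputable def rampW' (d t : ℝ) : ℝ := rampD (t / d) / d

lemma rampW_hasDerivAt (d t : ℝ) : HasDerivAt (rampW d) (rampW' d t) t := by
  have h1 : HasDerivAt (fun s : ℝ => s / d) (1 / d) t := (hasDerivAt_id t).div_const d
  have := (ramp_hasDerivAt (t / d)).comp t h1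
  refine HasDerivAt.congr_deriv this ?_
  unfold rampW'
  ring

lemma rampW'_cont (d : ℝ) : Continuous (rampW' d) := by
  unfold rampW'
  have : Continuous fun t : ℝ => t / d := by fun_prop
  exact (rampD_cont.comp this).div_const d

lemma rampW'_nonneg {d : ℝ} (hd : 0 < d) (t : ℝ) : 0 ≤ rampW' d t :=
  div_nonneg (rampD_nonneg _) hd.le

lemma rampW'_le {d : ℝ} (hd : 0 < d) (t : ℝ) : rampW' d t ≤ 3 / 2 / d :=
  div_le_div_of_nonneg_right (rampD_le _) hd.le

lemma rampW'_of_nonpos {d t : ℝ} (hd : 0 < d) (h : t ≤ 0) : rampW' d t = 0 := by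
  unfold rampW'
  rw [rampD_of_nonpos (div_nonpos_of_nonpos_of_nonneg h hd.le)]
  simp

lemma rampW'_of_ge {d t : ℝ} (hd : 0 < d) (h : d ≤ t) : rampW' d t = 0 := by
  unfold rampW'
  rw [rampD_of_one_le ((one_le_div hd).2 h)]
  simp

lemma rampW_nonneg (d t : ℝ) : 0 ≤ rampW d t := ramp_nonneg _
lemma rampW_le_one (d t : ℝ) : rampW d t ≤ 1 := ramp_le_one _

lemma rampW_mono {d : ℝ} (hd : 0 < d) : Monotone (rampW d) := fun _ _ h =>
  ramp_mono (div_le_div_of_nonneg_right h hd.le)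

lemma rampW_of_nonpos {d t : ℝ} (hd : 0 < d) (h : t ≤ 0) : rampW d t = 0 :=
  ramp_of_nonpos (div_nonpos_of_nonpos_of_nonneg h hd.le)

lemma rampW_of_ge {d t : ℝ} (hd : 0 < d) (h : d ≤ t) : rampW d t = 1 :=
  ramp_of_one_le ((one_le_div hd).2 h)

/-- The rounded tent around `1/2`. -/
noncomputable def tent (η z : ℝ) : ℝ := √((z - 1 / 2) ^ 2 + η ^ 2) - η

/-- The derivative of the rounded tent. -/
noncomputable def tent' (η z : ℝ) : ℝ := (z - 1 / 2) / √((z - 1 / 2) ^ 2 + η ^ 2)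

lemma tent_pos_aux {η : ℝ} (hη : 0 < η) (z : ℝ) : 0 < (z - 1 / 2) ^ 2 + η ^ 2 := by positivity

lemma tent_hasDerivAt {η : ℝ} (hη : 0 < η) (z : ℝ) : HasDerivAt (tent η) (tent' η z) z := by
  have h1 : HasDerivAt (fun s : ℝ => (s - 1 / 2) ^ 2 + η ^ 2) (2 * (z - 1 / 2)) z := by
    have := (((hasDerivAt_id z).sub_const (1 / 2)).pow 2).add_const (η ^ 2)
    refine HasDerivAt.congr_deriv this ?_
    simp
  have h2 := (h1.sqrt (tent_pos_aux hη z).ne').sub_const η
  refine HasDerivAt.congr_deriv h2 ?_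
  unfold tent'
  field_simp

lemma tent'_cont {η : ℝ} (hη : 0 < η) : Continuous (tent' η) := by
  unfold tent'
  refine Continuous.div (by fun_prop) (by fun_prop) fun z => ?_
  exact (Real.sqrt_pos.2 (tent_pos_aux hη z)).ne'

lemma tent_cont (η : ℝ) : Continuous (tent η) := by
  unfold tent
  fun_prop

lemma tent'_abs_le {η : ℝ} (hη : 0 < η) (z : ℝ) : |tent' η z| ≤ 1 := by
  unfold tent'
  have hpos := Real.sqrt_pos.2 (tent_pos_aux hη z)
  rw [abs_div, abs_of_pos hpos, div_le_one hpos]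
  apply Real.abs_le_sqrt
  nlinarith [sq_nonneg η]

lemma tent'_sq_le {η : ℝ} (hη : 0 < η) (z : ℝ) : tent' η z ^ 2 ≤ 1 := by
  have := tent'_abs_le hη z
  have h2 := abs_nonneg (tent' η z)
  rw [← sq_abs]
  nlinarith

lemma tent'_nonneg {η z : ℝ} (hz : 1 / 2 ≤ z) : 0 ≤ tent' η z :=
  div_nonneg (by linarith) (Real.sqrt_nonneg _)

lemma tent'_nonpos {η z : ℝ} (hz : z ≤ 1 / 2) : tent' η z ≤ 0 :=
  div_nonpos_of_nonpos_of_nonneg (by linarith) (Real.sqrt_nonneg _)

lemma tent_half {η : ℝ} (hη : 0 < η) : tent η (1 / 2) = 0 := by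
  unfold tent
  have : ((1 : ℝ) / 2 - 1 / 2) ^ 2 + η ^ 2 = η ^ 2 := by ring
  rw [this, Real.sqrt_sq hη.le]
  ring

lemma tent_zero_eq_one (η : ℝ) : tent η 0 = tent η 1 := by
  unfold tent
  norm_num

lemma tent_nonneg (η z : ℝ) : 0 ≤ tent η z := by
  unfold tent
  have : η ≤ √((z - 1 / 2) ^ 2 + η ^ 2) := by
    apply Real.le_sqrt_of_sq_le
    nlinarith [sq_nonneg (z - 1 / 2)]
  linarith

lemma tent_le_abs {η : ℝ} (hη : 0 ≤ η) (z : ℝ) : tent η z ≤ |z - 1 / 2| := by
  unfold tent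
  have : √((z - 1 / 2) ^ 2 + η ^ 2) ≤ |z - 1 / 2| + η := by
    apply Real.sqrt_le_iff.2
    constructor
    · positivity
    · have := abs_nonneg (z - 1 / 2)
      nlinarith [sq_abs (z - 1 / 2)]
  linarith

lemma abs_sub_le_tent (η z : ℝ) : |z - 1 / 2| - η ≤ tent η z := by
  unfold tent
  have : |z - 1 / 2| ≤ √((z - 1 / 2) ^ 2 + η ^ 2) := by
    apply Real.abs_le_sqrt
    nlinarith [sq_nonneg η]
  linarith

lemma tent_mono {η z₁ z₂ : ℝ} (h : |z₂ - 1 / 2| ≤ |z₁ - 1 / 2|) : tent η z₂ ≤ tent η z₁ := by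
  unfold tent
  have : (z₂ - 1 / 2) ^ 2 + η ^ 2 ≤ (z₁ - 1 / 2) ^ 2 + η ^ 2 := by
    have := sq_le_sq' (by linarith [abs_nonneg (z₂ - 1 / 2)] : -|z₁ - 1 / 2| ≤ |z₂ - 1 / 2|) h
    rw [sq_abs, sq_abs] at this
    linarith
  linarith [Real.sqrt_le_sqrt this]

lemma two_tent_le_one {η z : ℝ} (hη : 0 ≤ η) (h0 : 0 ≤ z) (h1 : z ≤ 1) : 2 * tent η z ≤ 1 := by
  have h2 := tent_le_abs hη z
  have h3 : |z - 1 / 2| ≤ 1 / 2 := abs_le.2 ⟨by linarith, by linarith⟩
  linarith

end Vale.Agent.Lib.P232
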