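import Vale.Agent.Lib.P232.SymA

open MeasureTheory Filter Topology Set
open scoped Real

namespace Vale.Agent.Lib.P232

/-! The transported function for the Steiner step in the third variable. -/

/-- The integral in the third variable. -/
noncomputable def ell (u : ℝ → ℝ → ℝ → ℝ) (x y : ℝ) : ℝ := ∫ t in (0 : ℝ)..1, u x y t

lemma ell_cont {u : ℝ → ℝ → ℝ → ℝ} (h : Continuous fun p : ℝ × ℝ × ℝ => u p.1 p.2.1 p.2.2) :
    Continuous fun q : ℝ × ℝ => ell u q.1 q.2 :=
  cont_marg2 h

lemma ell_hasDerivAt_x {u ux uy uz : ℝ → ℝ → ℝ → ℝ} (h : Smooth3 u ux uy uz) (x y : ℝ) :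
    HasDerivAt (fun s => ell u s y) (ell ux x y) x := by
  refine hasDerivAt_param (f := fun s t => u s y t) (f' := fun s t => ux s y t) ?_ ?_ ?_ x
  · have : Continuous fun q : ℝ × ℝ => ((q.1, y, q.2) : ℝ × ℝ × ℝ) := by fun_prop
    exact h.cont.comp this
  · have : Continuous fun q : ℝ × ℝ => ((q.1, y, q.2) : ℝ × ℝ × ℝ) := by fun_prop
    exact h.contx.comp this
  · intro s t
    exact h.dx s y t

lemma ell_hasDerivAt_y {u ux uy uz : ℝ → ℝ → ℝ → ℝ} (h : Smooth3 u ux uy uz) (x y : ℝ) :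
    HasDerivAt (fun s => ell u x s) (ell uy x y) y := by
  refine hasDerivAt_param (f := fun s t => u x s t) (f' := fun s t => uy x s t) ?_ ?_ ?_ y
  · have : Continuous fun q : ℝ × ℝ => ((x, q.1, q.2) : ℝ × ℝ × ℝ) := by fun_prop
    exact h.cont.comp this
  · have : Continuous fun q : ℝ × ℝ => ((x, q.1, q.2) : ℝ × ℝ × ℝ) := by fun_prop
    exact h.conty.comp this
  · intro s t
    exact h.dy x s t

/-- The height function of the transported profile. -/
noncomputable def heightG (d : ℝ) (u : ℝ → ℝ → ℝ → ℝ) (x y : ℝ) : ℝ :=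
  (1 + 4 * d) * ell u x y - 2 * d

/-- The transported function. -/
noncomputable def symW (d η : ℝ) (u : ℝ → ℝ → ℝ → ℝ) (x y z : ℝ) : ℝ :=
  rampW d (heightG d u x y - 2 * tent η z)

/-- The derivatives of the transported function. -/
noncomputable def symWx (d η : ℝ) (u ux : ℝ → ℝ → ℝ → ℝ) (x y z : ℝ) : ℝ :=
  rampW' d (heightG d u x y - 2 * tent η z) * ((1 + 4 * d) * ell ux x y)

noncomputable def symWy (d η : ℝ) (u uy : ℝ → ℝ → ℝ → ℝ) (x y z : ℝ) : ℝ :=
  rampW' d (heightG d u x y - 2 * tent η z) * ((1 + 4 * d) * ell uy x y)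

noncomputable def symWz (d η : ℝ) (u : ℝ → ℝ → ℝ → ℝ) (x y z : ℝ) : ℝ :=
  rampW' d (heightG d u x y - 2 * tent η z) * (-(2 * tent' η z))

lemma heightG_cont {d : ℝ} {u : ℝ → ℝ → ℝ → ℝ}
    (h : Continuous fun p : ℝ × ℝ × ℝ => u p.1 p.2.1 p.2.2) :
    Continuous fun q : ℝ × ℝ => heightG d u q.1 q.2 := by
  unfold heightG
  exact ((ell_cont h).const_mul _).sub continuous_const

lemma arg_cont {d η : ℝ} {u : ℝ → ℝ → ℝ → ℝ}
    (h : Continuous fun p : ℝ × ℝ × ℝ => u p.1 p.2.1 p.2.2) :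
    Continuous fun p : ℝ × ℝ × ℝ => heightG d u p.1 p.2.1 - 2 * tent η p.2.2 := by
  have h1 : Continuous fun p : ℝ × ℝ × ℝ => heightG d u p.1 p.2.1 :=
    (heightG_cont h).comp (by fun_prop : Continuous fun p : ℝ × ℝ × ℝ => (p.1, p.2.1))
  have h2 : Continuous fun p : ℝ × ℝ × ℝ => tent η p.2.2 :=
    (tent_cont η).comp (by fun_prop)
  exact h1.sub (continuous_const.mul h2)

/-- The transported function is `C¹` with periodic boundary values. -/
theorem smooth_symW {u ux uy uz : ℝ → ℝ → ℝ → ℝ} (h : Smooth3 u ux uy uz) {d η : ℝ}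
    (hη : 0 < η) :
    Smooth3 (symW d η u) (symWx d η u ux) (symWy d η u uy) (symWz d η u) := by
  have harg := arg_cont (d := d) (η := η) h.cont
  have hrc := rampW'_cont d
  have hWc : Continuous fun p : ℝ × ℝ × ℝ => rampW' d (heightG d u p.1 p.2.1 - 2 * tent η p.2.2) :=
    hrc.comp harg
  have hr0 : Continuous (rampW d) :=
    continuous_iff_continuousAt.2 fun t => (rampW_hasDerivAt d t).continuousAt
  refine
    { cont := hr0.comp harg
      contx := hWc.mul (continuous_const.mul ((ell_cont h.contx).comp (by fun_prop :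
        Continuous fun p : ℝ × ℝ × ℝ => (p.1, p.2.1))))
      conty := hWc.mul (continuous_const.mul ((ell_cont h.conty).comp (by fun_prop :
        Continuous fun p : ℝ × ℝ × ℝ => (p.1, p.2.1))))
      contz := hWc.mul ((continuous_const.mul ((tent'_cont hη).comp (by fun_prop))).neg)
      dx := fun x y z => ?_
      dy := fun x y z => ?_
      dz := fun x y z => ?_
      perx := fun y z => ?_
      pery := fun x z => ?_
      perz := fun x y => ?_ }
  · have h1 : HasDerivAt (fun s => heightG d u s y - 2 * tent η z) ((1 + 4 * d) * ell ux x y) x :=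
      (((ell_hasDerivAt_x h x y).const_mul (1 + 4 * d)).sub_const (2 * d)).sub_const _
    exact (rampW_hasDerivAt d _).comp x h1
  · have h1 : HasDerivAt (fun s => heightG d u x s - 2 * tent η z) ((1 + 4 * d) * ell uy x y) y :=
      (((ell_hasDerivAt_y h x y).const_mul (1 + 4 * d)).sub_const (2 * d)).sub_const _
    exact (rampW_hasDerivAt d _).comp y h1
  · have h1 : HasDerivAt (fun s => heightG d u x y - 2 * tent η s) (-(2 * tent' η z)) z :=
      ((tent_hasDerivAt hη z).const_mul 2).const_sub _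
    exact (rampW_hasDerivAt d _).comp z h1
  · have : ell u 0 y = ell u 1 y := by
      unfold ell
      exact intervalIntegral.integral_congr fun t _ => h.perx y t
    simp [symW, heightG, this]
  · have : ell u x 0 = ell u x 1 := by
      unfold ell
      exact intervalIntegral.integral_congr fun t _ => h.pery x t
    simp [symW, heightG, this]
  · simp [symW, tent_zero_eq_one]

lemma symW_mem (d η : ℝ) (u : ℝ → ℝ → ℝ → ℝ) (x y z : ℝ) :
    0 ≤ symW d η u x y z ∧ symW d η u x y z ≤ 1 :=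
  ⟨rampW_nonneg _ _, rampW_le_one _ _⟩

/-- The integrated density of the transported ramp. -/
noncomputable def qInt (d η G : ℝ) : ℝ := ∫ z in (0 : ℝ)..1, rampW' d (G - 2 * tent η z)

lemma qInt_nonneg {d η G : ℝ} (hd : 0 < d) : 0 ≤ qInt d η G :=
  intervalIntegral.integral_nonneg zero_le_one fun _ _ => rampW'_nonneg hd _

lemma qInt_zero_left {d η G : ℝ} (hd : 0 < d) (hG : G ≤ 0) : qInt d η G = 0 := by
  unfold qInt
  have : ∫ z in (0 : ℝ)..1, rampW' d (G - 2 * tent η z) = ∫ z in (0 : ℝ)..1, (0 : ℝ) := by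
    refine intervalIntegral.integral_congr fun z _ => ?_
    exact rampW'_of_nonpos hd (by linarith [tent_nonneg η z])
  rw [this]
  simp

lemma qInt_zero_right {d η G : ℝ} (hd : 0 < d) (hη : 0 < η) (hG : 1 + d ≤ G) :
    qInt d η G = 0 := by
  unfold qInt
  have : ∫ z in (0 : ℝ)..1, rampW' d (G - 2 * tent η z) = ∫ z in (0 : ℝ)..1, (0 : ℝ) := by
    refine intervalIntegral.integral_congr fun z hz => ?_
    rw [uIcc_of_le zero_le_one] at hz
    exact rampW'_of_ge hd (by linarith [two_tent_le_one hη.le hz.1 hz.2])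
  rw [this]
  simp

lemma qInt_half_right {d η G : ℝ} (hη : 0 < η) :
    ∫ z in (1 / 2 : ℝ)..1, rampW' d (G - 2 * tent η z) * tent' η z ≤ 1 / 2 := by
  have h1 : ∀ z ∈ uIcc (1 / 2 : ℝ) 1,
      HasDerivAt (fun s => -(1 / 2) * rampW d (G - 2 * tent η s))
        (rampW' d (G - 2 * tent η z) * tent' η z) z := fun z _ => by
    have h2 : HasDerivAt (fun s => G - 2 * tent η s) (-(2 * tent' η z)) z :=
      ((tent_hasDerivAt hη z).const_mul 2).const_sub _
    have h3 := ((rampW_hasDerivAt d _).comp z h2).const_mul (-(1 / 2 : ℝ))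
    refine HasDerivAt.congr_deriv h3 ?_
    ring
  have hc : Continuous fun z => rampW' d (G - 2 * tent η z) * tent' η z :=
    ((rampW'_cont d).comp (continuous_const.sub (continuous_const.mul (tent_cont η)))).mul
      (tent'_cont hη)
  rw [intervalIntegral.integral_eq_sub_of_hasDerivAt h1 (hc.intervalIntegrable _ _)]
  have h4 := rampW_nonneg d (G - 2 * tent η (1 / 2))
  have h5 := rampW_nonneg d (G - 2 * tent η 1)
  have h6 := rampW_le_one d (G - 2 * tent η (1 / 2))
  have h7 := rampW_le_one d (G - 2 * tent η 1)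
  linarith

lemma qInt_half_left {d η G : ℝ} (hη : 0 < η) :
    ∫ z in (0 : ℝ)..(1 / 2), rampW' d (G - 2 * tent η z) * (-tent' η z) ≤ 1 / 2 := by
  have h1 : ∀ z ∈ uIcc (0 : ℝ) (1 / 2),
      HasDerivAt (fun s => (1 / 2) * rampW d (G - 2 * tent η s))
        (rampW' d (G - 2 * tent η z) * (-tent' η z)) z := fun z _ => by
    have h2 : HasDerivAt (fun s => G - 2 * tent η s) (-(2 * tent' η z)) z :=
      ((tent_hasDerivAt hη z).const_mul 2).const_sub _
    have h3 := ((rampW_hasDerivAt d _).comp z h2).const_mul (1 / 2 : ℝ)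
    refine HasDerivAt.congr_deriv h3 ?_
    ring
  have hc : Continuous fun z => rampW' d (G - 2 * tent η z) * (-tent' η z) :=
    ((rampW'_cont d).comp (continuous_const.sub (continuous_const.mul (tent_cont η)))).mul
      (tent'_cont hη).neg
  rw [intervalIntegral.integral_eq_sub_of_hasDerivAt h1 (hc.intervalIntegrable _ _)]
  have h4 := rampW_nonneg d (G - 2 * tent η (1 / 2))
  have h5 := rampW_nonneg d (G - 2 * tent η 0)
  have h6 := rampW_le_one d (G - 2 * tent η (1 / 2))
  have h7 := rampW_le_one d (G - 2 * tent η 0)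
  linarith

/-- The integral of the defect of the rounded tent. -/
lemma tent_defect {η : ℝ} (hη : 0 < η) :
    (∫ z in (0 : ℝ)..(1 / 2), (1 + tent' η z)) + ∫ z in (1 / 2 : ℝ)..1, (1 - tent' η z) ≤ 2 * η := by
  have hc := tent'_cont hη
  have h1 : ∫ z in (0 : ℝ)..(1 / 2), tent' η z = tent η (1 / 2) - tent η 0 :=
    intervalIntegral.integral_eq_sub_of_hasDerivAt (fun z _ => tent_hasDerivAt hη z)
      (hc.intervalIntegrable _ _)
  have h2 : ∫ z in (1 / 2 : ℝ)..1, tent' η z = tent η 1 - tent η (1 / 2) :=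
    intervalIntegral.integral_eq_sub_of_hasDerivAt (fun z _ => tent_hasDerivAt hη z)
      (hc.intervalIntegrable _ _)
  rw [intervalIntegral.integral_add intervalIntegrable_const (hc.intervalIntegrable _ _),
    intervalIntegral.integral_sub intervalIntegrable_const (hc.intervalIntegrable _ _), h1, h2]
  simp only [intervalIntegral.integral_const, smul_eq_mul, mul_one, tent_half hη, tent_zero_eq_one]
  have h3 := abs_sub_le_tent η 1
  have h4 : |(1 : ℝ) - 1 / 2| = 1 / 2 := by norm_num [abs_of_pos]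
  rw [h4] at h3
  linarith

/-- The integrated density is at most `1 + 3 η / d`. -/
theorem qInt_le {d η : ℝ} (hd : 0 < d) (hη : 0 < η) (G : ℝ) : qInt d η G ≤ 1 + 3 * η / d := by
  set f : ℝ → ℝ := fun z => rampW' d (G - 2 * tent η z) with hf
  have hfc : Continuous f :=
    (rampW'_cont d).comp (continuous_const.sub (continuous_const.mul (tent_cont η)))
  have hc := tent'_cont hη
  have e0 : qInt d η G = (∫ z in (0 : ℝ)..(1 / 2), f z) + ∫ z in (1 / 2 : ℝ)..1, f z := by
    unfold qInt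
    rw [intervalIntegral.integral_add_adjacent_intervals (hfc.intervalIntegrable _ _)
      (hfc.intervalIntegrable _ _)]
  have hb := rampW'_le hd
  have hB0 : 0 ≤ 3 / 2 / d := by positivity
  have e1 : ∫ z in (0 : ℝ)..(1 / 2), f z ≤
      (∫ z in (0 : ℝ)..(1 / 2), f z * (-tent' η z)) +
        (3 / 2 / d) * ∫ z in (0 : ℝ)..(1 / 2), (1 + tent' η z) := by
    have hi1 : IntervalIntegrable (fun z => f z * (-tent' η z)) volume 0 (1 / 2) :=
      (hfc.mul hc.neg).intervalIntegrable _ _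
    have hi2 : IntervalIntegrable (fun z => (3 / 2 / d) * (1 + tent' η z)) volume 0 (1 / 2) :=
      (continuous_const.mul (continuous_const.add hc)).intervalIntegrable _ _
    rw [← intervalIntegral.integral_const_mul, ← intervalIntegral.integral_add hi1 hi2]
    refine intervalIntegral.integral_mono_on (by norm_num) (hfc.intervalIntegrable _ _)
      (hi1.add hi2) fun z hz => ?_
    have h1 : 0 ≤ 1 + tent' η z := by
      have := tent'_abs_le hη z
      linarith [(abs_le.1 this).1]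
    have h2 := hb (G - 2 * tent η z)
    have h3 : f z * (1 + tent' η z) ≤ (3 / 2 / d) * (1 + tent' η z) :=
      mul_le_mul_of_nonneg_right h2 h1
    nlinarith
  have e2 : ∫ z in (1 / 2 : ℝ)..1, f z ≤
      (∫ z in (1 / 2 : ℝ)..1, f z * tent' η z) +
        (3 / 2 / d) * ∫ z in (1 / 2 : ℝ)..1, (1 - tent' η z) := by
    have hi1 : IntervalIntegrable (fun z => f z * tent' η z) volume (1 / 2) 1 :=
      (hfc.mul hc).intervalIntegrable _ _
    have hi2 : IntervalIntegrable (fun z => (3 / 2 / d) * (1 - tent' η z)) volume (1 / 2) 1 :=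
      (continuous_const.mul (continuous_const.sub hc)).intervalIntegrable _ _
    rw [← intervalIntegral.integral_const_mul, ← intervalIntegral.integral_add hi1 hi2]
    refine intervalIntegral.integral_mono_on (by norm_num) (hfc.intervalIntegrable _ _)
      (hi1.add hi2) fun z hz => ?_
    have h1 : 0 ≤ 1 - tent' η z := by
      have := tent'_abs_le hη z
      linarith [(abs_le.1 this).2]
    have h2 := hb (G - 2 * tent η z)
    have h3 : f z * (1 - tent' η z) ≤ (3 / 2 / d) * (1 - tent' η z) :=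
      mul_le_mul_of_nonneg_right h2 h1
    nlinarith
  have e3 := qInt_half_left (d := d) (G := G) hη
  have e4 := qInt_half_right (d := d) (G := G) hη
  have e5 := tent_defect hη
  have e6 : (3 / 2 / d) * ((∫ z in (0 : ℝ)..(1 / 2), (1 + tent' η z)) +
      ∫ z in (1 / 2 : ℝ)..1, (1 - tent' η z)) ≤ (3 / 2 / d) * (2 * η) :=
    mul_le_mul_of_nonneg_left e5 hB0
  have e7 : (3 / 2 / d) * (2 * η) = 3 * η / d := by ring
  rw [e0]
  simp only [hf] at e1 e2 ⊢
  linarith

/-- A real inequality used for the energy comparison. -/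
lemma theta_ineq {θ V A : ℝ} (h0 : 0 ≤ θ) (h1 : θ ≤ 1) (hV : 0 ≤ V) (hA : 0 ≤ A) :
    θ * √(A + 4) ≤ √(A + V ^ 2) + max 0 (2 * θ - V) := by
  have hs : 0 ≤ √(A + V ^ 2) := Real.sqrt_nonneg _
  have hVs : V ≤ √(A + V ^ 2) := by
    apply Real.le_sqrt_of_sq_le
    linarith
  have hstep : θ * √(A + 4) ≤ √(A + 4 * θ ^ 2) := by
    apply Real.le_sqrt_of_sq_le
    rw [mul_pow, Real.sq_sqrt (by linarith)]
    nlinarith [mul_nonneg hA (by nlinarith : 0 ≤ 1 - θ ^ 2)]
  refine hstep.trans ?_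
  by_cases hc : 2 * θ ≤ V
  · have : √(A + 4 * θ ^ 2) ≤ √(A + V ^ 2) := by
      apply Real.sqrt_le_sqrt
      nlinarith
    have h3 := le_max_left 0 (2 * θ - V)
    linarith
  · push Not at hc
    rw [max_eq_right (by linarith)]
    apply Real.sqrt_le_iff.2
    constructor
    · linarith
    · have hsq := Real.sq_sqrt (by positivity : 0 ≤ A + V ^ 2)
      nlinarith [mul_nonneg (by linarith : 0 ≤ 2 * θ - V) (sub_nonneg.2 hVs)]

/-- Lower bound of the energy on a line, by Cauchy-Schwarz. -/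
lemma line_lower {f1 f2 f3 : ℝ → ℝ} (c1 : Continuous f1) (c2 : Continuous f2) (c3 : Continuous f3) :
    √((∫ t in (0 : ℝ)..1, f1 t) ^ 2 + (∫ t in (0 : ℝ)..1, f2 t) ^ 2 +
        (∫ t in (0 : ℝ)..1, |f3 t|) ^ 2) ≤
      ∫ t in (0 : ℝ)..1, √(f1 t ^ 2 + f2 t ^ 2 + f3 t ^ 2) := by
  set a := ∫ t in (0 : ℝ)..1, f1 t with ha
  set b := ∫ t in (0 : ℝ)..1, f2 t with hb
  set c := ∫ t in (0 : ℝ)..1, |f3 t| with hc
  set N := √(a ^ 2 + b ^ 2 + c ^ 2) with hN
  have hN0 : 0 ≤ N := Real.sqrt_nonneg _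
  have hNsq : N ^ 2 = a ^ 2 + b ^ 2 + c ^ 2 := Real.sq_sqrt (by positivity)
  have hcont : Continuous fun t => √(f1 t ^ 2 + f2 t ^ 2 + f3 t ^ 2) := by fun_prop
  have key : ∀ t, (a * f1 t + b * f2 t + c * |f3 t|) ≤ N * √(f1 t ^ 2 + f2 t ^ 2 + f3 t ^ 2) := by
    intro t
    have h4 : (a * f1 t + b * f2 t + c * |f3 t|) ^ 2 ≤
        (a ^ 2 + b ^ 2 + c ^ 2) * (f1 t ^ 2 + f2 t ^ 2 + f3 t ^ 2) := by
      have := sq_abs (f3 t)
      nlinarith [sq_nonneg (a * f2 t - b * f1 t), sq_nonneg (a * |f3 t| - c * f1 t),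
        sq_nonneg (b * |f3 t| - c * f2 t)]
    rw [← hNsq] at h4
    have h5 : (N * √(f1 t ^ 2 + f2 t ^ 2 + f3 t ^ 2)) ^ 2 =
        N ^ 2 * (f1 t ^ 2 + f2 t ^ 2 + f3 t ^ 2) := by
      rw [mul_pow, Real.sq_sqrt (show 0 ≤ f1 t ^ 2 + f2 t ^ 2 + f3 t ^ 2 by positivity)]
    rw [← h5] at h4
    exact le_of_abs_le (abs_le_of_sq_le_sq h4 (mul_nonneg hN0 (Real.sqrt_nonneg _)))
  have h6 : a * a + b * b + c * c ≤ N * ∫ t in (0 : ℝ)..1, √(f1 t ^ 2 + f2 t ^ 2 + f3 t ^ 2) := by
    have ci1 := (c1.const_mul a).intervalIntegrable (μ := volume) 0 1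
    have ci2 := (c2.const_mul b).intervalIntegrable (μ := volume) 0 1
    have ci3 := (c3.abs.const_mul c).intervalIntegrable (μ := volume) 0 1
    have e1 : ∫ t in (0 : ℝ)..1, (a * f1 t + b * f2 t + c * |f3 t|) = a * a + b * b + c * c := by
      rw [intervalIntegral.integral_add (ci1.add ci2) ci3,
        intervalIntegral.integral_add ci1 ci2, intervalIntegral.integral_const_mul,
        intervalIntegral.integral_const_mul, intervalIntegral.integral_const_mul]
    rw [← e1, ← intervalIntegral.integral_const_mul]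
    exact intervalIntegral.integral_mono_on zero_le_one ((ci1.add ci2).add ci3)
      ((hcont.const_mul N).intervalIntegrable _ _) fun t _ => key t
  by_cases hN1 : N = 0
  · rw [hN1]
    exact intervalIntegral.integral_nonneg zero_le_one fun _ _ => Real.sqrt_nonneg _
  · have hNpos : 0 < N := lt_of_le_of_ne hN0 (Ne.symm hN1)
    have h7 : N * N ≤ N * ∫ t in (0 : ℝ)..1, √(f1 t ^ 2 + f2 t ^ 2 + f3 t ^ 2) := by
      nlinarith
    exact le_of_mul_le_mul_left h7 hNpos

end Vale.Agent.Lib.P232
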