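import Vale.Agent.Lib.P232.SymB

open MeasureTheory Filter Topology Set
open scoped Real

namespace Vale.Agent.Lib.P232

/-- The cost of a line in the third direction. -/
noncomputable def vCost (uz : ℝ → ℝ → ℝ → ℝ) (x y : ℝ) : ℝ := ∫ t in (0 : ℝ)..1, |uz x y t|

/-- The normalized integrated density. -/
noncomputable def theta (d η : ℝ) (u : ℝ → ℝ → ℝ → ℝ) (x y : ℝ) : ℝ :=
  qInt d η (heightG d u x y) / (1 + 3 * η / d)

/-- The local error of the energy comparison. -/
noncomputable def errF (d η : ℝ) (u uz : ℝ → ℝ → ℝ → ℝ) (x y : ℝ) : ℝ :=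
  max 0 (2 * theta d η u x y - vCost uz x y)

/-- The total error of the energy comparison. -/
noncomputable def errT (d η : ℝ) (u uz : ℝ → ℝ → ℝ → ℝ) : ℝ :=
  ∫ x in (0 : ℝ)..1, ∫ y in (0 : ℝ)..1, errF d η u uz x y

lemma qInt_cont {d η : ℝ} {P : Type*} [TopologicalSpace P] [FirstCountableTopology P]
    {G : P → ℝ} (hG : Continuous G) : Continuous fun p => qInt d η (G p) := by
  unfold qInt
  refine marg_continuous (f := fun p z => rampW' d (G p - 2 * tent η z)) ?_
  refine (rampW'_cont d).comp ?_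
  exact (hG.comp continuous_fst).sub (continuous_const.mul ((tent_cont η).comp continuous_snd))

lemma kappa_pos {d η : ℝ} (hd : 0 < d) (hη : 0 < η) : 0 < 1 + 3 * η / d := by positivity

lemma theta_cont {d η : ℝ} {u : ℝ → ℝ → ℝ → ℝ}
    (h : Continuous fun p : ℝ × ℝ × ℝ => u p.1 p.2.1 p.2.2) :
    Continuous fun q : ℝ × ℝ => theta d η u q.1 q.2 := by
  unfold theta
  exact (qInt_cont (heightG_cont h)).div_const _

lemma vCost_cont {uz : ℝ → ℝ → ℝ → ℝ}
    (h : Continuous fun p : ℝ × ℝ × ℝ => uz p.1 p.2.1 p.2.2) :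
    Continuous fun q : ℝ × ℝ => vCost uz q.1 q.2 :=
  cont_marg2 (f := fun x y z => |uz x y z|) h.abs

lemma errF_cont {d η : ℝ} {u uz : ℝ → ℝ → ℝ → ℝ}
    (h : Continuous fun p : ℝ × ℝ × ℝ => u p.1 p.2.1 p.2.2)
    (hz : Continuous fun p : ℝ × ℝ × ℝ => uz p.1 p.2.1 p.2.2) :
    Continuous fun q : ℝ × ℝ => errF d η u uz q.1 q.2 := by
  unfold errF
  exact continuous_const.max ((continuous_const.mul (theta_cont h)).sub (vCost_cont hz))

lemma theta_nonneg {d η : ℝ} (hd : 0 < d) (hη : 0 < η) (u : ℝ → ℝ → ℝ → ℝ) (x y : ℝ) :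
    0 ≤ theta d η u x y :=
  div_nonneg (qInt_nonneg hd) (kappa_pos hd hη).le

lemma theta_le_one {d η : ℝ} (hd : 0 < d) (hη : 0 < η) (u : ℝ → ℝ → ℝ → ℝ) (x y : ℝ) :
    theta d η u x y ≤ 1 :=
  (div_le_one (kappa_pos hd hη)).2 (qInt_le hd hη _)

lemma vCost_nonneg (uz : ℝ → ℝ → ℝ → ℝ) (x y : ℝ) : 0 ≤ vCost uz x y :=
  intervalIntegral.integral_nonneg zero_le_one fun _ _ => abs_nonneg _

lemma errF_nonneg (d η : ℝ) (u uz : ℝ → ℝ → ℝ → ℝ) (x y : ℝ) : 0 ≤ errF d η u uz x y :=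
  le_max_left _ _

lemma errF_le_two {d η : ℝ} (hd : 0 < d) (hη : 0 < η) (u uz : ℝ → ℝ → ℝ → ℝ) (x y : ℝ) :
    errF d η u uz x y ≤ 2 := by
  unfold errF
  refine max_le (by norm_num) ?_
  have := theta_le_one hd hη u x y
  have := vCost_nonneg uz x y
  linarith

/-- The inner inequality for the energy. -/
theorem inner_energy {u ux uy uz : ℝ → ℝ → ℝ → ℝ} (h : Smooth3 u ux uy uz) {d η : ℝ}
    (hd : 0 < d) (hη : 0 < η) (x y : ℝ) :
    ∫ z in (0 : ℝ)..1, √(symWx d η u ux x y z ^ 2 + symWy d η u uy x y z ^ 2 +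
        symWz d η u x y z ^ 2) ≤
      (1 + 3 * η / d) * (1 + 4 * d) *
        ((∫ z in (0 : ℝ)..1, √(ux x y z ^ 2 + uy x y z ^ 2 + uz x y z ^ 2)) + errF d η u uz x y) := by
  set G := heightG d u x y with hG
  set a := ell ux x y with ha
  set b := ell uy x y with hb
  set c := 1 + 4 * d with hc
  have hc1 : 1 ≤ c := by rw [hc]; linarith
  set D : ℝ → ℝ := fun z => rampW' d (G - 2 * tent η z) with hD
  have hDc : Continuous D :=
    (rampW'_cont d).comp (continuous_const.sub (continuous_const.mul (tent_cont η)))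
  have hD0 : ∀ z, 0 ≤ D z := fun z => rampW'_nonneg hd _
  set A := a ^ 2 + b ^ 2 with hA
  have hA0 : 0 ≤ A := by positivity
  have hpt : ∀ z, √(symWx d η u ux x y z ^ 2 + symWy d η u uy x y z ^ 2 +
      symWz d η u x y z ^ 2) ≤ D z * (c * √(A + 4)) := by
    intro z
    have e : symWx d η u ux x y z ^ 2 + symWy d η u uy x y z ^ 2 + symWz d η u x y z ^ 2 =
        D z ^ 2 * (c ^ 2 * A + 4 * tent' η z ^ 2) := by
      simp only [symWx, symWy, symWz, hD]
      rw [hA]
      ring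
    rw [e]
    apply Real.sqrt_le_iff.2
    constructor
    · exact mul_nonneg (hD0 z) (mul_nonneg (by linarith) (Real.sqrt_nonneg _))
    · have h1 : (D z * (c * √(A + 4))) ^ 2 = D z ^ 2 * (c ^ 2 * (A + 4)) := by
        rw [mul_pow, mul_pow, Real.sq_sqrt (by linarith)]
      rw [h1]
      refine mul_le_mul_of_nonneg_left ?_ (sq_nonneg _)
      have h2 := tent'_sq_le hη z
      have h3 : 1 ≤ c ^ 2 := by nlinarith
      nlinarith
  have hc2 : Continuous fun z => D z * (c * √(A + 4)) := hDc.mul continuous_const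
  have hWx := (smooth_symW h (d := d) hη).contx
  have hWy := (smooth_symW h (d := d) hη).conty
  have hWz := (smooth_symW h (d := d) hη).contz
  have hzz : Continuous fun z : ℝ => ((x, y, z) : ℝ × ℝ × ℝ) := by fun_prop
  have hc1' : Continuous fun z => √(symWx d η u ux x y z ^ 2 + symWy d η u uy x y z ^ 2 +
      symWz d η u x y z ^ 2) :=
    (((hWx.comp hzz).pow 2).add ((hWy.comp hzz).pow 2) |>.add ((hWz.comp hzz).pow 2)).sqrt
  have e1 : ∫ z in (0 : ℝ)..1, √(symWx d η u ux x y z ^ 2 + symWy d η u uy x y z ^ 2 +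
      symWz d η u x y z ^ 2) ≤ qInt d η G * (c * √(A + 4)) := by
    have : qInt d η G * (c * √(A + 4)) = ∫ z in (0 : ℝ)..1, D z * (c * √(A + 4)) := by
      rw [intervalIntegral.integral_mul_const]
      rfl
    rw [this]
    exact intervalIntegral.integral_mono_on zero_le_one (hc1'.intervalIntegrable _ _)
      (hc2.intervalIntegrable _ _) fun z _ => hpt z
  set κ := 1 + 3 * η / d with hκ
  have hκ0 : 0 < κ := kappa_pos hd hη
  have e2 : qInt d η G = κ * theta d η u x y := by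
    unfold theta
    rw [← hG, ← hκ]
    field_simp
  have e3 := theta_ineq (θ := theta d η u x y) (V := vCost uz x y) (A := A)
    (theta_nonneg hd hη u x y) (theta_le_one hd hη u x y) (vCost_nonneg uz x y) hA0
  have e4 : √(A + vCost uz x y ^ 2) ≤
      ∫ z in (0 : ℝ)..1, √(ux x y z ^ 2 + uy x y z ^ 2 + uz x y z ^ 2) := by
    exact line_lower (h.contx.comp hzz) (h.conty.comp hzz) (h.contz.comp hzz)
  have e5 : theta d η u x y * √(A + 4) ≤
      (∫ z in (0 : ℝ)..1, √(ux x y z ^ 2 + uy x y z ^ 2 + uz x y z ^ 2)) + errF d η u uz x y := by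
    unfold errF
    linarith
  calc _ ≤ qInt d η G * (c * √(A + 4)) := e1
    _ = κ * c * (theta d η u x y * √(A + 4)) := by rw [e2]; ring
    _ ≤ _ := mul_le_mul_of_nonneg_left e5 (mul_nonneg hκ0.le (by linarith))

/-- Energy comparison for the transported function. -/
theorem energy_symW {u ux uy uz : ℝ → ℝ → ℝ → ℝ} (h : Smooth3 u ux uy uz) {d η : ℝ}
    (hd : 0 < d) (hη : 0 < η) :
    energy3 (symWx d η u ux) (symWy d η u uy) (symWz d η u) ≤
      (1 + 3 * η / d) * (1 + 4 * d) * (energy3 ux uy uz + errT d η u uz) := by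
  set κ := (1 + 3 * η / d) * (1 + 4 * d) with hκ
  have hsm := smooth_symW h (d := d) hη
  have hcqW : Continuous fun p : ℝ × ℝ × ℝ =>
      √(symWx d η u ux p.1 p.2.1 p.2.2 ^ 2 + symWy d η u uy p.1 p.2.1 p.2.2 ^ 2 +
        symWz d η u p.1 p.2.1 p.2.2 ^ 2) :=
    (((hsm.contx.pow 2).add (hsm.conty.pow 2)).add (hsm.contz.pow 2)).sqrt
  have hcqU : Continuous fun p : ℝ × ℝ × ℝ =>
      √(ux p.1 p.2.1 p.2.2 ^ 2 + uy p.1 p.2.1 p.2.2 ^ 2 + uz p.1 p.2.1 p.2.2 ^ 2) :=
    (((h.contx.pow 2).add (h.conty.pow 2)).add (h.contz.pow 2)).sqrt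
  have hW2 := cont_marg2 (f := fun x y z => √(symWx d η u ux x y z ^ 2 +
    symWy d η u uy x y z ^ 2 + symWz d η u x y z ^ 2)) hcqW
  have hU2 := cont_marg2 (f := fun x y z => √(ux x y z ^ 2 + uy x y z ^ 2 + uz x y z ^ 2)) hcqU
  have hE2 := errF_cont (d := d) (η := η) h.cont h.contz
  have hW1 : Continuous fun x => ∫ y in (0 : ℝ)..1, ∫ z in (0 : ℝ)..1,
      √(symWx d η u ux x y z ^ 2 + symWy d η u uy x y z ^ 2 + symWz d η u x y z ^ 2) :=
    marg_continuous (f := fun x y => marg (fun y z => √(symWx d η u ux x y z ^ 2 +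
      symWy d η u uy x y z ^ 2 + symWz d η u x y z ^ 2)) y) hW2
  have hU1 : Continuous fun x => ∫ y in (0 : ℝ)..1, ∫ z in (0 : ℝ)..1,
      √(ux x y z ^ 2 + uy x y z ^ 2 + uz x y z ^ 2) :=
    marg_continuous (f := fun x y => marg (fun y z => √(ux x y z ^ 2 + uy x y z ^ 2 +
      uz x y z ^ 2)) y) hU2
  have hE1 : Continuous fun x => ∫ y in (0 : ℝ)..1, errF d η u uz x y :=
    marg_continuous (f := fun x y => errF d η u uz x y) hE2
  unfold energy3 errT
  have e1 : κ * ((∫ x in (0 : ℝ)..1, ∫ y in (0 : ℝ)..1, ∫ z in (0 : ℝ)..1,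
        √(ux x y z ^ 2 + uy x y z ^ 2 + uz x y z ^ 2)) +
        ∫ x in (0 : ℝ)..1, ∫ y in (0 : ℝ)..1, errF d η u uz x y) =
      ∫ x in (0 : ℝ)..1, κ * ((∫ y in (0 : ℝ)..1, ∫ z in (0 : ℝ)..1,
        √(ux x y z ^ 2 + uy x y z ^ 2 + uz x y z ^ 2)) +
        ∫ y in (0 : ℝ)..1, errF d η u uz x y) := by
    rw [intervalIntegral.integral_const_mul,
      intervalIntegral.integral_add (hU1.intervalIntegrable _ _) (hE1.intervalIntegrable _ _)]
  rw [e1]
  refine intervalIntegral.integral_mono_on zero_le_one (hW1.intervalIntegrable _ _)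
    ((continuous_const.mul (hU1.add hE1)).intervalIntegrable _ _) fun x _ => ?_
  have hsl : ∀ (f : ℝ × ℝ → ℝ), Continuous f → Continuous fun y => f (x, y) := fun f hf =>
    hf.comp (by fun_prop)
  have i1 : Continuous fun y => ∫ z in (0 : ℝ)..1, √(symWx d η u ux x y z ^ 2 +
      symWy d η u uy x y z ^ 2 + symWz d η u x y z ^ 2) := hsl _ hW2
  have i2 : Continuous fun y => ∫ z in (0 : ℝ)..1,
      √(ux x y z ^ 2 + uy x y z ^ 2 + uz x y z ^ 2) := hsl _ hU2
  have i3 : Continuous fun y => errF d η u uz x y := hsl _ hE2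
  have e2 : κ * ((∫ y in (0 : ℝ)..1, ∫ z in (0 : ℝ)..1,
        √(ux x y z ^ 2 + uy x y z ^ 2 + uz x y z ^ 2)) +
        ∫ y in (0 : ℝ)..1, errF d η u uz x y) =
      ∫ y in (0 : ℝ)..1, κ * ((∫ z in (0 : ℝ)..1,
        √(ux x y z ^ 2 + uy x y z ^ 2 + uz x y z ^ 2)) + errF d η u uz x y) := by
    rw [intervalIntegral.integral_const_mul,
      intervalIntegral.integral_add (i2.intervalIntegrable _ _) (i3.intervalIntegrable _ _)]
  rw [e2]
  refine intervalIntegral.integral_mono_on zero_le_one (i1.intervalIntegrable _ _)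
    ((continuous_const.mul (i2.add i3)).intervalIntegrable _ _) fun y _ => ?_
  exact inner_energy h hd hη x y

end Vale.Agent.Lib.P232
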