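import Vale.Agent.Lib.P232.SymC

open MeasureTheory Filter Topology Set
open scoped Real

namespace Vale.Agent.Lib.P232

lemma cont_section {f : ℝ → ℝ → ℝ} (h : Continuous fun q : ℝ × ℝ => f q.1 q.2) (x : ℝ) :
    Continuous (f x) := by
  have : Continuous fun y : ℝ => ((x, y) : ℝ × ℝ) := by fun_prop
  exact h.comp this

namespace Seq3

variable {F : ℝ → ℝ → ℝ → ℝ} {u ux uy uz : ℕ → ℝ → ℝ → ℝ → ℝ}

/-- Pointwise vanishing of the error. -/
lemma errF_tendsto_pt (S : Seq3 F u ux uy uz) {d η : ℝ} (hd : 0 < d) (hη : 0 < η) {x y : ℝ}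
    (hS : Seq2 (F x) (fun k => u k x) (fun k => uy k x) (fun k => uz k x))
    (hy : ∀ᵐ z, Tendsto (fun k => u k x y z) atTop (𝓝 (F x y z))) :
    Tendsto (fun k => errF d η (u k) (uz k) x y) atTop (𝓝 0) := by
  have hL : Tendsto (fun k => ell (u k) x y) atTop (𝓝 (marg (F x) y)) := hS.marg_conv hy
  have hG : Tendsto (fun k => heightG d (u k) x y) atTop
      (𝓝 ((1 + 4 * d) * marg (F x) y - 2 * d)) := by
    unfold heightG
    exact (hL.const_mul _).sub_const _
  have hzero : ∀ k, qInt d η (heightG d (u k) x y) = 0 → errF d η (u k) (uz k) x y = 0 := by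
    intro k hk
    unfold errF theta
    rw [hk]
    have := vCost_nonneg (uz k) x y
    simp only [zero_div, mul_zero]
    exact max_eq_left (by linarith)
  have h0 := hS.marg_nonneg y
  have h1 := hS.marg_le_one y
  rcases h0.eq_or_lt with hc | hc
  · -- empty line
    rw [← hc] at hG
    have hev : ∀ᶠ k in atTop, heightG d (u k) x y < 0 :=
      hG.eventually (gt_mem_nhds (by linarith))
    refine tendsto_const_nhds.congr' ?_
    filter_upwards [hev] with k hk
    exact (hzero k (qInt_zero_left hd hk.le)).symm
  rcases h1.eq_or_lt with hc' | hc'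
  · -- full line
    rw [hc'] at hG
    have hev : ∀ᶠ k in atTop, 1 + d < heightG d (u k) x y :=
      hG.eventually (lt_mem_nhds (by linarith))
    refine tendsto_const_nhds.congr' ?_
    filter_upwards [hev] with k hk
    exact (hzero k (qInt_zero_right hd hη hk.le)).symm
  · -- nontrivial line
    rw [Metric.tendsto_atTop']
    intro ε hε
    have hfreq : ¬ ∃ᶠ k in atTop, vCost (uz k) x y ≤ 2 - ε / 2 := by
      intro hf
      have hzz : ∀ k, Continuous fun t => uz k x y t := fun k => by
        have : Continuous fun t : ℝ => ((x, y, t) : ℝ × ℝ × ℝ) := by fun_prop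
        exact (S.smooth k).contz.comp this
      have := line_cost (v := fun k => u k x y) (v' := fun k => uz k x y) (f := F x y)
        (fun k t => (S.smooth k).dz x y t) hzz (fun k => (S.smooth k).perz x y)
        (S.bin x y) hy hc hc' hf
      linarith
    rw [not_frequently] at hfreq
    obtain ⟨N, hN⟩ := eventually_atTop.1 hfreq
    refine ⟨N, fun k hk => ?_⟩
    have h2 := hN k hk.le
    push Not at h2
    rw [dist_zero_right, Real.norm_eq_abs, abs_of_nonneg (errF_nonneg _ _ _ _ _ _)]
    have h3 := theta_le_one hd hη (u k) x y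
    have h4 : errF d η (u k) (uz k) x y ≤ ε / 2 := by
      unfold errF
      refine max_le (by linarith) ?_
      linarith
    linarith

/-- The total error vanishes in the limit. -/
theorem errT_tendsto (S : Seq3 F u ux uy uz) {d η : ℝ} (hd : 0 < d) (hη : 0 < η) :
    Tendsto (fun k => errT d η (u k) (uz k)) atTop (𝓝 0) := by
  have hcont : ∀ k, Continuous fun q : ℝ × ℝ => errF d η (u k) (uz k) q.1 q.2 := fun k =>
    errF_cont (S.smooth k).cont (S.smooth k).contz
  have hin : ∀ᵐ x, Tendsto (fun k => ∫ y in (0 : ℝ)..1, errF d η (u k) (uz k) x y) atTop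
      (𝓝 (∫ _ in (0 : ℝ)..1, (0 : ℝ))) := by
    filter_upwards [S.ae_slice] with x hS
    refine intervalIntegral.tendsto_integral_filter_of_dominated_convergence
      (bound := fun _ => 2) ?_ ?_ intervalIntegrable_const ?_
    · exact Eventually.of_forall fun k => (cont_section (hcont k) x).aestronglyMeasurable
    · refine Eventually.of_forall fun k => Eventually.of_forall fun y _ => ?_
      rw [Real.norm_eq_abs, abs_of_nonneg (errF_nonneg _ _ _ _ _ _)]
      exact errF_le_two hd hη _ _ _ _
    · filter_upwards [hS.ae_slice] with y hy _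
      exact S.errF_tendsto_pt hd hη hS hy
  have hc1 : ∀ k, Continuous fun x => ∫ y in (0 : ℝ)..1, errF d η (u k) (uz k) x y := fun k =>
    marg_continuous (f := fun x y => errF d η (u k) (uz k) x y) (hcont k)
  have : Tendsto (fun k => ∫ x in (0 : ℝ)..1, ∫ y in (0 : ℝ)..1, errF d η (u k) (uz k) x y) atTop
      (𝓝 (∫ _ in (0 : ℝ)..1, ∫ _ in (0 : ℝ)..1, (0 : ℝ))) := by
    refine intervalIntegral.tendsto_integral_filter_of_dominated_convergence
      (bound := fun _ => 2) ?_ ?_ intervalIntegrable_const ?_
    · exact Eventually.of_forall fun k => (hc1 k).aestronglyMeasurable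
    · refine Eventually.of_forall fun k => Eventually.of_forall fun x _ => ?_
      have h0 : 0 ≤ ∫ y in (0 : ℝ)..1, errF d η (u k) (uz k) x y :=
        intervalIntegral.integral_nonneg zero_le_one fun y _ => errF_nonneg _ _ _ _ _ _
      rw [Real.norm_eq_abs, abs_of_nonneg h0]
      have hc : Continuous (errF d η (u k) (uz k) x) := cont_section (hcont k) x
      have h1 : ∫ y in (0 : ℝ)..1, errF d η (u k) (uz k) x y ≤ ∫ _ in (0 : ℝ)..1, (2 : ℝ) :=
        intervalIntegral.integral_mono_on zero_le_one (hc.intervalIntegrable _ _)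
          intervalIntegrable_const fun y _ => errF_le_two hd hη _ _ _ _
      simpa using h1
    · filter_upwards [hin] with x hx _ using hx
  unfold errT
  simpa using this

end Seq3

end Vale.Agent.Lib.P232
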