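import Vale.Agent.Lib.P232.SymD

open MeasureTheory Filter Topology Set
open scoped Real

namespace Vale.Agent.Lib.P232

/-- The Steiner symmetrization in the third variable, centred at `1/2`. -/
noncomputable def steinerZ (F : ℝ → ℝ → ℝ → ℝ) (x y z : ℝ) : ℝ :=
  if 2 * |z - 1 / 2| < ell F x y then 1 else 0

lemma steinerZ_bin (F : ℝ → ℝ → ℝ → ℝ) (x y z : ℝ) :
    steinerZ F x y z = 0 ∨ steinerZ F x y z = 1 := by
  unfold steinerZ
  split_ifs <;> simp

lemma ell_measurable {F : ℝ → ℝ → ℝ → ℝ} (hF : Measurable fun p : ℝ × ℝ × ℝ => F p.1 p.2.1 p.2.2) :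
    Measurable fun q : ℝ × ℝ => ell F q.1 q.2 := by
  refine marg_measurable' (f := fun (q : ℝ × ℝ) z => F q.1 q.2 z) ?_
  have : Measurable fun r : (ℝ × ℝ) × ℝ => ((r.1.1, r.1.2, r.2) : ℝ × ℝ × ℝ) := by fun_prop
  exact hF.comp this

lemma steinerZ_meas {F : ℝ → ℝ → ℝ → ℝ}
    (hF : Measurable fun p : ℝ × ℝ × ℝ => F p.1 p.2.1 p.2.2) :
    Measurable fun p : ℝ × ℝ × ℝ => steinerZ F p.1 p.2.1 p.2.2 := by
  unfold steinerZ
  refine Measurable.ite ?_ measurable_const measurable_const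
  have h1 : Measurable fun p : ℝ × ℝ × ℝ => ell F p.1 p.2.1 :=
    (ell_measurable hF).comp (by fun_prop : Measurable fun p : ℝ × ℝ × ℝ => (p.1, p.2.1))
  have h2 : Measurable fun p : ℝ × ℝ × ℝ => 2 * |p.2.2 - 1 / 2| := by
    have : Measurable fun p : ℝ × ℝ × ℝ => p.2.2 - 1 / 2 := by fun_prop
    exact (this.abs).const_mul 2
  exact measurableSet_lt h2 h1

lemma tent_tendsto {η : ℕ → ℝ} (hη : Tendsto η atTop (𝓝 0)) (z : ℝ) :
    Tendsto (fun j => tent (η j) z) atTop (𝓝 |z - 1 / 2|) := by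
  have hc : Continuous fun e : ℝ => √((z - 1 / 2) ^ 2 + e ^ 2) - e := by fun_prop
  have h := hc.tendsto 0
  have e0 : √((z - 1 / 2) ^ 2 + (0 : ℝ) ^ 2) - 0 = |z - 1 / 2| := by
    simp [Real.sqrt_sq_eq_abs]
  rw [e0] at h
  exact h.comp hη

/-- The limit of the transported functions. -/
lemma symW_tendsto {d η : ℕ → ℝ} (hd : ∀ j, 0 < d j) (hd0 : Tendsto d atTop (𝓝 0))
    (hη0 : Tendsto η atTop (𝓝 0)) {v : ℕ → ℝ → ℝ → ℝ → ℝ} {F : ℝ → ℝ → ℝ → ℝ} {x y z : ℝ}
    (hl : Tendsto (fun j => ell (v j) x y) atTop (𝓝 (ell F x y)))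
    (hne : 2 * |z - 1 / 2| ≠ ell F x y) :
    Tendsto (fun j => symW (d j) (η j) (v j) x y z) atTop (𝓝 (steinerZ F x y z)) := by
  set L := ell F x y with hL
  have harg : Tendsto (fun j => heightG (d j) (v j) x y - 2 * tent (η j) z) atTop
      (𝓝 ((1 + 4 * 0) * L - 2 * 0 - 2 * |z - 1 / 2|)) := by
    unfold heightG
    exact ((((tendsto_const_nhds.add (hd0.const_mul 4)).mul hl).sub (hd0.const_mul 2))).sub
      ((tent_tendsto hη0 z).const_mul 2)
  have e0 : (1 + 4 * 0) * L - 2 * 0 - 2 * |z - 1 / 2| = L - 2 * |z - 1 / 2| := by ring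
  rw [e0] at harg
  unfold symW steinerZ
  rw [← hL]
  rcases lt_or_gt_of_ne hne with h | h
  · rw [if_pos h]
    set c := (L - 2 * |z - 1 / 2|) / 2 with hc
    have hc0 : 0 < c := by rw [hc]; linarith
    have h1 : ∀ᶠ j in atTop, c < heightG (d j) (v j) x y - 2 * tent (η j) z :=
      harg.eventually (lt_mem_nhds (by rw [hc]; linarith))
    have h2 : ∀ᶠ j in atTop, d j < c := hd0.eventually (gt_mem_nhds hc0)
    refine tendsto_const_nhds.congr' ?_
    filter_upwards [h1, h2] with j hj1 hj2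
    exact (rampW_of_ge (hd j) (by linarith)).symm
  · rw [if_neg (not_lt.2 h.le)]
    have h1 : ∀ᶠ j in atTop, heightG (d j) (v j) x y - 2 * tent (η j) z < 0 :=
      harg.eventually (gt_mem_nhds (by linarith))
    refine tendsto_const_nhds.congr' ?_
    filter_upwards [h1] with j hj
    exact (rampW_of_nonpos (hd j) hj.le).symm

lemma energy3_nonneg (ux uy uz : ℝ → ℝ → ℝ → ℝ) : 0 ≤ energy3 ux uy uz :=
  intervalIntegral.integral_nonneg zero_le_one fun _ _ =>
    intervalIntegral.integral_nonneg zero_le_one fun _ _ =>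
      intervalIntegral.integral_nonneg zero_le_one fun _ _ => Real.sqrt_nonneg _

/-- At most two values of `z` have `2 |z - 1/2| = c`. -/
lemma ae_abs_ne (c : ℝ) : ∀ᵐ z : ℝ, 2 * |z - 1 / 2| ≠ c := by
  have hfin : ({z : ℝ | 2 * |z - 1 / 2| = c}).Finite := by
    refine Set.Finite.subset (Set.toFinite {1 / 2 + c / 2, 1 / 2 - c / 2}) fun z hz => ?_
    simp only [Set.mem_ofPred_eq] at hz
    simp only [mem_insert_iff, mem_singleton_iff]
    rcases abs_cases (z - 1 / 2) with ⟨h1, _⟩ | ⟨h1, _⟩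
    · left
      rw [h1] at hz
      linarith
    · right
      rw [h1] at hz
      linarith
  have hnull : volume {z : ℝ | 2 * |z - 1 / 2| = c} = 0 := hfin.measure_zero _
  have := measure_eq_zero_iff_ae_notMem.1 hnull
  filter_upwards [this] with z hz using hz

namespace Seq3

variable {F : ℝ → ℝ → ℝ → ℝ} {u ux uy uz : ℕ → ℝ → ℝ → ℝ → ℝ}

/-- The Steiner step at the level of sequences. -/
theorem exists_sym_seq (S : Seq3 F u ux uy uz) {Per : ℝ}
    (hPer : ∀ k, energy3 (ux k) (uy k) (uz k) ≤ Per) {ε : ℝ} (hε : 0 < ε) :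
    ∃ (d η : ℕ → ℝ) (κ : ℕ → ℕ), (∀ j, 0 < d j) ∧ (∀ j, 0 < η j) ∧
      Seq3 (steinerZ F) (fun j => symW (d j) (η j) (u (κ j)))
        (fun j => symWx (d j) (η j) (u (κ j)) (ux (κ j)))
        (fun j => symWy (d j) (η j) (u (κ j)) (uy (κ j)))
        (fun j => symWz (d j) (η j) (u (κ j))) ∧
      ∀ j, energy3 (symWx (d j) (η j) (u (κ j)) (ux (κ j)))
        (symWy (d j) (η j) (u (κ j)) (uy (κ j))) (symWz (d j) (η j) (u (κ j))) ≤ Per + ε := by
  have hPer0 : 0 ≤ Per := (energy3_nonneg _ _ _).trans (hPer 0)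
  set d₀ := min (1 / 2 : ℝ) (ε / (19 * Per + 20)) with hd₀
  have hdpos : 0 < 19 * Per + 20 := by linarith
  have hd₀pos : 0 < d₀ := lt_min (by norm_num) (div_pos hε hdpos)
  have hd₀1 : d₀ ≤ 1 / 2 := min_le_left _ _
  have hd₀2 : d₀ * (19 * Per + 20) ≤ ε := by
    have := min_le_right (1 / 2 : ℝ) (ε / (19 * Per + 20))
    rw [← hd₀, le_div_iff₀ hdpos] at this
    exact this
  set d : ℕ → ℝ := fun j => d₀ / (j + 1) with hd
  set η : ℕ → ℝ := fun j => d j ^ 2 with hη
  have hdj : ∀ j, 0 < d j := fun j => div_pos hd₀pos (by positivity)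
  have hdle : ∀ j, d j ≤ d₀ := fun j => by
    simp only [hd]
    refine div_le_self hd₀pos.le ?_
    have : (0 : ℝ) ≤ j := Nat.cast_nonneg j
    linarith
  have hηj : ∀ j, 0 < η j := fun j => by
    simp only [hη]
    exact pow_pos (hdj j) 2
  have hd0 : Tendsto d atTop (𝓝 0) := by
    have := (tendsto_one_div_add_atTop_nhds_zero_nat (𝕜 := ℝ)).const_mul d₀
    simp only [mul_zero] at this
    refine this.congr fun j => ?_
    simp only [hd]
    ring
  have hη0 : Tendsto η atTop (𝓝 0) := by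
    have := hd0.pow 2
    simpa [hη] using this
  have hk : ∀ j, ∃ k, j ≤ k ∧ errT (d j) (η j) (u k) (uz k) ≤ d j := by
    intro j
    have h1 : ∀ᶠ k in atTop, errT (d j) (η j) (u k) (uz k) < d j :=
      (S.errT_tendsto (hdj j) (hηj j)).eventually (gt_mem_nhds (hdj j))
    obtain ⟨k, hk1, hk2⟩ := (h1.and (eventually_ge_atTop j)).exists
    exact ⟨k, hk2, hk1.le⟩
  choose κ hκ1 hκ2 using hk
  have hκt : Tendsto κ atTop atTop := tendsto_atTop_mono hκ1 tendsto_id
  refine ⟨d, η, κ, hdj, hηj, ?_, ?_⟩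
  · refine ⟨steinerZ_meas S.meas, steinerZ_bin F,
      fun j => smooth_symW (S.smooth (κ j)) (hηj j), fun j x y z => symW_mem _ _ _ _ _ _, ?_⟩
    have hmeasW : ∀ j, Measurable fun p : ℝ × ℝ × ℝ => symW (d j) (η j) (u (κ j)) p.1 p.2.1 p.2.2 :=
      fun j => (smooth_symW (S.smooth (κ j)) (d := d j) (hηj j)).cont.measurable
    have hset := measurableSet_tendsto_fun (l := atTop) hmeasW (steinerZ_meas S.meas)
    rw [Measure.volume_eq_prod, Measure.ae_prod_iff_ae_ae hset]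
    filter_upwards [S.ae_slice] with x hS
    have hset2 : MeasurableSet {q : ℝ × ℝ | Tendsto (fun j => symW (d j) (η j) (u (κ j)) x q.1 q.2)
        atTop (𝓝 (steinerZ F x q.1 q.2))} := by
      have : Measurable fun q : ℝ × ℝ => ((x, q) : ℝ × ℝ × ℝ) := by fun_prop
      exact hset.preimage this
    rw [Measure.volume_eq_prod, Measure.ae_prod_iff_ae_ae hset2]
    filter_upwards [hS.ae_slice] with y hy
    filter_upwards [ae_abs_ne (ell F x y)] with z hz
    have hl : Tendsto (fun k => ell (u k) x y) atTop (𝓝 (ell F x y)) := hS.marg_conv hy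
    exact symW_tendsto hdj hd0 hη0 (hl.comp hκt) hz
  · intro j
    have h1 := energy_symW (S.smooth (κ j)) (hdj j) (hηj j)
    have h2 := hPer (κ j)
    have h3 := hκ2 j
    have h4 := hdle j
    have h5 := hdj j
    have e1 : 3 * η j / d j = 3 * d j := by
      simp only [hη]
      field_simp
    rw [e1] at h1
    refine h1.trans ?_
    have h6 : 0 ≤ (1 + 3 * d j) * (1 + 4 * d j) := by positivity
    have h7 : (1 + 3 * d j) * (1 + 4 * d j) * (energy3 (ux (κ j)) (uy (κ j)) (uz (κ j)) +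
        errT (d j) (η j) (u (κ j)) (uz (κ j))) ≤ (1 + 3 * d j) * (1 + 4 * d j) * (Per + d j) :=
      mul_le_mul_of_nonneg_left (by linarith) h6
    refine h7.trans ?_
    have h8 : d j * (19 * Per + 20) ≤ d₀ * (19 * Per + 20) :=
      mul_le_mul_of_nonneg_right h4 hdpos.le
    have h9 : d j ≤ 1 / 2 := h4.trans hd₀1
    have h10 : 0 ≤ Per * d j := mul_nonneg hPer0 h5.le
    have h11 : 0 ≤ d j ^ 2 := sq_nonneg _
    have h12 : 0 ≤ d j * (1 / 2 - d j) := mul_nonneg h5.le (by linarith)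
    have h13 : 0 ≤ Per * (d j * (1 / 2 - d j)) := mul_nonneg hPer0 h12
    nlinarith

end Seq3

end Vale.Agent.Lib.P232
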