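import Vale.Agent.Lib.P232.SymE

open MeasureTheory Filter Topology Set
open scoped Real

namespace Vale.Agent.Lib.P232

/-- Monotonicity in the distance of the first variable to `1/2`. -/
def MonoX (f : ℝ → ℝ → ℝ → ℝ) : Prop :=
  ∀ x x' y z, |x' - 1 / 2| ≤ |x - 1 / 2| → f x y z ≤ f x' y z

/-- Monotonicity in the distance of the second variable to `1/2`. -/
def MonoY (f : ℝ → ℝ → ℝ → ℝ) : Prop :=
  ∀ x y y' z, |y' - 1 / 2| ≤ |y - 1 / 2| → f x y z ≤ f x y' z

/-- Monotonicity in the distance of the third variable to `1/2`. -/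
def MonoZ (f : ℝ → ℝ → ℝ → ℝ) : Prop :=
  ∀ x y z z', |z' - 1 / 2| ≤ |z - 1 / 2| → f x y z ≤ f x y z'

lemma indicator_integral {L : ℝ} (h0 : 0 ≤ L) (h1 : L ≤ 1) :
    ∫ z in (0 : ℝ)..1, (if 2 * |z - 1 / 2| < L then (1 : ℝ) else 0) = L := by
  have hset : {z : ℝ | 2 * |z - 1 / 2| < L} = Ioo (1 / 2 - L / 2) (1 / 2 + L / 2) := by
    ext z
    simp only [Set.mem_ofPred_eq, mem_Ioo]
    constructor
    · intro h
      have h2 : |z - 1 / 2| < L / 2 := by linarith
      have := abs_lt.1 h2
      constructor <;> linarith [this.1, this.2]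
    · rintro ⟨h2, h3⟩
      have : |z - 1 / 2| < L / 2 := abs_lt.2 ⟨by linarith, by linarith⟩
      linarith
  have e1 : (fun z : ℝ => if 2 * |z - 1 / 2| < L then (1 : ℝ) else 0) =
      (Ioo (1 / 2 - L / 2) (1 / 2 + L / 2)).indicator (fun _ => (1 : ℝ)) := by
    funext z
    by_cases h : 2 * |z - 1 / 2| < L
    · have hz : z ∈ Ioo (1 / 2 - L / 2) (1 / 2 + L / 2) := by
        rw [← hset]
        exact h
      rw [if_pos h, indicator_of_mem hz]
    · have hz : z ∉ Ioo (1 / 2 - L / 2) (1 / 2 + L / 2) := by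
        rw [← hset]
        exact h
      rw [if_neg h, indicator_of_notMem hz]
  rw [e1, intervalIntegral.integral_of_le zero_le_one, setIntegral_indicator measurableSet_Ioo]
  have hsub : Ioc (0 : ℝ) 1 ∩ Ioo (1 / 2 - L / 2) (1 / 2 + L / 2) =
      Ioo (1 / 2 - L / 2) (1 / 2 + L / 2) := by
    apply inter_eq_right.2
    intro z hz
    exact ⟨by linarith [hz.1], by linarith [hz.2]⟩
  rw [hsub, setIntegral_const]
  simp only [smul_eq_mul, mul_one, Measure.real, Real.volume_Ioo]
  rw [ENNReal.toReal_ofReal (by linarith)]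
  ring

namespace Seq3

variable {F : ℝ → ℝ → ℝ → ℝ} {u ux uy uz : ℕ → ℝ → ℝ → ℝ → ℝ}

lemma line_meas (S : Seq3 F u ux uy uz) (x y : ℝ) : Measurable fun z => F x y z := by
  have : Measurable fun z : ℝ => ((x, y, z) : ℝ × ℝ × ℝ) := by fun_prop
  exact S.meas.comp this

lemma line_ii (S : Seq3 F u ux uy uz) (x y : ℝ) :
    IntervalIntegrable (fun z => F x y z) volume 0 1 :=
  ii_of_bdd (S.line_meas x y) (C := 1) fun z => S.F_abs x y z

lemma ell_mem (S : Seq3 F u ux uy uz) (x y : ℝ) : 0 ≤ ell F x y ∧ ell F x y ≤ 1 := by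
  have h01 : ∀ z, 0 ≤ F x y z ∧ F x y z ≤ 1 := fun z => by
    rcases S.bin x y z with h | h <;> simp [h]
  constructor
  · exact intervalIntegral.integral_nonneg zero_le_one fun z _ => (h01 z).1
  · have h1 : ell F x y ≤ ∫ _ in (0 : ℝ)..1, (1 : ℝ) :=
      intervalIntegral.integral_mono_on zero_le_one (S.line_ii x y) (by simp) fun z _ => (h01 z).2
    simpa using h1

lemma vol3_steinerZ (S : Seq3 F u ux uy uz) : vol3 (steinerZ F) = vol3 F := by
  unfold vol3
  refine intervalIntegral.integral_congr fun x _ => ?_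
  refine intervalIntegral.integral_congr fun y _ => ?_
  exact indicator_integral (S.ell_mem x y).1 (S.ell_mem x y).2

lemma steinerZ_monoZ (F : ℝ → ℝ → ℝ → ℝ) : MonoZ (steinerZ F) := by
  intro x y z z' h
  unfold steinerZ
  by_cases h1 : 2 * |z - 1 / 2| < ell F x y
  · rw [if_pos h1, if_pos (by linarith)]
  · rw [if_neg h1]
    split_ifs <;> norm_num

lemma steinerZ_monoX (S : Seq3 F u ux uy uz) (h : MonoX F) : MonoX (steinerZ F) := by
  intro x x' y z hx
  unfold steinerZ
  have hle : ell F x y ≤ ell F x' y :=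
    intervalIntegral.integral_mono_on zero_le_one (S.line_ii x y) (S.line_ii x' y)
      fun t _ => h x x' y t hx
  by_cases h1 : 2 * |z - 1 / 2| < ell F x y
  · rw [if_pos h1, if_pos (by linarith)]
  · rw [if_neg h1]
    split_ifs <;> norm_num

lemma steinerZ_monoY (S : Seq3 F u ux uy uz) (h : MonoY F) : MonoY (steinerZ F) := by
  intro x y y' z hy
  unfold steinerZ
  have hle : ell F x y ≤ ell F x y' :=
    intervalIntegral.integral_mono_on zero_le_one (S.line_ii x y) (S.line_ii x y')
      fun t _ => h x y y' t hy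
  by_cases h1 : 2 * |z - 1 / 2| < ell F x y
  · rw [if_pos h1, if_pos (by linarith)]
  · rw [if_neg h1]
    split_ifs <;> norm_num

/-- The swap of the last two variables. -/
lemma swap23 (S : Seq3 F u ux uy uz) :
    Seq3 (fun x y z => F x z y) (fun k x y z => u k x z y) (fun k x y z => ux k x z y)
      (fun k x y z => uz k x z y) (fun k x y z => uy k x z y) :=
  S.swap12.swap13.swap12

lemma vol3_swap23 (S : Seq3 F u ux uy uz) : vol3 (fun x y z => F x z y) = vol3 F := by
  have h1 := S.swap12.swap13.vol3_swap12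
  have h2 := S.swap12.vol3_swap13
  have h3 := S.vol3_swap12
  exact h1.trans (h2.trans h3)

lemma energy_swap23 (S : Seq3 F u ux uy uz) (k : ℕ) :
    energy3 (fun x y z => ux k x z y) (fun x y z => uz k x z y) (fun x y z => uy k x z y) =
      energy3 (ux k) (uy k) (uz k) := by
  have h1 := S.swap12.swap13.energy_swap12 k
  have h2 := S.swap12.energy_swap13 k
  have h3 := S.energy_swap12 k
  exact h1.trans (h2.trans h3)

/-- Three Steiner steps: monotonicity in all three variables. -/
theorem exists_mono_seq (S : Seq3 F u ux uy uz) {Per : ℝ}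
    (hPer : ∀ k, energy3 (ux k) (uy k) (uz k) ≤ Per) {ε : ℝ} (hε : 0 < ε) :
    ∃ (G : ℝ → ℝ → ℝ → ℝ) (w wx wy wz : ℕ → ℝ → ℝ → ℝ → ℝ), Seq3 G w wx wy wz ∧
      (∀ k, energy3 (wx k) (wy k) (wz k) ≤ Per + ε) ∧ vol3 G = vol3 F ∧
      MonoX G ∧ MonoY G ∧ MonoZ G := by
  have hε3 : 0 < ε / 3 := by positivity
  -- the first step
  obtain ⟨d1, η1, κ1, -, -, S1, hE1⟩ := S.exists_sym_seq hPer hε3
  have hV1 := S.vol3_steinerZ
  have hZ1 := steinerZ_monoZ F
  -- the second step: the first variable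
  have S1' := S1.swap13
  obtain ⟨d2, η2, κ2, -, -, S2, hE2⟩ := S1'.exists_sym_seq (Per := Per + ε / 3)
    (fun k => by rw [S1.energy_swap13 k]; exact hE1 k) hε3
  have hV2 := S2.swap13
  have hV2' : vol3 (fun x y z => steinerZ (fun x y z => steinerZ F z y x) z y x) = vol3 F := by
    rw [S2.vol3_swap13, S1'.vol3_steinerZ, S1.vol3_swap13, hV1]
  have hX2 : MonoX (fun x y z => steinerZ (fun x y z => steinerZ F z y x) z y x) := by
    intro x x' y z h
    exact steinerZ_monoZ _ z y x x' h
  have hZ2 : MonoZ (fun x y z => steinerZ (fun x y z => steinerZ F z y x) z y x) := by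
    intro x y z z' h
    refine S1'.steinerZ_monoX ?_ z z' y x h
    intro x x' y z h
    exact hZ1 z y x x' h
  set F2 : ℝ → ℝ → ℝ → ℝ := fun x y z => steinerZ (fun x y z => steinerZ F z y x) z y x with hF2
  -- the third step: the second variable
  have S2' := hV2.swap23
  obtain ⟨d3, η3, κ3, -, -, S3, hE3⟩ := S2'.exists_sym_seq (Per := Per + ε / 3 + ε / 3)
    (fun k => by
      rw [hV2.energy_swap23 k, S2.energy_swap13 k]
      exact hE2 k) hε3
  have S4 := S3.swap23
  refine ⟨_, _, _, _, _, S4, ?_, ?_, ?_, ?_, ?_⟩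
  · intro k
    rw [S3.energy_swap23 k]
    have := hE3 k
    linarith
  · rw [S3.vol3_swap23, S2'.vol3_steinerZ, hV2.vol3_swap23]
    exact hV2'
  · -- first variable
    intro x x' y z h
    refine S2'.steinerZ_monoX ?_ x x' z y h
    intro x x' y z h
    exact hX2 x x' z y h
  · -- second variable
    intro x y y' z h
    exact steinerZ_monoZ _ x z y y' h
  · -- third variable
    intro x y z z' h
    refine S2'.steinerZ_monoY ?_ x z z' y h
    intro x y y' z h
    exact hZ2 x z y y' h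

end Seq3

end Vale.Agent.Lib.P232
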