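import Vale.Agent.Lib.P232.Param

open MeasureTheory Filter Topology Set
open scoped Real

namespace Vale.Agent.Lib.P232

/-- A sequence of smooth periodic functions on the square converging to a 0/1 function. -/
structure Seq2 (F : ℝ → ℝ → ℝ) (v vx vy : ℕ → ℝ → ℝ → ℝ) : Prop where
  meas : Measurable fun q : ℝ × ℝ => F q.1 q.2
  bin : ∀ x y, F x y = 0 ∨ F x y = 1
  smooth : ∀ k, Smooth2 (v k) (vx k) (vy k)
  bdd : ∀ k x y, 0 ≤ v k x y ∧ v k x y ≤ 1
  conv : ∀ᵐ q : ℝ × ℝ, Tendsto (fun k => v k q.1 q.2) atTop (𝓝 (F q.1 q.2))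

namespace Seq2

variable {F : ℝ → ℝ → ℝ} {v vx vy : ℕ → ℝ → ℝ → ℝ}

lemma slice_meas (S : Seq2 F v vx vy) (x : ℝ) : Measurable (F x) :=
  S.meas.comp (measurable_const.prodMk measurable_id)

lemma marg_nonneg (S : Seq2 F v vx vy) (x : ℝ) : 0 ≤ marg F x :=
  intervalIntegral.integral_nonneg zero_le_one fun y _ => by
    rcases S.bin x y with h | h <;> simp [h]

lemma slice_integrable (S : Seq2 F v vx vy) (x : ℝ) :
    IntervalIntegrable (F x) volume 0 1 := by
  rw [intervalIntegrable_iff, uIoc_of_le zero_le_one]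
  refine Integrable.of_bound (C := 1) (S.slice_meas x).aestronglyMeasurable ?_
  refine Eventually.of_forall fun y => ?_
  rcases S.bin x y with h | h <;> simp [h]

lemma marg_le_one (S : Seq2 F v vx vy) (x : ℝ) : marg F x ≤ 1 := by
  have h1 : marg F x ≤ ∫ _ in (0 : ℝ)..1, (1 : ℝ) :=
    intervalIntegral.integral_mono_on zero_le_one (S.slice_integrable x) (by simp) fun y _ => by
      rcases S.bin x y with h | h <;> simp [h]
  simpa using h1

lemma marg_measurable (S : Seq2 F v vx vy) : Measurable (marg F) := by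
  have : StronglyMeasurable fun x => ∫ y, F x y ∂(volume.restrict (Ioc (0 : ℝ) 1)) :=
    StronglyMeasurable.integral_prod_right' (f := fun q : ℝ × ℝ => F q.1 q.2)
      S.meas.stronglyMeasurable
  have h2 : marg F = fun x => ∫ y, F x y ∂(volume.restrict (Ioc (0 : ℝ) 1)) := by
    funext x
    simp [marg, intervalIntegral.integral_of_le (zero_le_one : (0 : ℝ) ≤ 1)]
  rw [h2]
  exact this.measurable

lemma cont_v (S : Seq2 F v vx vy) (k : ℕ) (x : ℝ) : Continuous fun y => v k x y := by
  have : Continuous fun y : ℝ => ((x, y) : ℝ × ℝ) := by fun_prop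
  exact (S.smooth k).cont.comp this

lemma ae_slice (S : Seq2 F v vx vy) :
    ∀ᵐ x, ∀ᵐ y, Tendsto (fun k => v k x y) atTop (𝓝 (F x y)) := by
  have h := S.conv
  rw [Measure.volume_eq_prod] at h
  exact Measure.ae_ae_of_ae_prod h

lemma marg_conv (S : Seq2 F v vx vy) {x : ℝ}
    (hx : ∀ᵐ y, Tendsto (fun k => v k x y) atTop (𝓝 (F x y))) :
    Tendsto (fun k => marg (v k) x) atTop (𝓝 (marg F x)) := by
  refine intervalIntegral.tendsto_integral_filter_of_dominated_convergence (bound := fun _ => 1)
    ?_ ?_ intervalIntegrable_const ?_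
  · exact Eventually.of_forall fun k => (S.cont_v k x).aestronglyMeasurable
  · refine Eventually.of_forall fun k => Eventually.of_forall fun y _ => ?_
    rw [Real.norm_eq_abs, abs_of_nonneg (S.bdd k x y).1]
    exact (S.bdd k x y).2
  · filter_upwards [hx] with y hy _ using hy

lemma marg_v_hasDerivAt (S : Seq2 F v vx vy) (k : ℕ) (x : ℝ) :
    HasDerivAt (marg (v k)) (marg (vx k) x) x :=
  hasDerivAt_param (S.smooth k).cont (S.smooth k).contx (S.smooth k).dx x

lemma marg_vx_cont (S : Seq2 F v vx vy) (k : ℕ) : Continuous (marg (vx k)) :=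
  marg_continuous (S.smooth k).contx

lemma marg_v_per (S : Seq2 F v vx vy) (k : ℕ) : marg (v k) 0 = marg (v k) 1 := by
  unfold marg
  exact intervalIntegral.integral_congr fun y _ => (S.smooth k).perx y

/-- The cost in the inner direction. -/
noncomputable def innerCost (vy : ℝ → ℝ → ℝ) (x : ℝ) : ℝ := ∫ y in (0 : ℝ)..1, |vy x y|

lemma innerCost_cont (S : Seq2 F v vx vy) (k : ℕ) : Continuous (innerCost (vy k)) :=
  marg_continuous (f := fun x y => |vy k x y|) (S.smooth k).conty.abs

lemma innerCost_nonneg (vy : ℝ → ℝ → ℝ) (x : ℝ) : 0 ≤ innerCost vy x :=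
  intervalIntegral.integral_nonneg zero_le_one fun _ _ => abs_nonneg _

/-- The slices of limit with nontrivial mass have cost at least two, along subsequences. -/
lemma inner_liminf (S : Seq2 F v vx vy) {x : ℝ}
    (hx : ∀ᵐ y, Tendsto (fun k => v k x y) atTop (𝓝 (F x y))) (c : ℝ)
    (hc : ∃ᶠ k in atTop, innerCost (vy k) x ≤ c) : 2 * chi (marg F x) ≤ c := by
  by_cases hchi : 0 < marg F x ∧ marg F x < 1
  · have : chi (marg F x) = 1 := by simp [chi, hchi]
    rw [this, mul_one]
    exact line_cost (v := fun k => v k x) (v' := fun k => vy k x) (f := F x)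
      (fun k t => (S.smooth k).dy x t)
      (fun k => by
        have : Continuous fun y : ℝ => ((x, y) : ℝ × ℝ) := by fun_prop
        exact (S.smooth k).conty.comp this)
      (fun k => (S.smooth k).pery x) (S.bin x) hx hchi.1 hchi.2 hc
  · have : chi (marg F x) = 0 := by simp [chi, hchi]
    rw [this, mul_zero]
    obtain ⟨k, hk⟩ := hc.exists
    exact (innerCost_nonneg _ _).trans hk

/-- The calibration on the outer variable. -/
theorem outer_general (S : Seq2 F v vx vy) {A B : ℝ → ℝ} (hp : CalibPair A B) {Λ : ℝ}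
    (hΛ : ∀ k, ∫ x in (0 : ℝ)..1, (A (marg (v k) x) * innerCost (vy k) x +
      B (marg (v k) x) * |marg (vx k) x|) ≤ Λ) {a b : ℝ}
    (hr : GoodRange (fun k => marg (v k)) (marg F) a b) :
    (∫ x in (0 : ℝ)..1, A (marg F x) * (2 * chi (marg F x))) + 2 * ∫ s in a..b, B s ≤ Λ := by
  refine outer_range hp (g := fun k => marg (v k)) (g' := fun k => marg (vx k))
    (W := fun k => innerCost (vy k)) (Y := fun x => 2 * chi (marg F x))
    (S.marg_v_hasDerivAt) (S.marg_vx_cont) (S.marg_v_per) (S.innerCost_cont)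
    (fun k t => innerCost_nonneg _ _) hΛ S.marg_measurable
    ((chi_measurable.comp S.marg_measurable).const_mul 2)
    (fun t => mul_nonneg zero_le_two (chi_nonneg _)) (C := 2)
    (fun t => by nlinarith [chi_le_one (marg F t)]) ?_ ?_ hr
  · filter_upwards [S.ae_slice] with x hx using S.marg_conv hx
  · filter_upwards [S.ae_slice] with x hx c hc using S.inner_liminf hx c hc

/-- The energy of the slice dominates the calibrated quantity. -/
theorem energy_ge (S : Seq2 F v vx vy) {A B : ℝ → ℝ} (hp : CalibPair A B) (k : ℕ) :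
    ∫ x in (0 : ℝ)..1, (A (marg (v k) x) * innerCost (vy k) x +
      B (marg (v k) x) * |marg (vx k) x|) ≤
    ∫ x in (0 : ℝ)..1, ∫ y in (0 : ℝ)..1, √(vx k x y ^ 2 + vy k x y ^ 2) := by
  have hmc : Continuous (marg (v k)) :=
    continuous_iff_continuousAt.2 fun t => (S.marg_v_hasDerivAt k t).continuousAt
  have hcvx : Continuous fun q : ℝ × ℝ => vx k q.1 q.2 := (S.smooth k).contx
  have hcvy : Continuous fun q : ℝ × ℝ => vy k q.1 q.2 := (S.smooth k).conty
  have hc1 : Continuous fun x => (A (marg (v k) x) * innerCost (vy k) x +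
      B (marg (v k) x) * |marg (vx k) x|) :=
    ((hp.contA.comp hmc).mul (S.innerCost_cont k)).add
      ((hp.contB.comp hmc).mul (S.marg_vx_cont k).abs)
  have hcq : Continuous fun q : ℝ × ℝ => √(vx k q.1 q.2 ^ 2 + vy k q.1 q.2 ^ 2) :=
    ((hcvx.pow 2).add (hcvy.pow 2)).sqrt
  have hc2 : Continuous fun x => ∫ y in (0 : ℝ)..1, √(vx k x y ^ 2 + vy k x y ^ 2) :=
    marg_continuous (f := fun x y => √(vx k x y ^ 2 + vy k x y ^ 2)) hcq
  refine intervalIntegral.integral_mono_on zero_le_one (hc1.intervalIntegrable _ _)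
    (hc2.intervalIntegrable _ _) fun x _ => ?_
  set a := A (marg (v k) x) with ha
  set b := B (marg (v k) x) with hb
  have ha0 : 0 ≤ a := hp.nonnegA _
  have hb0 : 0 ≤ b := hp.nonnegB _
  have hab : a ^ 2 + b ^ 2 ≤ 1 := hp.le_one _
  have hcvxs : Continuous fun y => vx k x y := by
    have : Continuous fun y : ℝ => ((x, y) : ℝ × ℝ) := by fun_prop
    exact hcvx.comp this
  have hcvys : Continuous fun y => vy k x y := by
    have : Continuous fun y : ℝ => ((x, y) : ℝ × ℝ) := by fun_prop
    exact hcvy.comp this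
  have e1 : |marg (vx k) x| ≤ ∫ y in (0 : ℝ)..1, |vx k x y| :=
    intervalIntegral.abs_integral_le_integral_abs zero_le_one
  have e2 : a * innerCost (vy k) x + b * ∫ y in (0 : ℝ)..1, |vx k x y| =
      ∫ y in (0 : ℝ)..1, (a * |vy k x y| + b * |vx k x y|) := by
    have h1 : Continuous fun y => a * |vy k x y| := continuous_const.mul hcvys.abs
    have h2 : Continuous fun y => b * |vx k x y| := continuous_const.mul hcvxs.abs
    rw [intervalIntegral.integral_add (h1.intervalIntegrable _ _) (h2.intervalIntegrable _ _),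
      intervalIntegral.integral_const_mul, intervalIntegral.integral_const_mul]
    rfl
  have e3 : ∫ y in (0 : ℝ)..1, (a * |vy k x y| + b * |vx k x y|) ≤
      ∫ y in (0 : ℝ)..1, √(vx k x y ^ 2 + vy k x y ^ 2) := by
    have h1 : Continuous fun y => a * |vy k x y| + b * |vx k x y| :=
      (continuous_const.mul hcvys.abs).add (continuous_const.mul hcvxs.abs)
    have h2 : Continuous fun y => √(vx k x y ^ 2 + vy k x y ^ 2) :=
      ((hcvxs.pow 2).add (hcvys.pow 2)).sqrt
    refine intervalIntegral.integral_mono_on zero_le_one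
      (h1.intervalIntegrable _ _) (h2.intervalIntegrable _ _) fun y _ => ?_
    have := cs_le (p := |vy k x y|) (q := |vx k x y|) hab
    rw [sq_abs, sq_abs, add_comm (vy k x y ^ 2)] at this
    exact this
  calc a * innerCost (vy k) x + b * |marg (vx k) x|
      ≤ a * innerCost (vy k) x + b * ∫ y in (0 : ℝ)..1, |vx k x y| := by
        have := mul_le_mul_of_nonneg_left e1 hb0
        linarith
    _ ≤ _ := by rw [e2]; exact e3

lemma subseq (S : Seq2 F v vx vy) {φ : ℕ → ℕ} (hφ : Tendsto φ atTop atTop) :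
    Seq2 F (fun k => v (φ k)) (fun k => vx (φ k)) (fun k => vy (φ k)) where
  meas := S.meas
  bin := S.bin
  smooth := fun k => S.smooth (φ k)
  bdd := fun k => S.bdd (φ k)
  conv := by
    filter_upwards [S.conv] with q hq using hq.comp hφ

lemma marg_intervalIntegrable (S : Seq2 F v vx vy) : IntervalIntegrable (marg F) volume 0 1 := by
  rw [intervalIntegrable_iff, uIoc_of_le zero_le_one]
  refine Integrable.of_bound (C := 1) S.marg_measurable.aestronglyMeasurable ?_
  refine Eventually.of_forall fun x => ?_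
  rw [Real.norm_eq_abs, abs_of_nonneg (S.marg_nonneg x)]
  exact S.marg_le_one x

lemma full_intervalIntegrable (S : Seq2 F v vx vy) :
    IntervalIntegrable (fun x => fullInd (marg F x)) volume 0 1 := by
  rw [intervalIntegrable_iff, uIoc_of_le zero_le_one]
  refine Integrable.of_bound (C := 1) (fullInd_measurable.comp S.marg_measurable).aestronglyMeasurable ?_
  refine Eventually.of_forall fun x => ?_
  rw [Real.norm_eq_abs, abs_of_nonneg (fullInd_nonneg _)]
  exact fullInd_le_one _

lemma lineY_nonneg (F : ℝ → ℝ → ℝ) : 0 ≤ lineY F :=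
  intervalIntegral.integral_nonneg zero_le_one fun _ _ => fullInd_nonneg _

lemma lineX_nonneg (F : ℝ → ℝ → ℝ) : 0 ≤ lineX F :=
  intervalIntegral.integral_nonneg zero_le_one fun _ _ => fullInd_nonneg _

lemma area_nonneg (S : Seq2 F v vx vy) : 0 ≤ area F :=
  intervalIntegral.integral_nonneg zero_le_one fun x _ => S.marg_nonneg x

/-- Calibration applied with the energy. -/
lemma calib_energy (S : Seq2 F v vx vy) {A B : ℝ → ℝ} (hp : CalibPair A B) {Λ : ℝ}
    (hΛ : ∀ k, ∫ x in (0 : ℝ)..1, ∫ y in (0 : ℝ)..1, √(vx k x y ^ 2 + vy k x y ^ 2) ≤ Λ) {a b : ℝ}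
    (hr : GoodRange (fun k => marg (v k)) (marg F) a b) :
    (∫ x in (0 : ℝ)..1, A (marg F x) * (2 * chi (marg F x))) + 2 * ∫ s in a..b, B s ≤ Λ :=
  S.outer_general hp (fun k => (S.energy_ge hp k).trans (hΛ k)) hr

lemma energy_nonneg (v1 v2 : ℝ → ℝ → ℝ) :
    0 ≤ ∫ x in (0 : ℝ)..1, ∫ y in (0 : ℝ)..1, √(v1 x y ^ 2 + v2 x y ^ 2) :=
  intervalIntegral.integral_nonneg zero_le_one fun _ _ =>
    intervalIntegral.integral_nonneg zero_le_one fun _ _ => Real.sqrt_nonneg _

/-- The pair with vanishing first component. -/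
lemma pair01 : CalibPair (fun _ => 0) (fun _ => 1) where
  contA := continuous_const
  contB := continuous_const
  nonnegA := fun _ => le_refl _
  nonnegB := fun _ => zero_le_one
  le_one := fun _ => by norm_num

/-- The pair with vanishing second component. -/
lemma pair10 : CalibPair (fun _ => 1) (fun _ => 0) where
  contA := continuous_const
  contB := continuous_const
  nonnegA := fun _ => zero_le_one
  nonnegB := fun _ => le_refl _
  le_one := fun _ => by norm_num

lemma two_mul_range_le (S : Seq2 F v vx vy) {Λ : ℝ}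
    (hΛ : ∀ k, ∫ x in (0 : ℝ)..1, ∫ y in (0 : ℝ)..1, √(vx k x y ^ 2 + vy k x y ^ 2) ≤ Λ) {a b : ℝ}
    (hr : GoodRange (fun k => marg (v k)) (marg F) a b) : 2 * (b - a) ≤ Λ := by
  have := S.calib_energy pair01 hΛ hr
  simpa using this

/-- If the limit has a positive infimum of the marginal, then the nontrivial lines have measure
complementary to the full ones. -/
lemma chi_integral (S : Seq2 F v vx vy) {a b : ℝ}
    (hr : GoodRange (fun k => marg (v k)) (marg F) a b) (ha : 0 < a) :
    ∫ x in (0 : ℝ)..1, 2 * chi (marg F x) = 2 * (1 - lineY F) := by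
  have h1 : ∀ᵐ x ∂(volume.restrict (Ioc (0 : ℝ) 1)),
      2 * chi (marg F x) = 2 * (1 - fullInd (marg F x)) := by
    filter_upwards [hr.ae_mem] with x hx
    have hpos : 0 < marg F x := lt_of_lt_of_le ha hx.1
    by_cases h : marg F x = 1
    · simp [chi, fullInd, h]
    · have hlt : marg F x < 1 := lt_of_le_of_ne (S.marg_le_one x) h
      simp [chi, fullInd, h, hpos, hlt]
  rw [intervalIntegral.integral_of_le zero_le_one, integral_congr_ae h1,
    ← intervalIntegral.integral_of_le zero_le_one, intervalIntegral.integral_const_mul,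
    intervalIntegral.integral_sub intervalIntegrable_const S.full_intervalIntegrable]
  simp [lineY, marg]

/-- When some full lines exist the supremum is one. -/
lemma range_top_of_line (S : Seq2 F v vx vy) {a b : ℝ}
    (hr : GoodRange (fun k => marg (v k)) (marg F) a b) (hb : b < 1) : lineY F = 0 := by
  have h1 : ∀ᵐ x ∂(volume.restrict (Ioc (0 : ℝ) 1)), fullInd (marg F x) = 0 := by
    filter_upwards [hr.ae_mem] with x hx
    have : marg F x ≠ 1 := by
      have := hx.2
      intro h
      rw [h] at this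
      linarith
    simp [fullInd, this]
  unfold lineY
  change ∫ x in (0 : ℝ)..1, fullInd (marg F x) = 0
  rw [intervalIntegral.integral_of_le zero_le_one, integral_congr_ae h1]
  simp

end Seq2

/-- The integral of the half circle on the unit interval. -/
lemma integral_sqrt_01 : ∫ u in (0 : ℝ)..1, √(1 - u ^ 2) = π / 4 := by
  have h := integral_sqrt_one_sub_sq
  have hc : Continuous fun u : ℝ => √(1 - u ^ 2) := by fun_prop
  have h2 : ∫ u in (-1 : ℝ)..1, √(1 - u ^ 2) =
      (∫ u in (-1 : ℝ)..0, √(1 - u ^ 2)) + ∫ u in (0 : ℝ)..1, √(1 - u ^ 2) :=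
    (intervalIntegral.integral_add_adjacent_intervals (hc.intervalIntegrable _ _)
      (hc.intervalIntegrable _ _)).symm
  have h3 : ∫ u in (-1 : ℝ)..0, √(1 - u ^ 2) = ∫ u in (0 : ℝ)..1, √(1 - u ^ 2) := by
    have := intervalIntegral.integral_comp_neg (a := 0) (b := 1) (fun u : ℝ => √(1 - u ^ 2))
    rw [neg_zero] at this
    rw [← this]
    simp
  rw [h2, h3] at h
  linarith

/-- The clamp pair. -/
noncomputable def clampA (b t : ℝ) : ℝ := max 0 (min 1 (t / b))

lemma clampA_nonneg (b t : ℝ) : 0 ≤ clampA b t := le_max_left _ _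

lemma clampA_le_one (b t : ℝ) : clampA b t ≤ 1 := max_le zero_le_one (min_le_left _ _)

lemma clampA_cont (b : ℝ) : Continuous (clampA b) := by
  unfold clampA
  fun_prop

lemma clampA_eq {b t : ℝ} (hb : 0 < b) (h0 : 0 ≤ t) (h1 : t ≤ b) : clampA b t = t / b := by
  unfold clampA
  have h2 : 0 ≤ t / b := div_nonneg h0 hb.le
  have h3 : t / b ≤ 1 := (div_le_one hb).2 h1
  rw [min_eq_right h3, max_eq_right h2]

lemma clamp_pair (b : ℝ) : CalibPair (clampA b) (fun t => √(1 - clampA b t ^ 2)) where
  contA := clampA_cont b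
  contB := by
    have := clampA_cont b
    fun_prop
  nonnegA := clampA_nonneg b
  nonnegB := fun _ => Real.sqrt_nonneg _
  le_one := fun t => by
    have h0 := clampA_nonneg b t
    have h1 := clampA_le_one b t
    have h2 : 0 ≤ 1 - clampA b t ^ 2 := by nlinarith
    rw [Real.sq_sqrt h2]
    linarith

lemma clamp_integral {b : ℝ} (hb : 0 < b) :
    ∫ t in (0 : ℝ)..b, √(1 - clampA b t ^ 2) = b * (π / 4) := by
  have h1 : ∫ t in (0 : ℝ)..b, √(1 - clampA b t ^ 2) = ∫ t in (0 : ℝ)..b, √(1 - (t / b) ^ 2) := by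
    refine intervalIntegral.integral_congr fun t ht => ?_
    rw [uIcc_of_le hb.le] at ht
    rw [clampA_eq hb ht.1 ht.2]
  rw [h1]
  have h2 := intervalIntegral.integral_comp_div (a := 0) (b := b) (c := b)
    (fun u : ℝ => √(1 - u ^ 2)) hb.ne'
  rw [h2]
  simp only [zero_div, div_self hb.ne', smul_eq_mul]
  rw [integral_sqrt_01]

lemma amgm_aux {b s : ℝ} (hb : 0 < b) (hs : 0 ≤ s) :
    2 * √(π * s) ≤ 2 * s / b + π / 2 * b := by
  have hpi := Real.pi_pos
  set x := √(π * s) with hx
  have hx2 : x ^ 2 = π * s := Real.sq_sqrt (by positivity)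
  have hs' : s = x ^ 2 / π := by field_simp; linarith
  have : 2 * s / b + π / 2 * b - 2 * x = 2 / (π * b) * (x - π * b / 2) ^ 2 := by
    rw [hs']
    field_simp
    ring
  have h3 : 0 ≤ 2 / (π * b) * (x - π * b / 2) ^ 2 := by positivity
  linarith

namespace Seq2

variable {F : ℝ → ℝ → ℝ} {v vx vy : ℕ → ℝ → ℝ → ℝ}

/-- The main case: the infimum of the marginal vanishes. -/
theorem disc_bound (S : Seq2 F v vx vy) {Λ : ℝ}
    (hΛ : ∀ k, ∫ x in (0 : ℝ)..1, ∫ y in (0 : ℝ)..1, √(vx k x y ^ 2 + vy k x y ^ 2) ≤ Λ) {b : ℝ}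
    (hr : GoodRange (fun k => marg (v k)) (marg F) 0 b) :
    2 * √(π * area F) ≤ Λ + 2 * lineY F := by
  have hΛ0 : 0 ≤ Λ := (energy_nonneg _ _).trans (hΛ 0)
  have hβ0 := lineY_nonneg F
  have hs0 := S.area_nonneg
  rcases hr.le.eq_or_lt with hb | hb
  · -- the marginal vanishes almost everywhere
    have h1 : ∀ᵐ x ∂(volume.restrict (Ioc (0 : ℝ) 1)), marg F x = 0 := by
      filter_upwards [hr.ae_mem] with x hx
      rw [← hb] at hx
      exact le_antisymm hx.2 hx.1
    have h2 : area F = 0 := by
      change ∫ x in (0 : ℝ)..1, marg F x = 0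
      rw [intervalIntegral.integral_of_le zero_le_one, integral_congr_ae h1]
      simp
    rw [h2]
    simp only [mul_zero, Real.sqrt_zero]
    linarith
  · have hmain := S.calib_energy (clamp_pair b) hΛ hr
    rw [clamp_integral hb] at hmain
    have h1 : ∀ᵐ x ∂(volume.restrict (Ioc (0 : ℝ) 1)),
        clampA b (marg F x) * (2 * chi (marg F x)) =
          2 / b * (marg F x - fullInd (marg F x)) := by
      filter_upwards [hr.ae_mem] with x hx
      rw [clampA_eq hb hx.1 hx.2]
      by_cases h0 : marg F x = 0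
      · simp [chi, fullInd, h0]
      by_cases h1 : marg F x = 1
      · simp [chi, fullInd, h1]
      have hpos : 0 < marg F x := lt_of_le_of_ne (S.marg_nonneg x) (Ne.symm h0)
      have hlt : marg F x < 1 := lt_of_le_of_ne (S.marg_le_one x) h1
      simp only [chi, fullInd, h1, hpos, hlt, and_self, if_true, if_false]
      field_simp
      ring
    have h2 : ∫ x in (0 : ℝ)..1, clampA b (marg F x) * (2 * chi (marg F x)) =
        2 / b * (area F - lineY F) := by
      rw [intervalIntegral.integral_of_le zero_le_one, integral_congr_ae h1,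
        ← intervalIntegral.integral_of_le zero_le_one, intervalIntegral.integral_const_mul,
        intervalIntegral.integral_sub S.marg_intervalIntegrable S.full_intervalIntegrable]
      rfl
    rw [h2] at hmain
    have h3 : 2 * area F / b - 2 * lineY F ≤ 2 / b * (area F - lineY F) := by
      rcases hr.le_one.lt_or_eq with hb1 | hb1
      · rw [S.range_top_of_line hr hb1]
        simp only [mul_zero, sub_zero]
        exact le_of_eq (by ring)
      · rw [hb1]
        simp only [div_one]
        linarith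
    have h4 := amgm_aux hb hs0
    nlinarith

/-- Complement of a sequence. -/
lemma compl (S : Seq2 F v vx vy) :
    Seq2 (fun x y => 1 - F x y) (fun k x y => 1 - v k x y) (fun k x y => - vx k x y)
      (fun k x y => - vy k x y) where
  meas := measurable_const.sub S.meas
  bin := fun x y => by
    rcases S.bin x y with h | h <;> simp [h]
  smooth := fun k =>
    { cont := continuous_const.sub (S.smooth k).cont
      contx := (S.smooth k).contx.neg
      conty := (S.smooth k).conty.neg
      dx := fun x y => by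
        simpa using ((S.smooth k).dx x y).const_sub 1
      dy := fun x y => by
        simpa using ((S.smooth k).dy x y).const_sub 1
      perx := fun y => by simp [(S.smooth k).perx y]
      pery := fun x => by simp [(S.smooth k).pery x] }
  bdd := fun k x y => ⟨by linarith [(S.bdd k x y).2], by linarith [(S.bdd k x y).1]⟩
  conv := by
    filter_upwards [S.conv] with q hq using tendsto_const_nhds.sub hq

lemma marg_compl (f : ℝ → ℝ → ℝ) (hf : ∀ x, Continuous (f x) ∨
    IntervalIntegrable (f x) volume 0 1) (x : ℝ) :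
    marg (fun x y => 1 - f x y) x = 1 - marg f x := by
  have : IntervalIntegrable (f x) volume 0 1 := by
    rcases hf x with h | h
    · exact h.intervalIntegrable _ _
    · exact h
  unfold marg
  rw [intervalIntegral.integral_sub intervalIntegrable_const this]
  simp

lemma marg_compl_F (S : Seq2 F v vx vy) : marg (fun x y => 1 - F x y) = fun x => 1 - marg F x :=
  funext fun x => marg_compl F (fun x => Or.inr (S.slice_integrable x)) x

lemma marg_compl_v (S : Seq2 F v vx vy) (k : ℕ) :
    marg (fun x y => 1 - v k x y) = fun x => 1 - marg (v k) x :=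
  funext fun x => marg_compl (v k) (fun x => Or.inl (S.cont_v k x)) x

lemma range_compl (S : Seq2 F v vx vy) {a b : ℝ}
    (hr : GoodRange (fun k => marg (v k)) (marg F) a b) :
    GoodRange (fun k => marg (fun x y => 1 - v k x y)) (marg fun x y => 1 - F x y)
      (1 - b) (1 - a) := by
  simp only [S.marg_compl_F, S.marg_compl_v]
  refine ⟨by linarith [hr.le_one], by linarith [hr.le], by linarith [hr.nonneg], ?_, ?_, ?_⟩
  · filter_upwards [hr.ae_mem] with x hx using ⟨by linarith [hx.2], by linarith [hx.1]⟩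
  · intro ε hε
    obtain ⟨x, hx, ht, hG⟩ := hr.high ε hε
    exact ⟨x, hx, tendsto_const_nhds.sub ht, by linarith [hG.2], by linarith [hG.1]⟩
  · intro ε hε
    obtain ⟨x, hx, ht, hG⟩ := hr.low ε hε
    exact ⟨x, hx, tendsto_const_nhds.sub ht, by linarith [hG.2], by linarith [hG.1]⟩

lemma area_compl (S : Seq2 F v vx vy) : area (fun x y => 1 - F x y) = 1 - area F := by
  have h : area (fun x y => 1 - F x y) = ∫ x in (0 : ℝ)..1, marg (fun x y => 1 - F x y) x := rfl
  rw [h, S.marg_compl_F, intervalIntegral.integral_sub intervalIntegrable_const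
    S.marg_intervalIntegrable]
  simp [area, marg]

/-- The complementary disc bound. -/
theorem compl_disc_bound (S : Seq2 F v vx vy) {Λ : ℝ}
    (hΛ : ∀ k, ∫ x in (0 : ℝ)..1, ∫ y in (0 : ℝ)..1, √(vx k x y ^ 2 + vy k x y ^ 2) ≤ Λ) {a : ℝ}
    (hr : GoodRange (fun k => marg (v k)) (marg F) a 1) (ha : 0 < a) :
    2 * √(π * (1 - area F)) ≤ Λ := by
  have hr' := S.range_compl hr
  rw [sub_self] at hr'
  have hΛ' : ∀ k, ∫ x in (0 : ℝ)..1, ∫ y in (0 : ℝ)..1,
      √((- vx k x y) ^ 2 + (- vy k x y) ^ 2) ≤ Λ := by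
    intro k
    simpa only [neg_sq] using hΛ k
  have h := S.compl.disc_bound hΛ' hr'
  rw [S.area_compl] at h
  have hline : lineY (fun x y => 1 - F x y) = 0 := by
    have h1 : ∀ᵐ x ∂(volume.restrict (Ioc (0 : ℝ) 1)),
        fullInd (marg (fun x y => 1 - F x y) x) = 0 := by
      filter_upwards [hr.ae_mem] with x hx
      rw [S.marg_compl_F]
      have : 1 - marg F x ≠ 1 := by
        have := hx.1
        intro h2
        linarith
      simp [fullInd, this]
    unfold lineY
    change ∫ x in (0 : ℝ)..1, fullInd (marg (fun x y => 1 - F x y) x) = 0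
    rw [intervalIntegral.integral_of_le zero_le_one, integral_congr_ae h1]
    simp
  rw [hline] at h
  linarith

/-- The bound by the two-torus profile. -/
theorem I2_le (S : Seq2 F v vx vy) {Λ : ℝ}
    (hΛ : ∀ k, ∫ x in (0 : ℝ)..1, ∫ y in (0 : ℝ)..1, √(vx k x y ^ 2 + vy k x y ^ 2) ≤ Λ) :
    I2 (area F) ≤ Λ := by
  have hconv : ∀ᵐ t, Tendsto (fun k => marg (v k) t) atTop (𝓝 (marg F t)) := by
    filter_upwards [S.ae_slice] with x hx using S.marg_conv hx
  obtain ⟨a, b, hr⟩ := exists_goodRange S.marg_nonneg S.marg_le_one hconv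
  have hI1 : I2 (area F) ≤ 2 * √(π * area F) := min_le_left _ _
  have hI2 : I2 (area F) ≤ 2 := (min_le_right _ _).trans (min_le_left _ _)
  have hI3 : I2 (area F) ≤ 2 * √(π * (1 - area F)) := (min_le_right _ _).trans (min_le_right _ _)
  rcases hr.nonneg.eq_or_lt with ha | ha
  · -- infimum zero
    rcases hr.le_one.lt_or_eq with hb | hb
    · have hr' : GoodRange (fun k => marg (v k)) (marg F) 0 b := ha ▸ hr
      have h := S.disc_bound hΛ hr'
      rw [S.range_top_of_line hr hb] at h
      linarith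
    · have h := S.two_mul_range_le hΛ hr
      rw [hb, ← ha] at h
      linarith
  · rcases hr.le_one.lt_or_eq with hb | hb
    · -- all lines are nontrivial
      have h := S.calib_energy pair10 hΛ hr
      have h2 := S.chi_integral hr ha
      rw [S.range_top_of_line hr hb] at h2
      simp only [one_mul, intervalIntegral.integral_zero, mul_zero, add_zero] at h
      linarith
    · have hr' : GoodRange (fun k => marg (v k)) (marg F) a 1 := hb ▸ hr
      have h := S.compl_disc_bound hΛ hr' ha
      linarith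

/-- Transposition of a sequence. -/
lemma swap (S : Seq2 F v vx vy) :
    Seq2 (fun x y => F y x) (fun k x y => v k y x) (fun k x y => vy k y x)
      (fun k x y => vx k y x) where
  meas := S.meas.comp (measurable_snd.prodMk measurable_fst)
  bin := fun x y => S.bin y x
  smooth := fun k =>
    { cont := (S.smooth k).cont.comp (continuous_snd.prodMk continuous_fst)
      contx := (S.smooth k).conty.comp (continuous_snd.prodMk continuous_fst)
      conty := (S.smooth k).contx.comp (continuous_snd.prodMk continuous_fst)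
      dx := fun x y => (S.smooth k).dy y x
      dy := fun x y => (S.smooth k).dx y x
      perx := fun y => (S.smooth k).pery y
      pery := fun x => (S.smooth k).perx x }
  bdd := fun k x y => S.bdd k y x
  conv := by
    have h := S.conv
    have hq : Measure.QuasiMeasurePreserving (Prod.swap : ℝ × ℝ → ℝ × ℝ) volume volume := by
      rw [Measure.volume_eq_prod]
      exact Measure.measurePreserving_swap.quasiMeasurePreserving
    filter_upwards [hq.ae h] with q hq' using hq'

/-- Fubini on the square for integrable functions. -/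
lemma square_swap {f : ℝ → ℝ → ℝ}
    (hf : Integrable (Function.uncurry f)
      ((volume.restrict (Ioc (0 : ℝ) 1)).prod (volume.restrict (Ioc (0 : ℝ) 1)))) :
    ∫ x in (0 : ℝ)..1, ∫ y in (0 : ℝ)..1, f x y = ∫ y in (0 : ℝ)..1, ∫ x in (0 : ℝ)..1, f x y := by
  simp only [intervalIntegral.integral_of_le (zero_le_one : (0 : ℝ) ≤ 1)]
  exact integral_integral_swap hf

lemma square_swap_cont {f : ℝ → ℝ → ℝ} (hf : Continuous fun q : ℝ × ℝ => f q.1 q.2) :
    ∫ x in (0 : ℝ)..1, ∫ y in (0 : ℝ)..1, f x y = ∫ y in (0 : ℝ)..1, ∫ x in (0 : ℝ)..1, f x y := by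
  apply square_swap
  rw [Measure.prod_restrict]
  have h1 : IntegrableOn (fun q : ℝ × ℝ => f q.1 q.2) (Icc (0 : ℝ) 1 ×ˢ Icc (0 : ℝ) 1)
      (volume.prod volume) :=
    hf.continuousOn.integrableOn_compact (isCompact_Icc.prod isCompact_Icc)
  exact h1.mono_set (Set.prod_mono Ioc_subset_Icc_self Ioc_subset_Icc_self)

lemma area_swap (S : Seq2 F v vx vy) : area (fun x y => F y x) = area F := by
  have h : area (fun x y => F y x) = ∫ x in (0 : ℝ)..1, ∫ y in (0 : ℝ)..1, F y x := rfl
  rw [h]
  refine (square_swap (f := fun x y => F y x) ?_)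
  refine Integrable.of_bound (C := 1) ?_ ?_
  · exact (S.swap.meas).aestronglyMeasurable
  · refine Eventually.of_forall fun q => ?_
    rcases S.bin q.2 q.1 with h | h <;> simp [Function.uncurry, h]

lemma energy_swap (S : Seq2 F v vx vy) (k : ℕ) :
    ∫ x in (0 : ℝ)..1, ∫ y in (0 : ℝ)..1, √(vy k y x ^ 2 + vx k y x ^ 2) =
      ∫ x in (0 : ℝ)..1, ∫ y in (0 : ℝ)..1, √(vx k x y ^ 2 + vy k x y ^ 2) := by
  have hc : Continuous fun q : ℝ × ℝ => √(vy k q.2 q.1 ^ 2 + vx k q.2 q.1 ^ 2) := by
    have h1 := (S.smooth k).contx.comp (continuous_snd.prodMk continuous_fst)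
    have h2 := (S.smooth k).conty.comp (continuous_snd.prodMk continuous_fst)
    exact ((h2.pow 2).add (h1.pow 2)).sqrt
  rw [square_swap_cont (f := fun x y => √(vy k y x ^ 2 + vx k y x ^ 2)) hc]
  refine intervalIntegral.integral_congr fun x _ => ?_
  refine intervalIntegral.integral_congr fun y _ => ?_
  simp only [add_comm]

lemma GoodRange_comp {g : ℕ → ℝ → ℝ} {G : ℝ → ℝ} {a b : ℝ} (hr : GoodRange g G a b) {φ : ℕ → ℕ}
    (hφ : Tendsto φ atTop atTop) : GoodRange (fun k => g (φ k)) G a b := by
  refine ⟨hr.nonneg, hr.le, hr.le_one, hr.ae_mem, ?_, ?_⟩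
  · intro ε hε
    obtain ⟨x, hx, ht, hG⟩ := hr.low ε hε
    exact ⟨x, hx, ht.comp hφ, hG⟩
  · intro ε hε
    obtain ⟨x, hx, ht, hG⟩ := hr.high ε hε
    exact ⟨x, hx, ht.comp hφ, hG⟩

/-- Without empty lines, the energy in one direction is eventually large. -/
lemma eventually_cost (S : Seq2 F v vx vy) {a b : ℝ}
    (hr : GoodRange (fun k => marg (v k)) (marg F) a b) (ha : 0 < a) {c : ℝ}
    (hc : c < 2 * (1 - lineY F)) :
    ∀ᶠ k in atTop, c < ∫ x in (0 : ℝ)..1, innerCost (vy k) x := by
  by_contra hcon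
  rw [not_eventually] at hcon
  obtain ⟨φ, hφ, hφc⟩ := extraction_of_frequently_atTop hcon
  have S' := S.subseq hφ.tendsto_atTop
  have hr' := GoodRange_comp hr hφ.tendsto_atTop
  have h := S'.outer_general (Λ := c) pair10 (fun k => by
    have := not_lt.1 (hφc k)
    simpa using this) hr'
  have h2 := S.chi_integral hr ha
  simp only [one_mul, intervalIntegral.integral_zero, mul_zero, add_zero] at h
  linarith

/-- The bound without full lines. -/
theorem Ju_le (S : Seq2 F v vx vy) {Λ : ℝ}
    (hΛ : ∀ k, ∫ x in (0 : ℝ)..1, ∫ y in (0 : ℝ)..1, √(vx k x y ^ 2 + vy k x y ^ 2) ≤ Λ) :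
    Ju (area F) ≤ Λ + 2 * (lineY F + lineX F) := by
  have hconv : ∀ᵐ t, Tendsto (fun k => marg (v k) t) atTop (𝓝 (marg F t)) := by
    filter_upwards [S.ae_slice] with x hx using S.marg_conv hx
  have hconvT : ∀ᵐ t, Tendsto (fun k => marg (fun x y => v k y x) t) atTop
      (𝓝 (marg (fun x y => F y x) t)) := by
    filter_upwards [S.swap.ae_slice] with x hx using S.swap.marg_conv hx
  have hJ1 : Ju (area F) ≤ 2 * √(π * area F) := min_le_left _ _
  have hJ2 : Ju (area F) ≤ 2 * √2 := min_le_right _ _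
  have hβ1 := lineY_nonneg F
  have hβ2 := lineX_nonneg F
  obtain ⟨a, b, hr⟩ := exists_goodRange S.marg_nonneg S.marg_le_one hconv
  obtain ⟨a', b', hr'⟩ := exists_goodRange S.swap.marg_nonneg S.swap.marg_le_one hconvT
  rcases hr.nonneg.eq_or_lt with ha | ha
  · have hr0 : GoodRange (fun k => marg (v k)) (marg F) 0 b := ha ▸ hr
    have h := S.disc_bound hΛ hr0
    linarith
  rcases hr'.nonneg.eq_or_lt with ha' | ha'
  · have hr0 : GoodRange (fun k => marg (fun x y => v k y x)) (marg fun x y => F y x) 0 b' :=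
      ha' ▸ hr'
    have h := S.swap.disc_bound (Λ := Λ) (fun k => by
      rw [S.energy_swap k]; exact hΛ k) hr0
    rw [S.area_swap] at h
    have hl : lineY (fun x y => F y x) = lineX F := rfl
    rw [hl] at h
    linarith
  -- both infima positive
  refine hJ2.trans ?_
  have hsq : √2 ≤ 2 := by
    rw [Real.sqrt_le_left (by norm_num)]
    norm_num
  have hmain : 2 * (1 - lineY F) + 2 * (1 - lineX F) ≤ √2 * Λ := by
    refine le_of_forall_pos_le_add fun ε hε => ?_
    have e1 := S.eventually_cost hr ha (c := 2 * (1 - lineY F) - ε / 2) (by linarith)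
    have e2 := S.swap.eventually_cost hr' ha' (c := 2 * (1 - lineX F) - ε / 2) (by
      have hl : lineY (fun x y => F y x) = lineX F := rfl
      rw [hl]
      linarith)
    obtain ⟨k, hk1, hk2⟩ := (e1.and e2).exists
    have hq : ∫ x in (0 : ℝ)..1, innerCost (fun x y => vx k y x) x =
        ∫ x in (0 : ℝ)..1, ∫ y in (0 : ℝ)..1, |vx k x y| := by
      unfold innerCost
      have hc : Continuous fun q : ℝ × ℝ => |vx k q.2 q.1| :=
        ((S.smooth k).contx.comp (continuous_snd.prodMk continuous_fst)).abs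
      rw [square_swap_cont (f := fun x y => |vx k y x|) hc]
    rw [hq] at hk2
    have hvyc : Continuous fun q : ℝ × ℝ => |vy k q.1 q.2| := (S.smooth k).conty.abs
    have hvxc : Continuous fun q : ℝ × ℝ => |vx k q.1 q.2| := (S.smooth k).contx.abs
    have hsum : (∫ x in (0 : ℝ)..1, innerCost (vy k) x) +
        ∫ x in (0 : ℝ)..1, ∫ y in (0 : ℝ)..1, |vx k x y| ≤
        √2 * ∫ x in (0 : ℝ)..1, ∫ y in (0 : ℝ)..1, √(vx k x y ^ 2 + vy k x y ^ 2) := by
      rw [← intervalIntegral.integral_const_mul]
      have hc1 : Continuous (innerCost (vy k)) := S.innerCost_cont k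
      have hc2 : Continuous fun x => ∫ y in (0 : ℝ)..1, |vx k x y| :=
        marg_continuous (f := fun x y => |vx k x y|) hvxc
      have hcq : Continuous fun q : ℝ × ℝ => √(vx k q.1 q.2 ^ 2 + vy k q.1 q.2 ^ 2) :=
        (((S.smooth k).contx.pow 2).add ((S.smooth k).conty.pow 2)).sqrt
      have hc3 : Continuous fun x => ∫ y in (0 : ℝ)..1, √(vx k x y ^ 2 + vy k x y ^ 2) :=
        marg_continuous (f := fun x y => √(vx k x y ^ 2 + vy k x y ^ 2)) hcq
      rw [← intervalIntegral.integral_add (hc1.intervalIntegrable _ _) (hc2.intervalIntegrable _ _)]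
      refine intervalIntegral.integral_mono_on zero_le_one
        ((hc1.add hc2).intervalIntegrable _ _)
        ((continuous_const.mul hc3).intervalIntegrable _ _) fun x _ => ?_
      have hs1 : Continuous fun y => |vy k x y| := by
        have : Continuous fun y : ℝ => ((x, y) : ℝ × ℝ) := by fun_prop
        exact hvyc.comp this
      have hs2 : Continuous fun y => |vx k x y| := by
        have : Continuous fun y : ℝ => ((x, y) : ℝ × ℝ) := by fun_prop
        exact hvxc.comp this
      have hs3 : Continuous fun y => √(vx k x y ^ 2 + vy k x y ^ 2) := by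
        have : Continuous fun y : ℝ => ((x, y) : ℝ × ℝ) := by fun_prop
        exact hcq.comp this
      unfold innerCost
      rw [← intervalIntegral.integral_const_mul,
        ← intervalIntegral.integral_add (hs1.intervalIntegrable _ _) (hs2.intervalIntegrable _ _)]
      refine intervalIntegral.integral_mono_on zero_le_one
        ((hs1.add hs2).intervalIntegrable _ _)
        ((continuous_const.mul hs3).intervalIntegrable _ _) fun y _ => ?_
      set p := |vy k x y| with hp
      set q := |vx k x y| with hq'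
      have hp0 : 0 ≤ p := abs_nonneg _
      have hq0 : 0 ≤ q := abs_nonneg _
      have e : vx k x y ^ 2 + vy k x y ^ 2 = q ^ 2 + p ^ 2 := by
        rw [hp, hq', sq_abs, sq_abs]
      rw [e]
      have h2 : √2 * √(q ^ 2 + p ^ 2) = √(2 * (q ^ 2 + p ^ 2)) := by
        rw [Real.sqrt_mul (by norm_num)]
      rw [h2]
      apply Real.le_sqrt_of_sq_le
      nlinarith [sq_nonneg (p - q)]
    have hle := mul_le_mul_of_nonneg_left (hΛ k) (Real.sqrt_nonneg 2)
    linarith
  have hΛ0 : 0 ≤ Λ := (energy_nonneg _ _).trans (hΛ 0)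
  have h2 : √2 * √2 = 2 := Real.mul_self_sqrt (by norm_num)
  have hsq0 : 0 < √2 := Real.sqrt_pos.2 (by norm_num)
  have h3 : √2 * (2 * √2 - (Λ + 2 * (lineY F + lineX F))) ≤ 0 := by
    have e : √2 * (2 * √2) = 4 := by nlinarith
    have e2 : √2 * (lineY F + lineX F) ≤ 2 * (lineY F + lineX F) :=
      mul_le_mul_of_nonneg_right hsq (by linarith)
    have e3 : 0 ≤ lineY F + lineX F := by linarith
    nlinarith
  have h4 : 2 * √2 - (Λ + 2 * (lineY F + lineX F)) ≤ 0 := by
    by_contra hc
    push Not at hc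
    have := mul_pos hsq0 hc
    linarith
  linarith

end Seq2

/-- The two-dimensional slice bound: limits of smooth periodic functions on the two-torus. -/
theorem T2_bound {F : ℝ → ℝ → ℝ} (hF : Measurable fun q : ℝ × ℝ => F q.1 q.2)
    (h01 : ∀ x y, F x y = 0 ∨ F x y = 1)
    {v vx vy : ℕ → ℝ → ℝ → ℝ} (hs : ∀ k, Smooth2 (v k) (vx k) (vy k))
    (hb : ∀ k x y, 0 ≤ v k x y ∧ v k x y ≤ 1)
    (hconv : ∀ᵐ q : ℝ × ℝ, Tendsto (fun k => v k q.1 q.2) atTop (𝓝 (F q.1 q.2)))
    {Λ : ℝ} (hΛ : ∀ k, ∫ x in (0 : ℝ)..1, ∫ y in (0 : ℝ)..1, √(vx k x y ^ 2 + vy k x y ^ 2) ≤ Λ) :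
    I2 (area F) ≤ Λ ∧ Ju (area F) ≤ Λ + 2 * (lineY F + lineX F) := by
  have S : Seq2 F v vx vy := ⟨hF, h01, hs, hb, hconv⟩
  exact ⟨S.I2_le hΛ, S.Ju_le hΛ⟩

end Vale.Agent.Lib.P232
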