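import Vale.Agent.Lib.P232.T2

open MeasureTheory Filter Topology Set
open scoped Real

namespace Vale.Agent.Lib.P232

/-- Volume of a cell function of three variables. -/
noncomputable def vol3 (F : ℝ → ℝ → ℝ → ℝ) : ℝ :=
  ∫ x in (0 : ℝ)..1, ∫ y in (0 : ℝ)..1, ∫ z in (0 : ℝ)..1, F x y z

/-- Measure of full lines in the first coordinate direction. -/
noncomputable def full1 (F : ℝ → ℝ → ℝ → ℝ) : ℝ :=
  ∫ y in (0 : ℝ)..1, ∫ z in (0 : ℝ)..1, fullInd (∫ x in (0 : ℝ)..1, F x y z)

/-- Measure of full lines in the second coordinate direction. -/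
noncomputable def full2 (F : ℝ → ℝ → ℝ → ℝ) : ℝ :=
  ∫ x in (0 : ℝ)..1, ∫ z in (0 : ℝ)..1, fullInd (∫ y in (0 : ℝ)..1, F x y z)

/-- Measure of full lines in the third coordinate direction. -/
noncomputable def full3 (F : ℝ → ℝ → ℝ → ℝ) : ℝ :=
  ∫ x in (0 : ℝ)..1, ∫ y in (0 : ℝ)..1, fullInd (∫ z in (0 : ℝ)..1, F x y z)

/-- The Dirichlet-type energy of a triple of partial derivatives on the unit cell. -/
noncomputable def energy3 (ux uy uz : ℝ → ℝ → ℝ → ℝ) : ℝ :=
  ∫ x in (0 : ℝ)..1, ∫ y in (0 : ℝ)..1, ∫ z in (0 : ℝ)..1,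
    √(ux x y z ^ 2 + uy x y z ^ 2 + uz x y z ^ 2)

/-- A sequence of smooth periodic functions on the cube converging to a 0/1 function. -/
structure Seq3 (F : ℝ → ℝ → ℝ → ℝ) (u ux uy uz : ℕ → ℝ → ℝ → ℝ → ℝ) : Prop where
  meas : Measurable fun p : ℝ × ℝ × ℝ => F p.1 p.2.1 p.2.2
  bin : ∀ x y z, F x y z = 0 ∨ F x y z = 1
  smooth : ∀ k, Smooth3 (u k) (ux k) (uy k) (uz k)
  bdd : ∀ k x y z, 0 ≤ u k x y z ∧ u k x y z ≤ 1
  conv : ∀ᵐ p : ℝ × ℝ × ℝ, Tendsto (fun k => u k p.1 p.2.1 p.2.2) atTop (𝓝 (F p.1 p.2.1 p.2.2))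

/-- Continuity of restrictions to slices. -/
lemma cont_slice {f : ℝ → ℝ → ℝ → ℝ} (hf : Continuous fun p : ℝ × ℝ × ℝ => f p.1 p.2.1 p.2.2)
    (x : ℝ) : Continuous fun q : ℝ × ℝ => f x q.1 q.2 := by
  have : Continuous fun q : ℝ × ℝ => ((x, q.1, q.2) : ℝ × ℝ × ℝ) := by fun_prop
  exact hf.comp this

/-- Smoothness of slices. -/
lemma smooth_slice {u ux uy uz : ℝ → ℝ → ℝ → ℝ} (h : Smooth3 u ux uy uz) (x : ℝ) :
    Smooth2 (u x) (uy x) (uz x) where
  cont := cont_slice h.cont x
  contx := cont_slice h.conty x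
  conty := cont_slice h.contz x
  dx := fun y z => h.dy x y z
  dy := fun y z => h.dz x y z
  perx := fun z => h.pery x z
  pery := fun y => h.perz x y

/-- Continuity of the marginal of a function of three variables. -/
lemma cont_marg2 {f : ℝ → ℝ → ℝ → ℝ} (hf : Continuous fun p : ℝ × ℝ × ℝ => f p.1 p.2.1 p.2.2) :
    Continuous fun q : ℝ × ℝ => marg (f q.1) q.2 := by
  unfold marg
  refine marg_continuous (f := fun (q : ℝ × ℝ) z => f q.1 q.2 z) ?_
  have : Continuous fun r : (ℝ × ℝ) × ℝ => ((r.1.1, r.1.2, r.2) : ℝ × ℝ × ℝ) := by fun_prop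
  exact hf.comp this

/-- Continuity of the area of slices. -/
lemma cont_area {f : ℝ → ℝ → ℝ → ℝ} (hf : Continuous fun p : ℝ × ℝ × ℝ => f p.1 p.2.1 p.2.2) :
    Continuous fun x => area (f x) :=
  marg_continuous (f := fun x y => marg (f x) y) (cont_marg2 hf)

/-- Differentiating the area. -/
lemma area_hasDerivAt {u ux uy uz : ℝ → ℝ → ℝ → ℝ} (h : Smooth3 u ux uy uz) (x : ℝ) :
    HasDerivAt (fun s => area (u s)) (area (ux x)) x := by
  refine hasDerivAt_param (f := fun s y => marg (u s) y) (f' := fun s y => marg (ux s) y)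
    (cont_marg2 h.cont) (cont_marg2 h.contx) ?_ x
  intro x y
  refine hasDerivAt_param (f := fun s z => u s y z) (f' := fun s z => ux s y z) ?_ ?_ ?_ x
  · have : Continuous fun q : ℝ × ℝ => ((q.1, y, q.2) : ℝ × ℝ × ℝ) := by fun_prop
    exact h.cont.comp this
  · have : Continuous fun q : ℝ × ℝ => ((q.1, y, q.2) : ℝ × ℝ × ℝ) := by fun_prop
    exact h.contx.comp this
  · intro x z
    exact h.dx x y z

lemma area_per {u ux uy uz : ℝ → ℝ → ℝ → ℝ} (h : Smooth3 u ux uy uz) : area (u 0) = area (u 1) := by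
  unfold area
  refine intervalIntegral.integral_congr fun y _ => ?_
  refine intervalIntegral.integral_congr fun z _ => ?_
  exact h.perx y z

/-- Measurable binary data on the square. -/
lemma area_mem {F : ℝ → ℝ → ℝ} (hF : Measurable fun q : ℝ × ℝ => F q.1 q.2)
    (h01 : ∀ x y, F x y = 0 ∨ F x y = 1) : 0 ≤ area F ∧ area F ≤ 1 := by
  have hslice : ∀ x, Measurable (F x) := fun x =>
    hF.comp (measurable_const.prodMk measurable_id)
  have hint : ∀ x, IntervalIntegrable (F x) volume 0 1 := fun x => by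
    rw [intervalIntegrable_iff, uIoc_of_le zero_le_one]
    refine Integrable.of_bound (C := 1) (hslice x).aestronglyMeasurable ?_
    refine Eventually.of_forall fun y => ?_
    rcases h01 x y with h | h <;> simp [h]
  have hm0 : ∀ x, 0 ≤ marg F x := fun x =>
    intervalIntegral.integral_nonneg zero_le_one fun y _ => by
      rcases h01 x y with h | h <;> simp [h]
  have hm1 : ∀ x, marg F x ≤ 1 := fun x => by
    have h1 : marg F x ≤ ∫ _ in (0 : ℝ)..1, (1 : ℝ) :=
      intervalIntegral.integral_mono_on zero_le_one (hint x) (by simp) fun y _ => by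
        rcases h01 x y with h | h <;> simp [h]
    simpa using h1
  have hmm : Measurable (marg F) := marg_measurable' (f := F) hF
  have hmi : IntervalIntegrable (marg F) volume 0 1 := by
    rw [intervalIntegrable_iff, uIoc_of_le zero_le_one]
    refine Integrable.of_bound (C := 1) hmm.aestronglyMeasurable ?_
    refine Eventually.of_forall fun x => ?_
    rw [Real.norm_eq_abs, abs_of_nonneg (hm0 x)]
    exact hm1 x
  constructor
  · exact intervalIntegral.integral_nonneg zero_le_one fun x _ => hm0 x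
  · have h1 : area F ≤ ∫ _ in (0 : ℝ)..1, (1 : ℝ) :=
      intervalIntegral.integral_mono_on zero_le_one hmi (by simp) fun x _ => hm1 x
    simpa using h1

namespace Seq2

variable {F : ℝ → ℝ → ℝ} {v vx vy : ℕ → ℝ → ℝ → ℝ}

/-- Convergence of areas. -/
lemma area_conv (S : Seq2 F v vx vy) :
    Tendsto (fun k => area (v k)) atTop (𝓝 (area F)) := by
  refine intervalIntegral.tendsto_integral_filter_of_dominated_convergence (bound := fun _ => 1)
    ?_ ?_ intervalIntegrable_const ?_
  · refine Eventually.of_forall fun k => ?_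
    have hc : Continuous (marg (v k)) :=
      continuous_iff_continuousAt.2 fun t => (S.marg_v_hasDerivAt k t).continuousAt
    exact hc.aestronglyMeasurable
  · refine Eventually.of_forall fun k => Eventually.of_forall fun x _ => ?_
    have h0 : 0 ≤ marg (v k) x :=
      intervalIntegral.integral_nonneg zero_le_one fun y _ => (S.bdd k x y).1
    have h1 : marg (v k) x ≤ 1 := by
      have h1 : marg (v k) x ≤ ∫ _ in (0 : ℝ)..1, (1 : ℝ) :=
        intervalIntegral.integral_mono_on zero_le_one ((S.cont_v k x).intervalIntegrable _ _)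
          (by simp) fun y _ => (S.bdd k x y).2
      simpa using h1
    rw [Real.norm_eq_abs]
    change |marg (v k) x| ≤ 1
    rw [abs_of_nonneg h0]
    exact h1
  · filter_upwards [S.ae_slice] with x hx _ using S.marg_conv hx

end Seq2

namespace Seq3

variable {F : ℝ → ℝ → ℝ → ℝ} {u ux uy uz : ℕ → ℝ → ℝ → ℝ → ℝ}

lemma slice_meas (S : Seq3 F u ux uy uz) (x : ℝ) : Measurable fun q : ℝ × ℝ => F x q.1 q.2 := by
  have : Measurable fun q : ℝ × ℝ => ((x, q.1, q.2) : ℝ × ℝ × ℝ) := by fun_prop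
  exact S.meas.comp this

/-- Almost every slice is a good sequence on the square. -/
lemma ae_slice (S : Seq3 F u ux uy uz) :
    ∀ᵐ x, Seq2 (F x) (fun k => u k x) (fun k => uy k x) (fun k => uz k x) := by
  have h := S.conv
  rw [Measure.volume_eq_prod] at h
  filter_upwards [Measure.ae_ae_of_ae_prod h] with x hx
  exact ⟨S.slice_meas x, S.bin x, fun k => smooth_slice (S.smooth k) x, fun k => S.bdd k x, hx⟩

/-- The area function. -/
lemma G_mem (S : Seq3 F u ux uy uz) (x : ℝ) : 0 ≤ area (F x) ∧ area (F x) ≤ 1 :=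
  area_mem (S.slice_meas x) (S.bin x)

lemma meas2 (S : Seq3 F u ux uy uz) : Measurable fun q : ℝ × ℝ => marg (F q.1) q.2 := by
  refine marg_measurable' (f := fun (q : ℝ × ℝ) z => F q.1 q.2 z) ?_
  have : Measurable fun r : (ℝ × ℝ) × ℝ => ((r.1.1, r.1.2, r.2) : ℝ × ℝ × ℝ) := by fun_prop
  exact S.meas.comp this

lemma G_meas (S : Seq3 F u ux uy uz) : Measurable fun x => area (F x) :=
  marg_measurable' (f := fun x y => marg (F x) y) S.meas2

/-- The transverse energy. -/
noncomputable def transCost (uy uz : ℝ → ℝ → ℝ → ℝ) (x : ℝ) : ℝ :=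
  ∫ y in (0 : ℝ)..1, ∫ z in (0 : ℝ)..1, √(uy x y z ^ 2 + uz x y z ^ 2)

lemma transCost_nonneg (uy uz : ℝ → ℝ → ℝ → ℝ) (x : ℝ) : 0 ≤ transCost uy uz x :=
  intervalIntegral.integral_nonneg zero_le_one fun _ _ =>
    intervalIntegral.integral_nonneg zero_le_one fun _ _ => Real.sqrt_nonneg _

lemma cq (S : Seq3 F u ux uy uz) (k : ℕ) :
    Continuous fun p : ℝ × ℝ × ℝ => √(uy k p.1 p.2.1 p.2.2 ^ 2 + uz k p.1 p.2.1 p.2.2 ^ 2) :=
  (((S.smooth k).conty.pow 2).add ((S.smooth k).contz.pow 2)).sqrt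

lemma transCost_cont (S : Seq3 F u ux uy uz) (k : ℕ) : Continuous (transCost (uy k) (uz k)) :=
  cont_area (f := fun x y z => √(uy k x y z ^ 2 + uz k x y z ^ 2)) (S.cq k)

/-- The energy dominates the calibrated quantity. -/
theorem energy_ge (S : Seq3 F u ux uy uz) {A B : ℝ → ℝ} (hp : CalibPair A B) (k : ℕ) :
    ∫ x in (0 : ℝ)..1, (A (area (u k x)) * transCost (uy k) (uz k) x +
      B (area (u k x)) * |area (ux k x)|) ≤ energy3 (ux k) (uy k) (uz k) := by
  have hsm := S.smooth k
  have hgc : Continuous fun x => area (u k x) := cont_area hsm.cont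
  have hc1 : Continuous fun x => (A (area (u k x)) * transCost (uy k) (uz k) x +
      B (area (u k x)) * |area (ux k x)|) :=
    ((hp.contA.comp hgc).mul (S.transCost_cont k)).add
      ((hp.contB.comp hgc).mul (cont_area hsm.contx).abs)
  have hcq : Continuous fun p : ℝ × ℝ × ℝ =>
      √(ux k p.1 p.2.1 p.2.2 ^ 2 + uy k p.1 p.2.1 p.2.2 ^ 2 + uz k p.1 p.2.1 p.2.2 ^ 2) :=
    (((hsm.contx.pow 2).add (hsm.conty.pow 2)).add (hsm.contz.pow 2)).sqrt
  have hc2 : Continuous fun x => ∫ y in (0 : ℝ)..1, ∫ z in (0 : ℝ)..1,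
      √(ux k x y z ^ 2 + uy k x y z ^ 2 + uz k x y z ^ 2) :=
    cont_area (f := fun x y z => √(ux k x y z ^ 2 + uy k x y z ^ 2 + uz k x y z ^ 2)) hcq
  refine intervalIntegral.integral_mono_on zero_le_one (hc1.intervalIntegrable _ _)
    (hc2.intervalIntegrable _ _) fun x _ => ?_
  set a := A (area (u k x)) with ha
  set b := B (area (u k x)) with hb
  have ha0 : 0 ≤ a := hp.nonnegA _
  have hb0 : 0 ≤ b := hp.nonnegB _
  have hab : a ^ 2 + b ^ 2 ≤ 1 := hp.le_one _
  -- continuity in the outer slice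
  have hm1 : Continuous fun y => ∫ z in (0 : ℝ)..1, √(uy k x y z ^ 2 + uz k x y z ^ 2) := by
    exact marg_continuous (f := fun y z => √(uy k x y z ^ 2 + uz k x y z ^ 2))
      (cont_slice (f := fun x y z => √(uy k x y z ^ 2 + uz k x y z ^ 2)) (S.cq k) x)
  have hm2 : Continuous fun y => ∫ z in (0 : ℝ)..1, |ux k x y z| :=
    marg_continuous (f := fun y z => |ux k x y z|) (cont_slice (f := fun x y z => |ux k x y z|) hsm.contx.abs x)
  have hm3 : Continuous fun y => ∫ z in (0 : ℝ)..1,
      √(ux k x y z ^ 2 + uy k x y z ^ 2 + uz k x y z ^ 2) :=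
    marg_continuous (f := fun y z => √(ux k x y z ^ 2 + uy k x y z ^ 2 + uz k x y z ^ 2))
      (cont_slice (f := fun x y z => √(ux k x y z ^ 2 + uy k x y z ^ 2 + uz k x y z ^ 2)) hcq x)
  have hm4 : Continuous fun y => ∫ z in (0 : ℝ)..1, ux k x y z :=
    marg_continuous (f := fun y z => ux k x y z) (cont_slice (f := fun x y z => ux k x y z) hsm.contx x)
  have e1 : |area (ux k x)| ≤ ∫ y in (0 : ℝ)..1, ∫ z in (0 : ℝ)..1, |ux k x y z| := by
    refine (intervalIntegral.abs_integral_le_integral_abs zero_le_one).trans ?_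
    refine intervalIntegral.integral_mono_on zero_le_one (hm4.abs.intervalIntegrable _ _)
      (hm2.intervalIntegrable _ _) fun y _ => ?_
    exact intervalIntegral.abs_integral_le_integral_abs zero_le_one
  have e2 : a * transCost (uy k) (uz k) x + b * ∫ y in (0 : ℝ)..1, ∫ z in (0 : ℝ)..1, |ux k x y z|
      ≤ ∫ y in (0 : ℝ)..1, ∫ z in (0 : ℝ)..1,
        √(ux k x y z ^ 2 + uy k x y z ^ 2 + uz k x y z ^ 2) := by
    have h1 : Continuous fun y => a * ∫ z in (0 : ℝ)..1, √(uy k x y z ^ 2 + uz k x y z ^ 2) :=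
      continuous_const.mul hm1
    have h2 : Continuous fun y => b * ∫ z in (0 : ℝ)..1, |ux k x y z| :=
      continuous_const.mul hm2
    unfold transCost
    rw [← intervalIntegral.integral_const_mul, ← intervalIntegral.integral_const_mul,
      ← intervalIntegral.integral_add (h1.intervalIntegrable _ _) (h2.intervalIntegrable _ _)]
    refine intervalIntegral.integral_mono_on zero_le_one ((h1.add h2).intervalIntegrable _ _)
      (hm3.intervalIntegrable _ _) fun y _ => ?_
    have hs1 : Continuous fun z => √(uy k x y z ^ 2 + uz k x y z ^ 2) := by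
      have : Continuous fun z : ℝ => ((y, z) : ℝ × ℝ) := by fun_prop
      exact (cont_slice (f := fun x y z => √(uy k x y z ^ 2 + uz k x y z ^ 2)) (S.cq k) x).comp this
    have hs2 : Continuous fun z => |ux k x y z| := by
      have : Continuous fun z : ℝ => ((y, z) : ℝ × ℝ) := by fun_prop
      exact (cont_slice (f := fun x y z => |ux k x y z|) hsm.contx.abs x).comp this
    have hs3 : Continuous fun z => √(ux k x y z ^ 2 + uy k x y z ^ 2 + uz k x y z ^ 2) := by
      have : Continuous fun z : ℝ => ((y, z) : ℝ × ℝ) := by fun_prop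
      exact (cont_slice (f := fun x y z => √(ux k x y z ^ 2 + uy k x y z ^ 2 + uz k x y z ^ 2)) hcq x).comp this
    have h3 : Continuous fun z => a * √(uy k x y z ^ 2 + uz k x y z ^ 2) :=
      continuous_const.mul hs1
    have h4 : Continuous fun z => b * |ux k x y z| := continuous_const.mul hs2
    rw [← intervalIntegral.integral_const_mul, ← intervalIntegral.integral_const_mul,
      ← intervalIntegral.integral_add (h3.intervalIntegrable _ _) (h4.intervalIntegrable _ _)]
    refine intervalIntegral.integral_mono_on zero_le_one ((h3.add h4).intervalIntegrable _ _)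
      (hs3.intervalIntegrable _ _) fun z _ => ?_
    have := cs_le (p := √(uy k x y z ^ 2 + uz k x y z ^ 2)) (q := |ux k x y z|) hab
    rw [Real.sq_sqrt (by positivity), sq_abs] at this
    have e : uy k x y z ^ 2 + uz k x y z ^ 2 + ux k x y z ^ 2 =
        ux k x y z ^ 2 + uy k x y z ^ 2 + uz k x y z ^ 2 := by ring
    rwa [e] at this
  have := mul_le_mul_of_nonneg_left e1 hb0
  linarith

/-- Convergence of areas of slices. -/
lemma ae_area_conv (S : Seq3 F u ux uy uz) :
    ∀ᵐ x, Tendsto (fun k => area (u k x)) atTop (𝓝 (area (F x))) := by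
  filter_upwards [S.ae_slice] with x hx using hx.area_conv

/-- Along subsequences the slice bounds hold. -/
lemma ae_slice_cost (S : Seq3 F u ux uy uz) :
    ∀ᵐ x, ∀ c, (∃ᶠ k in atTop, transCost (uy k) (uz k) x ≤ c) →
      I2 (area (F x)) ≤ c ∧ Ju (area (F x)) ≤ c + 2 * (lineY (F x) + lineX (F x)) := by
  filter_upwards [S.ae_slice] with x hx c hc
  obtain ⟨φ, hφ, hφc⟩ := extraction_of_frequently_atTop hc
  have S' := hx.subseq hφ.tendsto_atTop
  exact ⟨S'.I2_le hφc, S'.Ju_le hφc⟩

lemma lineY_meas (S : Seq3 F u ux uy uz) : Measurable fun x => lineY (F x) :=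
  marg_measurable' (f := fun x y => fullInd (marg (F x) y)) (fullInd_measurable.comp S.meas2)

lemma meas2' (S : Seq3 F u ux uy uz) :
    Measurable fun q : ℝ × ℝ => ∫ y in (0 : ℝ)..1, F q.1 y q.2 := by
  refine marg_measurable' (f := fun (q : ℝ × ℝ) y => F q.1 y q.2) ?_
  have : Measurable fun r : (ℝ × ℝ) × ℝ => ((r.1.1, r.2, r.1.2) : ℝ × ℝ × ℝ) := by fun_prop
  exact S.meas.comp this

lemma lineX_meas (S : Seq3 F u ux uy uz) : Measurable fun x => lineX (F x) :=
  marg_measurable' (f := fun x z => fullInd (∫ y in (0 : ℝ)..1, F x y z))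
    (fullInd_measurable.comp S.meas2')

end Seq3

lemma I2_continuous : Continuous I2 := by
  unfold I2
  fun_prop

lemma Ju_continuous : Continuous Ju := by
  unfold Ju
  fun_prop

lemma I2_nonneg (s : ℝ) : 0 ≤ I2 s := by
  unfold I2
  refine le_min (by positivity) (le_min zero_le_two (by positivity))

lemma I2_le_two (s : ℝ) : I2 s ≤ 2 := (min_le_right _ _).trans (min_le_left _ _)

lemma Ju_nonneg (s : ℝ) : 0 ≤ Ju s := by
  unfold Ju
  exact le_min (by positivity) (by positivity)

lemma Ju_le_bound (s : ℝ) : Ju s ≤ 2 * √2 := min_le_right _ _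

lemma calib_A_le_one {A B : ℝ → ℝ} (hp : CalibPair A B) (s : ℝ) : A s ≤ 1 := by
  have := hp.le_one s
  nlinarith [sq_nonneg (B s), hp.nonnegA s]

/-- Interval integrability of bounded measurable functions. -/
lemma ii_of_bdd {f : ℝ → ℝ} (hm : Measurable f) {C : ℝ} (hC : ∀ x, |f x| ≤ C) :
    IntervalIntegrable f volume 0 1 := by
  rw [intervalIntegrable_iff, uIoc_of_le zero_le_one]
  exact Integrable.of_bound (C := C) hm.aestronglyMeasurable (Eventually.of_forall fun x => hC x)

/-- Comparison of integrals on the unit interval. -/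
lemma integral_mono_unit {f g : ℝ → ℝ} (hf : IntervalIntegrable f volume 0 1)
    (hg : IntervalIntegrable g volume 0 1)
    (h : ∀ᵐ x ∂(volume.restrict (Ioc (0 : ℝ) 1)), f x ≤ g x) :
    ∫ x in (0 : ℝ)..1, f x ≤ ∫ x in (0 : ℝ)..1, g x := by
  rw [intervalIntegral.integral_of_le zero_le_one, intervalIntegral.integral_of_le zero_le_one]
  rw [intervalIntegrable_iff, uIoc_of_le zero_le_one] at hf hg
  exact integral_mono_ae hf hg h

namespace Seq3

variable {F : ℝ → ℝ → ℝ → ℝ} {u ux uy uz : ℕ → ℝ → ℝ → ℝ → ℝ}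

lemma G_ii (S : Seq3 F u ux uy uz) : IntervalIntegrable (fun x => area (F x)) volume 0 1 :=
  ii_of_bdd S.G_meas (C := 1) fun x => by
    rw [abs_of_nonneg (S.G_mem x).1]
    exact (S.G_mem x).2

lemma line_affine (S : Seq3 F u ux uy uz) {A : ℝ → ℝ} (hA : Continuous A) {C : ℝ}
    (J : ℝ → ℝ) (hJ : Continuous J) (hb : ∀ x, |A (area (F x)) * J (area (F x))| ≤ C) {a b k m : ℝ}
    (hr : ∀ᵐ t ∂(volume.restrict (Ioc (0 : ℝ) 1)), area (F t) ∈ Icc a b)
    (hline : ∀ s ∈ Icc a b, k * s + m ≤ A s * J s) :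
    k * vol3 F + m ≤ ∫ x in (0 : ℝ)..1, A (area (F x)) * J (area (F x)) := by
  have hi : IntervalIntegrable (fun x => k * area (F x) + m) volume 0 1 :=
    (S.G_ii.const_mul k).add intervalIntegrable_const
  have hm : Measurable fun x => A (area (F x)) * J (area (F x)) :=
    (hA.measurable.comp S.G_meas).mul (hJ.measurable.comp S.G_meas)
  have h1 : ∫ x in (0 : ℝ)..1, (k * area (F x) + m) = k * vol3 F + m := by
    rw [intervalIntegral.integral_add (S.G_ii.const_mul k) intervalIntegrable_const,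
      intervalIntegral.integral_const_mul]
    simp [vol3, area]
  rw [← h1]
  refine integral_mono_unit hi (ii_of_bdd hm hb) ?_
  filter_upwards [hr] with x hx using hline _ hx

/-- The calibration conclusion with the profile `I2`. -/
theorem pair_I2 (S : Seq3 F u ux uy uz) {Per : ℝ}
    (hPer : ∀ k, energy3 (ux k) (uy k) (uz k) ≤ Per) {A B : ℝ → ℝ} (hp : CalibPair A B) {a b : ℝ}
    (hr : GoodRange (fun k x => area (u k x)) (fun x => area (F x)) a b) :
    (∫ x in (0 : ℝ)..1, A (area (F x)) * I2 (area (F x))) + 2 * ∫ s in a..b, B s ≤ Per := by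
  refine outer_range hp (g := fun k x => area (u k x)) (g' := fun k x => area (ux k x))
    (W := fun k => transCost (uy k) (uz k)) (Y := fun x => I2 (area (F x)))
    (fun k t => area_hasDerivAt (S.smooth k) t) (fun k => cont_area (S.smooth k).contx)
    (fun k => area_per (S.smooth k)) S.transCost_cont (fun k t => transCost_nonneg _ _ _)
    (fun k => (S.energy_ge hp k).trans (hPer k)) S.G_meas
    (I2_continuous.measurable.comp S.G_meas) (fun t => I2_nonneg _) (C := 2)
    (fun t => I2_le_two _) S.ae_area_conv ?_ hr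
  filter_upwards [S.ae_slice_cost] with x hx c hc using (hx c hc).1

/-- The truncated slice bound without full lines. -/
noncomputable def Y2 (F : ℝ → ℝ → ℝ → ℝ) (x : ℝ) : ℝ :=
  max 0 (Ju (area (F x)) - 2 * (lineY (F x) + lineX (F x)))

lemma lineY_nonneg' (F : ℝ → ℝ → ℝ) : 0 ≤ lineY F :=
  intervalIntegral.integral_nonneg zero_le_one fun _ _ => fullInd_nonneg _

lemma lineX_nonneg' (F : ℝ → ℝ → ℝ) : 0 ≤ lineX F :=
  intervalIntegral.integral_nonneg zero_le_one fun _ _ => fullInd_nonneg _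

lemma lineY_le_one {F : ℝ → ℝ → ℝ} (hF : Measurable fun q : ℝ × ℝ => F q.1 q.2) : lineY F ≤ 1 := by
  have hm : Measurable (marg F) := marg_measurable' (f := F) hF
  have hi : IntervalIntegrable (fun x => fullInd (marg F x)) volume 0 1 :=
    ii_of_bdd (fullInd_measurable.comp hm) (C := 1) fun x => by
      rw [abs_of_nonneg (fullInd_nonneg _)]
      exact fullInd_le_one _
  have h1 : lineY F ≤ ∫ _ in (0 : ℝ)..1, (1 : ℝ) :=
    intervalIntegral.integral_mono_on zero_le_one hi (by simp) fun x _ => fullInd_le_one _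
  simpa using h1

lemma lineX_le_one {F : ℝ → ℝ → ℝ} (hF : Measurable fun q : ℝ × ℝ => F q.1 q.2) : lineX F ≤ 1 := by
  have h : lineX F = lineY (fun x y => F y x) := rfl
  rw [h]
  exact lineY_le_one (hF.comp (measurable_snd.prodMk measurable_fst))

/-- The calibration conclusion with the truncated profile. -/
theorem pair_Y2 (S : Seq3 F u ux uy uz) {Per : ℝ}
    (hPer : ∀ k, energy3 (ux k) (uy k) (uz k) ≤ Per) {A B : ℝ → ℝ} (hp : CalibPair A B) {a b : ℝ}
    (hr : GoodRange (fun k x => area (u k x)) (fun x => area (F x)) a b) :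
    (∫ x in (0 : ℝ)..1, A (area (F x)) * Y2 F x) + 2 * ∫ s in a..b, B s ≤ Per := by
  have hm : Measurable (Y2 F) := by
    unfold Y2
    exact measurable_const.max ((Ju_continuous.measurable.comp S.G_meas).sub
      ((S.lineY_meas.add S.lineX_meas).const_mul 2))
  refine outer_range hp (g := fun k x => area (u k x)) (g' := fun k x => area (ux k x))
    (W := fun k => transCost (uy k) (uz k)) (Y := Y2 F)
    (fun k t => area_hasDerivAt (S.smooth k) t) (fun k => cont_area (S.smooth k).contx)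
    (fun k => area_per (S.smooth k)) S.transCost_cont (fun k t => transCost_nonneg _ _ _)
    (fun k => (S.energy_ge hp k).trans (hPer k)) S.G_meas hm
    (fun t => le_max_left _ _) (C := 2 * √2) ?_ S.ae_area_conv ?_ hr
  · intro t
    refine max_le (by positivity) ?_
    have := Ju_le_bound (area (F t))
    have := lineY_nonneg' (F t)
    have := lineX_nonneg' (F t)
    linarith
  · filter_upwards [S.ae_slice_cost] with x hx c hc
    have hc0 : 0 ≤ c := by
      obtain ⟨k, hk⟩ := hc.exists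
      exact (transCost_nonneg _ _ _).trans hk
    refine max_le hc0 ?_
    linarith [(hx c hc).2]

/-- The bound for the profile `Ju`, with the loss measured by full lines. -/
theorem pairBound_Ju (S : Seq3 F u ux uy uz) {Per : ℝ}
    (hPer : ∀ k, energy3 (ux k) (uy k) (uz k) ≤ Per) {a b : ℝ}
    (hr : GoodRange (fun k x => area (u k x)) (fun x => area (F x)) a b) :
    PairBound Ju a b (vol3 F) (Per + 2 * (full2 F + full3 F)) := by
  intro A B hp k m hline
  have h1 := S.pair_Y2 hPer hp hr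
  have hJb : ∀ x, |A (area (F x)) * Ju (area (F x))| ≤ 2 * √2 := fun x => by
    rw [abs_of_nonneg (mul_nonneg (hp.nonnegA _) (Ju_nonneg _))]
    calc A (area (F x)) * Ju (area (F x)) ≤ 1 * Ju (area (F x)) :=
          mul_le_mul_of_nonneg_right (calib_A_le_one hp _) (Ju_nonneg _)
      _ = Ju (area (F x)) := one_mul _
      _ ≤ 2 * √2 := Ju_le_bound _
  have h2 := S.line_affine hp.contA Ju Ju_continuous hJb hr.ae_mem hline
  have hmG : Measurable fun x => A (area (F x)) := hp.contA.measurable.comp S.G_meas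
  have hmY : Measurable (Y2 F) := by
    unfold Y2
    exact measurable_const.max ((Ju_continuous.measurable.comp S.G_meas).sub
      ((S.lineY_meas.add S.lineX_meas).const_mul 2))
  have hiJ : IntervalIntegrable (fun x => A (area (F x)) * Ju (area (F x))) volume 0 1 :=
    ii_of_bdd (hmG.mul (Ju_continuous.measurable.comp S.G_meas)) hJb
  have hY0 : ∀ x, 0 ≤ Y2 F x := fun x => le_max_left _ _
  have hYb : ∀ x, Y2 F x ≤ 2 * √2 := fun x => by
    refine max_le (by positivity) ?_
    have := Ju_le_bound (area (F x))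
    have := lineY_nonneg' (F x)
    have := lineX_nonneg' (F x)
    linarith
  have hiY : IntervalIntegrable (fun x => A (area (F x)) * Y2 F x) volume 0 1 :=
    ii_of_bdd (hmG.mul hmY) (C := 2 * √2) fun x => by
      rw [abs_of_nonneg (mul_nonneg (hp.nonnegA _) (hY0 x))]
      calc A (area (F x)) * Y2 F x ≤ 1 * Y2 F x :=
            mul_le_mul_of_nonneg_right (calib_A_le_one hp _) (hY0 x)
        _ = Y2 F x := one_mul _
        _ ≤ 2 * √2 := hYb x
  have hiL1 : IntervalIntegrable (fun x => lineX (F x)) volume 0 1 :=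
    ii_of_bdd S.lineX_meas (C := 1) fun x => by
      rw [abs_of_nonneg (lineX_nonneg' _)]
      exact lineX_le_one (S.slice_meas x)
  have hiL2 : IntervalIntegrable (fun x => lineY (F x)) volume 0 1 :=
    ii_of_bdd S.lineY_meas (C := 1) fun x => by
      rw [abs_of_nonneg (lineY_nonneg' _)]
      exact lineY_le_one (S.slice_meas x)
  have h3 : ∫ x in (0 : ℝ)..1, A (area (F x)) * Ju (area (F x)) ≤
      ∫ x in (0 : ℝ)..1, (A (area (F x)) * Y2 F x + 2 * (lineX (F x) + lineY (F x))) := by
    refine intervalIntegral.integral_mono_on zero_le_one hiJ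
      (hiY.add ((hiL1.add hiL2).const_mul 2)) fun x _ => ?_
    have hA0 := hp.nonnegA (area (F x))
    have hA1 := calib_A_le_one hp (area (F x))
    have hl1 := lineY_nonneg' (F x)
    have hl2 := lineX_nonneg' (F x)
    have hY : Ju (area (F x)) ≤ Y2 F x + 2 * (lineX (F x) + lineY (F x)) := by
      have : Ju (area (F x)) - 2 * (lineY (F x) + lineX (F x)) ≤ Y2 F x := le_max_right _ _
      linarith
    have := mul_le_mul_of_nonneg_left hY hA0
    have h5 : A (area (F x)) * (2 * (lineX (F x) + lineY (F x))) ≤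
        1 * (2 * (lineX (F x) + lineY (F x))) :=
      mul_le_mul_of_nonneg_right hA1 (by linarith)
    nlinarith
  have h4 : ∫ x in (0 : ℝ)..1, (A (area (F x)) * Y2 F x + 2 * (lineX (F x) + lineY (F x))) =
      (∫ x in (0 : ℝ)..1, A (area (F x)) * Y2 F x) + 2 * (full2 F + full3 F) := by
    rw [intervalIntegral.integral_add hiY ((hiL1.add hiL2).const_mul 2),
      intervalIntegral.integral_const_mul, intervalIntegral.integral_add hiL1 hiL2]
    rfl
  linarith

/-- The bound for the profile `I2`. -/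
theorem pairBound_I2 (S : Seq3 F u ux uy uz) {Per : ℝ}
    (hPer : ∀ k, energy3 (ux k) (uy k) (uz k) ≤ Per) {a b : ℝ}
    (hr : GoodRange (fun k x => area (u k x)) (fun x => area (F x)) a b) :
    PairBound I2 a b (vol3 F) Per := by
  intro A B hp k m hline
  have h1 := S.pair_I2 hPer hp hr
  have hJb : ∀ x, |A (area (F x)) * I2 (area (F x))| ≤ 2 := fun x => by
    rw [abs_of_nonneg (mul_nonneg (hp.nonnegA _) (I2_nonneg _))]
    calc A (area (F x)) * I2 (area (F x)) ≤ 1 * I2 (area (F x)) :=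
          mul_le_mul_of_nonneg_right (calib_A_le_one hp _) (I2_nonneg _)
      _ = I2 (area (F x)) := one_mul _
      _ ≤ 2 := I2_le_two _
  have h2 := S.line_affine hp.contA I2 I2_continuous hJb hr.ae_mem hline
  linarith

/-- Full lines in the first direction lie in almost every slice. -/
theorem full1_le (S : Seq3 F u ux uy uz) :
    ∀ᵐ x ∂(volume.restrict (Ioc (0 : ℝ) 1)), full1 F ≤ area (F x) := by
  set Φ : ℝ → ℝ → ℝ := fun y z => fullInd (∫ x in (0 : ℝ)..1, F x y z) with hΦ
  set H : ℝ → ℝ → ℝ → ℝ := fun x y z => Φ y z * (1 - F x y z) with hH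
  have hF0 : ∀ x y z, 0 ≤ F x y z := fun x y z => by
    rcases S.bin x y z with h | h <;> simp [h]
  have hF1 : ∀ x y z, F x y z ≤ 1 := fun x y z => by
    rcases S.bin x y z with h | h <;> simp [h]
  have hΦ0 : ∀ y z, 0 ≤ Φ y z := fun y z => fullInd_nonneg _
  have hΦ1 : ∀ y z, Φ y z ≤ 1 := fun y z => fullInd_le_one _
  have hH0 : ∀ x y z, 0 ≤ H x y z := fun x y z =>
    mul_nonneg (hΦ0 _ _) (by linarith [hF1 x y z])
  have hH1 : ∀ x y z, H x y z ≤ 1 := fun x y z => by
    have h1 : 0 ≤ 1 - F x y z := by linarith [hF1 x y z]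
    have h2 : 1 - F x y z ≤ 1 := by linarith [hF0 x y z]
    calc H x y z ≤ 1 * 1 := mul_le_mul (hΦ1 _ _) h2 h1 zero_le_one
      _ = 1 := one_mul 1
  have hΦm : Measurable fun q : ℝ × ℝ => Φ q.1 q.2 := by
    refine fullInd_measurable.comp ?_
    refine marg_measurable' (f := fun (q : ℝ × ℝ) x => F x q.1 q.2) ?_
    have : Measurable fun r : (ℝ × ℝ) × ℝ => ((r.2, r.1.1, r.1.2) : ℝ × ℝ × ℝ) := by fun_prop
    exact S.meas.comp this
  have hHm : Measurable fun p : ℝ × ℝ × ℝ => H p.1 p.2.1 p.2.2 := by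
    have h1 : Measurable fun p : ℝ × ℝ × ℝ => Φ p.2.1 p.2.2 := by
      have : Measurable fun p : ℝ × ℝ × ℝ => ((p.2.1, p.2.2) : ℝ × ℝ) := by fun_prop
      exact hΦm.comp this
    exact h1.mul (measurable_const.sub S.meas)
  -- the marginals of H
  have hH2m : Measurable fun q : ℝ × ℝ => ∫ z in (0 : ℝ)..1, H q.1 q.2 z := by
    refine marg_measurable' (f := fun (q : ℝ × ℝ) z => H q.1 q.2 z) ?_
    have : Measurable fun r : (ℝ × ℝ) × ℝ => ((r.1.1, r.1.2, r.2) : ℝ × ℝ × ℝ) := by fun_prop
    exact hHm.comp this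
  have hH20 : ∀ x y, 0 ≤ ∫ z in (0 : ℝ)..1, H x y z := fun x y =>
    intervalIntegral.integral_nonneg zero_le_one fun z _ => hH0 x y z
  have hHslice : ∀ x y, Measurable fun z => H x y z := fun x y => by
    have : Measurable fun z : ℝ => ((x, y, z) : ℝ × ℝ × ℝ) := by fun_prop
    exact hHm.comp this
  have hHii : ∀ x y, IntervalIntegrable (fun z => H x y z) volume 0 1 := fun x y =>
    ii_of_bdd (hHslice x y) (C := 1) fun z => by
      rw [abs_of_nonneg (hH0 x y z)]
      exact hH1 x y z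
  have hH21 : ∀ x y, ∫ z in (0 : ℝ)..1, H x y z ≤ 1 := fun x y => by
    have h1 : ∫ z in (0 : ℝ)..1, H x y z ≤ ∫ _ in (0 : ℝ)..1, (1 : ℝ) :=
      intervalIntegral.integral_mono_on zero_le_one (hHii x y) (by simp) fun z _ => hH1 x y z
    simpa using h1
  have hH3m : Measurable fun x => ∫ y in (0 : ℝ)..1, ∫ z in (0 : ℝ)..1, H x y z :=
    marg_measurable' (f := fun x y => ∫ z in (0 : ℝ)..1, H x y z) hH2m
  have hH30 : ∀ x, 0 ≤ ∫ y in (0 : ℝ)..1, ∫ z in (0 : ℝ)..1, H x y z := fun x =>
    intervalIntegral.integral_nonneg zero_le_one fun y _ => hH20 x y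
  have hH3ii : ∀ x, IntervalIntegrable (fun y => ∫ z in (0 : ℝ)..1, H x y z) volume 0 1 := fun x =>
    ii_of_bdd (hH2m.comp (measurable_const.prodMk measurable_id)) (C := 1) fun y => by
      rw [abs_of_nonneg (hH20 x y)]
      exact hH21 x y
  have hH31 : ∀ x, ∫ y in (0 : ℝ)..1, ∫ z in (0 : ℝ)..1, H x y z ≤ 1 := fun x => by
    have h1 : ∫ y in (0 : ℝ)..1, ∫ z in (0 : ℝ)..1, H x y z ≤ ∫ _ in (0 : ℝ)..1, (1 : ℝ) :=
      intervalIntegral.integral_mono_on zero_le_one (hH3ii x) (by simp) fun y _ => hH21 x y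
    simpa using h1
  -- zero integral along x
  have hzero : ∀ y z, ∫ x in (0 : ℝ)..1, H x y z = 0 := by
    intro y z
    have hs : Measurable fun x => F x y z := by
      have : Measurable fun x : ℝ => ((x, y, z) : ℝ × ℝ × ℝ) := by fun_prop
      exact S.meas.comp this
    have hi : IntervalIntegrable (fun x => F x y z) volume 0 1 :=
      ii_of_bdd hs (C := 1) fun x => by
        rw [abs_of_nonneg (hF0 x y z)]
        exact hF1 x y z
    simp only [hH]
    rw [intervalIntegral.integral_const_mul, intervalIntegral.integral_sub intervalIntegrable_const hi]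
    by_cases h : ∫ x in (0 : ℝ)..1, F x y z = 1
    · rw [h]; simp
    · have : Φ y z = 0 := by simp [hΦ, fullInd, h]
      rw [this]; simp
  -- Fubini
  have hfub : ∫ x in (0 : ℝ)..1, ∫ y in (0 : ℝ)..1, ∫ z in (0 : ℝ)..1, H x y z = 0 := by
    have e1 : ∫ x in (0 : ℝ)..1, ∫ y in (0 : ℝ)..1, ∫ z in (0 : ℝ)..1, H x y z =
        ∫ y in (0 : ℝ)..1, ∫ x in (0 : ℝ)..1, ∫ z in (0 : ℝ)..1, H x y z := by
      refine Seq2.square_swap (f := fun x y => ∫ z in (0 : ℝ)..1, H x y z) ?_
      refine Integrable.of_bound (C := 1) hH2m.aestronglyMeasurable ?_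
      refine Eventually.of_forall fun q => ?_
      simp only [Function.uncurry]
      rw [Real.norm_eq_abs, abs_of_nonneg (hH20 _ _)]
      exact hH21 _ _
    have e2 : ∀ y, ∫ x in (0 : ℝ)..1, ∫ z in (0 : ℝ)..1, H x y z =
        ∫ z in (0 : ℝ)..1, ∫ x in (0 : ℝ)..1, H x y z := by
      intro y
      refine Seq2.square_swap (f := fun x z => H x y z) ?_
      refine Integrable.of_bound (C := 1) ?_ ?_
      · have : Measurable fun r : ℝ × ℝ => ((r.1, y, r.2) : ℝ × ℝ × ℝ) := by fun_prop
        exact (hHm.comp this).aestronglyMeasurable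
      · refine Eventually.of_forall fun q => ?_
        simp only [Function.uncurry]
        rw [Real.norm_eq_abs, abs_of_nonneg (hH0 _ _ _)]
        exact hH1 _ _ _
    rw [e1]
    simp only [e2, hzero]
    simp
  -- almost everywhere vanishing
  have hae : ∀ᵐ x ∂(volume.restrict (Ioc (0 : ℝ) 1)),
      ∫ y in (0 : ℝ)..1, ∫ z in (0 : ℝ)..1, H x y z = 0 := by
    rw [intervalIntegral.integral_of_le zero_le_one] at hfub
    have hint : Integrable (fun x => ∫ y in (0 : ℝ)..1, ∫ z in (0 : ℝ)..1, H x y z)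
        (volume.restrict (Ioc (0 : ℝ) 1)) := by
      refine Integrable.of_bound (C := 1) hH3m.aestronglyMeasurable ?_
      refine Eventually.of_forall fun x => ?_
      rw [Real.norm_eq_abs, abs_of_nonneg (hH30 x)]
      exact hH31 x
    exact (integral_eq_zero_iff_of_nonneg_ae (Eventually.of_forall hH30) hint).1 hfub
  filter_upwards [hae] with x hx
  -- pointwise comparison of iterated integrals
  have hA2m : Measurable fun y => marg (F x) y :=
    S.meas2.comp (measurable_const.prodMk measurable_id)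
  have hA3m : Measurable fun y => ∫ z in (0 : ℝ)..1, Φ y z :=
    marg_measurable' (f := Φ) hΦm
  have hΦs : ∀ y, Measurable fun z => Φ y z := fun y =>
    hΦm.comp (measurable_const.prodMk measurable_id)
  have hΦii : ∀ y, IntervalIntegrable (fun z => Φ y z) volume 0 1 := fun y =>
    ii_of_bdd (hΦs y) (C := 1) fun z => by
      rw [abs_of_nonneg (hΦ0 y z)]
      exact hΦ1 y z
  have hFs : ∀ y, Measurable fun z => F x y z := fun y => by
    have : Measurable fun z : ℝ => ((x, y, z) : ℝ × ℝ × ℝ) := by fun_prop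
    exact S.meas.comp this
  have hFii : ∀ y, IntervalIntegrable (fun z => F x y z) volume 0 1 := fun y =>
    ii_of_bdd (hFs y) (C := 1) fun z => by
      rw [abs_of_nonneg (hF0 x y z)]
      exact hF1 x y z
  have hm0 : ∀ y, 0 ≤ marg (F x) y := fun y =>
    intervalIntegral.integral_nonneg zero_le_one fun z _ => hF0 x y z
  have hm1 : ∀ y, marg (F x) y ≤ 1 := fun y => by
    have h1 : marg (F x) y ≤ ∫ _ in (0 : ℝ)..1, (1 : ℝ) :=
      intervalIntegral.integral_mono_on zero_le_one (hFii y) (by simp) fun z _ => hF1 x y z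
    simpa using h1
  have hA2ii : IntervalIntegrable (fun y => marg (F x) y) volume 0 1 :=
    ii_of_bdd hA2m (C := 1) fun y => by
      rw [abs_of_nonneg (hm0 y)]
      exact hm1 y
  have hp0 : ∀ y, 0 ≤ ∫ z in (0 : ℝ)..1, Φ y z := fun y =>
    intervalIntegral.integral_nonneg zero_le_one fun z _ => hΦ0 y z
  have hp1 : ∀ y, ∫ z in (0 : ℝ)..1, Φ y z ≤ 1 := fun y => by
    have h1 : ∫ z in (0 : ℝ)..1, Φ y z ≤ ∫ _ in (0 : ℝ)..1, (1 : ℝ) :=
      intervalIntegral.integral_mono_on zero_le_one (hΦii y) (by simp) fun z _ => hΦ1 y z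
    simpa using h1
  have hA3ii : IntervalIntegrable (fun y => ∫ z in (0 : ℝ)..1, Φ y z) volume 0 1 :=
    ii_of_bdd hA3m (C := 1) fun y => by
      rw [abs_of_nonneg (hp0 y)]
      exact hp1 y
  have hcomp : full1 F ≤ area (F x) + ∫ y in (0 : ℝ)..1, ∫ z in (0 : ℝ)..1, H x y z := by
    have e0 : area (F x) = ∫ y in (0 : ℝ)..1, marg (F x) y := rfl
    rw [e0, ← intervalIntegral.integral_add hA2ii (hH3ii x)]
    refine intervalIntegral.integral_mono_on zero_le_one hA3ii (hA2ii.add (hH3ii x)) fun y _ => ?_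
    have e1 : marg (F x) y = ∫ z in (0 : ℝ)..1, F x y z := rfl
    rw [e1, ← intervalIntegral.integral_add (hFii y) (hHii x y)]
    refine intervalIntegral.integral_mono_on zero_le_one (hΦii y)
      ((hFii y).add (hHii x y)) fun z _ => ?_
    simp only [hH]
    nlinarith [hF0 x y z, hF1 x y z, hΦ0 y z, hΦ1 y z]
  linarith

/-- Slicing in the first coordinate direction. -/
theorem direction_x (S : Seq3 F u ux uy uz) {Per : ℝ}
    (hPer : ∀ k, energy3 (ux k) (uy k) (uz k) ≤ Per) :
    ∃ a b, 0 ≤ a ∧ a ≤ vol3 F ∧ vol3 F ≤ b ∧ b ≤ 1 ∧ full1 F ≤ a ∧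
      PairBound I2 a b (vol3 F) Per ∧
      PairBound Ju a b (vol3 F) (Per + 2 * (full2 F + full3 F)) := by
  obtain ⟨a, b, hr, hQ⟩ := exists_goodRange_Q (g := fun k x => area (u k x))
    (G := fun x => area (F x)) (fun x => (S.G_mem x).1) (fun x => (S.G_mem x).2)
    S.ae_area_conv S.full1_le
  have hV1 : a ≤ vol3 F := by
    have := integral_mono_unit (f := fun _ => a) (g := fun x => area (F x))
      intervalIntegrable_const S.G_ii (by filter_upwards [hr.ae_mem] with x hx using hx.1)
    simpa [vol3, area] using this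
  have hV2 : vol3 F ≤ b := by
    have := integral_mono_unit (g := fun _ => b) (f := fun x => area (F x))
      S.G_ii intervalIntegrable_const (by filter_upwards [hr.ae_mem] with x hx using hx.2)
    simpa [vol3, area] using this
  refine ⟨a, b, hr.nonneg, hV1, hV2, hr.le_one, ?_, S.pairBound_I2 hPer hr, S.pairBound_Ju hPer hr⟩
  refine le_of_forall_pos_le_add fun ε hε => ?_
  obtain ⟨x, h1, h2⟩ := hQ ε hε
  linarith

end Seq3

end Vale.Agent.Lib.P232
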